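import Mathlib
import Vale.Agent.P161.PathBound
import Vale.Agent.P161.Sampler
import Vale.Agent.P161.Labels
import Vale.Agent.P161.Law
import Vale.Agent.P161.Equiv

/-!
# Definitions for the endpoint `(d - 1) θ² = 1` of P161

Conventions.  `G` is a `(b+1)`-regular tree (`b ≥ 2`), labels are `om : V × ℕ → ℝ` with law
`Pu (V × ℕ)` (i.i.d. uniform on `[-1,1]`).  A *site* is a pair `e = (v, k)` (vertex, round); its order
label is `uL om e = om (v, 2k)`, its driving label is `xL om e = om (v, 2k+1)`, its strength is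
`gs (uL om e)`.  Sites are updated in the lexicographic order of `(k, uL om e)`.
Time `(k, t)`, `t ∈ [0,1]`: the sites before it are those of the rounds `< k` and those of
round `k` with `uL om e < -1 + t`.
-/

open MeasureTheory Filter Topology

namespace Vale.Agent.P161.EP

universe u

variable {V : Type u}

/-! ### Labels -/

/-- The order label of a site. -/
def uL (om : V × ℕ → ℝ) (e : V × ℕ) : ℝ := om (e.1, 2 * e.2)

/-- The driving label of a site. -/
def xL (om : V × ℕ → ℝ) (e : V × ℕ) : ℝ := om (e.1, 2 * e.2 + 1)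

/-- The strength of a site with order label `u`: `(1 + u) / 2` for `-1 ≤ u < 0`, and `0` for
`u ≥ 0`.  Always in `[0, 1/2)`. -/
noncomputable def gs (u : ℝ) : ℝ := if u < 0 then max 0 ((1 + u) / 2) else 0

/-- The rank of a site. -/
noncomputable def rkE (om : V × ℕ → ℝ) (e : V × ℕ) : ℕ ×ₗ ℝ := toLex (e.2, uL om e)

/-! ### The sampler with site dependent strengths -/

section General

variable {ι : Type*} {R : Type*} [LinearOrder R]

/-- The iterates of the map whose fixed point is the sampler with strengths `g`. -/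
noncomputable def sampIterG (μ : Measure (V → Bool)) (g : ι → ℝ) (site : ι → V) (r : ι → R)
    (S : Finset ι) (u : ι → ℝ) : ℕ → ι → ℝ
  | 0 => fun _ => 0
  | n + 1 => fun e =>
      T (g e * mag μ site (pre r S e) (fun i => g i * sampIterG μ g site r S u n i) (site e)) (u e)

/-- The sequential sampler of noisy observations with strengths `g`. -/
noncomputable def sampG (μ : Measure (V → Bool)) (g : ι → ℝ) (site : ι → V) (r : ι → R)
    (S : Finset ι) (u : ι → ℝ) : ι → ℝ :=
  sampIterG μ g site r S u (S.card + 1)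

end General

/-! ### Finite volume -/

/-- The observation at the site `e` produced by the sampler on the vertices of `D`. -/
noncomputable def sF (μ : Measure (V → Bool)) (D : Finset V) (om : V × ℕ → ℝ) (e : V × ℕ) : ℝ :=
  sampG μ (fun i => gs (uL om i)) Prod.fst (rkE om) (D ×ˢ Finset.range (e.2 + 1)) (xL om) e

/-- The observation multiplied by its strength. -/
noncomputable def cF (μ : Measure (V → Bool)) (D : Finset V) (om : V × ℕ → ℝ) (e : V × ℕ) : ℝ :=
  gs (uL om e) * sF μ D om e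

open Classical in
/-- The sites of `D` before the time `(k, t)`. -/
noncomputable def bef (om : V × ℕ → ℝ) (D : Finset V) (k : ℕ) (t : ℝ) : Finset (V × ℕ) :=
  (D ×ˢ Finset.range (k + 1)).filter (fun e => e.2 < k ∨ uL om e < -1 + t)

/-- The posterior mean of the spin at `v` at time `(k, t)`, finite volume `D`. -/
noncomputable def mF (μ : Measure (V → Bool)) (D : Finset V) (k : ℕ) (t : ℝ)
    (om : V × ℕ → ℝ) (v : V) : ℝ :=
  mag μ Prod.fst (bef om D k t) (cF μ D om) v

/-- The posterior covariance at time `(k, t)`, finite volume `D`. -/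
noncomputable def covF (μ : Measure (V → Bool)) (D : Finset V) (k : ℕ) (t : ℝ)
    (om : V × ℕ → ℝ) (v w : V) : ℝ :=
  cov μ Prod.fst (bef om D k t) (cF μ D om) v w

open Classical in
/-- The message of the dart `(x, y)` at time `(k, t)`, finite volume `D`: the posterior mean of
the spin at `y` given the observations in the part of the tree beyond `y` seen from `x`. -/
noncomputable def MF (G : SimpleGraph V) (μ : Measure (V → Bool)) (D : Finset V) (k : ℕ) (t : ℝ)
    (om : V × ℕ → ℝ) (x y : V) : ℝ :=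
  mag μ Prod.fst ((bef om D k t).filter (fun e => G.dist y e.1 < G.dist x e.1)) (cF μ D om) y

/-! ### Infinite volume -/

/-- The observations in infinite volume. -/
noncomputable def sI (G : SimpleGraph V) (μ : Measure (V → Bool)) (om : V × ℕ → ℝ)
    (e : V × ℕ) : ℝ :=
  limsup (fun n : ℕ => sF μ (ball G e.1 n) om e) atTop

/-- The posterior mean at `v` at time `(k, t)` in infinite volume. -/
noncomputable def mI (G : SimpleGraph V) (μ : Measure (V → Bool)) (k : ℕ) (t : ℝ)
    (v : V) (om : V × ℕ → ℝ) : ℝ :=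
  limsup (fun n : ℕ => mF μ (ball G v n) k t om v) atTop

/-- The cavity field `M` as a function of the posterior means `m`, `m'` at the two ends of an
edge: the solution of `Gf θ m M = m'`. -/
noncomputable def Minv (θ m m' : ℝ) : ℝ :=
  2 * (m' - θ * m) /
    ((1 - θ ^ 2) + √((1 - θ ^ 2) ^ 2 - 4 * θ * (m - θ * m') * (m' - θ * m)))

/-- The message of the dart `(x, y)` at time `(k, t)` in infinite volume. -/
noncomputable def MI (G : SimpleGraph V) (θ : ℝ) (μ : Measure (V → Bool)) (k : ℕ) (t : ℝ)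
    (x y : V) (om : V × ℕ → ℝ) : ℝ :=
  clamp (Minv θ (mI G μ k t x om) (mI G μ k t y om))

/-! ### Sums over darts, kernels -/

open Classical in
/-- The sum of `f z` over the neighbours `z` of `y` other than `x`. -/
noncomputable def nsum (G : SimpleGraph V) [G.LocallyFinite] (x y : V) (f : V → ℝ) : ℝ :=
  ∑ z ∈ G.neighborFinset y, if z = x then 0 else f z

variable (G : SimpleGraph V) [G.LocallyFinite]

/-- The level sums of the squared kernel:
`xl L n x y = ∑ (ker y w)²` over the `w` beyond `y` (seen from `x`) at distance `n` from `y`. -/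
noncomputable def xl (L : V → V → ℝ) : ℕ → V → V → ℝ
  | 0, _, _ => 1
  | n + 1, x, y => nsum G x y fun z => L y z ^ 2 * xl L n y z

/-- `X = ∑ (ker y w)²` over all `w` beyond `y` seen from `x`. -/
noncomputable def Xs (L : V → V → ℝ) (x y : V) : ℝ := ∑' n, xl G L n x y

/-- Level sums of `(k - k') k'`. -/
noncomputable def gl (L L' : V → V → ℝ) : ℕ → V → V → ℝ
  | 0, _, _ => 0
  | n + 1, x, y => nsum G x y fun z =>
      L y z * L' y z * gl L L' n y z + L' y z * (L y z - L' y z) * xl G L' n y z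

/-- `Γ = ∑ (k - k') k'`. -/
noncomputable def Gs (L L' : V → V → ℝ) (x y : V) : ℝ := ∑' n, gl G L L' n x y

/-- Level sums of `(k - k')²`. -/
noncomputable def vl (L L' : V → V → ℝ) : ℕ → V → V → ℝ
  | 0, _, _ => 0
  | n + 1, x, y => nsum G x y fun z =>
      L y z ^ 2 * vl L L' n y z + 2 * L y z * (L y z - L' y z) * gl G L L' n y z +
        (L y z - L' y z) ^ 2 * xl G L' n y z

/-- `V = ∑ (k - k')²`. -/
noncomputable def Vs (L L' : V → V → ℝ) (x y : V) : ℝ := ∑' n, vl G L L' n x y

open Classical in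
/-- The kernel by fuel. -/
noncomputable def kerN (L : V → V → ℝ) : ℕ → V → V → ℝ
  | 0, _, _ => 1
  | n + 1, v, w => ∑ z ∈ G.neighborFinset v,
      if G.dist z w < G.dist v w then L v z * kerN L n z w else 0

/-- The product of `L` along the path from `v` to `w`. -/
noncomputable def ker (L : V → V → ℝ) (v w : V) : ℝ := kerN G L (G.dist v w) v w

/-- The posterior covariance in terms of the means and the messages. -/
noncomputable def Jk (θ : ℝ) (m : V → ℝ) (M : V → V → ℝ) (v w : V) : ℝ :=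
  (1 - m v ^ 2) * ker G (fun x y => lam θ (M x y)) v w

/-- The quantity that drives the evolution of the difference of two systems. -/
noncomputable def Gt (θ θ' : ℝ) (m m' : V → ℝ) (M M' : V → V → ℝ) (v : V) : ℝ :=
  ∑' w, (8 * (Jk G θ m M v w - Jk G θ' m' M' v w) ^ 2 +
    32 * (Jk G θ' m' M' v w) ^ 2 * (m w - m' w) ^ 2)

/-! ### Invariant fields -/

/-- Means and messages of a system at a fixed time, as invariant random fields. -/
structure IsField (θ : ℝ) (m : V → (V × ℕ → ℝ) → ℝ) (M : V → V → (V × ℕ → ℝ) → ℝ) : Prop where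
  meas_m : ∀ v, Measurable (m v)
  meas_M : ∀ x y, Measurable (M x y)
  abs_m : ∀ v om, |m v om| ≤ 1
  abs_M : ∀ x y om, |M x y om| ≤ 1
  equiv_m : ∀ (g : G ≃g G) v om, m (g v) (actLab g om) = m v om
  equiv_M : ∀ (g : G ≃g G) x y om, M (g x) (g y) (actLab g om) = M x y om
  rel : ∀ᵐ om ∂(Pu (V × ℕ)), ∀ x y, G.Adj x y →
    m x om = (M y x om + θ * M x y om) / (1 + θ * M y x om * M x y om)

/-- A bounded measurable invariant family of random variables indexed by pairs of vertices. -/
structure IsFam (f : V → V → (V × ℕ → ℝ) → ℝ) : Prop where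
  meas : ∀ x y, Measurable (f x y)
  bdd : ∃ B, ∀ x y om, |f x y om| ≤ B
  equiv : ∀ (g : G ≃g G) x y om, f (g x) (g y) (actLab g om) = f x y om

/-- The non-backtracking averaging operator. -/
noncomputable def Nop (b : ℕ) (f : V → V → (V × ℕ → ℝ) → ℝ) (x y : V) (om : V × ℕ → ℝ) : ℝ :=
  (b : ℝ)⁻¹ * nsum G x y (fun z => f y z om)

/-! ### Belief propagation laws -/

/-- `½ ((1 + h) ∏ (1 + θ Mᵢ) + (1 - h) ∏ (1 - θ Mᵢ))`. -/
noncomputable def wBP (b : ℕ) (θ h : ℝ) (p : Fin b → ℝ × ℝ) : ℝ :=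
  ((1 + h) * ∏ i, (1 + θ * (p i).1) + (1 - h) * ∏ i, (1 - θ * (p i).1)) / 2

/-- `½ ((1 + h) ∏ (1 + θ Mᵢ) - (1 - h) ∏ (1 - θ Mᵢ))`. -/
noncomputable def nBP (b : ℕ) (θ h : ℝ) (p : Fin b → ℝ × ℝ) : ℝ :=
  ((1 + h) * ∏ i, (1 + θ * (p i).1) - (1 - h) * ∏ i, (1 - θ * (p i).1)) / 2

/-- `1 + ∑ (lam θ Mᵢ)² Xᵢ`. -/
noncomputable def xBP (b : ℕ) (θ : ℝ) (p : Fin b → ℝ × ℝ) : ℝ :=
  1 + ∑ i, lam θ (p i).1 ^ 2 * (p i).2

/-- `ν` (law of `(M, X)` of a dart) is a fixed point of belief propagation with own field law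
`ν0`. -/
structure IsBP (b : ℕ) (θ : ℝ) (ν0 : Measure ℝ) (ν : Measure (ℝ × ℝ)) : Prop where
  prob0 : IsProbabilityMeasure ν0
  prob : IsProbabilityMeasure ν
  bdd0 : ∀ᵐ h ∂ν0, |h| < 1
  symm0 : ν0.map (fun h => -h) = ν0
  bdd : ∀ᵐ p ∂ν, |p.1| ≤ 1 ∧ 1 ≤ p.2 ∧ p.2 ≤ 1 / (1 - b * θ ^ 2)
  symm : ν.map (fun p => (-p.1, p.2)) = ν
  fix : ∀ F : ℝ × ℝ → ℝ, Measurable F → (∃ C, ∀ p, |F p| ≤ C) →
    ∫ p, F p ∂ν = ∫ h, ∫ p, F (nBP b θ h p / wBP b θ h p, xBP b θ p) * wBP b θ h p
      ∂(Measure.pi fun _ : Fin b => ν) ∂ν0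

end Vale.Agent.P161.EP
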