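import Mathlib
import Vale.Agent.P161.EP.Defs

/-!
# Tools for belief propagation laws: one product measure `QQ`, the compact support `SS`, flips.
-/

open MeasureTheory Set

namespace Vale.Agent.P161.EP

variable {b : ℕ} {θ : ℝ} {ν0 : Measure ℝ} {ν : Measure (ℝ × ℝ)}

/-- The compact set that supports the product law. -/
def SS (b : ℕ) (K : ℝ) : Set (ℝ × (Fin b → ℝ × ℝ)) :=
  Icc (-1) 1 ×ˢ Set.pi univ (fun _ => Icc (-1) 1 ×ˢ Icc 1 K)

theorem mem_SS {K : ℝ} {q : ℝ × (Fin b → ℝ × ℝ)} :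
    q ∈ SS b K ↔ |q.1| ≤ 1 ∧ ∀ i, |(q.2 i).1| ≤ 1 ∧ 1 ≤ (q.2 i).2 ∧ (q.2 i).2 ≤ K := by
  simp only [SS, mem_prod, mem_Icc, mem_pi, mem_univ, true_imp_iff, abs_le]

theorem isCompact_SS (b : ℕ) (K : ℝ) : IsCompact (SS b K) :=
  isCompact_Icc.prod (isCompact_univ_pi fun _ => isCompact_Icc.prod isCompact_Icc)

/-- The product law of the own field and of the incoming messages. -/
noncomputable def QQ (b : ℕ) (ν0 : Measure ℝ) (ν : Measure (ℝ × ℝ)) :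
    Measure (ℝ × (Fin b → ℝ × ℝ)) :=
  ν0.prod (Measure.pi fun _ : Fin b => ν)

theorem IsBP.probQ (hν : IsBP b θ ν0 ν) : IsProbabilityMeasure (QQ b ν0 ν) := by
  have := hν.prob0
  have := hν.prob
  unfold QQ
  infer_instance

theorem IsBP.ae_SS (hν : IsBP b θ ν0 ν) : ∀ᵐ q ∂(QQ b ν0 ν), q ∈ SS b (1 / (1 - b * θ ^ 2)) := by
  have := hν.prob0
  have := hν.prob
  have h1 : ∀ᵐ q ∂(QQ b ν0 ν), |q.1| < 1 := by
    unfold QQ
    exact Measure.quasiMeasurePreserving_fst.ae hν.bdd0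
  have h2 : ∀ᵐ p ∂(Measure.pi fun _ : Fin b => ν), ∀ i, |(p i).1| ≤ 1 ∧ 1 ≤ (p i).2 ∧
      (p i).2 ≤ 1 / (1 - b * θ ^ 2) := by
    rw [ae_all_iff]
    intro i
    exact (Measure.quasiMeasurePreserving_eval (fun _ : Fin b => ν) i).ae hν.bdd
  have h3 : ∀ᵐ q ∂(QQ b ν0 ν), ∀ i, |(q.2 i).1| ≤ 1 ∧ 1 ≤ (q.2 i).2 ∧
      (q.2 i).2 ≤ 1 / (1 - b * θ ^ 2) := by
    unfold QQ
    exact Measure.quasiMeasurePreserving_snd.ae h2
  filter_upwards [h1, h3] with q h4 h5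
  exact mem_SS.2 ⟨h4.le, h5⟩

/-- Continuous functions on the support are integrable. -/
theorem IsBP.intS (hν : IsBP b θ ν0 ν) {F : ℝ × (Fin b → ℝ × ℝ) → ℝ}
    (hF : ContinuousOn F (SS b (1 / (1 - b * θ ^ 2)))) : Integrable F (QQ b ν0 ν) := by
  have := hν.probQ
  have h1 : IntegrableOn F (SS b (1 / (1 - b * θ ^ 2))) (QQ b ν0 ν) :=
    hF.integrableOn_compact (isCompact_SS _ _)
  have h2 : (QQ b ν0 ν).restrict (SS b (1 / (1 - b * θ ^ 2))) = QQ b ν0 ν :=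
    Measure.restrict_eq_self_of_ae_mem hν.ae_SS
  rw [IntegrableOn, h2] at h1
  exact h1

/-- Continuous functions on the support of `ν` are integrable. -/
theorem IsBP.intN (hν : IsBP b θ ν0 ν) {F : ℝ × ℝ → ℝ}
    (hF : ContinuousOn F (Icc (-1) 1 ×ˢ Icc 1 (1 / (1 - b * θ ^ 2)))) : Integrable F ν := by
  have := hν.prob
  have h1 : IntegrableOn F (Icc (-1) 1 ×ˢ Icc 1 (1 / (1 - b * θ ^ 2))) ν :=
    hF.integrableOn_compact (isCompact_Icc.prod isCompact_Icc)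
  have h2 : ν.restrict (Icc (-1) 1 ×ˢ Icc 1 (1 / (1 - b * θ ^ 2))) = ν := by
    refine Measure.restrict_eq_self_of_ae_mem ?_
    filter_upwards [hν.bdd] with p hp
    exact ⟨abs_le.1 hp.1, hp.2⟩
  rw [IntegrableOn, h2] at h1
  exact h1

theorem continuousOn_lam (h0 : 0 < θ) (h1 : θ < 1) {α : Type*} [TopologicalSpace α] {f : α → ℝ}
    {s : Set α} (hf : ContinuousOn f s) (hs : ∀ x ∈ s, |f x| ≤ 1) :
    ContinuousOn (fun x => lam θ (f x)) s := by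
  unfold lam
  refine ContinuousOn.div (by fun_prop) (by fun_prop) ?_
  intro x hx
  have h2 := den_pos h0.le h1 (hs x hx)
  have h3 := one_sub_sq_pos h0.le h1
  linarith

theorem continuous_coord (i : Fin b) :
    Continuous fun q : ℝ × (Fin b → ℝ × ℝ) => q.2 i := by fun_prop

theorem continuous_w : Continuous fun q : ℝ × (Fin b → ℝ × ℝ) => wBP b θ q.1 q.2 := by
  unfold wBP
  fun_prop

theorem continuous_n : Continuous fun q : ℝ × (Fin b → ℝ × ℝ) => nBP b θ q.1 q.2 := by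
  unfold nBP
  fun_prop

theorem continuousOn_x (h0 : 0 < θ) (h1 : θ < 1) (K : ℝ) :
    ContinuousOn (fun q : ℝ × (Fin b → ℝ × ℝ) => xBP b θ q.2) (SS b K) := by
  unfold xBP
  refine continuousOn_const.add (continuousOn_finsetSum _ fun i _ => ?_)
  refine ((continuousOn_lam h0 h1 ?_ ?_).pow 2).mul ?_
  · fun_prop
  · intro q hq
    exact ((mem_SS.1 hq).2 i).1
  · fun_prop

/-- The weight is positive on the support. -/
theorem w_pos_SS (h0 : 0 < θ) (h1 : θ < 1) {K : ℝ} {q : ℝ × (Fin b → ℝ × ℝ)} (hq : q ∈ SS b K) :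
    0 < wBP b θ q.1 q.2 := by
  obtain ⟨h2, h3⟩ := mem_SS.1 hq
  have h4 : ∀ i, 0 < 1 + θ * (q.2 i).1 := fun i => by
    have := (abs_le.1 (h3 i).1).1
    nlinarith
  have h5 : ∀ i, 0 < 1 - θ * (q.2 i).1 := fun i => by
    have := (abs_le.1 (h3 i).1).2
    nlinarith
  have h6 : 0 < ∏ i, (1 + θ * (q.2 i).1) := Finset.prod_pos fun i _ => h4 i
  have h7 : 0 < ∏ i, (1 - θ * (q.2 i).1) := Finset.prod_pos fun i _ => h5 i
  obtain ⟨h8, h9⟩ := abs_le.1 h2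
  unfold wBP
  rcases le_total 0 q.1 with h | h
  · have : 0 < (1 + q.1) * ∏ i, (1 + θ * (q.2 i).1) := mul_pos (by linarith) h6
    have : 0 ≤ (1 - q.1) * ∏ i, (1 - θ * (q.2 i).1) := mul_nonneg (by linarith) h7.le
    linarith
  · have : 0 ≤ (1 + q.1) * ∏ i, (1 + θ * (q.2 i).1) := mul_nonneg (by linarith) h6.le
    have : 0 < (1 - q.1) * ∏ i, (1 - θ * (q.2 i).1) := mul_pos (by linarith) h7
    linarith

theorem abs_n_le_w (h0 : 0 < θ) (h1 : θ < 1) {K : ℝ} {q : ℝ × (Fin b → ℝ × ℝ)}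
    (hq : q ∈ SS b K) : |nBP b θ q.1 q.2| ≤ wBP b θ q.1 q.2 := by
  obtain ⟨h2, h3⟩ := mem_SS.1 hq
  have h4 : ∀ i, 0 < 1 + θ * (q.2 i).1 := fun i => by
    have := (abs_le.1 (h3 i).1).1
    nlinarith
  have h5 : ∀ i, 0 < 1 - θ * (q.2 i).1 := fun i => by
    have := (abs_le.1 (h3 i).1).2
    nlinarith
  have h6 : 0 < ∏ i, (1 + θ * (q.2 i).1) := Finset.prod_pos fun i _ => h4 i
  have h7 : 0 < ∏ i, (1 - θ * (q.2 i).1) := Finset.prod_pos fun i _ => h5 i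
  obtain ⟨h8, h9⟩ := abs_le.1 h2
  have h10 : 0 ≤ (1 + q.1) * ∏ i, (1 + θ * (q.2 i).1) := mul_nonneg (by linarith) h6.le
  have h11 : 0 ≤ (1 - q.1) * ∏ i, (1 - θ * (q.2 i).1) := mul_nonneg (by linarith) h7.le
  unfold wBP nBP
  rw [abs_le]
  constructor <;> linarith

/-! ### Flips -/

/-- The flip of the message `z`. -/
def flp (z : Fin b) (q : ℝ × (Fin b → ℝ × ℝ)) : ℝ × (Fin b → ℝ × ℝ) :=
  (q.1, fun i => if i = z then (-(q.2 i).1, (q.2 i).2) else q.2 i)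

theorem flp_fst (z : Fin b) (q : ℝ × (Fin b → ℝ × ℝ)) : (flp z q).1 = q.1 := rfl

theorem flp_self (z : Fin b) (q : ℝ × (Fin b → ℝ × ℝ)) :
    (flp z q).2 z = (-(q.2 z).1, (q.2 z).2) := by simp [flp]

theorem flp_ne {z i : Fin b} (h : i ≠ z) (q : ℝ × (Fin b → ℝ × ℝ)) :
    (flp z q).2 i = q.2 i := by simp [flp, h]

theorem flp_snd (z i : Fin b) (q : ℝ × (Fin b → ℝ × ℝ)) :
    ((flp z q).2 i).2 = (q.2 i).2 := by
  by_cases h : i = z
  · subst h; simp [flp]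
  · simp [flp, h]

theorem flp_sq (z i : Fin b) (q : ℝ × (Fin b → ℝ × ℝ)) :
    ((flp z q).2 i).1 ^ 2 = (q.2 i).1 ^ 2 := by
  by_cases h : i = z
  · subst h; simp [flp]
  · simp [flp, h]

theorem x_flp (z : Fin b) (q : ℝ × (Fin b → ℝ × ℝ)) :
    xBP b θ (flp z q).2 = xBP b θ q.2 := by
  unfold xBP
  congr 1
  refine Finset.sum_congr rfl fun i _ => ?_
  rw [flp_snd]
  unfold lam
  rw [flp_sq]

theorem IsBP.mp_flp (hν : IsBP b θ ν0 ν) (z : Fin b) :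
    MeasurePreserving (flp z) (QQ b ν0 ν) (QQ b ν0 ν) := by
  have := hν.prob0
  have := hν.prob
  have h1 : MeasurePreserving (fun p : ℝ × ℝ => (-p.1, p.2)) ν ν := ⟨by fun_prop, hν.symm⟩
  have h2 : MeasurePreserving (fun (p : Fin b → ℝ × ℝ) i =>
      (if i = z then (fun p : ℝ × ℝ => (-p.1, p.2)) else id) (p i))
      (Measure.pi fun _ : Fin b => ν) (Measure.pi fun _ : Fin b => ν) := by
    refine measurePreserving_pi (fun _ => ν) (fun _ => ν)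
      (f := fun i => if i = z then (fun p : ℝ × ℝ => (-p.1, p.2)) else id) ?_
    intro i
    by_cases h : i = z
    · simp only [h, if_true]; exact h1
    · simp only [h, if_false]; exact MeasurePreserving.id ν
  have h3 := (MeasurePreserving.id ν0).prod h2
  have h4 : flp z = Prod.map (id : ℝ → ℝ) (fun (p : Fin b → ℝ × ℝ) i =>
      (if i = z then (fun p : ℝ × ℝ => (-p.1, p.2)) else id) (p i)) := by
    funext q
    unfold flp
    simp only [Prod.map]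
    refine Prod.ext rfl ?_
    funext i
    by_cases h : i = z
    · simp [h]
    · simp [h]
  rw [h4]
  exact h3

theorem IsBP.integral_flp (hν : IsBP b θ ν0 ν) (z : Fin b) {F : ℝ × (Fin b → ℝ × ℝ) → ℝ}
    (hF : ContinuousOn F (SS b (1 / (1 - b * θ ^ 2)))) :
    ∫ q, F (flp z q) ∂(QQ b ν0 ν) = ∫ q, F q ∂(QQ b ν0 ν) := by
  have h := hν.mp_flp z
  have h1 := (hν.intS hF).aestronglyMeasurable
  rw [← h.map_eq] at h1
  have := integral_map h.measurable.aemeasurable h1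
  rw [h.map_eq] at this
  exact this.symm

/-- Odd functions of the message `z` have integral zero. -/
theorem IsBP.integral_odd (hν : IsBP b θ ν0 ν) (z : Fin b) {F : ℝ × (Fin b → ℝ × ℝ) → ℝ}
    (hF : ContinuousOn F (SS b (1 / (1 - b * θ ^ 2)))) (ho : ∀ q, F (flp z q) = -F q) :
    ∫ q, F q ∂(QQ b ν0 ν) = 0 := by
  have h := hν.integral_flp z hF
  simp only [ho, integral_neg] at h
  linarith

/-- `n - θ M_z w` does not depend on the sign of `M_z`. -/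
theorem n_sub_flp (z : Fin b) (q : ℝ × (Fin b → ℝ × ℝ)) :
    nBP b θ (flp z q).1 (flp z q).2 - θ * ((flp z q).2 z).1 * wBP b θ (flp z q).1 (flp z q).2 =
      nBP b θ q.1 q.2 - θ * (q.2 z).1 * wBP b θ q.1 q.2 := by
  have key : ∀ q : ℝ × (Fin b → ℝ × ℝ),
      nBP b θ q.1 q.2 - θ * (q.2 z).1 * wBP b θ q.1 q.2 =
        (1 - θ ^ 2 * (q.2 z).1 ^ 2) * ((1 + q.1) * ∏ i ∈ Finset.univ.erase z, (1 + θ * (q.2 i).1) -
          (1 - q.1) * ∏ i ∈ Finset.univ.erase z, (1 - θ * (q.2 i).1)) / 2 := by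
    intro q
    unfold nBP wBP
    rw [← Finset.mul_prod_erase Finset.univ (fun i => 1 + θ * (q.2 i).1) (Finset.mem_univ z),
      ← Finset.mul_prod_erase Finset.univ (fun i => 1 - θ * (q.2 i).1) (Finset.mem_univ z)]
    ring
  rw [key, key, flp_sq, flp_fst]
  have h1 : ∀ s : ℝ, ∏ i ∈ Finset.univ.erase z, (1 + s * ((flp z q).2 i).1) =
      ∏ i ∈ Finset.univ.erase z, (1 + s * (q.2 i).1) := by
    intro s
    refine Finset.prod_congr rfl fun i hi => ?_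
    rw [flp_ne (Finset.ne_of_mem_erase hi)]
  have h2 : ∏ i ∈ Finset.univ.erase z, (1 - θ * ((flp z q).2 i).1) =
      ∏ i ∈ Finset.univ.erase z, (1 - θ * (q.2 i).1) := by
    refine Finset.prod_congr rfl fun i hi => ?_
    rw [flp_ne (Finset.ne_of_mem_erase hi)]
  rw [h1, h2]

/-- `w - θ M_z n` does not depend on the sign of `M_z`. -/
theorem w_sub_flp (z : Fin b) (q : ℝ × (Fin b → ℝ × ℝ)) :
    wBP b θ (flp z q).1 (flp z q).2 - θ * ((flp z q).2 z).1 * nBP b θ (flp z q).1 (flp z q).2 =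
      wBP b θ q.1 q.2 - θ * (q.2 z).1 * nBP b θ q.1 q.2 := by
  have key : ∀ q : ℝ × (Fin b → ℝ × ℝ),
      wBP b θ q.1 q.2 - θ * (q.2 z).1 * nBP b θ q.1 q.2 =
        (1 - θ ^ 2 * (q.2 z).1 ^ 2) * ((1 + q.1) * ∏ i ∈ Finset.univ.erase z, (1 + θ * (q.2 i).1) +
          (1 - q.1) * ∏ i ∈ Finset.univ.erase z, (1 - θ * (q.2 i).1)) / 2 := by
    intro q
    unfold nBP wBP
    rw [← Finset.mul_prod_erase Finset.univ (fun i => 1 + θ * (q.2 i).1) (Finset.mem_univ z),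
      ← Finset.mul_prod_erase Finset.univ (fun i => 1 - θ * (q.2 i).1) (Finset.mem_univ z)]
    ring
  rw [key, key, flp_sq, flp_fst]
  have h1 : ∀ s : ℝ, ∏ i ∈ Finset.univ.erase z, (1 + s * ((flp z q).2 i).1) =
      ∏ i ∈ Finset.univ.erase z, (1 + s * (q.2 i).1) := by
    intro s
    refine Finset.prod_congr rfl fun i hi => ?_
    rw [flp_ne (Finset.ne_of_mem_erase hi)]
  have h2 : ∏ i ∈ Finset.univ.erase z, (1 - θ * ((flp z q).2 i).1) =
      ∏ i ∈ Finset.univ.erase z, (1 - θ * (q.2 i).1) := by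
    refine Finset.prod_congr rfl fun i hi => ?_
    rw [flp_ne (Finset.ne_of_mem_erase hi)]
  rw [h1, h2]

/-- `E[n M_z F] = θ E[w M_z² F]` for `F` even in `M_z`. -/
theorem IsBP.integral_n (hν : IsBP b θ ν0 ν) (z : Fin b)
    {F : ℝ × (Fin b → ℝ × ℝ) → ℝ} (hF : ContinuousOn F (SS b (1 / (1 - b * θ ^ 2))))
    (he : ∀ q, F (flp z q) = F q) :
    ∫ q, nBP b θ q.1 q.2 * (q.2 z).1 * F q ∂(QQ b ν0 ν) =
      θ * ∫ q, wBP b θ q.1 q.2 * (q.2 z).1 ^ 2 * F q ∂(QQ b ν0 ν) := by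
  have hw := (continuous_w (b := b) (θ := θ)).continuousOn (s := SS b (1 / (1 - b * θ ^ 2)))
  have hn := (continuous_n (b := b) (θ := θ)).continuousOn (s := SS b (1 / (1 - b * θ ^ 2)))
  have hz : ContinuousOn (fun q : ℝ × (Fin b → ℝ × ℝ) => (q.2 z).1)
    (SS b (1 / (1 - b * θ ^ 2))) := by fun_prop
  have h1 := hν.integral_odd z
    (F := fun q => (nBP b θ q.1 q.2 - θ * (q.2 z).1 * wBP b θ q.1 q.2) * (q.2 z).1 * F q)
    (((hn.sub ((continuousOn_const.mul hz).mul hw)).mul hz).mul hF) (by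
      intro q
      rw [n_sub_flp, he, flp_self]
      ring)
  have h2 : Integrable (fun q => nBP b θ q.1 q.2 * (q.2 z).1 * F q) (QQ b ν0 ν) :=
    hν.intS ((hn.mul hz).mul hF)
  have h3 : Integrable (fun q => wBP b θ q.1 q.2 * (q.2 z).1 ^ 2 * F q) (QQ b ν0 ν) :=
    hν.intS ((hw.mul (hz.pow 2)).mul hF)
  have h4 : ∫ q, (nBP b θ q.1 q.2 - θ * (q.2 z).1 * wBP b θ q.1 q.2) * (q.2 z).1 * F q
      ∂(QQ b ν0 ν) = ∫ q, (nBP b θ q.1 q.2 * (q.2 z).1 * F q -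
        θ * (wBP b θ q.1 q.2 * (q.2 z).1 ^ 2 * F q)) ∂(QQ b ν0 ν) :=
    integral_congr_ae (Filter.Eventually.of_forall fun q => by ring)
  rw [h4, integral_sub h2 (h3.const_mul θ), integral_const_mul] at h1
  linarith

/-- `E[w M_z F] = θ E[n M_z² F]` for `F` even in `M_z`. -/
theorem IsBP.integral_w (hν : IsBP b θ ν0 ν) (z : Fin b)
    {F : ℝ × (Fin b → ℝ × ℝ) → ℝ} (hF : ContinuousOn F (SS b (1 / (1 - b * θ ^ 2))))
    (he : ∀ q, F (flp z q) = F q) :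
    ∫ q, wBP b θ q.1 q.2 * (q.2 z).1 * F q ∂(QQ b ν0 ν) =
      θ * ∫ q, nBP b θ q.1 q.2 * (q.2 z).1 ^ 2 * F q ∂(QQ b ν0 ν) := by
  have hw := (continuous_w (b := b) (θ := θ)).continuousOn (s := SS b (1 / (1 - b * θ ^ 2)))
  have hn := (continuous_n (b := b) (θ := θ)).continuousOn (s := SS b (1 / (1 - b * θ ^ 2)))
  have hz : ContinuousOn (fun q : ℝ × (Fin b → ℝ × ℝ) => (q.2 z).1)
    (SS b (1 / (1 - b * θ ^ 2))) := by fun_prop
  have h1 := hν.integral_odd z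
    (F := fun q => (wBP b θ q.1 q.2 - θ * (q.2 z).1 * nBP b θ q.1 q.2) * (q.2 z).1 * F q)
    (((hw.sub ((continuousOn_const.mul hz).mul hn)).mul hz).mul hF) (by
      intro q
      rw [w_sub_flp, he, flp_self]
      ring)
  have h2 : Integrable (fun q => wBP b θ q.1 q.2 * (q.2 z).1 * F q) (QQ b ν0 ν) :=
    hν.intS ((hw.mul hz).mul hF)
  have h3 : Integrable (fun q => nBP b θ q.1 q.2 * (q.2 z).1 ^ 2 * F q) (QQ b ν0 ν) :=
    hν.intS ((hn.mul (hz.pow 2)).mul hF)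
  have h4 : ∫ q, (wBP b θ q.1 q.2 - θ * (q.2 z).1 * nBP b θ q.1 q.2) * (q.2 z).1 * F q
      ∂(QQ b ν0 ν) = ∫ q, (wBP b θ q.1 q.2 * (q.2 z).1 * F q -
        θ * (nBP b θ q.1 q.2 * (q.2 z).1 ^ 2 * F q)) ∂(QQ b ν0 ν) :=
    integral_congr_ae (Filter.Eventually.of_forall fun q => by ring)
  rw [h4, integral_sub h2 (h3.const_mul θ), integral_const_mul] at h1
  linarith

/-- Iterated integrals of continuous functions are integrals for `QQ`. -/
theorem IsBP.integral_QQ (hν : IsBP b θ ν0 ν) {F : ℝ × (Fin b → ℝ × ℝ) → ℝ}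
    (hF : ContinuousOn F (SS b (1 / (1 - b * θ ^ 2)))) :
    ∫ q, F q ∂(QQ b ν0 ν) = ∫ h, ∫ p, F (h, p) ∂(Measure.pi fun _ : Fin b => ν) ∂ν0 := by
  have := hν.prob0
  have := hν.prob
  exact integral_prod F (hν.intS hF)

end Vale.Agent.P161.EP
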