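import Mathlib
import Vale.Agent.P161.EP.Defs

/-!
# Module I0 (BPbase): calculus for belief propagation laws

`E_w F = ∫∫ F · wBP`.  `wBP` is positive and `wBP = 1 + (even part)`.  Under the product law the
`(M_i, X_i)` are i.i.d. and symmetric in `M`, so for functions `g_i` even in `M`
`∫∫ (∏ g_i(p_i)) wBP = ∏ ∫ g_i` etc.
-/

open MeasureTheory

namespace Vale.Agent.P161.EP

variable {b : ℕ} {θ : ℝ} {ν0 : Measure ℝ} {ν : Measure (ℝ × ℝ)}

theorem BPbase_one_add_pos (h0 : 0 < θ) (h1 : θ < 1) {m : ℝ} (hm : |m| ≤ 1) : 0 < 1 + θ * m := by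
  have h2 := (abs_le.mp hm).1
  nlinarith

theorem BPbase_one_sub_pos (h0 : 0 < θ) (h1 : θ < 1) {m : ℝ} (hm : |m| ≤ 1) : 0 < 1 - θ * m := by
  have h2 := (abs_le.mp hm).2
  nlinarith

theorem wBP_pos (h0 : 0 < θ) (h1 : θ < 1) {h : ℝ} (hh : |h| ≤ 1) {p : Fin b → ℝ × ℝ}
    (hp : ∀ i, |(p i).1| ≤ 1) : 0 < wBP b θ h p := by
  have hA : 0 < ∏ i, (1 + θ * (p i).1) :=
    Finset.prod_pos fun i _ => BPbase_one_add_pos h0 h1 (hp i)
  have hB : 0 < ∏ i, (1 - θ * (p i).1) :=
    Finset.prod_pos fun i _ => BPbase_one_sub_pos h0 h1 (hp i)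
  have hh1 := (abs_le.mp hh).1
  have hh2 := (abs_le.mp hh).2
  unfold wBP
  apply div_pos _ two_pos
  rcases le_total 0 h with h3 | h3
  · have e1 : 0 < (1 + h) * ∏ i, (1 + θ * (p i).1) := mul_pos (by linarith) hA
    have e2 : 0 ≤ (1 - h) * ∏ i, (1 - θ * (p i).1) := mul_nonneg (by linarith) hB.le
    linarith
  · have e1 : 0 ≤ (1 + h) * ∏ i, (1 + θ * (p i).1) := mul_nonneg (by linarith) hA.le
    have e2 : 0 < (1 - h) * ∏ i, (1 - θ * (p i).1) := mul_pos (by linarith) hB
    linarith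

theorem abs_nBP_le (h0 : 0 < θ) (h1 : θ < 1) {h : ℝ} (hh : |h| ≤ 1) {p : Fin b → ℝ × ℝ}
    (hp : ∀ i, |(p i).1| ≤ 1) : |nBP b θ h p| ≤ wBP b θ h p := by
  have hA : 0 < ∏ i, (1 + θ * (p i).1) :=
    Finset.prod_pos fun i _ => BPbase_one_add_pos h0 h1 (hp i)
  have hB : 0 < ∏ i, (1 - θ * (p i).1) :=
    Finset.prod_pos fun i _ => BPbase_one_sub_pos h0 h1 (hp i)
  have hh1 := (abs_le.mp hh).1
  have hh2 := (abs_le.mp hh).2
  have e1 : 0 ≤ (1 + h) * ∏ i, (1 + θ * (p i).1) := mul_nonneg (by linarith) hA.le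
  have e2 : 0 ≤ (1 - h) * ∏ i, (1 - θ * (p i).1) := mul_nonneg (by linarith) hB.le
  unfold nBP wBP
  rw [abs_le]
  constructor <;> linarith

/-- `w² - n² = (1 - h²) ∏ (1 - θ² M_i²)`. -/
theorem wBP_sq_sub_nBP_sq (h : ℝ) (p : Fin b → ℝ × ℝ) :
    wBP b θ h p ^ 2 - nBP b θ h p ^ 2 = (1 - h ^ 2) * ∏ i, (1 - θ ^ 2 * (p i).1 ^ 2) := by
  have e : ∏ i, (1 - θ ^ 2 * (p i).1 ^ 2)
      = (∏ i, (1 + θ * (p i).1)) * ∏ i, (1 - θ * (p i).1) := by
    rw [← Finset.prod_mul_distrib]
    apply Finset.prod_congr rfl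
    intro i _
    ring
  rw [e]
  unfold wBP nBP
  ring

theorem measurable_wBP : Measurable fun q : ℝ × (Fin b → ℝ × ℝ) => wBP b θ q.1 q.2 := by
  unfold wBP
  fun_prop

theorem measurable_nBP : Measurable fun q : ℝ × (Fin b → ℝ × ℝ) => nBP b θ q.1 q.2 := by
  unfold nBP
  fun_prop

theorem measurable_xBP : Measurable fun p : Fin b → ℝ × ℝ => xBP b θ p := by
  unfold xBP lam
  fun_prop

theorem BPbase_lam_sq_le (h0 : 0 < θ) (h1 : θ < 1) {m : ℝ} (hm : |m| ≤ 1) :
    0 ≤ lam θ m ^ 2 ∧ lam θ m ^ 2 ≤ θ ^ 2 := by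
  have hm2 : m ^ 2 ≤ 1 := by
    rw [← sq_abs]
    exact pow_le_one₀ (abs_nonneg m) hm
  have hθ2 : θ ^ 2 < 1 := by nlinarith
  have hden : 0 < 1 - θ ^ 2 * m ^ 2 := by nlinarith [sq_nonneg m, sq_nonneg θ]
  have hl0 : 0 ≤ lam θ m := by
    unfold lam
    apply div_nonneg _ hden.le
    exact mul_nonneg h0.le (by linarith)
  have hl1 : lam θ m ≤ θ := by
    unfold lam
    rw [div_le_iff₀ hden]
    nlinarith [sq_nonneg m, sq_nonneg θ, mul_nonneg h0.le (sq_nonneg m)]
  exact ⟨sq_nonneg _, pow_le_pow_left₀ hl0 hl1 2⟩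

theorem BPbase_xBP_bounds (h0 : 0 < θ) (h1 : θ < 1) (hθ : b * θ ^ 2 < 1) {p : Fin b → ℝ × ℝ}
    (hp : ∀ i, |(p i).1| ≤ 1 ∧ 1 ≤ (p i).2 ∧ (p i).2 ≤ 1 / (1 - b * θ ^ 2)) :
    1 ≤ xBP b θ p ∧ xBP b θ p ≤ 1 / (1 - b * θ ^ 2) := by
  have hd : 0 < 1 - b * θ ^ 2 := by linarith
  constructor
  · unfold xBP
    have : 0 ≤ ∑ i, lam θ (p i).1 ^ 2 * (p i).2 := by
      apply Finset.sum_nonneg
      intro i _
      exact mul_nonneg (sq_nonneg _) (by linarith [(hp i).2.1])
    linarith
  · unfold xBP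
    have h2 : ∑ i, lam θ (p i).1 ^ 2 * (p i).2 ≤ ∑ _i : Fin b, θ ^ 2 * (1 / (1 - b * θ ^ 2)) := by
      apply Finset.sum_le_sum
      intro i _
      exact mul_le_mul (BPbase_lam_sq_le h0 h1 (hp i).1).2 (hp i).2.2 (by linarith [(hp i).2.1])
        (sq_nonneg _)
    rw [Finset.sum_const, Finset.card_univ, Fintype.card_fin, nsmul_eq_mul] at h2
    have h3 : (1 : ℝ) + b * (θ ^ 2 * (1 / (1 - b * θ ^ 2))) = 1 / (1 - b * θ ^ 2) := by
      field_simp
      ring
    linarith

theorem IsBP.ae_bdd_pi (hν : IsBP b θ ν0 ν) :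
    ∀ᵐ p ∂(Measure.pi fun _ : Fin b => ν),
      ∀ i, |(p i).1| ≤ 1 ∧ 1 ≤ (p i).2 ∧ (p i).2 ≤ 1 / (1 - b * θ ^ 2) := by
  have := hν.prob
  rw [ae_all_iff]
  intro i
  exact (Measure.tendsto_eval_ae_ae (μ := fun _ : Fin b => ν) (i := i)).eventually hν.bdd

/-- The fixed point equation for functions bounded almost surely. -/
theorem IsBP.fix' (hν : IsBP b θ ν0 ν) (h0 : 0 < θ) (h1 : θ < 1) (hθ : b * θ ^ 2 < 1)
    {F : ℝ × ℝ → ℝ} (hF : Measurable F)
    (hb : ∃ C, ∀ p : ℝ × ℝ, |p.1| ≤ 1 → 1 ≤ p.2 → p.2 ≤ 1 / (1 - b * θ ^ 2) → |F p| ≤ C) :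
    ∫ p, F p ∂ν = ∫ h, ∫ p, F (nBP b θ h p / wBP b θ h p, xBP b θ p) * wBP b θ h p
      ∂(Measure.pi fun _ : Fin b => ν) ∂ν0 := by
  classical
  have := hν.prob
  have := hν.prob0
  obtain ⟨C, hC⟩ := hb
  let S : Set (ℝ × ℝ) := {p | |p.1| ≤ 1 ∧ 1 ≤ p.2 ∧ p.2 ≤ 1 / (1 - b * θ ^ 2)}
  have hS : MeasurableSet S := by
    apply MeasurableSet.inter
    · exact measurableSet_le (f := fun p : ℝ × ℝ => |p.1|) (g := fun _ => (1 : ℝ))
        (by fun_prop) (by fun_prop)
    · apply MeasurableSet.inter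
      · exact measurableSet_le (f := fun _ : ℝ × ℝ => (1 : ℝ)) (g := fun p => p.2)
          (by fun_prop) (by fun_prop)
      · exact measurableSet_le (f := fun p : ℝ × ℝ => p.2)
          (g := fun _ => 1 / (1 - b * θ ^ 2)) (by fun_prop) (by fun_prop)
  have hF' : Measurable (S.indicator F) := hF.indicator hS
  have hbF' : ∃ C', ∀ p, |S.indicator F p| ≤ C' := by
    refine ⟨|C|, fun p => ?_⟩
    by_cases hp : p ∈ S
    · rw [Set.indicator_of_mem hp]
      exact le_trans (hC p hp.1 hp.2.1 hp.2.2) (le_abs_self C)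
    · rw [Set.indicator_of_notMem hp, abs_zero]
      exact abs_nonneg C
  have e1 : ∫ p, F p ∂ν = ∫ p, S.indicator F p ∂ν := by
    apply integral_congr_ae
    filter_upwards [hν.bdd] with p hp
    rw [Set.indicator_of_mem]
    exact hp
  rw [e1, hν.fix _ hF' hbF']
  apply integral_congr_ae
  filter_upwards [hν.bdd0] with h hh
  apply integral_congr_ae
  filter_upwards [hν.ae_bdd_pi] with p hp
  have hp1 : ∀ i, |(p i).1| ≤ 1 := fun i => (hp i).1
  have hw := wBP_pos h0 h1 hh.le hp1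
  have hmem : (nBP b θ h p / wBP b θ h p, xBP b θ p) ∈ S := by
    refine ⟨?_, BPbase_xBP_bounds h0 h1 hθ hp⟩
    show |nBP b θ h p / wBP b θ h p| ≤ 1
    rw [abs_div, abs_of_pos hw, div_le_one hw]
    exact abs_nBP_le h0 h1 hh.le hp1
  simp only [Set.indicator_of_mem hmem]

/-- The weight with the factors of `S` removed. -/
noncomputable def BPbase_w (b : ℕ) (θ : ℝ) (S : Finset (Fin b)) (h : ℝ) (p : Fin b → ℝ × ℝ) : ℝ :=
  ((1 + h) * ∏ i ∈ Sᶜ, (1 + θ * (p i).1) + (1 - h) * ∏ i ∈ Sᶜ, (1 - θ * (p i).1)) / 2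

theorem BPbase_flip_mp (hν : IsBP b θ ν0 ν) (i : Fin b) :
    MeasurePreserving (fun p : Fin b → ℝ × ℝ => Function.update p i (-(p i).1, (p i).2))
      (Measure.pi fun _ : Fin b => ν) (Measure.pi fun _ : Fin b => ν) := by
  have := hν.prob
  have e : (fun p : Fin b → ℝ × ℝ => Function.update p i (-(p i).1, (p i).2))
      = fun p j => (if j = i then (fun q : ℝ × ℝ => (-q.1, q.2)) else id) (p j) := by
    funext p j
    by_cases h : j = i
    · subst h
      simp
    · simp [h]
  rw [e]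
  apply measurePreserving_pi (fun _ : Fin b => ν) (fun _ : Fin b => ν)
    (f := fun j => (if j = i then (fun q : ℝ × ℝ => (-q.1, q.2)) else id))
  intro j
  by_cases h : j = i
  · simp only [h, if_true]
    exact ⟨by fun_prop, hν.symm⟩
  · simp only [h, if_false]
    exact MeasurePreserving.id ν

theorem BPbase_flip_emb (i : Fin b) :
    MeasurableEmbedding (fun p : Fin b → ℝ × ℝ => Function.update p i (-(p i).1, (p i).2)) := by
  have hm : Measurable (fun p : Fin b → ℝ × ℝ => Function.update p i (-(p i).1, (p i).2)) := by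
    rw [measurable_pi_iff]
    intro j
    by_cases h : j = i
    · subst h
      simp only [Function.update_self]
      fun_prop
    · simp only [Function.update_of_ne h]
      fun_prop
  have hinv : Function.LeftInverse
      (fun p : Fin b → ℝ × ℝ => Function.update p i (-(p i).1, (p i).2))
      (fun p : Fin b → ℝ × ℝ => Function.update p i (-(p i).1, (p i).2)) := by
    intro p
    funext j
    by_cases h : j = i
    · subst h
      simp
    · simp [h]
  let e : (Fin b → ℝ × ℝ) ≃ᵐ (Fin b → ℝ × ℝ) :=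
    { toFun := fun p => Function.update p i (-(p i).1, (p i).2)
      invFun := fun p => Function.update p i (-(p i).1, (p i).2)
      left_inv := hinv
      right_inv := hinv
      measurable_toFun := hm
      measurable_invFun := hm }
  exact e.measurableEmbedding

theorem BPbase_w_measurable (S : Finset (Fin b)) (h : ℝ) : Measurable (BPbase_w b θ S h) := by
  unfold BPbase_w
  fun_prop

theorem BPbase_w_bound (h0 : 0 < θ) (h1 : θ < 1) (S : Finset (Fin b)) (h : ℝ)
    {p : Fin b → ℝ × ℝ} (hp : ∀ i, |(p i).1| ≤ 1) :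
    |BPbase_w b θ S h p| ≤ (|1 + h| + |1 - h|) * 2 ^ b := by
  have hA : |∏ i ∈ Sᶜ, (1 + θ * (p i).1)| ≤ 2 ^ b := by
    rw [Finset.abs_prod]
    calc ∏ i ∈ Sᶜ, |1 + θ * (p i).1| ≤ ∏ i ∈ Sᶜ, (2 : ℝ) := by
          apply Finset.prod_le_prod
          · intro i _
            exact abs_nonneg _
          · intro i _
            have h2 := abs_le.mp (hp i)
            rw [abs_le]
            constructor <;> nlinarith
      _ = 2 ^ (Sᶜ).card := by rw [Finset.prod_const]
      _ ≤ 2 ^ b := by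
          apply pow_le_pow_right₀ (by norm_num)
          exact le_trans (Finset.card_le_univ _) (by simp)
  have hB : |∏ i ∈ Sᶜ, (1 - θ * (p i).1)| ≤ 2 ^ b := by
    rw [Finset.abs_prod]
    calc ∏ i ∈ Sᶜ, |1 - θ * (p i).1| ≤ ∏ i ∈ Sᶜ, (2 : ℝ) := by
          apply Finset.prod_le_prod
          · intro i _
            exact abs_nonneg _
          · intro i _
            have h2 := abs_le.mp (hp i)
            rw [abs_le]
            constructor <;> nlinarith
      _ = 2 ^ (Sᶜ).card := by rw [Finset.prod_const]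
      _ ≤ 2 ^ b := by
          apply pow_le_pow_right₀ (by norm_num)
          exact le_trans (Finset.card_le_univ _) (by simp)
  unfold BPbase_w
  rw [abs_div, abs_two]
  have h3 : |(1 + h) * ∏ i ∈ Sᶜ, (1 + θ * (p i).1) + (1 - h) * ∏ i ∈ Sᶜ, (1 - θ * (p i).1)|
      ≤ |1 + h| * 2 ^ b + |1 - h| * 2 ^ b := by
    refine le_trans (abs_add_le _ _) ?_
    rw [abs_mul, abs_mul]
    exact add_le_add (mul_le_mul_of_nonneg_left hA (abs_nonneg _))
      (mul_le_mul_of_nonneg_left hB (abs_nonneg _))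
  have h4 : 0 ≤ |1 + h| * 2 ^ b + |1 - h| * 2 ^ b := by positivity
  calc _ ≤ (|1 + h| * 2 ^ b + |1 - h| * 2 ^ b) / 2 := by
        exact div_le_div_of_nonneg_right h3 (by norm_num)
    _ ≤ |1 + h| * 2 ^ b + |1 - h| * 2 ^ b := by linarith
    _ = _ := by ring

/-- inner form of `IsBP.even` at a fixed own field -/
theorem BPbase_even_inner (hν : IsBP b θ ν0 ν) (h0 : 0 < θ) (h1 : θ < 1) (h : ℝ)
    {F : (Fin b → ℝ × ℝ) → ℝ} (hF : Measurable F)
    (he : ∀ p i, F (Function.update p i (-(p i).1, (p i).2)) = F p)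
    (hb : ∃ C, ∀ p, |F p| ≤ C) :
    ∫ p, F p * wBP b θ h p ∂(Measure.pi fun _ : Fin b => ν)
      = ∫ p, F p ∂(Measure.pi fun _ : Fin b => ν) := by
  classical
  have := hν.prob
  obtain ⟨C, hC⟩ := hb
  have hint : ∀ S : Finset (Fin b), Integrable (fun p => F p * BPbase_w b θ S h p)
      (Measure.pi fun _ : Fin b => ν) := by
    intro S
    apply Integrable.of_bound (C := |C| * ((|1 + h| + |1 - h|) * 2 ^ b))
    · exact (hF.mul (BPbase_w_measurable S h)).aestronglyMeasurable
    · filter_upwards [hν.ae_bdd_pi] with p hp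
      rw [Real.norm_eq_abs, abs_mul]
      exact mul_le_mul (le_trans (hC p) (le_abs_self C))
        (BPbase_w_bound h0 h1 S h fun i => (hp i).1) (abs_nonneg _) (abs_nonneg _)
  have key : ∀ S : Finset (Fin b), ∫ p, F p * wBP b θ h p ∂(Measure.pi fun _ : Fin b => ν)
      = ∫ p, F p * BPbase_w b θ S h p ∂(Measure.pi fun _ : Fin b => ν) := by
    intro S
    induction S using Finset.induction_on with
    | empty =>
      apply integral_congr_ae
      filter_upwards with p
      unfold BPbase_w wBP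
      simp
    | insert i S hi ih =>
      rw [ih]
      have h2 : ∫ p, F p * BPbase_w b θ S h p ∂(Measure.pi fun _ : Fin b => ν)
          = ∫ p, F p * BPbase_w b θ S h (Function.update p i (-(p i).1, (p i).2))
            ∂(Measure.pi fun _ : Fin b => ν) := by
        rw [← (BPbase_flip_mp hν i).integral_comp (BPbase_flip_emb i)
          (fun p => F p * BPbase_w b θ S h p)]
        apply integral_congr_ae
        filter_upwards with p
        simp only [he p i]
      have hint2 : Integrable (fun p => F p * BPbase_w b θ S h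
          (Function.update p i (-(p i).1, (p i).2))) (Measure.pi fun _ : Fin b => ν) := by
        have := (BPbase_flip_mp hν i).integrable_comp_of_integrable (hint S)
        refine this.congr ?_
        filter_upwards with p
        simp only [Function.comp, he p i]
      have h3 : 2 * ∫ p, F p * BPbase_w b θ S h p ∂(Measure.pi fun _ : Fin b => ν)
          = 2 * ∫ p, F p * BPbase_w b θ (insert i S) h p ∂(Measure.pi fun _ : Fin b => ν) := by
        rw [two_mul]
        nth_rewrite 2 [h2]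
        rw [← integral_add (hint S) hint2, ← integral_const_mul]
        apply integral_congr_ae
        filter_upwards with p
        rw [← mul_add]
        have hsplit : (Sᶜ : Finset (Fin b)) = insert i (insert i S)ᶜ := by
          ext j
          simp only [Finset.mem_compl, Finset.mem_insert, not_or]
          constructor
          · intro hj
            by_cases hji : j = i
            · exact Or.inl hji
            · exact Or.inr ⟨hji, hj⟩
          · rintro (hj | hj)
            · rw [hj]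
              exact hi
            · exact hj.2
        have hni : i ∉ (insert i S)ᶜ := by simp
        have hupd : ∀ c : ℝ, ∏ j ∈ (insert i S)ᶜ, (1 + c * ((Function.update p i
            (-(p i).1, (p i).2)) j).1) = ∏ j ∈ (insert i S)ᶜ, (1 + c * (p j).1) := by
          intro c
          apply Finset.prod_congr rfl
          intro j hj
          have : j ≠ i := by
            intro hji
            rw [hji] at hj
            exact hni hj
          rw [Function.update_of_ne this]
        have hupd2 : ∏ j ∈ (insert i S)ᶜ, (1 - θ * ((Function.update p i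
            (-(p i).1, (p i).2)) j).1) = ∏ j ∈ (insert i S)ᶜ, (1 - θ * (p j).1) := by
          have := hupd (-θ)
          simpa [sub_eq_add_neg] using this
        unfold BPbase_w
        rw [hsplit, Finset.prod_insert hni, Finset.prod_insert hni, Finset.prod_insert hni,
          Finset.prod_insert hni, hupd θ, hupd2, Function.update_self]
        ring
      linarith
  rw [key Finset.univ]
  apply integral_congr_ae
  filter_upwards with p
  unfold BPbase_w
  simp

/-- General even functions: the weight disappears. -/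
theorem IsBP.even (hν : IsBP b θ ν0 ν) (h0 : 0 < θ) (h1 : θ < 1)
    {F : ℝ → (Fin b → ℝ × ℝ) → ℝ}
    (hF : Measurable fun q : ℝ × (Fin b → ℝ × ℝ) => F q.1 q.2)
    (he0 : ∀ h p, F (-h) p = F h p)
    (he : ∀ h p i, F h (Function.update p i (-(p i).1, (p i).2)) = F h p)
    (hb : ∃ C, ∀ h p, |F h p| ≤ C) :
    ∫ h, ∫ p, F h p * wBP b θ h p ∂(Measure.pi fun _ : Fin b => ν) ∂ν0 =
      ∫ h, ∫ p, F h p ∂(Measure.pi fun _ : Fin b => ν) ∂ν0 := by
  obtain ⟨C, hC⟩ := hb
  apply integral_congr_ae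
  filter_upwards with h
  exact BPbase_even_inner hν h0 h1 h (hF.comp measurable_prodMk_left) (he h) ⟨C, hC h⟩

/-- Product functions, even in `M`: the weight disappears. -/
theorem IsBP.even_prod (hν : IsBP b θ ν0 ν) (h0 : 0 < θ) (h1 : θ < 1)
    {g0 : ℝ → ℝ} (hg0 : Measurable g0) (hg0' : ∀ h, g0 (-h) = g0 h) (hb0 : ∃ C, ∀ h, |g0 h| ≤ C)
    {g : Fin b → ℝ × ℝ → ℝ} (hg : ∀ i, Measurable (g i)) (he : ∀ i m x, g i (-m, x) = g i (m, x))
    (hgb : ∃ C, ∀ i p, |g i p| ≤ C) :
    ∫ h, ∫ p, (g0 h * ∏ i, g i (p i)) * wBP b θ h p ∂(Measure.pi fun _ : Fin b => ν) ∂ν0 =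
      (∫ h, g0 h ∂ν0) * ∏ i, ∫ p, g i p ∂ν := by
  have := hν.prob
  obtain ⟨C, hC⟩ := hgb
  have hmeas : Measurable (fun p : Fin b → ℝ × ℝ => ∏ i, g i (p i)) :=
    Finset.measurable_prod _ fun i _ => (hg i).comp (measurable_pi_apply i)
  rw [← integral_mul_const]
  apply integral_congr_ae
  filter_upwards with h
  have e : (fun p : Fin b → ℝ × ℝ => (g0 h * ∏ i, g i (p i)) * wBP b θ h p)
      = fun p => g0 h * ((∏ i, g i (p i)) * wBP b θ h p) := by
    funext p
    ring
  rw [e, integral_const_mul]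
  congr 1
  rw [BPbase_even_inner hν h0 h1 h hmeas ?_ ⟨|C| ^ b, ?_⟩, integral_fintype_prod_eq_prod]
  · intro p i
    apply Finset.prod_congr rfl
    intro j _
    by_cases hj : j = i
    · subst hj
      rw [Function.update_self]
      exact he j _ _
    · rw [Function.update_of_ne hj]
  · intro p
    rw [Finset.abs_prod]
    calc ∏ i, |g i (p i)| ≤ ∏ _i : Fin b, |C| := by
          apply Finset.prod_le_prod
          · intro i _
            exact abs_nonneg _
          · intro i _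
            exact le_trans (hC i _) (le_abs_self C)
      _ = |C| ^ b := by simp

end Vale.Agent.P161.EP
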