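import Mathlib
import Vale.Agent.P161.EP.BPbase
import Vale.Agent.P161.EP.BPQ

/-!
# Module I3 (BPexp): exponential moments of `X`

`φ(u) = ∫ e^{uX}`, `λ² = θ² (1 - κ)`, `(1-θ²) M² ≤ κ ≤ 2 M²`, `X_c ≤ 1 + (1/b) ∑ (1-κ_z) X_z`.
(1) `φ(b u) ≤ e^{b u} Ψ(u)^b`, `Ψ(u) = ∫ e^{u (1-κ) X}` (even product functions).
(2) convexity: `Ψ ≤ φ - ∫ κ (e^{uX} - 1)`.
(3) `∫ κ (e^{uX} - 1) ≥ c1 A (√φ - 1)`, `c1 = (1-θ²) b θ² / 2`: with `n²/w ≥ n φ₁ - w φ₁²/4`,
`φ₁ = θ ∑ M_z`, `B_m = θ² ∑ M_z² ≤ 1`: for even `G ≥ 0`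
`E_w[M_c² G] ≥ E_prod[n φ₁ G] - E_prod[w φ₁² G]/4 ≥ E_prod[B_m G]/2`; take
`G = e^{u X_c} - 1` (a product function minus 1): `E[M_z² e^{u X_c}] ≥ A e^u p^{b-1}`,
`p = ∫ e^{u λ² X}`, `φ(u) = e^u p^b`, `e^u p^{b-1} ≥ √φ`.
(4) `φ(u)^b ≤ φ(b u)` (Jensen), so `φ ≤ e^u (φ - c1 A (√φ - 1))`, i.e. `c1 A (√φ - 1) ≤ u φ`.
(5) for `u ≤ c1 A / 8` the value `φ = 4` is impossible; `φ(0) = 1`, `φ` continuous (`X` bounded).
(6) `φ(b u) ≤ e^{b u} φ(u)^b` iterated.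
-/

open MeasureTheory Set

namespace Vale.Agent.P161.EP

variable {b : ℕ} {θ : ℝ} {ν0 : Measure ℝ} {ν : Measure (ℝ × ℝ)}

/-- The support set of `ν`. -/
def S1 (K : ℝ) : Set (ℝ × ℝ) := Icc (-1) 1 ×ˢ Icc 1 K

theorem mem_S1 {K : ℝ} {p : ℝ × ℝ} : p ∈ S1 K ↔ |p.1| ≤ 1 ∧ 1 ≤ p.2 ∧ p.2 ≤ K := by
  simp only [S1, mem_prod, mem_Icc, abs_le]

theorem measurableSet_S1 (K : ℝ) : MeasurableSet (S1 K) :=
  measurableSet_Icc.prod measurableSet_Icc

theorem IsBP.ae_S1 (hν : IsBP b θ ν0 ν) : ∀ᵐ p ∂ν, p ∈ S1 (1 / (1 - b * θ ^ 2)) := by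
  filter_upwards [hν.bdd] with p hp
  exact mem_S1.2 hp

/-- Product formula for functions continuous on the support. -/
theorem IsBP.prodS (hν : IsBP b θ ν0 ν) (h0 : 0 < θ) (h1 : θ < 1)
    {g : Fin b → ℝ × ℝ → ℝ} (hg : ∀ i, ContinuousOn (g i) (S1 (1 / (1 - b * θ ^ 2))))
    (he : ∀ i m x, g i (-m, x) = g i (m, x)) :
    ∫ q, (∏ i, g i (q.2 i)) * wBP b θ q.1 q.2 ∂(QQ b ν0 ν) = ∏ i, ∫ p, g i p ∂ν := by
  have := hν.prob0
  have := hν.prob
  set K : ℝ := 1 / (1 - b * θ ^ 2) with hK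
  set g' : Fin b → ℝ × ℝ → ℝ := fun i => (S1 K).indicator (g i) with hg'
  have hcomp : IsCompact (S1 K) := isCompact_Icc.prod isCompact_Icc
  have hb : ∀ i, ∃ C, ∀ p ∈ S1 K, |g i p| ≤ C := fun i => by
    obtain ⟨C, hC⟩ := hcomp.exists_bound_of_continuousOn (hg i)
    exact ⟨C, fun p hp => by simpa [Real.norm_eq_abs] using hC p hp⟩
  choose C hC using hb
  have hb' : ∃ C', ∀ i p, |g' i p| ≤ C' := by
    refine ⟨∑ i, |C i|, fun i p => ?_⟩
    have h2 : |C i| ≤ ∑ i, |C i| :=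
      Finset.single_le_sum (f := fun i => |C i|) (fun i _ => abs_nonneg _) (Finset.mem_univ i)
    by_cases hp : p ∈ S1 K
    · simp only [hg', indicator_of_mem hp]
      exact ((hC i p hp).trans (le_abs_self _)).trans h2
    · simp only [hg', indicator_of_notMem hp, abs_zero]
      exact (abs_nonneg _).trans h2
  have hm : ∀ i, Measurable (g' i) := fun i => by
    refine measurable_of_restrict_of_restrict_compl (measurableSet_S1 K) ?_ ?_
    · have h2 : (S1 K).domRestrict (g' i) = (S1 K).domRestrict (g i) := by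
        funext p
        simp only [domRestrict_apply, hg', indicator_of_mem p.2]
      rw [h2]
      exact (continuousOn_iff_continuous_domRestrict.1 (hg i)).measurable
    · have h2 : (S1 K)ᶜ.domRestrict (g' i) = fun _ => 0 := by
        funext p
        simp only [domRestrict_apply, hg', indicator_of_notMem p.2]
      rw [h2]
      exact measurable_const
  have he' : ∀ i m x, g' i (-m, x) = g' i (m, x) := by
    intro i m x
    have h2 : ((-m, x) ∈ S1 K) ↔ ((m, x) ∈ S1 K) := by simp [mem_S1]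
    by_cases h : (m, x) ∈ S1 K
    · simp only [hg', indicator_of_mem h, indicator_of_mem (h2.2 h), he]
    · simp only [hg', indicator_of_notMem h, indicator_of_notMem (fun h' => h (h2.1 h'))]
  have h3 := hν.even_prod h0 h1 (g0 := fun _ => 1) measurable_const (fun _ => rfl) ⟨1, by simp⟩
    hm he' hb'
  simp only [one_mul, integral_const, probReal_univ, smul_eq_mul, mul_one] at h3
  have h4 : ∀ i, ∫ p, g' i p ∂ν = ∫ p, g i p ∂ν := fun i => by
    refine integral_congr_ae ?_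
    filter_upwards [hν.ae_S1] with p hp
    exact indicator_of_mem hp _
  simp only [h4] at h3
  rw [← h3, hν.integral_QQ (F := fun q => (∏ i, g i (q.2 i)) * wBP b θ q.1 q.2)
    ((continuousOn_finsetProd _ fun i _ => (hg i).comp (continuous_coord i).continuousOn
      (fun q hq => mem_S1.2 ((mem_SS.1 hq).2 i))).mul continuous_w.continuousOn)]
  refine integral_congr_ae (Filter.Eventually.of_forall fun h => ?_)
  refine integral_congr_ae ?_
  have h5 : ∀ᵐ p ∂(Measure.pi fun _ : Fin b => ν), ∀ i, p i ∈ S1 K := by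
    rw [ae_all_iff]
    intro i
    exact (Measure.quasiMeasurePreserving_eval (fun _ : Fin b => ν) i).ae hν.ae_S1
  filter_upwards [h5] with p hp
  simp only [hg']
  congr 1
  refine Finset.prod_congr rfl fun i _ => ?_
  rw [indicator_of_mem (hp i)]

/-- The fixed point equation for continuous functions. -/
theorem IsBP.fixS (hν : IsBP b θ ν0 ν) (h0 : 0 < θ) (h1 : θ < 1) (hθ : b * θ ^ 2 < 1)
    {F : ℝ × ℝ → ℝ} (hF : Continuous F) :
    ∫ p, F p ∂ν = ∫ q, F (nBP b θ q.1 q.2 / wBP b θ q.1 q.2, xBP b θ q.2) * wBP b θ q.1 q.2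
      ∂(QQ b ν0 ν) := by
  have hcomp : IsCompact (S1 (1 / (1 - b * θ ^ 2))) := isCompact_Icc.prod isCompact_Icc
  obtain ⟨C, hC⟩ := hcomp.exists_bound_of_continuousOn hF.continuousOn
  rw [hν.fix' h0 h1 hθ hF.measurable ⟨C, fun p h2 h3 h4 => by
    simpa [Real.norm_eq_abs] using hC p (mem_S1.2 ⟨h2, h3, h4⟩)⟩, hν.integral_QQ]
  refine ContinuousOn.mul ?_ continuous_w.continuousOn
  refine hF.comp_continuousOn (ContinuousOn.prodMk ?_ (continuousOn_x h0 h1 _))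
  exact continuous_n.continuousOn.div continuous_w.continuousOn fun q hq =>
    (w_pos_SS h0 h1 hq).ne'

/-- The exponential moment of `X`. -/
noncomputable def phX (ν : Measure (ℝ × ℝ)) (u : ℝ) : ℝ := ∫ p, Real.exp (u * p.2) ∂ν

/-- The exponential moment of `λ² X`. -/
noncomputable def ppX (θ : ℝ) (ν : Measure (ℝ × ℝ)) (u : ℝ) : ℝ :=
  ∫ p, Real.exp (u * (lam θ p.1 ^ 2 * p.2)) ∂ν

theorem continuousOn_lamS1 (h0 : 0 < θ) (h1 : θ < 1) (K : ℝ) :
    ContinuousOn (fun p : ℝ × ℝ => lam θ p.1) (S1 K) :=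
  continuousOn_lam h0 h1 (by fun_prop) fun p hp => (mem_S1.1 hp).1

theorem lam_neg' (θ M : ℝ) : lam θ (-M) = lam θ M := by
  unfold lam
  rw [neg_sq]

theorem exp_x (u : ℝ) (q : ℝ × (Fin b → ℝ × ℝ)) :
    Real.exp (u * xBP b θ q.2) =
      Real.exp u * ∏ i, Real.exp (u * (lam θ (q.2 i).1 ^ 2 * (q.2 i).2)) := by
  rw [← Real.exp_sum, ← Real.exp_add, ← Finset.mul_sum]
  congr 1
  unfold xBP
  ring

theorem phX_eq (hν : IsBP b θ ν0 ν) (h0 : 0 < θ) (h1 : θ < 1) (hθ : b * θ ^ 2 < 1) (u : ℝ) :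
    phX ν u = Real.exp u * ppX θ ν u ^ b := by
  have h2 := hν.fixS h0 h1 hθ (F := fun p => Real.exp (u * p.2)) (by fun_prop)
  have h3 := hν.prodS h0 h1 (g := fun _ p => Real.exp (u * (lam θ p.1 ^ 2 * p.2)))
    (fun _ => Real.continuous_exp.comp_continuousOn
      (continuousOn_const.mul (((continuousOn_lamS1 h0 h1 _).pow 2).mul (by fun_prop))))
    (fun _ m x => by simp only [lam_neg'])
  simp only [Finset.prod_const, Finset.card_univ, Fintype.card_fin] at h3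
  unfold phX ppX
  rw [h2, ← h3, ← integral_const_mul]
  refine integral_congr_ae (Filter.Eventually.of_forall fun q => ?_)
  simp only [exp_x]
  ring

theorem prodMz (hν : IsBP b θ ν0 ν) (h0 : 0 < θ) (h1 : θ < 1) (u : ℝ) (z : Fin b) :
    ∫ q, wBP b θ q.1 q.2 * (q.2 z).1 ^ 2 * Real.exp (u * xBP b θ q.2) ∂(QQ b ν0 ν) =
      Real.exp u * ((∫ p, p.1 ^ 2 * Real.exp (u * (lam θ p.1 ^ 2 * p.2)) ∂ν) *
        ppX θ ν u ^ (b - 1)) := by
  have hc : ContinuousOn (fun p : ℝ × ℝ => Real.exp (u * (lam θ p.1 ^ 2 * p.2)))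
      (S1 (1 / (1 - b * θ ^ 2))) := Real.continuous_exp.comp_continuousOn
      (continuousOn_const.mul (((continuousOn_lamS1 h0 h1 _).pow 2).mul (by fun_prop)))
  have h3 := hν.prodS h0 h1 (g := fun i p => (if i = z then p.1 ^ 2 else 1) *
      Real.exp (u * (lam θ p.1 ^ 2 * p.2)))
    (fun i => by
      refine ContinuousOn.mul ?_ hc
      by_cases h : i = z
      · simp only [h, if_true]; fun_prop
      · simp only [h, if_false]; fun_prop)
    (fun i m x => by simp only [lam_neg', neg_sq])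
  have h4 : ∏ i, ∫ p, (if i = z then p.1 ^ 2 else 1) *
      Real.exp (u * (lam θ p.1 ^ 2 * p.2)) ∂ν =
      (∫ p, p.1 ^ 2 * Real.exp (u * (lam θ p.1 ^ 2 * p.2)) ∂ν) * ppX θ ν u ^ (b - 1) := by
    rw [← Finset.mul_prod_erase Finset.univ _ (Finset.mem_univ z)]
    simp only [if_true]
    congr 1
    have h5 : ∀ i ∈ Finset.univ.erase z, (∫ p : ℝ × ℝ, (if i = z then p.1 ^ 2 else 1) *
      Real.exp (u * (lam θ p.1 ^ 2 * p.2)) ∂ν) = ppX θ ν u := by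
      intro i hi
      simp only [Finset.ne_of_mem_erase hi, if_false, one_mul]
      rfl
    rw [Finset.prod_congr rfl h5, Finset.prod_const, Finset.card_erase_of_mem (Finset.mem_univ z),
      Finset.card_univ, Fintype.card_fin]
  rw [← h4, ← h3, ← integral_const_mul]
  refine integral_congr_ae (Filter.Eventually.of_forall fun q => ?_)
  have h6 : ∏ i, (if i = z then (q.2 i).1 ^ 2 else 1) = (q.2 z).1 ^ 2 := by
    simp
  simp only [exp_x, Finset.prod_mul_distrib, h6]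
  ring

/-- `∫ w M_z M_y G ≤ [z = y] I_z + θ² I_z`. -/
theorem pair_le (hν : IsBP b θ ν0 ν) (h0 : 0 < θ) (h1 : θ < 1) (z y : Fin b)
    {F : ℝ × (Fin b → ℝ × ℝ) → ℝ} (hF : ContinuousOn F (SS b (1 / (1 - b * θ ^ 2))))
    (he : ∀ z q, F (flp z q) = F q) (hF0 : ∀ q ∈ SS b (1 / (1 - b * θ ^ 2)), 0 ≤ F q) :
    ∫ q, wBP b θ q.1 q.2 * (q.2 z).1 * (q.2 y).1 * F q ∂(QQ b ν0 ν) ≤
      (if z = y then ∫ q, wBP b θ q.1 q.2 * (q.2 z).1 ^ 2 * F q ∂(QQ b ν0 ν) else 0) +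
      θ ^ 2 * ∫ q, wBP b θ q.1 q.2 * (q.2 z).1 ^ 2 * F q ∂(QQ b ν0 ν) := by
  have hw := (continuous_w (b := b) (θ := θ)).continuousOn (s := SS b (1 / (1 - b * θ ^ 2)))
  have hn := (continuous_n (b := b) (θ := θ)).continuousOn (s := SS b (1 / (1 - b * θ ^ 2)))
  have hz : ∀ z : Fin b, ContinuousOn (fun q : ℝ × (Fin b → ℝ × ℝ) => (q.2 z).1)
    (SS b (1 / (1 - b * θ ^ 2))) := fun z => by fun_prop
  have hI : 0 ≤ ∫ q, wBP b θ q.1 q.2 * (q.2 z).1 ^ 2 * F q ∂(QQ b ν0 ν) := by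
    refine integral_nonneg_of_ae ?_
    filter_upwards [hν.ae_SS] with q hq
    exact mul_nonneg (mul_nonneg (w_pos_SS h0 h1 hq).le (sq_nonneg _)) (hF0 q hq)
  by_cases h : z = y
  · subst h
    simp only [if_true]
    have h2 : ∫ q, wBP b θ q.1 q.2 * (q.2 z).1 * (q.2 z).1 * F q ∂(QQ b ν0 ν) =
        ∫ q, wBP b θ q.1 q.2 * (q.2 z).1 ^ 2 * F q ∂(QQ b ν0 ν) :=
      integral_congr_ae (Filter.Eventually.of_forall fun q => by ring)
    rw [h2]
    have := mul_nonneg (sq_nonneg θ) hI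
    linarith
  · simp only [h, if_false, zero_add]
    have hyz : y ≠ z := fun h' => h h'.symm
    have h2 := hν.integral_w z (F := fun q => (q.2 y).1 * F q) ((hz y).mul hF) (by
      intro q
      simp only [flp_ne hyz, he])
    have h3 := hν.integral_n y (F := fun q => (q.2 z).1 ^ 2 * F q) (((hz z).pow 2).mul hF) (by
      intro q
      simp only [flp_ne h, he])
    have h4 : ∫ q, wBP b θ q.1 q.2 * (q.2 z).1 * (q.2 y).1 * F q ∂(QQ b ν0 ν) =
        ∫ q, wBP b θ q.1 q.2 * (q.2 z).1 * ((q.2 y).1 * F q) ∂(QQ b ν0 ν) :=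
      integral_congr_ae (Filter.Eventually.of_forall fun q => by ring)
    have h5 : ∫ q, nBP b θ q.1 q.2 * (q.2 z).1 ^ 2 * ((q.2 y).1 * F q) ∂(QQ b ν0 ν) =
        ∫ q, nBP b θ q.1 q.2 * (q.2 y).1 * ((q.2 z).1 ^ 2 * F q) ∂(QQ b ν0 ν) :=
      integral_congr_ae (Filter.Eventually.of_forall fun q => by ring)
    rw [h4, h2, h5, h3, ← mul_assoc, ← sq]
    refine mul_le_mul_of_nonneg_left ?_ (sq_nonneg θ)
    refine integral_mono_ae (hν.intS ((hw.mul ((hz y).pow 2)).mul (((hz z).pow 2).mul hF)))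
      (hν.intS ((hw.mul ((hz z).pow 2)).mul hF)) ?_
    filter_upwards [hν.ae_SS] with q hq
    have h6 : (q.2 y).1 ^ 2 ≤ 1 := by
      rw [sq_le_one_iff_abs_le_one]
      exact ((mem_SS.1 hq).2 y).1
    have h7 : 0 ≤ wBP b θ q.1 q.2 * (q.2 z).1 ^ 2 * F q :=
      mul_nonneg (mul_nonneg (w_pos_SS h0 h1 hq).le (sq_nonneg _)) (hF0 q hq)
    calc wBP b θ q.1 q.2 * (q.2 y).1 ^ 2 * ((q.2 z).1 ^ 2 * F q) =
        (q.2 y).1 ^ 2 * (wBP b θ q.1 q.2 * (q.2 z).1 ^ 2 * F q) := by ring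
      _ ≤ 1 * (wBP b θ q.1 q.2 * (q.2 z).1 ^ 2 * F q) := mul_le_mul_of_nonneg_right h6 h7
      _ = _ := one_mul _

/-- `E_w[M_c² F] ≥ (θ²/2) ∑_z E[w M_z² F]`. -/
theorem info_le (hν : IsBP b θ ν0 ν) (h0 : 0 < θ) (h1 : θ < 1) (hθ : b * θ ^ 2 < 1)
    {F : ℝ × (Fin b → ℝ × ℝ) → ℝ} (hF : ContinuousOn F (SS b (1 / (1 - b * θ ^ 2))))
    (he : ∀ z q, F (flp z q) = F q) (hF0 : ∀ q ∈ SS b (1 / (1 - b * θ ^ 2)), 0 ≤ F q) :
    θ ^ 2 / 2 * ∑ z, ∫ q, wBP b θ q.1 q.2 * (q.2 z).1 ^ 2 * F q ∂(QQ b ν0 ν) ≤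
      ∫ q, (nBP b θ q.1 q.2 / wBP b θ q.1 q.2) ^ 2 * F q * wBP b θ q.1 q.2 ∂(QQ b ν0 ν) := by
  have hw := (continuous_w (b := b) (θ := θ)).continuousOn (s := SS b (1 / (1 - b * θ ^ 2)))
  have hn := (continuous_n (b := b) (θ := θ)).continuousOn (s := SS b (1 / (1 - b * θ ^ 2)))
  have hz : ∀ z : Fin b, ContinuousOn (fun q : ℝ × (Fin b → ℝ × ℝ) => (q.2 z).1)
    (SS b (1 / (1 - b * θ ^ 2))) := fun z => by fun_prop
  set I : Fin b → ℝ := fun z => ∫ q, wBP b θ q.1 q.2 * (q.2 z).1 ^ 2 * F q ∂(QQ b ν0 ν) with hI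
  have hI0 : ∀ z, 0 ≤ I z := fun z => by
    refine integral_nonneg_of_ae ?_
    filter_upwards [hν.ae_SS] with q hq
    exact mul_nonneg (mul_nonneg (w_pos_SS h0 h1 hq).le (sq_nonneg _)) (hF0 q hq)
  have i1 : ∀ z, Integrable (fun q => nBP b θ q.1 q.2 * (q.2 z).1 * F q) (QQ b ν0 ν) :=
    fun z => hν.intS ((hn.mul (hz z)).mul hF)
  have i2 : ∀ z y, Integrable (fun q => wBP b θ q.1 q.2 * (q.2 z).1 * (q.2 y).1 * F q)
    (QQ b ν0 ν) := fun z y => hν.intS (((hw.mul (hz z)).mul (hz y)).mul hF)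
  have hphi : ContinuousOn (fun q : ℝ × (Fin b → ℝ × ℝ) => θ * ∑ z, (q.2 z).1)
      (SS b (1 / (1 - b * θ ^ 2))) := by fun_prop
  have i3 : Integrable (fun q => nBP b θ q.1 q.2 * (θ * ∑ z, (q.2 z).1) * F q) (QQ b ν0 ν) :=
    hν.intS ((hn.mul hphi).mul hF)
  have i4 : Integrable (fun q => wBP b θ q.1 q.2 * (θ * ∑ z, (q.2 z).1) ^ 2 * F q) (QQ b ν0 ν) :=
    hν.intS ((hw.mul (hphi.pow 2)).mul hF)
  -- the two integrals
  have hA : ∫ q, nBP b θ q.1 q.2 * (θ * ∑ z, (q.2 z).1) * F q ∂(QQ b ν0 ν) =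
      θ ^ 2 * ∑ z, I z := by
    have h2 : ∀ q : ℝ × (Fin b → ℝ × ℝ), nBP b θ q.1 q.2 * (θ * ∑ z, (q.2 z).1) * F q =
        ∑ z, θ * (nBP b θ q.1 q.2 * (q.2 z).1 * F q) := by
      intro q
      rw [← Finset.mul_sum, ← Finset.sum_mul, ← Finset.mul_sum]
      ring
    simp only [h2]
    rw [integral_finsetSum _ (fun z _ => (i1 z).const_mul θ),
      Finset.mul_sum]
    refine Finset.sum_congr rfl fun z _ => ?_
    rw [integral_const_mul, hν.integral_n z hF (he z)]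
    simp only [hI]
    ring
  have hB : ∫ q, wBP b θ q.1 q.2 * (θ * ∑ z, (q.2 z).1) ^ 2 * F q ∂(QQ b ν0 ν) ≤
      θ ^ 2 * (2 * ∑ z, I z) := by
    have h2 : ∀ q : ℝ × (Fin b → ℝ × ℝ), wBP b θ q.1 q.2 * (θ * ∑ z, (q.2 z).1) ^ 2 * F q =
        ∑ z, ∑ y, θ ^ 2 * (wBP b θ q.1 q.2 * (q.2 z).1 * (q.2 y).1 * F q) := by
      intro q
      simp only [← Finset.mul_sum, ← Finset.sum_mul]
      ring
    simp only [h2]
    rw [integral_finsetSum _ (fun z _ => integrable_finsetSum _ fun y _ =>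
      (i2 z y).const_mul (θ ^ 2))]
    have h3 : ∀ z, ∫ q, ∑ y, θ ^ 2 * (wBP b θ q.1 q.2 * (q.2 z).1 * (q.2 y).1 * F q)
        ∂(QQ b ν0 ν) ≤ θ ^ 2 * (2 * I z) := by
      intro z
      rw [integral_finsetSum _ (fun y _ => (i2 z y).const_mul (θ ^ 2))]
      simp only [integral_const_mul]
      rw [← Finset.mul_sum]
      refine mul_le_mul_of_nonneg_left ?_ (sq_nonneg θ)
      calc ∑ y, ∫ q, wBP b θ q.1 q.2 * (q.2 z).1 * (q.2 y).1 * F q ∂(QQ b ν0 ν) ≤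
          ∑ y, ((if z = y then I z else 0) + θ ^ 2 * I z) :=
            Finset.sum_le_sum fun y _ => pair_le hν h0 h1 z y hF he hF0
        _ = I z + b * θ ^ 2 * I z := by
            rw [Finset.sum_add_distrib, Finset.sum_ite_eq]
            simp only [Finset.mem_univ, if_true, Finset.sum_const, Finset.card_univ,
              Fintype.card_fin, nsmul_eq_mul]
            ring
        _ ≤ 2 * I z := by nlinarith [hI0 z]
    calc ∑ z, ∫ q, ∑ y, θ ^ 2 * (wBP b θ q.1 q.2 * (q.2 z).1 * (q.2 y).1 * F q)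
        ∂(QQ b ν0 ν) ≤ ∑ z, θ ^ 2 * (2 * I z) := Finset.sum_le_sum fun z _ => h3 z
      _ = _ := by rw [← Finset.mul_sum, ← Finset.mul_sum]
  have hnw : ContinuousOn (fun q : ℝ × (Fin b → ℝ × ℝ) =>
      nBP b θ q.1 q.2 / wBP b θ q.1 q.2) (SS b (1 / (1 - b * θ ^ 2))) :=
    hn.div hw fun q hq => (w_pos_SS h0 h1 hq).ne'
  have h8 : ∫ q, (nBP b θ q.1 q.2 * (θ * ∑ z, (q.2 z).1) * F q -
      (1 / 4) * (wBP b θ q.1 q.2 * (θ * ∑ z, (q.2 z).1) ^ 2 * F q)) ∂(QQ b ν0 ν) ≤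
      ∫ q, (nBP b θ q.1 q.2 / wBP b θ q.1 q.2) ^ 2 * F q * wBP b θ q.1 q.2 ∂(QQ b ν0 ν) := by
    refine integral_mono_ae ?_ ?_ ?_
    · exact i3.sub (i4.const_mul _)
    · exact hν.intS (((hnw.pow 2).mul hF).mul hw)
    · filter_upwards [hν.ae_SS] with q hq
      have hwp := w_pos_SS h0 h1 hq
      have hFq := hF0 q hq
      set w := wBP b θ q.1 q.2
      set n := nBP b θ q.1 q.2
      set f := θ * ∑ z, (q.2 z).1
      have h9 : 0 ≤ w * (n / w - f / 2) ^ 2 * F q :=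
        mul_nonneg (mul_nonneg hwp.le (sq_nonneg _)) hFq
      have h10 : w * (n / w - f / 2) ^ 2 * F q =
          (n / w) ^ 2 * F q * w - (n * f * F q - 1 / 4 * (w * f ^ 2 * F q)) := by
        field_simp
        ring
      linarith
  rw [integral_sub i3 (i4.const_mul _), integral_const_mul, hA] at h8
  have : θ ^ 2 / 2 * ∑ z, I z ≤ θ ^ 2 * ∑ z, I z - 1 / 4 * (θ ^ 2 * (2 * ∑ z, I z)) := by
    linarith
  linarith

theorem one_le_ppX (hν : IsBP b θ ν0 ν) (h0 : 0 < θ) (h1 : θ < 1) {u : ℝ} (hu : 0 ≤ u) :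
    1 ≤ ppX θ ν u := by
  have := hν.prob
  have h2 : ∫ _p, (1 : ℝ) ∂ν ≤ ppX θ ν u := by
    refine integral_mono_ae (integrable_const _) (hν.intN (Real.continuous_exp.comp_continuousOn
      (continuousOn_const.mul (((continuousOn_lamS1 h0 h1 _).pow 2).mul (by fun_prop))))) ?_
    filter_upwards [hν.bdd] with p hp
    have h3 : 0 ≤ u * (lam θ p.1 ^ 2 * p.2) :=
      mul_nonneg hu (mul_nonneg (sq_nonneg _) (by linarith [hp.2.1]))
    exact Real.one_le_exp h3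
  simpa using h2

theorem ppX_zero (hν : IsBP b θ ν0 ν) : ppX θ ν 0 = 1 := by
  have := hν.prob
  simp [ppX]

/-- `D = ∫ M² (e^{uX} - 1)`. -/
noncomputable def DX (ν : Measure (ℝ × ℝ)) (u : ℝ) : ℝ :=
  ∫ p, p.1 ^ 2 * (Real.exp (u * p.2) - 1) ∂ν

theorem DX_ge (hν : IsBP b θ ν0 ν) (hb : 2 ≤ b) (h0 : 0 < θ) (h1 : θ < 1) (hθ : b * θ ^ 2 < 1)
    {u : ℝ} (hu : 0 ≤ u) :
    (b * θ ^ 2) / 2 * (∫ p, p.1 ^ 2 ∂ν) * (√(phX ν u) - 1) ≤ DX ν u := by
  have := hν.prob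
  have := hν.probQ
  have hx := continuousOn_x (b := b) h0 h1 (1 / (1 - b * θ ^ 2))
  have hw := (continuous_w (b := b) (θ := θ)).continuousOn (s := SS b (1 / (1 - b * θ ^ 2)))
  have hz : ∀ z : Fin b, ContinuousOn (fun q : ℝ × (Fin b → ℝ × ℝ) => (q.2 z).1)
    (SS b (1 / (1 - b * θ ^ 2))) := fun z => by fun_prop
  have hx1 : ∀ q ∈ SS b (1 / (1 - b * θ ^ 2)), 1 ≤ xBP b θ q.2 := by
    intro q hq
    unfold xBP
    have : 0 ≤ ∑ i, lam θ (q.2 i).1 ^ 2 * (q.2 i).2 :=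
      Finset.sum_nonneg fun i _ => mul_nonneg (sq_nonneg _) (by linarith [((mem_SS.1 hq).2 i).2.1])
    linarith
  set A : ℝ := ∫ p, p.1 ^ 2 ∂ν with hA
  have hA0 : 0 ≤ A := integral_nonneg fun p => sq_nonneg _
  have hex : ContinuousOn (fun q : ℝ × (Fin b → ℝ × ℝ) => Real.exp (u * xBP b θ q.2))
      (SS b (1 / (1 - b * θ ^ 2))) := Real.continuous_exp.comp_continuousOn
      (continuousOn_const.mul hx)
  -- the fixed point equation
  have h2 : DX ν u = ∫ q, (nBP b θ q.1 q.2 / wBP b θ q.1 q.2) ^ 2 *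
      (Real.exp (u * xBP b θ q.2) - 1) * wBP b θ q.1 q.2 ∂(QQ b ν0 ν) :=
    hν.fixS h0 h1 hθ (F := fun p => p.1 ^ 2 * (Real.exp (u * p.2) - 1)) (by fun_prop)
  have h3 := info_le hν h0 h1 hθ (F := fun q => Real.exp (u * xBP b θ q.2) - 1)
    (hex.sub continuousOn_const) (fun z q => by simp only [x_flp]) (fun q hq => by
      have := Real.one_le_exp (mul_nonneg hu (by linarith [hx1 q hq] : (0:ℝ) ≤ xBP b θ q.2))
      linarith)
  rw [← h2] at h3
  have hp1 := one_le_ppX hν h0 h1 hu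
  -- the integrals
  have h4 : ∀ z : Fin b, A * (Real.exp u * ppX θ ν u ^ (b - 1)) - A ≤
      ∫ q, wBP b θ q.1 q.2 * (q.2 z).1 ^ 2 * (Real.exp (u * xBP b θ q.2) - 1) ∂(QQ b ν0 ν) := by
    intro z
    have i1 : Integrable (fun q => wBP b θ q.1 q.2 * (q.2 z).1 ^ 2 * Real.exp (u * xBP b θ q.2))
      (QQ b ν0 ν) := hν.intS ((hw.mul ((hz z).pow 2)).mul hex)
    have i2 : Integrable (fun q => wBP b θ q.1 q.2 * (q.2 z).1 ^ 2)
      (QQ b ν0 ν) := hν.intS (hw.mul ((hz z).pow 2))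
    have h5 : ∫ q, wBP b θ q.1 q.2 * (q.2 z).1 ^ 2 * (Real.exp (u * xBP b θ q.2) - 1)
        ∂(QQ b ν0 ν) = ∫ q, (wBP b θ q.1 q.2 * (q.2 z).1 ^ 2 * Real.exp (u * xBP b θ q.2) -
          wBP b θ q.1 q.2 * (q.2 z).1 ^ 2) ∂(QQ b ν0 ν) :=
      integral_congr_ae (Filter.Eventually.of_forall fun q => by ring)
    have h6 : ∫ q, wBP b θ q.1 q.2 * (q.2 z).1 ^ 2 ∂(QQ b ν0 ν) = A := by
      have h7 := prodMz hν h0 h1 0 z
      simp only [zero_mul, Real.exp_zero, mul_one, one_mul, ppX_zero hν, one_pow] at h7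
      exact h7
    rw [h5, integral_sub i1 i2, h6, prodMz hν h0 h1 u z]
    have h8 : A ≤ ∫ p, p.1 ^ 2 * Real.exp (u * (lam θ p.1 ^ 2 * p.2)) ∂ν := by
      refine integral_mono_ae (hν.intN (by fun_prop)) (hν.intN (ContinuousOn.mul (by fun_prop)
        (Real.continuous_exp.comp_continuousOn
        (continuousOn_const.mul (((continuousOn_lamS1 h0 h1 _).pow 2).mul (by fun_prop)))))) ?_
      filter_upwards [hν.bdd] with p hp
      have h3 : 0 ≤ u * (lam θ p.1 ^ 2 * p.2) :=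
        mul_nonneg hu (mul_nonneg (sq_nonneg _) (by linarith [hp.2.1]))
      have h9 := Real.one_le_exp h3
      have := mul_le_mul_of_nonneg_left h9 (sq_nonneg p.1)
      linarith
    have h10 : 0 ≤ ppX θ ν u ^ (b - 1) := by positivity
    have h11 : A * (Real.exp u * ppX θ ν u ^ (b - 1)) ≤ Real.exp u *
        ((∫ p, p.1 ^ 2 * Real.exp (u * (lam θ p.1 ^ 2 * p.2)) ∂ν) * ppX θ ν u ^ (b - 1)) := by
      have := mul_le_mul_of_nonneg_right h8 (mul_nonneg (Real.exp_pos u).le h10)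
      calc _ ≤ _ := this
        _ = _ := by ring
    linarith
  -- the square root
  have h12 : √(phX ν u) ≤ Real.exp u * ppX θ ν u ^ (b - 1) := by
    rw [phX_eq hν h0 h1 hθ u]
    refine Real.sqrt_le_iff.2 ⟨by positivity, ?_⟩
    have h13 : (Real.exp u * ppX θ ν u ^ (b - 1)) ^ 2 =
        Real.exp u * Real.exp u * ppX θ ν u ^ ((b - 1) * 2) := by
      rw [mul_pow, ← pow_mul]; ring
    rw [h13]
    have h14 : ppX θ ν u ^ b ≤ ppX θ ν u ^ ((b - 1) * 2) := pow_le_pow_right₀ hp1 (by omega)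
    have h15 : 1 ≤ Real.exp u := Real.one_le_exp hu
    have h16 : Real.exp u * 1 ≤ Real.exp u * Real.exp u :=
      mul_le_mul_of_nonneg_left h15 (Real.exp_pos u).le
    have h17 : 0 ≤ ppX θ ν u ^ b := by positivity
    calc Real.exp u * ppX θ ν u ^ b ≤ Real.exp u * Real.exp u * ppX θ ν u ^ b := by
          refine mul_le_mul_of_nonneg_right (by linarith) h17
      _ ≤ _ := mul_le_mul_of_nonneg_left h14 (by positivity)
  have h18 : A * (√(phX ν u) - 1) * b ≤ ∑ z : Fin b, ∫ q, wBP b θ q.1 q.2 * (q.2 z).1 ^ 2 *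
      (Real.exp (u * xBP b θ q.2) - 1) ∂(QQ b ν0 ν) := by
    have h19 : ∑ z : Fin b, (A * (√(phX ν u) - 1)) ≤ ∑ z : Fin b,
        ∫ q, wBP b θ q.1 q.2 * (q.2 z).1 ^ 2 * (Real.exp (u * xBP b θ q.2) - 1) ∂(QQ b ν0 ν) := by
      refine Finset.sum_le_sum fun z _ => le_trans ?_ (h4 z)
      have := mul_le_mul_of_nonneg_left h12 hA0
      linarith
    simp only [Finset.sum_const, Finset.card_univ, Fintype.card_fin, nsmul_eq_mul] at h19
    linarith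
  have h20 : 0 ≤ θ ^ 2 / 2 := by positivity
  have h21 := mul_le_mul_of_nonneg_left h18 h20
  calc (b * θ ^ 2) / 2 * A * (√(phX ν u) - 1) = θ ^ 2 / 2 * (A * (√(phX ν u) - 1) * b) := by ring
    _ ≤ _ := h21.trans h3

theorem lam_sq_le {M : ℝ} (h0 : 0 < θ) (h1 : θ < 1) (hθ : b * θ ^ 2 < 1) (hM : |M| ≤ 1) :
    b * lam θ M ^ 2 ≤ 1 - (1 - θ ^ 2) * M ^ 2 := by
  have h2 := den_pos h0.le h1 hM
  have h3 := one_sub_sq_pos h0.le h1
  have hM2 : M ^ 2 ≤ 1 := by rw [sq_le_one_iff_abs_le_one]; exact hM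
  have hM0 : 0 ≤ M ^ 2 := sq_nonneg M
  have hd : 0 < 1 - θ ^ 2 * M ^ 2 := by linarith
  set r := (1 - M ^ 2) / (1 - θ ^ 2 * M ^ 2) with hr
  have hr0 : 0 ≤ r := div_nonneg (by linarith) hd.le
  have hr2 : r ≤ 1 - (1 - θ ^ 2) * M ^ 2 := by
    rw [hr, div_le_iff₀ hd]
    have : 0 ≤ (1 - θ ^ 2) * θ ^ 2 * (M ^ 2) ^ 2 := by positivity
    nlinarith
  have hr1 : r ≤ 1 := by
    have := mul_nonneg h3.le hM0
    linarith
  have h4 : lam θ M = θ * r := by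
    rw [hr]; unfold lam; ring
  rw [h4]
  have h5 : r ^ 2 ≤ r := by nlinarith
  calc b * (θ * r) ^ 2 = (b * θ ^ 2) * r ^ 2 := by ring
    _ ≤ 1 * r ^ 2 := mul_le_mul_of_nonneg_right hθ.le (sq_nonneg r)
    _ ≤ _ := by linarith

theorem ppX_le (hν : IsBP b θ ν0 ν) (h0 : 0 < θ) (h1 : θ < 1) (hθ : b * θ ^ 2 < 1)
    {u : ℝ} (hu : 0 ≤ u) :
    ppX θ ν (b * u) ≤ phX ν u - (1 - θ ^ 2) * DX ν u := by
  have := hν.prob
  have i1 : Integrable (fun p : ℝ × ℝ => Real.exp (u * p.2)) ν := hν.intN (by fun_prop)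
  have i2 : Integrable (fun p : ℝ × ℝ => p.1 ^ 2 * (Real.exp (u * p.2) - 1)) ν :=
    hν.intN (by fun_prop)
  unfold ppX phX DX
  rw [← integral_const_mul, ← integral_sub i1 (i2.const_mul _)]
  refine integral_mono_ae (hν.intN (Real.continuous_exp.comp_continuousOn
      (continuousOn_const.mul (((continuousOn_lamS1 h0 h1 _).pow 2).mul (by fun_prop)))))
      (i1.sub (i2.const_mul _)) ?_
  filter_upwards [hν.bdd] with p hp
  have h2 := lam_sq_le (b := b) h0 h1 hθ hp.1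
  have h3 := one_sub_sq_pos h0.le h1
  have hM2 : p.1 ^ 2 ≤ 1 := by rw [sq_le_one_iff_abs_le_one]; exact hp.1
  set s := (1 - θ ^ 2) * p.1 ^ 2 with hs
  have hs0 : 0 ≤ s := mul_nonneg h3.le (sq_nonneg _)
  have hs1 : s ≤ 1 := by nlinarith [sq_nonneg θ, sq_nonneg p.1]
  have h4 : Real.exp (b * u * (lam θ p.1 ^ 2 * p.2)) ≤ Real.exp ((1 - s) * (u * p.2)) := by
    refine Real.exp_le_exp.2 ?_
    have h5 : 0 ≤ u * p.2 := mul_nonneg hu (by linarith [hp.2.1])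
    calc b * u * (lam θ p.1 ^ 2 * p.2) = (b * lam θ p.1 ^ 2) * (u * p.2) := by ring
      _ ≤ (1 - s) * (u * p.2) := mul_le_mul_of_nonneg_right h2 h5
  have h6 := convexOn_exp.2 (mem_univ (u * p.2)) (mem_univ (0 : ℝ)) (by linarith : (0:ℝ) ≤ 1 - s)
    hs0 (by ring)
  simp only [smul_eq_mul, mul_zero, add_zero, Real.exp_zero, mul_one] at h6
  calc Real.exp (b * u * (lam θ p.1 ^ 2 * p.2)) ≤ _ := h4
    _ ≤ (1 - s) * Real.exp (u * p.2) + s := h6
    _ = Real.exp (u * p.2) - (1 - θ ^ 2) * (p.1 ^ 2 * (Real.exp (u * p.2) - 1)) := by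
        rw [hs]; ring

theorem phX_nonneg (ν : Measure (ℝ × ℝ)) (u : ℝ) : 0 ≤ phX ν u :=
  integral_nonneg fun _ => (Real.exp_pos _).le

theorem one_le_phX (hν : IsBP b θ ν0 ν) {u : ℝ} (hu : 0 ≤ u) : 1 ≤ phX ν u := by
  have := hν.prob
  have h2 : ∫ _p, (1 : ℝ) ∂ν ≤ phX ν u := by
    refine integral_mono_ae (integrable_const _) (hν.intN (by fun_prop)) ?_
    filter_upwards [hν.bdd] with p hp
    exact Real.one_le_exp (mul_nonneg hu (by linarith [hp.2.1]))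
  simpa using h2

theorem jensen_phX (hν : IsBP b θ ν0 ν) (u : ℝ) : phX ν u ^ b ≤ phX ν (b * u) := by
  have := hν.prob
  have h2 := (convexOn_pow b).map_integral_le (μ := ν) (f := fun p : ℝ × ℝ => Real.exp (u * p.2))
    (by fun_prop) isClosed_Ici (Filter.Eventually.of_forall fun p => (Real.exp_pos _).le)
    (hν.intN (by fun_prop)) (hν.intN (by
      show ContinuousOn (fun p : ℝ × ℝ => Real.exp (u * p.2) ^ b) _
      fun_prop))
  calc phX ν u ^ b ≤ ∫ p, Real.exp (u * p.2) ^ b ∂ν := h2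
    _ = phX ν (b * u) := by
      unfold phX
      refine integral_congr_ae (Filter.Eventually.of_forall fun p => ?_)
      simp only
      rw [← Real.exp_nat_mul]
      congr 1
      ring

/-- The self bounding inequality. -/
theorem phX_key (hν : IsBP b θ ν0 ν) (hb : 2 ≤ b) (h0 : 0 < θ) (h1 : θ < 1)
    (hθ : b * θ ^ 2 < 1) {u : ℝ} (hu : 0 ≤ u) :
    (1 - θ ^ 2) * (b * θ ^ 2) / 2 * (∫ p, p.1 ^ 2 ∂ν) * (√(phX ν u) - 1) ≤ u * phX ν u := by
  have h2 := jensen_phX hν u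
  have h3 := ppX_le hν h0 h1 hθ hu
  have hbu : (0:ℝ) ≤ b * u := mul_nonneg (Nat.cast_nonneg b) hu
  have h4 := one_le_ppX hν h0 h1 hbu
  have h5 : phX ν u ^ b ≤ (Real.exp u * ppX θ ν (b * u)) ^ b := by
    rw [phX_eq hν h0 h1 hθ (b * u), Real.exp_nat_mul, ← mul_pow] at h2
    exact h2
  have h6 : phX ν u ≤ Real.exp u * ppX θ ν (b * u) :=
    le_of_pow_le_pow_left₀ (by omega) (by positivity) h5
  have h7 : phX ν u ≤ Real.exp u * (phX ν u - (1 - θ ^ 2) * DX ν u) :=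
    h6.trans (mul_le_mul_of_nonneg_left h3 (Real.exp_pos u).le)
  have h8 : Real.exp (-u) * phX ν u ≤ phX ν u - (1 - θ ^ 2) * DX ν u := by
    have := mul_le_mul_of_nonneg_left h7 (Real.exp_pos (-u)).le
    rwa [← mul_assoc, ← Real.exp_add, neg_add_cancel, Real.exp_zero, one_mul] at this
  have h9 : 1 - u ≤ Real.exp (-u) := by
    have := Real.add_one_le_exp (-u)
    linarith
  have h10 : (1 - θ ^ 2) * DX ν u ≤ u * phX ν u := by
    have := mul_le_mul_of_nonneg_right h9 (phX_nonneg ν u)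
    linarith
  have h11 := mul_le_mul_of_nonneg_left (DX_ge hν hb h0 h1 hθ hu) (one_sub_sq_pos h0.le h1).le
  calc (1 - θ ^ 2) * (b * θ ^ 2) / 2 * (∫ p, p.1 ^ 2 ∂ν) * (√(phX ν u) - 1) =
      (1 - θ ^ 2) * ((b * θ ^ 2) / 2 * (∫ p, p.1 ^ 2 ∂ν) * (√(phX ν u) - 1)) := by ring
    _ ≤ _ := h11.trans h10

theorem continuousOn_phX (hν : IsBP b θ ν0 ν) {u : ℝ} :
    ContinuousOn (fun s => phX ν s) (Icc 0 u) := by
  have := hν.prob
  unfold phX
  refine continuousOn_of_dominated (bound := fun p => Real.exp (u * p.2)) ?_ ?_ ?_ ?_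
  · intro s _
    exact (hν.intN (F := fun p => Real.exp (s * p.2)) (by fun_prop)).aestronglyMeasurable
  · intro s hs
    filter_upwards [hν.bdd] with p hp
    rw [Real.norm_eq_abs, abs_of_pos (Real.exp_pos _)]
    refine Real.exp_le_exp.2 (mul_le_mul_of_nonneg_right hs.2 (by linarith [hp.2.1]))
  · exact hν.intN (by fun_prop)
  · exact Filter.Eventually.of_forall fun p => by fun_prop

theorem bp_exp (hν : IsBP b θ ν0 ν) (hb : 2 ≤ b) (h0 : 0 < θ) (h1 : θ < 1)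
    (hθ : b * θ ^ 2 < 1) {u : ℝ} (hu0 : 0 ≤ u)
    (hu : u ≤ (1 - θ ^ 2) * (b * θ ^ 2) * (∫ p, p.1 ^ 2 ∂ν) / 16) :
    ∫ p, Real.exp (u * p.2) ∂ν ≤ 4 := by
  have := hν.prob
  by_contra hcon
  push Not at hcon
  have h2 : phX ν 0 = 1 := by simp [phX]
  have h3 : (4 : ℝ) ∈ Icc (phX ν 0) (phX ν u) := ⟨by rw [h2]; norm_num, hcon.le⟩
  obtain ⟨s, hs, hs4⟩ := intermediate_value_Icc hu0 (continuousOn_phX hν) h3
  have h4 := phX_key hν hb h0 h1 hθ hs.1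
  have h5 : √(phX ν s) = 2 := by
    simp only at hs4
    rw [hs4, show (4:ℝ) = 2 ^ 2 by norm_num]
    exact Real.sqrt_sq (by norm_num)
  simp only at hs4
  rw [h5, hs4] at h4
  have h6 := hs.2
  have h7 : u ≤ 0 := by linarith
  have h8 : u = 0 := le_antisymm h7 hu0
  subst h8
  have : phX ν 0 = ∫ p, Real.exp (0 * p.2) ∂ν := rfl
  rw [← this, h2] at hcon
  linarith

theorem bp_exp_iter (hν : IsBP b θ ν0 ν) (hb : 2 ≤ b) (h0 : 0 < θ) (h1 : θ < 1)
    (hθ : b * θ ^ 2 < 1) {u : ℝ} (hu0 : 0 ≤ u)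
    (hu : u ≤ (1 - θ ^ 2) * (b * θ ^ 2) * (∫ p, p.1 ^ 2 ∂ν) / 16) (j : ℕ) :
    ∫ p, Real.exp ((b : ℝ) ^ j * u * p.2) ∂ν ≤ Real.exp ((b : ℝ) ^ j * (j * u + 2)) := by
  have := hν.prob
  have h2 : ∀ s : ℝ, 0 ≤ s → phX ν (b * s) ≤ Real.exp (b * s) * phX ν s ^ b := by
    intro s hs
    rw [phX_eq hν h0 h1 hθ (b * s)]
    refine mul_le_mul_of_nonneg_left ?_ (Real.exp_pos _).le
    have hbu : (0:ℝ) ≤ b * s := mul_nonneg (Nat.cast_nonneg b) hs
    have h4 := one_le_ppX hν h0 h1 hbu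
    refine pow_le_pow_left₀ (by linarith) ?_ b
    have h5 := ppX_le hν h0 h1 hθ hs
    have h6 : 0 ≤ DX ν s := by
      refine integral_nonneg_of_ae ?_
      filter_upwards [hν.bdd] with p hp
      have := Real.one_le_exp (mul_nonneg hs (by linarith [hp.2.1] : (0:ℝ) ≤ p.2))
      exact mul_nonneg (sq_nonneg _) (by linarith)
    have := mul_nonneg (one_sub_sq_pos h0.le h1).le h6
    linarith
  have h3 : ∀ j : ℕ, phX ν ((b : ℝ) ^ j * u) ≤ Real.exp ((b : ℝ) ^ j * (j * u + 2)) := by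
    intro j
    induction j with
    | zero =>
      have h4 := bp_exp hν hb h0 h1 hθ hu0 hu
      have h5 : (4 : ℝ) ≤ Real.exp 2 := by
        have := Real.add_one_le_exp (1 : ℝ)
        have h6 : Real.exp 2 = Real.exp 1 * Real.exp 1 := by
          rw [← Real.exp_add]; norm_num
        nlinarith
      simp only [pow_zero, one_mul, Nat.cast_zero, zero_mul, zero_add]
      exact h4.trans h5
    | succ j ih =>
      have h4 := h2 ((b : ℝ) ^ j * u) (by positivity)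
      have h5 : phX ν ((b : ℝ) ^ j * u) ^ b ≤ Real.exp ((b : ℝ) ^ j * (j * u + 2)) ^ b :=
        pow_le_pow_left₀ (phX_nonneg _ _) ih b
      calc phX ν ((b : ℝ) ^ (j + 1) * u) = phX ν (b * ((b : ℝ) ^ j * u)) := by ring_nf
        _ ≤ Real.exp (b * ((b : ℝ) ^ j * u)) * phX ν ((b : ℝ) ^ j * u) ^ b := h4
        _ ≤ Real.exp (b * ((b : ℝ) ^ j * u)) * Real.exp ((b : ℝ) ^ j * (j * u + 2)) ^ b :=
          mul_le_mul_of_nonneg_left h5 (Real.exp_pos _).le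
        _ = Real.exp ((b : ℝ) ^ (j + 1) * ((j + 1 : ℕ) * u + 2)) := by
          rw [← Real.exp_nat_mul, ← Real.exp_add]
          congr 1
          push_cast
          ring
  exact h3 j

end Vale.Agent.P161.EP
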