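import Mathlib
import Vale.Agent.P161.EP.BPbase

/-!
# Module I2 (BPgauss): sub-Gaussian bound of the message

(two channels) for `|p|, |q| ≤ 1`, `1 ± p q > 0`:
`(1+pq) cosh(s (p+q)/(1+pq)) + (1-pq) cosh(s (p-q)/(1-pq)) ≤ 2 cosh(s p) cosh(s q)`.
Proof: power series in `s`; for `k ≥ 1` need
`(p+q)^{2k} (1+pq)^{1-2k} + (p-q)^{2k} (1-pq)^{1-2k} ≤ (p+q)^{2k} + (p-q)^{2k}`.  With `x = p q ≥ 0`
wlog, `D = (p-q)² ≤ (1-x)²`, `(p+q)² = D + 4x`: `(D/(D+4x))^k ≤ ((1-x)/(1+x))^{2k}` and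
`(1+x)^{2k} + (1-x)^{2k} ≥ 2`.
(iteration) adding a channel `u`: `w' = w + n u`, `n' = n + w u`, `p = n/w`, average over the sign
of `u`:  `E_u[w' cosh(s n'/w')] ≤ w cosh(s n/w) E cosh(s u)`.  Hence `bp_cosh`.
(gauss) `L(s) = log ∫ cosh(s M)`: `L(s) ≤ s² t²/8 + b L(θ s)`; `L(s) ≤ A s²` for `|s| ≤ 1`; iterate
until `θ^k s ≤ 1`: `L(s) ≤ A s² + k s² t²/8`; only `|s| ≤ 1/v` is needed (else `L(s) ≤ |s|`), there
`k ≤ C (1 + log(1/v))` and `t² = v^{4/3}`.
-/

open MeasureTheory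

namespace Vale.Agent.P161.EP

variable {b : ℕ} {θ : ℝ} {ν0 : Measure ℝ} {ν : Measure (ℝ × ℝ)}

theorem BPgauss_coef {x a d : ℝ} (k : ℕ) (hx : 0 ≤ x) (hx1 : x < 1) (hd : 0 ≤ d)
    (had : a = d + 4 * x) (hd1 : d ≤ (1 - x) ^ 2) (hk : 1 ≤ k) :
    (1 + x) * (a ^ k / (1 + x) ^ (2 * k)) + (1 - x) * (d ^ k / (1 - x) ^ (2 * k))
      ≤ a ^ k + d ^ k := by
  have ha : 0 ≤ a := by rw [had]; linarith
  have hP : 0 < (1 + x) ^ (2 * k) := pow_pos (by linarith) _
  have hM : 0 < (1 - x) ^ (2 * k) := pow_pos (by linarith) _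
  have key1 : d ^ k * (1 + x) ^ (2 * k) ≤ a ^ k * (1 - x) ^ (2 * k) := by
    rw [pow_mul, pow_mul, ← mul_pow, ← mul_pow]
    apply pow_le_pow_left₀ (by positivity)
    rw [had]
    nlinarith
  have key2 : 2 ≤ (1 + x) ^ (2 * k) + (1 - x) ^ (2 * k) := by
    have h1 := one_add_mul_le_pow (a := x) (by linarith) (2 * k)
    have h2 := one_add_mul_le_pow (a := -x) (by linarith) (2 * k)
    have e : 1 + -x = 1 - x := by ring
    rw [e] at h2
    push_cast at h1 h2
    linarith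
  have hP1 : 1 + x ≤ (1 + x) ^ (2 * k) := by
    calc 1 + x = (1 + x) ^ 1 := (pow_one _).symm
      _ ≤ (1 + x) ^ (2 * k) := pow_le_pow_right₀ (by linarith) (by omega)
  have h3 : 0 ≤ a ^ k * (1 - x) ^ (2 * k) * ((1 + x) ^ (2 * k) - (1 + x))
      + d ^ k * (1 + x) ^ (2 * k) * ((1 - x) ^ (2 * k) - (1 - x)) := by
    have h4 : d ^ k * (1 + x) ^ (2 * k) * ((1 + x) ^ (2 * k) - (1 + x))
        ≤ a ^ k * (1 - x) ^ (2 * k) * ((1 + x) ^ (2 * k) - (1 + x)) :=
      mul_le_mul_of_nonneg_right key1 (by linarith)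
    have h5 : 0 ≤ d ^ k * (1 + x) ^ (2 * k) * ((1 + x) ^ (2 * k) + (1 - x) ^ (2 * k) - 2) := by
      apply mul_nonneg (by positivity)
      linarith
    nlinarith
  rw [mul_div_assoc', mul_div_assoc', div_add_div _ _ (ne_of_gt hP) (ne_of_gt hM),
    div_le_iff₀ (mul_pos hP hM)]
  nlinarith

theorem BPgauss_two_aux {p q s : ℝ} (hp : |p| ≤ 1) (hq : |q| ≤ 1) (hx : 0 ≤ p * q)
    (hx1 : p * q < 1) :
    (1 + p * q) * Real.cosh (s * ((p + q) / (1 + p * q))) +
      (1 - p * q) * Real.cosh (s * ((p - q) / (1 - p * q))) ≤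
      2 * (Real.cosh (s * p) * Real.cosh (s * q)) := by
  have hR : 2 * (Real.cosh (s * p) * Real.cosh (s * q))
      = Real.cosh (s * (p + q)) + Real.cosh (s * (p - q)) := by
    rw [mul_add, mul_sub, Real.cosh_add, Real.cosh_sub]
    ring
  rw [hR]
  have hp2 : p ^ 2 ≤ 1 := by
    rw [← sq_abs]
    exact pow_le_one₀ (abs_nonneg p) hp
  have hq2 : q ^ 2 ≤ 1 := by
    rw [← sq_abs]
    exact pow_le_one₀ (abs_nonneg q) hq
  have hsL := ((Real.hasSum_cosh (s * ((p + q) / (1 + p * q)))).mul_left (1 + p * q)).add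
    ((Real.hasSum_cosh (s * ((p - q) / (1 - p * q)))).mul_left (1 - p * q))
  have hsR := (Real.hasSum_cosh (s * (p + q))).add (Real.hasSum_cosh (s * (p - q)))
  refine hasSum_le (fun k => ?_) hsL hsR
  have hfac : (0 : ℝ) < ((2 * k).factorial : ℝ) := by exact_mod_cast Nat.factorial_pos _
  have hs : 0 ≤ s ^ (2 * k) / ((2 * k).factorial : ℝ) := by
    rw [pow_mul]
    positivity
  have e1 : (1 + p * q) * ((s * ((p + q) / (1 + p * q))) ^ (2 * k) / ((2 * k).factorial : ℝ))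
      + (1 - p * q) * ((s * ((p - q) / (1 - p * q))) ^ (2 * k) / ((2 * k).factorial : ℝ))
      = s ^ (2 * k) / ((2 * k).factorial : ℝ) *
        ((1 + p * q) * (((p + q) ^ 2) ^ k / (1 + p * q) ^ (2 * k))
          + (1 - p * q) * (((p - q) ^ 2) ^ k / (1 - p * q) ^ (2 * k))) := by
    rw [mul_pow, mul_pow, div_pow, div_pow, ← pow_mul, ← pow_mul]
    ring
  have e2 : (s * (p + q)) ^ (2 * k) / ((2 * k).factorial : ℝ)
      + (s * (p - q)) ^ (2 * k) / ((2 * k).factorial : ℝ)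
      = s ^ (2 * k) / ((2 * k).factorial : ℝ) * (((p + q) ^ 2) ^ k + ((p - q) ^ 2) ^ k) := by
    rw [mul_pow, mul_pow, ← pow_mul, ← pow_mul]
    ring
  rw [e1, e2]
  apply mul_le_mul_of_nonneg_left _ hs
  rcases Nat.eq_zero_or_pos k with hk | hk
  · subst hk
    simp
  · apply BPgauss_coef k hx hx1 (sq_nonneg _) (by ring) _ hk
    nlinarith [mul_nonneg (sub_nonneg.mpr hp2) (sub_nonneg.mpr hq2)]

/-- the two channel inequality -/
theorem BPgauss_two {p q s : ℝ} (hp : |p| ≤ 1) (hq : |q| ≤ 1) (hx : |p * q| < 1) :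
    (1 + p * q) * Real.cosh (s * ((p + q) / (1 + p * q))) +
      (1 - p * q) * Real.cosh (s * ((p - q) / (1 - p * q))) ≤
      2 * (Real.cosh (s * p) * Real.cosh (s * q)) := by
  rcases le_total 0 (p * q) with h | h
  · exact BPgauss_two_aux hp hq h (lt_of_le_of_lt (le_abs_self _) hx)
  · have h1 : 0 ≤ p * -q := by linarith
    have h2 : p * -q < 1 := by
      have := neg_le_abs (p * q)
      linarith
    have h3 := BPgauss_two_aux (s := s) hp (by rwa [abs_neg] : |-q| ≤ 1) h1 h2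
    have e1 : 1 + p * -q = 1 - p * q := by ring
    have e2 : 1 - p * -q = 1 + p * q := by ring
    have e3 : p + -q = p - q := by ring
    have e4 : p - -q = p + q := by ring
    have e5 : Real.cosh (s * -q) = Real.cosh (s * q) := by
      rw [mul_neg, Real.cosh_neg]
    rw [e1, e2, e3, e4, e5] at h3
    linarith

/-- homogeneous form: one more channel `u` added to `(w, n)` -/
theorem BPgauss_step {w n u s : ℝ} (hw : 0 < w) (hn : |n| ≤ w) (hu : |u| < 1) :
    (w + n * u) * Real.cosh (s * ((n + w * u) / (w + n * u))) +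
      (w - n * u) * Real.cosh (s * ((n - w * u) / (w - n * u))) ≤
      2 * (w * Real.cosh (s * (n / w)) * Real.cosh (s * u)) := by
  have hp : |n / w| ≤ 1 := by
    rw [abs_div, abs_of_pos hw, div_le_one hw]
    exact hn
  have hx : |n / w * u| < 1 := by
    rw [abs_mul]
    calc |n / w| * |u| ≤ 1 * |u| := mul_le_mul_of_nonneg_right hp (abs_nonneg _)
      _ < 1 := by rw [one_mul]; exact hu
  have h1 := BPgauss_two (s := s) hp hu.le hx
  have hw' : w ≠ 0 := ne_of_gt hw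
  have e1 : w + n * u = w * (1 + n / w * u) := by field_simp
  have e2 : w - n * u = w * (1 - n / w * u) := by field_simp
  have e3 : n + w * u = w * (n / w + u) := by field_simp
  have e4 : n - w * u = w * (n / w - u) := by field_simp
  rw [e1, e2, e3, e4, mul_div_mul_left _ _ hw', mul_div_mul_left _ _ hw']
  have h2 := mul_le_mul_of_nonneg_left h1 hw.le
  nlinarith

/-- The signed weight with the factors of `S` removed. -/
noncomputable def BPgauss_n (b : ℕ) (θ : ℝ) (S : Finset (Fin b)) (h : ℝ) (p : Fin b → ℝ × ℝ) : ℝ :=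
  ((1 + h) * ∏ i ∈ Sᶜ, (1 + θ * (p i).1) - (1 - h) * ∏ i ∈ Sᶜ, (1 - θ * (p i).1)) / 2

theorem BPgauss_n_measurable (S : Finset (Fin b)) (h : ℝ) : Measurable (BPgauss_n b θ S h) := by
  unfold BPgauss_n
  fun_prop

theorem BPgauss_w_pos (h0 : 0 < θ) (h1 : θ < 1) {h : ℝ} (hh : |h| ≤ 1) (S : Finset (Fin b))
    {p : Fin b → ℝ × ℝ} (hp : ∀ i, |(p i).1| ≤ 1) :
    0 < BPbase_w b θ S h p ∧ |BPgauss_n b θ S h p| ≤ BPbase_w b θ S h p := by
  have hA : 0 < ∏ i ∈ Sᶜ, (1 + θ * (p i).1) :=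
    Finset.prod_pos fun i _ => BPbase_one_add_pos h0 h1 (hp i)
  have hB : 0 < ∏ i ∈ Sᶜ, (1 - θ * (p i).1) :=
    Finset.prod_pos fun i _ => BPbase_one_sub_pos h0 h1 (hp i)
  have hh1 := (abs_le.mp hh).1
  have hh2 := (abs_le.mp hh).2
  constructor
  · unfold BPbase_w
    apply div_pos _ two_pos
    rcases le_total 0 h with h3 | h3
    · have e1 : 0 < (1 + h) * ∏ i ∈ Sᶜ, (1 + θ * (p i).1) := mul_pos (by linarith) hA
      have e2 : 0 ≤ (1 - h) * ∏ i ∈ Sᶜ, (1 - θ * (p i).1) := mul_nonneg (by linarith) hB.le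
      linarith
    · have e1 : 0 ≤ (1 + h) * ∏ i ∈ Sᶜ, (1 + θ * (p i).1) := mul_nonneg (by linarith) hA.le
      have e2 : 0 < (1 - h) * ∏ i ∈ Sᶜ, (1 - θ * (p i).1) := mul_pos (by linarith) hB
      linarith
  · have e1 : 0 ≤ (1 + h) * ∏ i ∈ Sᶜ, (1 + θ * (p i).1) := mul_nonneg (by linarith) hA.le
    have e2 : 0 ≤ (1 - h) * ∏ i ∈ Sᶜ, (1 - θ * (p i).1) := mul_nonneg (by linarith) hB.le
    unfold BPgauss_n BPbase_w
    rw [abs_le]
    constructor <;> linarith

theorem BPgauss_insert {S : Finset (Fin b)} {i : Fin b} (hi : i ∉ S) (h : ℝ)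
    (p : Fin b → ℝ × ℝ) :
    BPbase_w b θ S h p = BPbase_w b θ (insert i S) h p
        + BPgauss_n b θ (insert i S) h p * (θ * (p i).1) ∧
    BPgauss_n b θ S h p = BPgauss_n b θ (insert i S) h p
        + BPbase_w b θ (insert i S) h p * (θ * (p i).1) := by
  have hsplit : (Sᶜ : Finset (Fin b)) = insert i (insert i S)ᶜ := by
    ext j
    simp only [Finset.mem_compl, Finset.mem_insert, not_or]
    constructor
    · intro hj
      by_cases hji : j = i
      · exact Or.inl hji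
      · exact Or.inr ⟨hji, hj⟩
    · rintro (hj | hj)
      · rw [hj]
        exact hi
      · exact hj.2
  have hni : i ∉ (insert i S)ᶜ := by simp
  unfold BPbase_w BPgauss_n
  rw [hsplit, Finset.prod_insert hni, Finset.prod_insert hni]
  constructor <;> ring

theorem BPgauss_flip {S : Finset (Fin b)} {i : Fin b} (hi : i ∈ S) (h : ℝ)
    (p : Fin b → ℝ × ℝ) :
    BPbase_w b θ S h (Function.update p i (-(p i).1, (p i).2)) = BPbase_w b θ S h p ∧
    BPgauss_n b θ S h (Function.update p i (-(p i).1, (p i).2)) = BPgauss_n b θ S h p := by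
  have hne : ∀ j ∈ Sᶜ, j ≠ i := by
    intro j hj hji
    rw [hji] at hj
    exact (Finset.mem_compl.mp hj) hi
  have e1 : ∏ j ∈ Sᶜ, (1 + θ * ((Function.update p i (-(p i).1, (p i).2)) j).1)
      = ∏ j ∈ Sᶜ, (1 + θ * (p j).1) := by
    apply Finset.prod_congr rfl
    intro j hj
    rw [Function.update_of_ne (hne j hj)]
  have e2 : ∏ j ∈ Sᶜ, (1 - θ * ((Function.update p i (-(p i).1, (p i).2)) j).1)
      = ∏ j ∈ Sᶜ, (1 - θ * (p j).1) := by
    apply Finset.prod_congr rfl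
    intro j hj
    rw [Function.update_of_ne (hne j hj)]
  unfold BPbase_w BPgauss_n
  rw [e1, e2]
  exact ⟨rfl, rfl⟩

/-- the interpolating integrand -/
noncomputable def BPgauss_G (b : ℕ) (θ s : ℝ) (S : Finset (Fin b)) (h : ℝ)
    (p : Fin b → ℝ × ℝ) : ℝ :=
  BPbase_w b θ S h p * Real.cosh (s * (BPgauss_n b θ S h p / BPbase_w b θ S h p)) *
    ∏ i ∈ S, Real.cosh (s * (θ * (p i).1))

theorem BPgauss_G_measurable (s : ℝ) (S : Finset (Fin b)) (h : ℝ) :
    Measurable (BPgauss_G b θ s S h) := by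
  unfold BPgauss_G
  have h1 := BPbase_w_measurable (θ := θ) S h
  have h2 := BPgauss_n_measurable (θ := θ) S h
  have h3 : Measurable fun p : Fin b → ℝ × ℝ => ∏ i ∈ S, Real.cosh (s * (θ * (p i).1)) := by
    apply Finset.measurable_prod
    intro i _
    exact Real.continuous_cosh.measurable.comp (by fun_prop)
  exact (h1.mul (Real.continuous_cosh.measurable.comp ((h2.div h1).const_mul s))).mul h3

theorem BPgauss_cosh_le {s y : ℝ} (hy : |y| ≤ 1) : Real.cosh (s * y) ≤ Real.cosh s := by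
  rw [Real.cosh_le_cosh, abs_mul]
  calc |s| * |y| ≤ |s| * 1 := mul_le_mul_of_nonneg_left hy (abs_nonneg _)
    _ = |s| := mul_one _

theorem BPgauss_G_bound (h0 : 0 < θ) (h1 : θ < 1) (s : ℝ) {h : ℝ} (hh : |h| ≤ 1)
    (S : Finset (Fin b)) {p : Fin b → ℝ × ℝ} (hp : ∀ i, |(p i).1| ≤ 1) :
    |BPgauss_G b θ s S h p| ≤ ((|1 + h| + |1 - h|) * 2 ^ b) * Real.cosh s * Real.cosh s ^ b := by
  obtain ⟨hw, hn⟩ := BPgauss_w_pos h0 h1 hh S hp
  have hc1 : (1 : ℝ) ≤ Real.cosh s := Real.one_le_cosh s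
  unfold BPgauss_G
  rw [abs_mul, abs_mul]
  have a1 := BPbase_w_bound h0 h1 S h hp
  have a2 : |Real.cosh (s * (BPgauss_n b θ S h p / BPbase_w b θ S h p))| ≤ Real.cosh s := by
    rw [abs_of_pos (Real.cosh_pos _)]
    apply BPgauss_cosh_le
    rw [abs_div, abs_of_pos hw, div_le_one hw]
    exact hn
  have a3 : |∏ i ∈ S, Real.cosh (s * (θ * (p i).1))| ≤ Real.cosh s ^ b := by
    rw [Finset.abs_prod]
    calc ∏ i ∈ S, |Real.cosh (s * (θ * (p i).1))| ≤ ∏ i ∈ S, Real.cosh s := by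
          apply Finset.prod_le_prod
          · intro i _
            exact abs_nonneg _
          · intro i _
            rw [abs_of_pos (Real.cosh_pos _)]
            apply BPgauss_cosh_le
            rw [abs_mul, abs_of_pos h0]
            calc θ * |(p i).1| ≤ 1 * 1 := mul_le_mul h1.le (hp i) (abs_nonneg _) zero_le_one
              _ = 1 := one_mul 1
      _ = Real.cosh s ^ S.card := by rw [Finset.prod_const]
      _ ≤ Real.cosh s ^ b := by
          apply pow_le_pow_right₀ hc1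
          exact le_trans (Finset.card_le_univ _) (by simp)
  have hb0 : 0 ≤ (|1 + h| + |1 - h|) * 2 ^ b := by positivity
  exact mul_le_mul (mul_le_mul a1 a2 (abs_nonneg _) hb0) a3 (abs_nonneg _)
    (mul_nonneg hb0 (by linarith))

theorem BPgauss_G_integrable (hν : IsBP b θ ν0 ν) (h0 : 0 < θ) (h1 : θ < 1) (s : ℝ) {h : ℝ}
    (hh : |h| ≤ 1) (S : Finset (Fin b)) :
    Integrable (BPgauss_G b θ s S h) (Measure.pi fun _ : Fin b => ν) := by
  have := hν.prob
  apply Integrable.of_bound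
    (C := ((|1 + h| + |1 - h|) * 2 ^ b) * Real.cosh s * Real.cosh s ^ b)
  · exact (BPgauss_G_measurable s S h).aestronglyMeasurable
  · filter_upwards [hν.ae_bdd_pi] with p hp
    rw [Real.norm_eq_abs]
    exact BPgauss_G_bound h0 h1 s hh S fun i => (hp i).1

theorem BPgauss_G_step (hν : IsBP b θ ν0 ν) (h0 : 0 < θ) (h1 : θ < 1) (s : ℝ) {h : ℝ}
    (hh : |h| ≤ 1) (S : Finset (Fin b)) (i : Fin b) (hi : i ∉ S) :
    ∫ p, BPgauss_G b θ s S h p ∂(Measure.pi fun _ : Fin b => ν)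
      ≤ ∫ p, BPgauss_G b θ s (insert i S) h p ∂(Measure.pi fun _ : Fin b => ν) := by
  have := hν.prob
  have hint := BPgauss_G_integrable hν h0 h1 s hh S
  have hint1 := BPgauss_G_integrable hν h0 h1 s hh (insert i S)
  have h2 : ∫ p, BPgauss_G b θ s S h p ∂(Measure.pi fun _ : Fin b => ν)
      = ∫ p, BPgauss_G b θ s S h (Function.update p i (-(p i).1, (p i).2))
        ∂(Measure.pi fun _ : Fin b => ν) :=
    ((BPbase_flip_mp hν i).integral_comp (BPbase_flip_emb i) _).symm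
  have hint2 : Integrable (fun p => BPgauss_G b θ s S h
      (Function.update p i (-(p i).1, (p i).2))) (Measure.pi fun _ : Fin b => ν) :=
    (BPbase_flip_mp hν i).integrable_comp_of_integrable hint
  have h3 : 2 * ∫ p, BPgauss_G b θ s S h p ∂(Measure.pi fun _ : Fin b => ν)
      ≤ 2 * ∫ p, BPgauss_G b θ s (insert i S) h p ∂(Measure.pi fun _ : Fin b => ν) := by
    rw [two_mul]
    nth_rewrite 2 [h2]
    rw [← integral_add hint hint2, ← integral_const_mul]
    apply integral_mono_ae (hint.add hint2) (hint1.const_mul 2)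
    filter_upwards [hν.ae_bdd_pi] with p hp
    have hp1 : ∀ j, |(p j).1| ≤ 1 := fun j => (hp j).1
    obtain ⟨hw, hn⟩ := BPgauss_w_pos h0 h1 hh (insert i S) hp1
    have hprod : ∏ j ∈ S, Real.cosh (s * (θ * ((Function.update p i (-(p i).1, (p i).2)) j).1))
        = ∏ j ∈ S, Real.cosh (s * (θ * (p j).1)) := by
      apply Finset.prod_congr rfl
      intro j hj
      have : j ≠ i := by
        intro hji
        rw [hji] at hj
        exact hi hj
      rw [Function.update_of_ne this]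
    have hu : |θ * (p i).1| < 1 := by
      rw [abs_mul, abs_of_pos h0]
      calc θ * |(p i).1| ≤ θ * 1 := mul_le_mul_of_nonneg_left (hp1 i) h0.le
        _ < 1 := by linarith
    have hstep := BPgauss_step (s := s) hw hn hu
    have hflip1 := (BPgauss_flip (θ := θ) (Finset.mem_insert_self i S) h p)
    have hin := BPgauss_insert (θ := θ) hi h p
    have hin2 := BPgauss_insert (θ := θ) hi h (Function.update p i (-(p i).1, (p i).2))
    rw [hflip1.1, hflip1.2, Function.update_self] at hin2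
    have hw2 : BPbase_w b θ S h (Function.update p i (-(p i).1, (p i).2))
        = BPbase_w b θ (insert i S) h p - BPgauss_n b θ (insert i S) h p * (θ * (p i).1) := by
      rw [hin2.1]
      ring
    have hn2 : BPgauss_n b θ S h (Function.update p i (-(p i).1, (p i).2))
        = BPgauss_n b θ (insert i S) h p - BPbase_w b θ (insert i S) h p * (θ * (p i).1) := by
      rw [hin2.2]
      ring
    have hpos : 0 ≤ ∏ j ∈ S, Real.cosh (s * (θ * (p j).1)) :=
      Finset.prod_nonneg fun j _ => (Real.cosh_pos _).le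
    simp only [Pi.add_apply]
    unfold BPgauss_G
    rw [hprod, hw2, hn2, hin.1, hin.2, Finset.prod_insert hi]
    have h5 := mul_le_mul_of_nonneg_right hstep hpos
    nlinarith
  linarith

theorem BPgauss_inner (hν : IsBP b θ ν0 ν) (h0 : 0 < θ) (h1 : θ < 1) (s : ℝ) {h : ℝ}
    (hh : |h| ≤ 1) :
    ∫ p, Real.cosh (s * (nBP b θ h p / wBP b θ h p)) * wBP b θ h p
        ∂(Measure.pi fun _ : Fin b => ν)
      ≤ Real.cosh (s * h) * (∫ p, Real.cosh (s * θ * p.1) ∂ν) ^ b := by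
  have := hν.prob
  have h2 : ∀ S : Finset (Fin b), ∫ p, BPgauss_G b θ s ∅ h p ∂(Measure.pi fun _ : Fin b => ν)
      ≤ ∫ p, BPgauss_G b θ s S h p ∂(Measure.pi fun _ : Fin b => ν) := by
    intro S
    induction S using Finset.induction_on with
    | empty => exact le_rfl
    | insert i S hi ih => exact le_trans ih (BPgauss_G_step hν h0 h1 s hh S i hi)
  have h3 := h2 Finset.univ
  have e1 : ∀ p : Fin b → ℝ × ℝ, BPgauss_G b θ s ∅ h p
      = Real.cosh (s * (nBP b θ h p / wBP b θ h p)) * wBP b θ h p := by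
    intro p
    unfold BPgauss_G BPbase_w BPgauss_n wBP nBP
    simp
    ring
  have e2 : ∀ p : Fin b → ℝ × ℝ, BPgauss_G b θ s Finset.univ h p
      = Real.cosh (s * h) * ∏ i, Real.cosh (s * θ * (p i).1) := by
    intro p
    unfold BPgauss_G BPbase_w BPgauss_n
    have e3 : ((1 + h) - (1 - h)) / 2 / (((1 + h) + (1 - h)) / 2) = h := by ring
    simp only [Finset.compl_univ, Finset.prod_empty, mul_one]
    rw [e3]
    have e4 : ((1 + h) + (1 - h)) / 2 = 1 := by ring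
    rw [e4, one_mul]
    congr 1
    apply Finset.prod_congr rfl
    intro i _
    rw [mul_assoc]
  rw [integral_congr_ae (Filter.Eventually.of_forall e1),
    integral_congr_ae (Filter.Eventually.of_forall e2), integral_const_mul,
    integral_fintype_prod_eq_pow (fun q : ℝ × ℝ => Real.cosh (s * θ * q.1)),
    Fintype.card_fin] at h3
  exact h3

theorem bp_cosh (hν : IsBP b θ ν0 ν) (h0 : 0 < θ) (h1 : θ < 1) (hθ : b * θ ^ 2 < 1) (s : ℝ) :
    ∫ p, Real.cosh (s * p.1) ∂ν ≤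
      (∫ h, Real.cosh (s * h) ∂ν0) * (∫ p, Real.cosh (s * θ * p.1) ∂ν) ^ b := by
  have := hν.prob
  have := hν.prob0
  have hmeas : Measurable fun q : ℝ × ℝ => Real.cosh (s * q.1) :=
    Real.continuous_cosh.measurable.comp (by fun_prop)
  rw [hν.fix' h0 h1 hθ hmeas ⟨Real.cosh s, fun p hp _ _ => by
    rw [abs_of_pos (Real.cosh_pos _)]
    exact BPgauss_cosh_le hp⟩]
  rw [← integral_mul_const]
  apply integral_mono_ae
  · apply Integrable.of_bound (C := ((2 + 2) * 2 ^ b) * Real.cosh s * Real.cosh s ^ b)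
    · have hjm : Measurable fun q : ℝ × (Fin b → ℝ × ℝ) =>
          Real.cosh (s * (nBP b θ q.1 q.2 / wBP b θ q.1 q.2)) * wBP b θ q.1 q.2 :=
        (Real.continuous_cosh.measurable.comp
          ((measurable_nBP.div measurable_wBP).const_mul s)).mul measurable_wBP
      exact hjm.stronglyMeasurable.integral_prod_right.aestronglyMeasurable
    · filter_upwards [hν.bdd0] with h hh
      have hc1 : (1 : ℝ) ≤ Real.cosh s := Real.one_le_cosh s
      have hab := abs_lt.mp hh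
      have hb1 : |1 + h| + |1 - h| ≤ 2 + 2 := by
        have a1 : |1 + h| ≤ 2 := by rw [abs_le]; constructor <;> linarith
        have a2 : |1 - h| ≤ 2 := by rw [abs_le]; constructor <;> linarith
        linarith
      have hbound : ∀ᵐ p ∂(Measure.pi fun _ : Fin b => ν),
          ‖Real.cosh (s * (nBP b θ h p / wBP b θ h p)) * wBP b θ h p‖
            ≤ ((2 + 2) * 2 ^ b) * Real.cosh s * Real.cosh s ^ b := by
        filter_upwards [hν.ae_bdd_pi] with p hp
        have h3 := BPgauss_G_bound h0 h1 s hh.le ∅ (fun i => (hp i).1)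
        have e1 : BPgauss_G b θ s ∅ h p
            = Real.cosh (s * (nBP b θ h p / wBP b θ h p)) * wBP b θ h p := by
          unfold BPgauss_G BPbase_w BPgauss_n wBP nBP
          simp
          ring
        rw [← e1, Real.norm_eq_abs]
        refine le_trans h3 ?_
        have : (0 : ℝ) ≤ Real.cosh s ^ b := by positivity
        gcongr
      have h4 := norm_integral_le_of_norm_le_const hbound
      simpa using h4
  · apply Integrable.of_bound
      (C := Real.cosh s * |(∫ p, Real.cosh (s * θ * p.1) ∂ν) ^ b|)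
    · exact ((Real.continuous_cosh.measurable.comp
        (measurable_id.const_mul s)).mul_const _).aestronglyMeasurable
    · filter_upwards [hν.bdd0] with h hh
      rw [Real.norm_eq_abs, abs_mul]
      apply mul_le_mul_of_nonneg_right _ (abs_nonneg _)
      rw [abs_of_pos (Real.cosh_pos _)]
      exact BPgauss_cosh_le hh.le
  · filter_upwards [hν.bdd0] with h hh
    exact BPgauss_inner hν h0 h1 s hh.le

theorem BPgauss_cosh_int (hν : IsBP b θ ν0 ν) (s : ℝ) :
    Integrable (fun p : ℝ × ℝ => Real.cosh (s * p.1)) ν := by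
  have := hν.prob
  apply Integrable.of_bound (C := Real.cosh s)
  · exact (Real.continuous_cosh.measurable.comp (by fun_prop)).aestronglyMeasurable
  · filter_upwards [hν.bdd] with p hp
    rw [Real.norm_eq_abs, abs_of_pos (Real.cosh_pos _)]
    exact BPgauss_cosh_le hp.1

theorem BPgauss_one_le (hν : IsBP b θ ν0 ν) (s : ℝ) : 1 ≤ ∫ p, Real.cosh (s * p.1) ∂ν := by
  have := hν.prob
  have h1 : ∫ _p : ℝ × ℝ, (1 : ℝ) ∂ν ≤ ∫ p, Real.cosh (s * p.1) ∂ν := by
    apply integral_mono_ae (integrable_const _) (BPgauss_cosh_int hν s)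
    filter_upwards with p
    exact Real.one_le_cosh _
  simpa using h1

/-- small `s` -/
theorem BPgauss_small (hν : IsBP b θ ν0 ν) {s : ℝ} (hs : |s| ≤ 1) :
    ∫ p, Real.cosh (s * p.1) ∂ν ≤ Real.exp ((∫ p, p.1 ^ 2 ∂ν) * s ^ 2) := by
  have := hν.prob
  have hint2 : Integrable (fun p : ℝ × ℝ => p.1 ^ 2) ν := by
    apply Integrable.of_bound (C := 1)
    · exact (by fun_prop : Measurable fun p : ℝ × ℝ => p.1 ^ 2).aestronglyMeasurable
    · filter_upwards [hν.bdd] with p hp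
      rw [Real.norm_eq_abs, abs_pow]
      exact pow_le_one₀ (abs_nonneg _) hp.1
  have h1 : ∫ p, Real.cosh (s * p.1) ∂ν ≤ ∫ p : ℝ × ℝ, (1 + s ^ 2 * p.1 ^ 2) ∂ν := by
    apply integral_mono_ae (BPgauss_cosh_int hν s)
      ((integrable_const _).add (hint2.const_mul _))
    filter_upwards [hν.bdd] with p hp
    have hy : |s * p.1| ≤ 1 := by
      rw [abs_mul]
      calc |s| * |p.1| ≤ 1 * 1 := mul_le_mul hs hp.1 (abs_nonneg _) zero_le_one
        _ = 1 := one_mul 1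
    have hy2 : (s * p.1) ^ 2 ≤ 1 := by
      rw [← sq_abs]
      exact pow_le_one₀ (abs_nonneg _) hy
    have h2 := Real.cosh_le_exp_half_sq (s * p.1)
    have h3 : Real.exp ((s * p.1) ^ 2 / 2) ≤ 1 + (s * p.1) ^ 2 := by
      have h4 : |(s * p.1) ^ 2 / 2| ≤ 1 := by
        rw [abs_of_nonneg (by positivity)]
        linarith
      have h5 := Real.abs_exp_sub_one_sub_id_le h4
      have h6 := le_abs_self (Real.exp ((s * p.1) ^ 2 / 2) - 1 - (s * p.1) ^ 2 / 2)
      nlinarith [sq_nonneg (s * p.1)]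
    calc Real.cosh (s * p.1) ≤ 1 + (s * p.1) ^ 2 := le_trans h2 h3
      _ = 1 + s ^ 2 * p.1 ^ 2 := by ring
  have h2 : ∫ p : ℝ × ℝ, (1 + s ^ 2 * p.1 ^ 2) ∂ν = 1 + (∫ p, p.1 ^ 2 ∂ν) * s ^ 2 := by
    rw [integral_add (integrable_const _) (hint2.const_mul _), integral_const_mul]
    simp
    ring
  rw [h2] at h1
  have h3 := Real.add_one_le_exp ((∫ p, p.1 ^ 2 ∂ν) * s ^ 2)
  linarith

theorem BPgauss_iter (hν : IsBP b θ ν0 ν) (h0 : 0 < θ) (h1 : θ < 1) (hθ : b * θ ^ 2 < 1)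
    {t : ℝ} (ht : 0 < t) (hown : ∀ᵐ h ∂ν0, |h| ≤ t / 2) (s : ℝ) (k : ℕ) :
    ∫ p, Real.cosh (s * p.1) ∂ν ≤
      Real.exp (k * (s ^ 2 * t ^ 2 / 8)) * (∫ p, Real.cosh (θ ^ k * s * p.1) ∂ν) ^ (b ^ k) := by
  have := hν.prob
  have := hν.prob0
  have hown2 : ∀ r : ℝ, ∫ h, Real.cosh (r * h) ∂ν0 ≤ Real.exp (r ^ 2 * t ^ 2 / 8) := by
    intro r
    have h2 : ∫ h, Real.cosh (r * h) ∂ν0 ≤ ∫ _h : ℝ, Real.exp (r ^ 2 * t ^ 2 / 8) ∂ν0 := by
      apply integral_mono_of_nonneg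
      · filter_upwards with h
        exact (Real.cosh_pos _).le
      · exact integrable_const _
      · filter_upwards [hown] with h hh
        refine le_trans (Real.cosh_le_exp_half_sq (r * h)) ?_
        apply Real.exp_le_exp.mpr
        have : h ^ 2 ≤ (t / 2) ^ 2 := by
          rw [← sq_abs]
          exact pow_le_pow_left₀ (abs_nonneg _) hh 2
        nlinarith [mul_le_mul_of_nonneg_left this (sq_nonneg r)]
    simpa using h2
  induction k with
  | zero => simp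
  | succ k ih =>
    have h2 := bp_cosh hν h0 h1 hθ (θ ^ k * s)
    have h3 : ∫ p, Real.cosh (θ ^ k * s * p.1) ∂ν
        ≤ Real.exp ((θ ^ k * s) ^ 2 * t ^ 2 / 8)
          * (∫ p, Real.cosh (θ ^ (k + 1) * s * p.1) ∂ν) ^ b := by
      refine le_trans h2 ?_
      have e : θ ^ k * s * θ = θ ^ (k + 1) * s := by ring
      rw [e]
      apply mul_le_mul_of_nonneg_right (hown2 _)
      apply pow_nonneg
      linarith [BPgauss_one_le hν (θ ^ (k + 1) * s)]
    have h4 : (∫ p, Real.cosh (θ ^ k * s * p.1) ∂ν) ^ (b ^ k)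
        ≤ (Real.exp ((θ ^ k * s) ^ 2 * t ^ 2 / 8)
          * (∫ p, Real.cosh (θ ^ (k + 1) * s * p.1) ∂ν) ^ b) ^ (b ^ k) := by
      apply pow_le_pow_left₀ _ h3
      linarith [BPgauss_one_le hν (θ ^ k * s)]
    rw [mul_pow, ← pow_mul, ← Real.exp_nat_mul, ← pow_succ'] at h4
    have h5 : Real.exp (((b ^ k : ℕ) : ℝ) * ((θ ^ k * s) ^ 2 * t ^ 2 / 8))
        ≤ Real.exp (s ^ 2 * t ^ 2 / 8) := by
      apply Real.exp_le_exp.mpr
      have e : ((b ^ k : ℕ) : ℝ) * ((θ ^ k * s) ^ 2 * t ^ 2 / 8)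
          = (b * θ ^ 2) ^ k * (s ^ 2 * t ^ 2 / 8) := by
        push_cast
        ring
      rw [e]
      have h6 : ((b : ℝ) * θ ^ 2) ^ k ≤ 1 := pow_le_one₀ (by positivity) hθ.le
      calc ((b : ℝ) * θ ^ 2) ^ k * (s ^ 2 * t ^ 2 / 8) ≤ 1 * (s ^ 2 * t ^ 2 / 8) :=
            mul_le_mul_of_nonneg_right h6 (by positivity)
        _ = _ := one_mul _
    have hpos : 0 ≤ (∫ p, Real.cosh (θ ^ (k + 1) * s * p.1) ∂ν) ^ (b ^ (k + 1)) := by
      apply pow_nonneg
      linarith [BPgauss_one_le hν (θ ^ (k + 1) * s)]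
    calc ∫ p, Real.cosh (s * p.1) ∂ν
        ≤ Real.exp (k * (s ^ 2 * t ^ 2 / 8))
          * (∫ p, Real.cosh (θ ^ k * s * p.1) ∂ν) ^ (b ^ k) := ih
      _ ≤ Real.exp (k * (s ^ 2 * t ^ 2 / 8)) * (Real.exp (s ^ 2 * t ^ 2 / 8)
          * (∫ p, Real.cosh (θ ^ (k + 1) * s * p.1) ∂ν) ^ (b ^ (k + 1))) := by
          apply mul_le_mul_of_nonneg_left _ (Real.exp_pos _).le
          exact le_trans h4 (mul_le_mul_of_nonneg_right h5 hpos)
      _ = _ := by
          rw [← mul_assoc, ← Real.exp_add]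
          congr 2
          push_cast
          ring

/-- `v² = t³`; `A ≤ C1 v`. -/
theorem bp_gauss (b : ℕ) (hb : 2 ≤ b) (C1 : ℝ) : ∃ C : ℝ, 0 < C ∧
    ∀ (θ : ℝ) (ν0 : Measure ℝ) (ν : Measure (ℝ × ℝ)) (t v : ℝ), IsBP b θ ν0 ν →
      0 < θ → b * θ ^ 2 < 1 → 0 < t → t ≤ 1 → 0 < v → v ^ 2 = t ^ 3 →
      (∀ᵐ h ∂ν0, |h| ≤ t / 2) → ∫ p, p.1 ^ 2 ∂ν ≤ C1 * v →
      ∀ s : ℝ, ∫ p, Real.cosh (s * p.1) ∂ν ≤ Real.exp (C * v * s ^ 2) := by
  refine ⟨|C1| + 2, by positivity, ?_⟩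
  intro θ ν0 ν t v hν h0 hθ ht ht1 hv hvt hown hA s
  have := hν.prob
  have hb2 : (2 : ℝ) ≤ (b : ℝ) := by exact_mod_cast hb
  have hθ2 : θ ^ 2 < 1 / 2 := by nlinarith [sq_nonneg θ]
  have h1 : θ < 1 := by nlinarith
  set r : ℝ := √t with hr
  have hr0 : 0 < r := Real.sqrt_pos.mpr ht
  have hr2 : r ^ 2 = t := Real.sq_sqrt ht.le
  have hr1 : r ≤ 1 := by
    rw [hr]
    exact Real.sqrt_le_one.mpr ht1
  have hvr : v = r ^ 3 := by
    have h2 : v ^ 2 = (r ^ 3) ^ 2 := by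
      rw [hvt, ← hr2]
      ring
    have h3 : 0 ≤ r ^ 3 := by positivity
    exact (pow_left_inj₀ hv.le h3 two_ne_zero).mp h2
  by_cases hs : |s| ≤ 1 / v
  · obtain ⟨m0, hm0⟩ := pow_unbounded_of_one_lt (1 / r) (one_lt_two (α := ℝ))
    have hex : ∃ m : ℕ, 1 / r ≤ (2 : ℝ) ^ m := ⟨m0, hm0.le⟩
    classical
    let m := Nat.find hex
    have hm : 1 / r ≤ (2 : ℝ) ^ m := Nat.find_spec hex
    have hrm : r * m ≤ 2 := by
      rcases Nat.eq_zero_or_pos m with h | h
      · rw [h]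
        simp
      · have h2 : ¬ (1 / r ≤ (2 : ℝ) ^ (m - 1)) := Nat.find_min hex (Nat.sub_lt h one_pos)
        push Not at h2
        have h3 : ((m - 1 : ℕ) : ℝ) < (2 : ℝ) ^ (m - 1) := by
          exact_mod_cast Nat.lt_two_pow_self
        have h4 : ((m - 1 : ℕ) : ℝ) < 1 / r := lt_trans h3 h2
        rw [Nat.cast_sub h, Nat.cast_one, lt_div_iff₀ hr0] at h4
        nlinarith
    have hhalf : ((1 : ℝ) / 2) ^ m ≤ r := by
      rw [div_pow, one_pow, div_le_iff₀ (by positivity)]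
      rw [div_le_iff₀ hr0] at hm
      linarith
    have hθk : θ ^ (6 * m) ≤ r ^ 3 := by
      calc θ ^ (6 * m) = ((θ ^ 2) ^ m) ^ 3 := by
            rw [← pow_mul, ← pow_mul]
            congr 1
            ring
        _ ≤ ((1 / 2 : ℝ) ^ m) ^ 3 := by
            apply pow_le_pow_left₀ (by positivity)
            exact pow_le_pow_left₀ (by positivity) hθ2.le m
        _ ≤ r ^ 3 := pow_le_pow_left₀ (by positivity) hhalf 3
    have hsm : |θ ^ (6 * m) * s| ≤ 1 := by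
      rw [abs_mul, abs_of_pos (pow_pos h0 _)]
      calc θ ^ (6 * m) * |s| ≤ r ^ 3 * (1 / v) :=
            mul_le_mul hθk hs (abs_nonneg _) (by positivity)
        _ = 1 := by
            rw [← hvr]
            field_simp
    have h3 := BPgauss_iter hν h0 h1 hθ ht hown s (6 * m)
    have h4 := BPgauss_small hν hsm
    have h5 : (∫ p, Real.cosh (θ ^ (6 * m) * s * p.1) ∂ν) ^ (b ^ (6 * m))
        ≤ Real.exp ((∫ p, p.1 ^ 2 ∂ν) * s ^ 2) := by
      refine le_trans (pow_le_pow_left₀ (by linarith [BPgauss_one_le hν (θ ^ (6 * m) * s)]) h4 _) ?_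
      rw [← Real.exp_nat_mul]
      apply Real.exp_le_exp.mpr
      have e : ((b ^ (6 * m) : ℕ) : ℝ) * ((∫ p, p.1 ^ 2 ∂ν) * (θ ^ (6 * m) * s) ^ 2)
          = (b * θ ^ 2) ^ (6 * m) * ((∫ p, p.1 ^ 2 ∂ν) * s ^ 2) := by
        push_cast
        ring
      rw [e]
      have h6 : ((b : ℝ) * θ ^ 2) ^ (6 * m) ≤ 1 := pow_le_one₀ (by positivity) hθ.le
      have h7 : 0 ≤ (∫ p : ℝ × ℝ, p.1 ^ 2 ∂ν) * s ^ 2 := by
        apply mul_nonneg _ (sq_nonneg _)
        exact integral_nonneg fun p => sq_nonneg _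
      calc ((b : ℝ) * θ ^ 2) ^ (6 * m) * ((∫ p, p.1 ^ 2 ∂ν) * s ^ 2)
          ≤ 1 * ((∫ p, p.1 ^ 2 ∂ν) * s ^ 2) := mul_le_mul_of_nonneg_right h6 h7
        _ = _ := one_mul _
    refine le_trans h3 ?_
    refine le_trans (mul_le_mul_of_nonneg_left h5 (Real.exp_pos _).le) ?_
    rw [← Real.exp_add]
    apply Real.exp_le_exp.mpr
    have h8 : ((6 * m : ℕ) : ℝ) * (s ^ 2 * t ^ 2 / 8) ≤ 2 * v * s ^ 2 := by
      rw [hvr, ← hr2]
      push_cast
      have e : 6 * (m : ℝ) * (s ^ 2 * (r ^ 2) ^ 2 / 8) = (r * m) * (6 / 8 * (r ^ 3 * s ^ 2)) := by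
        ring
      rw [e]
      have h9 : 0 ≤ 6 / 8 * (r ^ 3 * s ^ 2) := by positivity
      have h10 := mul_le_mul_of_nonneg_right hrm h9
      have h11 : 0 ≤ r ^ 3 * s ^ 2 := by positivity
      linarith
    have h9 : (∫ p, p.1 ^ 2 ∂ν) * s ^ 2 ≤ |C1| * v * s ^ 2 := by
      apply mul_le_mul_of_nonneg_right _ (sq_nonneg _)
      exact le_trans hA (mul_le_mul_of_nonneg_right (le_abs_self _) hv.le)
    calc ((6 * m : ℕ) : ℝ) * (s ^ 2 * t ^ 2 / 8) + (∫ p, p.1 ^ 2 ∂ν) * s ^ 2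
        ≤ 2 * v * s ^ 2 + |C1| * v * s ^ 2 := add_le_add h8 h9
      _ = (|C1| + 2) * v * s ^ 2 := by ring
  · push Not at hs
    have h2 : ∫ p, Real.cosh (s * p.1) ∂ν ≤ Real.cosh s := by
      have h3 : ∫ p, Real.cosh (s * p.1) ∂ν ≤ ∫ _p : ℝ × ℝ, Real.cosh s ∂ν := by
        apply integral_mono_ae (BPgauss_cosh_int hν s) (integrable_const _)
        filter_upwards [hν.bdd] with p hp
        exact BPgauss_cosh_le hp.1
      simpa using h3
    refine le_trans h2 ?_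
    have h3 : Real.cosh s ≤ Real.exp |s| := by
      rw [← Real.cosh_abs, Real.cosh_eq]
      have : Real.exp (-|s|) ≤ Real.exp |s| := by
        apply Real.exp_le_exp.mpr
        linarith [abs_nonneg s]
      linarith
    refine le_trans h3 ?_
    apply Real.exp_le_exp.mpr
    have h4 : 1 ≤ v * |s| := by
      rw [div_lt_iff₀ hv] at hs
      linarith
    have h5 : |s| ≤ v * s ^ 2 := by
      rw [← sq_abs]
      nlinarith [abs_nonneg s]
    have h6 : 0 ≤ v * s ^ 2 := by positivity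
    nlinarith [abs_nonneg C1]

end Vale.Agent.P161.EP
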