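import Mathlib
import Vale.Agent.P161.EP.BPbase

/-!
# Module I1 (BPinfo): upper and lower bounds of the information `A = ∫ M²`

(lower) for every `c`: `n²/w ≥ 2 c n φ - c² w φ²`, `φ = h + θ ∑ M_i`; `E_prod[n φ] = B`,
`E_prod[w φ²] ≤ B + B²`, `B = ι + b θ² A`; `c = 1/(1+B)` gives `A ≥ B/(1+B)`.
(upper) `1/w ≥ 2 - w`: `1 - A = E_prod[(w² - n²)/w] ≥ E_prod[(w²-n²)(2 - w)] = (1-ι)(1-θ²A)^b`, and
`(1-y)^b ≥ 1 - b y + (b-1) y²`.
-/

open MeasureTheory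

namespace Vale.Agent.P161.EP

variable {b : ℕ} {θ : ℝ} {ν0 : Measure ℝ} {ν : Measure (ℝ × ℝ)}

namespace BPinfom

lemma lin4 {α : Type*} [MeasurableSpace α] {μ : Measure α} {f1 f2 f3 f4 : α → ℝ}
    (h1 : Integrable f1 μ) (h2 : Integrable f2 μ) (h3 : Integrable f3 μ) (h4 : Integrable f4 μ)
    (a1 a2 a3 a4 : ℝ) :
    ∫ x, (a1 * f1 x + a2 * f2 x + (a3 * f3 x + a4 * f4 x)) ∂μ
      = a1 * ∫ x, f1 x ∂μ + a2 * ∫ x, f2 x ∂μ + (a3 * ∫ x, f3 x ∂μ + a4 * ∫ x, f4 x ∂μ) := by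
  have i12 : Integrable (fun x => a1 * f1 x + a2 * f2 x) μ := (h1.const_mul a1).add (h2.const_mul a2)
  have i34 : Integrable (fun x => a3 * f3 x + a4 * f4 x) μ := (h3.const_mul a3).add (h4.const_mul a4)
  rw [integral_add i12 i34, integral_add (h1.const_mul a1) (h2.const_mul a2),
    integral_add (h3.const_mul a3) (h4.const_mul a4), integral_const_mul, integral_const_mul,
    integral_const_mul, integral_const_mul]

lemma lin3 {α : Type*} [MeasurableSpace α] {μ : Measure α} {f1 f2 f3 : α → ℝ}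
    (h1 : Integrable f1 μ) (h2 : Integrable f2 μ) (h3 : Integrable f3 μ)
    (a1 a2 a3 : ℝ) :
    ∫ x, (a1 * f1 x + (a2 * f2 x + a3 * f3 x)) ∂μ
      = a1 * ∫ x, f1 x ∂μ + (a2 * ∫ x, f2 x ∂μ + a3 * ∫ x, f3 x ∂μ) := by
  have i23 : Integrable (fun x => a2 * f2 x + a3 * f3 x) μ := (h2.const_mul a2).add (h3.const_mul a3)
  rw [integral_add (h1.const_mul a1) i23,
    integral_add (h2.const_mul a2) (h3.const_mul a3), integral_const_mul, integral_const_mul,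
    integral_const_mul]

lemma int_pow (hν : IsBP b θ ν0 ν) (k : ℕ) : Integrable (fun p : ℝ × ℝ => p.1 ^ k) ν := by
  have := hν.prob
  refine Integrable.of_bound (C := 1) (by fun_prop) ?_
  filter_upwards [hν.bdd] with p hp
  rw [Real.norm_eq_abs, abs_pow]
  exact pow_le_one₀ (abs_nonneg _) hp.1

lemma odd_zero (hν : IsBP b θ ν0 ν) {k : ℕ} (hk : Odd k) : ∫ p, p.1 ^ k ∂ν = 0 := by
  have e : ∫ p, p.1 ^ k ∂ν = ∫ p, p.1 ^ k ∂(ν.map (fun p : ℝ × ℝ => (-p.1, p.2))) := by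
    rw [hν.symm]
  rw [integral_map (by fun_prop) (by fun_prop)] at e
  have e2 : ∫ p : ℝ × ℝ, (-p.1) ^ k ∂ν = - ∫ p, p.1 ^ k ∂ν := by
    rw [← integral_neg]
    refine integral_congr_ae (Filter.Eventually.of_forall fun p => ?_)
    simp only [hk.neg_pow]
  have e3 : ∫ p, p.1 ^ k ∂ν = - ∫ p, p.1 ^ k ∂ν := e.trans e2
  linarith

lemma int_one (hν : IsBP b θ ν0 ν) : ∫ _p, (1 : ℝ) ∂ν = 1 := by
  have := hν.prob
  simp

lemma m1 (hν : IsBP b θ ν0 ν) (c : ℝ) : ∫ p, (1 + c * p.1) ∂ν = 1 := by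
  have := hν.prob
  have h1 : Integrable (fun p : ℝ × ℝ => c * p.1) ν := by
    simpa using (int_pow hν 1).const_mul c
  rw [integral_add (integrable_const 1) h1, integral_const_mul]
  have h2 := odd_zero hν (k := 1) odd_one
  simp only [pow_one] at h2
  rw [h2, int_one hν]
  ring

lemma m2 (hν : IsBP b θ ν0 ν) (c : ℝ) :
    ∫ p, (1 + c * p.1) * p.1 ∂ν = c * ∫ p, p.1 ^ 2 ∂ν := by
  have e : (fun p : ℝ × ℝ => (1 + c * p.1) * p.1) = fun p => p.1 ^ 1 + c * p.1 ^ 2 := by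
    funext p; ring
  rw [e, integral_add (int_pow hν 1) ((int_pow hν 2).const_mul c), integral_const_mul,
    odd_zero hν (k := 1) odd_one, zero_add]

lemma m3 (hν : IsBP b θ ν0 ν) (c : ℝ) :
    ∫ p, (1 + c * p.1) * (p.1 * p.1) ∂ν = ∫ p, p.1 ^ 2 ∂ν := by
  have e : (fun p : ℝ × ℝ => (1 + c * p.1) * (p.1 * p.1)) = fun p => p.1 ^ 2 + c * p.1 ^ 3 := by
    funext p; ring
  rw [e, integral_add (int_pow hν 2) ((int_pow hν 3).const_mul c), integral_const_mul,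
    odd_zero hν (k := 3) (by decide)]
  ring

lemma m4 (hν : IsBP b θ ν0 ν) (c : ℝ) :
    ∫ p, (1 + c * p.1) * (1 - θ ^ 2 * p.1 ^ 2) ∂ν = 1 - θ ^ 2 * ∫ p, p.1 ^ 2 ∂ν := by
  have := hν.prob
  have e : (fun p : ℝ × ℝ => (1 + c * p.1) * (1 - θ ^ 2 * p.1 ^ 2))
      = fun p => (1 + c * p.1 ^ 1) + ((-θ ^ 2) * p.1 ^ 2 + (-(c * θ ^ 2)) * p.1 ^ 3) := by
    funext p; ring
  have i0 : Integrable (fun p : ℝ × ℝ => 1 + c * p.1 ^ 1) ν :=
    (integrable_const 1).add ((int_pow hν 1).const_mul c)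
  have i1 : Integrable (fun p : ℝ × ℝ => (-θ ^ 2) * p.1 ^ 2 + (-(c * θ ^ 2)) * p.1 ^ 3) ν :=
    ((int_pow hν 2).const_mul _).add ((int_pow hν 3).const_mul _)
  rw [e, integral_add i0 i1,
    integral_add (integrable_const 1) ((int_pow hν 1).const_mul c),
    integral_add ((int_pow hν 2).const_mul _) ((int_pow hν 3).const_mul _),
    integral_const_mul, integral_const_mul, integral_const_mul,
    odd_zero hν (k := 1) odd_one, odd_zero hν (k := 3) (by decide), int_one hν]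
  ring

/-- product -/
noncomputable def P (c : ℝ) (p : Fin b → ℝ × ℝ) : ℝ := ∏ i, (1 + c * (p i).1)

lemma P_meas (c : ℝ) : Measurable (P (b := b) c) := by unfold P; fun_prop

lemma P_bound (c : ℝ) {p : Fin b → ℝ × ℝ} (hp : ∀ i, |(p i).1| ≤ 1) :
    |P c p| ≤ (1 + |c|) ^ b := by
  unfold P
  rw [Finset.abs_prod]
  calc ∏ i, |1 + c * (p i).1| ≤ ∏ _i : Fin b, (1 + |c|) := by
        apply Finset.prod_le_prod
        · intro i _; exact abs_nonneg _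
        · intro i _
          refine (abs_add_le _ _).trans ?_
          rw [abs_one, abs_mul]
          nlinarith [abs_nonneg c, hp i, abs_nonneg (p i).1]
    _ = (1 + |c|) ^ b := by simp

lemma w_eq (h : ℝ) (p : Fin b → ℝ × ℝ) :
    wBP b θ h p = (1 + h) / 2 * P θ p + (1 - h) / 2 * P (-θ) p := by
  unfold wBP P
  simp only [neg_mul, ← sub_eq_add_neg]
  ring

lemma n_eq (h : ℝ) (p : Fin b → ℝ × ℝ) :
    nBP b θ h p = (1 + h) / 2 * P θ p - (1 - h) / 2 * P (-θ) p := by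
  unfold nBP P
  simp only [neg_mul, ← sub_eq_add_neg]
  ring

/-- sum -/
noncomputable def S (p : Fin b → ℝ × ℝ) : ℝ := ∑ i, (p i).1

lemma int_of_poly (hν : IsBP b θ ν0 ν) {F : (Fin b → ℝ × ℝ) → ℝ} (hF : Measurable F) (C : ℝ)
    (hb : ∀ p : Fin b → ℝ × ℝ, (∀ i, |(p i).1| ≤ 1) → |F p| ≤ C) :
    Integrable F (Measure.pi fun _ : Fin b => ν) := by
  have := hν.prob
  refine Integrable.of_bound (C := C) hF.aestronglyMeasurable ?_
  filter_upwards [hν.ae_bdd_pi] with p hp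
  rw [Real.norm_eq_abs]
  exact hb p fun i => (hp i).1

lemma iP (hν : IsBP b θ ν0 ν) (c : ℝ) :
    Integrable (P c) (Measure.pi fun _ : Fin b => ν) :=
  int_of_poly hν (P_meas c) _ fun p hp => P_bound c hp

lemma iPM (hν : IsBP b θ ν0 ν) (c : ℝ) (i : Fin b) :
    Integrable (fun p => P c p * (p i).1) (Measure.pi fun _ : Fin b => ν) := by
  refine int_of_poly hν ((P_meas c).mul (by fun_prop)) ((1 + |c|) ^ b) fun p hp => ?_
  rw [abs_mul]
  have h1 := P_bound c hp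
  have h2 : (0 : ℝ) ≤ (1 + |c|) ^ b := by positivity
  calc |P c p| * |(p i).1| ≤ (1 + |c|) ^ b * 1 := mul_le_mul h1 (hp i) (abs_nonneg _) h2
    _ = _ := mul_one _

lemma iPMM (hν : IsBP b θ ν0 ν) (c : ℝ) (i j : Fin b) :
    Integrable (fun p => P c p * ((p i).1 * (p j).1)) (Measure.pi fun _ : Fin b => ν) := by
  refine int_of_poly hν ((P_meas c).mul (by fun_prop)) ((1 + |c|) ^ b) fun p hp => ?_
  rw [abs_mul, abs_mul]
  have h1 := P_bound c hp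
  have h2 : (0 : ℝ) ≤ (1 + |c|) ^ b := by positivity
  have h3 : |(p i).1| * |(p j).1| ≤ 1 := mul_le_one₀ (hp i) (abs_nonneg _) (hp j)
  calc |P c p| * (|(p i).1| * |(p j).1|) ≤ (1 + |c|) ^ b * 1 :=
        mul_le_mul h1 h3 (by positivity) h2
    _ = _ := mul_one _

lemma L0 (hν : IsBP b θ ν0 ν) (c : ℝ) :
    ∫ p, P c p ∂(Measure.pi fun _ : Fin b => ν) = 1 := by
  have := hν.prob
  unfold P
  rw [integral_fintype_prod_eq_prod (fun (_ : Fin b) (q : ℝ × ℝ) => 1 + c * q.1)]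
  simp only [m1 hν, Finset.prod_const_one]

lemma L1 (hν : IsBP b θ ν0 ν) (c : ℝ) (i : Fin b) :
    ∫ p, P c p * (p i).1 ∂(Measure.pi fun _ : Fin b => ν) = c * ∫ p, p.1 ^ 2 ∂ν := by
  classical
  have := hν.prob
  have e : (fun p : Fin b → ℝ × ℝ => P c p * (p i).1)
      = fun p => ∏ k, (fun (k : Fin b) (q : ℝ × ℝ) =>
        (1 + c * q.1) * (if k = i then q.1 else 1)) k (p k) := by
    funext p
    simp only [P, Finset.prod_mul_distrib, Finset.prod_ite_eq', Finset.mem_univ, if_true]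
  rw [e]
  refine (integral_fintype_prod_eq_prod (μ := fun _ : Fin b => ν) (fun (k : Fin b) (q : ℝ × ℝ) =>
        (1 + c * q.1) * (if k = i then q.1 else 1))).trans ?_
  rw [Finset.prod_eq_single i]
  · simp only [if_true]
    exact m2 hν c
  · intro k _ hk
    simp only [if_neg hk, mul_one]
    exact m1 hν c
  · intro h; exact absurd (Finset.mem_univ i) h

lemma L2 (hν : IsBP b θ ν0 ν) (c : ℝ) (i j : Fin b) :
    ∫ p, P c p * ((p i).1 * (p j).1) ∂(Measure.pi fun _ : Fin b => ν)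
      = if i = j then ∫ p, p.1 ^ 2 ∂ν else (c * ∫ p, p.1 ^ 2 ∂ν) ^ 2 := by
  classical
  have := hν.prob
  have e : (fun p : Fin b → ℝ × ℝ => P c p * ((p i).1 * (p j).1))
      = fun p => ∏ k, (fun (k : Fin b) (q : ℝ × ℝ) =>
        (1 + c * q.1) * ((if k = i then q.1 else 1) * (if k = j then q.1 else 1))) k (p k) := by
    funext p
    simp only [P, Finset.prod_mul_distrib, Finset.prod_ite_eq', Finset.mem_univ, if_true]
  rw [e]
  refine (integral_fintype_prod_eq_prod (μ := fun _ : Fin b => ν) (fun (k : Fin b) (q : ℝ × ℝ) =>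
        (1 + c * q.1) * ((if k = i then q.1 else 1) * (if k = j then q.1 else 1)))).trans ?_
  by_cases hij : i = j
  · subst hij
    rw [if_pos rfl, Finset.prod_eq_single i]
    · simp only [if_true]
      exact m3 hν c
    · intro k _ hk
      simp only [if_neg hk, mul_one]
      exact m1 hν c
    · intro h; exact absurd (Finset.mem_univ i) h
  · rw [if_neg hij]
    have e2 : ∀ k : Fin b, ∫ q : ℝ × ℝ, (1 + c * q.1) *
        ((if k = i then q.1 else 1) * (if k = j then q.1 else 1)) ∂ν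
        = (if k = i then c * ∫ p, p.1 ^ 2 ∂ν else 1) *
          (if k = j then c * ∫ p, p.1 ^ 2 ∂ν else 1) := by
      intro k
      by_cases hki : k = i
      · have hkj : k ≠ j := fun h => hij (hki.symm.trans h)
        simp only [if_pos hki, if_neg hkj, mul_one]
        exact m2 hν c
      · by_cases hkj : k = j
        · simp only [if_neg hki, if_pos hkj, one_mul]
          exact m2 hν c
        · simp only [if_neg hki, if_neg hkj, mul_one]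
          exact m1 hν c
    simp only [e2, Finset.prod_mul_distrib, Finset.prod_ite_eq', Finset.mem_univ, if_true]
    ring

lemma L3 (hν : IsBP b θ ν0 ν) (c : ℝ) :
    ∫ p, P c p * ∏ i, (1 - θ ^ 2 * (p i).1 ^ 2) ∂(Measure.pi fun _ : Fin b => ν)
      = (1 - θ ^ 2 * ∫ p, p.1 ^ 2 ∂ν) ^ b := by
  have := hν.prob
  have e : (fun p : Fin b → ℝ × ℝ => P c p * ∏ i, (1 - θ ^ 2 * (p i).1 ^ 2))
      = fun p => ∏ k, (fun (_ : Fin b) (q : ℝ × ℝ) =>
        (1 + c * q.1) * (1 - θ ^ 2 * q.1 ^ 2)) k (p k) := by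
    funext p
    simp only [P, Finset.prod_mul_distrib]
  rw [e]
  refine (integral_fintype_prod_eq_prod (μ := fun _ : Fin b => ν) (fun (_ : Fin b) (q : ℝ × ℝ) =>
        (1 + c * q.1) * (1 - θ ^ 2 * q.1 ^ 2))).trans ?_
  simp only [m4 hν, Finset.prod_const, Finset.card_univ, Fintype.card_fin]

lemma LS1 (hν : IsBP b θ ν0 ν) (c : ℝ) :
    Integrable (fun p => P c p * S p) (Measure.pi fun _ : Fin b => ν) ∧
    ∫ p, P c p * S p ∂(Measure.pi fun _ : Fin b => ν) = b * (c * ∫ p, p.1 ^ 2 ∂ν) := by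
  have e : (fun p : Fin b → ℝ × ℝ => P c p * S p) = fun p => ∑ i, P c p * (p i).1 := by
    funext p; rw [S, Finset.mul_sum]
  rw [e]
  refine ⟨integrable_finsetSum _ fun i _ => iPM hν c i, ?_⟩
  rw [integral_finsetSum _ fun i _ => iPM hν c i]
  simp only [L1 hν, Finset.sum_const, Finset.card_univ, Fintype.card_fin, nsmul_eq_mul]

lemma LS2 (hν : IsBP b θ ν0 ν) (c : ℝ) :
    Integrable (fun p => P c p * S p ^ 2) (Measure.pi fun _ : Fin b => ν) ∧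
    ∫ p, P c p * S p ^ 2 ∂(Measure.pi fun _ : Fin b => ν)
      = b * (∫ p, p.1 ^ 2 ∂ν + (b - 1) * (c * ∫ p, p.1 ^ 2 ∂ν) ^ 2) := by
  classical
  have e : (fun p : Fin b → ℝ × ℝ => P c p * S p ^ 2)
      = fun p => ∑ i, ∑ j, P c p * ((p i).1 * (p j).1) := by
    funext p
    rw [S, pow_two, Finset.sum_mul_sum, Finset.mul_sum]
    simp only [Finset.mul_sum]
  rw [e]
  refine ⟨integrable_finsetSum _ fun i _ => integrable_finsetSum _ fun j _ => iPMM hν c i j, ?_⟩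
  rw [integral_finsetSum _ fun i _ => integrable_finsetSum _ fun j _ => iPMM hν c i j]
  have e2 : ∀ i : Fin b, ∫ p, ∑ j, P c p * ((p i).1 * (p j).1) ∂(Measure.pi fun _ : Fin b => ν)
      = ∫ p, p.1 ^ 2 ∂ν + (b - 1) * (c * ∫ p, p.1 ^ 2 ∂ν) ^ 2 := by
    intro i
    rw [integral_finsetSum _ fun j _ => iPMM hν c i j]
    simp only [L2 hν]
    rw [← Finset.add_sum_erase _ _ (Finset.mem_univ i), if_pos rfl]
    congr 1
    have e3 : ∀ j ∈ Finset.univ.erase i, (if i = j then ∫ p, p.1 ^ 2 ∂ν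
        else (c * ∫ p, p.1 ^ 2 ∂ν) ^ 2) = (c * ∫ p, p.1 ^ 2 ∂ν) ^ 2 := fun j hj =>
      if_neg (Finset.ne_of_mem_erase hj).symm
    rw [Finset.sum_congr rfl e3, Finset.sum_const, Finset.card_erase_of_mem (Finset.mem_univ i),
      Finset.card_univ, Fintype.card_fin, nsmul_eq_mul, Nat.cast_sub]
    · simp
    · exact Nat.one_le_of_lt (Nat.pos_of_ne_zero (by rintro rfl; exact i.elim0))
  simp only [e2, Finset.sum_const, Finset.card_univ, Fintype.card_fin, nsmul_eq_mul]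

/-- `∫ P_c (h + θ S)` -/
lemma K1 (hν : IsBP b θ ν0 ν) (c h : ℝ) :
    Integrable (fun p => P c p * (h + θ * S p)) (Measure.pi fun _ : Fin b => ν) ∧
    ∫ p, P c p * (h + θ * S p) ∂(Measure.pi fun _ : Fin b => ν)
      = h + θ * (b * (c * ∫ p, p.1 ^ 2 ∂ν)) := by
  have e : (fun p : Fin b → ℝ × ℝ => P c p * (h + θ * S p))
      = fun p => h * P c p + θ * (P c p * S p) := by
    funext p; ring
  rw [e]
  refine ⟨((iP hν c).const_mul h).add ((LS1 hν c).1.const_mul θ), ?_⟩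
  rw [integral_add ((iP hν c).const_mul h) ((LS1 hν c).1.const_mul θ), integral_const_mul,
    integral_const_mul, L0 hν, (LS1 hν c).2, mul_one]

lemma K2 (hν : IsBP b θ ν0 ν) (c h : ℝ) :
    Integrable (fun p => P c p * (h + θ * S p) ^ 2) (Measure.pi fun _ : Fin b => ν) ∧
    ∫ p, P c p * (h + θ * S p) ^ 2 ∂(Measure.pi fun _ : Fin b => ν)
      = h ^ 2 + 2 * h * θ * (b * (c * ∫ p, p.1 ^ 2 ∂ν))
        + θ ^ 2 * (b * (∫ p, p.1 ^ 2 ∂ν + (b - 1) * (c * ∫ p, p.1 ^ 2 ∂ν) ^ 2)) := by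
  have e : (fun p : Fin b → ℝ × ℝ => P c p * (h + θ * S p) ^ 2)
      = fun p => (h ^ 2 * P c p + (2 * h * θ) * (P c p * S p)) + θ ^ 2 * (P c p * S p ^ 2) := by
    funext p; ring
  rw [e]
  have i1 : Integrable (fun p : Fin b → ℝ × ℝ => h ^ 2 * P c p + (2 * h * θ) * (P c p * S p))
      (Measure.pi fun _ : Fin b => ν) :=
    ((iP hν c).const_mul (h ^ 2)).add ((LS1 hν c).1.const_mul (2 * h * θ))
  have i2 : Integrable (fun p : Fin b → ℝ × ℝ => θ ^ 2 * (P c p * S p ^ 2))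
      (Measure.pi fun _ : Fin b => ν) := (LS2 hν c).1.const_mul (θ ^ 2)
  refine ⟨i1.add i2, ?_⟩
  rw [integral_add i1 i2, integral_add ((iP hν c).const_mul (h ^ 2))
    ((LS1 hν c).1.const_mul (2 * h * θ)), integral_const_mul, integral_const_mul,
    integral_const_mul, L0 hν, (LS1 hν c).2, (LS2 hν c).2, mul_one]

lemma int_sq0 (hν : IsBP b θ ν0 ν) : Integrable (fun h : ℝ => h ^ 2) ν0 := by
  have := hν.prob0
  refine Integrable.of_bound (C := 1) (by fun_prop) ?_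
  filter_upwards [hν.bdd0] with h hh
  rw [Real.norm_eq_abs, abs_pow]
  exact pow_le_one₀ (abs_nonneg _) hh.le

lemma w_bound (h0 : 0 < θ) (h1 : θ < 1) {h : ℝ} (hh : |h| ≤ 1) {p : Fin b → ℝ × ℝ}
    (hp : ∀ i, |(p i).1| ≤ 1) : wBP b θ h p ≤ 2 * 2 ^ b := by
  have a1 : |P θ p| ≤ 2 ^ b := by
    refine (P_bound θ hp).trans (pow_le_pow_left₀ (by positivity) ?_ b)
    rw [abs_of_pos h0]; linarith
  have a2 : |P (-θ) p| ≤ 2 ^ b := by
    refine (P_bound (-θ) hp).trans (pow_le_pow_left₀ (by positivity) ?_ b)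
    rw [abs_neg, abs_of_pos h0]; linarith
  rw [w_eq]
  have hh1 := (abs_le.mp hh).1
  have hh2 := (abs_le.mp hh).2
  have b1 := (abs_le.mp a1).2
  have b2 := (abs_le.mp a2).2
  have h2 : (0 : ℝ) ≤ 2 ^ b := by positivity
  nlinarith [mul_nonneg (show (0 : ℝ) ≤ (1 + h) / 2 by linarith) (sub_nonneg.2 b1),
    mul_nonneg (show (0 : ℝ) ≤ (1 - h) / 2 by linarith) (sub_nonneg.2 b2)]

/-- generic comparison: a pointwise lower bound of `G (n/w) w` with explicit inner integral -/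
lemma compare (hν : IsBP b θ ν0 ν) (h0 : 0 < θ) (h1 : θ < 1) (G : ℝ → ℝ) (hG : Measurable G)
    (C : ℝ) (hGb : ∀ x, |x| ≤ 1 → |G x| ≤ C) (g : ℝ → (Fin b → ℝ × ℝ) → ℝ) (I : ℝ → ℝ)
    (hI : Integrable I ν0)
    (hgi : ∀ h, Integrable (g h) (Measure.pi fun _ : Fin b => ν))
    (hgI : ∀ h, ∫ p, g h p ∂(Measure.pi fun _ : Fin b => ν) = I h)
    (hle : ∀ h p, |h| < 1 → (∀ i, |(p i).1| ≤ 1) →
      g h p ≤ G (nBP b θ h p / wBP b θ h p) * wBP b θ h p) :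
    ∫ h, I h ∂ν0 ≤ ∫ h, ∫ p, G (nBP b θ h p / wBP b θ h p) * wBP b θ h p
      ∂(Measure.pi fun _ : Fin b => ν) ∂ν0 := by
  have := hν.prob
  have := hν.prob0
  have hmeas : Measurable fun q : ℝ × (Fin b → ℝ × ℝ) =>
      G (nBP b θ q.1 q.2 / wBP b θ q.1 q.2) * wBP b θ q.1 q.2 :=
    (hG.comp (measurable_nBP.div measurable_wBP)).mul measurable_wBP
  have hC : 0 ≤ C := (abs_nonneg _).trans (hGb 0 (by simp))
  have hbd : ∀ h, |h| < 1 → ∀ᵐ p ∂(Measure.pi fun _ : Fin b => ν),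
      ‖G (nBP b θ h p / wBP b θ h p) * wBP b θ h p‖ ≤ C * (2 * 2 ^ b) := by
    intro h hh
    filter_upwards [hν.ae_bdd_pi] with p hp
    have hp1 : ∀ i, |(p i).1| ≤ 1 := fun i => (hp i).1
    have hw := wBP_pos h0 h1 hh.le hp1
    rw [Real.norm_eq_abs, abs_mul, abs_of_pos hw]
    have h3 : |nBP b θ h p / wBP b θ h p| ≤ 1 := by
      rw [abs_div, abs_of_pos hw, div_le_one hw]
      exact abs_nBP_le h0 h1 hh.le hp1
    exact mul_le_mul (hGb _ h3) (w_bound h0 h1 hh.le hp1) hw.le hC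
  have hsm : StronglyMeasurable fun h => ∫ p, G (nBP b θ h p / wBP b θ h p) * wBP b θ h p
      ∂(Measure.pi fun _ : Fin b => ν) := hmeas.stronglyMeasurable.integral_prod_right'
  have hHi : Integrable (fun h => ∫ p, G (nBP b θ h p / wBP b θ h p) * wBP b θ h p
      ∂(Measure.pi fun _ : Fin b => ν)) ν0 := by
    refine Integrable.of_bound (C := C * (2 * 2 ^ b)) hsm.aestronglyMeasurable ?_
    filter_upwards [hν.bdd0] with h hh
    refine (norm_integral_le_of_norm_le_const (hbd h hh)).trans ?_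
    simp
  refine integral_mono_ae hI hHi ?_
  filter_upwards [hν.bdd0] with h hh
  rw [← hgI h]
  refine integral_mono_ae (hgi h) ?_ ?_
  · exact Integrable.of_bound (C := C * (2 * 2 ^ b))
      (hmeas.comp measurable_prodMk_left).aestronglyMeasurable (hbd h hh)
  · filter_upwards [hν.ae_bdd_pi] with p hp
    exact hle h p hh fun i => (hp i).1

lemma A_nonneg : 0 ≤ ∫ p : ℝ × ℝ, p.1 ^ 2 ∂ν := integral_nonneg fun p => sq_nonneg _

lemma io_nonneg : 0 ≤ ∫ h : ℝ, h ^ 2 ∂ν0 := integral_nonneg fun p => sq_nonneg _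

lemma bern (b : ℕ) (hb : 2 ≤ b) {y : ℝ} (hy0 : 0 ≤ y) (hy1 : y ≤ 1) :
    1 - b * y + (b - 1) * y ^ 2 ≤ (1 - y) ^ b := by
  induction b, hb using Nat.le_induction with
  | base => norm_num; nlinarith
  | succ b hb ih =>
    rw [pow_succ]
    have h1 : (1 - b * y + (b - 1) * y ^ 2) * (1 - y) ≤ (1 - y) ^ b * (1 - y) :=
      mul_le_mul_of_nonneg_right ih (by linarith)
    refine le_trans ?_ h1
    push_cast
    have hb' : (2 : ℝ) ≤ b := by exact_mod_cast hb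
    have : 0 ≤ ((b : ℝ) - 1) * y ^ 2 * (1 - y) :=
      mul_nonneg (mul_nonneg (by linarith) (sq_nonneg y)) (by linarith)
    nlinarith

end BPinfom

open BPinfom

theorem bp_lower (hν : IsBP b θ ν0 ν) (hb : 2 ≤ b) (h0 : 0 < θ) (h1 : θ < 1)
    (hθ : b * θ ^ 2 < 1) :
    ∫ h, h ^ 2 ∂ν0 ≤ (∫ p, p.1 ^ 2 ∂ν) * (1 - b * θ ^ 2) +
      (∫ p, p.1 ^ 2 ∂ν) * (∫ h, h ^ 2 ∂ν0) + (∫ p, p.1 ^ 2 ∂ν) ^ 2 := by
  have := hν.prob
  have := hν.prob0
  set A := ∫ p, p.1 ^ 2 ∂ν with hA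
  set io := ∫ h, h ^ 2 ∂ν0 with hio
  have hA0 : 0 ≤ A := A_nonneg
  have hio0 : 0 ≤ io := io_nonneg
  set B := io + b * θ ^ 2 * A with hB
  have hB0 : 0 ≤ B := by positivity
  -- the comparison for every c
  have key : ∀ c : ℝ, 2 * c * B - c ^ 2 * (B + B ^ 2) ≤ A := by
    intro c
    have hfix := hν.fix' h0 h1 hθ (F := fun p => p.1 ^ 2) (by fun_prop)
      ⟨1, fun p hp _ _ => by rw [abs_pow]; exact pow_le_one₀ (abs_nonneg _) hp⟩
    simp only at hfix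
    rw [← hA] at hfix
    have hcmp := compare hν h0 h1 (fun x => x ^ 2) (by fun_prop) 1
      (fun x hx => by rw [abs_pow]; exact pow_le_one₀ (abs_nonneg _) hx)
      (g := fun h p => (c * (1 + h)) * (P θ p * (h + θ * S p))
        + (-(c * (1 - h))) * (P (-θ) p * (h + θ * S p))
        + ((-(c ^ 2 * ((1 + h) / 2))) * (P θ p * (h + θ * S p) ^ 2)
        + (-(c ^ 2 * ((1 - h) / 2))) * (P (-θ) p * (h + θ * S p) ^ 2)))
      (I := fun h => 2 * c * (h ^ 2 + b * θ ^ 2 * A)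
        - c ^ 2 * (h ^ 2 + θ ^ 2 * (b * (A + (b - 1) * (θ * A) ^ 2)) + 2 * h ^ 2 * (b * θ ^ 2 * A)))
      ?_ ?_ ?_ ?_
    · rw [← hfix] at hcmp
      have hmid : ∫ h, (2 * c * (h ^ 2 + b * θ ^ 2 * A)
          - c ^ 2 * (h ^ 2 + θ ^ 2 * (b * (A + (b - 1) * (θ * A) ^ 2))
            + 2 * h ^ 2 * (b * θ ^ 2 * A))) ∂ν0 = 2 * c * B
          - c ^ 2 * (io + θ ^ 2 * (b * (A + (b - 1) * (θ * A) ^ 2))
          + 2 * io * (b * θ ^ 2 * A)) := ?_
      · rw [hmid] at hcmp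
        refine le_trans ?_ hcmp
        have hb' : (2 : ℝ) ≤ b := by exact_mod_cast hb
        have h3 : io + θ ^ 2 * (b * (A + (b - 1) * (θ * A) ^ 2)) + 2 * io * (b * θ ^ 2 * A)
            ≤ B + B ^ 2 := by
          have e : B + B ^ 2 - (io + θ ^ 2 * (b * (A + (b - 1) * (θ * A) ^ 2))
              + 2 * io * (b * θ ^ 2 * A)) = io ^ 2 + b * (θ ^ 2 * A) ^ 2 := by
            rw [hB]; ring
          have : 0 ≤ io ^ 2 + b * (θ ^ 2 * A) ^ 2 := by positivity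
          linarith
        nlinarith [sq_nonneg c, mul_le_mul_of_nonneg_left h3 (sq_nonneg c)]
      · have e : (fun h : ℝ => 2 * c * (h ^ 2 + b * θ ^ 2 * A)
            - c ^ 2 * (h ^ 2 + θ ^ 2 * (b * (A + (b - 1) * (θ * A) ^ 2))
              + 2 * h ^ 2 * (b * θ ^ 2 * A)))
            = fun h => (2 * c - c ^ 2 * (1 + 2 * (b * θ ^ 2 * A))) * h ^ 2
              + (2 * c * (b * θ ^ 2 * A)
                - c ^ 2 * (θ ^ 2 * (b * (A + (b - 1) * (θ * A) ^ 2)))) := by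
          funext h; ring
        rw [e, integral_add ((int_sq0 hν).const_mul _) (integrable_const _), integral_const_mul,
          ← hio, integral_const]
        simp only [measureReal_def, measure_univ, ENNReal.toReal_one, one_smul, smul_eq_mul, one_mul]
        rw [hB]
        ring
    · have e : (fun h : ℝ => 2 * c * (h ^ 2 + b * θ ^ 2 * A)
            - c ^ 2 * (h ^ 2 + θ ^ 2 * (b * (A + (b - 1) * (θ * A) ^ 2))
              + 2 * h ^ 2 * (b * θ ^ 2 * A)))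
            = fun h => (2 * c - c ^ 2 * (1 + 2 * (b * θ ^ 2 * A))) * h ^ 2
              + (2 * c * (b * θ ^ 2 * A)
                - c ^ 2 * (θ ^ 2 * (b * (A + (b - 1) * (θ * A) ^ 2)))) := by
        funext h; ring
      rw [e]
      exact ((int_sq0 hν).const_mul _).add (integrable_const _)
    · intro h
      exact (((K1 hν θ h).1.const_mul _).add ((K1 hν (-θ) h).1.const_mul _)).add
        (((K2 hν θ h).1.const_mul _).add ((K2 hν (-θ) h).1.const_mul _))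
    · intro h
      rw [lin4 (K1 hν θ h).1 (K1 hν (-θ) h).1 (K2 hν θ h).1 (K2 hν (-θ) h).1,
        (K1 hν θ h).2, (K1 hν (-θ) h).2, (K2 hν θ h).2, (K2 hν (-θ) h).2, ← hA]
      ring
    · intro h p hh hp
      have hw := wBP_pos h0 h1 hh.le hp
      have e : (c * (1 + h)) * (P θ p * (h + θ * S p))
        + (-(c * (1 - h))) * (P (-θ) p * (h + θ * S p))
        + ((-(c ^ 2 * ((1 + h) / 2))) * (P θ p * (h + θ * S p) ^ 2)
        + (-(c ^ 2 * ((1 - h) / 2))) * (P (-θ) p * (h + θ * S p) ^ 2))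
        = 2 * c * nBP b θ h p * (h + θ * S p) - c ^ 2 * wBP b θ h p * (h + θ * S p) ^ 2 := by
        rw [w_eq, n_eq]; ring
      rw [e]
      have e2 : (nBP b θ h p / wBP b θ h p) ^ 2 * wBP b θ h p
          - (2 * c * nBP b θ h p * (h + θ * S p) - c ^ 2 * wBP b θ h p * (h + θ * S p) ^ 2)
          = (nBP b θ h p / wBP b θ h p - c * (h + θ * S p)) ^ 2 * wBP b θ h p := by
        field_simp
        ring
      have e3 : 0 ≤ (nBP b θ h p / wBP b θ h p - c * (h + θ * S p)) ^ 2 * wBP b θ h p :=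
        mul_nonneg (sq_nonneg _) hw.le
      linarith
  have h4 := key (1 / (1 + B))
  have h5 : 2 * (1 / (1 + B)) * B - (1 / (1 + B)) ^ 2 * (B + B ^ 2) = B / (1 + B) := by
    field_simp
    ring
  rw [h5, div_le_iff₀ (by linarith)] at h4
  have h6 : A * (1 + B) ≤ A * (1 - b * θ ^ 2) + b * θ ^ 2 * A + A * io + A ^ 2 := by
    have : A * B ≤ A * io + A ^ 2 := by
      rw [hB]
      nlinarith [mul_nonneg hA0 hA0]
    nlinarith
  have h7 : B = io + b * θ ^ 2 * A := hB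
  linarith

namespace BPinfom

lemma iD (hν : IsBP b θ ν0 ν) (h0 : 0 < θ) (h1 : θ < 1) (c : ℝ) :
    Integrable (fun p => P c p * ∏ i, (1 - θ ^ 2 * (p i).1 ^ 2))
      (Measure.pi fun _ : Fin b => ν) := by
  refine int_of_poly hν ((P_meas c).mul (by fun_prop)) ((1 + |c|) ^ b) fun p hp => ?_
  rw [abs_mul]
  have h2 : (0 : ℝ) ≤ (1 + |c|) ^ b := by positivity
  have h3 : |∏ i, (1 - θ ^ 2 * (p i).1 ^ 2)| ≤ 1 := by
    rw [Finset.abs_prod]
    refine Finset.prod_le_one (fun i _ => abs_nonneg _) fun i _ => ?_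
    have h4 : (p i).1 ^ 2 ≤ 1 := by rw [← sq_abs]; exact pow_le_one₀ (abs_nonneg _) (hp i)
    have h5 : θ ^ 2 ≤ 1 := by nlinarith
    have h6 : 0 ≤ θ ^ 2 * (p i).1 ^ 2 := by positivity
    have h7 : θ ^ 2 * (p i).1 ^ 2 ≤ 1 := mul_le_one₀ h5 (sq_nonneg _) h4
    rw [abs_le]
    constructor <;> linarith
  calc |P c p| * |∏ i, (1 - θ ^ 2 * (p i).1 ^ 2)| ≤ (1 + |c|) ^ b * 1 :=
        mul_le_mul (P_bound c hp) h3 (abs_nonneg _) h2
    _ = _ := mul_one _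

lemma ptw (h0 : 0 < θ) (h1 : θ < 1) (h : ℝ) (p : Fin b → ℝ × ℝ) (hh : |h| < 1)
    (hp : ∀ i, |(p i).1| ≤ 1) :
    (2 * (1 - h ^ 2)) * (P 0 p * ∏ i, (1 - θ ^ 2 * (p i).1 ^ 2))
      + ((-((1 - h ^ 2) * ((1 + h) / 2))) * (P θ p * ∏ i, (1 - θ ^ 2 * (p i).1 ^ 2))
      + (-((1 - h ^ 2) * ((1 - h) / 2))) * (P (-θ) p * ∏ i, (1 - θ ^ 2 * (p i).1 ^ 2)))
      ≤ (1 - (nBP b θ h p / wBP b θ h p) ^ 2) * wBP b θ h p := by
  have hP0 : P 0 p = 1 := by simp [P]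
  have hw := wBP_pos h0 h1 hh.le hp
  have hsq := wBP_sq_sub_nBP_sq (θ := θ) h p
  have hD : 0 ≤ wBP b θ h p ^ 2 - nBP b θ h p ^ 2 := by
    have := abs_nBP_le h0 h1 hh.le hp
    have h2 : nBP b θ h p ^ 2 ≤ wBP b θ h p ^ 2 := sq_le_sq' (by linarith [(abs_le.1 this).1])
      ((abs_le.1 this).2)
    linarith
  rw [hP0, one_mul]
  have e : (2 * (1 - h ^ 2)) * (∏ i, (1 - θ ^ 2 * (p i).1 ^ 2))
      + ((-((1 - h ^ 2) * ((1 + h) / 2))) * (P θ p * ∏ i, (1 - θ ^ 2 * (p i).1 ^ 2))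
      + (-((1 - h ^ 2) * ((1 - h) / 2))) * (P (-θ) p * ∏ i, (1 - θ ^ 2 * (p i).1 ^ 2)))
      = (wBP b θ h p ^ 2 - nBP b θ h p ^ 2) * (2 - wBP b θ h p) := by
    rw [hsq, w_eq]; ring
  rw [e]
  have e2 : (1 - (nBP b θ h p / wBP b θ h p) ^ 2) * wBP b θ h p
      = (wBP b θ h p ^ 2 - nBP b θ h p ^ 2) * (1 / wBP b θ h p) := by
    field_simp
  rw [e2]
  refine mul_le_mul_of_nonneg_left ?_ hD
  rw [le_div_iff₀ hw]
  nlinarith [sq_nonneg (wBP b θ h p - 1)]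

lemma one_sub_sq_bdd {x : ℝ} (hx : |x| ≤ 1) : |1 - x ^ 2| ≤ 1 := by
  have h1 : x ^ 2 ≤ 1 := by rw [← sq_abs]; exact pow_le_one₀ (abs_nonneg _) hx
  have h2 := sq_nonneg x
  rw [abs_le]; constructor <;> linarith

lemma innerI (hν : IsBP b θ ν0 ν) (h0 : 0 < θ) (h1 : θ < 1) (h : ℝ) :
    ∫ p, ((2 * (1 - h ^ 2)) * (P 0 p * ∏ i, (1 - θ ^ 2 * (p i).1 ^ 2))
      + ((-((1 - h ^ 2) * ((1 + h) / 2))) * (P θ p * ∏ i, (1 - θ ^ 2 * (p i).1 ^ 2))
      + (-((1 - h ^ 2) * ((1 - h) / 2))) * (P (-θ) p * ∏ i, (1 - θ ^ 2 * (p i).1 ^ 2))))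
      ∂(Measure.pi fun _ : Fin b => ν)
      = (1 - h ^ 2) * (1 - θ ^ 2 * ∫ p, p.1 ^ 2 ∂ν) ^ b := by
  rw [lin3 (iD hν h0 h1 0) (iD hν h0 h1 θ) (iD hν h0 h1 (-θ)), L3 hν, L3 hν, L3 hν]
  ring

lemma upper_core (hν : IsBP b θ ν0 ν) (h0 : 0 < θ) (h1 : θ < 1)
    (hθ : b * θ ^ 2 < 1) :
    (1 - ∫ h, h ^ 2 ∂ν0) * (1 - θ ^ 2 * ∫ p, p.1 ^ 2 ∂ν) ^ b ≤ 1 - ∫ p, p.1 ^ 2 ∂ν := by
  have := hν.prob
  have := hν.prob0
  have hfix := hν.fix' h0 h1 hθ (F := fun p => 1 - p.1 ^ 2) (by fun_prop)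
    ⟨1, fun p hp _ _ => one_sub_sq_bdd hp⟩
  have hL : ∫ p : ℝ × ℝ, (1 - p.1 ^ 2) ∂ν = 1 - ∫ p, p.1 ^ 2 ∂ν := by
    rw [integral_sub (integrable_const 1) (int_pow hν 2), int_one hν]
  rw [hL] at hfix
  have hI : ∫ h : ℝ, (1 - h ^ 2) * (1 - θ ^ 2 * ∫ p, p.1 ^ 2 ∂ν) ^ b ∂ν0
      = (1 - ∫ h, h ^ 2 ∂ν0) * (1 - θ ^ 2 * ∫ p, p.1 ^ 2 ∂ν) ^ b := by
    rw [integral_mul_const, integral_sub (integrable_const 1) (int_sq0 hν)]
    simp
  rw [← hI, hfix]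
  exact compare hν h0 h1 (fun x => 1 - x ^ 2) (by fun_prop) 1 (fun x hx => one_sub_sq_bdd hx)
    _ (fun h => (1 - h ^ 2) * (1 - θ ^ 2 * ∫ p, p.1 ^ 2 ∂ν) ^ b)
    (((integrable_const 1).sub (int_sq0 hν)).mul_const _)
    (fun h => ((iD hν h0 h1 0).const_mul _).add
      (((iD hν h0 h1 θ).const_mul _).add ((iD hν h0 h1 (-θ)).const_mul _)))
    (innerI hν h0 h1) (ptw h0 h1)

lemma arith (b : ℕ) (hb : 2 ≤ b) {θ A io : ℝ} (h0 : 0 < θ) (h1 : θ < 1) (hθ : b * θ ^ 2 < 1)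
    (hA0 : 0 ≤ A) (hA1 : A ≤ 1) (hio0 : 0 ≤ io) (hio1 : io ≤ 1)
    (h : (1 - io) * (1 - θ ^ 2 * A) ^ b ≤ 1 - A) :
    ((b : ℝ) - 1) * θ ^ 4 * A ^ 2 * (1 - io) ≤ io := by
  have hy0 : 0 ≤ θ ^ 2 * A := by positivity
  have hy1 : θ ^ 2 * A ≤ 1 := by
    have : θ ^ 2 ≤ 1 := by nlinarith
    exact mul_le_one₀ this hA0 hA1
  have h2 := bern b hb hy0 hy1
  have h3 : (1 - io) * (1 - b * (θ ^ 2 * A) + (b - 1) * (θ ^ 2 * A) ^ 2) ≤ 1 - A :=
    (mul_le_mul_of_nonneg_left h2 (by linarith)).trans h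
  have h4 : 0 ≤ A * (1 - b * θ ^ 2) := mul_nonneg hA0 (by linarith)
  have h5 : 0 ≤ io * (b * θ ^ 2 * A) := by positivity
  have e : ((b : ℝ) - 1) * θ ^ 4 * A ^ 2 * (1 - io)
      = (1 - io) * (1 - b * (θ ^ 2 * A) + (b - 1) * (θ ^ 2 * A) ^ 2)
        - (1 - io) * (1 - b * (θ ^ 2 * A)) := by ring
  rw [e]
  have e2 : (1 - io) * (1 - b * (θ ^ 2 * A)) = 1 - A - io + A * (1 - b * θ ^ 2)
    + io * (b * θ ^ 2 * A) := by ring
  linarith

end BPinfom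

theorem bp_upper (hν : IsBP b θ ν0 ν) (hb : 2 ≤ b) (h0 : 0 < θ) (h1 : θ < 1)
    (hθ : b * θ ^ 2 < 1) :
    ((b : ℝ) - 1) * θ ^ 4 * (∫ p, p.1 ^ 2 ∂ν) ^ 2 * (1 - ∫ h, h ^ 2 ∂ν0) ≤ ∫ h, h ^ 2 ∂ν0 := by
  have := hν.prob
  have := hν.prob0
  have hA1 : ∫ p, p.1 ^ 2 ∂ν ≤ 1 := by
    have h2 : ∫ p, p.1 ^ 2 ∂ν ≤ ∫ _p, (1 : ℝ) ∂ν := by
      refine integral_mono_ae (int_pow hν 2) (integrable_const 1) ?_
      filter_upwards [hν.bdd] with p hp
      rw [← sq_abs]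
      exact pow_le_one₀ (abs_nonneg _) hp.1
    simpa using h2
  have hio1 : ∫ h, h ^ 2 ∂ν0 ≤ 1 := by
    have h2 : ∫ h, h ^ 2 ∂ν0 ≤ ∫ _p, (1 : ℝ) ∂ν0 := by
      refine integral_mono_ae (int_sq0 hν) (integrable_const 1) ?_
      filter_upwards [hν.bdd0] with p hp
      rw [← sq_abs]
      exact pow_le_one₀ (abs_nonneg _) hp.le
    simpa using h2
  exact arith b hb h0 h1 hθ A_nonneg hA1 io_nonneg hio1 (upper_core hν h0 h1 hθ)

end Vale.Agent.P161.EP
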