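import Mathlib
import Vale.Agent.P161.EP.BPbase

/-!
# Module I4 (BPvar): the variance of `X`

`X_c = 1 + θ² ∑ (1-κ_z) X_z`, the `(κ_z, X_z)` are independent under `E_w` (`IsBP.even`), so
`Var X = b θ⁴ Var((1-κ)X) ≤ (1/b) Var((1-κ) X)` and `sd((1-κ)X) ≤ sd(X) + ‖κ X‖₂`, `κ ≤ 2 M²`.
-/

open MeasureTheory

namespace Vale.Agent.P161.EP

variable {b : ℕ} {θ : ℝ} {ν0 : Measure ℝ} {ν : Measure (ℝ × ℝ)}

theorem BPvar_cs {α : Type*} [MeasurableSpace α] {μ : Measure α} {f g : α → ℝ}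
    (hf : Integrable (fun x => f x ^ 2) μ) (hg : Integrable (fun x => g x ^ 2) μ)
    (hfg : Integrable (fun x => f x * g x) μ) :
    (∫ x, f x * g x ∂μ) ^ 2 ≤ (∫ x, f x ^ 2 ∂μ) * ∫ x, g x ^ 2 ∂μ := by
  have h : ∀ t : ℝ, 0 ≤ (∫ x, f x ^ 2 ∂μ) * (t * t) + (2 * ∫ x, f x * g x ∂μ) * t
      + ∫ x, g x ^ 2 ∂μ := by
    intro t
    have h1 : 0 ≤ ∫ x, (t * f x + g x) ^ 2 ∂μ := integral_nonneg fun x => sq_nonneg _
    have h2 : ∫ x, (t * f x + g x) ^ 2 ∂μ
        = (t * t) * (∫ x, f x ^ 2 ∂μ) + (2 * t) * (∫ x, f x * g x ∂μ) + ∫ x, g x ^ 2 ∂μ := by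
      rw [← integral_const_mul, ← integral_const_mul, ← integral_add, ← integral_add]
      · apply integral_congr_ae
        filter_upwards with x
        ring
      · exact (hf.const_mul _).add (hfg.const_mul _)
      · exact hg
      · exact hf.const_mul _
      · exact hfg.const_mul _
    rw [h2] at h1
    linarith
  have h3 := discrim_le_zero h
  unfold discrim at h3
  nlinarith

theorem BPvar_tri {α : Type*} [MeasurableSpace α] {μ : Measure α} {f g : α → ℝ}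
    (hf : Integrable (fun x => f x ^ 2) μ) (hg : Integrable (fun x => g x ^ 2) μ)
    (hfg : Integrable (fun x => f x * g x) μ) :
    √(∫ x, (f x - g x) ^ 2 ∂μ) ≤ √(∫ x, f x ^ 2 ∂μ) + √(∫ x, g x ^ 2 ∂μ) := by
  have h1 := BPvar_cs hf hg hfg
  have hA : 0 ≤ ∫ x, f x ^ 2 ∂μ := integral_nonneg fun x => sq_nonneg _
  have hC : 0 ≤ ∫ x, g x ^ 2 ∂μ := integral_nonneg fun x => sq_nonneg _
  apply Real.sqrt_le_iff.mpr
  constructor
  · positivity
  · have h2 : ∫ x, (f x - g x) ^ 2 ∂μ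
        = (∫ x, f x ^ 2 ∂μ) - 2 * (∫ x, f x * g x ∂μ) + ∫ x, g x ^ 2 ∂μ := by
      rw [← integral_const_mul, ← integral_sub, ← integral_add]
      · apply integral_congr_ae
        filter_upwards with x
        ring
      · exact hf.sub (hfg.const_mul _)
      · exact hg
      · exact hf
      · exact hfg.const_mul _
    have h3 : -(∫ x, f x * g x ∂μ) ≤ √(∫ x, f x ^ 2 ∂μ) * √(∫ x, g x ^ 2 ∂μ) := by
      rw [← Real.sqrt_mul hA]
      apply Real.le_sqrt_of_sq_le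
      rw [neg_sq]
      exact h1
    rw [h2, add_sq, Real.sq_sqrt hA, Real.sq_sqrt hC]
    linarith

/-- the law of `X` -/
theorem BPvar_law (hν : IsBP b θ ν0 ν) (h0 : 0 < θ) (h1 : θ < 1) (hθ : b * θ ^ 2 < 1)
    {F : ℝ → ℝ} (hF : Measurable F)
    (hb : ∃ C, ∀ x, 1 ≤ x → x ≤ 1 / (1 - b * θ ^ 2) → |F x| ≤ C) :
    ∫ p, F p.2 ∂ν = ∫ p, F (xBP b θ p) ∂(Measure.pi fun _ : Fin b => ν) := by
  classical
  have := hν.prob
  have := hν.prob0
  obtain ⟨C, hC⟩ := hb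
  let F' : ℝ → ℝ := (Set.Icc 1 (1 / (1 - b * θ ^ 2))).indicator F
  have hF' : Measurable F' := hF.indicator measurableSet_Icc
  have hb' : ∀ x, |F' x| ≤ |C| := by
    intro x
    by_cases hx : x ∈ Set.Icc 1 (1 / (1 - b * θ ^ 2))
    · simp only [F', Set.indicator_of_mem hx]
      exact le_trans (hC x hx.1 hx.2) (le_abs_self C)
    · simp only [F', Set.indicator_of_notMem hx, abs_zero]
      exact abs_nonneg C
  have e1 : ∫ p, F p.2 ∂ν = ∫ p, F' p.2 ∂ν := by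
    apply integral_congr_ae
    filter_upwards [hν.bdd] with p hp
    have : p.2 ∈ Set.Icc 1 (1 / (1 - b * θ ^ 2)) := hp.2
    simp only [F', Set.indicator_of_mem this]
  have e2 : ∫ p, F (xBP b θ p) ∂(Measure.pi fun _ : Fin b => ν)
      = ∫ p, F' (xBP b θ p) ∂(Measure.pi fun _ : Fin b => ν) := by
    apply integral_congr_ae
    filter_upwards [hν.ae_bdd_pi] with p hp
    have : xBP b θ p ∈ Set.Icc 1 (1 / (1 - b * θ ^ 2)) := BPbase_xBP_bounds h0 h1 hθ hp
    simp only [F', Set.indicator_of_mem this]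
  rw [e1, e2, hν.fix (fun p => F' p.2) (hF'.comp measurable_snd) ⟨|C|, fun p => hb' _⟩]
  have e3 : ∀ h : ℝ, ∫ p, F' (xBP b θ p) * wBP b θ h p ∂(Measure.pi fun _ : Fin b => ν)
      = ∫ p, F' (xBP b θ p) ∂(Measure.pi fun _ : Fin b => ν) := by
    intro h
    apply BPbase_even_inner hν h0 h1 h (hF'.comp measurable_xBP) _ ⟨|C|, fun p => hb' _⟩
    intro p i
    have : xBP b θ (Function.update p i (-(p i).1, (p i).2)) = xBP b θ p := by
      unfold xBP
      congr 1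
      apply Finset.sum_congr rfl
      intro j _
      by_cases hj : j = i
      · subst hj
        rw [Function.update_self]
        unfold lam
        simp
      · rw [Function.update_of_ne hj]
    show F' (xBP b θ (Function.update p i (-(p i).1, (p i).2))) = F' (xBP b θ p)
    rw [this]
  simp only [e3]
  simp

theorem bp_var (hν : IsBP b θ ν0 ν) (hb : 2 ≤ b) (h0 : 0 < θ) (h1 : θ < 1)
    (hθ : b * θ ^ 2 < 1) :
    (√b - 1) * √(∫ p, (p.2 - ∫ q, q.2 ∂ν) ^ 2 ∂ν) ≤ 2 * √(∫ p, (p.1 ^ 2 * p.2) ^ 2 ∂ν) := by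
  have := hν.prob
  have := hν.prob0
  set K : ℝ := 1 / (1 - b * θ ^ 2) with hK
  have hd : 0 < 1 - b * θ ^ 2 := by linarith
  have hK0 : 0 < K := by positivity
  set mX : ℝ := ∫ q, q.2 ∂ν with hmX
  set Y : ℝ × ℝ → ℝ := fun p => lam θ p.1 ^ 2 * p.2 with hY
  set Z : ℝ × ℝ → ℝ := fun p => (1 - lam θ p.1 ^ 2 / θ ^ 2) * p.2 with hZ
  have hYm : Measurable Y := by
    rw [hY]
    unfold lam
    fun_prop
  have hZm : Measurable Z := by
    rw [hZ]
    unfold lam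
    fun_prop
  have hθ2 : 0 < θ ^ 2 := by positivity
  -- bounded functions are integrable
  have hint : ∀ f : ℝ × ℝ → ℝ, Measurable f → (∃ C, ∀ p : ℝ × ℝ, |p.1| ≤ 1 → 1 ≤ p.2 → p.2 ≤ K →
      |f p| ≤ C) → Integrable f ν := by
    intro f hf ⟨C, hC⟩
    apply Integrable.of_bound (C := C) hf.aestronglyMeasurable
    filter_upwards [hν.bdd] with p hp
    exact hC p hp.1 hp.2.1 hp.2.2
  have hYb : ∀ p : ℝ × ℝ, |p.1| ≤ 1 → 1 ≤ p.2 → p.2 ≤ K → |Y p| ≤ K := by
    intro p hp1 hp2 hp3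
    obtain ⟨l0, l1⟩ := BPbase_lam_sq_le h0 h1 hp1
    rw [hY, abs_mul, abs_of_nonneg l0, abs_of_pos (by linarith : 0 < p.2)]
    calc lam θ p.1 ^ 2 * p.2 ≤ 1 * K := by
          apply mul_le_mul _ hp3 (by linarith) zero_le_one
          nlinarith
      _ = K := one_mul K
  have hZ0 : ∀ p : ℝ × ℝ, |p.1| ≤ 1 → 1 ≤ p.2 → 0 ≤ Z p ∧ Z p ≤ 2 * (p.1 ^ 2 * p.2) := by
    intro p hp1 hp2
    obtain ⟨l0, l1⟩ := BPbase_lam_sq_le h0 h1 hp1
    have hM : p.1 ^ 2 ≤ 1 := by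
      rw [← sq_abs]
      exact pow_le_one₀ (abs_nonneg _) hp1
    have hden : 0 < 1 - θ ^ 2 * p.1 ^ 2 := by nlinarith [sq_nonneg p.1]
    have hden1 : 1 - θ ^ 2 * p.1 ^ 2 ≤ 1 := by nlinarith [sq_nonneg p.1]
    have e1 : lam θ p.1 ^ 2 / θ ^ 2 = ((1 - p.1 ^ 2) / (1 - θ ^ 2 * p.1 ^ 2)) ^ 2 := by
      unfold lam
      field_simp
    have e2 : 1 - p.1 ^ 2 ≤ (1 - p.1 ^ 2) / (1 - θ ^ 2 * p.1 ^ 2) := by
      rw [le_div_iff₀ hden]
      nlinarith
    have e3 : (1 - p.1 ^ 2) ^ 2 ≤ lam θ p.1 ^ 2 / θ ^ 2 := by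
      rw [e1]
      exact pow_le_pow_left₀ (by linarith) e2 2
    constructor
    · rw [hZ]
      apply mul_nonneg _ (by linarith)
      have : lam θ p.1 ^ 2 / θ ^ 2 ≤ 1 := by
        rw [div_le_one hθ2]
        exact l1
      linarith
    · rw [hZ]
      have : 1 - lam θ p.1 ^ 2 / θ ^ 2 ≤ 2 * p.1 ^ 2 := by
        nlinarith [sq_nonneg (p.1 ^ 2)]
      have h5 := mul_le_mul_of_nonneg_right this (by linarith : (0 : ℝ) ≤ p.2)
      simp only
      linarith
  have hZb : ∀ p : ℝ × ℝ, |p.1| ≤ 1 → 1 ≤ p.2 → p.2 ≤ K → |Z p| ≤ 2 * K := by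
    intro p hp1 hp2 hp3
    obtain ⟨z0, z1⟩ := hZ0 p hp1 hp2
    rw [abs_of_nonneg z0]
    have hM : p.1 ^ 2 ≤ 1 := by
      rw [← sq_abs]
      exact pow_le_one₀ (abs_nonneg _) hp1
    have : p.1 ^ 2 * p.2 ≤ 1 * K := mul_le_mul hM hp3 (by linarith) zero_le_one
    linarith
  have hXi : Integrable (fun p : ℝ × ℝ => p.2) ν := hint _ measurable_snd ⟨K, fun p _ hp2 hp3 => by
    rw [abs_of_pos (by linarith : 0 < p.2)]
    exact hp3⟩
  have hYi : Integrable Y ν := hint _ hYm ⟨K, hYb⟩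
  have hZi : Integrable Z ν := hint _ hZm ⟨2 * K, hZb⟩
  -- the mean of X
  have hmean : mX = 1 + b * ∫ p, Y p ∂ν := by
    have e1 := BPvar_law hν h0 h1 hθ (F := fun x => x) measurable_id ⟨K, fun x hx1 hx2 => by
      rw [abs_of_pos (by linarith)]
      exact hx2⟩
    have e2 : ∫ p, xBP b θ p ∂(Measure.pi fun _ : Fin b => ν) = 1 + b * ∫ p, Y p ∂ν := by
      unfold xBP
      have hYpi : ∀ i : Fin b, Integrable (fun p : Fin b → ℝ × ℝ => lam θ (p i).1 ^ 2 * (p i).2)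
          (Measure.pi fun _ : Fin b => ν) := by
        intro i
        exact ((measurePreserving_eval (fun _ : Fin b => ν) i).integrable_comp_of_integrable hYi)
      rw [integral_add (integrable_const _) (integrable_finsetSum _ fun i _ => hYpi i),
        integral_finsetSum _ fun i _ => hYpi i]
      have e3 : ∀ i : Fin b, ∫ p : Fin b → ℝ × ℝ, lam θ (p i).1 ^ 2 * (p i).2
          ∂(Measure.pi fun _ : Fin b => ν) = ∫ p, Y p ∂ν := by
        intro i
        have h7 := (measurePreserving_eval (fun _ : Fin b => ν) i).map_eq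
        have h8 := integral_map (μ := Measure.pi fun _ : Fin b => ν)
          (measurable_pi_apply i).aemeasurable
          (f := Y) hYm.aestronglyMeasurable
        have h9 : Measure.map (fun a : Fin b → ℝ × ℝ => a i) (Measure.pi fun _ : Fin b => ν)
            = ν := h7
        rw [h9] at h8
        exact h8.symm
      simp only [e3]
      simp
    rw [hmX, e1, e2]
  -- the variance of X
  have hvar : ∫ p, (p.2 - mX) ^ 2 ∂ν = b * ∫ p, (Y p - ∫ q, Y q ∂ν) ^ 2 ∂ν := by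
    have e1 := BPvar_law hν h0 h1 hθ (F := fun x => (x - mX) ^ 2) (by fun_prop)
      ⟨(K + |mX|) ^ 2, fun x hx1 hx2 => by
        rw [abs_of_nonneg (sq_nonneg _), ← sq_abs]
        apply pow_le_pow_left₀ (abs_nonneg _)
        refine le_trans (abs_sub _ _) ?_
        rw [abs_of_pos (by linarith : 0 < x)]
        linarith⟩
    rw [e1]
    have hLp : MemLp Y 2 ν := by
      apply MemLp.of_bound hYm.aestronglyMeasurable K
      filter_upwards [hν.bdd] with p hp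
      exact hYb p hp.1 hp.2.1 hp.2.2
    have e2 := ProbabilityTheory.variance_sum_pi (μ := fun _ : Fin b => ν) (X := fun _ => Y)
      (fun _ => hLp)
    have hmeasS : Measurable (∑ i : Fin b, fun ω : Fin b → ℝ × ℝ => Y (ω i)) := by
      have e : (∑ i : Fin b, fun ω : Fin b → ℝ × ℝ => Y (ω i)) = fun ω => ∑ i, Y (ω i) := by
        funext ω
        rw [Finset.sum_apply]
      rw [e]
      apply Finset.measurable_sum
      intro i _
      exact hYm.comp (measurable_pi_apply i)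
    rw [ProbabilityTheory.variance_eq_integral hmeasS.aemeasurable] at e2
    simp only [ProbabilityTheory.variance_eq_integral hYm.aemeasurable, Finset.sum_const,
      Finset.card_univ, Fintype.card_fin, nsmul_eq_mul] at e2
    rw [← e2]
    have e3 : ∫ ω : Fin b → ℝ × ℝ, (∑ i : Fin b, fun ω : Fin b → ℝ × ℝ => Y (ω i)) ω
        ∂(Measure.pi fun _ : Fin b => ν) = mX - 1 := by
      have e4 := BPvar_law hν h0 h1 hθ (F := fun x => x) measurable_id ⟨K, fun x hx1 hx2 => by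
        rw [abs_of_pos (by linarith)]
        exact hx2⟩
      have e5 : ∫ ω : Fin b → ℝ × ℝ, (∑ i : Fin b, fun ω : Fin b → ℝ × ℝ => Y (ω i)) ω
          ∂(Measure.pi fun _ : Fin b => ν)
          = ∫ ω : Fin b → ℝ × ℝ, (xBP b θ ω - 1) ∂(Measure.pi fun _ : Fin b => ν) := by
        apply integral_congr_ae
        filter_upwards with ω
        rw [Finset.sum_apply]
        unfold xBP
        rw [hY]
        ring
      have hxi : Integrable (fun ω : Fin b → ℝ × ℝ => xBP b θ ω)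
          (Measure.pi fun _ : Fin b => ν) := by
        apply Integrable.of_bound (C := K) measurable_xBP.aestronglyMeasurable
        filter_upwards [hν.ae_bdd_pi] with p hp
        obtain ⟨x1, x2⟩ := BPbase_xBP_bounds h0 h1 hθ hp
        rw [Real.norm_eq_abs, abs_of_pos (by linarith)]
        exact x2
      rw [e5, integral_sub hxi (integrable_const _), ← e4]
      simp
      rfl
    rw [e3]
    apply integral_congr_ae
    filter_upwards with ω
    rw [Finset.sum_apply]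
    unfold xBP
    rw [hY]
    ring
  -- the triangle inequality
  set mY : ℝ := ∫ q, Y q ∂ν with hmY
  set mZ : ℝ := ∫ q, Z q ∂ν with hmZ
  have hYXZ : ∀ p, Y p = θ ^ 2 * (p.2 - Z p) := by
    intro p
    rw [hY, hZ]
    field_simp
    ring
  have hmYXZ : mY = θ ^ 2 * (mX - mZ) := by
    rw [hmY, hmX, hmZ, ← integral_sub hXi hZi, ← integral_const_mul]
    apply integral_congr_ae
    filter_upwards with p
    exact hYXZ p
  have hvar2 : ∫ p, (Y p - mY) ^ 2 ∂ν = θ ^ 4 * ∫ p, ((p.2 - mX) - (Z p - mZ)) ^ 2 ∂ν := by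
    rw [← integral_const_mul]
    apply integral_congr_ae
    filter_upwards with p
    rw [hYXZ p, hmYXZ]
    ring
  have hf2 : Integrable (fun p : ℝ × ℝ => (p.2 - mX) ^ 2) ν := by
    apply hint _ (by fun_prop)
    refine ⟨(K + |mX|) ^ 2, fun p _ hp2 hp3 => ?_⟩
    rw [abs_of_nonneg (sq_nonneg _), ← sq_abs]
    apply pow_le_pow_left₀ (abs_nonneg _)
    refine le_trans (abs_sub _ _) ?_
    rw [abs_of_pos (by linarith : 0 < p.2)]
    linarith
  have hg2 : Integrable (fun p : ℝ × ℝ => (Z p - mZ) ^ 2) ν := by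
    apply hint _ (by fun_prop)
    refine ⟨(2 * K + |mZ|) ^ 2, fun p hp1 hp2 hp3 => ?_⟩
    rw [abs_of_nonneg (sq_nonneg _), ← sq_abs]
    apply pow_le_pow_left₀ (abs_nonneg _)
    refine le_trans (abs_sub _ _) ?_
    have := hZb p hp1 hp2 hp3
    linarith
  have hfg : Integrable (fun p : ℝ × ℝ => (p.2 - mX) * (Z p - mZ)) ν := by
    apply hint _ (by fun_prop)
    refine ⟨(K + |mX|) * (2 * K + |mZ|), fun p hp1 hp2 hp3 => ?_⟩
    rw [abs_mul]
    apply mul_le_mul _ _ (abs_nonneg _) (by positivity)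
    · refine le_trans (abs_sub _ _) ?_
      rw [abs_of_pos (by linarith : 0 < p.2)]
      linarith
    · refine le_trans (abs_sub _ _) ?_
      have := hZb p hp1 hp2 hp3
      linarith
  have htri := BPvar_tri hf2 hg2 hfg
  have hZ2i : Integrable (fun p : ℝ × ℝ => Z p ^ 2) ν := by
    apply hint _ (by fun_prop)
    refine ⟨(2 * K) ^ 2, fun p hp1 hp2 hp3 => ?_⟩
    rw [abs_of_nonneg (sq_nonneg _), ← sq_abs]
    exact pow_le_pow_left₀ (abs_nonneg _) (hZb p hp1 hp2 hp3) 2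
  have hMXi : Integrable (fun p : ℝ × ℝ => (p.1 ^ 2 * p.2) ^ 2) ν := by
    apply hint _ (by fun_prop)
    refine ⟨K ^ 2, fun p hp1 hp2 hp3 => ?_⟩
    have hM : p.1 ^ 2 ≤ 1 := by
      rw [← sq_abs]
      exact pow_le_one₀ (abs_nonneg _) hp1
    rw [abs_of_nonneg (sq_nonneg _)]
    apply pow_le_pow_left₀ (by positivity)
    calc p.1 ^ 2 * p.2 ≤ 1 * K := mul_le_mul hM hp3 (by linarith) zero_le_one
      _ = K := one_mul K
  have hZvar : ∫ p, (Z p - mZ) ^ 2 ∂ν ≤ ∫ p, Z p ^ 2 ∂ν := by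
    have e : ∫ p, (Z p - mZ) ^ 2 ∂ν = (∫ p, Z p ^ 2 ∂ν) - mZ ^ 2 := by
      have e1 : ∫ p, (Z p - mZ) ^ 2 ∂ν = ∫ p, (Z p ^ 2 - 2 * mZ * Z p + mZ ^ 2) ∂ν := by
        apply integral_congr_ae
        filter_upwards with p
        ring
      have i1 : Integrable (fun p : ℝ × ℝ => Z p ^ 2 - 2 * mZ * Z p) ν :=
        hZ2i.sub (hZi.const_mul _)
      rw [e1, integral_add i1 (integrable_const _),
        integral_sub hZ2i (hZi.const_mul _), integral_const_mul, ← hmZ]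
      simp
      ring
    rw [e]
    nlinarith [sq_nonneg mZ]
  have hZle : ∫ p, Z p ^ 2 ∂ν ≤ ∫ p, (2 * (p.1 ^ 2 * p.2)) ^ 2 ∂ν := by
    apply integral_mono_ae hZ2i
    · have := hMXi.const_mul 4
      refine this.congr ?_
      filter_upwards with p
      ring
    · filter_upwards [hν.bdd] with p hp
      obtain ⟨z0, z1⟩ := hZ0 p hp.1 hp.2.1
      exact pow_le_pow_left₀ z0 z1 2
  have hZsqrt : √(∫ p, (Z p - mZ) ^ 2 ∂ν) ≤ 2 * √(∫ p, (p.1 ^ 2 * p.2) ^ 2 ∂ν) := by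
    have e : ∫ p : ℝ × ℝ, (2 * (p.1 ^ 2 * p.2)) ^ 2 ∂ν
        = 2 ^ 2 * ∫ p : ℝ × ℝ, (p.1 ^ 2 * p.2) ^ 2 ∂ν := by
      rw [← integral_const_mul]
      apply integral_congr_ae
      filter_upwards with p
      ring
    calc √(∫ p, (Z p - mZ) ^ 2 ∂ν) ≤ √(2 ^ 2 * ∫ p : ℝ × ℝ, (p.1 ^ 2 * p.2) ^ 2 ∂ν) := by
          apply Real.sqrt_le_sqrt
          rw [← e]
          exact le_trans hZvar hZle
      _ = 2 * √(∫ p, (p.1 ^ 2 * p.2) ^ 2 ∂ν) := by
          rw [Real.sqrt_mul (by positivity), Real.sqrt_sq (by norm_num)]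
  have hb0 : (0 : ℝ) < (b : ℝ) := by
    have : 0 < b := by omega
    exact_mod_cast this
  have hsd : √b * √(∫ p, (p.2 - mX) ^ 2 ∂ν)
      ≤ √(∫ p, (p.2 - mX) ^ 2 ∂ν) + √(∫ p, (Z p - mZ) ^ 2 ∂ν) := by
    have e : √b * √(∫ p, (p.2 - mX) ^ 2 ∂ν)
        = (b * θ ^ 2) * √(∫ p, ((p.2 - mX) - (Z p - mZ)) ^ 2 ∂ν) := by
      rw [← Real.sqrt_mul hb0.le, hvar, hvar2]
      have e2 : (b : ℝ) * (b * (θ ^ 4 * ∫ p, ((p.2 - mX) - (Z p - mZ)) ^ 2 ∂ν))
          = (b * θ ^ 2) ^ 2 * ∫ p, ((p.2 - mX) - (Z p - mZ)) ^ 2 ∂ν := by ring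
      rw [e2, Real.sqrt_mul (by positivity), Real.sqrt_sq (by positivity)]
    rw [e]
    calc (b * θ ^ 2) * √(∫ p, ((p.2 - mX) - (Z p - mZ)) ^ 2 ∂ν)
        ≤ 1 * √(∫ p, ((p.2 - mX) - (Z p - mZ)) ^ 2 ∂ν) :=
          mul_le_mul_of_nonneg_right hθ.le (Real.sqrt_nonneg _)
      _ ≤ _ := by
          rw [one_mul]
          exact htri
  linarith

end Vale.Agent.P161.EP
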