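import Mathlib
import Vale.Agent.P161.EP.BPinfo
import Vale.Agent.P161.EP.BPgauss
import Vale.Agent.P161.EP.BPexp
import Vale.Agent.P161.EP.BPvar

/-!
# Module I5 (BPsum): all estimates of the belief propagation laws together

Scale `v`: `v² = t³` in round `0`, `v = 1` later.
`A ≥ c v` if `1 - b θ² ≤ c v` (`bp_lower`), `A ≤ C v` (`bp_upper`, or trivially),
`∫ cosh(sM) ≤ exp(C v s²)` (`bp_gauss`, or `cosh x ≤ exp(x²/2)` if `v = 1`), so
`s = v^{-1/2}`: `∫ M⁸ ≤ C v⁴`, and (Chernoff, `s = ℓ/(2Cv)`) `P(|M| > ℓ) ≤ 2 exp(-ℓ²/(4Cv))`.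
`u = c2 v ≤ (1-θ²) b θ² A/16`: `∫ exp(uX) ≤ 4`, so `∫ X ≤ 4/u`, `∫ X⁴ ≤ 96/u⁴`;
tail: `x² 1(x > L) ≤ (8/w²) exp(w x - w L/2)` with `w = b^j u`, `L = 8/u + 2j`:
`∫ X² 1(X > L) ≤ (8/u²) exp(-2 b^j)`.  `bp_var` (Cauchy-Schwarz: `∫ M⁴X² ≤ √(∫M⁸) √(∫X⁴) ≤ C`).
If `1 - b θ² > c v` then `X ≤ 1/(c v)`.
-/

open MeasureTheory

namespace Vale.Agent.P161.EP

/-- The hypothesis on the own field at scale `v`. -/
def OwnHyp (ν0 : Measure ℝ) (t v : ℝ) : Prop :=
  (v ^ 2 = t ^ 3 ∧ (∀ᵐ h ∂ν0, |h| ≤ t / 2) ∧ ∫ h, h ^ 2 ∂ν0 = t ^ 3 / 72) ∨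
    (v = 1 ∧ 1 / 72 ≤ ∫ h, h ^ 2 ∂ν0)

section

variable {b : ℕ} {θ : ℝ} {ν0 : Measure ℝ} {ν : Measure (ℝ × ℝ)}

theorem BPsum_integrable (hν : IsBP b θ ν0 ν) {F : ℝ × ℝ → ℝ} (hF : Continuous F) :
    Integrable F ν := by
  have := hν.prob
  obtain ⟨K, hK⟩ := (isCompact_Icc (a := ((-1 : ℝ), (1 : ℝ)))
    (b := ((1 : ℝ), 1 / (1 - b * θ ^ 2)))).exists_bound_of_continuousOn hF.continuousOn
  apply Integrable.of_bound (C := K) hF.measurable.aestronglyMeasurable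
  filter_upwards [hν.bdd] with p hp
  apply hK
  rw [Set.mem_Icc, Prod.le_def, Prod.le_def]
  exact ⟨⟨(abs_le.mp hp.1).1, hp.2.1⟩, ⟨(abs_le.mp hp.1).2, hp.2.2⟩⟩

theorem BPsum_pow8_le_cosh (x : ℝ) : x ^ 8 ≤ 80640 * Real.cosh x := by
  have h1 : Real.exp |x| ≤ 2 * Real.cosh x := by
    rw [← Real.cosh_abs, Real.cosh_eq]
    have := Real.exp_pos (-|x|)
    linarith
  have h2 := Real.pow_div_factorial_le_exp |x| (abs_nonneg x) 8
  have h3 : |x| ^ 8 = x ^ 8 := Even.pow_abs (by decide) x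
  have h4 : ((8 : ℕ).factorial : ℝ) = 40320 := by norm_num [Nat.factorial]
  rw [h3, h4, div_le_iff₀ (by norm_num)] at h2
  linarith

theorem BPsum_theta_lt (hb : 2 ≤ b) (h0 : 0 < θ) (hθ : b * θ ^ 2 < 1) :
    θ < 1 ∧ θ ^ 2 ≤ 1 / 2 := by
  have hb' : (2 : ℝ) ≤ b := by exact_mod_cast hb
  have h1 : θ ^ 2 ≤ 1 / 2 := by nlinarith [sq_nonneg θ]
  exact ⟨by nlinarith, h1⟩

theorem BPsum_A_nonneg : 0 ≤ ∫ p, p.1 ^ 2 ∂ν := integral_nonneg fun _ => sq_nonneg _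

theorem BPsum_A_le_one (hν : IsBP b θ ν0 ν) : ∫ p, p.1 ^ 2 ∂ν ≤ 1 := by
  have := hν.prob
  have h1 : ∫ p, p.1 ^ 2 ∂ν ≤ ∫ _p, (1 : ℝ) ∂ν := by
    apply integral_mono_ae (BPsum_integrable hν (by fun_prop)) (integrable_const _)
    filter_upwards [hν.bdd] with p hp
    rw [← sq_abs]
    exact pow_le_one₀ (abs_nonneg _) hp.1
  simpa using h1

theorem BPsum_A_upper (hν : IsBP b θ ν0 ν) (hb : 2 ≤ b) (h0 : 0 < θ) (hθ : b * θ ^ 2 < 1)
    (hθ4 : 1 / 4 ≤ b * θ ^ 2) {t v : ℝ} (ht : 0 < t) (ht1 : t ≤ 1) (hv : 0 < v)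
    (h : OwnHyp ν0 t v) : ∫ p, p.1 ^ 2 ∂ν ≤ 4 * b * v := by
  have hb' : (2 : ℝ) ≤ b := by exact_mod_cast hb
  rcases h with ⟨hvt, -, hι⟩ | ⟨hv1, -⟩
  · have h1 := bp_upper hν hb h0 (BPsum_theta_lt hb h0 hθ).1 hθ
    rw [hι, ← hvt] at h1
    have ht3 : t ^ 3 ≤ 1 := pow_le_one₀ ht.le ht1
    have hv2 : v ^ 2 ≤ 1 := hvt ▸ ht3
    set A := ∫ p, p.1 ^ 2 ∂ν with hA
    have hA0 : 0 ≤ A := BPsum_A_nonneg
    by_contra hcon
    push Not at hcon
    -- A > 4 b v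
    have h2 : (4 * b * v) ^ 2 < A ^ 2 := by
      apply pow_lt_pow_left₀ hcon (by positivity) (by norm_num)
    have h3 : (b * θ ^ 2) ^ 2 * v ^ 2 * 16 ≤ θ ^ 4 * A ^ 2 := by
      have : (b * θ ^ 2) ^ 2 * v ^ 2 * 16 = θ ^ 4 * (4 * b * v) ^ 2 := by ring
      rw [this]
      exact mul_le_mul_of_nonneg_left h2.le (by positivity)
    have h4 : (1 / 4 : ℝ) ^ 2 ≤ (b * θ ^ 2) ^ 2 := pow_le_pow_left₀ (by norm_num) hθ4 2
    have h5 : v ^ 2 ≤ θ ^ 4 * A ^ 2 := by nlinarith [sq_nonneg v]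
    have h6 : v ^ 2 * (1 - v ^ 2 / 72) ≤ ((b : ℝ) - 1) * θ ^ 4 * A ^ 2 * (1 - v ^ 2 / 72) := by
      apply mul_le_mul_of_nonneg_right _ (by linarith)
      have : 0 ≤ θ ^ 4 * A ^ 2 := by positivity
      nlinarith
    have hvpos : 0 < v ^ 2 := by positivity
    nlinarith
  · rw [hv1]
    have := BPsum_A_le_one hν
    linarith

theorem BPsum_A_lower (hν : IsBP b θ ν0 ν) (hb : 2 ≤ b) (h0 : 0 < θ) (hθ : b * θ ^ 2 < 1)
    {t v : ℝ} (hv : 0 < v) (hv1 : v ≤ 1)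
    (h : OwnHyp ν0 t v) (hg : 1 - b * θ ^ 2 ≤ v / 100) : v / 10 ≤ ∫ p, p.1 ^ 2 ∂ν := by
  have h1 := bp_lower hν hb h0 (BPsum_theta_lt hb h0 hθ).1 hθ
  set A := ∫ p, p.1 ^ 2 ∂ν with hA
  have hA0 : 0 ≤ A := BPsum_A_nonneg
  by_contra hcon
  push Not at hcon
  have hgap : A * (1 - b * θ ^ 2) ≤ v / 10 * (v / 100) :=
    mul_le_mul hcon.le hg (by linarith) (by positivity)
  have hA2 : A ^ 2 ≤ (v / 10) ^ 2 := pow_le_pow_left₀ hA0 hcon.le 2
  rcases h with ⟨hvt, -, hι⟩ | ⟨hv1', hι⟩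
  · rw [hι, ← hvt] at h1
    have h3 : A * (v ^ 2 / 72) ≤ v / 10 * (v ^ 2 / 72) :=
      mul_le_mul_of_nonneg_right hcon.le (by positivity)
    have h4 : v / 10 * (v ^ 2 / 72) ≤ 1 / 10 * (v ^ 2 / 72) :=
      mul_le_mul_of_nonneg_right (by linarith) (by positivity)
    have hvpos : 0 < v ^ 2 := by positivity
    nlinarith
  · subst hv1'
    nlinarith

/-- First moment of `X` from the exponential moment. -/
theorem BPsum_X1 (hν : IsBP b θ ν0 ν) {u : ℝ} (hu : 0 < u)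
    (h : ∫ p, Real.exp (u * p.2) ∂ν ≤ 4) : ∫ p, p.2 ∂ν ≤ 4 / u := by
  rw [le_div_iff₀ hu, mul_comm, ← integral_const_mul]
  refine le_trans (integral_mono (BPsum_integrable hν (by fun_prop))
    (BPsum_integrable hν (by fun_prop)) fun p => ?_) h
  have := Real.add_one_le_exp (u * p.2)
  simp only
  linarith

theorem BPsum_X4 (hν : IsBP b θ ν0 ν) {u : ℝ} (hu : 0 < u)
    (h : ∫ p, Real.exp (u * p.2) ∂ν ≤ 4) : ∫ p, p.2 ^ 4 ∂ν ≤ 96 / u ^ 4 := by
  have := hν.prob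
  have hu4 : 0 < u ^ 4 := by positivity
  rw [le_div_iff₀ hu4, mul_comm, ← integral_const_mul]
  have h1 : ∫ p, u ^ 4 * p.2 ^ 4 ∂ν ≤ ∫ p, 24 * Real.exp (u * p.2) ∂ν := by
    apply integral_mono_ae (BPsum_integrable hν (by fun_prop))
      (BPsum_integrable hν (by fun_prop))
    filter_upwards [hν.bdd] with p hp
    have h2 : 0 ≤ u * p.2 := mul_nonneg hu.le (by linarith [hp.2.1])
    have h3 := Real.pow_div_factorial_le_exp (u * p.2) h2 4
    have h4 : ((4 : ℕ).factorial : ℝ) = 24 := by norm_num [Nat.factorial]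
    rw [h4, div_le_iff₀ (by norm_num), mul_pow] at h3
    linarith
  have h5 : ∫ p, 24 * Real.exp (u * p.2) ∂ν = 24 * ∫ p, Real.exp (u * p.2) ∂ν :=
    integral_const_mul _ _
  rw [h5] at h1
  linarith

theorem BPsum_tail (hν : IsBP b θ ν0 ν) (hb : 2 ≤ b) {u : ℝ} (hu : 0 < u) (j : ℕ) {L : ℝ}
    (hL : 8 / u + 2 * j ≤ L)
    (h : ∫ p, Real.exp ((b : ℝ) ^ j * u * p.2) ∂ν ≤ Real.exp ((b : ℝ) ^ j * (j * u + 2))) :
    ∫ p in {p : ℝ × ℝ | L < p.2}, p.2 ^ 2 ∂ν ≤ 8 / u ^ 2 * Real.exp (-2 * (b : ℝ) ^ j) := by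
  have := hν.prob
  have hb' : (2 : ℝ) ≤ b := by exact_mod_cast hb
  have hB : (1 : ℝ) ≤ (b : ℝ) ^ j := one_le_pow₀ (by linarith)
  have hBpos : (0 : ℝ) < (b : ℝ) ^ j := by linarith
  set w : ℝ := (b : ℝ) ^ j * u with hw
  have hwpos : 0 < w := by positivity
  have hwu : u ≤ w := by nlinarith
  have hmeas : MeasurableSet {p : ℝ × ℝ | L < p.2} :=
    measurableSet_lt (by fun_prop) (by fun_prop)
  have h1 : ∫ p in {p : ℝ × ℝ | L < p.2}, p.2 ^ 2 ∂ν ≤
      ∫ p, 8 / w ^ 2 * Real.exp (-(w * L / 2)) * Real.exp (w * p.2) ∂ν := by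
    rw [← integral_indicator hmeas]
    apply integral_mono_ae
    · exact (BPsum_integrable hν (by fun_prop)).indicator hmeas
    · exact BPsum_integrable hν (by fun_prop)
    · filter_upwards [hν.bdd] with p hp
      by_cases hp2 : p ∈ {p : ℝ × ℝ | L < p.2}
      · rw [Set.indicator_of_mem hp2]
        have hp3 : L < p.2 := hp2
        have h2 : 0 ≤ w * p.2 / 2 := by
          have : 0 ≤ w * p.2 := mul_nonneg hwpos.le (by linarith [hp.2.1])
          linarith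
        have h3 := Real.pow_div_factorial_le_exp (w * p.2 / 2) h2 2
        have h4 : ((2 : ℕ).factorial : ℝ) = 2 := by norm_num [Nat.factorial]
        rw [h4, div_le_iff₀ (by norm_num)] at h3
        have h5 : Real.exp (w * p.2 / 2) ≤ Real.exp (w * p.2 - w * L / 2) := by
          apply Real.exp_le_exp.mpr
          have : w * L ≤ w * p.2 := mul_le_mul_of_nonneg_left hp3.le hwpos.le
          linarith
        have h6 : Real.exp (w * p.2 - w * L / 2) =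
            Real.exp (-(w * L / 2)) * Real.exp (w * p.2) := by
          rw [← Real.exp_add]
          congr 1
          ring
        have hw2 : 0 < w ^ 2 := by positivity
        rw [mul_assoc, ← h6, div_mul_eq_mul_div, le_div_iff₀ hw2]
        nlinarith
      · rw [Set.indicator_of_notMem hp2]
        positivity
  rw [integral_const_mul] at h1
  refine le_trans h1 ?_
  have h7 : 8 / w ^ 2 * Real.exp (-(w * L / 2)) * ∫ p, Real.exp (w * p.2) ∂ν ≤
      8 / w ^ 2 * Real.exp (-(w * L / 2)) * Real.exp ((b : ℝ) ^ j * (j * u + 2)) :=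
    mul_le_mul_of_nonneg_left h (by positivity)
  refine le_trans h7 ?_
  rw [mul_assoc, ← Real.exp_add]
  apply mul_le_mul
  · apply div_le_div_of_nonneg_left (by norm_num) (by positivity)
    exact pow_le_pow_left₀ hu.le hwu 2
  · apply Real.exp_le_exp.mpr
    have h8 : w * (8 / u + 2 * j) ≤ w * L := mul_le_mul_of_nonneg_left hL hwpos.le
    have h9 : w * (8 / u + 2 * j) = (b : ℝ) ^ j * (8 + 2 * (j * u)) := by
      rw [hw]
      field_simp
    rw [h9] at h8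
    linarith
  · positivity
  · positivity

/-- Eighth moment of `M` from the sub-Gaussian bound. -/
theorem BPsum_M8 (hν : IsBP b θ ν0 ν) {C v : ℝ} (hv : 0 < v)
    (h : ∀ s : ℝ, ∫ p, Real.cosh (s * p.1) ∂ν ≤ Real.exp (C * v * s ^ 2)) :
    ∫ p, p.1 ^ 8 ∂ν ≤ 80640 * Real.exp C * v ^ 4 := by
  have := hν.prob
  have h1 := h (√v)⁻¹
  have h2 : C * v * ((√v)⁻¹) ^ 2 = C := by
    rw [inv_pow, Real.sq_sqrt hv.le]
    field_simp
  rw [h2] at h1
  have h3 : ((√v)⁻¹) ^ 8 = (v ^ 4)⁻¹ := by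
    rw [inv_pow]
    congr 1
    have : √v ^ 8 = (√v ^ 2) ^ 4 := by ring
    rw [this, Real.sq_sqrt hv.le]
  have hv4 : 0 < v ^ 4 := by positivity
  have h4 : ∫ p, (v ^ 4)⁻¹ * p.1 ^ 8 ∂ν ≤ ∫ p, 80640 * Real.cosh ((√v)⁻¹ * p.1) ∂ν := by
    apply integral_mono (BPsum_integrable hν (by fun_prop)) (BPsum_integrable hν (by fun_prop))
    intro p
    have h5 := BPsum_pow8_le_cosh ((√v)⁻¹ * p.1)
    rw [mul_pow, h3] at h5
    exact h5
  rw [integral_const_mul, integral_const_mul, inv_mul_le_iff₀ hv4] at h4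
  nlinarith

/-- Chernoff bound. -/
theorem BPsum_chernoff (hν : IsBP b θ ν0 ν) {C v : ℝ} (hC : 0 < C) (hv : 0 < v)
    (h : ∀ s : ℝ, ∫ p, Real.cosh (s * p.1) ∂ν ≤ Real.exp (C * v * s ^ 2)) {l : ℝ} (hl : 0 ≤ l) :
    (ν {p | l < |p.1|}).toReal ≤ 2 * Real.exp (-l ^ 2 / (4 * C * v)) := by
  have := hν.prob
  set s : ℝ := l / (2 * C * v) with hs
  have hs0 : 0 ≤ s := by positivity
  have hmeas : MeasurableSet {p : ℝ × ℝ | l < |p.1|} :=
    measurableSet_lt (by fun_prop) (by fun_prop)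
  have h1 : (ν {p | l < |p.1|}).toReal = ∫ p in {p : ℝ × ℝ | l < |p.1|}, (1 : ℝ) ∂ν := by
    simp [Measure.real]
  have h2 : ∫ p in {p : ℝ × ℝ | l < |p.1|}, (1 : ℝ) ∂ν ≤
      ∫ p, 2 * Real.exp (-(s * l)) * Real.cosh (s * p.1) ∂ν := by
    rw [← integral_indicator hmeas]
    apply integral_mono_ae
    · exact (integrable_const _).indicator hmeas
    · exact BPsum_integrable hν (by fun_prop)
    · filter_upwards with p
      by_cases hp2 : p ∈ {p : ℝ × ℝ | l < |p.1|}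
      · rw [Set.indicator_of_mem hp2]
        have hp3 : l < |p.1| := hp2
        have h3 : Real.exp (s * |p.1|) ≤ 2 * Real.cosh (s * p.1) := by
          rw [← Real.cosh_abs (s * p.1), abs_mul, abs_of_nonneg hs0, Real.cosh_eq]
          have := Real.exp_pos (-(s * |p.1|))
          linarith
        have h4 : Real.exp (s * l) ≤ Real.exp (s * |p.1|) :=
          Real.exp_le_exp.mpr (mul_le_mul_of_nonneg_left hp3.le hs0)
        have h5 : Real.exp (-(s * l)) * Real.exp (s * l) = 1 := by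
          rw [← Real.exp_add]
          simp
        have h6 := mul_le_mul_of_nonneg_left (h4.trans h3) (Real.exp_pos (-(s * l))).le
        rw [h5] at h6
        linarith
      · rw [Set.indicator_of_notMem hp2]
        have := Real.cosh_pos (s * p.1)
        positivity
  rw [h1]
  refine le_trans h2 ?_
  rw [integral_const_mul]
  refine le_trans (mul_le_mul_of_nonneg_left (h s) (by positivity)) ?_
  rw [mul_assoc, ← Real.exp_add]
  apply mul_le_mul_of_nonneg_left _ (by norm_num)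
  apply Real.exp_le_exp.mpr
  apply le_of_eq
  rw [hs]
  field_simp
  ring

/-- The variance of `X`. -/
theorem BPsum_var (hν : IsBP b θ ν0 ν) (hb : 2 ≤ b) (h0 : 0 < θ) (hθ : b * θ ^ 2 < 1)
    {C8 C4 v : ℝ} (hv : 0 < v) (h8 : ∫ p, p.1 ^ 8 ∂ν ≤ C8 * v ^ 4)
    (h4 : ∫ p, p.2 ^ 4 ∂ν ≤ C4 / v ^ 4) :
    ∫ p, (p.2 - ∫ q, q.2 ∂ν) ^ 2 ∂ν ≤ 25 * (C8 + C4) := by
  have := hν.prob
  have h1 := bp_var hν hb h0 (BPsum_theta_lt hb h0 hθ).1 hθ
  have hv4 : 0 < v ^ 4 := by positivity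
  have h2 : ∫ p, (p.1 ^ 2 * p.2) ^ 2 ∂ν ≤ C8 + C4 := by
    have h3 : ∫ p, (p.1 ^ 2 * p.2) ^ 2 ∂ν ≤ ∫ p, ((v ^ 4)⁻¹ * p.1 ^ 8 + v ^ 4 * p.2 ^ 4) ∂ν := by
      apply integral_mono (BPsum_integrable hν (by fun_prop)) (BPsum_integrable hν (by fun_prop))
      intro p
      have h5 : (v ^ 4)⁻¹ * p.1 ^ 8 + v ^ 4 * p.2 ^ 4 - (p.1 ^ 2 * p.2) ^ 2 =
          ((v ^ 2)⁻¹ * p.1 ^ 4 - v ^ 2 * p.2 ^ 2) ^ 2 + (p.1 ^ 2 * p.2) ^ 2 := by
        field_simp
        ring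
      have h6 : 0 ≤ ((v ^ 2)⁻¹ * p.1 ^ 4 - v ^ 2 * p.2 ^ 2) ^ 2 + (p.1 ^ 2 * p.2) ^ 2 := by
        positivity
      simp only
      linarith
    rw [integral_add (BPsum_integrable hν (by fun_prop)) (BPsum_integrable hν (by fun_prop)),
      integral_const_mul, integral_const_mul] at h3
    have h7 : (v ^ 4)⁻¹ * ∫ p, p.1 ^ 8 ∂ν ≤ C8 := by
      rw [inv_mul_le_iff₀ hv4]
      linarith
    have h8' : v ^ 4 * ∫ p, p.2 ^ 4 ∂ν ≤ C4 := by
      rw [le_div_iff₀ hv4] at h4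
      linarith
    linarith
  set S := ∫ p, (p.2 - ∫ q, q.2 ∂ν) ^ 2 ∂ν with hS
  have hS0 : 0 ≤ S := integral_nonneg fun _ => sq_nonneg _
  have hT0 : 0 ≤ ∫ p, (p.1 ^ 2 * p.2) ^ 2 ∂ν := integral_nonneg fun _ => sq_nonneg _
  have hb' : (2 : ℝ) ≤ b := by exact_mod_cast hb
  have h9 : (1.4 : ℝ) ≤ √b := by
    apply Real.le_sqrt_of_sq_le
    norm_num
    linarith
  have h10 : 0.4 * √S ≤ 2 * √(∫ p, (p.1 ^ 2 * p.2) ^ 2 ∂ν) := by
    refine le_trans (mul_le_mul_of_nonneg_right ?_ (Real.sqrt_nonneg _)) h1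
    linarith
  have h11 : (0.4 * √S) ^ 2 ≤ (2 * √(∫ p, (p.1 ^ 2 * p.2) ^ 2 ∂ν)) ^ 2 :=
    pow_le_pow_left₀ (by positivity) h10 2
  rw [mul_pow, mul_pow, Real.sq_sqrt hS0, Real.sq_sqrt hT0] at h11
  norm_num at h11
  linarith

end

theorem bp_all (b : ℕ) (hb : 2 ≤ b) : ∃ C c : ℝ, 0 < C ∧ 0 < c ∧
    ∀ (θ : ℝ) (ν0 : Measure ℝ) (ν : Measure (ℝ × ℝ)) (t v : ℝ), IsBP b θ ν0 ν →
      0 < θ → b * θ ^ 2 < 1 → 1 / 4 ≤ b * θ ^ 2 → 0 < t → t ≤ 1 → 0 < v → v ≤ 1 →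
      OwnHyp ν0 t v →
      ∫ p, p.2 ∂ν ≤ C / v ∧
      (1 - b * θ ^ 2 ≤ c * v →
        c * v ≤ ∫ p, p.1 ^ 2 ∂ν ∧
        ∫ p, p.1 ^ 8 ∂ν ≤ C * v ^ 4 ∧
        (∀ l : ℝ, 0 ≤ l → (ν {p | l < |p.1|}).toReal ≤ 2 * Real.exp (-l ^ 2 / (C * v))) ∧
        ∫ p, p.2 ^ 4 ∂ν ≤ C / v ^ 4 ∧
        (∀ j : ℕ, ∫ p in {p : ℝ × ℝ | C / v + 2 * j < p.2}, p.2 ^ 2 ∂ν ≤
          C / v ^ 2 * Real.exp (-2 * (b : ℝ) ^ j)) ∧
        ∫ p, (p.2 - ∫ q, q.2 ∂ν) ^ 2 ∂ν ≤ C) := by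
  obtain ⟨Cg, hCg, hgauss⟩ := bp_gauss b hb (4 * b)
  set C8 : ℝ := 80640 * Real.exp Cg with hC8
  set C4 : ℝ := 96 * 1280 ^ 4 with hC4
  have hC8pos : 80640 ≤ C8 := by
    have := Real.one_le_exp hCg.le
    rw [hC8]
    linarith
  set C : ℝ := 25 * (C8 + C4) + 4 * Cg with hC
  have hCbig : 25 * C4 ≤ C := by
    rw [hC]
    linarith
  have hC4v : C4 = 96 * 1280 ^ 4 := hC4
  have hCpos : 0 < C := by
    norm_num at hC4v
    linarith
  refine ⟨C, 1 / 100, hCpos, by norm_num, ?_⟩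
  intro θ ν0 ν t v hν h0 hθ hθ4 ht ht1 hv hv1 hown
  have := hν.prob
  obtain ⟨h1, hθ2⟩ := BPsum_theta_lt hb h0 hθ
  set u : ℝ := v / 1280 with hu
  have hupos : 0 < u := by positivity
  -- `u` is admissible
  have huadm : 1 - b * θ ^ 2 ≤ v / 100 →
      u ≤ (1 - θ ^ 2) * (b * θ ^ 2) * (∫ p, p.1 ^ 2 ∂ν) / 16 := by
    intro hg
    have hA := BPsum_A_lower hν hb h0 hθ hv hv1 hown hg
    have e1 : (1 / 2 : ℝ) * (1 / 4) ≤ (1 - θ ^ 2) * (b * θ ^ 2) :=
      mul_le_mul (by linarith) hθ4 (by norm_num) (by linarith)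
    have e2 : (1 / 2 : ℝ) * (1 / 4) * (v / 10) ≤
        (1 - θ ^ 2) * (b * θ ^ 2) * (∫ p, p.1 ^ 2 ∂ν) :=
      mul_le_mul e1 hA (by positivity) (by nlinarith)
    rw [hu]
    linarith
  constructor
  · by_cases hg : 1 - b * θ ^ 2 ≤ v / 100
    · have h2 := BPsum_X1 hν hupos (bp_exp hν hb h0 h1 hθ hupos.le (huadm hg))
      refine le_trans h2 ?_
      rw [hu, div_div_eq_mul_div, div_le_div_iff_of_pos_right hv]
      norm_num at hC4v
      linarith
    · push Not at hg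
      have h2 : ∫ p, p.2 ∂ν ≤ ∫ _p, 100 / v ∂ν := by
        apply integral_mono_ae (BPsum_integrable hν (by fun_prop)) (integrable_const _)
        filter_upwards [hν.bdd] with p hp
        refine le_trans hp.2.2 ?_
        rw [div_le_div_iff₀ (by linarith) hv]
        linarith
      simp only [integral_const, probReal_univ, smul_eq_mul, one_mul] at h2
      refine le_trans h2 ?_
      rw [div_le_div_iff_of_pos_right hv]
      norm_num at hC4v
      linarith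
  · intro hg'
    have hg : 1 - b * θ ^ 2 ≤ v / 100 := by linarith
    have hexp := bp_exp hν hb h0 h1 hθ hupos.le (huadm hg)
    have hA := BPsum_A_lower hν hb h0 hθ hv hv1 hown hg
    have hAu := BPsum_A_upper hν hb h0 hθ hθ4 ht ht1 hv hown
    have hX4 : ∫ p, p.2 ^ 4 ∂ν ≤ C4 / v ^ 4 := by
      have := BPsum_X4 hν hupos hexp
      rw [hu, div_pow, div_div_eq_mul_div] at this
      exact this
    have hv4 : 0 < v ^ 4 := by positivity
    -- moments of `M`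
    have hM : ∫ p, p.1 ^ 8 ∂ν ≤ C8 * v ^ 4 ∧
        (∀ l : ℝ, 0 ≤ l → (ν {p | l < |p.1|}).toReal ≤ 2 * Real.exp (-l ^ 2 / (C * v))) := by
      rcases hown with ⟨hvt, hbd, -⟩ | ⟨hv1', -⟩
      · have hcosh := hgauss θ ν0 ν t v hν h0 hθ ht ht1 hv hvt hbd hAu
        refine ⟨BPsum_M8 hν hv hcosh, fun l hl => ?_⟩
        refine le_trans (BPsum_chernoff hν hCg hv hcosh hl) ?_
        apply mul_le_mul_of_nonneg_left _ (by norm_num)
        apply Real.exp_le_exp.mpr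
        rw [neg_div, neg_div, neg_le_neg_iff]
        apply div_le_div_of_nonneg_left (sq_nonneg _) (by positivity)
        apply mul_le_mul_of_nonneg_right _ hv.le
        rw [hC, hC4v]
        linarith
      · subst hv1'
        constructor
        · have h2 : ∫ p, p.1 ^ 8 ∂ν ≤ ∫ _p, (1 : ℝ) ∂ν := by
            apply integral_mono_ae (BPsum_integrable hν (by fun_prop)) (integrable_const _)
            filter_upwards [hν.bdd] with p hp
            have : p.1 ^ 8 = |p.1| ^ 8 := (Even.pow_abs (by decide) _).symm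
            rw [this]
            exact pow_le_one₀ (abs_nonneg _) hp.1
          simp only [integral_const, probReal_univ, smul_eq_mul, one_mul] at h2
          linarith
        · intro l hl
          by_cases hl1 : 1 ≤ l
          · have : ν {p | l < |p.1|} = 0 := by
              have h3 : ∀ᵐ p ∂ν, ¬ (l < |p.1|) := by
                filter_upwards [hν.bdd] with p hp
                push Not
                exact hp.1.trans hl1
              rw [ae_iff] at h3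
              simpa using h3
            rw [this]
            simp only [ENNReal.toReal_zero]
            positivity
          · push Not at hl1
            have h3 : (ν {p | l < |p.1|}).toReal ≤ 1 := by
              have := prob_le_one (μ := ν) (s := {p | l < |p.1|})
              exact ENNReal.toReal_mono (by simp) this
            have h4 : -(1 / 2) ≤ -l ^ 2 / (C * 1) := by
              rw [neg_div, neg_le_neg_iff, div_le_div_iff₀ (by linarith) (by norm_num)]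
              norm_num at hC4v
              nlinarith
            have h5 : (1 : ℝ) / 2 ≤ Real.exp (-l ^ 2 / (C * 1)) := by
              have := Real.add_one_le_exp (-l ^ 2 / (C * 1))
              linarith
            linarith
    refine ⟨by linarith, ?_, hM.2, ?_, ?_, ?_⟩
    · refine le_trans hM.1 (mul_le_mul_of_nonneg_right ?_ hv4.le)
      rw [hC, hC4v]
      linarith
    · refine le_trans hX4 ?_
      rw [div_le_div_iff_of_pos_right hv4]
      norm_num at hC4v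
      linarith
    · intro j
      have h6 := BPsum_tail hν hb hupos j (L := C / v + 2 * j) (by
        rw [hu, div_div_eq_mul_div, add_le_add_iff_right, div_le_div_iff_of_pos_right hv]
        norm_num at hC4v
        linarith) (bp_exp_iter hν hb h0 h1 hθ hupos.le (huadm hg) j)
      refine le_trans h6 (mul_le_mul_of_nonneg_right ?_ (Real.exp_pos _).le)
      rw [hu, div_pow, div_div_eq_mul_div, div_le_div_iff_of_pos_right (by positivity)]
      norm_num at hC4v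
      linarith
    · refine le_trans (BPsum_var hν hb h0 hθ hv hM.1 hX4) ?_
      rw [hC]
      linarith

end Vale.Agent.P161.EP
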