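import Mathlib
import Vale.Agent.P161.EP.Defs

/-!
# Module D1 (KernelA): deterministic algebra of the kernels on the regular tree

`L`, `L'` are dart weights with values in `[0, θ]`, `[0, θ']`, `b θ² < 1`, `b θ'² < 1`.
By induction on the level (for `G.Adj x y` there are exactly `b` neighbours of `y` other than `x`):
`0 ≤ xl L n x y ≤ (b θ²)^n`, `0 ≤ xl L' n + gl L L' n ≤ (b θ θ')^n` (this is the level sum of `k k'`),
`0 ≤ vl L L' n`, `vl + 2 gl + xl' = xl L` (level sums of `k²`).  All series converge geometrically.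
-/

open MeasureTheory

namespace Vale.Agent.P161.EP

universe u

variable {V : Type u} {G : SimpleGraph V} [G.LocallyFinite]

/-- The number of terms of `nsum`. -/
theorem nsum_const {b : ℕ} (hd : G.IsRegularOfDegree (b + 1)) {x y : V} (h : G.Adj x y) (c : ℝ) :
    nsum G x y (fun _ => c) = b * c := by
  classical
  unfold nsum
  have hx : x ∈ G.neighborFinset y := by
    rw [SimpleGraph.mem_neighborFinset]; exact h.symm
  have e : ∀ z ∈ G.neighborFinset y, (if z = x then (0 : ℝ) else c) = c - if z = x then c else 0 := by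
    intro z _
    by_cases hz : z = x <;> simp [hz]
  have h1 : (∑ z ∈ G.neighborFinset y, if z = x then (0 : ℝ) else c) =
      ∑ z ∈ G.neighborFinset y, (c - if z = x then c else 0) := Finset.sum_congr rfl e
  have h2 : (∑ z ∈ G.neighborFinset y, if z = x then (0 : ℝ) else c) = b * c := by
    rw [h1, Finset.sum_sub_distrib, Finset.sum_ite_eq' _ x (fun _ => c), if_pos hx, Finset.sum_const,
      SimpleGraph.card_neighborFinset_eq_degree, hd.degree_eq y, nsmul_eq_mul]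
    push_cast
    ring
  rw [← h2]

theorem nsum_mono {x y : V} {f g : V → ℝ} (h : ∀ z, G.Adj y z → z ≠ x → f z ≤ g z) :
    nsum G x y f ≤ nsum G x y g := by
  unfold nsum
  refine Finset.sum_le_sum fun z hz => ?_
  rw [SimpleGraph.mem_neighborFinset] at hz
  by_cases hx : z = x
  · simp [hx]
  · simp only [hx, if_false]
    exact h z hz hx

theorem nsum_congr {x y : V} {f g : V → ℝ} (h : ∀ z, G.Adj y z → z ≠ x → f z = g z) :
    nsum G x y f = nsum G x y g :=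
  le_antisymm (nsum_mono fun z hz hx => (h z hz hx).le) (nsum_mono fun z hz hx => (h z hz hx).ge)

theorem nsum_add {x y : V} (f g : V → ℝ) :
    nsum G x y (fun z => f z + g z) = nsum G x y f + nsum G x y g := by
  unfold nsum
  rw [← Finset.sum_add_distrib]
  refine Finset.sum_congr rfl fun z _ => ?_
  by_cases hx : z = x <;> simp [hx]

theorem nsum_mul {x y : V} (f : V → ℝ) (c : ℝ) :
    nsum G x y (fun z => c * f z) = c * nsum G x y f := by
  unfold nsum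
  rw [Finset.mul_sum]
  refine Finset.sum_congr rfl fun z _ => ?_
  by_cases hx : z = x <;> simp [hx]

theorem nsum_nonneg {x y : V} {f : V → ℝ} (h : ∀ z, G.Adj y z → z ≠ x → 0 ≤ f z) :
    0 ≤ nsum G x y f := by
  unfold nsum
  refine Finset.sum_nonneg fun z hz => ?_
  rw [SimpleGraph.mem_neighborFinset] at hz
  by_cases hx : z = x
  · simp [hx]
  · simp only [hx, if_false]
    exact h z hz hx

theorem hasSum_nsum {x y : V} {f : ℕ → V → ℝ} {a : V → ℝ}
    (h : ∀ z, G.Adj y z → z ≠ x → HasSum (fun n => f n z) (a z)) :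
    HasSum (fun n => nsum G x y (f n)) (nsum G x y a) := by
  unfold nsum
  refine hasSum_sum fun z hz => ?_
  rw [SimpleGraph.mem_neighborFinset] at hz
  by_cases hx : z = x
  · simp [hx, hasSum_zero]
  · simp only [hx, if_false]
    exact h z hz hx

section

variable {b : ℕ} {θ θ' : ℝ} {L L' : V → V → ℝ}

theorem xl_nonneg (n : ℕ) (x y : V) : 0 ≤ xl G L n x y := by
  induction n generalizing x y with
  | zero => simp [xl]
  | succ n ih => exact nsum_nonneg fun z _ _ => mul_nonneg (sq_nonneg _) (ih y z)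

theorem xl_le (hd : G.IsRegularOfDegree (b + 1)) (h0 : ∀ x y, 0 ≤ L x y) (h1 : ∀ x y, L x y ≤ θ)
    (n : ℕ) {x y : V} (h : G.Adj x y) : xl G L n x y ≤ (b * θ ^ 2) ^ n := by
  induction n generalizing x y with
  | zero => simp [xl]
  | succ n ih =>
    have e : xl G L (n + 1) x y ≤ nsum G x y (fun _ => θ ^ 2 * (b * θ ^ 2) ^ n) := by
      refine nsum_mono fun z hz _ => ?_
      exact mul_le_mul (pow_le_pow_left₀ (h0 y z) (h1 y z) 2) (ih hz) (xl_nonneg _ _ _)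
        (sq_nonneg _)
    rw [nsum_const hd h] at e
    refine e.trans (le_of_eq ?_)
    ring

theorem summable_geo (hθ : b * θ ^ 2 < 1) : Summable fun n : ℕ => ((b : ℝ) * θ ^ 2) ^ n :=
  summable_geometric_of_lt_one (by positivity) hθ

theorem summable_xl (hd : G.IsRegularOfDegree (b + 1)) (h0 : ∀ x y, 0 ≤ L x y)
    (h1 : ∀ x y, L x y ≤ θ) (hθ : b * θ ^ 2 < 1) {x y : V} (h : G.Adj x y) :
    Summable fun n => xl G L n x y :=
  Summable.of_nonneg_of_le (fun n => xl_nonneg n x y) (fun n => xl_le hd h0 h1 n h)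
    (summable_geo hθ)

theorem one_le_Xs (hd : G.IsRegularOfDegree (b + 1)) (h0 : ∀ x y, 0 ≤ L x y)
    (h1 : ∀ x y, L x y ≤ θ) (hθ : b * θ ^ 2 < 1) {x y : V} (h : G.Adj x y) : 1 ≤ Xs G L x y := by
  have e : xl G L 0 x y ≤ ∑' n, xl G L n x y :=
    (summable_xl hd h0 h1 hθ h).le_tsum 0 fun n _ => xl_nonneg n x y
  simpa [xl, Xs] using e

theorem Xs_le (hd : G.IsRegularOfDegree (b + 1)) (h0 : ∀ x y, 0 ≤ L x y) (h1 : ∀ x y, L x y ≤ θ)
    (hθ : b * θ ^ 2 < 1) {x y : V} (h : G.Adj x y) : Xs G L x y ≤ 1 / (1 - b * θ ^ 2) := by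
  have e := (summable_xl hd h0 h1 hθ h).tsum_le_tsum (fun n => xl_le hd h0 h1 n h)
    (summable_geo hθ)
  rw [tsum_geometric_of_lt_one (by positivity) hθ] at e
  rw [one_div]
  exact e

theorem Xs_rec (hd : G.IsRegularOfDegree (b + 1)) (h0 : ∀ x y, 0 ≤ L x y) (h1 : ∀ x y, L x y ≤ θ)
    (hθ : b * θ ^ 2 < 1) {x y : V} (h : G.Adj x y) :
    Xs G L x y = 1 + nsum G x y fun z => L y z ^ 2 * Xs G L y z := by
  have e := (summable_xl hd h0 h1 hθ h).tsum_eq_zero_add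
  have e2 : HasSum (fun n => xl G L (n + 1) x y) (nsum G x y fun z => L y z ^ 2 * Xs G L y z) :=
    hasSum_nsum fun z hz _ => ((summable_xl hd h0 h1 hθ hz).hasSum).mul_left _
  rw [e2.tsum_eq] at e
  simpa [xl, Xs] using e

/-! ### Level sums of `k k'` -/

theorem pl_succ (n : ℕ) (x y : V) : xl G L' (n + 1) x y + gl G L L' (n + 1) x y =
    nsum G x y fun z => L y z * L' y z * (xl G L' n y z + gl G L L' n y z) := by
  rw [xl, gl, ← nsum_add]
  refine nsum_congr fun z _ _ => ?_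
  ring

theorem pl_nonneg (h0 : ∀ x y, 0 ≤ L x y) (h0' : ∀ x y, 0 ≤ L' x y) (n : ℕ) (x y : V) :
    0 ≤ xl G L' n x y + gl G L L' n x y := by
  induction n generalizing x y with
  | zero => simp [xl, gl]
  | succ n ih =>
    rw [pl_succ]
    exact nsum_nonneg fun z _ _ => mul_nonneg (mul_nonneg (h0 _ _) (h0' _ _)) (ih _ _)

theorem pl_le (hd : G.IsRegularOfDegree (b + 1)) (h0 : ∀ x y, 0 ≤ L x y)
    (h1 : ∀ x y, L x y ≤ θ) (h0' : ∀ x y, 0 ≤ L' x y)
    (h1' : ∀ x y, L' x y ≤ θ') (n : ℕ) {x y : V} (h : G.Adj x y) :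
    xl G L' n x y + gl G L L' n x y ≤ (b * (θ * θ')) ^ n := by
  induction n generalizing x y with
  | zero => simp [xl, gl]
  | succ n ih =>
    rw [pl_succ]
    have e : (nsum G x y fun z => L y z * L' y z * (xl G L' n y z + gl G L L' n y z)) ≤
        nsum G x y (fun _ => θ * θ' * (b * (θ * θ')) ^ n) := by
      refine nsum_mono fun z hz _ => ?_
      refine mul_le_mul (mul_le_mul (h1 y z) (h1' y z) (h0' y z) ((h0 y z).trans (h1 y z))) (ih hz)
        (pl_nonneg h0 h0' _ _ _) (mul_nonneg ((h0 y z).trans (h1 y z)) ((h0' y z).trans (h1' y z)))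
    rw [nsum_const hd h] at e
    refine e.trans (le_of_eq ?_)
    ring

theorem bound_aux (hθ : b * θ ^ 2 < 1) (hθ' : b * θ' ^ 2 < 1) : b * (θ * θ') < 1 := by
  have h2 : (0 : ℝ) ≤ b := by positivity
  nlinarith [mul_nonneg h2 (sq_nonneg (θ - θ'))]

theorem inv_bound_aux (hθ : b * θ ^ 2 < 1) (hθ' : b * θ' ^ 2 < 1) :
    1 / (1 - b * (θ * θ')) ≤ 1 / ((1 - b * θ ^ 2) * (1 - b * θ' ^ 2)) := by
  have h2 : (0 : ℝ) ≤ b := by positivity
  have h3 : (0 : ℝ) ≤ b * θ ^ 2 := by positivity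
  have h4 : (0 : ℝ) ≤ b * θ' ^ 2 := by positivity
  refine one_div_le_one_div_of_le (mul_pos (by linarith) (by linarith)) ?_
  have h5 : 2 * (b * (θ * θ')) ≤ b * θ ^ 2 + b * θ' ^ 2 := by
    nlinarith [mul_nonneg h2 (sq_nonneg (θ - θ'))]
  nlinarith [mul_nonneg h3 h4, mul_nonneg h3 (sub_nonneg.2 hθ'.le),
    mul_nonneg h4 (sub_nonneg.2 hθ.le)]

theorem inv_bound_aux' (hθ : b * θ ^ 2 < 1) (hθ' : b * θ' ^ 2 < 1) :
    1 / (1 - b * θ' ^ 2) ≤ 1 / ((1 - b * θ ^ 2) * (1 - b * θ' ^ 2)) := by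
  have h3 : (0 : ℝ) ≤ b * θ ^ 2 := by positivity
  refine one_div_le_one_div_of_le (mul_pos (by linarith) (by linarith)) ?_
  nlinarith [mul_nonneg h3 (sub_nonneg.2 hθ'.le)]

theorem summable_pl (hd : G.IsRegularOfDegree (b + 1)) (h0 : ∀ x y, 0 ≤ L x y)
    (h1 : ∀ x y, L x y ≤ θ) (hθ : b * θ ^ 2 < 1) (h0' : ∀ x y, 0 ≤ L' x y)
    (h1' : ∀ x y, L' x y ≤ θ') (hθ' : b * θ' ^ 2 < 1) {x y : V} (h : G.Adj x y) :
    Summable fun n => xl G L' n x y + gl G L L' n x y := by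
  have t0 : 0 ≤ θ := (h0 x y).trans (h1 x y)
  have t0' : 0 ≤ θ' := (h0' x y).trans (h1' x y)
  exact Summable.of_nonneg_of_le (fun n => pl_nonneg h0 h0' n x y)
    (fun n => pl_le hd h0 h1 h0' h1' n h)
    (summable_geometric_of_lt_one (by positivity) (bound_aux hθ hθ'))

theorem summable_gl (hd : G.IsRegularOfDegree (b + 1)) (h0 : ∀ x y, 0 ≤ L x y)
    (h1 : ∀ x y, L x y ≤ θ) (hθ : b * θ ^ 2 < 1) (h0' : ∀ x y, 0 ≤ L' x y)
    (h1' : ∀ x y, L' x y ≤ θ') (hθ' : b * θ' ^ 2 < 1) {x y : V} (h : G.Adj x y) :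
    Summable fun n => gl G L L' n x y := by
  have e := (summable_pl hd h0 h1 hθ h0' h1' hθ' h).sub (summable_xl hd h0' h1' hθ' h)
  refine e.congr fun n => ?_
  ring

theorem tsum_pl_le (hd : G.IsRegularOfDegree (b + 1)) (h0 : ∀ x y, 0 ≤ L x y)
    (h1 : ∀ x y, L x y ≤ θ) (hθ : b * θ ^ 2 < 1) (h0' : ∀ x y, 0 ≤ L' x y)
    (h1' : ∀ x y, L' x y ≤ θ') (hθ' : b * θ' ^ 2 < 1) {x y : V} (h : G.Adj x y) :
    (∑' n, (xl G L' n x y + gl G L L' n x y)) ≤ 1 / (1 - b * (θ * θ')) := by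
  have t0 : 0 ≤ θ := (h0 x y).trans (h1 x y)
  have t0' : 0 ≤ θ' := (h0' x y).trans (h1' x y)
  have e := (summable_pl hd h0 h1 hθ h0' h1' hθ' h).tsum_le_tsum
    (fun n => pl_le hd h0 h1 h0' h1' n h)
    (summable_geometric_of_lt_one (by positivity) (bound_aux hθ hθ'))
  rw [tsum_geometric_of_lt_one (by positivity) (bound_aux hθ hθ')] at e
  rw [one_div]
  exact e

theorem Gs_eq (hd : G.IsRegularOfDegree (b + 1)) (h0 : ∀ x y, 0 ≤ L x y)
    (h1 : ∀ x y, L x y ≤ θ) (hθ : b * θ ^ 2 < 1) (h0' : ∀ x y, 0 ≤ L' x y)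
    (h1' : ∀ x y, L' x y ≤ θ') (hθ' : b * θ' ^ 2 < 1) {x y : V} (h : G.Adj x y) :
    Gs G L L' x y = (∑' n, (xl G L' n x y + gl G L L' n x y)) - Xs G L' x y := by
  rw [Summable.tsum_add (summable_xl hd h0' h1' hθ' h) (summable_gl hd h0 h1 hθ h0' h1' hθ' h)]
  unfold Gs Xs
  ring

theorem abs_Gs_le (hd : G.IsRegularOfDegree (b + 1)) (h0 : ∀ x y, 0 ≤ L x y)
    (h1 : ∀ x y, L x y ≤ θ) (hθ : b * θ ^ 2 < 1) (h0' : ∀ x y, 0 ≤ L' x y)
    (h1' : ∀ x y, L' x y ≤ θ') (hθ' : b * θ' ^ 2 < 1) {x y : V} (h : G.Adj x y) :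
    |Gs G L L' x y| ≤ 2 / ((1 - b * θ ^ 2) * (1 - b * θ' ^ 2)) := by
  have e1 := tsum_pl_le hd h0 h1 hθ h0' h1' hθ' h
  have e2 : 0 ≤ ∑' n, (xl G L' n x y + gl G L L' n x y) :=
    tsum_nonneg fun n => pl_nonneg h0 h0' n x y
  have e3 := one_le_Xs hd h0' h1' hθ' h
  have e4 := Xs_le hd h0' h1' hθ' h
  have e5 := inv_bound_aux hθ hθ'
  have e6 := inv_bound_aux' hθ hθ'
  have e7 : 2 / ((1 - b * θ ^ 2) * (1 - b * θ' ^ 2)) =
      1 / ((1 - b * θ ^ 2) * (1 - b * θ' ^ 2)) + 1 / ((1 - b * θ ^ 2) * (1 - b * θ' ^ 2)) := by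
    ring
  rw [Gs_eq hd h0 h1 hθ h0' h1' hθ' h, e7, abs_le]
  constructor <;> linarith

theorem Gs_rec (hd : G.IsRegularOfDegree (b + 1)) (h0 : ∀ x y, 0 ≤ L x y)
    (h1 : ∀ x y, L x y ≤ θ) (hθ : b * θ ^ 2 < 1) (h0' : ∀ x y, 0 ≤ L' x y)
    (h1' : ∀ x y, L' x y ≤ θ') (hθ' : b * θ' ^ 2 < 1) {x y : V} (h : G.Adj x y) :
    Gs G L L' x y = nsum G x y fun z =>
      L y z * L' y z * Gs G L L' y z + L' y z * (L y z - L' y z) * Xs G L' y z := by
  have e := (summable_gl hd h0 h1 hθ h0' h1' hθ' h).tsum_eq_zero_add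
  have e2 : HasSum (fun n => gl G L L' (n + 1) x y) (nsum G x y fun z =>
      L y z * L' y z * Gs G L L' y z + L' y z * (L y z - L' y z) * Xs G L' y z) :=
    hasSum_nsum fun z hz _ => (((summable_gl hd h0 h1 hθ h0' h1' hθ' hz).hasSum).mul_left _).add
      (((summable_xl hd h0' h1' hθ' hz).hasSum).mul_left _)
  rw [e2.tsum_eq] at e
  simpa [gl, Gs] using e

/-! ### Level sums of `(k - k')²` -/

theorem quad_nonneg (n : ℕ) (x y : V) (s t : ℝ) :
    0 ≤ s ^ 2 * vl G L L' n x y + 2 * s * t * gl G L L' n x y + t ^ 2 * xl G L' n x y := by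
  induction n generalizing x y s t with
  | zero => simp only [vl, gl, xl]; nlinarith [sq_nonneg t]
  | succ n ih =>
    rw [vl, gl, xl, ← nsum_mul, ← nsum_mul, ← nsum_mul, ← nsum_add, ← nsum_add]
    refine nsum_nonneg fun z _ _ => ?_
    have e := ih y z (s * L y z) (s * (L y z - L' y z) + t * L' y z)
    refine e.trans (le_of_eq ?_)
    ring

theorem vl_nonneg (n : ℕ) (x y : V) : 0 ≤ vl G L L' n x y := by
  have e := quad_nonneg (G := G) (L := L) (L' := L') n x y 1 0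
  simpa using e

theorem vl_eq (n : ℕ) (x y : V) :
    vl G L L' n x y + 2 * gl G L L' n x y + xl G L' n x y = xl G L n x y := by
  induction n generalizing x y with
  | zero => simp [vl, gl, xl]
  | succ n ih =>
    rw [vl, gl, xl, xl, ← nsum_mul, ← nsum_add, ← nsum_add]
    refine nsum_congr fun z _ _ => ?_
    rw [← ih y z]
    ring

theorem vl_le (h0 : ∀ x y, 0 ≤ L x y) (h0' : ∀ x y, 0 ≤ L' x y) (n : ℕ) (x y : V) :
    vl G L L' n x y ≤ xl G L n x y + xl G L' n x y := by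
  have e1 := vl_eq (G := G) (L := L) (L' := L') n x y
  have e2 := pl_nonneg (G := G) h0 h0' n x y
  linarith

theorem summable_vl (hd : G.IsRegularOfDegree (b + 1)) (h0 : ∀ x y, 0 ≤ L x y)
    (h1 : ∀ x y, L x y ≤ θ) (hθ : b * θ ^ 2 < 1) (h0' : ∀ x y, 0 ≤ L' x y)
    (h1' : ∀ x y, L' x y ≤ θ') (hθ' : b * θ' ^ 2 < 1) {x y : V} (h : G.Adj x y) :
    Summable fun n => vl G L L' n x y :=
  Summable.of_nonneg_of_le (fun n => vl_nonneg n x y) (fun n => vl_le h0 h0' n x y)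
    ((summable_xl hd h0 h1 hθ h).add (summable_xl hd h0' h1' hθ' h))

set_option linter.unusedVariables false in
theorem Vs_nonneg (hd : G.IsRegularOfDegree (b + 1)) (h0 : ∀ x y, 0 ≤ L x y)
    (h1 : ∀ x y, L x y ≤ θ) (hθ : b * θ ^ 2 < 1) (h0' : ∀ x y, 0 ≤ L' x y)
    (h1' : ∀ x y, L' x y ≤ θ') (hθ' : b * θ' ^ 2 < 1) {x y : V} (h : G.Adj x y) :
    0 ≤ Vs G L L' x y :=
  tsum_nonneg fun n => vl_nonneg n x y

theorem Vs_le (hd : G.IsRegularOfDegree (b + 1)) (h0 : ∀ x y, 0 ≤ L x y)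
    (h1 : ∀ x y, L x y ≤ θ) (hθ : b * θ ^ 2 < 1) (h0' : ∀ x y, 0 ≤ L' x y)
    (h1' : ∀ x y, L' x y ≤ θ') (hθ' : b * θ' ^ 2 < 1) {x y : V} (h : G.Adj x y) :
    Vs G L L' x y ≤ 4 / ((1 - b * θ ^ 2) * (1 - b * θ' ^ 2)) := by
  have e1 := (summable_vl hd h0 h1 hθ h0' h1' hθ' h).tsum_le_tsum (fun n => vl_le h0 h0' n x y)
    ((summable_xl hd h0 h1 hθ h).add (summable_xl hd h0' h1' hθ' h))
  rw [Summable.tsum_add (summable_xl hd h0 h1 hθ h) (summable_xl hd h0' h1' hθ' h)] at e1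
  have e2 := Xs_le hd h0 h1 hθ h
  have e3 := Xs_le hd h0' h1' hθ' h
  have e4 := inv_bound_aux' hθ hθ'
  have e5 := inv_bound_aux' hθ' hθ
  rw [mul_comm (1 - b * θ' ^ 2)] at e5
  have e6 : 4 / ((1 - b * θ ^ 2) * (1 - b * θ' ^ 2)) =
      4 * (1 / ((1 - b * θ ^ 2) * (1 - b * θ' ^ 2))) := by
    ring
  have e7 : 0 ≤ 1 / ((1 - b * θ ^ 2) * (1 - b * θ' ^ 2)) :=
    one_div_nonneg.2 (mul_nonneg (by linarith) (by linarith))
  rw [e6]
  unfold Vs
  unfold Xs at e2 e3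
  linarith

theorem Vs_rec (hd : G.IsRegularOfDegree (b + 1)) (h0 : ∀ x y, 0 ≤ L x y)
    (h1 : ∀ x y, L x y ≤ θ) (hθ : b * θ ^ 2 < 1) (h0' : ∀ x y, 0 ≤ L' x y)
    (h1' : ∀ x y, L' x y ≤ θ') (hθ' : b * θ' ^ 2 < 1) {x y : V} (h : G.Adj x y) :
    Vs G L L' x y = nsum G x y fun z =>
      L y z ^ 2 * Vs G L L' y z + 2 * L y z * (L y z - L' y z) * Gs G L L' y z +
        (L y z - L' y z) ^ 2 * Xs G L' y z := by
  have e := (summable_vl hd h0 h1 hθ h0' h1' hθ' h).tsum_eq_zero_add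
  have e2 : HasSum (fun n => vl G L L' (n + 1) x y) (nsum G x y fun z =>
      L y z ^ 2 * Vs G L L' y z + 2 * L y z * (L y z - L' y z) * Gs G L L' y z +
        (L y z - L' y z) ^ 2 * Xs G L' y z) :=
    hasSum_nsum fun z hz _ => ((((summable_vl hd h0 h1 hθ h0' h1' hθ' hz).hasSum).mul_left _).add
      (((summable_gl hd h0 h1 hθ h0' h1' hθ' hz).hasSum).mul_left _)).add
      (((summable_xl hd h0' h1' hθ' hz).hasSum).mul_left _)
  rw [e2.tsum_eq] at e
  simpa [vl, Vs] using e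

end

end Vale.Agent.P161.EP
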