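import Mathlib
import Vale.Agent.P161.EP.KernelA

/-!
# Module D2 (Kernel): the kernel `ker` of dart weights on the regular tree

`kerN` has exactly one term per step in a tree (`parent_unique`).  The sphere of radius `n+1` around
`v` is the disjoint union over `z ∼ v` of the `w` at distance `n` from `z` beyond `z` seen from `v`.
-/

open MeasureTheory

namespace Vale.Agent.P161.EP

universe u

variable {V : Type u} {G : SimpleGraph V} [G.LocallyFinite]

section

variable {b : ℕ} {θ θ' : ℝ} {L L' : V → V → ℝ}

/-! ### The kernel -/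

theorem ker_self (v : V) : ker G L v v = 1 := by
  simp [ker, kerN]

theorem ker_rec (hG : G.IsTree) {v z w : V} (hz : G.Adj v z) (hd : G.dist z w < G.dist v w) :
    ker G L v w = L v z * ker G L z w := by
  classical
  have h1 : G.dist v w = G.dist z w + 1 := by
    rcases IsTree.dist_cases hG hz w with h | h <;> omega
  have h2 : ker G L v w = ∑ z' ∈ G.neighborFinset v,
      if G.dist z' w < G.dist v w then L v z' * kerN G L (G.dist z w) z' w else 0 := by
    unfold ker
    conv_lhs => rw [h1, kerN]
  rw [h2, Finset.sum_eq_single z]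
  · rw [if_pos hd]
    rfl
  · intro z' hz' hne
    rw [SimpleGraph.mem_neighborFinset] at hz'
    rw [if_neg]
    intro h3
    apply hne
    refine IsTree.parent_unique hG hz' hz (w := w) ?_ h1.symm
    rcases IsTree.dist_cases hG hz' w with h | h <;> omega
  · intro hn
    exact absurd ((SimpleGraph.mem_neighborFinset _ _ _).2 hz) hn

theorem ker_nonneg (hG : G.IsTree) (h0 : ∀ x y, 0 ≤ L x y) (v w : V) : 0 ≤ ker G L v w := by
  induction hn : G.dist v w generalizing v with
  | zero =>
    obtain rfl := (hG.connected.dist_eq_zero_iff).1 hn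
    rw [ker_self]
    exact zero_le_one
  | succ n ih =>
    have hne : v ≠ w := by
      rintro rfl
      simp at hn
    obtain ⟨z, hz, hd⟩ := exists_adj_dist hG.connected hne
    rw [ker_rec hG hz (by omega)]
    exact mul_nonneg (h0 _ _) (ih z (by omega))

theorem ker_le (hG : G.IsTree) (h0 : ∀ x y, 0 ≤ L x y) (h1 : ∀ x y, L x y ≤ θ) (v w : V) :
    ker G L v w ≤ θ ^ G.dist v w := by
  induction hn : G.dist v w generalizing v with
  | zero =>
    obtain rfl := (hG.connected.dist_eq_zero_iff).1 hn
    rw [ker_self, pow_zero]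
  | succ n ih =>
    have hne : v ≠ w := by
      rintro rfl
      simp at hn
    obtain ⟨z, hz, hd⟩ := exists_adj_dist hG.connected hne
    rw [ker_rec hG hz (by omega), pow_succ']
    exact mul_le_mul (h1 _ _) (ih z (by omega)) (ker_nonneg hG h0 _ _)
      ((h0 v z).trans (h1 v z))

theorem ker_rec_right (hG : G.IsTree) {v z w : V} (hz : G.Adj v z)
    (hd : G.dist z w < G.dist v w) : ker G L w v = ker G L w z * L z v := by
  induction hn : G.dist w z generalizing w with
  | zero =>
    obtain rfl := (hG.connected.dist_eq_zero_iff).1 hn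
    have h1 : G.dist v v < G.dist w v := by
      rw [SimpleGraph.dist_self, G.dist_comm]
      omega
    rw [ker_rec hG hz.symm h1, ker_self, ker_self]
    ring
  | succ n ih =>
    have hne : w ≠ z := by
      rintro rfl
      simp at hn
    obtain ⟨w', hw', hd'⟩ := exists_adj_dist hG.connected hne
    have h1 : G.dist v w = G.dist z w + 1 := by
      rcases IsTree.dist_cases hG hz w with h | h <;> omega
    have h2 := dist_le_add_one hG.connected hz w'
    have h3 := dist_le_add_one hG.connected hw' v
    have h4 := dist_le_add_one hG.connected hw' z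
    rw [G.dist_comm (u := w) (v := v), G.dist_comm (u := w') (v := v)] at h3
    rw [G.dist_comm (u := w) (v := z), G.dist_comm (u := w') (v := z)] at h4 hd'
    have h5 : G.dist w' v < G.dist w v := by
      rw [G.dist_comm (u := w') (v := v), G.dist_comm (u := w) (v := v)]
      omega
    have h6 : G.dist w' z < G.dist w z := by
      rw [G.dist_comm (u := w') (v := z), G.dist_comm (u := w) (v := z)]
      omega
    rw [ker_rec hG hw' h5, ker_rec hG hw' h6, ih (w := w') (by omega)
      (by rw [G.dist_comm (u := w') (v := z)]; rw [G.dist_comm] at hn; omega)]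
    ring

/-- Reversal. -/
theorem ker_reverse (hG : G.IsTree) {a : V → ℝ} (ha : ∀ x y, G.Adj x y → a x * L x y = a y * L y x)
    (v w : V) : a v * ker G L v w = a w * ker G L w v := by
  induction hn : G.dist v w generalizing v with
  | zero =>
    obtain rfl := (hG.connected.dist_eq_zero_iff).1 hn
    rfl
  | succ n ih =>
    have hne : v ≠ w := by
      rintro rfl
      simp at hn
    obtain ⟨z, hz, hd⟩ := exists_adj_dist hG.connected hne
    rw [ker_rec hG hz (by omega), ker_rec_right hG hz (by omega), ← mul_assoc, ha v z hz]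
    have e := ih z (by omega)
    calc a z * L z v * ker G L z w = L z v * (a z * ker G L z w) := by ring
      _ = L z v * (a w * ker G L w z) := by rw [e]
      _ = a w * (ker G L w z * L z v) := by ring

/-! ### Cones and spheres -/

open Classical in
/-- The vertices at distance `n` from `y` beyond `y` seen from `x`. -/
noncomputable def cone (G : SimpleGraph V) (n : ℕ) (x y : V) : Finset V :=
  (ball G y n).filter fun w => G.dist y w = n ∧ G.dist x w = n + 1

open Classical in
/-- The sphere. -/
noncomputable def sph (G : SimpleGraph V) (v : V) (n : ℕ) : Finset V :=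
  (ball G v n).filter fun w => G.dist v w = n

theorem mem_cone (hG : G.IsTree) {n : ℕ} {x y w : V} :
    w ∈ cone G n x y ↔ G.dist y w = n ∧ G.dist x w = n + 1 := by
  unfold cone
  rw [Finset.mem_filter, mem_ball hG.connected]
  constructor
  · exact fun h => h.2
  · exact fun h => ⟨h.1.le, h⟩

theorem mem_sph (hG : G.IsTree) {n : ℕ} {v w : V} : w ∈ sph G v n ↔ G.dist v w = n := by
  unfold sph
  rw [Finset.mem_filter, mem_ball hG.connected]
  constructor
  · exact fun h => h.2
  · exact fun h => ⟨h.le, h⟩

theorem cone_zero (hG : G.IsTree) {x y : V} (h : G.Adj x y) : cone G 0 x y = {y} := by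
  ext w
  rw [mem_cone hG, Finset.mem_singleton, hG.connected.dist_eq_zero_iff]
  constructor
  · exact fun h => h.1.symm
  · rintro rfl
    exact ⟨rfl, by rw [SimpleGraph.dist_eq_one_iff_adj.2 h]⟩

theorem sph_zero (hG : G.IsTree) (v : V) : sph G v 0 = {v} := by
  ext w
  rw [mem_sph hG, Finset.mem_singleton, hG.connected.dist_eq_zero_iff]
  exact eq_comm

theorem sum_sph_succ (hG : G.IsTree) (f : V → ℝ) (n : ℕ) (v : V) :
    ∑ w ∈ sph G v (n + 1), f w = ∑ z ∈ G.neighborFinset v, ∑ w ∈ cone G n v z, f w := by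
  classical
  rw [← Finset.sum_biUnion]
  · refine Finset.sum_congr ?_ fun _ _ => rfl
    ext w
    rw [mem_sph hG, Finset.mem_biUnion]
    constructor
    · intro h
      have hne : v ≠ w := by
        rintro rfl
        simp at h
      obtain ⟨z, hz, hd⟩ := exists_adj_dist hG.connected hne
      exact ⟨z, (SimpleGraph.mem_neighborFinset _ _ _).2 hz,
        (mem_cone hG).2 ⟨by omega, by omega⟩⟩
    · rintro ⟨z, _, hz⟩
      exact ((mem_cone hG).1 hz).2
  · intro z hz z' hz' hne
    rw [Function.onFun, Finset.disjoint_left]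
    intro w hw hw'
    rw [mem_cone hG] at hw hw'
    rw [Finset.mem_coe, SimpleGraph.mem_neighborFinset] at hz hz'
    exact hne (IsTree.parent_unique hG hz hz' (w := w) (by omega) (by omega))

theorem sum_cone_succ (hG : G.IsTree) (f : V → ℝ) (n : ℕ) {x y : V} (h : G.Adj x y) :
    ∑ w ∈ cone G (n + 1) x y, f w = nsum G x y fun z => ∑ w ∈ cone G n y z, f w := by
  classical
  unfold nsum
  have e : ∀ z ∈ G.neighborFinset y, (if z = x then 0 else ∑ w ∈ cone G n y z, f w) =
      ∑ w ∈ cone G n y z, if z = x then 0 else f w := by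
    intro z _
    by_cases hz : z = x <;> simp [hz]
  have e1 : (∑ z ∈ G.neighborFinset y, if z = x then 0 else ∑ w ∈ cone G n y z, f w) =
      ∑ z ∈ (G.neighborFinset y).erase x, ∑ w ∈ cone G n y z, f w := by
    have hx : x ∈ G.neighborFinset y := (SimpleGraph.mem_neighborFinset _ _ _).2 h.symm
    rw [← Finset.add_sum_erase _ _ hx]
    rw [if_pos rfl, zero_add]
    refine Finset.sum_congr rfl fun z hz => ?_
    rw [if_neg (Finset.ne_of_mem_erase hz)]
  rw [e1, ← Finset.sum_biUnion]
  · refine Finset.sum_congr ?_ fun _ _ => rfl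
    ext w
    rw [mem_cone hG, Finset.mem_biUnion]
    constructor
    · rintro ⟨h1, h2⟩
      have hne : y ≠ w := by
        rintro rfl
        simp at h1
      obtain ⟨z, hz, hd⟩ := exists_adj_dist hG.connected hne
      refine ⟨z, Finset.mem_erase.2 ⟨?_, (SimpleGraph.mem_neighborFinset _ _ _).2 hz⟩,
        (mem_cone hG).2 ⟨by omega, by omega⟩⟩
      rintro rfl
      omega
    · rintro ⟨z, hz, hw⟩
      rw [mem_cone hG] at hw
      rw [Finset.mem_erase, SimpleGraph.mem_neighborFinset] at hz
      refine ⟨hw.2, ?_⟩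
      rcases IsTree.dist_cases hG h w with h3 | h3
      · omega
      · exfalso
        exact hz.1 (IsTree.parent_unique hG hz.2 h.symm (w := w) (by omega) (by omega))
  · intro z hz z' hz' hne
    rw [Function.onFun, Finset.disjoint_left]
    intro w hw hw'
    rw [mem_cone hG] at hw hw'
    rw [Finset.mem_coe, Finset.mem_erase, SimpleGraph.mem_neighborFinset] at hz hz'
    exact hne (IsTree.parent_unique hG hz.2 hz'.2 (w := w) (by omega) (by omega))

theorem ker_cone (hG : G.IsTree) {n : ℕ} {y z w : V} (hz : G.Adj y z) (hw : w ∈ cone G n y z) :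
    ker G L y w = L y z * ker G L z w := by
  rw [mem_cone hG] at hw
  exact ker_rec hG hz (by omega)

theorem sum_cone_sq (hG : G.IsTree) (n : ℕ) {x y : V} (h : G.Adj x y) :
    ∑ w ∈ cone G n x y, ker G L y w ^ 2 = xl G L n x y := by
  induction n generalizing x y with
  | zero => rw [cone_zero hG h, Finset.sum_singleton, ker_self, xl, one_pow]
  | succ n ih =>
    rw [sum_cone_succ hG _ n h, xl]
    refine nsum_congr fun z hz _ => ?_
    rw [← ih hz, Finset.mul_sum]
    refine Finset.sum_congr rfl fun w hw => ?_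
    rw [ker_cone hG hz hw]
    ring

theorem sum_cone_mul (hG : G.IsTree) (n : ℕ) {x y : V} (h : G.Adj x y) :
    ∑ w ∈ cone G n x y, (ker G L y w - ker G L' y w) * ker G L' y w = gl G L L' n x y := by
  induction n generalizing x y with
  | zero => rw [cone_zero hG h, Finset.sum_singleton, ker_self, ker_self, gl]; ring
  | succ n ih =>
    rw [sum_cone_succ hG _ n h, gl]
    refine nsum_congr fun z hz _ => ?_
    rw [← ih hz, ← sum_cone_sq hG n hz, Finset.mul_sum, Finset.mul_sum, ← Finset.sum_add_distrib]
    refine Finset.sum_congr rfl fun w hw => ?_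
    rw [ker_cone hG hz hw, ker_cone hG hz hw]
    ring

theorem sum_cone_sub_sq (hG : G.IsTree) (n : ℕ) {x y : V} (h : G.Adj x y) :
    ∑ w ∈ cone G n x y, (ker G L y w - ker G L' y w) ^ 2 = vl G L L' n x y := by
  induction n generalizing x y with
  | zero => rw [cone_zero hG h, Finset.sum_singleton, ker_self, ker_self, vl]; ring
  | succ n ih =>
    rw [sum_cone_succ hG _ n h, vl]
    refine nsum_congr fun z hz _ => ?_
    rw [← ih hz, ← sum_cone_sq hG n hz, ← sum_cone_mul hG n hz, Finset.mul_sum, Finset.mul_sum,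
      Finset.mul_sum, ← Finset.sum_add_distrib, ← Finset.sum_add_distrib]
    refine Finset.sum_congr rfl fun w hw => ?_
    rw [ker_cone hG hz hw, ker_cone hG hz hw]
    ring

theorem sum_ball_eq (hG : G.IsTree) (f : V → ℝ) (v : V) (n : ℕ) :
    ∑ w ∈ ball G v n, f w = ∑ i ∈ Finset.range (n + 1), ∑ w ∈ sph G v i, f w := by
  classical
  rw [← Finset.sum_biUnion]
  · refine Finset.sum_congr ?_ fun _ _ => rfl
    ext w
    rw [mem_ball hG.connected, Finset.mem_biUnion]
    constructor
    · intro h
      exact ⟨G.dist v w, Finset.mem_range.2 (by omega), (mem_sph hG).2 rfl⟩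
    · rintro ⟨i, hi, hw⟩
      rw [mem_sph hG] at hw
      rw [Finset.mem_range] at hi
      omega
  · intro i _ j _ hne
    rw [Function.onFun, Finset.disjoint_left]
    intro w hw hw'
    rw [mem_sph hG] at hw hw'
    omega

/-- Summation of a nonnegative function over the vertices by spheres. -/
theorem hasSum_of_sph (hG : G.IsTree) {f : V → ℝ} (hf : ∀ w, 0 ≤ f w) {v : V} {a : ℝ}
    (h : HasSum (fun n => ∑ w ∈ sph G v n, f w) a) : HasSum f a := by
  classical
  have hball : Monotone (ball G v) := fun m n hmn => ball_mono hG.connected hmn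
  have htop : Filter.Tendsto (ball G v) Filter.atTop Filter.atTop :=
    Filter.tendsto_atTop_finset_of_monotone hball fun w =>
      ⟨G.dist v w, (mem_ball hG.connected).2 le_rfl⟩
  have hlim : Filter.Tendsto (fun n => ∑ w ∈ ball G v n, f w) Filter.atTop (nhds a) := by
    have e := h.tendsto_sum_nat.comp (Filter.tendsto_add_atTop_nat 1)
    refine e.congr fun n => ?_
    exact (sum_ball_eq hG f v n).symm
  have hle : ∀ n, ∑ w ∈ ball G v n, f w ≤ a := by
    intro n
    rw [sum_ball_eq hG]
    exact sum_le_hasSum _ (fun i _ => Finset.sum_nonneg fun w _ => hf w) h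
  have hs : Summable f := by
    refine summable_of_sum_le hf (c := a) fun s => ?_
    obtain ⟨n, hn⟩ := (Filter.tendsto_atTop.1 htop s).exists
    exact (Finset.sum_le_sum_of_subset_of_nonneg hn fun w _ _ => hf w).trans (hle n)
  have e := hs.hasSum.comp htop
  rw [tendsto_nhds_unique hlim e]
  exact hs.hasSum

/-- `∑_w (ker v w)² = 1 + ∑_{z ∼ v} L(v,z)² X(v,z)`. -/
theorem hasSum_ker_sq (hG : G.IsTree) (hd : G.IsRegularOfDegree (b + 1))
    (h0 : ∀ x y, 0 ≤ L x y) (h1 : ∀ x y, L x y ≤ θ) (hθ : b * θ ^ 2 < 1) (v : V) :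
    HasSum (fun w => ker G L v w ^ 2)
      (1 + ∑ z ∈ G.neighborFinset v, L v z ^ 2 * Xs G L v z) := by
  refine hasSum_of_sph hG (fun w => sq_nonneg _) (v := v) ?_
  have e : HasSum (fun n => ∑ w ∈ sph G v (n + 1), ker G L v w ^ 2)
      (∑ z ∈ G.neighborFinset v, L v z ^ 2 * Xs G L v z) := by
    have e2 : ∀ n, ∑ w ∈ sph G v (n + 1), ker G L v w ^ 2 =
        ∑ z ∈ G.neighborFinset v, L v z ^ 2 * xl G L n v z := by
      intro n
      rw [sum_sph_succ hG]
      refine Finset.sum_congr rfl fun z hz => ?_
      rw [SimpleGraph.mem_neighborFinset] at hz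
      rw [← sum_cone_sq hG n hz, Finset.mul_sum]
      refine Finset.sum_congr rfl fun w hw => ?_
      rw [ker_cone hG hz hw]
      ring
    simp_rw [e2]
    refine hasSum_sum fun z hz => ?_
    rw [SimpleGraph.mem_neighborFinset] at hz
    exact ((summable_xl hd h0 h1 hθ hz).hasSum).mul_left _
  have e3 := (hasSum_nat_add_iff (f := fun n => ∑ w ∈ sph G v n, ker G L v w ^ 2) 1).1 e
  rw [Finset.sum_range_one, sph_zero hG, Finset.sum_singleton, ker_self, one_pow, add_comm] at e3
  exact e3

/-- `∑_w (ker v w - ker' v w)² = ∑_{z ∼ v} q(v,z)`. -/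
theorem hasSum_ker_sub_sq (hG : G.IsTree) (hd : G.IsRegularOfDegree (b + 1))
    (h0 : ∀ x y, 0 ≤ L x y) (h1 : ∀ x y, L x y ≤ θ) (hθ : b * θ ^ 2 < 1)
    (h0' : ∀ x y, 0 ≤ L' x y) (h1' : ∀ x y, L' x y ≤ θ') (hθ' : b * θ' ^ 2 < 1) (v : V) :
    HasSum (fun w => (ker G L v w - ker G L' v w) ^ 2)
      (∑ z ∈ G.neighborFinset v,
        (L v z ^ 2 * Vs G L L' v z + 2 * L v z * (L v z - L' v z) * Gs G L L' v z +
          (L v z - L' v z) ^ 2 * Xs G L' v z)) := by
  refine hasSum_of_sph hG (fun w => sq_nonneg _) (v := v) ?_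
  have e : HasSum (fun n => ∑ w ∈ sph G v (n + 1), (ker G L v w - ker G L' v w) ^ 2)
      (∑ z ∈ G.neighborFinset v,
        (L v z ^ 2 * Vs G L L' v z + 2 * L v z * (L v z - L' v z) * Gs G L L' v z +
          (L v z - L' v z) ^ 2 * Xs G L' v z)) := by
    have e2 : ∀ n, ∑ w ∈ sph G v (n + 1), (ker G L v w - ker G L' v w) ^ 2 =
        ∑ z ∈ G.neighborFinset v,
        (L v z ^ 2 * vl G L L' n v z + 2 * L v z * (L v z - L' v z) * gl G L L' n v z +
          (L v z - L' v z) ^ 2 * xl G L' n v z) := by
      intro n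
      rw [sum_sph_succ hG]
      refine Finset.sum_congr rfl fun z hz => ?_
      rw [SimpleGraph.mem_neighborFinset] at hz
      rw [← sum_cone_sq hG n hz, ← sum_cone_mul hG n hz, ← sum_cone_sub_sq hG n hz,
        Finset.mul_sum, Finset.mul_sum, Finset.mul_sum, ← Finset.sum_add_distrib,
        ← Finset.sum_add_distrib]
      refine Finset.sum_congr rfl fun w hw => ?_
      rw [ker_cone hG hz hw, ker_cone hG hz hw]
      ring
    simp_rw [e2]
    refine hasSum_sum fun z hz => ?_
    rw [SimpleGraph.mem_neighborFinset] at hz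
    exact ((((summable_vl hd h0 h1 hθ h0' h1' hθ' hz).hasSum).mul_left _).add
      (((summable_gl hd h0 h1 hθ h0' h1' hθ' hz).hasSum).mul_left _)).add
      (((summable_xl hd h0' h1' hθ' hz).hasSum).mul_left _)
  have e3 := (hasSum_nat_add_iff
    (f := fun n => ∑ w ∈ sph G v n, (ker G L v w - ker G L' v w) ^ 2) 1).1 e
  rw [Finset.sum_range_one, sph_zero hG, Finset.sum_singleton, ker_self, ker_self, sub_self,
    zero_pow two_ne_zero, add_zero] at e3
  exact e3

end

end Vale.Agent.P161.EP
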