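import Mathlib
import Vale.Agent.P161.EP.Defs
import Vale.Agent.P161.EP.Kernel

/-!
# Module FV: finite volume identities for means, messages and covariances

Deterministic facts for an arbitrary finite set `S` of sites and observations `|c i| < 1`; the
proof is that of `edge_relation` in `PathBound.lean` (use `edge_split`).
-/

open MeasureTheory

namespace Vale.Agent.P161.EP

universe u

variable {V : Type u} {ι : Type*} {G : SimpleGraph V} {θ : ℝ} {μ : Measure (V → Bool)}

open Classical in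
/-- The message of the dart `(x, y)`. -/
noncomputable def msg (G : SimpleGraph V) (μ : Measure (V → Bool)) (site : ι → V) (S : Finset ι)
    (c : ι → ℝ) (x y : V) : ℝ :=
  mag μ site (S.filter (fun i => G.dist y (site i) < G.dist x (site i))) c y

theorem abs_msg_lt (hμ : IsTreeIsing G θ μ) (site : ι → V) (S : Finset ι) (c : ι → ℝ)
    (hc : ∀ i ∈ S, |c i| < 1) (x y : V) : |msg G μ site S c x y| < 1 := by
  classical
  have := hμ.isProb
  unfold msg
  refine abs_mag_lt hμ.mean_zero (fun i hi => hc i ?_) y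
  exact (Finset.mem_filter.mp hi).1

/-- The evidence, the mean and the covariance relations for the two sides of an edge. -/
theorem edge_msg (hG : G.IsTree) (hμ : IsTreeIsing G θ μ) (h0 : 0 ≤ θ) (h1 : θ < 1)
    (site : ι → V) {v v' w : V} (hv : G.Adj v v') (hw : G.dist v' w < G.dist v w)
    (S : Finset ι) (c : ι → ℝ) (hc : ∀ i ∈ S, |c i| < 1) :
    mag μ site S c v = (msg G μ site S c v' v + θ * msg G μ site S c v v') /
        (1 + θ * msg G μ site S c v' v * msg G μ site S c v v') ∧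
      cov μ site S c v w / (1 - mag μ site S c v ^ 2) =
        lam θ (msg G μ site S c v v') *
          (cov μ site S c v' w / (1 - mag μ site S c v' ^ 2)) := by
  classical
  have := hμ.isProb
  set SA := S.filter (fun i => G.dist v (site i) < G.dist v' (site i)) with hSA
  set SB := S.filter (fun i => G.dist v' (site i) < G.dist v (site i)) with hSB
  have hSB' : SB = S.filter (fun i => ¬ G.dist v (site i) < G.dist v' (site i)) := by
    rw [hSB]
    refine Finset.filter_congr fun i _ => ?_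
    have h3 := IsTree.dist_ne hG hv (site i)
    omega
  have hcA : ∀ i ∈ SA, |c i| < 1 := fun i hi => hc i (Finset.mem_filter.mp hi).1
  have hcB : ∀ i ∈ SB, |c i| < 1 := fun i hi => hc i (Finset.mem_filter.mp hi).1
  have hsplit : ∀ σ, wt site S c σ = wt site SA c σ * wt site SB c σ := by
    intro σ
    rw [hSB']
    unfold wt
    exact (Finset.prod_filter_mul_prod_filter_not S _ _).symm
  set A : Finset V := insert v (SA.image site) with hA
  set B : Finset V := insert v' (insert w (SB.image site)) with hB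
  have hdv : G.dist v v' = 1 := SimpleGraph.dist_eq_one_iff_adj.mpr hv
  have hdv' : G.dist v' v = 1 := SimpleGraph.dist_eq_one_iff_adj.mpr hv.symm
  have hAd : ∀ a ∈ A, G.dist v a < G.dist v' a := by
    intro a ha
    rw [hA, Finset.mem_insert, Finset.mem_image] at ha
    rcases ha with rfl | ⟨i, hi, rfl⟩
    · rw [hdv', SimpleGraph.dist_self]; exact one_pos
    · exact (Finset.mem_filter.mp hi).2
  have hBd : ∀ b ∈ B, G.dist v' b < G.dist v b := by
    intro b hb
    rw [hB, Finset.mem_insert, Finset.mem_insert, Finset.mem_image] at hb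
    rcases hb with rfl | rfl | ⟨i, hi, rfl⟩
    · rw [hdv, SimpleGraph.dist_self]; exact one_pos
    · exact hw
    · exact (Finset.mem_filter.mp hi).2
  have key := hμ.edge_split v v' hv A B hAd hBd
  have dA : DependsOn (wt site SA c) (A : Set V) := dependsOn_wt' fun i hi => by
    simp only [hA, Finset.coe_insert, Finset.coe_image, Set.mem_insert_iff, Set.mem_image,
      Finset.mem_coe]
    exact Or.inr ⟨i, hi, rfl⟩
  have dB : DependsOn (wt site SB c) (B : Set V) := dependsOn_wt' fun i hi => by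
    simp only [hB, Finset.coe_insert, Finset.coe_image, Set.mem_insert_iff, Set.mem_image,
      Finset.mem_coe]
    exact Or.inr (Or.inr ⟨i, hi, rfl⟩)
  have hvA : v ∈ (A : Set V) := by simp [hA]
  have hvB : v' ∈ (B : Set V) := by simp [hB]
  have hwB : w ∈ (B : Set V) := by simp [hB]
  have dvA : DependsOn (fun σ => spin (σ v) * wt site SA c σ) (A : Set V) := by
    intro x y h
    simp only
    rw [h v hvA, dA h]
  have dvB : DependsOn (fun σ => spin (σ v') * wt site SB c σ) (B : Set V) := by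
    intro x y h
    simp only
    rw [h v' hvB, dB h]
  have dwB : DependsOn (fun σ => spin (σ w) * wt site SB c σ) (B : Set V) := by
    intro x y h
    simp only
    rw [h w hwB, dB h]
  have dvwB : DependsOn (fun σ => spin (σ v') * (spin (σ w) * wt site SB c σ)) (B : Set V) := by
    intro x y h
    simp only
    rw [h v' hvB, h w hwB, dB h]
  have mA : msg G μ site S c v' v =
      (∫ σ, spin (σ v) * wt site SA c σ ∂μ) / (∫ σ, wt site SA c σ ∂μ) := by
    unfold msg mag evid
    rfl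
  have mB : msg G μ site S c v v' =
      (∫ σ, spin (σ v') * wt site SB c σ ∂μ) / (∫ σ, wt site SB c σ ∂μ) := by
    unfold msg mag evid
    rfl
  rw [mA, mB]
  set a0 := ∫ σ, wt site SA c σ ∂μ with ha0
  set a1 := ∫ σ, spin (σ v) * wt site SA c σ ∂μ with ha1
  set b0 := ∫ σ, wt site SB c σ ∂μ with hb0
  set b1 := ∫ σ, spin (σ v') * wt site SB c σ ∂μ with hb1
  set n0 := ∫ σ, spin (σ w) * wt site SB c σ ∂μ with hn0
  set n1 := ∫ σ, spin (σ v') * (spin (σ w) * wt site SB c σ) ∂μ with hn1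
  have sA : ∫ σ, spin (σ v) * (spin (σ v) * wt site SA c σ) ∂μ = a0 := by
    rw [ha0]
    refine integral_congr_ae (Filter.Eventually.of_forall fun σ => ?_)
    simp only [← mul_assoc, spin_mul_self, one_mul]
  have sB : ∫ σ, spin (σ v') * (spin (σ v') * wt site SB c σ) ∂μ = b0 := by
    rw [hb0]
    refine integral_congr_ae (Filter.Eventually.of_forall fun σ => ?_)
    simp only [← mul_assoc, spin_mul_self, one_mul]
  have sB' : ∫ σ, spin (σ v') * (spin (σ v') * (spin (σ w) * wt site SB c σ)) ∂μ = n0 := by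
    rw [hn0]
    refine integral_congr_ae (Filter.Eventually.of_forall fun σ => ?_)
    simp only [← mul_assoc, spin_mul_self, one_mul]
  have e0 : evid μ site S c = a0 * b0 + θ * a1 * b1 := by
    have := key _ _ dA dB
    rw [← this]
    unfold evid
    exact integral_congr_ae (Filter.Eventually.of_forall fun σ => hsplit σ)
  have e1 : ∫ σ, spin (σ v) * wt site S c σ ∂μ = a1 * b0 + θ * a0 * b1 := by
    have := key _ _ dvA dB
    rw [sA] at this
    rw [← this]
    refine integral_congr_ae (Filter.Eventually.of_forall fun σ => ?_)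
    simp only [hsplit σ]
    ring
  have e2 : ∫ σ, spin (σ v') * wt site S c σ ∂μ = a0 * b1 + θ * a1 * b0 := by
    have := key _ _ dA dvB
    rw [sB] at this
    rw [← this]
    refine integral_congr_ae (Filter.Eventually.of_forall fun σ => ?_)
    simp only [hsplit σ]
    ring
  have e3 : ∫ σ, spin (σ w) * wt site S c σ ∂μ = a0 * n0 + θ * a1 * n1 := by
    have := key _ _ dA dwB
    rw [← this]
    refine integral_congr_ae (Filter.Eventually.of_forall fun σ => ?_)
    simp only [hsplit σ]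
    ring
  have e4 : ∫ σ, spin (σ v) * spin (σ w) * wt site S c σ ∂μ = a1 * n0 + θ * a0 * n1 := by
    have := key _ _ dvA dwB
    rw [sA] at this
    rw [← this]
    refine integral_congr_ae (Filter.Eventually.of_forall fun σ => ?_)
    simp only [hsplit σ]
    ring
  have e5 : ∫ σ, spin (σ v') * spin (σ w) * wt site S c σ ∂μ = a0 * n1 + θ * a1 * n0 := by
    have := key _ _ dA dvwB
    rw [sB'] at this
    rw [← this]
    refine integral_congr_ae (Filter.Eventually.of_forall fun σ => ?_)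
    simp only [hsplit σ]
    ring
  have pa : 0 < a0 := evid_pos hcA
  have pb : 0 < b0 := evid_pos hcB
  have qa : |a1| < a0 := by
    have := abs_mag_lt (μ := μ) (site := site) hμ.mean_zero hcA v
    unfold mag at this
    rw [abs_div] at this
    change |a1| / |a0| < 1 at this
    rwa [abs_of_pos pa, div_lt_one pa] at this
  have qb : |b1| < b0 := by
    have := abs_mag_lt (μ := μ) (site := site) hμ.mean_zero hcB v'
    unfold mag at this
    rw [abs_div] at this
    change |b1| / |b0| < 1 at this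
    rwa [abs_of_pos pb, div_lt_one pb] at this
  obtain ⟨hZ, h5, h6⟩ := edge_alg (n0 := n0) (n1 := n1) h0 h1 pa qa pb qb rfl rfl rfl rfl rfl
  refine ⟨?_, ?_⟩
  · unfold mag
    rw [e0, e1]
    have hD : 1 + θ * (a1 / a0) * (b1 / b0) = (a0 * b0 + θ * a1 * b1) / (a0 * b0) := by
      field_simp
    have hN : a1 / a0 + θ * (b1 / b0) = (a1 * b0 + θ * a0 * b1) / (a0 * b0) := by
      field_simp
    rw [hD, hN, div_div_div_cancel_right₀ (mul_pos pa pb).ne']
  · unfold cov mag cor
    rw [e0, e1, e2, e3, e4, e5]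
    exact h6

/-- The mean in terms of the two messages of an edge. -/
theorem mag_eq_msg (hG : G.IsTree) (hμ : IsTreeIsing G θ μ) (h0 : 0 ≤ θ) (h1 : θ < 1)
    (site : ι → V) (S : Finset ι) (c : ι → ℝ) (hc : ∀ i ∈ S, |c i| < 1) {x y : V}
    (h : G.Adj x y) :
    mag μ site S c x = (msg G μ site S c y x + θ * msg G μ site S c x y) /
      (1 + θ * msg G μ site S c y x * msg G μ site S c x y) := by
  refine (edge_msg hG hμ h0 h1 site h (w := y) ?_ S c hc).1
  rw [SimpleGraph.dist_self, SimpleGraph.dist_eq_one_iff_adj.mpr h]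
  exact one_pos

/-- The covariance in terms of the means and the messages. -/
theorem cov_eq_Jk [G.LocallyFinite] (hG : G.IsTree) (hμ : IsTreeIsing G θ μ) (h0 : 0 ≤ θ)
    (h1 : θ < 1) (site : ι → V) (S : Finset ι) (c : ι → ℝ) (hc : ∀ i ∈ S, |c i| < 1) (v w : V) :
    cov μ site S c v w = Jk G θ (mag μ site S c) (msg G μ site S c) v w := by
  have := hμ.isProb
  have key : ∀ n : ℕ, ∀ v : V, G.dist v w = n →
      cov μ site S c v w / (1 - mag μ site S c v ^ 2) =
        ker G (fun x y => lam θ (msg G μ site S c x y)) v w := by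
    intro n
    induction n with
    | zero =>
      intro v hv
      have hvw : v = w := by
        rwa [hG.connected.dist_eq_zero_iff] at hv
      subst hvw
      rw [cov_self hc, div_self (one_sub_mag_sq_pos hμ hc v).ne', ker_self]
    | succ n ih =>
      intro v hv
      have hne : v ≠ w := by
        rintro rfl
        simp at hv
      obtain ⟨v', hadj, hv'⟩ := exists_adj_dist hG.connected hne
      have hd' : G.dist v' w = n := by omega
      have hlt : G.dist v' w < G.dist v w := by omega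
      rw [(edge_msg hG hμ h0 h1 site hadj hlt S c hc).2, ih v' hd', ker_rec hG hadj hlt]
  unfold Jk
  rw [← key _ v rfl]
  have := one_sub_mag_sq_pos hμ (site := site) hc v
  field_simp

theorem den_st_pos (h0 : 0 ≤ θ) {s t : ℝ} (hs : |s| ≤ 1) (ht : |t| ≤ 1) :
    1 - θ ≤ 1 + θ * s * t := by
  have h2 : |s * t| ≤ 1 := by
    rw [abs_mul]
    exact mul_le_one₀ hs (abs_nonneg _) ht
  have h3 := neg_abs_le (s * t)
  nlinarith

/-- `Minv` recovers the message. -/
theorem Minv_eq (h0 : 0 ≤ θ) (h1 : θ < 1) {s t : ℝ} (hs : |s| ≤ 1) (ht : |t| ≤ 1) :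
    Minv θ ((s + θ * t) / (1 + θ * s * t)) ((t + θ * s) / (1 + θ * s * t)) = t := by
  have hD := den_st_pos h0 hs ht
  have hD0 : 0 < 1 + θ * s * t := by linarith
  have hq : 0 < 1 - θ ^ 2 := by nlinarith
  have h2 : |s * t| ≤ 1 := by
    rw [abs_mul]
    exact mul_le_one₀ hs (abs_nonneg _) ht
  have h4 : 0 ≤ 1 - θ * s * t := by
    have h3 := le_abs_self (s * t)
    nlinarith
  unfold Minv
  have e1 : (t + θ * s) / (1 + θ * s * t) - θ * ((s + θ * t) / (1 + θ * s * t)) =
      t * (1 - θ ^ 2) / (1 + θ * s * t) := by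
    field_simp
    ring
  have e2 : (s + θ * t) / (1 + θ * s * t) - θ * ((t + θ * s) / (1 + θ * s * t)) =
      s * (1 - θ ^ 2) / (1 + θ * s * t) := by
    field_simp
    ring
  rw [e1, e2]
  have e3 : (1 - θ ^ 2) ^ 2 - 4 * θ * (s * (1 - θ ^ 2) / (1 + θ * s * t)) *
      (t * (1 - θ ^ 2) / (1 + θ * s * t)) =
      ((1 - θ ^ 2) * (1 - θ * s * t) / (1 + θ * s * t)) ^ 2 := by
    field_simp
    ring
  rw [e3, Real.sqrt_sq (div_nonneg (mul_nonneg hq.le h4) hD0.le)]
  have e4 : 1 - θ ^ 2 + (1 - θ ^ 2) * (1 - θ * s * t) / (1 + θ * s * t) =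
      2 * (1 - θ ^ 2) / (1 + θ * s * t) := by
    field_simp
    ring
  rw [e4, div_eq_iff (div_pos (mul_pos two_pos hq) hD0).ne']
  ring

/-- `Minv θ` is continuous. -/
theorem continuous_Minv (h0 : 0 ≤ θ) (h1 : θ < 1) :
    Continuous fun p : ℝ × ℝ => Minv θ p.1 p.2 := by
  have hq : 0 < 1 - θ ^ 2 := by nlinarith
  unfold Minv
  refine Continuous.div (by fun_prop) (by fun_prop) fun p => ?_
  have : 0 ≤ √((1 - θ ^ 2) ^ 2 - 4 * θ * (p.1 - θ * p.2) * (p.2 - θ * p.1)) := Real.sqrt_nonneg _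
  linarith

theorem MF_eq_Minv (hG : G.IsTree) (hμ : IsTreeIsing G θ μ) (h0 : 0 ≤ θ) (h1 : θ < 1)
    (D : Finset V) (k : ℕ) (t : ℝ) (om : V × ℕ → ℝ) {x y : V} (h : G.Adj x y)
    (hc : ∀ e, |cF μ D om e| < 1) :
    MF G μ D k t om x y = Minv θ (mF μ D k t om x) (mF μ D k t om y) := by
  have hx := mag_eq_msg hG hμ h0 h1 Prod.fst (bef om D k t) (cF μ D om) (fun i _ => hc i) h
  have hy := mag_eq_msg hG hμ h0 h1 Prod.fst (bef om D k t) (cF μ D om) (fun i _ => hc i) h.symm
  have a1 := abs_msg_lt hμ Prod.fst (bef om D k t) (cF μ D om) (fun i _ => hc i) x y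
  have a2 := abs_msg_lt hμ Prod.fst (bef om D k t) (cF μ D om) (fun i _ => hc i) y x
  have e : MF G μ D k t om x y = msg G μ Prod.fst (bef om D k t) (cF μ D om) x y := rfl
  unfold mF
  rw [e, hx, hy]
  set s := msg G μ Prod.fst (bef om D k t) (cF μ D om) y x
  set r := msg G μ Prod.fst (bef om D k t) (cF μ D om) x y
  have e2 : 1 + θ * r * s = 1 + θ * s * r := by ring
  rw [e2]
  exact (Minv_eq h0 h1 a2.le a1.le).symm

theorem abs_pair_le (h0 : 0 ≤ θ) (h1 : θ < 1) {s t : ℝ} (hs : |s| ≤ 1) (ht : |t| ≤ 1) :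
    |(s + θ * t) / (1 + θ * s * t)| ≤ 1 := by
  have hD := den_st_pos h0 hs ht
  have hD0 : 0 < 1 + θ * s * t := by linarith
  obtain ⟨s1, s2⟩ := abs_le.mp hs
  obtain ⟨t1, t2⟩ := abs_le.mp ht
  rw [abs_div, abs_of_pos hD0, div_le_one hD0, abs_le]
  have p1 : 0 ≤ 1 - θ * t := by nlinarith
  have p2 : 0 ≤ 1 + θ * t := by nlinarith
  constructor
  · nlinarith [mul_nonneg (by linarith : 0 ≤ 1 + s) p2]
  · nlinarith [mul_nonneg (by linarith : 0 ≤ 1 - s) p1]

theorem Gf_pair (h0 : 0 ≤ θ) (h1 : θ < 1) {s t : ℝ} (hs : |s| ≤ 1) (ht : |t| ≤ 1) :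
    Gf θ ((s + θ * t) / (1 + θ * s * t)) t = (t + θ * s) / (1 + θ * s * t) := by
  have hD := den_st_pos h0 hs ht
  have hD0 : 0 < 1 + θ * s * t := by linarith
  have h2 := den_pos h0 h1 ht
  have h3 := one_sub_sq_pos h0 h1
  have h4 : 0 < 1 - θ ^ 2 * t ^ 2 := by linarith
  unfold Gf
  rw [div_eq_div_iff h4.ne' hD0.ne']
  have e : (s + θ * t) / (1 + θ * s * t) * (1 + θ * s * t) = s + θ * t :=
    div_mul_cancel₀ _ hD0.ne'
  calc ((1 - θ ^ 2) * t + θ * ((s + θ * t) / (1 + θ * s * t)) * (1 - t ^ 2)) * (1 + θ * s * t)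
      = (1 - θ ^ 2) * t * (1 + θ * s * t) +
        θ * ((s + θ * t) / (1 + θ * s * t) * (1 + θ * s * t)) * (1 - t ^ 2) := by ring
    _ = (t + θ * s) * (1 - θ ^ 2 * t ^ 2) := by rw [e]; ring

theorem pair_theta {θ' : ℝ} (h0 : 0 ≤ θ) (h1 : θ < 1) (h0' : 0 ≤ θ') (h1' : θ' < 1)
    {s t : ℝ} (hs : |s| ≤ 1) (ht : |t| ≤ 1) :
    |(s + θ * t) / (1 + θ * s * t) - (s + θ' * t) / (1 + θ' * s * t)| ≤
      1 / ((1 - θ) * (1 - θ')) * |θ - θ'| := by
  have hD := den_st_pos h0 hs ht
  have hD' := den_st_pos h0' hs ht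
  have q : 0 < 1 - θ := by linarith
  have q' : 0 < 1 - θ' := by linarith
  have hD0 : 0 < 1 + θ * s * t := by linarith
  have hD0' : 0 < 1 + θ' * s * t := by linarith
  have e : (s + θ * t) / (1 + θ * s * t) - (s + θ' * t) / (1 + θ' * s * t) =
      (t * (1 - s ^ 2)) * (θ - θ') / ((1 + θ * s * t) * (1 + θ' * s * t)) := by
    rw [div_sub_div _ _ hD0.ne' hD0'.ne']
    congr 1
    ring
  have hs2 : s ^ 2 ≤ 1 := by rw [sq_le_one_iff_abs_le_one]; exact hs
  have e1 : |t * (1 - s ^ 2)| ≤ 1 := by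
    rw [abs_mul]
    refine mul_le_one₀ ht (abs_nonneg _) ?_
    rw [abs_le]
    constructor
    · nlinarith
    · nlinarith [sq_nonneg s]
  rw [e, abs_div, abs_mul, abs_of_pos (mul_pos hD0 hD0'), div_eq_mul_inv,
    one_div, mul_comm (((1 - θ) * (1 - θ'))⁻¹)]
  have k1 : ((1 + θ * s * t) * (1 + θ' * s * t))⁻¹ ≤ ((1 - θ) * (1 - θ'))⁻¹ :=
    inv_anti₀ (mul_pos q q') (mul_le_mul hD hD' q'.le hD0.le)
  refine mul_le_mul ?_ k1 (inv_nonneg.mpr (mul_pos hD0 hD0').le) (abs_nonneg _)
  exact mul_le_of_le_one_left (abs_nonneg _) e1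

theorem lip_alg {θ' a c δ u v d : ℝ} (h0 : 0 ≤ θ) (h1 : θ < 1) (h0' : 0 ≤ θ') (h1' : θ' < 1)
    (ha : 0 ≤ a) (hc : 0 ≤ c) (hδ : 0 ≤ δ) (hu0 : 0 ≤ u) (hv0 : 0 ≤ v)
    (hu : u ≤ a + 1 / ((1 - θ) * (1 - θ')) * δ) (hv : v ≤ c + 1 / ((1 - θ) * (1 - θ')) * δ)
    (main : (1 - θ) * d ≤ (1 + θ) * (v + θ * u)) :
    d ≤ 4 / ((1 - θ) ^ 2 * (1 - θ') ^ 2) * (a + c + δ) := by
  have q : 0 < 1 - θ := by linarith
  have q' : 0 < 1 - θ' := by linarith
  have L1 : 1 ≤ 1 / (1 - θ) := by
    rw [le_div_iff₀ q]; linarith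
  have L1' : 1 ≤ 1 / (1 - θ') := by
    rw [le_div_iff₀ q']; linarith
  obtain ⟨A, hA⟩ : ∃ A, A = 1 / (1 - θ) := ⟨_, rfl⟩
  obtain ⟨A', hA'⟩ : ∃ A', A' = 1 / (1 - θ') := ⟨_, rfl⟩
  have eK : 1 / ((1 - θ) * (1 - θ')) = A * A' := by
    rw [hA, hA', one_div_mul_one_div]
  have e4 : 4 / ((1 - θ) ^ 2 * (1 - θ') ^ 2) = 4 * (A * A') * (A * A') := by
    rw [hA, hA']
    field_simp
  have ed : d = A * ((1 - θ) * d) := by
    rw [hA]
    field_simp
  rw [← hA] at L1
  rw [← hA'] at L1'
  rw [eK] at hu hv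
  rw [e4, ed]
  have hA0 : 0 < A := by linarith
  have hA0' : 0 < A' := by linarith
  have s1 : (1 + θ) * (v + θ * u) ≤ 2 * (v + u) := by
    have k1 : θ * u ≤ u := mul_le_of_le_one_left hu0 h1.le
    have k2 : 0 ≤ v + θ * u := by positivity
    exact mul_le_mul (by linarith) (by linarith) k2 (by norm_num)
  have s2 : (1 - θ) * d ≤ 2 * (a + c + 2 * (A * A' * δ)) := by linarith
  refine (mul_le_mul_of_nonneg_left s2 hA0.le).trans ?_
  have h8 : A ≤ A * A' := le_mul_of_one_le_right hA0.le L1'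
  have h9 : A * A' ≤ (A * A') * (A * A') :=
    le_mul_of_one_le_right (by positivity) (by linarith)
  have g1 : A * (a + c) ≤ (A * A') * (A * A') * (a + c) :=
    mul_le_mul_of_nonneg_right (h8.trans h9) (by linarith)
  have g2 : A * (A * A' * δ) ≤ (A * A') * (A * A' * δ) :=
    mul_le_mul_of_nonneg_right h8 (by positivity)
  have g3 : 0 ≤ (A * A') * (A * A') * (a + c) := by positivity
  linarith

/-- Two-point estimate of the messages, for two systems (possibly with different parameters). -/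
theorem msg_lipschitz {θ' : ℝ} (h0 : 0 ≤ θ) (h1 : θ < 1) (h0' : 0 ≤ θ') (h1' : θ' < 1)
    {s t s' t' : ℝ} (hs : |s| ≤ 1) (ht : |t| ≤ 1) (hs' : |s'| ≤ 1) (ht' : |t'| ≤ 1) :
    |t - t'| ≤ 4 / ((1 - θ) ^ 2 * (1 - θ') ^ 2) *
      (|(s + θ * t) / (1 + θ * s * t) - (s' + θ' * t') / (1 + θ' * s' * t')| +
        |(t + θ * s) / (1 + θ * s * t) - (t' + θ' * s') / (1 + θ' * s' * t')| + |θ - θ'|) := by
  have main := M_lipschitz (m := (s + θ * t) / (1 + θ * s * t))
    (m' := (s' + θ * t') / (1 + θ * s' * t')) (M := t) (M' := t') h0 h1 ht ht'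
    (abs_pair_le h0 h1 hs ht)
  rw [Gf_pair h0 h1 hs ht, Gf_pair h0 h1 hs' ht'] at main
  have p1 := pair_theta (s := s') (t := t') h0 h1 h0' h1' hs' ht'
  have p2 := pair_theta (s := t') (t := s') h0 h1 h0' h1' ht' hs'
  have c1 : 1 + θ * t' * s' = 1 + θ * s' * t' := by ring
  have c2 : 1 + θ' * t' * s' = 1 + θ' * s' * t' := by ring
  rw [c1, c2] at p2
  refine lip_alg h0 h1 h0' h1' (abs_nonneg _) (abs_nonneg _) (abs_nonneg _) (abs_nonneg _)
    (abs_nonneg _) ?_ ?_ main
  · refine (abs_sub_le _ ((s' + θ' * t') / (1 + θ' * s' * t')) _).trans ?_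
    rw [abs_sub_comm ((s' + θ' * t') / (1 + θ' * s' * t')) ((s' + θ * t') / (1 + θ * s' * t'))]
    linarith
  · refine (abs_sub_le _ ((t' + θ' * s') / (1 + θ' * s' * t')) _).trans ?_
    rw [abs_sub_comm ((t' + θ' * s') / (1 + θ' * s' * t')) ((t' + θ * s') / (1 + θ * s' * t'))]
    linarith

end Vale.Agent.P161.EP
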