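import Mathlib
import Vale.Agent.P161.EP.FV
import Vale.Agent.P161.EP.BPbase

/-!
# Module H1 (Blocks): factorisation of the evidence at a vertex (deterministic)

`x ∼ y`, `Z` = neighbours of `y` other than `x`.  The part beyond `y` seen from `x` is the disjoint
union of `{y}` and of the parts beyond `z ∈ Z` seen from `y`.  Use `edge_split` for the edges
`y z`, one at a time (induction over a finite subset of `Z`):
`∫ F(σ) ∏_{z ∈ Z'} wt(S_z) = (∏ evid(S_z)) ∫ F(σ) ∏ (1 + θ σ_y M_z)` for `F` depending on
coordinates not beyond any `z ∈ Z'`; finally `∫ f(σ_y) = (f(1) + f(-1))/2`.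
-/

open MeasureTheory

namespace Vale.Agent.P161.EP

universe u

variable {V : Type u} {ι : Type*} {G : SimpleGraph V} [G.LocallyFinite] {θ : ℝ}
  {μ : Measure (V → Bool)}

open Classical in
/-- The neighbours of `y` other than `x`. -/
noncomputable def nbr (G : SimpleGraph V) [G.LocallyFinite] (x y : V) : Finset V :=
  (G.neighborFinset y).erase x

open Classical in
/-- The sites of `S` beyond `y` seen from `x`. -/
noncomputable def bey (G : SimpleGraph V) (site : ι → V) (S : Finset ι) (x y : V) : Finset ι :=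
  S.filter (fun i => G.dist y (site i) < G.dist x (site i))

open Classical in
/-- The sites of `S` at `y`. -/
noncomputable def att (site : ι → V) (S : Finset ι) (y : V) : Finset ι :=
  S.filter (fun i => site i = y)

/-- The unnormalised weight of `σ_y = τ` given by the own observations: `∏ (1 + τ c_i)`. -/
noncomputable def Pat (site : ι → V) (S : Finset ι) (c : ι → ℝ) (y : V) (τ : ℝ) : ℝ :=
  ∏ i ∈ att site S y, (1 + τ * c i)

theorem mem_nbr {x y z : V} : z ∈ nbr G x y ↔ z ≠ x ∧ G.Adj y z := by
  classical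
  unfold nbr
  rw [Finset.mem_erase, SimpleGraph.mem_neighborFinset]

omit [G.LocallyFinite] in
theorem mem_bey {site : ι → V} {S : Finset ι} {x y : V} {i : ι} :
    i ∈ bey G site S x y ↔ i ∈ S ∧ G.dist y (site i) < G.dist x (site i) := by
  classical
  unfold bey
  rw [Finset.mem_filter]

omit [G.LocallyFinite] in
/-- The integral of a function of one spin. -/
theorem integral_phi (hμ : IsTreeIsing G θ μ) (φ : ℝ → ℝ) (y : V) :
    ∫ σ, φ (spin (σ y)) ∂μ = (φ 1 + φ (-1)) / 2 := by
  have := hμ.isProb
  have e : ∀ σ : V → Bool, φ (spin (σ y)) =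
      (φ 1 + φ (-1)) / 2 + (φ 1 - φ (-1)) / 2 * spin (σ y) := by
    intro σ
    rcases spin_eq_or (σ y) with h | h <;> rw [h] <;> ring
  have hI : Integrable (fun σ : V → Bool => spin (σ y)) μ := integ_of_dep (dep_spin y)
  simp only [e]
  rw [integral_add (integrable_const _) (hI.const_mul _), integral_const_mul, hμ.mean_zero y]
  simp

omit [G.LocallyFinite] in
/-- Two sites beyond different neighbours. -/
theorem closer_of_ne (hG : G.IsTree) {y z z' a : V} (hz : G.Adj y z) (hz' : G.Adj y z')
    (hne : z ≠ z') (ha : G.dist z a < G.dist y a) : G.dist y a < G.dist z' a := by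
  have c1 := IsTree.dist_cases hG hz a
  have c2 := IsTree.dist_cases hG hz' a
  rcases c2 with c2 | c2
  · exfalso
    exact hne (IsTree.parent_unique hG (w := a) hz hz' (by omega) (by omega))
  · omega

/-- The splitting over a set of neighbours. -/
theorem split_blocks (hG : G.IsTree) (hμ : IsTreeIsing G θ μ)
    (site : ι → V) (S : Finset ι) (c : ι → ℝ) (hc : ∀ i ∈ S, |c i| < 1) {y : V}
    (Z : Finset V) (hZ : ∀ z ∈ Z, G.Adj y z) :
    ∀ (F : (V → Bool) → ℝ) (B : Finset V), DependsOn F (B : Set V) →
      (∀ z ∈ Z, ∀ a ∈ B, G.dist y a < G.dist z a) →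
      ∫ σ, F σ * ∏ z ∈ Z, wt site (bey G site S y z) c σ ∂μ =
        (∏ z ∈ Z, evid μ site (bey G site S y z) c) *
          ∫ σ, F σ * ∏ z ∈ Z, (1 + θ * spin (σ y) * msg G μ site S c y z) ∂μ := by
  classical
  have := hμ.isProb
  induction Z using Finset.induction_on with
  | empty =>
    intro F B _ _
    simp
  | insert z Z hz ih =>
    intro F B hF hB
    have hyz : G.Adj y z := hZ z (Finset.mem_insert_self z Z)
    have hZ' : ∀ z' ∈ Z, G.Adj y z' := fun z' h => hZ z' (Finset.mem_insert_of_mem h)
    have hne : ∀ z' ∈ Z, z' ≠ z := fun z' h e => hz (e ▸ h)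
    have hyd : ∀ z' ∈ Z, G.dist y y < G.dist z' y := by
      intro z' h
      rw [SimpleGraph.dist_self, SimpleGraph.dist_eq_one_iff_adj.mpr (hZ' z' h).symm]
      exact one_pos
    -- the two sides
    set f : (V → Bool) → ℝ := fun σ => F σ * ∏ z' ∈ Z, wt site (bey G site S y z') c σ with hf
    set g : (V → Bool) → ℝ := wt site (bey G site S y z) c with hg
    set A : Finset V := B ∪ Z.biUnion (fun z' => (bey G site S y z').image site) with hA
    set C : Finset V := (bey G site S y z).image site with hC
    have hAd : ∀ a ∈ A, G.dist y a < G.dist z a := by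
      intro a ha
      rw [hA, Finset.mem_union, Finset.mem_biUnion] at ha
      rcases ha with ha | ⟨z', hz', ha⟩
      · exact hB z (Finset.mem_insert_self z Z) a ha
      · obtain ⟨i, hi, rfl⟩ := Finset.mem_image.mp ha
        exact closer_of_ne hG (hZ' z' hz') hyz (hne z' hz') (mem_bey.mp hi).2
    have hCd : ∀ b ∈ C, G.dist z b < G.dist y b := by
      intro b hb
      obtain ⟨i, hi, rfl⟩ := Finset.mem_image.mp hb
      exact (mem_bey.mp hi).2
    have df : DependsOn f (A : Set V) := by
      intro σ τ h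
      simp only [hf]
      have h1 : F σ = F τ := hF fun i hi => h i (by
        rw [hA, Finset.coe_union]
        exact Or.inl hi)
      have h2 : ∏ z' ∈ Z, wt site (bey G site S y z') c σ =
          ∏ z' ∈ Z, wt site (bey G site S y z') c τ := by
        refine Finset.prod_congr rfl fun z' hz' => ?_
        refine dependsOn_wt (fun i hi => h i ?_)
        rw [hA, Finset.coe_union]
        refine Or.inr ?_
        rw [Finset.mem_coe, Finset.mem_biUnion]
        exact ⟨z', hz', hi⟩
      rw [h1, h2]
    have dg : DependsOn g (C : Set V) := dependsOn_wt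
    have key := hμ.edge_split y z hyz A C hAd hCd f g df dg
    have pe : 0 < evid μ site (bey G site S y z) c :=
      evid_pos fun i hi => hc i (mem_bey.mp hi).1
    have em : ∫ σ, spin (σ z) * g σ ∂μ =
        evid μ site (bey G site S y z) c * msg G μ site S c y z := by
      have e1 : msg G μ site S c y z =
          (∫ σ, spin (σ z) * g σ ∂μ) / evid μ site (bey G site S y z) c := rfl
      rw [e1, mul_div_cancel₀ _ pe.ne']
    have eg : ∫ σ, g σ ∂μ = evid μ site (bey G site S y z) c := rfl
    have If : Integrable f μ := integ_of_dep df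
    have Isf : Integrable (fun σ => spin (σ y) * f σ) μ := integrable_spin_mul If y
    have e2 : ∫ σ, F σ * ∏ z' ∈ insert z Z, wt site (bey G site S y z') c σ ∂μ =
        ∫ σ, f σ * g σ ∂μ := by
      refine integral_congr_ae (Filter.Eventually.of_forall fun σ => ?_)
      simp only [hf, hg, Finset.prod_insert hz]
      ring
    rw [e2, key, em, eg]
    have e3 : ∫ σ, (F σ * (1 + θ * spin (σ y) * msg G μ site S c y z)) *
        ∏ z' ∈ Z, wt site (bey G site S y z') c σ ∂μ =
        (∫ σ, f σ ∂μ) + θ * msg G μ site S c y z * ∫ σ, spin (σ y) * f σ ∂μ := by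
      rw [← integral_const_mul, ← integral_add If (Isf.const_mul _)]
      refine integral_congr_ae (Filter.Eventually.of_forall fun σ => ?_)
      simp only [hf]
      ring
    have dF' : DependsOn (fun σ : V → Bool => F σ * (1 + θ * spin (σ y) * msg G μ site S c y z))
        ((insert y B : Finset V) : Set V) := by
      intro σ τ h
      simp only
      rw [hF fun i hi => h i (by rw [Finset.coe_insert]; exact Or.inr hi),
        h y (by rw [Finset.coe_insert]; exact Or.inl rfl)]
    have ih' := ih hZ' (fun σ => F σ * (1 + θ * spin (σ y) * msg G μ site S c y z))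
      (insert y B) dF' (by
        intro z' hz' a ha
        rcases Finset.mem_insert.mp ha with rfl | ha
        · exact hyd z' hz'
        · exact hB z' (Finset.mem_insert_of_mem hz') a ha)
    rw [e3] at ih'
    have e4 : ∫ σ, F σ * ∏ z' ∈ insert z Z, (1 + θ * spin (σ y) * msg G μ site S c y z') ∂μ =
        ∫ σ, (F σ * (1 + θ * spin (σ y) * msg G μ site S c y z)) *
          ∏ z' ∈ Z, (1 + θ * spin (σ y) * msg G μ site S c y z') ∂μ := by
      refine integral_congr_ae (Filter.Eventually.of_forall fun σ => ?_)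
      simp only [Finset.prod_insert hz]
      ring
    rw [e4, Finset.prod_insert hz]
    calc (∫ σ, f σ ∂μ) * evid μ site (bey G site S y z) c +
          θ * (∫ σ, spin (σ y) * f σ ∂μ) *
            (evid μ site (bey G site S y z) c * msg G μ site S c y z)
        = evid μ site (bey G site S y z) c *
          ((∫ σ, f σ ∂μ) + θ * msg G μ site S c y z * ∫ σ, spin (σ y) * f σ ∂μ) := by ring
      _ = _ := by rw [ih']; ring

/-- The weight of the part beyond `y` seen from `x`. -/
theorem wt_bey (hG : G.IsTree) (site : ι → V) (S : Finset ι) (c : ι → ℝ) {x y : V}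
    (h : G.Adj x y) (σ : V → Bool) :
    wt site (bey G site S x y) c σ =
      Pat site S c y (spin (σ y)) * ∏ z ∈ nbr G x y, wt site (bey G site S y z) c σ := by
  classical
  have hdisj : (↑(nbr G x y) : Set V).PairwiseDisjoint (fun z => bey G site S y z) := by
    intro z hz z' hz' hne
    rw [Function.onFun, Finset.disjoint_left]
    intro i hi hi'
    have h1 := closer_of_ne hG (mem_nbr.mp hz).2 (mem_nbr.mp hz').2 hne (mem_bey.mp hi).2
    have h2 := (mem_bey.mp hi').2
    omega
  have hset : bey G site S x y = att site S y ∪ (nbr G x y).biUnion (fun z => bey G site S y z) := by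
    ext i
    rw [Finset.mem_union, Finset.mem_biUnion, mem_bey]
    unfold att
    rw [Finset.mem_filter]
    constructor
    · rintro ⟨hi, hd⟩
      by_cases hy : site i = y
      · exact Or.inl ⟨hi, hy⟩
      · obtain ⟨z, hz1, hz2⟩ := exists_adj_dist hG.connected (v := y) (w := site i) (Ne.symm hy)
        refine Or.inr ⟨z, mem_nbr.mpr ⟨?_, hz1⟩, mem_bey.mpr ⟨hi, by omega⟩⟩
        rintro rfl
        omega
    · rintro (⟨hi, hy⟩ | ⟨z, hz, hi⟩)
      · refine ⟨hi, ?_⟩
        rw [hy, SimpleGraph.dist_self, SimpleGraph.dist_eq_one_iff_adj.mpr h]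
        exact one_pos
      · refine ⟨(mem_bey.mp hi).1, ?_⟩
        exact closer_of_ne hG (mem_nbr.mp hz).2 h.symm (mem_nbr.mp hz).1 (mem_bey.mp hi).2
  have hdisj2 : Disjoint (att site S y) ((nbr G x y).biUnion (fun z => bey G site S y z)) := by
    rw [Finset.disjoint_left]
    intro i hi hi'
    unfold att at hi
    rw [Finset.mem_filter] at hi
    obtain ⟨z, hz, hi'⟩ := Finset.mem_biUnion.mp hi'
    have h2 := (mem_bey.mp hi').2
    rw [hi.2, SimpleGraph.dist_self] at h2
    omega
  have e1 : ∏ i ∈ att site S y, (1 + c i * spin (σ (site i))) = Pat site S c y (spin (σ y)) := by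
    unfold Pat
    refine Finset.prod_congr rfl fun i hi => ?_
    unfold att at hi
    rw [Finset.mem_filter] at hi
    rw [hi.2, mul_comm]
  unfold wt
  rw [hset, Finset.prod_union hdisj2, Finset.prod_biUnion hdisj, e1]

theorem integral_bey (hG : G.IsTree) (hμ : IsTreeIsing G θ μ)
    (site : ι → V) (S : Finset ι) (c : ι → ℝ) (hc : ∀ i ∈ S, |c i| < 1) {x y : V}
    (h : G.Adj x y) (ψ : ℝ → ℝ) :
    ∫ σ, ψ (spin (σ y)) * wt site (bey G site S x y) c σ ∂μ =
      (∏ z ∈ nbr G x y, evid μ site (bey G site S y z) c) *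
      ((ψ 1 * (Pat site S c y 1 * ∏ z ∈ nbr G x y, (1 + θ * msg G μ site S c y z)) +
        ψ (-1) * (Pat site S c y (-1) *
          ∏ z ∈ nbr G x y, (1 - θ * msg G μ site S c y z))) / 2) := by
  classical
  have e1 : ∫ σ, ψ (spin (σ y)) * wt site (bey G site S x y) c σ ∂μ =
      ∫ σ, (ψ (spin (σ y)) * Pat site S c y (spin (σ y))) *
        ∏ z ∈ nbr G x y, wt site (bey G site S y z) c σ ∂μ := by
    refine integral_congr_ae (Filter.Eventually.of_forall fun σ => ?_)
    simp only [wt_bey hG site S c h σ]
    ring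
  have dF : DependsOn (fun σ : V → Bool => ψ (spin (σ y)) * Pat site S c y (spin (σ y)))
      (({y} : Finset V) : Set V) := by
    intro σ τ hστ
    simp only
    rw [hστ y (by simp)]
  rw [e1, split_blocks hG hμ site S c hc (nbr G x y) (fun z hz => (mem_nbr.mp hz).2)
    (fun σ => ψ (spin (σ y)) * Pat site S c y (spin (σ y))) {y} dF (by
      intro z hz a ha
      rw [Finset.mem_singleton.mp ha, SimpleGraph.dist_self,
        SimpleGraph.dist_eq_one_iff_adj.mpr (mem_nbr.mp hz).2.symm]
      exact one_pos)]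
  congr 1
  have e2 := integral_phi hμ (fun τ => ψ τ * Pat site S c y τ *
    ∏ z ∈ nbr G x y, (1 + θ * τ * msg G μ site S c y z)) y
  rw [e2]
  have e3 : ∀ z, 1 + θ * 1 * msg G μ site S c y z = 1 + θ * msg G μ site S c y z := by
    intro z; ring
  have e4 : ∀ z, 1 + θ * (-1) * msg G μ site S c y z = 1 - θ * msg G μ site S c y z := by
    intro z; ring
  simp only [e3, e4]
  ring

theorem evid_bey (hG : G.IsTree) (hμ : IsTreeIsing G θ μ) (h0 : 0 ≤ θ) (h1 : θ < 1)
    (site : ι → V) (S : Finset ι) (c : ι → ℝ) (hc : ∀ i ∈ S, |c i| < 1) {x y : V}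
    (h : G.Adj x y) :
    evid μ site (bey G site S x y) c = (∏ z ∈ nbr G x y, evid μ site (bey G site S y z) c) *
      ((Pat site S c y 1 * ∏ z ∈ nbr G x y, (1 + θ * msg G μ site S c y z) +
        Pat site S c y (-1) * ∏ z ∈ nbr G x y, (1 - θ * msg G μ site S c y z)) / 2) := by
  have e := integral_bey hG hμ site S c hc h (fun _ => 1)
  simp only [one_mul] at e
  exact e

theorem evid_spin_bey (hG : G.IsTree) (hμ : IsTreeIsing G θ μ) (h0 : 0 ≤ θ) (h1 : θ < 1)
    (site : ι → V) (S : Finset ι) (c : ι → ℝ) (hc : ∀ i ∈ S, |c i| < 1) {x y : V}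
    (h : G.Adj x y) :
    ∫ σ, spin (σ y) * wt site (bey G site S x y) c σ ∂μ =
      (∏ z ∈ nbr G x y, evid μ site (bey G site S y z) c) *
      ((Pat site S c y 1 * ∏ z ∈ nbr G x y, (1 + θ * msg G μ site S c y z) -
        Pat site S c y (-1) * ∏ z ∈ nbr G x y, (1 - θ * msg G μ site S c y z)) / 2) := by
  have e := integral_bey hG hμ site S c hc h (fun τ => τ)
  rw [e]
  ring

/-- The message in terms of the messages of the next generation. -/
theorem msg_rec (hG : G.IsTree) (hμ : IsTreeIsing G θ μ) (h0 : 0 ≤ θ) (h1 : θ < 1)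
    (site : ι → V) (S : Finset ι) (c : ι → ℝ) (hc : ∀ i ∈ S, |c i| < 1) {x y : V}
    (h : G.Adj x y) :
    msg G μ site S c x y =
      (Pat site S c y 1 * ∏ z ∈ nbr G x y, (1 + θ * msg G μ site S c y z) -
        Pat site S c y (-1) * ∏ z ∈ nbr G x y, (1 - θ * msg G μ site S c y z)) /
      (Pat site S c y 1 * ∏ z ∈ nbr G x y, (1 + θ * msg G μ site S c y z) +
        Pat site S c y (-1) * ∏ z ∈ nbr G x y, (1 - θ * msg G μ site S c y z)) := by
  have := hμ.isProb
  have e1 : msg G μ site S c x y =
      (∫ σ, spin (σ y) * wt site (bey G site S x y) c σ ∂μ) /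
        evid μ site (bey G site S x y) c := rfl
  have pe : 0 < ∏ z ∈ nbr G x y, evid μ site (bey G site S y z) c :=
    Finset.prod_pos fun z _ => evid_pos fun i hi => hc i (mem_bey.mp hi).1
  rw [e1, evid_spin_bey hG hμ h0 h1 site S c hc h, evid_bey hG hμ h0 h1 site S c hc h,
    mul_div_mul_left _ _ pe.ne', div_div_div_cancel_right₀ two_ne_zero]

end Vale.Agent.P161.EP
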