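import Mathlib
import Vale.Agent.P161.EP.Defs
import Vale.Agent.P161E.VSamp

/-!
# Module S1 (SampG): the sampler with site dependent strengths, its law; the two families of labels

Everything here is a copy, with `γ` replaced by `g e`, of `Sampler.lean`, `Law.lean`, `Insert.lean`
(first part), `Equiv.lean`, `Hlaw.lean` (`law_finite`).
-/

open MeasureTheory Filter Topology

namespace Vale.Agent.P161.EP

universe u

variable {V : Type u}

theorem gs_nonneg (x : ℝ) : 0 ≤ gs x := by
  unfold gs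
  split_ifs
  · exact le_max_left _ _
  · exact le_rfl

theorem gs_lt (x : ℝ) : gs x < 1 / 2 := by
  unfold gs
  split_ifs with h
  · exact max_lt (by norm_num) (by linarith)
  · norm_num

theorem measurable_gs : Measurable gs := by
  unfold gs
  refine Measurable.ite (measurableSet_lt measurable_id measurable_const) ?_ measurable_const
  exact measurable_const.max ((measurable_const.add measurable_id).div_const 2)

section General

variable {ι : Type*} {R : Type*} [LinearOrder R] {μ : Measure (V → Bool)} {g : ι → ℝ}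
  {site : ι → V} {r : ι → R} {S S' : Finset ι} {u u' : ι → ℝ}

theorem sampIterG_eq (μ : Measure (V → Bool)) (g : ι → ℝ) (site : ι → V) (r : ι → R)
    (S : Finset ι) (u : ι → ℝ) (n : ℕ) :
    sampIterG μ g site r S u n = vIter μ g site r S u n := by
  induction n with
  | zero => rfl
  | succ n ih =>
    funext e
    simp only [sampIterG, vIter, ih]

theorem sampG_eq_vsamp (μ : Measure (V → Bool)) (g : ι → ℝ) (site : ι → V) (r : ι → R)
    (S : Finset ι) (u : ι → ℝ) : sampG μ g site r S u = vsamp μ g site r S u := by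
  unfold sampG vsamp
  exact sampIterG_eq μ g site r S u _

/-- The observation at `e` only depends on the sites before `e`. -/
theorem sampG_congr (μ : Measure (V → Bool)) (g : ι → ℝ) (site : ι → V) {e : ι}
    (h : pre r S e = pre r S' e) (hu : ∀ i ∈ pre r S e, u i = u' i) (hue : u e = u' e) :
    sampG μ g site r S u e = sampG μ g site r S' u' e := by
  rw [sampG_eq_vsamp, sampG_eq_vsamp]
  exact vsamp_congr' μ site h hu hue

theorem sampG_eq (μ : Measure (V → Bool)) (g : ι → ℝ) (site : ι → V) (r : ι → R)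
    (S : Finset ι) (u : ι → ℝ) (e : ι) :
    sampG μ g site r S u e =
      T (g e * mag μ site (pre r S e) (fun i => g i * sampG μ g site r S u i) (site e)) (u e) := by
  rw [sampG_eq_vsamp]
  exact vsamp_eq μ g site r S u e

theorem abs_sampG_le [IsProbabilityMeasure μ] (h0 : ∀ i, 0 ≤ g i) (h1 : ∀ i, g i < 1) (e : ι) :
    |sampG μ g site r S u e| ≤ 1 := by
  rw [sampG_eq_vsamp]
  exact abs_vsamp_le h0 h1 e

theorem measurable_sampG [Countable V] [IsProbabilityMeasure μ] {Ω : Type*} [MeasurableSpace Ω]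
    {g : Ω → ι → ℝ} {r : Ω → ι → R} {u : Ω → ι → ℝ}
    (hg : ∀ i, Measurable fun ω => g ω i)
    (hr : ∀ i j, MeasurableSet {ω | r ω i < r ω j})
    (hu : ∀ i, Measurable fun ω => u ω i) (e : ι) :
    Measurable fun ω => sampG μ (g ω) site (r ω) S (u ω) e := by
  simp only [sampG_eq_vsamp]
  exact measurable_vsamp hg hr hu e

theorem sampG_equivariant (φ : ι ≃ ι) (σ : V ≃ V) (hφ : ∀ i, site (φ i) = σ (site i))
    (hμ : μ.map (fun s v => s (σ.symm v)) = μ) (e : ι) :
    sampG μ g site r (S.map φ.toEmbedding) u (φ e) =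
      sampG μ (g ∘ φ) site (r ∘ φ) S (u ∘ φ) e := by
  rw [sampG_eq_vsamp, sampG_eq_vsamp]
  exact vsamp_equivariant φ σ hφ hμ e

/-- The density of the law of the observations. -/
theorem law_densityG [Countable V] [IsProbabilityMeasure μ] (h0 : ∀ i, 0 ≤ g i)
    (h1 : ∀ i, g i < 1) (S : Finset ι) (hr : Set.InjOn r (S : Set ι)) {F : (ι → ℝ) → ℝ}
    (hF : Measurable F) (hb : ∃ C, ∀ x, |F x| ≤ C) (hS : DependsOn F (S : Set ι)) :
    ∫ u, F (sampG μ g site r S u) ∂(Pu ι) =
      ∫ u, F u * evid μ site S (fun i => g i * clamp (u i)) ∂(Pu ι) := by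
  simp only [sampG_eq_vsamp]
  exact vlaw_density h0 h1 S hr hF hb hS

/-- The law of the observations: noisy observations of spins with law `μ`. -/
theorem law_sampG [Countable V] [IsProbabilityMeasure μ] (h0 : ∀ i, 0 ≤ g i) (h1 : ∀ i, g i < 1)
    (hr : Set.InjOn r (S : Set ι)) {F : (ι → ℝ) → ℝ} (hF : Measurable F)
    (hb : ∃ C, ∀ x, |F x| ≤ C) (hS : DependsOn F (S : Set ι)) :
    ∫ u, F (sampG μ g site r S u) ∂(Pu ι) =
      ∫ σ, ∫ u, F (fun e => T (g e * spin (σ (site e))) (u e)) ∂(Pu ι) ∂μ := by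
  simp only [sampG_eq_vsamp]
  exact vlaw_samp h0 h1 hr hF hb hS

end General

/-! ### The two families of labels -/

theorem measurable_uL (e : V × ℕ) : Measurable fun om : V × ℕ → ℝ => uL om e :=
  measurable_pi_apply _

theorem measurable_xL (e : V × ℕ) : Measurable fun om : V × ℕ → ℝ => xL om e :=
  measurable_pi_apply _

/-- Put order labels and driving labels together. -/
noncomputable def joinUX (U x : V × ℕ → ℝ) : V × ℕ → ℝ := fun e =>
  if e.2 % 2 = 0 then U (e.1, e.2 / 2) else x (e.1, e.2 / 2)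

theorem uL_joinUX (U x : V × ℕ → ℝ) : uL (joinUX U x) = U := by
  funext e
  unfold uL joinUX
  simp

theorem xL_joinUX (U x : V × ℕ → ℝ) : xL (joinUX U x) = x := by
  funext e
  unfold xL joinUX
  have h1 : ¬ (2 * e.2 + 1) % 2 = 0 := by omega
  have h2 : (2 * e.2 + 1) / 2 = e.2 := by omega
  simp only [h1, if_false, h2]

/-- the index map of `joinUX` -/
def idxUX (e : V × ℕ) : (V × ℕ) ⊕ (V × ℕ) :=
  if e.2 % 2 = 0 then Sum.inl (e.1, e.2 / 2) else Sum.inr (e.1, e.2 / 2)

theorem idxUX_injective : Function.Injective (idxUX : V × ℕ → (V × ℕ) ⊕ (V × ℕ)) := by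
  rintro ⟨v, m⟩ ⟨w, n⟩ h
  unfold idxUX at h
  simp only at h
  split_ifs at h with h1 h2 h2
  · rw [Sum.inl.injEq, Prod.mk.injEq] at h
    rw [Prod.mk.injEq]
    exact ⟨h.1, by omega⟩
  · rw [Sum.inr.injEq, Prod.mk.injEq] at h
    rw [Prod.mk.injEq]
    exact ⟨h.1, by omega⟩

theorem joinUX_eq (U x : V × ℕ → ℝ) :
    joinUX U x = (Sum.elim U x : (V × ℕ) ⊕ (V × ℕ) → ℝ) ∘ idxUX := by
  funext e
  unfold joinUX idxUX
  simp only [Function.comp_apply]
  split_ifs <;> rfl

theorem measurable_joinUX :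
    Measurable (fun p : (V × ℕ → ℝ) × (V × ℕ → ℝ) => joinUX p.1 p.2) := by
  refine measurable_pi_lambda _ fun e => ?_
  unfold joinUX
  split_ifs
  · exact (measurable_pi_apply _).comp measurable_fst
  · exact (measurable_pi_apply _).comp measurable_snd

theorem map_joinUX :
    ((Pu (V × ℕ)).prod (Pu (V × ℕ))).map (fun p => joinUX p.1 p.2) = Pu (V × ℕ) := by
  have h1 := map_sumElim_Pu (V × ℕ) (V × ℕ)
  have hm : Measurable (fun p : (V × ℕ → ℝ) × (V × ℕ → ℝ) =>
      (Sum.elim p.1 p.2 : (V × ℕ) ⊕ (V × ℕ) → ℝ)) := by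
    apply measurable_pi_lambda
    rintro (i | i)
    · exact (measurable_pi_apply i).comp measurable_fst
    · exact (measurable_pi_apply i).comp measurable_snd
  have h2 := Measure.map_infinitePi_infinitePi_of_inj (P := fun _ : (V × ℕ) ⊕ (V × ℕ) => unif)
    (f := (idxUX : V × ℕ → (V × ℕ) ⊕ (V × ℕ))) idxUX_injective
  have h3 : (fun p : (V × ℕ → ℝ) × (V × ℕ → ℝ) => joinUX p.1 p.2) =
      (fun (ω : (V × ℕ) ⊕ (V × ℕ) → ℝ) (e : V × ℕ) => ω (idxUX e)) ∘
        (fun p : (V × ℕ → ℝ) × (V × ℕ → ℝ) =>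
          (Sum.elim p.1 p.2 : (V × ℕ) ⊕ (V × ℕ) → ℝ)) := by
    ext p e
    rw [joinUX_eq]
    rfl
  rw [h3, ← Measure.map_map (by fun_prop) hm, h1]
  exact h2

theorem measurePreserving_joinUX :
    MeasurePreserving (fun p : (V × ℕ → ℝ) × (V × ℕ → ℝ) => joinUX p.1 p.2)
      ((Pu (V × ℕ)).prod (Pu (V × ℕ))) (Pu (V × ℕ)) :=
  ⟨measurable_joinUX, map_joinUX⟩

theorem integral_joinUX [Countable V] {h : (V × ℕ → ℝ) → ℝ} (hm : Measurable h) {C : ℝ}
    (hC : ∀ om, |h om| ≤ C) :
    ∫ om, h om ∂(Pu (V × ℕ)) = ∫ U, ∫ x, h (joinUX U x) ∂(Pu (V × ℕ)) ∂(Pu (V × ℕ)) := by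
  have e1 : ∫ om, h om ∂(Pu (V × ℕ)) =
      ∫ p, h (joinUX p.1 p.2) ∂((Pu (V × ℕ)).prod (Pu (V × ℕ))) := by
    rw [← map_joinUX, integral_map measurable_joinUX.aemeasurable hm.aestronglyMeasurable,
      map_joinUX]
  rw [e1, integral_prod]
  exact Integrable.of_bound (hm.comp measurable_joinUX).aestronglyMeasurable C
    (Eventually.of_forall fun p => hC _)

end Vale.Agent.P161.EP
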