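import Mathlib
import Vale.Agent.P161.EP.SampG
import Vale.Agent.P161E.Drop

/-!
# Module S2 (SampF): the finite volume sampler: basic facts, measurability, equivariance, law

Copy of `Insert.lean` (first part), `Equiv.lean`, `Hlaw.lean` (`law_finite`) with site dependent
strengths.
-/

open MeasureTheory Filter Topology

namespace Vale.Agent.P161.EP

universe u

variable {V : Type u}

/-! ### Finite volume -/

variable {μ : Measure (V → Bool)} {D : Finset V}

theorem strU_eq (om : V × ℕ → ℝ) : strU (uL om) = fun i => gs (uL om i) := rfl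

theorem rkE_eq (om : V × ℕ → ℝ) : rkE om = rk2 (uL om) := rfl

theorem bef_eq (om : V × ℕ → ℝ) (D : Finset V) (k : ℕ) (t : ℝ) :
    bef om D k t = evT D (uL om) k (-1 + t) := by
  classical
  ext e
  unfold bef
  rw [mem_evT, Finset.mem_filter, Finset.mem_product, Finset.mem_range]
  constructor
  · rintro ⟨⟨h1, h2⟩, h3 | h3⟩
    · exact ⟨h1, Or.inl h3⟩
    · refine ⟨h1, ?_⟩
      rcases Nat.lt_succ_iff_lt_or_eq.1 h2 with h4 | h4
      · exact Or.inl h4
      · exact Or.inr ⟨h4, h3⟩
  · rintro ⟨h1, h2 | ⟨h2, h3⟩⟩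
    · exact ⟨⟨h1, by omega⟩, Or.inl h2⟩
    · exact ⟨⟨h1, by omega⟩, Or.inr h3⟩

/-- With more rounds the sampler does not change. -/
theorem sF_eq_sampG (μ : Measure (V → Bool)) (D : Finset V) (om : V × ℕ → ℝ) {e : V × ℕ} {K : ℕ}
    (hK : e.2 < K) :
    sF μ D om e =
      sampG μ (fun i => gs (uL om i)) Prod.fst (rkE om) (D ×ˢ Finset.range K) (xL om) e := by
  unfold sF
  refine sampG_congr μ _ _ ?_ (fun _ _ => rfl) rfl
  ext i
  rw [mem_pre, mem_pre, Finset.mem_product, Finset.mem_product, Finset.mem_range,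
    Finset.mem_range, rkE_eq, rk2_lt_rk2]
  constructor
  · rintro ⟨⟨h1, h2⟩, h3⟩
    exact ⟨⟨h1, by omega⟩, h3⟩
  · rintro ⟨⟨h1, h2⟩, h3⟩
    refine ⟨⟨h1, ?_⟩, h3⟩
    rcases h3 with h3 | h3
    · omega
    · omega

/-- The observation is the one of the sampler on every set of sites which has the same sites
before `e`. -/
theorem cF_eq_vobs (μ : Measure (V → Bool)) {D : Finset V} {om : V × ℕ → ℝ} {e : V × ℕ}
    {S : Finset (V × ℕ)}
    (h : ∀ i, rkE om i < rkE om e → (i ∈ S ↔ i.1 ∈ D)) :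
    cF μ D om e = vobs μ (strU (uL om)) Prod.fst (rk2 (uL om)) S (xL om) e := by
  unfold cF vobs sF
  rw [sampG_eq_vsamp, strU_eq]
  congr 1
  refine vsamp_congr' μ _ ?_ (fun _ _ => rfl) rfl
  ext i
  rw [mem_pre, mem_pre, Finset.mem_product, Finset.mem_range]
  constructor
  · rintro ⟨⟨h1, _⟩, h3⟩
    exact ⟨(h i h3).2 h1, h3⟩
  · rintro ⟨h1, h3⟩
    refine ⟨⟨(h i h3).1 h1, ?_⟩, h3⟩
    rw [rkE_eq, rk2_lt_rk2] at h3
    rcases h3 with h3 | h3
    · omega
    · omega

theorem bef_before {om : V × ℕ → ℝ} {D : Finset V} {k : ℕ} {t : ℝ} {e : V × ℕ}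
    (he : e ∈ bef om D k t) (i : V × ℕ) (hi : rkE om i < rkE om e) :
    i ∈ bef om D k t ↔ i.1 ∈ D := by
  rw [bef_eq, mem_evT] at he ⊢
  rw [rkE_eq, rk2_lt_rk2] at hi
  constructor
  · exact fun h => h.1
  · intro h
    refine ⟨h, ?_⟩
    rcases hi with h1 | ⟨h1, h2⟩ <;> rcases he.2 with h3 | ⟨h3, h4⟩
    · left; omega
    · left; omega
    · left; omega
    · exact Or.inr ⟨h1.trans h3, h2.trans h4⟩

theorem mF_eq_mf (μ : Measure (V → Bool)) (D : Finset V) (k : ℕ) (t : ℝ) (om : V × ℕ → ℝ)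
    (v : V) : mF μ D k t om v = mf μ D k (-1 + t) (uL om) (xL om) v := by
  unfold mF mf vmag
  rw [← bef_eq]
  exact mag_congr (fun i hi => cF_eq_vobs μ (bef_before hi)) v

/-- The sites before `e` are the sites before the time `(e.2, 1 + uL om e)`. -/
theorem sF_eq (μ : Measure (V → Bool)) (D : Finset V) (om : V × ℕ → ℝ) (e : V × ℕ) :
    sF μ D om e = T (gs (uL om e) * mF μ D e.2 (1 + uL om e) om e.1) (xL om e) := by
  have h1 : pre (rkE om) (D ×ˢ Finset.range (e.2 + 1)) e = bef om D e.2 (1 + uL om e) := by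
    ext i
    rw [bef_eq, mem_evT, mem_pre, Finset.mem_product, Finset.mem_range, rkE_eq, rk2_lt_rk2]
    have h2 : -1 + (1 + uL om e) = uL om e := by ring
    rw [h2]
    constructor
    · rintro ⟨⟨h3, h4⟩, h5⟩
      exact ⟨h3, h5⟩
    · rintro ⟨h3, h5⟩
      refine ⟨⟨h3, ?_⟩, h5⟩
      rcases h5 with h5 | h5
      · omega
      · omega
  unfold sF
  rw [sampG_eq, h1]
  congr 2
  unfold mF
  refine mag_congr (fun i hi => ?_) _
  unfold cF
  congr 1
  have h3 : i.2 < e.2 + 1 := by
    rw [bef_eq, mem_evT] at hi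
    rcases hi.2 with h | h
    · omega
    · omega
  exact (sF_eq_sampG μ D om h3).symm

theorem abs_sF_le [IsProbabilityMeasure μ] (D : Finset V) (om : V × ℕ → ℝ) (e : V × ℕ) :
    |sF μ D om e| ≤ 1 := by
  unfold sF
  exact abs_sampG_le (fun i => gs_nonneg _) (fun i => (gs_lt _).trans (by norm_num)) e

theorem abs_cF_lt [IsProbabilityMeasure μ] (D : Finset V) (om : V × ℕ → ℝ) (e : V × ℕ) :
    |cF μ D om e| < 1 / 2 := by
  unfold cF
  rw [abs_mul, abs_of_nonneg (gs_nonneg _)]
  calc gs (uL om e) * |sF μ D om e| ≤ gs (uL om e) * 1 :=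
        mul_le_mul_of_nonneg_left (abs_sF_le D om e) (gs_nonneg _)
    _ < 1 / 2 := by rw [mul_one]; exact gs_lt _

theorem abs_cF_lt_one [IsProbabilityMeasure μ] (D : Finset V) (om : V × ℕ → ℝ) (e : V × ℕ) :
    |cF μ D om e| < 1 := (abs_cF_lt D om e).trans (by norm_num)

theorem measurableSet_rkE (i j : V × ℕ) :
    MeasurableSet {om : V × ℕ → ℝ | rkE om i < rkE om j} := by
  simp only [rkE_eq, rk2_lt_rk2]
  exact (MeasurableSet.const _).union ((MeasurableSet.const _).inter
    (measurableSet_lt (measurable_uL i) (measurable_uL j)))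

theorem measurable_sF [Countable V] [IsProbabilityMeasure μ] (D : Finset V) (e : V × ℕ) :
    Measurable fun om : V × ℕ → ℝ => sF μ D om e := by
  unfold sF
  exact measurable_sampG (g := fun om : V × ℕ → ℝ => fun i => gs (uL om i))
    (r := fun om : V × ℕ → ℝ => rkE om) (u := fun om : V × ℕ → ℝ => xL om)
    (fun i => measurable_gs.comp (measurable_uL i)) measurableSet_rkE
    (fun i => measurable_xL i) e

theorem measurable_cF [Countable V] [IsProbabilityMeasure μ] (D : Finset V) (e : V × ℕ) :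
    Measurable fun om : V × ℕ → ℝ => cF μ D om e := by
  unfold cF
  exact (measurable_gs.comp (measurable_uL e)).mul (measurable_sF D e)

theorem measurableSet_rkE_const (i : V × ℕ) (k : ℕ) :
    MeasurableSet {p : ℝ × (V × ℕ → ℝ) | rkE p.2 i < toLex (k, -1 + p.1)} := by
  simp only [rkE_eq, rk2_lt]
  exact (MeasurableSet.const _).union ((MeasurableSet.const _).inter
    (measurableSet_lt ((measurable_uL i).comp measurable_snd)
      (measurable_const.add measurable_fst)))

theorem bef_eq_lo (om : V × ℕ → ℝ) (D : Finset V) (k : ℕ) (t : ℝ) :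
    bef om D k t = lo (rkE om) (evK D k) (toLex (k, -1 + t)) := by
  rw [bef_eq]
  rfl

/-- Joint measurability in time and labels. -/
theorem measurable_mF [Countable V] [IsProbabilityMeasure μ] (D : Finset V) (k : ℕ) (v : V) :
    Measurable fun p : ℝ × (V × ℕ → ℝ) => mF μ D k p.1 p.2 v := by
  unfold mF
  simp only [bef_eq_lo]
  exact measurable_mag_lo (r := fun p : ℝ × (V × ℕ → ℝ) => rkE p.2)
    (ρ := fun p : ℝ × (V × ℕ → ℝ) => toLex (k, -1 + p.1))
    (c := fun p : ℝ × (V × ℕ → ℝ) => cF μ D p.2) (fun i => measurableSet_rkE_const i k)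
    (fun i => (measurable_cF D i).comp measurable_snd) v

theorem measurable_covF [Countable V] [IsProbabilityMeasure μ] (D : Finset V) (k : ℕ) (v w : V) :
    Measurable fun p : ℝ × (V × ℕ → ℝ) => covF μ D k p.1 p.2 v w := by
  unfold covF
  simp only [bef_eq_lo]
  exact measurable_cov_lo (r := fun p : ℝ × (V × ℕ → ℝ) => rkE p.2)
    (ρ := fun p : ℝ × (V × ℕ → ℝ) => toLex (k, -1 + p.1))
    (c := fun p : ℝ × (V × ℕ → ℝ) => cF μ D p.2) (fun i => measurableSet_rkE_const i k)
    (fun i => (measurable_cF D i).comp measurable_snd) v w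

theorem measurable_MF (G : SimpleGraph V) [Countable V] [IsProbabilityMeasure μ] (D : Finset V)
    (k : ℕ) (x y : V) : Measurable fun p : ℝ × (V × ℕ → ℝ) => MF G μ D k p.1 p.2 x y := by
  classical
  unfold MF
  have h1 : ∀ p : ℝ × (V × ℕ → ℝ), (bef p.2 D k p.1).filter
      (fun e => G.dist y e.1 < G.dist x e.1) =
      lo (rkE p.2) ((evK D k).filter (fun e => G.dist y e.1 < G.dist x e.1))
        (toLex (k, -1 + p.1)) := by
    intro p
    ext e
    rw [bef_eq_lo, Finset.mem_filter, mem_lo, mem_lo, Finset.mem_filter]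
    tauto
  have h2 : (fun p : ℝ × (V × ℕ → ℝ) => mag μ Prod.fst ((bef p.2 D k p.1).filter
      (fun e => G.dist y e.1 < G.dist x e.1)) (cF μ D p.2) y) =
      fun p => mag μ Prod.fst (lo (rkE p.2) ((evK D k).filter
        (fun e => G.dist y e.1 < G.dist x e.1)) (toLex (k, -1 + p.1))) (cF μ D p.2) y := by
    funext p
    rw [h1 p]
  have h3 := measurable_mag_lo (μ := μ) (site := (Prod.fst : V × ℕ → V))
    (B := (evK D k).filter (fun e => G.dist y e.1 < G.dist x e.1))
    (r := fun p : ℝ × (V × ℕ → ℝ) => rkE p.2)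
    (ρ := fun p : ℝ × (V × ℕ → ℝ) => toLex (k, -1 + p.1))
    (c := fun p : ℝ × (V × ℕ → ℝ) => cF μ D p.2) (fun i => measurableSet_rkE_const i k)
    (fun i => (measurable_cF D i).comp measurable_snd) y
  rw [← h2] at h3
  convert h3

theorem abs_mF_le [IsProbabilityMeasure μ] (D : Finset V) (k : ℕ) (t : ℝ) (om : V × ℕ → ℝ)
    (v : V) : |mF μ D k t om v| ≤ 1 :=
  abs_mag_le (fun i _ => abs_cF_lt_one D om i) v

theorem cF_ne_zero {D : Finset V} {om : V × ℕ → ℝ} {e : V × ℕ} (h : cF μ D om e ≠ 0) :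
    -1 < uL om e ∧ uL om e < 0 := by
  have h1 : gs (uL om e) ≠ 0 := by
    intro h2
    apply h
    unfold cF
    rw [h2, zero_mul]
  unfold gs at h1
  split_ifs at h1 with h2
  · refine ⟨?_, h2⟩
    by_contra h3
    exact h1 (max_eq_left (by linarith))
  · exact absurd rfl h1

/-- (Sites with order label `< -1` or `≥ 0` have strength `0`, so these hold everywhere.) -/
theorem mF_zero {G : SimpleGraph V} {θ : ℝ} (hμ : IsTreeIsing G θ μ) (D : Finset V)
    (om : V × ℕ → ℝ) (v : V) : mF μ D 0 0 om v = 0 := by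
  unfold mF
  have h1 : mag μ Prod.fst (bef om D 0 0) (cF μ D om) v =
      mag μ Prod.fst (∅ : Finset (V × ℕ)) (cF μ D om) v := by
    refine mag_drop (fun i hi => ?_) v
    have h2 := cF_ne_zero hi
    rw [bef_eq, mem_evT]
    constructor
    · rintro ⟨_, h3 | ⟨_, h3⟩⟩
      · omega
      · linarith [h2.1]
    · intro h3; simp at h3
  rw [h1]
  unfold mag
  have h2 : ∫ σ, spin (σ v) * wt (Prod.fst : V × ℕ → V) ∅ (cF μ D om) σ ∂μ = 0 := by
    rw [← hμ.mean_zero v]
    refine integral_congr_ae (Eventually.of_forall fun σ => ?_)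
    simp [wt]
  rw [h2, zero_div]

theorem mF_succ_zero (μ : Measure (V → Bool)) (D : Finset V) (k : ℕ) (om : V × ℕ → ℝ) (v : V) :
    mF μ D (k + 1) 0 om v = mF μ D k 1 om v := by
  unfold mF
  refine mag_drop (fun i hi => ?_) v
  have h2 := cF_ne_zero hi
  rw [bef_eq, mem_evT, bef_eq, mem_evT]
  constructor
  · rintro ⟨h1, h3 | ⟨_, h3⟩⟩
    · refine ⟨h1, ?_⟩
      rcases Nat.lt_succ_iff_lt_or_eq.1 h3 with h4 | h4
      · exact Or.inl h4
      · exact Or.inr ⟨h4, by linarith [h2.2]⟩
    · linarith [h2.1]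
  · rintro ⟨h1, h3 | ⟨h3, _⟩⟩
    · exact ⟨h1, Or.inl (by omega)⟩
    · exact ⟨h1, Or.inl (by omega)⟩

/-- After the time `1` of a round the sites have strength zero. -/
theorem mF_ge_one (μ : Measure (V → Bool)) (D : Finset V) (k : ℕ) {t : ℝ}
    (ht : 1 ≤ t) (v : V) (om : V × ℕ → ℝ) : mF μ D k t om v = mF μ D k 1 om v := by
  unfold mF
  refine mag_drop (fun i hi => ?_) v
  have h2 := cF_ne_zero hi
  rw [bef_eq, mem_evT, bef_eq, mem_evT]
  constructor
  · rintro ⟨h1, h3 | ⟨h3, _⟩⟩
    · exact ⟨h1, Or.inl h3⟩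
    · exact ⟨h1, Or.inr ⟨h3, by linarith [h2.2]⟩⟩
  · rintro ⟨h1, h3 | ⟨h3, _⟩⟩
    · exact ⟨h1, Or.inl h3⟩
    · exact ⟨h1, Or.inr ⟨h3, by linarith [h2.2]⟩⟩

section Equivariance

variable {G : SimpleGraph V} [G.LocallyFinite] {θ : ℝ}

omit [G.LocallyFinite] in
theorem uL_actLab (σ : G ≃g G) (om : V × ℕ → ℝ) (e : V × ℕ) :
    uL (actLab σ om) (σ e.1, e.2) = uL om e := by
  unfold uL actLab
  simp

omit [G.LocallyFinite] in
theorem xL_actLab (σ : G ≃g G) (om : V × ℕ → ℝ) (e : V × ℕ) :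
    xL (actLab σ om) (σ e.1, e.2) = xL om e := by
  unfold xL actLab
  simp

/-- the action of an automorphism on the sites -/
def siteEquiv (σ : G ≃g G) : (V × ℕ) ≃ (V × ℕ) := Equiv.prodCongr σ.toEquiv (Equiv.refl ℕ)

omit [G.LocallyFinite] in
theorem siteEquiv_apply (σ : G ≃g G) (e : V × ℕ) : siteEquiv σ e = (σ e.1, e.2) := rfl

theorem sF_act' (hG : G.IsTree) (hμ : IsTreeIsing G θ μ) (σ : G ≃g G) (om : V × ℕ → ℝ) (v : V)
    (n : ℕ) (e : V × ℕ) :
    sF μ (ball G (σ v) n) (actLab σ om) (siteEquiv σ e) = sF μ (ball G v n) om e := by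
  unfold sF
  have h := sampG_equivariant (μ := μ) (g := fun i => gs (uL (actLab σ om) i))
    (site := (Prod.fst : V × ℕ → V)) (r := rkE (actLab σ om))
    (S := ball G v n ×ˢ Finset.range (e.2 + 1)) (u := xL (actLab σ om))
    (siteEquiv σ) σ.toEquiv (fun i => rfl) (hμ.map_act hG σ) e
  rw [map_ball hG.connected σ v n (e.2 + 1) (siteEquiv σ) (siteEquiv_apply σ)] at h
  have e1 : (siteEquiv σ e).2 = e.2 := rfl
  rw [e1, h]
  congr 1
  · funext i
    simp only [Function.comp_apply, siteEquiv_apply, uL_actLab]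
  · funext i
    simp only [Function.comp_apply, siteEquiv_apply, rkE, uL_actLab]
  · funext i
    simp only [Function.comp_apply, siteEquiv_apply, xL_actLab]

theorem sF_act (hG : G.IsTree) (hμ : IsTreeIsing G θ μ) (σ : G ≃g G) (om : V × ℕ → ℝ) (v : V)
    (n k : ℕ) :
    sF μ (ball G (σ v) n) (actLab σ om) (σ v, k) = sF μ (ball G v n) om (v, k) :=
  sF_act' hG hμ σ om v n (v, k)

theorem mF_act (hG : G.IsTree) (hμ : IsTreeIsing G θ μ) (σ : G ≃g G) (om : V × ℕ → ℝ) (v : V)
    (n k : ℕ) (t : ℝ) :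
    mF μ (ball G (σ v) n) k t (actLab σ om) (σ v) = mF μ (ball G v n) k t om v := by
  unfold mF
  have h1 : bef (actLab σ om) (ball G (σ v) n) k t =
      (bef om (ball G v n) k t).map (siteEquiv σ).toEmbedding := by
    ext e
    simp only [Finset.mem_map, Equiv.coe_toEmbedding]
    obtain ⟨e', rfl⟩ := (siteEquiv σ).surjective e
    rw [bef_eq, mem_evT, siteEquiv_apply, uL_actLab, mem_ball_iso hG.connected σ]
    simp only [RelIso.symm_apply_apply]
    constructor
    · rintro ⟨h2, h3⟩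
      refine ⟨e', ?_, rfl⟩
      rw [bef_eq, mem_evT]
      exact ⟨h2, h3⟩
    · rintro ⟨e'', h2, h3⟩
      have h4 : e'' = e' := (siteEquiv σ).injective h3
      subst h4
      rw [bef_eq, mem_evT] at h2
      exact h2
  rw [h1]
  have h2 := mag_map (μ := μ) (site := (Prod.fst : V × ℕ → V)) (siteEquiv σ) σ.toEquiv
    (fun i => rfl) (hμ.map_act hG σ) (bef om (ball G v n) k t)
    (cF μ (ball G (σ v) n) (actLab σ om)) v
  refine h2.trans ?_
  refine mag_congr (fun i _ => ?_) v
  simp only [Function.comp_apply]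
  unfold cF
  rw [sF_act' hG hμ σ om v n i, siteEquiv_apply, uL_actLab]

end Equivariance

/-! ### The law in finite volume -/

/-- The noisy observations of spins `σ` with labels `om`. -/
noncomputable def chan (p : (V → Bool) × (V × ℕ → ℝ)) (e : V × ℕ) : ℝ :=
  T (gs (uL p.2 e) * spin (p.1 e.1)) (xL p.2 e)

theorem measurable_chan [Countable V] :
    Measurable (chan : (V → Bool) × (V × ℕ → ℝ) → (V × ℕ → ℝ)) := by
  refine measurable_pi_lambda _ fun e => ?_
  unfold chan
  refine measurable_T.comp (Measurable.prodMk ?_ ?_)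
  · exact (measurable_gs.comp ((measurable_uL e).comp measurable_snd)).mul
      ((measurable_spin_apply e.1).comp measurable_fst)
  · exact (measurable_xL e).comp measurable_snd

/-- Joint law of the order labels and the observations in finite volume. -/
theorem law_finiteE [Countable V] [IsProbabilityMeasure μ] (A : Finset (V × ℕ)) (D : Finset V)
    (hA : ∀ e ∈ A, e.1 ∈ D) {F : (V × ℕ → ℝ) → (V × ℕ → ℝ) → ℝ}
    (hF : Measurable fun p : (V × ℕ → ℝ) × (V × ℕ → ℝ) => F p.1 p.2)
    (hb : ∃ C, ∀ U x, |F U x| ≤ C) (hFA : ∀ U, DependsOn (F U) (A : Set (V × ℕ))) :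
    ∫ om, F (uL om) (sF μ D om) ∂(Pu (V × ℕ)) =
      ∫ p, F (uL p.2) (chan p) ∂(μ.prod (Pu (V × ℕ))) := by
  obtain ⟨C, hC⟩ := hb
  have huLm : Measurable (uL : (V × ℕ → ℝ) → (V × ℕ → ℝ)) :=
    measurable_pi_lambda _ fun e => measurable_uL e
  have hms : Measurable (fun om : V × ℕ → ℝ => sF μ D om) :=
    measurable_pi_lambda _ fun e => measurable_sF D e
  have hL := integral_joinUX (h := fun om : V × ℕ → ℝ => F (uL om) (sF μ D om))
    (hF.comp (huLm.prodMk hms)) (fun om => hC _ _)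
  have hchan : Measurable fun p : (V → Bool) × (V × ℕ → ℝ) => F (uL p.2) (chan p) :=
    hF.comp ((huLm.comp measurable_snd).prodMk measurable_chan)
  rw [hL, integral_prod]
  · have hR : ∀ σ : V → Bool, ∫ om, F (uL (σ, om).2) (chan (σ, om)) ∂(Pu (V × ℕ)) =
        ∫ U, ∫ x, F U (fun e => T (gs (U e) * spin (σ e.1)) (x e)) ∂(Pu (V × ℕ))
          ∂(Pu (V × ℕ)) := by
      intro σ
      have h1 := integral_joinUX (h := fun om : V × ℕ → ℝ => F (uL om) (chan (σ, om)))
        (hchan.comp (measurable_const.prodMk measurable_id)) (fun om => hC _ _)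
      refine h1.trans ?_
      refine integral_congr_ae (Eventually.of_forall fun U => ?_)
      refine integral_congr_ae (Eventually.of_forall fun x => ?_)
      simp only [uL_joinUX]
      congr 1
      funext e
      unfold chan
      simp only [uL_joinUX, xL_joinUX]
    rw [integral_congr_ae (Eventually.of_forall hR)]
    -- exchange `σ` and `U`
    have hjoint : Measurable fun q : ((V → Bool) × (V × ℕ → ℝ)) × (V × ℕ → ℝ) =>
        F q.1.2 (fun e => T (gs (q.1.2 e) * spin (q.1.1 e.1)) (q.2 e)) := by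
      refine hF.comp ((measurable_snd.comp measurable_fst).prodMk
        (measurable_pi_lambda _ fun e => ?_))
      refine measurable_T.comp (Measurable.prodMk ?_ ?_)
      · exact (measurable_gs.comp ((measurable_pi_apply e).comp
          (measurable_snd.comp measurable_fst))).mul
          ((measurable_spin_apply e.1).comp (measurable_fst.comp measurable_fst))
      · exact (measurable_pi_apply e).comp measurable_snd
    have hin : Measurable fun q : (V → Bool) × (V × ℕ → ℝ) =>
        ∫ x, F q.2 (fun e => T (gs (q.2 e) * spin (q.1 e.1)) (x e)) ∂(Pu (V × ℕ)) :=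
      (hjoint.stronglyMeasurable.integral_prod_right' (ν := Pu (V × ℕ))).measurable
    have hinb : ∀ q : (V → Bool) × (V × ℕ → ℝ),
        ‖∫ x, F q.2 (fun e => T (gs (q.2 e) * spin (q.1 e.1)) (x e)) ∂(Pu (V × ℕ))‖ ≤ C := by
      intro q
      have h3 := norm_integral_le_of_norm_le_const (μ := Pu (V × ℕ))
        (f := fun x : V × ℕ → ℝ => F q.2 (fun e => T (gs (q.2 e) * spin (q.1 e.1)) (x e)))
        (C := C) (Eventually.of_forall fun x => by rw [Real.norm_eq_abs]; exact hC _ _)
      simpa using h3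
    have hint : Integrable (Function.uncurry fun (σ : V → Bool) (U : V × ℕ → ℝ) =>
        ∫ x, F U (fun e => T (gs (U e) * spin (σ e.1)) (x e)) ∂(Pu (V × ℕ)))
        (μ.prod (Pu (V × ℕ))) :=
      Integrable.of_bound hin.aestronglyMeasurable C (Eventually.of_forall hinb)
    have hsw := integral_integral_swap hint
    rw [hsw]
    · have hinj : ∀ᵐ U ∂(Pu (V × ℕ)), Function.Injective U := ae_injective_Pu
      obtain ⟨K, hK⟩ : ∃ K : ℕ, ∀ e ∈ A, e.2 < K := by
        refine ⟨A.sup (fun e => e.2) + 1, fun e he => ?_⟩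
        exact Nat.lt_succ_of_le (Finset.le_sup (f := fun e : V × ℕ => e.2) he)
      refine integral_congr_ae ?_
      filter_upwards [hinj] with U hU
      have h2 : ∀ x : V × ℕ → ℝ, F (uL (joinUX U x)) (sF μ D (joinUX U x)) =
          F U (sampG μ (fun i => gs (U i)) Prod.fst (rk2 U) (D ×ˢ Finset.range K) x) := by
        intro x
        rw [uL_joinUX]
        refine hFA U fun e he => ?_
        rw [sF_eq_sampG μ D (joinUX U x) (hK e he), rkE_eq, uL_joinUX, xL_joinUX]
      simp only [h2]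
      refine law_sampG (fun i => gs_nonneg _) (fun i => (gs_lt _).trans (by norm_num)) ?_
        (hF.comp (measurable_const.prodMk measurable_id)) ⟨C, fun x => hC U x⟩ ?_
      · intro e _ e' _ h
        have h3 : (e.2, U e) = (e'.2, U e') := toLex.injective h
        rw [Prod.mk.injEq] at h3
        exact hU h3.2
      · refine (hFA U).mono fun e he => ?_
        rw [Finset.mem_coe, Finset.mem_product, Finset.mem_range]
        exact ⟨hA e he, hK e he⟩
  · exact Integrable.of_bound hchan.aestronglyMeasurable C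
      (Eventually.of_forall fun p => by rw [Real.norm_eq_abs]; exact hC _ _)

end Vale.Agent.P161.EP
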