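import Mathlib
import Vale.Agent.P161.EP.Blocks
import Vale.Agent.P161.EP.SampF

/-!
# Module H2, preliminaries: products of functions of disjoint coordinates, flips, the density of the
observations before a time
-/

open MeasureTheory ProbabilityTheory

namespace Vale.Agent.P161.EP

universe u

/-! ### Independence -/

section Indep

variable {ι : Type*}

theorem h2_integral_mul_disjointPu (I J : Finset ι) (hIJ : Disjoint I J) {F H : (ι → ℝ) → ℝ}
    (hFm : Measurable F) (hHm : Measurable H)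
    (hF : DependsOn F (I : Set ι)) (hH : DependsOn H (J : Set ι)) :
    ∫ x, F x * H x ∂(Pu ι) = (∫ x, F x ∂(Pu ι)) * (∫ x, H x ∂(Pu ι)) := by
  classical
  have hind : iIndepFun (fun (i : ι) (ω : ι → ℝ) ↦ (fun b : ℝ => b) (ω i)) (Pu ι) :=
    iIndepFun_infinitePi (P := fun _ : ι => unif) (X := fun _ b => b) (fun i => measurable_id)
  have h2 := hind.indepFun_finset I J hIJ (fun i => measurable_pi_apply i)
  -- extension by zero
  let ext : ∀ K : Finset ι, (K → ℝ) → ι → ℝ := fun K y i => if h : i ∈ K then y ⟨i, h⟩ else 0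
  have hext : ∀ K : Finset ι, Measurable (ext K) := by
    intro K
    refine measurable_pi_lambda _ fun i => ?_
    by_cases h : i ∈ K
    · have : (fun y : K → ℝ => ext K y i) = fun y => y ⟨i, h⟩ := by
        funext y; simp only [ext]; rw [dif_pos h]
      rw [this]; exact measurable_pi_apply _
    · have : (fun y : K → ℝ => ext K y i) = fun y => 0 := by
        funext y; simp only [ext]; rw [dif_neg h]
      rw [this]; exact measurable_const
  have e1 : ∀ x, F x = (F ∘ ext I) (fun i : I => x i) := by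
    intro x
    refine hF fun i hi => ?_
    have hi' : i ∈ I := hi
    simp only [ext]; rw [dif_pos hi']
  have e2 : ∀ x, H x = (H ∘ ext J) (fun i : J => x i) := by
    intro x
    refine hH fun i hi => ?_
    have hi' : i ∈ J := hi
    simp only [ext]; rw [dif_pos hi']
  have h3 := h2.comp (hFm.comp (hext I)) (hHm.comp (hext J))
  have h4 := h3.integral_fun_mul_eq_mul_integral
    ((hFm.comp (hext I)).comp (measurable_pi_lambda _ fun i => measurable_pi_apply _)).aestronglyMeasurable
    ((hHm.comp (hext J)).comp (measurable_pi_lambda _ fun i => measurable_pi_apply _)).aestronglyMeasurable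
  have e3 : (fun x => F x * H x) = fun x => ((F ∘ ext I) ∘ fun a (i : I) => a i.1) x *
      ((H ∘ ext J) ∘ fun a (i : J) => a i.1) x := by
    funext x
    rw [e1 x, e2 x]
    rfl
  have e4 : F = ((F ∘ ext I) ∘ fun a (i : I) => a i.1) := by
    funext x
    rw [e1 x]; rfl
  have e5 : H = ((H ∘ ext J) ∘ fun a (i : J) => a i.1) := by
    funext x
    rw [e2 x]; rfl
  calc ∫ x, F x * H x ∂(Pu ι) = ∫ x, ((F ∘ ext I) ∘ fun a (i : I) => a i.1) x *
      ((H ∘ ext J) ∘ fun a (i : J) => a i.1) x ∂(Pu ι) := by rw [e3]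
    _ = (∫ x, ((F ∘ ext I) ∘ fun a (i : I) => a i.1) x ∂(Pu ι)) *
        ∫ x, ((H ∘ ext J) ∘ fun a (i : J) => a i.1) x ∂(Pu ι) := h4
    _ = _ := by rw [← e4, ← e5]

theorem h2_dependsOn_prod' {κ : Type*} (Z : Finset κ) (I : κ → Finset ι) {F : κ → (ι → ℝ) → ℝ}
    [DecidableEq ι] (hF : ∀ z ∈ Z, DependsOn (F z) (I z : Set ι)) :
    DependsOn (fun x => ∏ z ∈ Z, F z x) ((Z.biUnion I : Finset ι) : Set ι) := by
  intro x y h
  refine Finset.prod_congr rfl fun z hz => ?_
  refine hF z hz fun i hi => h i ?_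
  rw [Finset.mem_coe, Finset.mem_biUnion]
  exact ⟨z, hz, hi⟩

theorem h2_integral_prod_disjointPu {κ : Type*} [DecidableEq κ] [DecidableEq ι] (Z : Finset κ)
    (I : κ → Finset ι) (hI : ∀ z ∈ Z, ∀ z' ∈ Z, z ≠ z' → Disjoint (I z) (I z'))
    {F : κ → (ι → ℝ) → ℝ} (hFm : ∀ z ∈ Z, Measurable (F z))
    (hF : ∀ z ∈ Z, DependsOn (F z) (I z : Set ι)) :
    ∫ x, ∏ z ∈ Z, F z x ∂(Pu ι) = ∏ z ∈ Z, ∫ x, F z x ∂(Pu ι) := by
  induction Z using Finset.induction_on with
  | empty => simp
  | insert a Z ha ih =>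
    simp only [Finset.prod_insert ha]
    rw [h2_integral_mul_disjointPu (I a) (Z.biUnion I)]
    · rw [ih]
      · intro z hz z' hz' hne
        exact hI z (Finset.mem_insert_of_mem hz) z' (Finset.mem_insert_of_mem hz') hne
      · exact fun z hz => hFm z (Finset.mem_insert_of_mem hz)
      · exact fun z hz => hF z (Finset.mem_insert_of_mem hz)
    · rw [Finset.disjoint_biUnion_right]
      intro z hz
      refine hI a (Finset.mem_insert_self _ _) z (Finset.mem_insert_of_mem hz) ?_
      rintro rfl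
      exact ha hz
    · exact hFm a (Finset.mem_insert_self _ _)
    · exact Finset.measurable_fun_prod _ fun z hz => hFm z (Finset.mem_insert_of_mem hz)
    · exact hF a (Finset.mem_insert_self _ _)
    · exact h2_dependsOn_prod' Z I fun z hz => hF z (Finset.mem_insert_of_mem hz)

theorem h2_map_neg_unif : unif.map (fun x => -x) = unif := by
  unfold unif
  rw [Measure.map_smul]
  congr 1
  have h1 : Measure.map (fun x : ℝ => -x) (volume.restrict (Set.Icc (-1) 1)) =
      (Measure.map (fun x : ℝ => -x) volume).restrict (Set.Icc (-1) 1) := by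
    have h2 := (MeasurableEquiv.neg ℝ).restrict_map (volume : Measure ℝ) (Set.Icc (-1) 1)
    have h3 : (MeasurableEquiv.neg ℝ : ℝ → ℝ) ⁻¹' (Set.Icc (-1) 1) = Set.Icc (-1) 1 := by
      ext x
      simp only [MeasurableEquiv.neg_apply, Set.mem_preimage, Set.mem_Icc]
      constructor
      · rintro ⟨h4, h5⟩; constructor <;> linarith
      · rintro ⟨h4, h5⟩; constructor <;> linarith
    rw [h3] at h2
    exact h2.symm
  rw [h1]
  congr 1
  exact (Measure.measurePreserving_neg (volume : Measure ℝ)).map_eq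

theorem h2_map_neg_Pu : (Pu ι).map (fun x i => -x i) = Pu ι := by
  unfold Pu
  rw [Measure.infinitePi_map_pi (fun _ => unif) (f := fun _ x => -x) (fun _ => measurable_neg)]
  congr 1
  funext i
  exact h2_map_neg_unif

theorem h2_integral_neg_Pu {F : (ι → ℝ) → ℝ} (hF : Measurable F) :
    ∫ x, F (fun i => -x i) ∂(Pu ι) = ∫ x, F x ∂(Pu ι) := by
  conv_rhs => rw [← h2_map_neg_Pu]
  rw [integral_map]
  · exact (measurable_pi_lambda _ fun i => (measurable_pi_apply i).neg).aemeasurable
  · exact hF.aestronglyMeasurable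

end Indep

variable {V : Type u} {μ : Measure (V → Bool)}

/-- Integration over the two families of labels is integration over the labels. -/
theorem h2_integral_labels [Countable V] {F : (V × ℕ → ℝ) → (V × ℕ → ℝ) → ℝ}
    (hF : Measurable fun p : (V × ℕ → ℝ) × (V × ℕ → ℝ) => F p.1 p.2) {C : ℝ}
    (hb : ∀ U x, |F U x| ≤ C) :
    ∫ om, F (uL om) (xL om) ∂(Pu (V × ℕ)) =
      ∫ U, ∫ x, F U x ∂(Pu (V × ℕ)) ∂(Pu (V × ℕ)) := by
  have huLm : Measurable (uL : (V × ℕ → ℝ) → (V × ℕ → ℝ)) :=
    measurable_pi_lambda _ fun e => measurable_uL e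
  have hxLm : Measurable (xL : (V × ℕ → ℝ) → (V × ℕ → ℝ)) :=
    measurable_pi_lambda _ fun e => measurable_xL e
  rw [integral_joinUX (h := fun om : V × ℕ → ℝ => F (uL om) (xL om))
    (hF.comp (huLm.prodMk hxLm)) (fun om => hb _ _)]
  simp only [uL_joinUX, xL_joinUX]

/-- The observations multiplied by the strengths, clamped. -/
noncomputable def cS (U s : V × ℕ → ℝ) (e : V × ℕ) : ℝ := gs (U e) * clamp (s e)

theorem abs_cS_lt (U s : V × ℕ → ℝ) (e : V × ℕ) : |cS U s e| < 1 := by
  unfold cS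
  rw [abs_mul, abs_of_nonneg (gs_nonneg _)]
  calc gs (U e) * |clamp (s e)| ≤ gs (U e) * 1 :=
        mul_le_mul_of_nonneg_left (abs_clamp_le _) (gs_nonneg _)
    _ < 1 := by rw [mul_one]; exact (gs_lt _).trans (by norm_num)

open Classical in
/-- The sites of `evT` with a property. -/
noncomputable def evP (D : Finset V) (k : ℕ) (t : ℝ) (P : V × ℕ → Prop) (U : V × ℕ → ℝ) :
    Finset (V × ℕ) := (evT D U k (-1 + t)).filter P

theorem mem_evP {D : Finset V} {k : ℕ} {t : ℝ} {P : V × ℕ → Prop} {U : V × ℕ → ℝ} {e : V × ℕ} :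
    e ∈ evP D k t P U ↔ e.1 ∈ D ∧ (e.2 < k ∨ (e.2 = k ∧ U e < -1 + t)) ∧ P e := by
  classical
  unfold evP
  rw [Finset.mem_filter, mem_evT, and_assoc]

theorem evP_congr {D : Finset V} {k : ℕ} {t : ℝ} {P : V × ℕ → Prop} {U U' : V × ℕ → ℝ}
    (h : ∀ e, P e → U e = U' e) : evP D k t P U = evP D k t P U' := by
  ext e
  rw [mem_evP, mem_evP]
  constructor
  · rintro ⟨h1, h2, h3⟩
    exact ⟨h1, by rwa [← h e h3], h3⟩
  · rintro ⟨h1, h2, h3⟩
    exact ⟨h1, by rwa [h e h3], h3⟩

theorem evP_eq_lo (D : Finset V) (k : ℕ) (t : ℝ) (P : V × ℕ → Prop) [DecidablePred P]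
    (U : V × ℕ → ℝ) :
    evP D k t P U = lo (rk2 U) ((evK D k).filter P) (toLex (k, -1 + t)) := by
  ext e
  rw [mem_evP, mem_lo, Finset.mem_filter, mem_evK, rk2_lt]
  constructor
  · rintro ⟨h1, h2, h3⟩
    exact ⟨⟨⟨h1, by omega⟩, h3⟩, h2⟩
  · rintro ⟨⟨⟨h1, _⟩, h3⟩, h2⟩
    exact ⟨h1, h2, h3⟩

theorem measurable_evid_evP [Countable V] [IsProbabilityMeasure μ] (D : Finset V) (k : ℕ) (t : ℝ)
    (P : V × ℕ → Prop) :
    Measurable fun p : (V × ℕ → ℝ) × (V × ℕ → ℝ) =>
      evid μ Prod.fst (evP D k t P p.1) (cS p.1 p.2) := by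
  classical
  simp only [evP_eq_lo]
  have hwt := measurable_wt_lo (site := (Prod.fst : V × ℕ → V)) (B := (evK D k).filter P)
    (c := fun p : (V × ℕ → ℝ) × (V × ℕ → ℝ) => cS p.1 p.2)
    (r := fun p : (V × ℕ → ℝ) × (V × ℕ → ℝ) => rk2 p.1)
    (ρ := fun _ : (V × ℕ → ℝ) × (V × ℕ → ℝ) => toLex (k, -1 + t))
    (fun i => by
      simp only [rk2_lt]
      exact (MeasurableSet.const _).union ((MeasurableSet.const _).inter
        (measurableSet_lt ((measurable_pi_apply i).comp measurable_fst) measurable_const)))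
    (fun i => (measurable_gs.comp ((measurable_pi_apply i).comp measurable_fst)).mul
      (measurable_clamp.comp ((measurable_pi_apply i).comp measurable_snd)))
  unfold evid
  exact (hwt.stronglyMeasurable.integral_prod_right (ν := μ)).measurable

theorem measurable_mag_evP [Countable V] [IsProbabilityMeasure μ] (D : Finset V) (k : ℕ) (t : ℝ)
    (P : V × ℕ → Prop) (v : V) :
    Measurable fun p : (V × ℕ → ℝ) × (V × ℕ → ℝ) =>
      mag μ Prod.fst (evP D k t P p.1) (cS p.1 p.2) v := by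
  classical
  simp only [evP_eq_lo]
  exact measurable_mag_lo (site := (Prod.fst : V × ℕ → V)) (B := (evK D k).filter P)
    (c := fun p : (V × ℕ → ℝ) × (V × ℕ → ℝ) => cS p.1 p.2)
    (r := fun p : (V × ℕ → ℝ) × (V × ℕ → ℝ) => rk2 p.1)
    (ρ := fun _ : (V × ℕ → ℝ) × (V × ℕ → ℝ) => toLex (k, -1 + t))
    (fun i => by
      simp only [rk2_lt]
      exact (MeasurableSet.const _).union ((MeasurableSet.const _).inter
        (measurableSet_lt ((measurable_pi_apply i).comp measurable_fst) measurable_const)))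
    (fun i => (measurable_gs.comp ((measurable_pi_apply i).comp measurable_fst)).mul
      (measurable_clamp.comp ((measurable_pi_apply i).comp measurable_snd))) v

theorem evid_evP_bound [IsProbabilityMeasure μ] (D : Finset V) (k : ℕ) (t : ℝ)
    (P : V × ℕ → Prop) : ∃ C, ∀ U s, |evid μ Prod.fst (evP D k t P U) (cS U s)| ≤ C := by
  refine ⟨2 ^ (evK D k).card, fun U s => ?_⟩
  have h1 : ∀ σ : V → Bool, |wt (Prod.fst : V × ℕ → V) (evP D k t P U) (cS U s) σ| ≤
      2 ^ (evK D k).card := by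
    intro σ
    unfold wt
    rw [Finset.abs_prod]
    calc ∏ i ∈ evP D k t P U, |1 + cS U s i * spin (σ i.1)|
        ≤ ∏ _i ∈ evP D k t P U, (2 : ℝ) := by
          refine Finset.prod_le_prod (fun _ _ => abs_nonneg _) fun i _ => ?_
          calc |1 + cS U s i * spin (σ i.1)| ≤ |1| + |cS U s i * spin (σ i.1)| := abs_add_le _ _
            _ ≤ 1 + 1 := by
                rw [abs_one, abs_mul, abs_spin, mul_one]
                have := abs_cS_lt U s i
                linarith
            _ = 2 := by norm_num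
      _ = 2 ^ (evP D k t P U).card := by rw [Finset.prod_const]
      _ ≤ 2 ^ (evK D k).card := by
          refine pow_le_pow_right₀ (by norm_num) (Finset.card_le_card fun e he => ?_)
          rw [mem_evP] at he
          rw [mem_evK]
          exact ⟨he.1, by omega⟩
  unfold evid
  calc |∫ σ, wt (Prod.fst : V × ℕ → V) (evP D k t P U) (cS U s) σ ∂μ|
      ≤ ∫ σ, |wt (Prod.fst : V × ℕ → V) (evP D k t P U) (cS U s) σ| ∂μ :=
        abs_integral_le_integral_abs
    _ ≤ ∫ _, (2 : ℝ) ^ (evK D k).card ∂μ :=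
        integral_mono integrable_wt.abs (integrable_const _) h1
    _ = _ := by simp

/-- The law of the observations before the time `(k, t)` with a property `P`. -/
theorem law_evP [Countable V] [IsProbabilityMeasure μ] (D : Finset V) (k : ℕ) (t : ℝ)
    (P : V × ℕ → Prop) {F : (V × ℕ → ℝ) → (V × ℕ → ℝ) → ℝ}
    (hF : Measurable fun p : (V × ℕ → ℝ) × (V × ℕ → ℝ) => F p.1 p.2)
    (hb : ∃ C, ∀ U x, |F U x| ≤ C)
    (hdep : ∀ U, DependsOn (F U) (evP D k t P U : Set (V × ℕ))) :
    ∫ om, F (uL om) (sF μ D om) ∂(Pu (V × ℕ)) =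
      ∫ om, F (uL om) (xL om) * evid μ Prod.fst (evP D k t P (uL om)) (cS (uL om) (xL om))
        ∂(Pu (V × ℕ)) := by
  obtain ⟨C, hC⟩ := hb
  obtain ⟨C', hC'⟩ := evid_evP_bound (μ := μ) D k t P
  have hC0 : 0 ≤ C := (abs_nonneg _).trans (hC (fun _ => 0) (fun _ => 0))
  have huLm : Measurable (uL : (V × ℕ → ℝ) → (V × ℕ → ℝ)) :=
    measurable_pi_lambda _ fun e => measurable_uL e
  have hms : Measurable (fun om : V × ℕ → ℝ => sF μ D om) :=
    measurable_pi_lambda _ fun e => measurable_sF D e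
  have hL := integral_joinUX (h := fun om : V × ℕ → ℝ => F (uL om) (sF μ D om))
    (hF.comp (huLm.prodMk hms)) (fun om => hC _ _)
  have hR := h2_integral_labels (F := fun U x => F U x *
    evid μ Prod.fst (evP D k t P U) (cS U x)) (hF.mul (measurable_evid_evP D k t P))
    (C := C * C') (fun U x => by
      rw [abs_mul]
      exact mul_le_mul (hC U x) (hC' U x) (abs_nonneg _) hC0)
  rw [hL, hR]
  have hinj : ∀ᵐ U ∂(Pu (V × ℕ)), Function.Injective U := ae_injective_Pu
  refine integral_congr_ae ?_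
  filter_upwards [hinj] with U hU
  have h2 : ∀ x : V × ℕ → ℝ, F (uL (joinUX U x)) (sF μ D (joinUX U x)) =
      F U (sampG μ (fun i => gs (U i)) Prod.fst (rk2 U) (D ×ˢ Finset.range (k + 1)) x) := by
    intro x
    rw [uL_joinUX]
    refine hdep U fun e he => ?_
    have he' : e ∈ evP D k t P U := he
    rw [mem_evP] at he'
    rw [sF_eq_sampG μ D (joinUX U x) (K := k + 1) (by omega), rkE_eq, uL_joinUX, xL_joinUX]
  simp only [h2]
  have hinjOn : ∀ S : Finset (V × ℕ), Set.InjOn (rk2 U) (S : Set (V × ℕ)) := by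
    intro S e _ e' _ h
    have h3 : (e.2, U e) = (e'.2, U e') := toLex.injective h
    rw [Prod.mk.injEq] at h3
    exact hU h3.2
  have hg0 : ∀ i : V × ℕ, 0 ≤ gs (U i) := fun i => gs_nonneg _
  have hg1 : ∀ i : V × ℕ, gs (U i) < 1 := fun i => (gs_lt _).trans (by norm_num)
  have hFU : Measurable (F U) := hF.comp (measurable_const.prodMk measurable_id)
  have hdep1 : DependsOn (F U) ((D ×ˢ Finset.range (k + 1) : Finset (V × ℕ)) : Set (V × ℕ)) := by
    refine (hdep U).mono fun e he => ?_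
    have he' : e ∈ evP D k t P U := he
    rw [mem_evP] at he'
    rw [Finset.mem_coe, Finset.mem_product, Finset.mem_range]
    exact ⟨he'.1, by omega⟩
  rw [law_sampG (μ := μ) (site := Prod.fst) hg0 hg1 (hinjOn _) hFU ⟨C, hC U⟩ hdep1]
  rw [← law_sampG (μ := μ) (site := Prod.fst) hg0 hg1 (hinjOn (evP D k t P U)) hFU ⟨C, hC U⟩
    (hdep U)]
  rw [law_densityG hg0 hg1 (evP D k t P U) (hinjOn _) hFU ⟨C, hC U⟩ (hdep U)]
  rfl

end Vale.Agent.P161.EP
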