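import Mathlib
import Vale.Agent.P161.EP.BlockPre
import Vale.Agent.P161.EP.KernelA

/-!
# Module H2, preliminaries: the own field, messages and kernel sums as functions of the labels
-/

open MeasureTheory ProbabilityTheory Filter Topology

namespace Vale.Agent.P161.EP

universe u

variable {V : Type u} {G : SimpleGraph V} [G.LocallyFinite] {θ : ℝ} {μ : Measure (V → Bool)}

/-- `∏_j (1 + τ c_j)` over the own observations before the time `(k,t)`. -/
noncomputable def Pown (τ : ℝ) (k : ℕ) (t : ℝ) (U s : V × ℕ → ℝ) (y : V) : ℝ :=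
  ∏ j ∈ Finset.range (k + 1),
    if j < k ∨ U (y, j) < -1 + t then 1 + τ * (gs (U (y, j)) * s (y, j)) else 1

/-- The own field at `y` at time `(k,t)`. -/
noncomputable def own (k : ℕ) (t : ℝ) (U s : V × ℕ → ℝ) (y : V) : ℝ :=
  (Pown 1 k t U s y - Pown (-1) k t U s y) / (Pown 1 k t U s y + Pown (-1) k t U s y)

/-- The kernel sum of finite volume messages. -/
noncomputable def XF (G : SimpleGraph V) [G.LocallyFinite] (θ : ℝ) (μ : Measure (V → Bool))
    (D : Finset V) (k : ℕ) (t : ℝ) (om : V × ℕ → ℝ) (x y : V) : ℝ :=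
  Xs G (fun x y => lam θ (MF G μ D k t om x y)) x y

/-- beyond `y` seen from `x` -/
def bP (G : SimpleGraph V) (x y : V) (e : V × ℕ) : Prop := G.dist y e.1 < G.dist x e.1

/-- before the time `(k, t)` -/
def bf (k : ℕ) (t : ℝ) (U : V × ℕ → ℝ) (e : V × ℕ) : Prop := e.2 < k ∨ (e.2 = k ∧ U e < -1 + t)

/-- agreement of the labels at the sites with the property `P` -/
def Agr (D : Finset V) (k : ℕ) (t : ℝ) (P : V × ℕ → Prop) (U s U' s' : V × ℕ → ℝ) : Prop :=
  ∀ e, e.1 ∈ D → P e → (bf k t U e ↔ bf k t U' e) ∧ (bf k t U e → U e = U' e ∧ s e = s' e)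

theorem Agr.mono {D : Finset V} {k : ℕ} {t : ℝ} {P P' : V × ℕ → Prop} {U s U' s' : V × ℕ → ℝ}
    (h : Agr D k t P U s U' s') (hP : ∀ e, P' e → P e) : Agr D k t P' U s U' s' :=
  fun e h1 h2 => h e h1 (hP e h2)

theorem Agr.of_eq {D : Finset V} {k : ℕ} {t : ℝ} {P : V × ℕ → Prop} {U s U' s' : V × ℕ → ℝ}
    (h : ∀ e, e.1 ∈ D → e.2 ≤ k → P e → U e = U' e ∧ s e = s' e) : Agr D k t P U s U' s' := by
  intro e h1 h2
  by_cases h3 : e.2 ≤ k
  · have h4 := h e h1 h3 h2
    unfold bf
    rw [h4.1]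
    exact ⟨Iff.rfl, fun _ => ⟨rfl, h4.2⟩⟩
  · unfold bf
    constructor
    · constructor
      · rintro (h4 | h4) <;> omega
      · rintro (h4 | h4) <;> omega
    · rintro (h4 | h4) <;> omega

theorem Agr.of_evP {D : Finset V} {k : ℕ} {t : ℝ} {P : V × ℕ → Prop} {U s s' : V × ℕ → ℝ}
    (h : ∀ e ∈ (evP D k t P U : Set (V × ℕ)), s e = s' e) : Agr D k t P U s U s' := by
  intro e h1 h2
  refine ⟨Iff.rfl, fun h3 => ⟨rfl, h e ?_⟩⟩
  rw [Finset.mem_coe, mem_evP]
  exact ⟨h1, h3, h2⟩

section agr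

variable {D : Finset V} {k : ℕ} {t : ℝ} {P : V × ℕ → Prop} {U s U' s' : V × ℕ → ℝ}

theorem Agr.evP_eq (h : Agr D k t P U s U' s') : evP D k t P U = evP D k t P U' := by
  ext e
  rw [mem_evP, mem_evP]
  constructor
  · rintro ⟨h1, h2, h3⟩
    exact ⟨h1, (h e h1 h3).1.1 h2, h3⟩
  · rintro ⟨h1, h2, h3⟩
    exact ⟨h1, (h e h1 h3).1.2 h2, h3⟩

theorem Agr.cS_eq (h : Agr D k t P U s U' s') : ∀ e ∈ evP D k t P U, cS U s e = cS U' s' e := by
  intro e he
  rw [mem_evP] at he
  have h1 := (h e he.1 he.2.2).2 he.2.1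
  unfold cS
  rw [h1.1, h1.2]

theorem Agr.evid_eq (h : Agr D k t P U s U' s') :
    evid μ Prod.fst (evP D k t P U) (cS U s) = evid μ Prod.fst (evP D k t P U') (cS U' s') := by
  rw [← h.evP_eq]
  exact evid_congr h.cS_eq

theorem Agr.mag_eq (h : Agr D k t P U s U' s') (v : V) :
    mag μ Prod.fst (evP D k t P U) (cS U s) v = mag μ Prod.fst (evP D k t P U') (cS U' s') v := by
  rw [← h.evP_eq]
  exact mag_congr h.cS_eq v

end agr

/-- The messages as functions of the two families of labels. -/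
noncomputable def MS (G : SimpleGraph V) (μ : Measure (V → Bool)) (D : Finset V) (k : ℕ) (t : ℝ)
    (U s : V × ℕ → ℝ) (x y : V) : ℝ :=
  mag μ Prod.fst (evP D k t (bP G x y) U) (cS U s) y

/-- The kernel sums as functions of the two families of labels. -/
noncomputable def XS (G : SimpleGraph V) [G.LocallyFinite] (θ : ℝ) (μ : Measure (V → Bool))
    (D : Finset V) (k : ℕ) (t : ℝ) (U s : V × ℕ → ℝ) (x y : V) : ℝ :=
  Xs G (fun x y => lam θ (MS G μ D k t U s x y)) x y

/-- The own field as function of the two families of labels. -/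
noncomputable def ownS (k : ℕ) (t : ℝ) (U s : V × ℕ → ℝ) (y : V) : ℝ :=
  own k t U (fun e => clamp (s e)) y

theorem bP_trans (hG : G.IsTree) {x y z : V} (hxy : G.Adj x y) (hyz : G.Adj y z) (hzx : z ≠ x)
    {e : V × ℕ} (h : bP G y z e) : bP G x y e := by
  unfold bP at h ⊢
  have c1 := IsTree.dist_cases hG hxy e.1
  have c2 := IsTree.dist_cases hG hyz e.1
  rcases c1 with c1 | c1
  · omega
  · exfalso
    apply hzx
    exact IsTree.parent_unique hG hyz hxy.symm (w := e.1) (by omega) (by omega)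

theorem bP_disj (hG : G.IsTree) {y z z' : V} (hz : G.Adj y z) (hz' : G.Adj y z') (hzz : z ≠ z')
    {e : V × ℕ} (h : bP G y z e) : ¬ bP G y z' e := by
  unfold bP at h ⊢
  intro h'
  have c1 := IsTree.dist_cases hG hz e.1
  have c2 := IsTree.dist_cases hG hz' e.1
  exact hzz (IsTree.parent_unique hG hz hz' (w := e.1) (by omega) (by omega))

theorem bP_ne {y z : V} {e : V × ℕ} (h : bP G y z e) : e.1 ≠ y := by
  rintro rfl
  unfold bP at h
  rw [SimpleGraph.dist_self] at h
  omega

theorem bP_self {x y : V} (h : G.Adj x y) (j : ℕ) : bP G x y (y, j) := by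
  unfold bP
  have : G.dist x y = 1 := SimpleGraph.dist_eq_one_iff_adj.2 h
  simp only [SimpleGraph.dist_self]
  omega

theorem h2_mem_nbr {x y z : V} : z ∈ nbr G x y ↔ z ≠ x ∧ G.Adj y z := by
  classical
  unfold nbr
  rw [Finset.mem_erase, SimpleGraph.mem_neighborFinset]

section agr

variable {D : Finset V} {k : ℕ} {t : ℝ} {U s U' s' : V × ℕ → ℝ}

theorem MS_congr {x y : V} (h : Agr D k t (bP G x y) U s U' s') :
    MS G μ D k t U s x y = MS G μ D k t U' s' x y := h.mag_eq y

theorem xl_MS_congr (hG : G.IsTree) (n : ℕ) {x y : V} (hxy : G.Adj x y)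
    (h : Agr D k t (bP G x y) U s U' s') :
    xl G (fun x y => lam θ (MS G μ D k t U s x y)) n x y =
      xl G (fun x y => lam θ (MS G μ D k t U' s' x y)) n x y := by
  induction n generalizing x y with
  | zero => rfl
  | succ n ih =>
    unfold xl nsum
    refine Finset.sum_congr rfl fun z hz => ?_
    by_cases hzx : z = x
    · rw [if_pos hzx, if_pos hzx]
    · rw [if_neg hzx, if_neg hzx]
      rw [SimpleGraph.mem_neighborFinset] at hz
      have h1 : Agr D k t (bP G y z) U s U' s' := h.mono fun e he => bP_trans hG hxy hz hzx he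
      have h2 := ih hz h1
      have h3 := MS_congr (μ := μ) h1
      simp only [h2, h3]

theorem XS_congr (hG : G.IsTree) {x y : V} (hxy : G.Adj x y)
    (h : Agr D k t (bP G x y) U s U' s') :
    XS G θ μ D k t U s x y = XS G θ μ D k t U' s' x y := by
  unfold XS Xs
  exact tsum_congr fun n => xl_MS_congr hG n hxy h

theorem Pown_congr {τ : ℝ} {y : V} (hy : y ∈ D)
    (h : Agr D k t (fun e => e.1 = y) U s U' s') :
    Pown τ k t U s y = Pown τ k t U' s' y := by
  unfold Pown
  refine Finset.prod_congr rfl fun j hj => ?_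
  rw [Finset.mem_range] at hj
  have h1 := h (y, j) hy rfl
  have h2 : ∀ W : V × ℕ → ℝ, (j < k ∨ W (y, j) < -1 + t) ↔ bf k t W (y, j) := by
    intro W
    unfold bf
    simp only
    constructor
    · rintro (h3 | h3)
      · exact Or.inl h3
      · rcases Nat.lt_succ_iff_lt_or_eq.1 hj with h4 | h4
        · exact Or.inl h4
        · exact Or.inr ⟨h4, h3⟩
    · rintro (h3 | h3)
      · exact Or.inl h3
      · exact Or.inr h3.2
  by_cases h3 : bf k t U (y, j)
  · have h4 := h1.2 h3
    rw [if_pos ((h2 U).2 h3), if_pos ((h2 U').2 (h1.1.1 h3)), h4.1, h4.2]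
  · rw [if_neg (fun h4 => h3 ((h2 U).1 h4)), if_neg (fun h4 => h3 (h1.1.2 ((h2 U').1 h4)))]

theorem ownS_congr {y : V} (hy : y ∈ D) (h : Agr D k t (fun e => e.1 = y) U s U' s') :
    ownS k t U s y = ownS k t U' s' y := by
  have h' : Agr D k t (fun e => e.1 = y) U (fun e => clamp (s e)) U' (fun e => clamp (s' e)) := by
    intro e h1 h2
    refine ⟨(h e h1 h2).1, fun h3 => ?_⟩
    have h4 := (h e h1 h2).2 h3
    exact ⟨h4.1, by simp only [h4.2]⟩
  unfold ownS own
  rw [Pown_congr hy h', Pown_congr hy h']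

end agr

/-! ### Translation of the finite volume quantities -/

section trans

variable {D : Finset V} {k : ℕ} {t : ℝ}

theorem h2_clamp_sF [IsProbabilityMeasure μ] (D : Finset V) (om : V × ℕ → ℝ) (e : V × ℕ) :
    clamp (sF μ D om e) = sF μ D om e := clamp_of_abs_le (abs_sF_le D om e)

theorem MF_eq_MS [IsProbabilityMeasure μ] (om : V × ℕ → ℝ) (x y : V) :
    MF G μ D k t om x y = MS G μ D k t (uL om) (sF μ D om) x y := by
  classical
  unfold MF MS
  have h1 : (bef om D k t).filter (fun e => G.dist y e.1 < G.dist x e.1) =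
      evP D k t (bP G x y) (uL om) := by
    ext e
    rw [Finset.mem_filter, bef_eq, mem_evT, mem_evP, and_assoc]
    rfl
  have h2 : mag μ Prod.fst (evP D k t (bP G x y) (uL om)) (cF μ D om) y =
      mag μ Prod.fst (evP D k t (bP G x y) (uL om)) (cS (uL om) (sF μ D om)) y := by
    refine mag_congr (fun e _ => ?_) y
    unfold cF cS
    rw [h2_clamp_sF]
  rw [← h2, ← h1]

theorem XF_eq_XS [IsProbabilityMeasure μ] (om : V × ℕ → ℝ) (x y : V) :
    XF G θ μ D k t om x y = XS G θ μ D k t (uL om) (sF μ D om) x y := by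
  unfold XF XS
  congr 1
  funext x y
  rw [MF_eq_MS]

theorem own_eq_ownS [IsProbabilityMeasure μ] (om : V × ℕ → ℝ) (y : V) :
    own k t (uL om) (sF μ D om) y = ownS k t (uL om) (sF μ D om) y := by
  unfold ownS
  congr 1
  funext e
  rw [h2_clamp_sF]

theorem h2_bey_eq (U : V × ℕ → ℝ) (x y : V) :
    bey G Prod.fst (evT D U k (-1 + t)) x y = evP D k t (bP G x y) U := by
  classical
  ext e
  unfold bey
  rw [Finset.mem_filter, mem_evT, mem_evP, and_assoc]
  rfl

theorem h2_msg_eq (U c : V × ℕ → ℝ) (x y : V) :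
    msg G μ Prod.fst (evT D U k (-1 + t)) c x y =
      mag μ Prod.fst (evP D k t (bP G x y) U) c y := by
  rw [← h2_bey_eq (D := D) (k := k) (t := t) U x y]
  rfl

theorem h2_Pat_eq (U s : V × ℕ → ℝ) {y : V} (hy : y ∈ D) (τ : ℝ) :
    Pat Prod.fst (evT D U k (-1 + t)) (fun e => gs (U e) * s e) y τ = Pown τ k t U s y := by
  classical
  unfold Pat Pown
  have h1 : att (Prod.fst : V × ℕ → V) (evT D U k (-1 + t)) y =
      ((Finset.range (k + 1)).filter (fun j => j < k ∨ U (y, j) < -1 + t)).image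
        (fun j => ((y, j) : V × ℕ)) := by
    ext e
    unfold att
    rw [Finset.mem_filter, mem_evT, Finset.mem_image]
    constructor
    · rintro ⟨⟨_, h2⟩, h3⟩
      refine ⟨e.2, ?_, by rw [← h3]⟩
      rw [Finset.mem_filter, Finset.mem_range]
      have h4 : (y, e.2) = e := by rw [← h3]
      rw [h4]
      exact ⟨by omega, by tauto⟩
    · rintro ⟨j, hj, rfl⟩
      rw [Finset.mem_filter, Finset.mem_range] at hj
      refine ⟨⟨hy, ?_⟩, rfl⟩
      simp only
      rcases hj.2 with h4 | h4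
      · exact Or.inl h4
      · rcases Nat.lt_succ_iff_lt_or_eq.1 hj.1 with h5 | h5
        · exact Or.inl h5
        · exact Or.inr ⟨h5, h4⟩
  rw [h1, Finset.prod_image, Finset.prod_filter]
  intro a _ b _ hab
  exact (Prod.ext_iff.mp hab).2

end trans

/-! ### Bounds and measurability -/

section meas

variable {D : Finset V} {k : ℕ} {t : ℝ}

omit [G.LocallyFinite] in
theorem abs_MS_le [IsProbabilityMeasure μ] (U s : V × ℕ → ℝ) (x y : V) :
    |MS G μ D k t U s x y| ≤ 1 := abs_mag_le (fun i _ => abs_cS_lt U s i) y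

omit [G.LocallyFinite] in
theorem measurable_MS [Countable V] [IsProbabilityMeasure μ] (x y : V) :
    Measurable fun p : (V × ℕ → ℝ) × (V × ℕ → ℝ) => MS G μ D k t p.1 p.2 x y :=
  measurable_mag_evP D k t (bP G x y) y

theorem h2_measurable_lam (θ : ℝ) : Measurable (lam θ) := by
  unfold lam
  fun_prop

theorem h2_lam_neg (θ M : ℝ) : lam θ (-M) = lam θ M := by
  unfold lam
  rw [neg_sq]

theorem measurable_xl_MS [Countable V] [IsProbabilityMeasure μ] (n : ℕ) (x y : V) :
    Measurable fun p : (V × ℕ → ℝ) × (V × ℕ → ℝ) =>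
      xl G (fun x y => lam θ (MS G μ D k t p.1 p.2 x y)) n x y := by
  induction n generalizing x y with
  | zero => exact measurable_const
  | succ n ih =>
    unfold xl nsum
    refine Finset.measurable_fun_sum _ fun z _ => ?_
    by_cases hzx : z = x
    · simp only [if_pos hzx]; exact measurable_const
    · simp only [if_neg hzx]
      exact (((h2_measurable_lam θ).comp (measurable_MS y z)).pow_const 2).mul (ih y z)

theorem measurable_XS [Countable V] [IsProbabilityMeasure μ] {b : ℕ}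
    (hd : G.IsRegularOfDegree (b + 1)) (h0 : 0 ≤ θ) (h1 : θ < 1) (hθ : b * θ ^ 2 < 1) {x y : V}
    (h : G.Adj x y) :
    Measurable fun p : (V × ℕ → ℝ) × (V × ℕ → ℝ) => XS G θ μ D k t p.1 p.2 x y := by
  refine measurable_of_tendsto_metrizable
    (f := fun (N : ℕ) (p : (V × ℕ → ℝ) × (V × ℕ → ℝ)) =>
      ∑ n ∈ Finset.range N, xl G (fun x y => lam θ (MS G μ D k t p.1 p.2 x y)) n x y)
    (fun N => Finset.measurable_fun_sum _ fun n _ => measurable_xl_MS n x y) ?_
  rw [tendsto_pi_nhds]
  intro p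
  have hs := summable_xl (L := fun x y => lam θ (MS G μ D k t p.1 p.2 x y)) hd
    (fun x y => lam_nonneg h0 h1 (abs_MS_le _ _ x y))
    (fun x y => lam_le h0 h1 (abs_MS_le _ _ x y)) hθ h
  exact hs.hasSum.tendsto_sum_nat

theorem measurable_Pown {Ω : Type*} [MeasurableSpace Ω] {U s : Ω → V × ℕ → ℝ}
    (hU : ∀ e, Measurable fun ω => U ω e) (hs : ∀ e, Measurable fun ω => s ω e) (τ : ℝ) (y : V) :
    Measurable fun ω => Pown τ k t (U ω) (s ω) y := by
  unfold Pown
  refine Finset.measurable_fun_prod _ fun j _ => ?_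
  refine Measurable.ite ?_ ?_ measurable_const
  · exact (MeasurableSet.const _).union (measurableSet_lt (hU _) measurable_const)
  · exact measurable_const.add (measurable_const.mul ((measurable_gs.comp (hU _)).mul (hs _)))

theorem h2_measurable_own {Ω : Type*} [MeasurableSpace Ω] {U s : Ω → V × ℕ → ℝ}
    (hU : ∀ e, Measurable fun ω => U ω e) (hs : ∀ e, Measurable fun ω => s ω e) (y : V) :
    Measurable fun ω => own k t (U ω) (s ω) y := by
  unfold own
  exact ((measurable_Pown hU hs 1 y).sub (measurable_Pown hU hs (-1) y)).div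
    ((measurable_Pown hU hs 1 y).add (measurable_Pown hU hs (-1) y))

theorem measurable_ownS (y : V) :
    Measurable fun p : (V × ℕ → ℝ) × (V × ℕ → ℝ) => ownS k t p.1 p.2 y := by
  unfold ownS
  exact h2_measurable_own (fun e => (measurable_pi_apply e).comp measurable_fst)
    (fun e => measurable_clamp.comp ((measurable_pi_apply e).comp measurable_snd)) y

theorem Pown_pos {τ : ℝ} (hτ : |τ| ≤ 1) (U s : V × ℕ → ℝ) (hs : ∀ e, |s e| ≤ 1) (y : V) :
    0 < Pown τ k t U s y := by
  unfold Pown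
  refine Finset.prod_pos fun j _ => ?_
  split_ifs
  · have h1 : |τ * (gs (U (y, j)) * s (y, j))| < 1 := by
      rw [abs_mul, abs_mul, abs_of_nonneg (gs_nonneg _)]
      have h2 : gs (U (y, j)) * |s (y, j)| ≤ gs (U (y, j)) * 1 :=
        mul_le_mul_of_nonneg_left (hs _) (gs_nonneg _)
      have h3 := gs_lt (U (y, j))
      have h4 : |τ| * (gs (U (y, j)) * |s (y, j)|) ≤ 1 * (gs (U (y, j)) * 1) :=
        mul_le_mul hτ h2 (mul_nonneg (gs_nonneg _) (abs_nonneg _)) zero_le_one
      linarith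
    have h5 := neg_abs_le (τ * (gs (U (y, j)) * s (y, j)))
    linarith
  · norm_num

theorem Pown_le {τ : ℝ} (hτ : |τ| ≤ 1) (U s : V × ℕ → ℝ) (hs : ∀ e, |s e| ≤ 1) (y : V) :
    Pown τ k t U s y ≤ 2 ^ (k + 1) := by
  unfold Pown
  calc _ ≤ ∏ _j ∈ Finset.range (k + 1), (2 : ℝ) := by
        refine Finset.prod_le_prod (fun j _ => ?_) (fun j _ => ?_)
        · split_ifs
          · have h1 : |τ * (gs (U (y, j)) * s (y, j))| < 1 := by
              rw [abs_mul, abs_mul, abs_of_nonneg (gs_nonneg _)]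
              have h2 : gs (U (y, j)) * |s (y, j)| ≤ gs (U (y, j)) * 1 :=
                mul_le_mul_of_nonneg_left (hs _) (gs_nonneg _)
              have h3 := gs_lt (U (y, j))
              have h4 : |τ| * (gs (U (y, j)) * |s (y, j)|) ≤ 1 * (gs (U (y, j)) * 1) :=
                mul_le_mul hτ h2 (mul_nonneg (gs_nonneg _) (abs_nonneg _)) zero_le_one
              linarith
            have h5 := neg_abs_le (τ * (gs (U (y, j)) * s (y, j)))
            linarith
          · norm_num
        · split_ifs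
          · have h1 : |τ * (gs (U (y, j)) * s (y, j))| < 1 := by
              rw [abs_mul, abs_mul, abs_of_nonneg (gs_nonneg _)]
              have h2 : gs (U (y, j)) * |s (y, j)| ≤ gs (U (y, j)) * 1 :=
                mul_le_mul_of_nonneg_left (hs _) (gs_nonneg _)
              have h3 := gs_lt (U (y, j))
              have h4 : |τ| * (gs (U (y, j)) * |s (y, j)|) ≤ 1 * (gs (U (y, j)) * 1) :=
                mul_le_mul hτ h2 (mul_nonneg (gs_nonneg _) (abs_nonneg _)) zero_le_one
              linarith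
            have h5 := le_abs_self (τ * (gs (U (y, j)) * s (y, j)))
            linarith
          · norm_num
    _ = 2 ^ (k + 1) := by rw [Finset.prod_const, Finset.card_range]

end meas

/-- Functions of the labels at the sites of `P`. -/
theorem h2_dependsOn_of_agr {D : Finset V} {k : ℕ} {t : ℝ} {P : V × ℕ → Prop} [DecidablePred P]
    (hP : ∀ v i j, P (v, i) ↔ P (v, j)) {F : (V × ℕ → ℝ) → (V × ℕ → ℝ) → ℝ}
    (hF : ∀ U s U' s', Agr D k t P U s U' s' → F U s = F U' s') :
    DependsOn (fun om => F (uL om) (xL om))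
      (((D ×ˢ Finset.range (2 * (k + 1))).filter P : Finset (V × ℕ)) : Set (V × ℕ)) := by
  intro om om' h
  refine hF _ _ _ _ (Agr.of_eq fun e h1 h2 h3 => ?_)
  constructor
  · refine h (e.1, 2 * e.2) ?_
    rw [Finset.mem_coe, Finset.mem_filter, Finset.mem_product, Finset.mem_range]
    exact ⟨⟨h1, by simp only; omega⟩, (hP e.1 _ _).1 h3⟩
  · refine h (e.1, 2 * e.2 + 1) ?_
    rw [Finset.mem_coe, Finset.mem_filter, Finset.mem_product, Finset.mem_range]
    exact ⟨⟨h1, by simp only; omega⟩, (hP e.1 _ _).1 h3⟩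

end Vale.Agent.P161.EP
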