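import Mathlib
import Vale.Agent.P161.EP.Blocks
import Vale.Agent.P161.EP.SampF
import Vale.Agent.P161.EP.BlockLoc
import Vale.Agent.P161E.Resample

/-!
# Module H2 (BlockLaw): the finite volume law of own field and messages

For fixed order labels `U` (`integral_joinUX`, injective a.s.), by `law_densityG` (the function only
depends on the sites beyond `y`, so by `law_sampG` the density may be taken for those sites only)
`E_x Φ(s) = ∫ Φ(s) evid(bey S x y)(gs(U) clamp s) dPu(s)`; `evid_bey`; the factors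
`Pat`, `evid(bey S y z) f_z (1 ± θ M_z)` depend on disjoint sets of coordinates (of `U` and `s`), so
the integral over `(U, s)` is the product of the integrals.  Same formula with all `f` but one equal
to `1` identifies the factors: `∫ f_z(M_z, X_z) (1 + θ τ M_z) evid(bey S y z) = E[f_z (1 + θ τ M_z)]`,
`∫ f₀(h) Pat(±1) = E[f₀(h) (1 ± h)]` (`Pat 1 + Pat (-1) = 2 evid(att)`).
-/

open MeasureTheory

namespace Vale.Agent.P161.EP

universe u

variable {V : Type u} {G : SimpleGraph V} [G.LocallyFinite] {θ : ℝ} {μ : Measure (V → Bool)}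

/-! ### The own field -/

theorem own_zero_eq (t : ℝ) (U s : V × ℕ → ℝ) (y : V) :
    own 0 t U s y = if U (y, 0) < -1 + t then gs (U (y, 0)) * s (y, 0) else 0 := by
  unfold own Pown
  simp only [zero_add, Finset.range_one, Finset.prod_singleton, lt_self_iff_false, false_or]
  split_ifs
  · ring
  · norm_num

theorem abs_own_lt (k : ℕ) (t : ℝ) (U s : V × ℕ → ℝ) (hs : ∀ e, |s e| ≤ 1) (y : V) :
    |own k t U s y| < 1 := by
  have h1 : 0 < Pown 1 k t U s y := Pown_pos (by simp) U s hs y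
  have h2 : 0 < Pown (-1) k t U s y := Pown_pos (by simp) U s hs y
  unfold own
  rw [abs_div, abs_of_pos (add_pos h1 h2), div_lt_one (add_pos h1 h2), abs_lt]
  constructor <;> linarith

theorem abs_own_le (t : ℝ) (ht : 0 ≤ t) (ht1 : t ≤ 1) (U s : V × ℕ → ℝ) (hs : ∀ e, |s e| ≤ 1)
    (y : V) : |own 0 t U s y| ≤ t / 2 := by
  rw [own_zero_eq]
  split_ifs with h
  · rw [abs_mul, abs_of_nonneg (gs_nonneg _)]
    have h1 : gs (U (y, 0)) ≤ t / 2 := by
      unfold gs
      rw [if_pos (by linarith)]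
      exact max_le (by linarith) (by linarith)
    calc gs (U (y, 0)) * |s (y, 0)| ≤ gs (U (y, 0)) * 1 :=
          mul_le_mul_of_nonneg_left (hs _) (gs_nonneg _)
      _ ≤ t / 2 := by rw [mul_one]; exact h1
  · rw [abs_zero]; linarith

/-- `(1 + τ own) (P₁ + P₋₁) / 2 = P_τ`. -/
theorem one_add_own (k : ℕ) (t : ℝ) (U s : V × ℕ → ℝ) (hs : ∀ e, |s e| ≤ 1) (y : V) :
    (1 + own k t U s y) * ((Pown 1 k t U s y + Pown (-1) k t U s y) / 2) = Pown 1 k t U s y ∧
    (1 - own k t U s y) * ((Pown 1 k t U s y + Pown (-1) k t U s y) / 2) =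
      Pown (-1) k t U s y := by
  have h1 : 0 < Pown 1 k t U s y := Pown_pos (by simp) U s hs y
  have h2 : 0 < Pown (-1) k t U s y := Pown_pos (by simp) U s hs y
  have h3 := (add_pos h1 h2).ne'
  unfold own
  constructor
  · field_simp; ring
  · field_simp; ring

/-- The evidence of the own observations. -/
theorem evid_own (hμ : IsTreeIsing G θ μ) (D : Finset V) (k : ℕ) (t : ℝ) (U s : V × ℕ → ℝ)
    {y : V} (hy : y ∈ D) :
    evid μ Prod.fst (evP D k t (fun e => e.1 = y) U) (cS U s) =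
      (Pown 1 k t U (fun e => clamp (s e)) y + Pown (-1) k t U (fun e => clamp (s e)) y) / 2 := by
  classical
  have := hμ.isProb
  have h1 : evP D k t (fun e => e.1 = y) U = att Prod.fst (evT D U k (-1 + t)) y := by
    ext e
    unfold att
    rw [mem_evP, Finset.mem_filter, mem_evT, and_assoc]
  have h2 : ∀ τ : ℝ, Pat Prod.fst (evT D U k (-1 + t)) (cS U s) y τ =
      Pown τ k t U (fun e => clamp (s e)) y := fun τ => h2_Pat_eq U (fun e => clamp (s e)) hy τ
  have h3 : ∀ σ : V → Bool, wt Prod.fst (att Prod.fst (evT D U k (-1 + t)) y) (cS U s) σ =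
      (Pown 1 k t U (fun e => clamp (s e)) y + Pown (-1) k t U (fun e => clamp (s e)) y) / 2 +
      (Pown 1 k t U (fun e => clamp (s e)) y - Pown (-1) k t U (fun e => clamp (s e)) y) / 2 *
        spin (σ y) := by
    intro σ
    have h4 : wt Prod.fst (att Prod.fst (evT D U k (-1 + t)) y) (cS U s) σ =
        Pat Prod.fst (evT D U k (-1 + t)) (cS U s) y (spin (σ y)) := by
      unfold wt Pat
      refine Finset.prod_congr rfl fun i hi => ?_
      unfold att at hi
      rw [Finset.mem_filter] at hi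
      rw [hi.2]
      ring
    rw [h4, ← h2 1, ← h2 (-1)]
    rcases spin_eq_or (σ y) with h5 | h5
    · rw [h5]; ring
    · rw [h5]; ring
  rw [h1]
  unfold evid
  simp only [h3]
  rw [integral_add (integrable_const _), integral_const_mul, hμ.mean_zero]
  · simp
  · exact (integ_of_dep (dep_spin y)).const_mul _

/-! ### The recursion for the messages -/

theorem h2_MF_eq_msg (D : Finset V) (k : ℕ) (t : ℝ) (om : V × ℕ → ℝ) (x y : V) :
    MF G μ D k t om x y = msg G μ Prod.fst (evT D (uL om) k (-1 + t)) (cF μ D om) x y := by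
  classical
  unfold MF msg
  rw [bef_eq]

theorem MF_rec (hG : G.IsTree) (hμ : IsTreeIsing G θ μ) (h0 : 0 ≤ θ) (h1 : θ < 1)
    (D : Finset V) (k : ℕ) (t : ℝ) (om : V × ℕ → ℝ) {x y : V} (h : G.Adj x y) (hy : y ∈ D) :
    MF G μ D k t om x y =
      ((1 + own k t (uL om) (sF μ D om) y) * ∏ z ∈ nbr G x y, (1 + θ * MF G μ D k t om y z) -
        (1 - own k t (uL om) (sF μ D om) y) * ∏ z ∈ nbr G x y, (1 - θ * MF G μ D k t om y z)) /
      ((1 + own k t (uL om) (sF μ D om) y) * ∏ z ∈ nbr G x y, (1 + θ * MF G μ D k t om y z) +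
        (1 - own k t (uL om) (sF μ D om) y) * ∏ z ∈ nbr G x y, (1 - θ * MF G μ D k t om y z)) := by
  have := hμ.isProb
  have hs : ∀ e, |sF μ D om e| ≤ 1 := abs_sF_le D om
  obtain ⟨h2, h3⟩ := one_add_own k t (uL om) (sF μ D om) hs y
  have h4 : ∀ τ, Pat Prod.fst (evT D (uL om) k (-1 + t)) (cF μ D om) y τ =
      Pown τ k t (uL om) (sF μ D om) y := fun τ => h2_Pat_eq (uL om) (sF μ D om) hy τ
  have h5 := msg_rec hG hμ h0 h1 Prod.fst (evT D (uL om) k (-1 + t)) (cF μ D om)
    (fun i _ => abs_cF_lt_one D om i) h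
  simp only [← h2_MF_eq_msg] at h5
  rw [h4 1, h4 (-1)] at h5
  have hp1 : 0 < Pown 1 k t (uL om) (sF μ D om) y := Pown_pos (by simp) _ _ hs y
  have hp2 : 0 < Pown (-1) k t (uL om) (sF μ D om) y := Pown_pos (by simp) _ _ hs y
  rw [h5]
  set P1 := Pown 1 k t (uL om) (sF μ D om) y
  set P2 := Pown (-1) k t (uL om) (sF μ D om) y
  set o := own k t (uL om) (sF μ D om) y
  set A := ∏ z ∈ nbr G x y, (1 + θ * MF G μ D k t om y z)
  set B := ∏ z ∈ nbr G x y, (1 - θ * MF G μ D k t om y z)
  have hq : (P1 + P2) / 2 ≠ 0 := by positivity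
  rw [← mul_div_mul_right ((1 + o) * A - (1 - o) * B) _ hq]
  have e1 : ((1 + o) * A - (1 - o) * B) * ((P1 + P2) / 2) = P1 * A - P2 * B := by
    calc _ = ((1 + o) * ((P1 + P2) / 2)) * A - ((1 - o) * ((P1 + P2) / 2)) * B := by ring
      _ = _ := by rw [h2, h3]
  have e2 : ((1 + o) * A + (1 - o) * B) * ((P1 + P2) / 2) = P1 * A + P2 * B := by
    calc _ = ((1 + o) * ((P1 + P2) / 2)) * A + ((1 - o) * ((P1 + P2) / 2)) * B := by ring
      _ = _ := by rw [h2, h3]
  rw [e1, e2]

/-! ### The law -/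

section Law

variable {D : Finset V} {k : ℕ} {t : ℝ}

/-- The integrand of one branch. -/
noncomputable def FB (G : SimpleGraph V) [G.LocallyFinite] (θ : ℝ) (μ : Measure (V → Bool))
    (D : Finset V) (k : ℕ) (t τ : ℝ) (f : ℝ × ℝ → ℝ) (y z : V) (U s : V × ℕ → ℝ) : ℝ :=
  f (MS G μ D k t U s y z, XS G θ μ D k t U s y z) * (1 + τ * (θ * MS G μ D k t U s y z)) *
    evid μ Prod.fst (evP D k t (bP G y z) U) (cS U s)

/-- The integrand of the own field. -/
noncomputable def FO (k : ℕ) (t τ : ℝ) (f0 : ℝ → ℝ) (y : V) (U s : V × ℕ → ℝ) : ℝ :=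
  f0 (ownS k t U s y) * Pown τ k t U (fun e => clamp (s e)) y

theorem h2_measurable_uLxL : Measurable fun om : V × ℕ → ℝ => (uL om, xL om) :=
  (measurable_pi_lambda _ fun e => measurable_uL e).prodMk
    (measurable_pi_lambda _ fun e => measurable_xL e)

theorem FO_eq (hμ : IsTreeIsing G θ μ) [Countable V] {y : V} (hy : y ∈ D)
    {f0 : ℝ → ℝ} (hf0 : Measurable f0) (hb0 : ∃ C, ∀ s, |f0 s| ≤ C) :
    (∫ om, f0 (own k t (uL om) (sF μ D om) y) * (1 + own k t (uL om) (sF μ D om) y)
        ∂(Pu (V × ℕ)) = ∫ om, FO k t 1 f0 y (uL om) (xL om) ∂(Pu (V × ℕ))) ∧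
    (∫ om, f0 (own k t (uL om) (sF μ D om) y) * (1 - own k t (uL om) (sF μ D om) y)
        ∂(Pu (V × ℕ)) = ∫ om, FO k t (-1) f0 y (uL om) (xL om) ∂(Pu (V × ℕ))) := by
  have := hμ.isProb
  obtain ⟨C, hC⟩ := hb0
  have hC0 : 0 ≤ C := (abs_nonneg _).trans (hC 0)
  have hcl : ∀ s : V × ℕ → ℝ, ∀ e, |clamp (s e)| ≤ 1 := fun s e => abs_clamp_le _
  have hown : ∀ U s : V × ℕ → ℝ, |ownS k t U s y| < 1 := fun U s =>
    abs_own_lt k t U _ (hcl s) y
  have key : ∀ ε : ℝ, |ε| ≤ 1 →
      ∫ om, f0 (own k t (uL om) (sF μ D om) y) * (1 + ε * own k t (uL om) (sF μ D om) y)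
        ∂(Pu (V × ℕ)) =
      ∫ om, f0 (ownS k t (uL om) (xL om) y) * ((1 + ε * ownS k t (uL om) (xL om) y) *
        ((Pown 1 k t (uL om) (fun e => clamp (xL om e)) y +
          Pown (-1) k t (uL om) (fun e => clamp (xL om e)) y) / 2)) ∂(Pu (V × ℕ)) := by
    intro ε hε
    have h1 := law_evP (μ := μ) D k t (fun e => e.1 = y)
      (F := fun U s => f0 (ownS k t U s y) * (1 + ε * ownS k t U s y))
      ((hf0.comp (measurable_ownS y)).mul
        (measurable_const.add (measurable_const.mul (measurable_ownS y))))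
      ⟨C * 2, fun U s => by
        rw [abs_mul]
        refine mul_le_mul (hC _) ?_ (abs_nonneg _) hC0
        calc |1 + ε * ownS k t U s y| ≤ |1| + |ε * ownS k t U s y| := abs_add_le _ _
          _ ≤ 1 + 1 * 1 := by
              rw [abs_one, abs_mul]
              have := mul_le_mul hε (hown U s).le (abs_nonneg _) zero_le_one
              linarith
          _ = 2 := by norm_num⟩
      (fun U s s' h => by
        have h2 := ownS_congr (k := k) (t := t) hy (Agr.of_evP h)
        simp only [h2])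
    simp only [own_eq_ownS]
    rw [h1]
    refine integral_congr_ae (Filter.Eventually.of_forall fun om => ?_)
    simp only
    rw [evid_own hμ D k t _ _ hy]
    ring
  constructor
  · have h1 := key 1 (by simp)
    simp only [one_mul] at h1
    rw [h1]
    refine integral_congr_ae (Filter.Eventually.of_forall fun om => ?_)
    unfold FO
    have h2 := (one_add_own k t (uL om) (fun e => clamp (xL om e)) (hcl _) y).1
    simp only
    rw [ownS, h2]
  · have h1 := key (-1) (by simp)
    have e1 : ∀ x : ℝ, 1 + -1 * x = 1 - x := fun x => by ring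
    simp only [e1] at h1
    rw [h1]
    refine integral_congr_ae (Filter.Eventually.of_forall fun om => ?_)
    unfold FO
    have h2 := (one_add_own k t (uL om) (fun e => clamp (xL om e)) (hcl _) y).2
    simp only
    rw [ownS, h2]

theorem FB_eq (hG : G.IsTree) {b : ℕ} (hd : G.IsRegularOfDegree (b + 1))
    (hμ : IsTreeIsing G θ μ) (h0 : 0 ≤ θ) (h1 : θ < 1) (hθ : b * θ ^ 2 < 1) {y z : V}
    (h : G.Adj y z) {f : ℝ × ℝ → ℝ} (hf : Measurable f) {C : ℝ} (hC : ∀ p, |f p| ≤ C) (τ : ℝ) :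
    ∫ om, f (MF G μ D k t om y z, XF G θ μ D k t om y z) *
        (1 + τ * (θ * MF G μ D k t om y z)) ∂(Pu (V × ℕ)) =
      ∫ om, FB G θ μ D k t τ f y z (uL om) (xL om) ∂(Pu (V × ℕ)) := by
  have := hμ.isProb
  have : Countable V := countable_of_locallyFinite hG.connected
  have hC0 : 0 ≤ C := (abs_nonneg _).trans (hC (0, 0))
  have h2 := law_evP (μ := μ) D k t (bP G y z)
    (F := fun U s => f (MS G μ D k t U s y z, XS G θ μ D k t U s y z) *
      (1 + τ * (θ * MS G μ D k t U s y z)))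
    ((hf.comp ((measurable_MS y z).prodMk (measurable_XS hd h0 h1 hθ h))).mul
      (measurable_const.add (measurable_const.mul (measurable_const.mul (measurable_MS y z)))))
    ⟨C * (1 + |τ| * |θ|), fun U s => by
      rw [abs_mul]
      refine mul_le_mul (hC _) ?_ (abs_nonneg _) hC0
      calc |1 + τ * (θ * MS G μ D k t U s y z)| ≤ |1| + |τ * (θ * MS G μ D k t U s y z)| :=
            abs_add_le _ _
        _ ≤ 1 + |τ| * |θ| := by
            rw [abs_one, abs_mul, abs_mul]
            have h3 := mul_le_mul_of_nonneg_left (abs_MS_le (G := G) (μ := μ) (D := D) (k := k)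
              (t := t) U s y z) (mul_nonneg (abs_nonneg τ) (abs_nonneg θ))
            linarith⟩
    (fun U s s' h3 => by
      have h4 := MS_congr (G := G) (μ := μ) (Agr.of_evP h3)
      have h5 := XS_congr (G := G) (θ := θ) (μ := μ) hG h (Agr.of_evP h3)
      simp only [h4, h5])
  simp only [MF_eq_MS, XF_eq_XS]
  rw [h2]
  rfl

theorem measurable_FB (hG : G.IsTree) {b : ℕ} (hd : G.IsRegularOfDegree (b + 1))
    (hμ : IsTreeIsing G θ μ) (h0 : 0 ≤ θ) (h1 : θ < 1) (hθ : b * θ ^ 2 < 1) {y z : V}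
    (h : G.Adj y z) {f : ℝ × ℝ → ℝ} (hf : Measurable f) (τ : ℝ) :
    Measurable fun om : V × ℕ → ℝ => FB G θ μ D k t τ f y z (uL om) (xL om) := by
  have := hμ.isProb
  have : Countable V := countable_of_locallyFinite hG.connected
  have h2 : Measurable fun p : (V × ℕ → ℝ) × (V × ℕ → ℝ) =>
      FB G θ μ D k t τ f y z p.1 p.2 := by
    unfold FB
    exact ((hf.comp ((measurable_MS y z).prodMk (measurable_XS hd h0 h1 hθ h))).mul
      (measurable_const.add (measurable_const.mul
        (measurable_const.mul (measurable_MS y z))))).mul (measurable_evid_evP D k t (bP G y z))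
  have h3 := h2.comp (h2_measurable_uLxL (V := V))
  exact h3

theorem measurable_FO {f0 : ℝ → ℝ} (hf0 : Measurable f0) (τ : ℝ) (y : V) :
    Measurable fun om : V × ℕ → ℝ => FO k t τ f0 y (uL om) (xL om) := by
  have h2 : Measurable fun p : (V × ℕ → ℝ) × (V × ℕ → ℝ) => FO k t τ f0 y p.1 p.2 := by
    unfold FO
    exact (hf0.comp (measurable_ownS y)).mul
      (measurable_Pown (fun e => (measurable_pi_apply e).comp measurable_fst)
        (fun e => measurable_clamp.comp ((measurable_pi_apply e).comp measurable_snd)) τ y)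
  have h3 := h2.comp (h2_measurable_uLxL (V := V))
  exact h3

theorem FO_bound {f0 : ℝ → ℝ} {C : ℝ} (hC : ∀ s, |f0 s| ≤ C) {τ : ℝ} (hτ : |τ| ≤ 1) (y : V)
    (U s : V × ℕ → ℝ) : |FO k t τ f0 y U s| ≤ C * 2 ^ (k + 1) := by
  have hC0 : 0 ≤ C := (abs_nonneg _).trans (hC 0)
  unfold FO
  rw [abs_mul, abs_of_pos (Pown_pos hτ U _ (fun e => abs_clamp_le _) y)]
  exact mul_le_mul (hC _) (Pown_le hτ U _ (fun e => abs_clamp_le _) y)
    (Pown_pos hτ U _ (fun e => abs_clamp_le _) y).le hC0

theorem FB_bound (hμ : IsTreeIsing G θ μ) {f : ℝ × ℝ → ℝ} {C : ℝ} (hC : ∀ p, |f p| ≤ C) (τ : ℝ)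
    (y z : V) : ∃ C', ∀ U s, |FB G θ μ D k t τ f y z U s| ≤ C' := by
  have := hμ.isProb
  have hC0 : 0 ≤ C := (abs_nonneg _).trans (hC (0, 0))
  obtain ⟨C', hC'⟩ := evid_evP_bound (μ := μ) D k t (bP G y z)
  refine ⟨C * (1 + |τ| * |θ|) * C', fun U s => ?_⟩
  unfold FB
  rw [abs_mul, abs_mul]
  refine mul_le_mul (mul_le_mul (hC _) ?_ (abs_nonneg _) hC0) (hC' U s) (abs_nonneg _)
    (mul_nonneg hC0 (by positivity))
  calc |1 + τ * (θ * MS G μ D k t U s y z)| ≤ |1| + |τ * (θ * MS G μ D k t U s y z)| :=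
        abs_add_le _ _
    _ ≤ 1 + |τ| * |θ| := by
        rw [abs_one, abs_mul, abs_mul]
        have h3 := mul_le_mul_of_nonneg_left (abs_MS_le (G := G) (μ := μ) (D := D) (k := k)
          (t := t) U s y z) (mul_nonneg (abs_nonneg τ) (abs_nonneg θ))
        linarith

/-- The product formula. -/
theorem integral_FO_prod_FB (hG : G.IsTree) {b : ℕ} (hd : G.IsRegularOfDegree (b + 1))
    (hμ : IsTreeIsing G θ μ) (h0 : 0 ≤ θ) (h1 : θ < 1) (hθ : b * θ ^ 2 < 1) {x y : V}
    (hy : y ∈ D) {f0 : ℝ → ℝ} (hf0 : Measurable f0)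
    {f : V → ℝ × ℝ → ℝ} (hf : ∀ z, Measurable (f z)) (τ : ℝ) :
    ∫ om, FO k t τ f0 y (uL om) (xL om) *
        ∏ z ∈ nbr G x y, FB G θ μ D k t τ (f z) y z (uL om) (xL om) ∂(Pu (V × ℕ)) =
      (∫ om, FO k t τ f0 y (uL om) (xL om) ∂(Pu (V × ℕ))) *
        ∏ z ∈ nbr G x y, ∫ om, FB G θ μ D k t τ (f z) y z (uL om) (xL om) ∂(Pu (V × ℕ)) := by
  classical
  have := hμ.isProb
  let I0 : Finset (V × ℕ) := (D ×ˢ Finset.range (2 * (k + 1))).filter (fun e => e.1 = y)
  let I : V → Finset (V × ℕ) := fun z =>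
    (D ×ˢ Finset.range (2 * (k + 1))).filter (bP G y z)
  have hI0 : DependsOn (fun om => FO k t τ f0 y (uL om) (xL om)) (I0 : Set (V × ℕ)) := by
    refine h2_dependsOn_of_agr (P := fun e => e.1 = y) (t := t) (fun _ _ _ => Iff.rfl)
      fun U s U' s' h => ?_
    unfold FO
    rw [ownS_congr hy h]
    congr 1
    have h' : Agr D k t (fun e => e.1 = y) U (fun e => clamp (s e)) U' (fun e => clamp (s' e)) := by
      intro e h1 h2
      refine ⟨(h e h1 h2).1, fun h3 => ?_⟩
      have h4 := (h e h1 h2).2 h3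
      exact ⟨h4.1, by simp only [h4.2]⟩
    exact Pown_congr hy h'
  have hI : ∀ z ∈ nbr G x y, DependsOn (fun om => FB G θ μ D k t τ (f z) y z (uL om) (xL om))
      (I z : Set (V × ℕ)) := by
    intro z hz
    rw [h2_mem_nbr] at hz
    refine h2_dependsOn_of_agr (P := bP G y z) (t := t) (fun _ _ _ => Iff.rfl)
      fun U s U' s' h => ?_
    unfold FB
    rw [MS_congr h, XS_congr hG hz.2 h, h.evid_eq]
  have h2 := h2_integral_mul_disjointPu I0 ((nbr G x y).biUnion I) (by
      rw [Finset.disjoint_biUnion_right]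
      intro z hz
      rw [Finset.disjoint_left]
      intro e he he'
      simp only [I0, I, Finset.mem_filter] at he he'
      exact bP_ne he'.2 he.2)
    (measurable_FO (k := k) (t := t) hf0 τ y)
    (Finset.measurable_fun_prod _ fun z hz =>
      measurable_FB (D := D) (k := k) (t := t) hG hd hμ h0 h1 hθ (h2_mem_nbr.1 hz).2 (hf z) τ)
    hI0 (h2_dependsOn_prod' (nbr G x y) I hI)
  rw [h2]
  congr 1
  refine h2_integral_prod_disjointPu (nbr G x y) I ?_ ?_ hI
  · intro z hz z' hz' hne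
    rw [Finset.disjoint_left]
    intro e he he'
    simp only [I, Finset.mem_filter] at he he'
    exact bP_disj hG (h2_mem_nbr.1 hz).2 (h2_mem_nbr.1 hz').2 hne he.2 he'.2
  · intro z hz
    exact measurable_FB (D := D) (k := k) (t := t) hG hd hμ h0 h1 hθ (h2_mem_nbr.1 hz).2 (hf z) τ

end Law

theorem block_law (hG : G.IsTree) {b : ℕ} (hd : G.IsRegularOfDegree (b + 1))
    (hμ : IsTreeIsing G θ μ) (h0 : 0 ≤ θ) (h1 : θ < 1) (hθ : b * θ ^ 2 < 1)
    (D : Finset V) (k : ℕ) (t : ℝ) {x y : V} (h : G.Adj x y) (hy : y ∈ D)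
    {f0 : ℝ → ℝ} (hf0 : Measurable f0) (hb0 : ∃ C, ∀ s, |f0 s| ≤ C)
    {f : V → ℝ × ℝ → ℝ} (hf : ∀ z, Measurable (f z)) (hb : ∃ C, ∀ z p, |f z p| ≤ C) :
    ∫ om, f0 (own k t (uL om) (sF μ D om) y) *
        ∏ z ∈ nbr G x y, f z (MF G μ D k t om y z, XF G θ μ D k t om y z) ∂(Pu (V × ℕ)) =
      ((∫ om, f0 (own k t (uL om) (sF μ D om) y) * (1 + own k t (uL om) (sF μ D om) y)
          ∂(Pu (V × ℕ))) *
        ∏ z ∈ nbr G x y, ∫ om, f z (MF G μ D k t om y z, XF G θ μ D k t om y z) *
          (1 + θ * MF G μ D k t om y z) ∂(Pu (V × ℕ)) +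
      (∫ om, f0 (own k t (uL om) (sF μ D om) y) * (1 - own k t (uL om) (sF μ D om) y)
          ∂(Pu (V × ℕ))) *
        ∏ z ∈ nbr G x y, ∫ om, f z (MF G μ D k t om y z, XF G θ μ D k t om y z) *
          (1 - θ * MF G μ D k t om y z) ∂(Pu (V × ℕ))) / 2 := by
  classical
  have := hμ.isProb
  have : Countable V := countable_of_locallyFinite hG.connected
  obtain ⟨C0, hC0⟩ := id hb0
  obtain ⟨C, hC⟩ := hb
  have hC00 : 0 ≤ C0 := (abs_nonneg _).trans (hC0 0)
  have hCx : 0 ≤ C := (abs_nonneg _).trans (hC x (0, 0))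
  -- the right hand side
  obtain ⟨e1, e2⟩ := FO_eq (D := D) (k := k) (t := t) hμ hy hf0 hb0
  have e3 : ∀ z ∈ nbr G x y, ∫ om, f z (MF G μ D k t om y z, XF G θ μ D k t om y z) *
      (1 + θ * MF G μ D k t om y z) ∂(Pu (V × ℕ)) =
      ∫ om, FB G θ μ D k t 1 (f z) y z (uL om) (xL om) ∂(Pu (V × ℕ)) := by
    intro z hz
    have h2 := FB_eq (D := D) (k := k) (t := t) hG hd hμ h0 h1 hθ (h2_mem_nbr.1 hz).2 (hf z) (hC z) 1
    simp only [one_mul] at h2
    exact h2
  have e4 : ∀ z ∈ nbr G x y, ∫ om, f z (MF G μ D k t om y z, XF G θ μ D k t om y z) *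
      (1 - θ * MF G μ D k t om y z) ∂(Pu (V × ℕ)) =
      ∫ om, FB G θ μ D k t (-1) (f z) y z (uL om) (xL om) ∂(Pu (V × ℕ)) := by
    intro z hz
    have h2 := FB_eq (D := D) (k := k) (t := t) hG hd hμ h0 h1 hθ (h2_mem_nbr.1 hz).2 (hf z) (hC z)
      (-1)
    have e1 : ∀ x : ℝ, 1 + -1 * x = 1 - x := fun x => by ring
    simp only [e1] at h2
    exact h2
  rw [e1, e2, Finset.prod_congr rfl e3, Finset.prod_congr rfl e4,
    ← integral_FO_prod_FB hG hd hμ h0 h1 hθ hy hf0 hf 1,
    ← integral_FO_prod_FB hG hd hμ h0 h1 hθ hy hf0 hf (-1)]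
  -- the left hand side
  have hL := law_evP (μ := μ) D k t (bP G x y)
    (F := fun U s => f0 (ownS k t U s y) *
      ∏ z ∈ nbr G x y, f z (MS G μ D k t U s y z, XS G θ μ D k t U s y z))
    ((hf0.comp (measurable_ownS y)).mul (Finset.measurable_fun_prod _ fun z hz =>
      (hf z).comp ((measurable_MS y z).prodMk
        (measurable_XS hd h0 h1 hθ (h2_mem_nbr.1 hz).2))))
    ⟨C0 * C ^ (nbr G x y).card, fun U s => by
      rw [abs_mul]
      refine mul_le_mul (hC0 _) ?_ (abs_nonneg _) hC00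
      rw [Finset.abs_prod, ← Finset.prod_const]
      exact Finset.prod_le_prod (fun _ _ => abs_nonneg _) fun z _ => hC z _⟩
    (fun U s s' hs => by
      have h2 : Agr D k t (bP G x y) U s U s' := Agr.of_evP hs
      have h3 : Agr D k t (fun e => e.1 = y) U s U s' := h2.mono fun e he => by
        have : e = (y, e.2) := by rw [← he]
        rw [this]
        exact bP_self h e.2
      have h4 := ownS_congr (k := k) (t := t) hy h3
      simp only [h4]
      congr 1
      refine Finset.prod_congr rfl fun z hz => ?_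
      have h5 : Agr D k t (bP G y z) U s U s' :=
        h2.mono fun e he => bP_trans hG h (h2_mem_nbr.1 hz).2 (h2_mem_nbr.1 hz).1 he
      rw [MS_congr h5, XS_congr hG (h2_mem_nbr.1 hz).2 h5])
  simp only [MF_eq_MS, XF_eq_XS, own_eq_ownS]
  rw [hL]
  -- the evidence
  have hev : ∀ U s : V × ℕ → ℝ, evid μ Prod.fst (evP D k t (bP G x y) U) (cS U s) =
      (∏ z ∈ nbr G x y, evid μ Prod.fst (evP D k t (bP G y z) U) (cS U s)) *
      ((Pown 1 k t U (fun e => clamp (s e)) y *
          ∏ z ∈ nbr G x y, (1 + θ * MS G μ D k t U s y z) +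
        Pown (-1) k t U (fun e => clamp (s e)) y *
          ∏ z ∈ nbr G x y, (1 - θ * MS G μ D k t U s y z)) / 2) := by
    intro U s
    have h2 := evid_bey hG hμ h0 h1 Prod.fst (evT D U k (-1 + t)) (cS U s)
      (fun i _ => abs_cS_lt U s i) h
    have h3 : ∀ τ, Pat Prod.fst (evT D U k (-1 + t)) (cS U s) y τ =
      Pown τ k t U (fun e => clamp (s e)) y := fun τ => h2_Pat_eq U (fun e => clamp (s e)) hy τ
    rw [h3 1, h3 (-1), h2_bey_eq] at h2
    simp only [h2_bey_eq, h2_msg_eq] at h2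
    exact h2
  have hint : ∀ τ : ℝ, |τ| ≤ 1 → Integrable (fun om => FO k t τ f0 y (uL om) (xL om) *
        ∏ z ∈ nbr G x y, FB G θ μ D k t τ (f z) y z (uL om) (xL om)) (Pu (V × ℕ)) := by
    intro τ hτ
    have hB : ∀ z, ∃ C', ∀ U s, |FB G θ μ D k t τ (f z) y z U s| ≤ C' :=
      fun z => FB_bound hμ (hC z) τ y z
    choose B hB using hB
    refine Integrable.of_bound (C := C0 * 2 ^ (k + 1) * ∏ z ∈ nbr G x y, B z) ?_ ?_
    · exact ((measurable_FO hf0 τ y).mul (Finset.measurable_fun_prod _ fun z hz =>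
        measurable_FB hG hd hμ h0 h1 hθ (h2_mem_nbr.1 hz).2 (hf z) τ)).aestronglyMeasurable
    · refine Filter.Eventually.of_forall fun om => ?_
      rw [Real.norm_eq_abs, abs_mul]
      refine mul_le_mul (FO_bound hC0 hτ y _ _) ?_ (abs_nonneg _) (by positivity)
      rw [Finset.abs_prod]
      exact Finset.prod_le_prod (fun _ _ => abs_nonneg _) fun z _ => hB z _ _
  rw [← integral_add (hint 1 (by simp)) (hint (-1) (by simp)), ← integral_div]
  refine integral_congr_ae (Filter.Eventually.of_forall fun om => ?_)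
  simp only
  rw [hev]
  unfold FO FB
  simp only [Finset.prod_mul_distrib, one_mul]
  have e5 : ∀ x : ℝ, 1 + -1 * x = 1 - x := fun x => by ring
  simp only [e5]
  ring

/-! ### Flips -/

theorem h2_clamp_neg (x : ℝ) : clamp (-x) = -clamp x := by
  unfold clamp
  rcases le_total x (-1) with h | h
  · rw [min_eq_left (by linarith : (1 : ℝ) ≤ -x), min_eq_right (by linarith : x ≤ 1),
      max_eq_right (by norm_num), max_eq_left h]
    norm_num
  · rcases le_total 1 x with h' | h'
    · rw [min_eq_right (by linarith : -x ≤ 1), min_eq_left h', max_eq_left (by linarith),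
        max_eq_right (by norm_num)]
    · rw [min_eq_right (by linarith : -x ≤ 1), min_eq_right h', max_eq_right (by linarith),
        max_eq_right (by linarith)]

theorem h2_cS_neg (U s : V × ℕ → ℝ) : cS U (fun e => -s e) = fun e => -cS U s e := by
  funext e
  unfold cS
  rw [h2_clamp_neg]
  ring

theorem h2_Pown_neg (τ : ℝ) (k : ℕ) (t : ℝ) (U s : V × ℕ → ℝ) (y : V) :
    Pown τ k t U (fun e => -s e) y = Pown (-τ) k t U s y := by
  unfold Pown
  refine Finset.prod_congr rfl fun j _ => ?_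
  split_ifs
  · ring
  · rfl

theorem h2_own_neg (k : ℕ) (t : ℝ) (U s : V × ℕ → ℝ) (y : V) :
    own k t U (fun e => -s e) y = -own k t U s y := by
  unfold own
  rw [h2_Pown_neg, h2_Pown_neg, neg_neg, ← neg_div, neg_sub, add_comm]

theorem ownS_neg (k : ℕ) (t : ℝ) (U s : V × ℕ → ℝ) (y : V) :
    ownS k t U (fun e => -s e) y = -ownS k t U s y := by
  unfold ownS
  rw [← h2_own_neg]
  congr 1
  funext e
  rw [h2_clamp_neg]

/-- the global flip -/
def h2_flipσ (σ : V → Bool) : V → Bool := fun v => !σ v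

theorem h2_measurable_flipσ : Measurable (h2_flipσ : (V → Bool) → (V → Bool)) :=
  measurable_pi_lambda _ fun v => (measurable_of_finite (fun b : Bool => !b)).comp
    (measurable_pi_apply v)

theorem h2_spin_not (b : Bool) : spin (!b) = -spin b := by
  cases b <;> simp [spin]

theorem h2_dependsOn_flip {F : (V → Bool) → ℝ} {A : Finset V} (hF : DependsOn F (A : Set V)) :
    DependsOn (fun σ => F (h2_flipσ σ)) (A : Set V) := by
  intro x y h
  refine hF fun i hi => ?_
  unfold h2_flipσ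
  rw [h i hi]

theorem h2_map_flip (hG : G.IsTree) (hμ : IsTreeIsing G θ μ) : μ.map h2_flipσ = μ := by
  classical
  have := hμ.isProb
  have hcv : ∀ (F : (V → Bool) → ℝ) (I : Finset V), DependsOn F (I : Set V) →
      ∫ s, F s ∂(μ.map h2_flipσ) = ∫ s, F (h2_flipσ s) ∂μ := by
    intro F I hF
    rw [integral_map h2_measurable_flipσ.aemeasurable
      (measurable_of_dependsOn F I hF).aestronglyMeasurable]
  have hT : IsTreeIsing G θ (μ.map h2_flipσ) := by
    refine ⟨Measure.isProbabilityMeasure_map h2_measurable_flipσ.aemeasurable, ?_, ?_⟩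
    · intro v
      rw [hcv _ {v} (dependsOn_spin v)]
      have : ∀ s : V → Bool, spin (h2_flipσ s v) = -spin (s v) := fun s => h2_spin_not _
      simp only [this]
      rw [integral_neg, hμ.mean_zero, neg_zero]
    · intro v v' h A B hA hB f g hf hg
      have hfg : DependsOn (fun s => f s * g s) ((A ∪ B : Finset V) : Set V) := by
        rw [Finset.coe_union]; exact DependsOn.mul' hf hg
      have hvf : DependsOn (fun s : V → Bool => spin (s v) * f s)
          (({v} ∪ A : Finset V) : Set V) := by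
        rw [Finset.coe_union]; exact DependsOn.mul' (dependsOn_spin v) hf
      have hvg : DependsOn (fun s : V → Bool => spin (s v') * g s)
          (({v'} ∪ B : Finset V) : Set V) := by
        rw [Finset.coe_union]; exact DependsOn.mul' (dependsOn_spin v') hg
      rw [hcv _ _ hfg, hcv _ _ hf, hcv _ _ hg, hcv _ _ hvf, hcv _ _ hvg]
      rw [hμ.edge_split v v' h A B hA hB _ _ (h2_dependsOn_flip hf) (h2_dependsOn_flip hg)]
      have e1 : ∀ s : V → Bool, spin (h2_flipσ s v) * f (h2_flipσ s) =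
          -(spin (s v) * f (h2_flipσ s)) := fun s => by
        rw [show spin (h2_flipσ s v) = -spin (s v) from h2_spin_not _]; ring
      have e2 : ∀ s : V → Bool, spin (h2_flipσ s v') * g (h2_flipσ s) =
          -(spin (s v') * g (h2_flipσ s)) := fun s => by
        rw [show spin (h2_flipσ s v') = -spin (s v') from h2_spin_not _]; ring
      simp only [e1, e2]
      rw [integral_neg, integral_neg]
      ring
  exact (hT.isFreeIsing hG).unique hG (hμ.isFreeIsing hG)

theorem h2_integral_flip (hG : G.IsTree) (hμ : IsTreeIsing G θ μ) {F : (V → Bool) → ℝ} {A : Finset V}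
    (hF : DependsOn F (A : Set V)) : ∫ σ, F (h2_flipσ σ) ∂μ = ∫ σ, F σ ∂μ := by
  conv_rhs => rw [← h2_map_flip hG hμ]
  rw [integral_map h2_measurable_flipσ.aemeasurable
    (measurable_of_dependsOn F A hF).aestronglyMeasurable]

theorem h2_wt_neg {ι : Type*} (site : ι → V) (S : Finset ι) (c : ι → ℝ) (σ : V → Bool) :
    wt site S (fun i => -c i) σ = wt site S c (h2_flipσ σ) := by
  unfold wt
  refine Finset.prod_congr rfl fun i _ => ?_
  rw [show spin (h2_flipσ σ (site i)) = -spin (σ (site i)) from h2_spin_not _]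
  ring

theorem h2_evid_neg {ι : Type*} (hG : G.IsTree) (hμ : IsTreeIsing G θ μ) (site : ι → V)
    (S : Finset ι) (c : ι → ℝ) :
    evid μ site S (fun i => -c i) = evid μ site S c := by
  classical
  unfold evid
  simp only [h2_wt_neg]
  exact h2_integral_flip hG hμ dependsOn_wt

theorem h2_mag_neg {ι : Type*} (hG : G.IsTree) (hμ : IsTreeIsing G θ μ) (site : ι → V)
    (S : Finset ι) (c : ι → ℝ) (v : V) :
    mag μ site S (fun i => -c i) v = -mag μ site S c v := by
  classical
  unfold mag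
  rw [h2_evid_neg hG hμ, ← neg_div]
  congr 1
  have e1 : ∀ σ : V → Bool, spin (σ v) * wt site S (fun i => -c i) σ =
      -(spin (h2_flipσ σ v) * wt site S c (h2_flipσ σ)) := by
    intro σ
    rw [h2_wt_neg, show spin (h2_flipσ σ v) = -spin (σ v) from h2_spin_not _]
    ring
  simp only [e1]
  rw [integral_neg]
  congr 1
  have hdep : DependsOn (fun σ : V → Bool => spin (σ v) * wt site S c σ)
      (({v} ∪ S.image site : Finset V) : Set V) := by
    rw [Finset.coe_union]
    exact DependsOn.mul' (dependsOn_spin v) dependsOn_wt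
  exact h2_integral_flip hG hμ hdep

theorem MS_neg (hG : G.IsTree) (hμ : IsTreeIsing G θ μ) (D : Finset V) (k : ℕ) (t : ℝ)
    (U s : V × ℕ → ℝ) (x y : V) :
    MS G μ D k t U (fun e => -s e) x y = -MS G μ D k t U s x y := by
  unfold MS
  rw [h2_cS_neg, h2_mag_neg hG hμ]

theorem XS_neg (hG : G.IsTree) (hμ : IsTreeIsing G θ μ) (D : Finset V) (k : ℕ) (t : ℝ)
    (U s : V × ℕ → ℝ) (x y : V) :
    XS G θ μ D k t U (fun e => -s e) x y = XS G θ μ D k t U s x y := by
  unfold XS
  simp only [MS_neg hG hμ, h2_lam_neg]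

/-- Integrals over the two families of labels are invariant under the flip of the second one. -/
theorem integral_flip_labels [Countable V] {F : (V × ℕ → ℝ) → (V × ℕ → ℝ) → ℝ}
    (hF : Measurable fun p : (V × ℕ → ℝ) × (V × ℕ → ℝ) => F p.1 p.2)
    (hb : ∃ C, ∀ U x, |F U x| ≤ C) :
    ∫ om, F (uL om) (fun e => -xL om e) ∂(Pu (V × ℕ)) =
      ∫ om, F (uL om) (xL om) ∂(Pu (V × ℕ)) := by
  obtain ⟨C, hC⟩ := hb
  have hneg : Measurable fun p : (V × ℕ → ℝ) × (V × ℕ → ℝ) =>
      F p.1 (fun e => -p.2 e) :=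
    hF.comp (measurable_fst.prodMk
      (measurable_pi_lambda _ fun e => ((measurable_pi_apply e).comp measurable_snd).neg))
  rw [h2_integral_labels (F := fun U x => F U (fun e => -x e)) hneg (fun U x => hC _ _),
    h2_integral_labels hF (fun U x => hC _ _)]
  refine integral_congr_ae (Filter.Eventually.of_forall fun U => ?_)
  exact h2_integral_neg_Pu (hF.comp (measurable_const.prodMk measurable_id))

/-- The messages are symmetric. -/
theorem MF_symm_law (hG : G.IsTree) {b : ℕ} (hd : G.IsRegularOfDegree (b + 1))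
    (hμ : IsTreeIsing G θ μ) (h0 : 0 ≤ θ) (h1 : θ < 1) (hθ : b * θ ^ 2 < 1)
    (D : Finset V) (k : ℕ) (t : ℝ) {x y : V} (h : G.Adj x y)
    {f : ℝ × ℝ → ℝ} (hf : Measurable f) (hb : ∃ C, ∀ p, |f p| ≤ C) :
    ∫ om, f (-MF G μ D k t om x y, XF G θ μ D k t om x y) ∂(Pu (V × ℕ)) =
      ∫ om, f (MF G μ D k t om x y, XF G θ μ D k t om x y) ∂(Pu (V × ℕ)) := by
  have := hμ.isProb
  have : Countable V := countable_of_locallyFinite hG.connected
  obtain ⟨C, hC⟩ := hb
  have hC0 : 0 ≤ C := (abs_nonneg _).trans (hC (0, 0))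
  have key : ∀ g : ℝ × ℝ → ℝ, Measurable g → (∀ p, |g p| ≤ C) →
      ∫ om, g (MF G μ D k t om x y, XF G θ μ D k t om x y) ∂(Pu (V × ℕ)) =
      ∫ om, g (MS G μ D k t (uL om) (xL om) x y, XS G θ μ D k t (uL om) (xL om) x y) *
        evid μ Prod.fst (evP D k t (bP G x y) (uL om)) (cS (uL om) (xL om)) ∂(Pu (V × ℕ)) := by
    intro g hg hgC
    have h2 := law_evP (μ := μ) D k t (bP G x y)
      (F := fun U s => g (MS G μ D k t U s x y, XS G θ μ D k t U s x y))
      (hg.comp ((measurable_MS x y).prodMk (measurable_XS hd h0 h1 hθ h)))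
      ⟨C, fun U s => hgC _⟩
      (fun U s s' h3 => by
        have h4 := MS_congr (G := G) (μ := μ) (Agr.of_evP h3)
        have h5 := XS_congr (G := G) (θ := θ) (μ := μ) hG h (Agr.of_evP h3)
        simp only [h4, h5])
    simp only [MF_eq_MS, XF_eq_XS]
    exact h2
  have hfn : Measurable fun p : ℝ × ℝ => f (-p.1, p.2) :=
    hf.comp (measurable_fst.neg.prodMk measurable_snd)
  rw [key f hf hC, key (fun p => f (-p.1, p.2)) hfn (fun p => hC _)]
  obtain ⟨C', hC'⟩ := evid_evP_bound (μ := μ) D k t (bP G x y)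
  have h2 := integral_flip_labels (F := fun U s =>
      f (MS G μ D k t U s x y, XS G θ μ D k t U s x y) *
        evid μ Prod.fst (evP D k t (bP G x y) U) (cS U s))
    ((hf.comp ((measurable_MS x y).prodMk (measurable_XS hd h0 h1 hθ h))).mul
      (measurable_evid_evP D k t (bP G x y)))
    ⟨C * C', fun U s => by
      rw [abs_mul]
      exact mul_le_mul (hC _) (hC' U s) (abs_nonneg _) hC0⟩
  simp only [MS_neg hG hμ, XS_neg hG hμ, h2_cS_neg, h2_evid_neg hG hμ] at h2
  exact h2

/-- The law of the own field in terms of the labels. -/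
theorem own_law (hμ : IsTreeIsing G θ μ) [Countable V] {D : Finset V} {k : ℕ} {t : ℝ} {y : V}
    (hy : y ∈ D) {F : (V × ℕ → ℝ) → (V × ℕ → ℝ) → ℝ}
    (hF : Measurable fun p : (V × ℕ → ℝ) × (V × ℕ → ℝ) => F p.1 p.2)
    (hb : ∃ C, ∀ U x, |F U x| ≤ C)
    (hdep : ∀ U, DependsOn (F U) (evP D k t (fun e => e.1 = y) U : Set (V × ℕ))) :
    ∫ om, F (uL om) (sF μ D om) ∂(Pu (V × ℕ)) =
      ∫ om, F (uL om) (xL om) * ((Pown 1 k t (uL om) (fun e => clamp (xL om e)) y +
        Pown (-1) k t (uL om) (fun e => clamp (xL om e)) y) / 2) ∂(Pu (V × ℕ)) := by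
  have := hμ.isProb
  rw [law_evP D k t _ hF hb hdep]
  refine integral_congr_ae (Filter.Eventually.of_forall fun om => ?_)
  simp only
  rw [evid_own hμ D k t _ _ hy]

/-- Facts on the own field: symmetry, size in round `0`, information. -/
theorem own_symm_law (hμ : IsTreeIsing G θ μ) [Countable V] (D : Finset V) (k : ℕ) (t : ℝ) {y : V}
    (hy : y ∈ D) {f : ℝ → ℝ} (hf : Measurable f) (hb : ∃ C, ∀ p, |f p| ≤ C) :
    ∫ om, f (-own k t (uL om) (sF μ D om) y) ∂(Pu (V × ℕ)) =
      ∫ om, f (own k t (uL om) (sF μ D om) y) ∂(Pu (V × ℕ)) := by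
  have := hμ.isProb
  obtain ⟨C, hC⟩ := hb
  have hC0 : 0 ≤ C := (abs_nonneg _).trans (hC 0)
  have key : ∀ g : ℝ → ℝ, Measurable g → (∀ p, |g p| ≤ C) →
      ∫ om, g (own k t (uL om) (sF μ D om) y) ∂(Pu (V × ℕ)) =
      ∫ om, g (ownS k t (uL om) (xL om) y) * ((Pown 1 k t (uL om) (fun e => clamp (xL om e)) y +
        Pown (-1) k t (uL om) (fun e => clamp (xL om e)) y) / 2) ∂(Pu (V × ℕ)) := by
    intro g hg hgC
    have h2 := own_law (μ := μ) (k := k) (t := t) hμ hy (F := fun U s => g (ownS k t U s y))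
      (hg.comp (measurable_ownS y)) ⟨C, fun U s => hgC _⟩
      (fun U s s' h3 => by
        have h4 := ownS_congr (k := k) (t := t) hy (Agr.of_evP h3)
        simp only [h4])
    simp only [own_eq_ownS]
    exact h2
  rw [key f hf hC, key (fun p => f (-p)) (hf.comp measurable_neg) (fun p => hC _)]
  have hPm : ∀ τ : ℝ, Measurable fun p : (V × ℕ → ℝ) × (V × ℕ → ℝ) =>
      Pown τ k t p.1 (fun e => clamp (p.2 e)) y := fun τ =>
    measurable_Pown (fun e => (measurable_pi_apply e).comp measurable_fst)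
        (fun e => measurable_clamp.comp ((measurable_pi_apply e).comp measurable_snd)) τ y
  have h2 := integral_flip_labels (F := fun U s => f (ownS k t U s y) *
      ((Pown 1 k t U (fun e => clamp (s e)) y + Pown (-1) k t U (fun e => clamp (s e)) y) / 2))
    ((hf.comp (measurable_ownS y)).mul (((hPm 1).add (hPm (-1))).div_const 2))
    ⟨C * 2 ^ (k + 1), fun U s => by
      rw [abs_mul]
      refine mul_le_mul (hC _) ?_ (abs_nonneg _) hC0
      have hp1 := Pown_pos (k := k) (t := t) (τ := 1) (by simp) U (fun e => clamp (s e))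
        (fun e => abs_clamp_le _) y
      have hp2 := Pown_pos (k := k) (t := t) (τ := -1) (by simp) U (fun e => clamp (s e))
        (fun e => abs_clamp_le _) y
      have hq1 := Pown_le (k := k) (t := t) (τ := 1) (by simp) U (fun e => clamp (s e))
        (fun e => abs_clamp_le _) y
      have hq2 := Pown_le (k := k) (t := t) (τ := -1) (by simp) U (fun e => clamp (s e))
        (fun e => abs_clamp_le _) y
      rw [abs_of_pos (by linarith)]
      linarith⟩
  have e1 : ∀ (τ : ℝ) (U s : V × ℕ → ℝ), Pown τ k t U (fun e => clamp (-s e)) y =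
      Pown (-τ) k t U (fun e => clamp (s e)) y := by
    intro τ U s
    rw [← h2_Pown_neg]
    congr 1
    funext e
    rw [h2_clamp_neg]
  simp only [ownS_neg, e1, neg_neg] at h2
  rw [← h2]
  refine integral_congr_ae (Filter.Eventually.of_forall fun om => ?_)
  simp only
  rw [add_comm]

/-! ### The information of the own field -/

theorem h2_integral_eval_Pu {ι : Type*} (e : ι) {g : ℝ → ℝ} (hg : Measurable g) :
    ∫ om, g (om e) ∂(Pu ι) = ∫ x, g x ∂unif := by
  rw [← (measurePreserving_eval_Pu e).map_eq,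
    integral_map (measurable_pi_apply e).aemeasurable hg.aestronglyMeasurable]

theorem h2_integral_eval_mul_Pu {ι : Type*} {e e' : ι} (h : e ≠ e') {g g' : ℝ → ℝ}
    (hg : Measurable g) (hg' : Measurable g') :
    ∫ om, g (om e) * g' (om e') ∂(Pu ι) = (∫ x, g x ∂unif) * ∫ x, g' x ∂unif := by
  classical
  have h1 := h2_integral_mul_disjointPu ({e} : Finset ι) {e'} (by simpa using h)
    (F := fun om => g (om e)) (H := fun om => g' (om e'))
    (hg.comp (measurable_pi_apply e)) (hg'.comp (measurable_pi_apply e'))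
    (by
      intro x y hxy
      have : x e = y e := hxy e (by simp)
      simp only [this])
    (by
      intro x y hxy
      have : x e' = y e' := hxy e' (by simp)
      simp only [this])
  rw [h2_integral_eval_Pu e hg, h2_integral_eval_Pu e' hg'] at h1
  exact h1

theorem h2_integral_clamp_sq : ∫ x, clamp x ^ 2 ∂unif = 1 / 3 := by
  rw [integral_unif]
  have h1 : ∫ x in Set.Icc (-1 : ℝ) 1, clamp x ^ 2 = ∫ x in Set.Icc (-1 : ℝ) 1, x ^ 2 := by
    refine setIntegral_congr_fun measurableSet_Icc fun x hx => ?_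
    have h2 : clamp x = x := clamp_of_abs_le (abs_le.2 hx)
    simp only [h2]
  rw [h1, integral_Icc_eq_integral_Ioc, ← intervalIntegral.integral_of_le (by norm_num)]
  rw [integral_pow]
  norm_num

theorem h2_integral_clamp : ∫ x, clamp x ∂unif = 0 := by
  rw [integral_unif]
  have h1 : ∫ x in Set.Icc (-1 : ℝ) 1, clamp x = ∫ x in Set.Icc (-1 : ℝ) 1, x := by
    refine setIntegral_congr_fun measurableSet_Icc fun x hx => ?_
    have h2 : clamp x = x := clamp_of_abs_le (abs_le.2 hx)
    simp only [h2]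
  rw [h1, integral_Icc_eq_integral_Ioc, ← intervalIntegral.integral_of_le (by norm_num)]
  rw [integral_id]
  norm_num

theorem h2_integral_gs_sq {t : ℝ} (ht : 0 ≤ t) (ht1 : t ≤ 1) :
    ∫ x, (if x < -1 + t then gs x ^ 2 else 0) ∂unif = t ^ 3 / 24 := by
  have h1 : ∫ x, (if x < -1 + t then gs x ^ 2 else 0) ∂unif =
      ∫ x, (Set.Ico (-1) (-1 + t)).indicator (fun y : ℝ => 2 * ((1 + y) ^ 2 / 8)) x ∂unif := by
    refine integral_congr_ae ?_
    filter_upwards [ae_unif] with x hx
    have hx' := abs_le.1 hx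
    by_cases h : x < -1 + t
    · rw [if_pos h, Set.indicator_of_mem (show x ∈ Set.Ico (-1 : ℝ) (-1 + t) from ⟨hx'.1, h⟩)]
      unfold gs
      rw [if_pos (by linarith), max_eq_right (by linarith)]
      ring
    · rw [if_neg h, Set.indicator_of_notMem]
      intro h2
      exact h h2.2
  rw [h1, integral_unif_Ico le_rfl (by linarith), integral_Ico_eq_integral_Ioo,
    ← integral_Ioc_eq_integral_Ioo, ← intervalIntegral.integral_of_le (by linarith)]
  have hder : ∀ x ∈ Set.uIcc (-1 : ℝ) (-1 + t),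
      HasDerivAt (fun y : ℝ => (1 + y) ^ 3 / 24) ((1 + x) ^ 2 / 8) x := by
    intro x _
    have h2 : HasDerivAt (fun y : ℝ => 1 + y) 1 x := (hasDerivAt_id x).const_add 1
    have h3 := (h2.pow 3).div_const 24
    have h4 : (3 : ℕ) * (1 + x) ^ (3 - 1) * 1 / 24 = (1 + x) ^ 2 / 8 := by
      norm_num
      ring
    rw [← h4]
    exact h3
  rw [intervalIntegral.integral_eq_sub_of_hasDerivAt hder]
  · ring
  · apply Continuous.intervalIntegrable
    fun_prop

theorem own_sq_zero (hμ : IsTreeIsing G θ μ) [Countable V] (D : Finset V) (t : ℝ) (ht : 0 ≤ t)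
    (ht1 : t ≤ 1) {y : V} (hy : y ∈ D) :
    ∫ om, own 0 t (uL om) (sF μ D om) y ^ 2 ∂(Pu (V × ℕ)) = t ^ 3 / 72 := by
  have := hμ.isProb
  have h2 := own_law (μ := μ) (k := 0) (t := t) hμ hy (F := fun U s => ownS 0 t U s y ^ 2)
    ((measurable_ownS y).pow_const 2)
    ⟨1, fun U s => by
      rw [abs_pow]
      exact pow_le_one₀ (abs_nonneg _) (abs_own_lt 0 t U _ (fun e => abs_clamp_le _) y).le⟩
    (fun U s s' h3 => by
      have h4 := ownS_congr (k := 0) (t := t) hy (Agr.of_evP h3)
      simp only [h4])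
  simp only [own_eq_ownS]
  rw [h2]
  have h3 : ∀ om : V × ℕ → ℝ, ownS 0 t (uL om) (xL om) y ^ 2 *
      ((Pown 1 0 t (uL om) (fun e => clamp (xL om e)) y +
        Pown (-1) 0 t (uL om) (fun e => clamp (xL om e)) y) / 2) =
      (fun x => if x < -1 + t then gs x ^ 2 else 0) (om (y, 0)) *
        (fun x => clamp x ^ 2) (om (y, 1)) := by
    intro om
    unfold ownS
    rw [own_zero_eq]
    unfold Pown uL xL
    simp only [zero_add, Finset.range_one, Finset.prod_singleton, lt_self_iff_false, false_or,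
      mul_zero]
    split_ifs
    · ring
    · ring
  simp only [h3]
  rw [h2_integral_eval_mul_Pu (by simp) (g := fun x => if x < -1 + t then gs x ^ 2 else 0)
    (g' := fun x => clamp x ^ 2)
    (Measurable.ite (measurableSet_lt measurable_id measurable_const) (measurable_gs.pow_const 2)
      measurable_const) (measurable_clamp.pow_const 2), h2_integral_gs_sq ht ht1, h2_integral_clamp_sq]
  ring

/-- the factors of `Pown` at the rounds `≥ 1` -/
noncomputable def Rown (τ : ℝ) (k : ℕ) (t : ℝ) (U s : V × ℕ → ℝ) (y : V) : ℝ :=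
  ∏ j ∈ Finset.range k,
    if j + 1 < k ∨ U (y, j + 1) < -1 + t then 1 + τ * (gs (U (y, j + 1)) * s (y, j + 1)) else 1

theorem Pown_eq_Rown (τ : ℝ) {k : ℕ} (hk : 1 ≤ k) (t : ℝ) (U s : V × ℕ → ℝ) (y : V) :
    Pown τ k t U s y = Rown τ k t U s y * (1 + τ * (gs (U (y, 0)) * s (y, 0))) := by
  unfold Pown Rown
  rw [Finset.prod_range_succ']
  congr 1
  rw [if_pos (Or.inl (by omega))]

theorem integral_mul_Rown [Countable V] (τ : ℝ) (k : ℕ) (t : ℝ) (y : V) {g : ℝ × ℝ → ℝ}
    (hg : Measurable g) :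
    ∫ om, g (om (y, 0), om (y, 1)) * Rown τ k t (uL om) (fun e => clamp (xL om e)) y
        ∂(Pu (V × ℕ)) = ∫ om, g (om (y, 0), om (y, 1)) ∂(Pu (V × ℕ)) := by
  classical
  -- the factors
  let A : ℕ → ℝ → ℝ := fun j u => if j + 1 < k ∨ u < -1 + t then gs u else 0
  have hA : ∀ j, Measurable (A j) := fun j =>
    Measurable.ite ((MeasurableSet.const _).union (measurableSet_lt measurable_id measurable_const))
      measurable_gs measurable_const
  let Fj : ℕ → (V × ℕ → ℝ) → ℝ := fun j om =>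
    1 + τ * (A j (om (y, 2 * (j + 1))) * clamp (om (y, 2 * (j + 1) + 1)))
  have hFj : ∀ j, Measurable (Fj j) := fun j => measurable_const.add (measurable_const.mul
    (((hA j).comp (measurable_pi_apply _)).mul (measurable_clamp.comp (measurable_pi_apply _))))
  have e1 : ∀ om : V × ℕ → ℝ, Rown τ k t (uL om) (fun e => clamp (xL om e)) y =
      ∏ j ∈ Finset.range k, Fj j om := by
    intro om
    unfold Rown
    refine Finset.prod_congr rfl fun j _ => ?_
    by_cases h : j + 1 < k ∨ uL om (y, j + 1) < -1 + t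
    · have hA' : A j (om (y, 2 * (j + 1))) = gs (uL om (y, j + 1)) := if_pos h
      rw [if_pos h]
      simp only [Fj, hA']
      rfl
    · have hA' : A j (om (y, 2 * (j + 1))) = 0 := if_neg h
      rw [if_neg h]
      simp only [Fj, hA']
      ring
  simp only [e1]
  let Ij : ℕ → Finset (V × ℕ) := fun j => {(y, 2 * (j + 1)), (y, 2 * (j + 1) + 1)}
  have hdep : ∀ j ∈ Finset.range k, DependsOn (Fj j) (Ij j : Set (V × ℕ)) := by
    intro j _ x x' h
    have h1 := h (y, 2 * (j + 1)) (by simp [Ij])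
    have h2 := h (y, 2 * (j + 1) + 1) (by simp [Ij])
    simp only [Fj, h1, h2]
  have h1 := h2_integral_mul_disjointPu ({(y, 0), (y, 1)} : Finset (V × ℕ))
    ((Finset.range k).biUnion Ij) (by
      rw [Finset.disjoint_biUnion_right]
      intro j _
      simp [Ij])
    (F := fun om : V × ℕ → ℝ => g (om (y, 0), om (y, 1)))
    (H := fun om => ∏ j ∈ Finset.range k, Fj j om)
    (hg.comp ((measurable_pi_apply _).prodMk (measurable_pi_apply _)))
    (Finset.measurable_fun_prod _ fun j _ => hFj j)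
    (by
      intro x x' h
      have h2 := h (y, 0) (by simp)
      have h3 := h (y, 1) (by simp)
      simp only [h2, h3])
    (h2_dependsOn_prod' _ Ij hdep)
  rw [h1, h2_integral_prod_disjointPu (Finset.range k) Ij (by
    intro j _ j' _ hne
    simp only [Ij]
    rw [Finset.disjoint_left]
    intro e he he'
    simp only [Finset.mem_insert, Finset.mem_singleton] at he he'
    rcases he with rfl | rfl <;> rcases he' with h2 | h2 <;>
      (have := (Prod.ext_iff.mp h2).2; simp only at this; omega))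
    (fun j _ => hFj j) hdep]
  have h2 : ∀ j, ∫ om, Fj j om ∂(Pu (V × ℕ)) = 1 := by
    intro j
    have hne : ((y, 2 * (j + 1)) : V × ℕ) ≠ (y, 2 * (j + 1) + 1) := by
      intro h3
      have := (Prod.ext_iff.mp h3).2
      simp only at this
      omega
    have h3 := h2_integral_eval_mul_Pu hne (hA j) measurable_clamp
    have h4 : Integrable (fun om : V × ℕ → ℝ =>
        A j (om (y, 2 * (j + 1))) * clamp (om (y, 2 * (j + 1) + 1))) (Pu (V × ℕ)) := by
      refine Integrable.of_bound (C := 1) (((hA j).comp (measurable_pi_apply _)).mul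
        (measurable_clamp.comp (measurable_pi_apply _))).aestronglyMeasurable
        (Filter.Eventually.of_forall fun om => ?_)
      rw [Real.norm_eq_abs, abs_mul]
      refine mul_le_one₀ ?_ (abs_nonneg _) (abs_clamp_le _)
      simp only [A]
      split_ifs
      · rw [abs_of_nonneg (gs_nonneg _)]
        exact ((gs_lt _).trans (by norm_num)).le
      · simp
    simp only [Fj]
    rw [integral_add (integrable_const _) (h4.const_mul τ), integral_const_mul, h3, h2_integral_clamp]
    simp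
  rw [Finset.prod_congr rfl fun j _ => h2 j]
  simp

/-- the first own observation times its strength -/
noncomputable def cz (y : V) (U s : V × ℕ → ℝ) : ℝ := gs (U (y, 0)) * clamp (s (y, 0))

theorem measurable_cz (y : V) :
    Measurable fun p : (V × ℕ → ℝ) × (V × ℕ → ℝ) => cz y p.1 p.2 := by
  unfold cz
  exact (measurable_gs.comp ((measurable_pi_apply _).comp measurable_fst)).mul
    (measurable_clamp.comp ((measurable_pi_apply _).comp measurable_snd))

theorem abs_cz_le (y : V) (U s : V × ℕ → ℝ) : |cz y U s| ≤ 1 := by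
  have h1 := abs_cS_lt U s (y, 0)
  unfold cS at h1
  exact h1.le

theorem abs_gsclamp_le (p : ℝ × ℝ) : |gs p.1 * clamp p.2| ≤ 1 := by
  rw [abs_mul, abs_of_nonneg (gs_nonneg _)]
  exact mul_le_one₀ ((gs_lt _).trans (by norm_num)).le (abs_nonneg _) (abs_clamp_le _)

theorem measurable_gsclamp : Measurable fun p : ℝ × ℝ => gs p.1 * clamp p.2 :=
  (measurable_gs.comp measurable_fst).mul (measurable_clamp.comp measurable_snd)

theorem integral_cz_sq (y : V) :
    ∫ om : V × ℕ → ℝ, (gs (om (y, 0)) * clamp (om (y, 1))) ^ 2 ∂(Pu (V × ℕ)) = 1 / 72 := by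
  have h3 : ∀ om : V × ℕ → ℝ, (gs (om (y, 0)) * clamp (om (y, 1))) ^ 2 =
      (fun x => if x < -1 + 1 then gs x ^ 2 else 0) (om (y, 0)) *
        (fun x => clamp x ^ 2) (om (y, 1)) := by
    intro om
    simp only
    by_cases h4 : om (y, 0) < -1 + 1
    · rw [if_pos h4]; ring
    · rw [if_neg h4]
      have h5 : gs (om (y, 0)) = 0 := by
        unfold gs
        rw [if_neg (by linarith)]
      rw [h5]; ring
  simp only [h3]
  rw [h2_integral_eval_mul_Pu (by simp) (g := fun x : ℝ => if x < -1 + 1 then gs x ^ 2 else 0)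
    (g' := fun x => clamp x ^ 2)
    (Measurable.ite (measurableSet_lt measurable_id measurable_const) (measurable_gs.pow_const 2)
      measurable_const) (measurable_clamp.pow_const 2),
    h2_integral_gs_sq (t := 1) (by norm_num) le_rfl, h2_integral_clamp_sq]
  norm_num

theorem abs_one_add_gsclamp {τ : ℝ} (hτ : |τ| ≤ 1) (p : ℝ × ℝ) :
    |1 + τ * (gs p.1 * clamp p.2)| ≤ 2 := by
  calc |1 + τ * (gs p.1 * clamp p.2)| ≤ |1| + |τ * (gs p.1 * clamp p.2)| := abs_add_le _ _
    _ ≤ 1 + 1 * 1 := by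
        rw [abs_one, abs_mul]
        have := mul_le_mul hτ (abs_gsclamp_le p) (abs_nonneg _) zero_le_one
        linarith
    _ = 2 := by norm_num

theorem measurable_Rown (τ : ℝ) (k : ℕ) (t : ℝ) (y : V) :
    Measurable fun om : V × ℕ → ℝ => Rown τ k t (uL om) (fun e => clamp (xL om e)) y := by
  unfold Rown
  refine Finset.measurable_fun_prod _ fun j _ => ?_
  refine Measurable.ite ?_ ?_ measurable_const
  · exact (MeasurableSet.const _).union (measurableSet_lt (measurable_uL _) measurable_const)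
  · exact measurable_const.add (measurable_const.mul
      ((measurable_gs.comp (measurable_uL _)).mul (measurable_clamp.comp (measurable_xL _))))

theorem abs_Rown_le {τ : ℝ} (hτ : |τ| ≤ 1) (k : ℕ) (t : ℝ) (y : V) (U s : V × ℕ → ℝ) :
    |Rown τ k t U (fun e => clamp (s e)) y| ≤ 2 ^ k := by
  unfold Rown
  rw [Finset.abs_prod]
  calc _ ≤ ∏ _j ∈ Finset.range k, (2 : ℝ) := by
        refine Finset.prod_le_prod (fun _ _ => abs_nonneg _) fun j _ => ?_
        split_ifs
        · exact abs_one_add_gsclamp hτ (U (y, j + 1), s (y, j + 1))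
        · norm_num
    _ = 2 ^ k := by rw [Finset.prod_const, Finset.card_range]

theorem integrable_mul_Rown [Countable V] {τ : ℝ} (hτ : |τ| ≤ 1) (k : ℕ) (t : ℝ) (y : V)
    {g : ℝ × ℝ → ℝ} (hg : Measurable g) (hgb : ∀ p, |g p| ≤ 2) :
    Integrable (fun om : V × ℕ → ℝ => g (om (y, 0), om (y, 1)) *
        Rown τ k t (uL om) (fun e => clamp (xL om e)) y) (Pu (V × ℕ)) := by
  refine Integrable.of_bound (C := 2 * 2 ^ k)
    ((hg.comp ((measurable_pi_apply _).prodMk (measurable_pi_apply _))).mul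
      (measurable_Rown τ k t y)).aestronglyMeasurable (Filter.Eventually.of_forall fun om => ?_)
  rw [Real.norm_eq_abs, abs_mul]
  exact mul_le_mul (hgb _) (abs_Rown_le hτ k t y _ _) (abs_nonneg _) (by norm_num)

/-- the combination of the two signs -/
theorem integral_comb (k : ℕ) (t : ℝ) (y : V) [Countable V] {g : ℝ × ℝ → ℝ} (hg : Measurable g)
    (hgb : ∀ p, |g p| ≤ 1) (ε : ℝ) :
    ∫ om : V × ℕ → ℝ, 2⁻¹ * ((g (om (y, 0), om (y, 1)) *
          (1 + 1 * (gs (om (y, 0)) * clamp (om (y, 1))))) *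
        Rown 1 k t (uL om) (fun e => clamp (xL om e)) y +
      ε * ((g (om (y, 0), om (y, 1)) *
          (1 + -1 * (gs (om (y, 0)) * clamp (om (y, 1))))) *
        Rown (-1) k t (uL om) (fun e => clamp (xL om e)) y)) ∂(Pu (V × ℕ)) =
    ∫ om : V × ℕ → ℝ, 2⁻¹ * (g (om (y, 0), om (y, 1)) *
          (1 + 1 * (gs (om (y, 0)) * clamp (om (y, 1)))) +
      ε * (g (om (y, 0), om (y, 1)) *
          (1 + -1 * (gs (om (y, 0)) * clamp (om (y, 1)))))) ∂(Pu (V × ℕ)) := by
  have hG : ∀ τ : ℝ, Measurable fun p : ℝ × ℝ => g p * (1 + τ * (gs p.1 * clamp p.2)) := fun τ =>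
    hg.mul (measurable_const.add (measurable_const.mul measurable_gsclamp))
  have hGb : ∀ τ : ℝ, |τ| ≤ 1 → ∀ p : ℝ × ℝ, |g p * (1 + τ * (gs p.1 * clamp p.2))| ≤ 2 := by
    intro τ hτ p
    rw [abs_mul]
    calc _ ≤ 1 * 2 := mul_le_mul (hgb p) (abs_one_add_gsclamp hτ p) (abs_nonneg _) zero_le_one
      _ = 2 := by norm_num
  have hm1 : |(1 : ℝ)| ≤ 1 := by simp
  have hm2 : |(-1 : ℝ)| ≤ 1 := by simp
  have hi0 : ∀ τ : ℝ, |τ| ≤ 1 → Integrable (fun om : V × ℕ → ℝ => g (om (y, 0), om (y, 1)) *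
      (1 + τ * (gs (om (y, 0)) * clamp (om (y, 1))))) (Pu (V × ℕ)) := fun τ hτ =>
    Integrable.of_bound (C := 2)
      ((hG τ).comp ((measurable_pi_apply _).prodMk (measurable_pi_apply _))).aestronglyMeasurable
      (Filter.Eventually.of_forall fun om => hGb τ hτ (om (y, 0), om (y, 1)))
  rw [integral_const_mul, integral_const_mul]
  congr 1
  have i1 := integrable_mul_Rown hm1 k t y (hG 1) (hGb 1 hm1)
  have i2 := integrable_mul_Rown hm2 k t y (hG (-1)) (hGb (-1) hm2)
  have j1 := integral_mul_Rown 1 k t y (hG 1)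
  have j2 := integral_mul_Rown (-1) k t y (hG (-1))
  simp only at i1 i2 j1 j2
  rw [integral_add i1 (i2.const_mul ε), integral_add (hi0 1 hm1) ((hi0 (-1) hm2).const_mul ε),
    integral_const_mul, integral_const_mul, j1, j2]

theorem own_int_one (k : ℕ) (hk : 1 ≤ k) (t : ℝ) (y : V) [Countable V] :
    ∫ om, ownS k t (uL om) (xL om) y * cz y (uL om) (xL om) *
      ((Pown 1 k t (uL om) (fun e => clamp (xL om e)) y +
        Pown (-1) k t (uL om) (fun e => clamp (xL om e)) y) / 2) ∂(Pu (V × ℕ)) = 1 / 72 := by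
  have h3 : ∀ om : V × ℕ → ℝ, ownS k t (uL om) (xL om) y * cz y (uL om) (xL om) *
      ((Pown 1 k t (uL om) (fun e => clamp (xL om e)) y +
        Pown (-1) k t (uL om) (fun e => clamp (xL om e)) y) / 2) =
      2⁻¹ * (((fun p : ℝ × ℝ => gs p.1 * clamp p.2) (om (y, 0), om (y, 1)) *
          (1 + 1 * (gs (om (y, 0)) * clamp (om (y, 1))))) *
        Rown 1 k t (uL om) (fun e => clamp (xL om e)) y +
      (-1) * (((fun p : ℝ × ℝ => gs p.1 * clamp p.2) (om (y, 0), om (y, 1)) *
          (1 + -1 * (gs (om (y, 0)) * clamp (om (y, 1))))) *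
        Rown (-1) k t (uL om) (fun e => clamp (xL om e)) y)) := by
    intro om
    have hs : ∀ e : V × ℕ, |(fun e => clamp (xL om e)) e| ≤ 1 := fun e => abs_clamp_le _
    obtain ⟨h4, h5⟩ := one_add_own k t (uL om) (fun e => clamp (xL om e)) hs y
    have h6 : ownS k t (uL om) (xL om) y * ((Pown 1 k t (uL om) (fun e => clamp (xL om e)) y +
      Pown (-1) k t (uL om) (fun e => clamp (xL om e)) y) / 2) =
      (Pown 1 k t (uL om) (fun e => clamp (xL om e)) y -
        Pown (-1) k t (uL om) (fun e => clamp (xL om e)) y) / 2 := by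
      unfold ownS
      linarith
    calc _ = cz y (uL om) (xL om) * (ownS k t (uL om) (xL om) y *
          ((Pown 1 k t (uL om) (fun e => clamp (xL om e)) y +
            Pown (-1) k t (uL om) (fun e => clamp (xL om e)) y) / 2)) := by ring
      _ = _ := by
        rw [h6, Pown_eq_Rown 1 hk, Pown_eq_Rown (-1) hk]
        simp only [cz, uL, xL, mul_zero, zero_add]
        ring
  simp only [h3]
  have h4 := integral_comb k t y measurable_gsclamp abs_gsclamp_le (-1)
  simp only at h4 ⊢
  rw [h4, ← integral_cz_sq y]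
  refine integral_congr_ae (Filter.Eventually.of_forall fun om => ?_)
  simp only
  ring

theorem own_int_two (k : ℕ) (hk : 1 ≤ k) (t : ℝ) (y : V) [Countable V] :
    ∫ om, cz y (uL om) (xL om) ^ 2 *
      ((Pown 1 k t (uL om) (fun e => clamp (xL om e)) y +
        Pown (-1) k t (uL om) (fun e => clamp (xL om e)) y) / 2) ∂(Pu (V × ℕ)) = 1 / 72 := by
  have h3 : ∀ om : V × ℕ → ℝ, cz y (uL om) (xL om) ^ 2 *
      ((Pown 1 k t (uL om) (fun e => clamp (xL om e)) y +
        Pown (-1) k t (uL om) (fun e => clamp (xL om e)) y) / 2) =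
      2⁻¹ * (((fun p : ℝ × ℝ => (gs p.1 * clamp p.2) ^ 2) (om (y, 0), om (y, 1)) *
          (1 + 1 * (gs (om (y, 0)) * clamp (om (y, 1))))) *
        Rown 1 k t (uL om) (fun e => clamp (xL om e)) y +
      1 * (((fun p : ℝ × ℝ => (gs p.1 * clamp p.2) ^ 2) (om (y, 0), om (y, 1)) *
          (1 + -1 * (gs (om (y, 0)) * clamp (om (y, 1))))) *
        Rown (-1) k t (uL om) (fun e => clamp (xL om e)) y)) := by
    intro om
    rw [Pown_eq_Rown 1 hk, Pown_eq_Rown (-1) hk]
    simp only [cz, uL, xL, mul_zero, zero_add]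
    ring
  simp only [h3]
  have h4 := integral_comb k t y (measurable_gsclamp.pow_const 2)
    (fun p => by rw [abs_pow]; exact pow_le_one₀ (abs_nonneg _) (abs_gsclamp_le p)) 1
  simp only at h4 ⊢
  rw [h4, ← integral_cz_sq y]
  refine integral_congr_ae (Filter.Eventually.of_forall fun om => ?_)
  simp only
  ring

theorem own_sq_succ (hμ : IsTreeIsing G θ μ) [Countable V] (D : Finset V) {k : ℕ} (hk : 1 ≤ k)
    (t : ℝ) {y : V} (hy : y ∈ D) :
    1 / 72 ≤ ∫ om, own k t (uL om) (sF μ D om) y ^ 2 ∂(Pu (V × ℕ)) := by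
  have := hμ.isProb
  have hob : ∀ U s, |ownS k t U s y| ≤ 1 := fun U s =>
    (abs_own_lt k t U _ (fun e => abs_clamp_le _) y).le
  have hcd : ∀ U s s', (∀ e ∈ (evP D k t (fun e => e.1 = y) U : Set (V × ℕ)), s e = s' e) →
      cz y U s = cz y U s' := by
    intro U s s' h
    have h1 := h (y, 0) (by
      rw [Finset.mem_coe, mem_evP]
      exact ⟨hy, Or.inl hk, rfl⟩)
    simp only [cz, h1]
  have hod : ∀ U s s', (∀ e ∈ (evP D k t (fun e => e.1 = y) U : Set (V × ℕ)), s e = s' e) →
      ownS k t U s y = ownS k t U s' y := fun U s s' h => ownS_congr hy (Agr.of_evP h)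
  -- the two expectations
  have h1 := own_law (μ := μ) (k := k) (t := t) hμ hy (F := fun U s => ownS k t U s y * cz y U s)
    ((measurable_ownS y).mul (measurable_cz y))
    ⟨1, fun U s => by
      rw [abs_mul]
      exact mul_le_one₀ (hob U s) (abs_nonneg _) (abs_cz_le y U s)⟩
    (fun U s s' h => by simp only [hod U s s' h, hcd U s s' h])
  have h2 := own_law (μ := μ) (k := k) (t := t) hμ hy (F := fun U s => cz y U s ^ 2)
    ((measurable_cz y).pow_const 2)
    ⟨1, fun U s => by
      rw [abs_pow]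
      exact pow_le_one₀ (abs_nonneg _) (abs_cz_le y U s)⟩
    (fun U s s' h => by simp only [hcd U s s' h])
  rw [own_int_one k hk t y] at h1
  rw [own_int_two k hk t y] at h2
  -- `E (h - c0)^2 ≥ 0`
  have hms : Measurable (fun om : V × ℕ → ℝ => (uL om, sF μ D om)) :=
    (measurable_pi_lambda _ fun e => measurable_uL e).prodMk
      (measurable_pi_lambda _ fun e => measurable_sF D e)
  have hom := (measurable_ownS (k := k) (t := t) y).comp hms
  have hcm := (measurable_cz y).comp hms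
  have i1 : Integrable (fun om : V × ℕ → ℝ => ownS k t (uL om) (sF μ D om) y ^ 2)
      (Pu (V × ℕ)) := Integrable.of_bound (C := 1) (hom.pow_const 2).aestronglyMeasurable
    (Filter.Eventually.of_forall fun om => by
      rw [Real.norm_eq_abs, abs_pow]; exact pow_le_one₀ (abs_nonneg _) (hob _ _))
  have i2 : Integrable (fun om : V × ℕ → ℝ => ownS k t (uL om) (sF μ D om) y *
      cz y (uL om) (sF μ D om)) (Pu (V × ℕ)) :=
    Integrable.of_bound (C := 1) (hom.mul hcm).aestronglyMeasurable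
    (Filter.Eventually.of_forall fun om => by
      rw [Real.norm_eq_abs, abs_mul]
      exact mul_le_one₀ (hob _ _) (abs_nonneg _) (abs_cz_le y _ _))
  have i3 : Integrable (fun om : V × ℕ → ℝ => cz y (uL om) (sF μ D om) ^ 2)
      (Pu (V × ℕ)) := Integrable.of_bound (C := 1) (hcm.pow_const 2).aestronglyMeasurable
    (Filter.Eventually.of_forall fun om => by
      rw [Real.norm_eq_abs, abs_pow]; exact pow_le_one₀ (abs_nonneg _) (abs_cz_le y _ _))
  have h3 : 0 ≤ ∫ om : V × ℕ → ℝ, (ownS k t (uL om) (sF μ D om) y -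
      cz y (uL om) (sF μ D om)) ^ 2 ∂(Pu (V × ℕ)) := integral_nonneg fun om => sq_nonneg _
  have h4 : ∫ om : V × ℕ → ℝ, (ownS k t (uL om) (sF μ D om) y - cz y (uL om) (sF μ D om)) ^ 2
      ∂(Pu (V × ℕ)) = (∫ om : V × ℕ → ℝ, ownS k t (uL om) (sF μ D om) y ^ 2 ∂(Pu (V × ℕ))) -
        2 * (∫ om : V × ℕ → ℝ, ownS k t (uL om) (sF μ D om) y * cz y (uL om) (sF μ D om)
          ∂(Pu (V × ℕ))) + ∫ om : V × ℕ → ℝ, cz y (uL om) (sF μ D om) ^ 2 ∂(Pu (V × ℕ)) := by
    have e5 := integral_add (i1.sub (i2.const_mul 2)) i3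
    have e6 := integral_sub i1 (i2.const_mul 2)
    have e7 := integral_const_mul (μ := Pu (V × ℕ)) 2 (fun om : V × ℕ → ℝ =>
      ownS k t (uL om) (sF μ D om) y * cz y (uL om) (sF μ D om))
    simp only [Pi.sub_apply] at e5
    rw [e6, e7] at e5
    rw [← e5]
    refine integral_congr_ae (Filter.Eventually.of_forall fun om => ?_)
    simp only
    ring
  simp only [own_eq_ownS]
  rw [h4, h1, h2] at h3
  linarith

end Vale.Agent.P161.EP
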