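import Mathlib

/-!
# Module J1 (Osgood)

Proof.  `φ(y) = y (1 - log y)` is nondecreasing and continuous on `[0,1]`, `φ 0 = 0`.
`w(t) = exp(1 - (1 + L) e^{-(C+1)t})` satisfies `w' = (C+1) φ(w)`, `w ≤ 1` for `L` large,
`w(t) → 0` as `L → ∞`.  Compare `Φ(t) = C ∫₀ᵗ φ(y)` with `w` by the boundary-derivative lemma.
-/

open MeasureTheory

namespace Vale.Agent.P161.EP

namespace Osgoodm

noncomputable def ph (y : ℝ) : ℝ := y + Real.negMulLog y

lemma ph_eq (y : ℝ) : y * (1 - Real.log y) = ph y := by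
  unfold ph Real.negMulLog
  ring

lemma ph_cont : Continuous ph := continuous_id.add Real.continuous_negMulLog

lemma ph_mono : MonotoneOn ph (Set.Icc 0 1) := by
  refine monotoneOn_of_deriv_nonneg (convex_Icc 0 1) ph_cont.continuousOn ?_ ?_
  · intro x hx
    rw [interior_Icc] at hx
    exact (differentiableAt_id.add
      (Real.hasDerivAt_negMulLog hx.1.ne').differentiableAt).differentiableWithinAt
  · intro x hx
    rw [interior_Icc] at hx
    have h := (hasDerivAt_id x).add (Real.hasDerivAt_negMulLog hx.1.ne')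
    have h' : HasDerivAt ph (1 + (-Real.log x - 1)) x := h
    rw [h'.deriv]
    have := Real.log_nonpos hx.1.le hx.2.le
    linarith

lemma ph_nonneg {x : ℝ} (h0 : 0 ≤ x) (h1 : x ≤ 1) : 0 ≤ ph x := by
  have := ph_mono (Set.left_mem_Icc.2 zero_le_one) ⟨h0, h1⟩ h0
  simpa [ph] using this

end Osgoodm

open Osgoodm Set

theorem osgood {y : ℝ → ℝ} {C : ℝ} (hC : 0 ≤ C) (hm : MonotoneOn y (Set.Icc 0 1))
    (h0 : ∀ t ∈ Set.Icc (0 : ℝ) 1, 0 ≤ y t) (h1 : ∀ t ∈ Set.Icc (0 : ℝ) 1, y t ≤ 1)
    (h : ∀ t ∈ Set.Icc (0 : ℝ) 1, y t ≤ C * ∫ s in (0 : ℝ)..t, y s * (1 - Real.log (y s))) :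
    ∀ t ∈ Set.Icc (0 : ℝ) 1, y t = 0 := by
  simp only [ph_eq] at h
  have hgm : MonotoneOn (fun s => ph (y s)) (Icc 0 1) := fun a ha b hb hab =>
    ph_mono ⟨h0 a ha, h1 a ha⟩ ⟨h0 b hb, h1 b hb⟩ (hm ha hb hab)
  have hint : ∀ a b : ℝ, a ∈ Icc (0 : ℝ) 1 → b ∈ Icc (0 : ℝ) 1 →
      IntervalIntegrable (fun s => ph (y s)) volume a b := by
    intro a b ha hb
    refine MonotoneOn.intervalIntegrable (hgm.mono ?_)
    exact uIcc_subset_Icc ha hb
  set Ph : ℝ → ℝ := fun t => C * ∫ s in (0 : ℝ)..t, ph (y s) with hPh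
  have hPc : ContinuousOn Ph (Icc 0 1) := by
    have := intervalIntegral.continuousOn_primitive_interval'
      (hint 0 1 (left_mem_Icc.2 zero_le_one) (right_mem_Icc.2 zero_le_one))
      (a := 0) (by simp)
    rw [uIcc_of_le zero_le_one] at this
    exact continuousOn_const.mul this
  -- comparison
  have key : ∀ L : ℝ, Real.exp (C + 1) ≤ L → ∀ t ∈ Icc (0 : ℝ) 1,
      Ph t ≤ Real.exp (1 - (1 + L) * Real.exp (-(C + 1) * t)) := by
    intro L hL
    have hL0 : 0 < L := (Real.exp_pos _).trans_le hL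
    set w : ℝ → ℝ := fun t => Real.exp (1 - (1 + L) * Real.exp (-(C + 1) * t)) with hw
    have hw1 : ∀ t ∈ Icc (0 : ℝ) 1, w t ≤ 1 := by
      intro t ht
      rw [hw]
      refine Real.exp_le_one_iff.2 ?_
      have e1 : Real.exp (-(C + 1)) ≤ Real.exp (-(C + 1) * t) := by
        apply Real.exp_le_exp.2
        nlinarith [ht.1, ht.2]
      have e2 : Real.exp (C + 1) * Real.exp (-(C + 1)) = 1 := by
        rw [← Real.exp_add]; simp
      have e3 : 1 ≤ (1 + L) * Real.exp (-(C + 1) * t) := by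
        calc 1 = Real.exp (C + 1) * Real.exp (-(C + 1)) := e2.symm
          _ ≤ (1 + L) * Real.exp (-(C + 1) * t) := by
            apply mul_le_mul (by linarith) e1 (Real.exp_pos _).le (by linarith)
      linarith
    have hwd : ∀ t, HasDerivAt w ((C + 1) * ph (w t)) t := by
      intro t
      have d1 : HasDerivAt (fun t : ℝ => -(C + 1) * t) (-(C + 1)) t := by
        simpa using (hasDerivAt_id t).const_mul (-(C + 1))
      have d2 := ((d1.exp.const_mul (1 + L)).const_sub 1).exp
      refine d2.congr_deriv ?_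
      rw [← ph_eq]
      simp only [hw, Real.log_exp]
      ring
    refine image_le_of_liminf_slope_right_lt_deriv_boundary (f' := fun x => C * ph (min (Ph x) 1))
      hPc ?_ ?_ hwd ?_
    · intro x hx r hr
      have hx' : x ∈ Icc (0 : ℝ) 1 := ⟨hx.1, hx.2.le⟩
      have hc : ContinuousWithinAt (fun z => C * ph (min (Ph z) 1)) (Icc 0 1) x :=
        continuousWithinAt_const.mul
          (ph_cont.continuousAt.comp_continuousWithinAt
            ((hPc x hx').min continuousWithinAt_const))
      have hev : ∀ᶠ z in nhdsWithin x (Ioi x), C * ph (min (Ph z) 1) < r := by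
        have h2 : ∀ᶠ z in nhdsWithin x (Icc 0 1), C * ph (min (Ph z) 1) < r :=
          hc.eventually (gt_mem_nhds hr)
        have h3 : nhdsWithin x (Ioi x) ≤ nhdsWithin x (Icc 0 1) := by
          refine nhdsWithin_le_of_mem ?_
          have : Ioo x 1 ⊆ Icc (0 : ℝ) 1 := fun z hz => ⟨hx.1.trans hz.1.le, hz.2.le⟩
          exact Filter.mem_of_superset (Ioo_mem_nhdsGT hx.2) this
        exact h3 h2
      have hev2 : ∀ᶠ z in nhdsWithin x (Ioi x), z ∈ Ioo x 1 := Ioo_mem_nhdsGT hx.2
      refine Filter.Eventually.frequently ?_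
      filter_upwards [hev, hev2] with z hz1 hz2
      refine lt_of_le_of_lt ?_ hz1
      have hz' : z ∈ Icc (0 : ℝ) 1 := ⟨hx.1.trans hz2.1.le, hz2.2.le⟩
      have hdiff : Ph z - Ph x = C * ∫ s in x..z, ph (y s) := by
        simp only [hPh]
        rw [← mul_sub, intervalIntegral.integral_interval_sub_left
          (hint 0 z (left_mem_Icc.2 zero_le_one) hz') (hint 0 x (left_mem_Icc.2 zero_le_one) hx')]
      have hle : ∫ s in x..z, ph (y s) ≤ (z - x) * ph (y z) := by
        have h4 : ∫ s in x..z, ph (y s) ≤ ∫ _ in x..z, ph (y z) := by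
          refine intervalIntegral.integral_mono_on hz2.1.le (hint x z hx' hz')
            intervalIntegrable_const ?_
          intro s hs
          exact hgm ⟨hx.1.trans hs.1, hs.2.trans hz'.2⟩ hz' hs.2
        simpa using h4
      have hy : ph (y z) ≤ ph (min (Ph z) 1) := by
        have hyz : y z ≤ min (Ph z) 1 := le_min (h z hz') (h1 z hz')
        exact ph_mono ⟨h0 z hz', h1 z hz'⟩ ⟨(h0 z hz').trans hyz, min_le_right _ _⟩ hyz
      have hpos : 0 < z - x := sub_pos.2 hz2.1
      rw [slope_def_field, hdiff, div_le_iff₀ hpos]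
      calc C * ∫ s in x..z, ph (y s) ≤ C * ((z - x) * ph (y z)) :=
            mul_le_mul_of_nonneg_left hle hC
        _ ≤ C * ((z - x) * ph (min (Ph z) 1)) := by gcongr
        _ = C * ph (min (Ph z) 1) * (z - x) := by ring
    · simp only [hPh, intervalIntegral.integral_same, mul_zero]
      exact (Real.exp_pos _).le
    · intro x hx hxe
      have hx' : x ∈ Icc (0 : ℝ) 1 := ⟨hx.1, hx.2.le⟩
      have hwx := hw1 x hx'
      have hwp : 0 < w x := Real.exp_pos _
      rw [hxe, min_eq_left hwx]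
      have hph : 0 < ph (w x) := by
        rw [← ph_eq]
        have := Real.log_nonpos hwp.le hwx
        exact mul_pos hwp (by linarith)
      nlinarith
  intro t ht
  refine le_antisymm ?_ (h0 t ht)
  have hlim : Filter.Tendsto (fun L : ℝ => Real.exp (1 - (1 + L) * Real.exp (-(C + 1) * t)))
      Filter.atTop (nhds 0) := by
    refine Real.tendsto_exp_atBot.comp ?_
    have e1 : Filter.Tendsto (fun L : ℝ => (1 + L) * Real.exp (-(C + 1) * t))
        Filter.atTop Filter.atTop :=
      (Filter.tendsto_atTop_add_const_left _ 1 Filter.tendsto_id).atTop_mul_const (Real.exp_pos _)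
    have := Filter.tendsto_atBot_add_const_left _ (1 : ℝ) (Filter.tendsto_neg_atTop_atBot.comp e1)
    refine this.congr fun L => ?_
    simp only [Function.comp_apply]
    ring
  have hle : Ph t ≤ 0 := by
    refine ge_of_tendsto hlim ?_
    filter_upwards [Filter.eventually_ge_atTop (Real.exp (C + 1))] with L hL
    exact key L hL t ht
  exact (h t ht).trans hle

end Vale.Agent.P161.EP
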