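import Mathlib
import Vale.Agent.P161.EP.Osgood

/-!
# Module Q, abstract part: a double sequence of monotone functions driven by an Osgood modulus
-/

open MeasureTheory Filter Topology

namespace Vale.Agent.P161.EP

theorem continuous_osg : Continuous fun y : ℝ => y * (1 - Real.log y) := by
  have h : (fun y : ℝ => y * (1 - Real.log y)) = fun y => y - y * Real.log y := by
    funext y; ring
  rw [h]
  exact continuous_id.sub Real.continuous_mul_log

theorem osg_nonneg {y : ℝ} (h0 : 0 ≤ y) (h1 : y ≤ 1) : 0 ≤ y * (1 - Real.log y) := by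
  have := Real.log_nonpos h0 h1
  exact mul_nonneg h0 (by linarith)

theorem osg_le_one {y : ℝ} (h0 : 0 ≤ y) (h1 : y ≤ 1) : y * (1 - Real.log y) ≤ 1 := by
  rcases h0.eq_or_lt with h | h
  · rw [← h]; simp
  · have h2 : Real.log y⁻¹ ≤ y⁻¹ - 1 := Real.log_le_sub_one_of_pos (inv_pos.mpr h)
    rw [Real.log_inv] at h2
    have h3 : y * (1 - Real.log y) ≤ y * y⁻¹ := by
      apply mul_le_mul_of_nonneg_left _ h.le
      linarith
    rwa [mul_inv_cancel₀ h.ne'] at h3

theorem closing_abs {a g : ℕ → ℕ → ℝ → ℝ} {C C' : ℝ} (hC : 0 ≤ C) (hC' : 0 ≤ C')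
    (hm : ∀ n m, MonotoneOn (a n m) (Set.Icc 0 1))
    (h0 : ∀ n m, ∀ t ∈ Set.Icc (0 : ℝ) 1, 0 ≤ a n m t)
    (h1 : ∀ n m, ∀ t ∈ Set.Icc (0 : ℝ) 1, a n m t ≤ 1)
    (hg : ∀ n m, Measurable (g n m))
    (hgb : ∀ n m t, 0 < t → t ≤ 1 → |g n m t| ≤ C')
    (hev : ∀ n m, ∀ t ∈ Set.Icc (0 : ℝ) 1, a n m t ≤ a n m 0 + ∫ s in (0 : ℝ)..t, g n m s)
    (hin : ∀ ε : ℝ, 0 < ε → ∃ N, ∀ n m, N ≤ n → N ≤ m → a n m 0 ≤ ε)
    (hpt : ∀ᵐ s ∂(volume.restrict (Set.Icc (0 : ℝ) 1)), ∀ y0 ε : ℝ, 0 < y0 → y0 ≤ 1 → 0 < ε →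
      (∃ N, ∀ n m, N ≤ n → N ≤ m → a n m s ≤ y0) →
      ∃ N, ∀ n m, N ≤ n → N ≤ m → g n m s ≤ C * (y0 * (1 - Real.log y0)) + ε) :
    ∀ ε : ℝ, 0 < ε → ∃ N, ∀ n m, N ≤ n → N ≤ m → a n m 1 ≤ ε := by
  set S : ℝ → Set ℝ := fun t => {c | 0 ≤ c ∧ ∃ N, ∀ n m, N ≤ n → N ≤ m → a n m t ≤ c} with hS
  set y : ℝ → ℝ := fun t => sInf (S t) with hy
  have hSb : ∀ t, BddBelow (S t) := fun t => ⟨0, fun c hc => hc.1⟩
  have hS1 : ∀ t ∈ Set.Icc (0 : ℝ) 1, (1 : ℝ) ∈ S t := fun t ht =>
    ⟨zero_le_one, 0, fun n m _ _ => h1 n m t ht⟩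
  have hyle : ∀ t c, c ∈ S t → y t ≤ c := fun t c hc => csInf_le (hSb t) hc
  have hylt : ∀ t ∈ Set.Icc (0 : ℝ) 1, ∀ c, y t < c → ∃ N, ∀ n m, N ≤ n → N ≤ m → a n m t ≤ c := by
    intro t ht c hc
    obtain ⟨c', ⟨_, N, hN⟩, hc'⟩ := exists_lt_of_csInf_lt ⟨1, hS1 t ht⟩ hc
    exact ⟨N, fun n m hn hm => (hN n m hn hm).trans hc'.le⟩
  have hy0 : ∀ t ∈ Set.Icc (0 : ℝ) 1, 0 ≤ y t := fun t ht =>
    le_csInf ⟨1, hS1 t ht⟩ fun c hc => hc.1
  have hy1 : ∀ t ∈ Set.Icc (0 : ℝ) 1, y t ≤ 1 := fun t ht => hyle t 1 (hS1 t ht)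
  have hymono : MonotoneOn y (Set.Icc 0 1) := by
    intro s hs t ht hst
    refine le_csInf ⟨1, hS1 t ht⟩ fun c hc => hyle s c ?_
    obtain ⟨hc0, N, hN⟩ := hc
    exact ⟨hc0, N, fun n m hn hm' => (hm n m hs ht hst).trans (hN n m hn hm')⟩
  -- the key inequality
  have key : ∀ t ∈ Set.Icc (0 : ℝ) 1, y t ≤ C * ∫ s in (0 : ℝ)..t, y s * (1 - Real.log (y s)) := by
    intro t ht
    set μt : Measure ℝ := volume.restrict (Set.Ioc 0 t) with hμt
    have hsub : Set.Ioc 0 t ⊆ Set.Icc (0 : ℝ) 1 := fun s hs => ⟨hs.1.le, hs.2.trans ht.2⟩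
    have hfin : IsFiniteMeasure μt := ⟨by rw [hμt]; simp⟩
    set Y : ℝ → ℝ := fun s => y s * (1 - Real.log (y s)) with hY
    have hYm : AEStronglyMeasurable Y μt := by
      have h2 : AEMeasurable y μt :=
        aemeasurable_restrict_of_monotoneOn measurableSet_Ioc (hymono.mono hsub)
      exact (continuous_osg.measurable.comp_aemeasurable h2).aestronglyMeasurable
    have hYb : ∀ᵐ s ∂μt, ‖Y s‖ ≤ 1 := by
      filter_upwards [ae_restrict_mem measurableSet_Ioc] with s hs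
      have hs' := hsub hs
      rw [Real.norm_eq_abs, abs_of_nonneg (osg_nonneg (hy0 s hs') (hy1 s hs'))]
      exact osg_le_one (hy0 s hs') (hy1 s hs')
    have hYi : Integrable Y μt := Integrable.of_bound hYm 1 hYb
    have hgi : ∀ n m, Integrable (g n m) μt := fun n m =>
      Integrable.of_bound (hg n m).aestronglyMeasurable C' (by
        filter_upwards [ae_restrict_mem measurableSet_Ioc] with s hs
        rw [Real.norm_eq_abs]
        exact hgb n m s hs.1 (hs.2.trans ht.2))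
    have hint : ∀ f : ℝ → ℝ, ∫ s in (0 : ℝ)..t, f s = ∫ s, f s ∂μt := fun f =>
      intervalIntegral.integral_of_le ht.1
    rw [hint]
    refine le_of_forall_pos_le_add fun ε hε => hyle t _ ⟨?_, ?_⟩
    · have : 0 ≤ ∫ s, Y s ∂μt := integral_nonneg_of_ae (by
        filter_upwards [ae_restrict_mem measurableSet_Ioc] with s hs
        exact osg_nonneg (hy0 s (hsub hs)) (hy1 s (hsub hs)))
      positivity
    by_contra hcon
    push Not at hcon
    choose n m hn hm' hnm using hcon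
    have hin0 : Tendsto (fun N => max (a (n N) (m N) 0) 0) atTop (𝓝 0) := by
      rw [Metric.tendsto_atTop]
      intro δ hδ
      obtain ⟨N, hN⟩ := hin (δ / 2) (half_pos hδ)
      refine ⟨N, fun k hk => ?_⟩
      rw [Real.dist_eq, sub_zero, abs_of_nonneg (le_max_right _ _)]
      exact max_lt ((hN _ _ (hk.trans (hn k)) (hk.trans (hm' k))).trans_lt (half_lt_self hδ)) hδ
    have hh : Tendsto (fun N => ∫ s, max (g (n N) (m N) s - C * Y s) 0 ∂μt) atTop (𝓝 (∫ _, (0 : ℝ) ∂μt)) := by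
      refine tendsto_integral_of_dominated_convergence (fun _ => C') ?_ (integrable_const _) ?_ ?_
      · intro N
        exact (((hg _ _).aestronglyMeasurable.sub (hYm.const_mul C)).sup
          aestronglyMeasurable_const)
      · intro N
        filter_upwards [ae_restrict_mem measurableSet_Ioc] with s hs
        rw [Real.norm_eq_abs, abs_of_nonneg (le_max_right _ _)]
        have h2 := hgb (n N) (m N) s hs.1 (hs.2.trans ht.2)
        have h3 : 0 ≤ Y s := osg_nonneg (hy0 s (hsub hs)) (hy1 s (hsub hs))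
        have h4 : 0 ≤ C * Y s := mul_nonneg hC h3
        exact max_le (by linarith [(abs_le.mp h2).2]) hC'
      · have hpt' := ae_mono (Measure.restrict_mono_set volume hsub) hpt
        filter_upwards [ae_restrict_mem measurableSet_Ioc, hpt'] with s hs hps
        have hs' := hsub hs
        have ha0 := hy0 s hs'
        have ha1 := hy1 s hs'
        rw [Metric.tendsto_atTop]
        intro δ hδ
        -- choose y0
        obtain ⟨y0, hy00, hy01, hyN, hyφ⟩ : ∃ y0 : ℝ, 0 < y0 ∧ y0 ≤ 1 ∧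
            (∃ N, ∀ n m, N ≤ n → N ≤ m → a n m s ≤ y0) ∧
            C * (y0 * (1 - Real.log y0)) ≤ C * Y s + δ / 4 := by
          rcases ha1.lt_or_eq with hlt | heq
          · have hcont : Tendsto (fun z : ℝ => C * (z * (1 - Real.log z))) (𝓝 (y s)) (𝓝 (C * Y s)) :=
              (continuous_const.mul continuous_osg).tendsto _
            have hev1 : ∀ᶠ z in 𝓝 (y s), C * (z * (1 - Real.log z)) < C * Y s + δ / 4 :=
              hcont.eventually (gt_mem_nhds (by linarith))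
            have hev2 : ∀ᶠ z in 𝓝[>] (y s), C * (z * (1 - Real.log z)) < C * Y s + δ / 4 ∧
                z < 1 ∧ y s < z := by
              refine (eventually_nhdsWithin_of_eventually_nhds hev1).and
                ((eventually_nhdsWithin_of_eventually_nhds (gt_mem_nhds hlt)).and ?_)
              exact eventually_mem_nhdsWithin
            obtain ⟨z, hz1, hz2, hz3⟩ := hev2.exists
            exact ⟨z, ha0.trans_lt hz3, hz2.le, hylt s hs' z hz3, hz1.le⟩
          · refine ⟨1, one_pos, le_rfl, ⟨0, fun n m _ _ => h1 n m s hs'⟩, ?_⟩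
            simp only [hY, heq]
            linarith
        obtain ⟨N, hN⟩ := hps y0 (δ / 4) hy00 hy01 (by linarith) hyN
        refine ⟨N, fun k hk => ?_⟩
        rw [Real.dist_eq, sub_zero, abs_of_nonneg (le_max_right _ _)]
        have h5 := hN _ _ (hk.trans (hn k)) (hk.trans (hm' k))
        exact max_lt (by linarith) hδ
    rw [integral_zero] at hh
    have hle : ∀ N, (C * ∫ s, Y s ∂μt) + ε ≤ max (a (n N) (m N) 0) 0 +
        ((C * ∫ s, Y s ∂μt) + ∫ s, max (g (n N) (m N) s - C * Y s) 0 ∂μt) := by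
      intro N
      have h2 := (hnm N).le.trans (hev (n N) (m N) t ht)
      rw [hint] at h2
      have h3 : ∫ s, g (n N) (m N) s ∂μt ≤
          (C * ∫ s, Y s ∂μt) + ∫ s, max (g (n N) (m N) s - C * Y s) 0 ∂μt := by
        rw [← integral_const_mul, ← integral_add (hYi.const_mul C)]
        · refine integral_mono (hgi _ _) ?_ fun s => ?_
          · exact (hYi.const_mul C).add (((hgi _ _).sub (hYi.const_mul C)).sup (integrable_const 0))
          · have := le_max_left (g (n N) (m N) s - C * Y s) 0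
            simp only
            linarith
        · exact (((hgi _ _).sub (hYi.const_mul C)).sup (integrable_const 0))
      have h4 := le_max_left (a (n N) (m N) 0) 0
      linarith
    have hlim : Tendsto (fun N => max (a (n N) (m N) 0) 0 +
        ((C * ∫ s, Y s ∂μt) + ∫ s, max (g (n N) (m N) s - C * Y s) 0 ∂μt)) atTop
        (𝓝 (0 + ((C * ∫ s, Y s ∂μt) + 0))) := hin0.add (tendsto_const_nhds.add hh)
    have := ge_of_tendsto' hlim hle
    linarith
  have hfin := osgood hC hymono hy0 hy1 key 1 ⟨zero_le_one, le_rfl⟩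
  intro ε hε
  exact hylt 1 ⟨zero_le_one, le_rfl⟩ ε (by rw [hfin]; exact hε)

end Vale.Agent.P161.EP
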