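import Mathlib

/-!
# Module J2 (Helly): Helly's selection theorem for countably many monotone families

Proof.  Sequential compactness of `∏_{(j,q)} [-B_j, B_j]`, `q` rational; outside the countable set
of discontinuities of the limsup the sequence converges.
-/

open MeasureTheory Filter Topology

namespace Vale.Agent.P161.EP

theorem helly {J : Type} [Countable J] (f : ℕ → J → ℝ → ℝ)
    (hm : ∀ n j, MonotoneOn (f n j) (Set.Icc 0 1)) {B : J → ℝ}
    (hb : ∀ n j, ∀ t ∈ Set.Icc (0 : ℝ) 1, |f n j t| ≤ B j) :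
    ∃ φ : ℕ → ℕ, StrictMono φ ∧ ∃ F : J → ℝ → ℝ, ∀ j,
      ∀ᵐ t ∂(volume.restrict (Set.Icc (0 : ℝ) 1)),
        Tendsto (fun n => f (φ n) j t) atTop (𝓝 (F j t)) := by
  -- extend to the line
  let fe : ℕ → J → ℝ → ℝ := fun n j t => f n j (Set.projIcc 0 1 zero_le_one t)
  have hfm : ∀ n j, Monotone (fe n j) := fun n j a b hab =>
    hm n j (Set.projIcc 0 1 zero_le_one a).2 (Set.projIcc 0 1 zero_le_one b).2
      (Set.monotone_projIcc zero_le_one hab)
  have hfb : ∀ n j t, |fe n j t| ≤ B j := fun n j t =>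
    hb n j _ (Set.projIcc 0 1 zero_le_one t).2
  have hfe : ∀ n j, ∀ t ∈ Set.Icc (0 : ℝ) 1, fe n j t = f n j t := by
    intro n j t ht
    simp only [fe, Set.projIcc_of_mem zero_le_one ht]
  -- compactness
  let S : Set (J × ℚ → ℝ) := Set.pi Set.univ fun p => Set.Icc (-B p.1) (B p.1)
  have hS : IsCompact S := isCompact_univ_pi fun p => isCompact_Icc
  let x : ℕ → (J × ℚ → ℝ) := fun n p => fe n p.1 (p.2 : ℝ)
  have hx : ∀ n, x n ∈ S := fun n p _ => abs_le.1 (hfb n p.1 _)
  obtain ⟨a, _, φ, hφ, ha⟩ := hS.isSeqCompact hx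
  rw [tendsto_pi_nhds] at ha
  have hlim : ∀ (j : J) (q : ℚ), Tendsto (fun n => fe (φ n) j q) atTop (𝓝 (a (j, q))) :=
    fun j q => ha (j, q)
  have bdA : ∀ j t, IsBoundedUnder (· ≤ ·) atTop fun n => fe (φ n) j t := fun j t =>
    isBoundedUnder_of ⟨B j, fun n => (abs_le.1 (hfb _ j t)).2⟩
  have bdB : ∀ j t, IsBoundedUnder (· ≥ ·) atTop fun n => fe (φ n) j t := fun j t =>
    isBoundedUnder_of ⟨-B j, fun n => (abs_le.1 (hfb _ j t)).1⟩
  let u : J → ℝ → ℝ := fun j t => limsup (fun n => fe (φ n) j t) atTop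
  let l : J → ℝ → ℝ := fun j t => liminf (fun n => fe (φ n) j t) atTop
  have hum : ∀ j, Monotone (u j) := fun j s t hst =>
    limsup_le_limsup (Eventually.of_forall fun n => hfm _ j hst)
      (bdB j s).isCoboundedUnder_le (bdA j t)
  have hlm : ∀ j, Monotone (l j) := fun j s t hst =>
    liminf_le_liminf (Eventually.of_forall fun n => hfm _ j hst)
      (bdB j s) (bdA j t).isCoboundedUnder_ge
  have huq : ∀ j (q : ℚ), u j q = l j q := fun j q =>
    (hlim j q).limsup_eq.trans (hlim j q).liminf_eq.symm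
  have key : ∀ j t, ContinuousAt (u j) t → u j t ≤ l j t := by
    intro j t hc
    refine le_of_forall_pos_sub_le fun ε hε => ?_
    have h1 : ∀ᶠ s in 𝓝 t, u j t - ε < u j s := hc.eventually (lt_mem_nhds (by linarith))
    obtain ⟨δ, hδ, hball⟩ := Metric.eventually_nhds_iff.1 h1
    obtain ⟨q, hq1, hq2⟩ := exists_rat_btwn (show t - δ < t by linarith)
    have h2 : dist (q : ℝ) t < δ := by
      rw [Real.dist_eq, abs_lt]; constructor <;> linarith
    have h3 := hball h2
    calc u j t - ε ≤ u j q := h3.le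
      _ = l j q := huq j q
      _ ≤ l j t := hlm j hq2.le
  refine ⟨φ, hφ, u, fun j => ?_⟩
  rw [ae_restrict_iff' measurableSet_Icc]
  have hcount : {t | ¬ ContinuousAt (u j) t}.Countable := (hum j).countable_not_continuousAt
  filter_upwards [hcount.ae_notMem volume] with t ht htI
  have hc : ContinuousAt (u j) t := not_not.1 ht
  have h4 : Tendsto (fun n => fe (φ n) j t) atTop (𝓝 (u j t)) :=
    tendsto_of_le_liminf_of_limsup_le (key j t hc) le_rfl (bdA j t) (bdB j t)
  refine h4.congr fun n => hfe _ j t htI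

end Vale.Agent.P161.EP
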