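import Mathlib
import Vale.Agent.P161.Insert
import Vale.Agent.P161.EP.SampF
import Vale.Agent.P161E.Evol3

/-!
# Module W (Window): the evolution of the mean square difference of two finite systems

Proof.  (1) telescoping over the sites `e = (w,k)`, `w ∈ D'`, of the window
`-1 + t1 ≤ uL om e < -1 + t2` (distinct ranks, a.s.):
`dm(k,t2)² - dm(k,t1)² = ∑_e 1[e in the window] (dm(after e)² - dm(before e)²)`.
(2) resample the driving label of `e` (`integral_resample`): `mag_step`, `integral_incr`,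
`integral_sq_add`, `abs_incr_sub_le`, `abs_incr_le` give, for `w ∈ D`,
`E_x dm(after e)² ≤ dm(before e)² + gs² (8 (J - J')² + 32 J'² dm_w²)(before e)` and for `w ∈ D' \ D`
`≤ dm(before e)² + 4 gs² J'²`; always `≥ dm(before e)²`.
(3) resample the order label of `e` (`window_lemma`).
-/

open MeasureTheory

namespace Vale.Agent.P161

universe u

section

variable {V : Type u} {μ μ' : Measure (V → Bool)}

/-- The sampler with strengths restricted to `D` on a larger set of events. -/
theorem vcov_strD {D D' : Finset V} (hD : D ⊆ D') {k l : ℕ} (hkl : k ≤ l) (y : ℝ)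
    (U u : V × ℕ → ℝ) (v w : V) :
    vcov μ (strD (D : Set V) U) Prod.fst (rk2 U) (lo (rk2 U) (evK D' l) (toLex (k, y))) u v w =
      vcov μ (strU U) Prod.fst (rk2 U) (evT D U k y) u v w := by
  rw [lo_evK hkl]
  have h1 : ∀ e : V × ℕ, e.1 ∈ D → strD (D : Set V) U e = strU U e := by
    intro e he
    unfold strD ind1
    rw [if_pos (by exact_mod_cast he), one_mul]
  have h2 : ∀ e : V × ℕ, e.1 ∉ D → strD (D : Set V) U e = 0 := by
    intro e he
    unfold strD ind1
    rw [if_neg (by exact_mod_cast he), zero_mul]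
  have hS : ∀ e : V × ℕ, strD (D : Set V) U e ≠ 0 → (e ∈ evT D' U k y ↔ e ∈ evT D U k y) := by
    intro e he
    have he' : e.1 ∈ D := by
      by_contra hcon
      exact he (h2 e hcon)
    rw [mem_evT, mem_evT]
    constructor
    · rintro ⟨_, h3⟩; exact ⟨he', h3⟩
    · rintro ⟨_, h3⟩; exact ⟨hD he', h3⟩
  have hobs : ∀ e ∈ evT D U k y,
      vobs μ (strD (D : Set V) U) Prod.fst (rk2 U) (evT D' U k y) u e =
      vobs μ (strU U) Prod.fst (rk2 U) (evT D U k y) u e := by
    intro e he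
    rw [vobs_drop μ Prod.fst hS u e]
    unfold vobs
    rw [h1 e (mem_evT.1 he).1]
    congr 1
    exact vsamp_congr μ _ rfl (fun _ _ => rfl) (fun _ _ => rfl) rfl
      (fun j hj => h1 j (mem_evT.1 (mem_pre.1 hj).1).1) (h1 e (mem_evT.1 he).1)
  unfold vcov
  have e1 : cov μ Prod.fst (evT D' U k y)
      (vobs μ (strD (D : Set V) U) Prod.fst (rk2 U) (evT D' U k y) u) v w =
      cov μ Prod.fst (evT D U k y)
      (vobs μ (strD (D : Set V) U) Prod.fst (rk2 U) (evT D' U k y) u) v w := by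
    refine cov_drop (fun i hi => hS i ?_) v w
    intro h0
    exact hi (by unfold vobs; rw [h0, zero_mul])
  rw [e1]
  unfold cov
  rw [mag_congr hobs v, mag_congr hobs w, cor_congr hobs]

/-- `ED` in terms of the samplers on `D` and `D'`, for two measures. -/
theorem ED_eq2 {D D' : Finset V} (hD : D ⊆ D') {k l : ℕ} (hkl : k ≤ l) (y : ℝ) (v : V) :
    ED μ μ' (D : Set V) (D' : Set V) (evK D' l) (toLex (k, y)) v =
      ∫ U, ∫ u, (mf μ D k y U u v - mf μ' D' k y U u v) ^ 2 ∂(Pu (V × ℕ)) ∂(Pu (V × ℕ)) := by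
  unfold ED PD pd
  refine integral_congr_ae (Filter.Eventually.of_forall fun U => ?_)
  refine integral_congr_ae (Filter.Eventually.of_forall fun u => ?_)
  simp only
  rw [vmag_strD hD hkl, vmag_strD (Finset.Subset.refl D') hkl]

/-- The posterior mean does not depend on the order label of a later event. -/
theorem mf_congr (μ : Measure (V → Bool)) (D : Finset V) {k : ℕ} {y : ℝ} {U U' : V × ℕ → ℝ}
    {e : V × ℕ} (hk : e.2 = k) (h : ∀ i, i ≠ e → U i = U' i) (hy : y ≤ U e) (hy' : y ≤ U' e)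
    (u : V × ℕ → ℝ) (v : V) : mf μ D k y U u v = mf μ D k y U' u v := by
  have hS : evT D U k y = evT D U' k y := by
    ext i
    rw [mem_evT, mem_evT]
    by_cases hi : i = e
    · subst hi
      constructor
      · rintro ⟨_, h1 | ⟨_, h1⟩⟩
        · omega
        · exact absurd h1 (not_lt.2 hy)
      · rintro ⟨_, h1 | ⟨_, h1⟩⟩
        · omega
        · exact absurd h1 (not_lt.2 hy')
    · rw [h i hi]
  have hne : ∀ i ∈ evT D U k y, i ≠ e := by
    rintro i hi rfl
    rcases (mem_evT.1 hi).2 with h1 | ⟨_, h1⟩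
    · omega
    · exact absurd h1 (not_lt.2 hy)
  unfold mf
  rw [← hS]
  refine vmag_congr_on μ _ (fun i hi => strU_congr (h i (hne i hi))) (fun i hi j hj => ?_) u v
  rw [rk2_lt_rk2, rk2_lt_rk2, h i (hne i hi), h j (hne j hj)]

end

end Vale.Agent.P161

namespace Vale.Agent.P161.EP

universe u

variable {V : Type u}

theorem measurable_slice {f : ℝ × (V × ℕ → ℝ) → ℝ} (hf : Measurable f) {τ : (V × ℕ → ℝ) → ℝ}
    (hτ : Measurable τ) : Measurable fun om => f (τ om, om) := by
  have h : Measurable fun om : V × ℕ → ℝ => ((τ om, om) : ℝ × (V × ℕ → ℝ)) :=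
    hτ.prodMk measurable_id
  exact hf.comp h

theorem measurable_wtc1 (a b : ℝ) :
    Measurable ((Set.Ico a b).indicator fun _ : ℝ => (1 : ℝ)) :=
  measurable_const.indicator measurableSet_Ico

/-- The general form: `c` is a nonnegative bounded weight supported in the window. -/
theorem window_aux [Countable V] (e : V × ℕ) {H : ℝ → (V × ℕ → ℝ) → ℝ}
    (hH : Measurable fun p : ℝ × (V × ℕ → ℝ) => H p.1 p.2) (h0 : ∀ t om, 0 ≤ H t om) {B : ℝ}
    (hB : ∀ t om, H t om ≤ B)
    (hdep : ∀ (t : ℝ) (om om' : V × ℕ → ℝ), (∀ i, i ≠ (e.1, 2 * e.2) → om i = om' i) →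
      -1 + t ≤ uL om e → -1 + t ≤ uL om' e → H t om = H t om')
    {t1 t2 : ℝ} (h1 : 0 ≤ t1) (h12 : t1 ≤ t2) (h2 : t2 ≤ 1) {f : ℝ → ℝ} (hf : Measurable f)
    {K : ℝ} (hK : ∀ z, z ∈ Set.Ico (-1 + t1) (-1 + t2) → |f z| ≤ K)
    (hf0 : ∀ z, z ∈ Set.Ico (-1 + t1) (-1 + t2) → 0 ≤ f z) (hK0 : 0 ≤ K) :
    ∫ om, (if -1 + t1 ≤ uL om e ∧ uL om e < -1 + t2 then
        f (uL om e) * H (1 + uL om e) om else 0) ∂(Pu (V × ℕ)) ≤
      ∫ t in t1..t2, f (-1 + t) * ∫ om, H t om ∂(Pu (V × ℕ)) := by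
  have hupd : ∀ (inst : DecidableEq (V × ℕ)) (om : V × ℕ → ℝ) (y z : ℝ), y ≤ z →
      H (1 + y) (@Function.update _ _ inst om (e.1, 2 * e.2) z) =
        H (1 + y) (@Function.update _ _ inst om (e.1, 2 * e.2) y) := by
    intro inst om y z hz
    refine hdep _ _ _ (fun i hi => by
        rw [Function.update_of_ne hi, Function.update_of_ne hi]) ?_ ?_
    · have : uL (Function.update om (e.1, 2 * e.2) z) e = z := by
        unfold uL; rw [Function.update_self]
      rw [this]; linarith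
    · have : uL (Function.update om (e.1, 2 * e.2) y) e = y := by
        unfold uL; rw [Function.update_self]
      rw [this]; linarith
  have hHm : Measurable fun p : (V × ℕ → ℝ) × ℝ => H (1 + p.2) p.1 := by
    have h3 : Measurable fun p : (V × ℕ → ℝ) × ℝ => ((1 + p.2, p.1) : ℝ × (V × ℕ → ℝ)) :=
      (measurable_const.add measurable_snd).prodMk measurable_fst
    exact hH.comp h3
  set c : ℝ → ℝ := (Set.Ico (-1 + t1) (-1 + t2)).indicator f with hc
  have hcm : Measurable c := hf.indicator measurableSet_Ico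
  have hB0 : 0 ≤ B := (h0 0 (fun _ => 0)).trans (hB _ _)
  have hw := window_resample (ι := V × ℕ) (e.1, 2 * e.2) (Φ := fun om y => H (1 + y) om)
    hHm (C := B)
    (fun om y => by rw [abs_of_nonneg (h0 _ _)]; exact hB _ _) (fun om y => h0 _ _)
    (a := -1 + t1) (b := -1 + t2) (by linarith) (by linarith)
    (hupd _)
    (c := c) hcm (K := K) (fun z => by
      by_cases hz : z ∈ Set.Ico (-1 + t1) (-1 + t2)
      · rw [hc, Set.indicator_of_mem hz]; exact hK z hz
      · rw [hc, Set.indicator_of_notMem hz, abs_zero]; exact hK0) (fun z => by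
      by_cases hz : z ∈ Set.Ico (-1 + t1) (-1 + t2)
      · rw [hc, Set.indicator_of_mem hz]; exact hf0 z hz
      · rw [hc, Set.indicator_of_notMem hz]) fun z hz => by
        rw [hc]; exact Set.indicator_of_notMem (s := Set.Ico (-1 + t1) (-1 + t2)) hz _
  have eL : ∫ om, (if -1 + t1 ≤ uL om e ∧ uL om e < -1 + t2 then
        f (uL om e) * H (1 + uL om e) om else 0) ∂(Pu (V × ℕ)) =
      ∫ om, c (om (e.1, 2 * e.2)) * H (1 + om (e.1, 2 * e.2)) om ∂(Pu (V × ℕ)) := by
    refine integral_congr_ae (Filter.Eventually.of_forall fun om => ?_)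
    have e1 : uL om e = om (e.1, 2 * e.2) := rfl
    simp only [e1]
    by_cases hz : -1 + t1 ≤ om (e.1, 2 * e.2) ∧ om (e.1, 2 * e.2) < -1 + t2
    · rw [if_pos hz, hc, Set.indicator_of_mem (s := Set.Ico (-1 + t1) (-1 + t2)) hz]
    · rw [if_neg hz, hc, Set.indicator_of_notMem (s := Set.Ico (-1 + t1) (-1 + t2)) hz, zero_mul]
  have eR : ∫ z, c z * (2 * ∫ om, H (1 + z) om ∂(Pu (V × ℕ))) ∂unif =
      ∫ t in t1..t2, f (-1 + t) * ∫ om, H t om ∂(Pu (V × ℕ)) := by
    have e2 : ∀ z, c z * (2 * ∫ om, H (1 + z) om ∂(Pu (V × ℕ))) =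
        (Set.Ico (-1 + t1) (-1 + t2)).indicator
          (fun z => 2 * (f z * ∫ om, H (1 + z) om ∂(Pu (V × ℕ)))) z := by
      intro z
      by_cases hz : z ∈ Set.Ico (-1 + t1) (-1 + t2)
      · rw [hc, Set.indicator_of_mem hz, Set.indicator_of_mem hz]; ring
      · rw [hc, Set.indicator_of_notMem hz, Set.indicator_of_notMem hz, zero_mul]
    simp only [e2]
    rw [integral_unif_Ico (by linarith) (by linarith), integral_Ico_eq_integral_Ioc,
      ← intervalIntegral.integral_of_le (by linarith)]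
    have h3 := intervalIntegral.integral_comp_add_left (a := t1) (b := t2)
      (fun z => f z * ∫ om, H (1 + z) om ∂(Pu (V × ℕ))) (-1)
    rw [← h3]
    refine intervalIntegral.integral_congr fun t _ => ?_
    have h4 : 1 + (-1 + t) = t := by ring
    simp only [h4]
  rw [eL, ← eR]
  exact hw

/-- The window lemma.  `H t om` only depends on the order label of the site `e` through the event
`uL om e < -1 + t`. -/
theorem window_lemma [Countable V] (e : V × ℕ) {H : ℝ → (V × ℕ → ℝ) → ℝ}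
    (hH : Measurable fun p : ℝ × (V × ℕ → ℝ) => H p.1 p.2) (h0 : ∀ t om, 0 ≤ H t om) {B : ℝ}
    (hB : ∀ t om, H t om ≤ B)
    (hdep : ∀ (t : ℝ) (om om' : V × ℕ → ℝ), (∀ i, i ≠ (e.1, 2 * e.2) → om i = om' i) →
      -1 + t ≤ uL om e → -1 + t ≤ uL om' e → H t om = H t om')
    {t1 t2 : ℝ} (h1 : 0 ≤ t1) (h12 : t1 ≤ t2) (h2 : t2 ≤ 1) :
    ∫ om, (if -1 + t1 ≤ uL om e ∧ uL om e < -1 + t2 then
        gs (uL om e) ^ 2 * H (1 + uL om e) om else 0) ∂(Pu (V × ℕ)) ≤
      ∫ t in t1..t2, (t / 2) ^ 2 * ∫ om, H t om ∂(Pu (V × ℕ)) := by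
  have h3 := window_aux e hH h0 hB hdep h1 h12 h2 (f := fun z => gs z ^ 2)
    (measurable_gs.pow_const 2) (K := 1) (fun z _ => by
      rw [abs_of_nonneg (sq_nonneg _)]
      have h4 := gs_lt z
      have h5 := gs_nonneg z
      nlinarith) (fun z _ => sq_nonneg _) zero_le_one
  refine h3.trans (le_of_eq ?_)
  -- at `t = 1` the two sides may differ, a null set
  rw [intervalIntegral.integral_of_le h12, intervalIntegral.integral_of_le h12,
    ← integral_Ico_eq_integral_Ioc, ← integral_Ico_eq_integral_Ioc]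
  refine setIntegral_congr_fun measurableSet_Ico fun t ht => ?_
  have h6 : gs (-1 + t) = t / 2 := by
    unfold gs
    rw [if_pos (by linarith [ht.2]), max_eq_right (by linarith [ht.1])]
    ring
  simp only [h6]

/-- The same without the strength. -/
theorem window_lemma' [Countable V] (e : V × ℕ) {H : ℝ → (V × ℕ → ℝ) → ℝ}
    (hH : Measurable fun p : ℝ × (V × ℕ → ℝ) => H p.1 p.2) (h0 : ∀ t om, 0 ≤ H t om) {B : ℝ}
    (hB : ∀ t om, H t om ≤ B)
    (hdep : ∀ (t : ℝ) (om om' : V × ℕ → ℝ), (∀ i, i ≠ (e.1, 2 * e.2) → om i = om' i) →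
      -1 + t ≤ uL om e → -1 + t ≤ uL om' e → H t om = H t om') :
    ∫ om, (if -1 ≤ uL om e ∧ uL om e < 0 then H (1 + uL om e) om else 0) ∂(Pu (V × ℕ)) ≤
      ∫ t in (0 : ℝ)..1, ∫ om, H t om ∂(Pu (V × ℕ)) := by
  have h3 := window_aux e hH h0 hB hdep le_rfl zero_le_one le_rfl (f := fun _ => (1 : ℝ))
    measurable_const (K := 1) (fun z _ => by simp) (fun z _ => zero_le_one) zero_le_one
  simpa using h3

variable {G : SimpleGraph V} {θ θ' : ℝ} {μ μ' : Measure (V → Bool)}

/-- The mean square difference of two finite systems. -/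
noncomputable def YF (μ μ' : Measure (V → Bool)) (D D' : Finset V) (k : ℕ) (v : V) (t : ℝ) : ℝ :=
  ∫ om, (mF μ D k t om v - mF μ' D' k t om v) ^ 2 ∂(Pu (V × ℕ))

open Classical in
/-- The driving term of a site at `w`. -/
noncomputable def hF (μ μ' : Measure (V → Bool)) (D D' : Finset V) (k : ℕ) (t : ℝ)
    (om : V × ℕ → ℝ) (v w : V) : ℝ :=
  if w ∈ D then 8 * (covF μ D k t om v w - covF μ' D' k t om v w) ^ 2 +
      32 * covF μ' D' k t om v w ^ 2 * (mF μ D k t om w - mF μ' D' k t om w) ^ 2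
    else 4 * covF μ' D' k t om v w ^ 2

theorem covF_eq (μ : Measure (V → Bool)) (D : Finset V) (k : ℕ) (t : ℝ) (om : V × ℕ → ℝ)
    (v w : V) : covF μ D k t om v w =
      vcov μ (strU (uL om)) Prod.fst (rk2 (uL om)) (evT D (uL om) k (-1 + t)) (xL om) v w := by
  unfold covF vcov
  rw [← bef_eq]
  have h : ∀ i ∈ bef om D k t, cF μ D om i =
      vobs μ (strU (uL om)) Prod.fst (rk2 (uL om)) (bef om D k t) (xL om) i :=
    fun i hi => cF_eq_vobs μ (bef_before hi)
  unfold cov
  rw [mag_congr h v, mag_congr h w, cor_congr h]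

theorem measurable_YF_int [Countable V] [IsProbabilityMeasure μ] [IsProbabilityMeasure μ']
    (D D' : Finset V) (k : ℕ) (v : V) :
    Measurable fun p : ℝ × (V × ℕ → ℝ) =>
      (mF μ D k p.1 p.2 v - mF μ' D' k p.1 p.2 v) ^ 2 :=
  ((measurable_mF D k v).sub (measurable_mF D' k v)).pow_const 2

/-- `YF` in terms of `ED`. -/
theorem YF_eq [Countable V] [IsProbabilityMeasure μ] [IsProbabilityMeasure μ'] {D D' : Finset V}
    (hD : D ⊆ D') (k : ℕ) (v : V) (t : ℝ) :
    YF μ μ' D D' k v t =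
      ED μ μ' (D : Set V) (D' : Set V) (evK D' k) (toLex (k, -1 + t)) v := by
  rw [ED_eq2 hD le_rfl]
  unfold YF
  rw [integral_joinUX (h := fun om => (mF μ D k t om v - mF μ' D' k t om v) ^ 2)
    (measurable_slice (measurable_YF_int D D' k v) measurable_const) (C := 4)
    (fun om => by
      rw [abs_of_nonneg (sq_nonneg _)]
      exact sq_sub_le_four (abs_mF_le D k t om v) (abs_mF_le D' k t om v))]
  refine integral_congr_ae (Filter.Eventually.of_forall fun U => ?_)
  refine integral_congr_ae (Filter.Eventually.of_forall fun x => ?_)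
  simp only [mF_eq_mf, uL_joinUX, xL_joinUX]

theorem measurable_hF [Countable V] [IsProbabilityMeasure μ] [IsProbabilityMeasure μ']
    (D D' : Finset V) (k : ℕ) (v w : V) :
    Measurable fun p : ℝ × (V × ℕ → ℝ) => hF μ μ' D D' k p.1 p.2 v w := by
  unfold hF
  split_ifs
  · exact ((((measurable_covF D k v w).sub (measurable_covF D' k v w)).pow_const 2).const_mul
      8).add ((((measurable_covF D' k v w).pow_const 2).const_mul 32).mul
        (measurable_YF_int D D' k w))
  · exact ((measurable_covF D' k v w).pow_const 2).const_mul 4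

theorem hF_nonneg (D D' : Finset V) (k : ℕ) (t : ℝ) (om : V × ℕ → ℝ) (v w : V) :
    0 ≤ hF μ μ' D D' k t om v w := by
  unfold hF
  split_ifs <;> positivity

theorem abs_covF_le [IsProbabilityMeasure μ] (D : Finset V) (k : ℕ) (t : ℝ) (om : V × ℕ → ℝ)
    (v w : V) : |covF μ D k t om v w| ≤ 2 :=
  abs_cov_le_two (fun i _ => abs_cF_lt_one D om i) v w

theorem hF_eq_qq {D D' : Finset V} {k : ℕ} {t : ℝ} {om : V × ℕ → ℝ} {v w : V}
    (hw : w ∈ D') : hF μ μ' D D' k t om v w =
      qq (ind1 (D : Set V) w) (ind1 (D' : Set V) w) (covF μ D k t om v w)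
        (covF μ' D' k t om v w) (mF μ D k t om w) (mF μ' D' k t om w) := by
  have i2 : ind1 (D' : Set V) w = 1 := by unfold ind1; rw [if_pos (by exact_mod_cast hw)]
  unfold hF qq
  rw [i2]
  by_cases h : w ∈ D
  · have i1 : ind1 (D : Set V) w = 1 := by unfold ind1; rw [if_pos (by exact_mod_cast h)]
    rw [i1, if_pos h, if_neg one_ne_zero]
    simp only [one_mul]
  · have i1 : ind1 (D : Set V) w = 0 := by unfold ind1; rw [if_neg (by exact_mod_cast h)]
    rw [i1, if_neg h, if_pos rfl]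
    simp only [one_mul]

theorem hF_le [IsProbabilityMeasure μ] [IsProbabilityMeasure μ'] {D D' : Finset V} {k : ℕ}
    {t : ℝ} {om : V × ℕ → ℝ} {v w : V} (hw : w ∈ D') : hF μ μ' D D' k t om v w ≤ 1000 := by
  rw [hF_eq_qq hw]
  exact qq_le (ind1_eq _ _) (ind1_eq _ _) (abs_covF_le D k t om v w) (abs_covF_le D' k t om v w)
    (abs_mF_le D k t om w) (abs_mF_le D' k t om w)

theorem EQ_eq [Countable V] [IsProbabilityMeasure μ] [IsProbabilityMeasure μ'] {D D' : Finset V}
    (hD : D ⊆ D') (k : ℕ) (v : V) {w : V} (hw : w ∈ D') (t : ℝ) :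
    ∫ om, hF μ μ' D D' k t om v w ∂(Pu (V × ℕ)) =
      EQ μ μ' (D : Set V) (D' : Set V) (evK D' k) (toLex (k, -1 + t)) v w := by
  have h1 := integral_joinUX (h := fun om => hF μ μ' D D' k t om v w)
    (measurable_slice (measurable_hF D D' k v w) measurable_const) (C := 1000)
    (fun om => by
      rw [abs_of_nonneg (hF_nonneg _ _ _ _ _ _ _)]
      exact hF_le hw)
  rw [h1]
  unfold EQ PQ pq
  refine integral_congr_ae (Filter.Eventually.of_forall fun U => ?_)
  refine integral_congr_ae (Filter.Eventually.of_forall fun x => ?_)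
  simp only
  rw [hF_eq_qq hw, covF_eq, covF_eq, mF_eq_mf, mF_eq_mf, uL_joinUX, xL_joinUX,
    vcov_strD hD le_rfl, vcov_strD (Finset.Subset.refl D') le_rfl, vmag_strD hD le_rfl,
    vmag_strD (Finset.Subset.refl D') le_rfl]

/-- For negative times nothing happens. -/
theorem mF_le_zero (μ : Measure (V → Bool)) (D : Finset V) (k : ℕ) {t : ℝ}
    (ht : t ≤ 0) (v : V) (om : V × ℕ → ℝ) : mF μ D k t om v = mF μ D k 0 om v := by
  unfold mF
  refine mag_drop (fun i hi => ?_) v
  have h2 := cF_ne_zero hi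
  rw [bef_eq, mem_evT, bef_eq, mem_evT]
  constructor
  · rintro ⟨h1, h3 | ⟨h3, h4⟩⟩
    · exact ⟨h1, Or.inl h3⟩
    · exact absurd h4 (by linarith [h2.1])
  · rintro ⟨h1, h3 | ⟨h3, h4⟩⟩
    · exact ⟨h1, Or.inl h3⟩
    · exact absurd h4 (by linarith [h2.1])

theorem YF_clamp (D D' : Finset V) (k : ℕ) (v : V) (t : ℝ) :
    YF μ μ' D D' k v t = YF μ μ' D D' k v (max 0 (min 1 t)) := by
  unfold YF
  refine integral_congr_ae (Filter.Eventually.of_forall fun om => ?_)
  simp only
  rcases le_total t 0 with h | h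
  · rw [min_eq_right (by linarith), max_eq_left h, mF_le_zero μ D k h, mF_le_zero μ' D' k h]
  · rcases le_total t 1 with h' | h'
    · rw [min_eq_right h', max_eq_right h]
    · rw [min_eq_left h', max_eq_right zero_le_one, mF_ge_one μ D k h', mF_ge_one μ' D' k h']

theorem evK_iff (D' : Finset V) (k : ℕ) : ∀ e : V × ℕ, e.2 = k → (e ∈ evK D' k ↔ e.1 ∈ D') := by
  intro e he
  rw [mem_evK]
  exact ⟨fun h => h.1, fun h => ⟨h, by omega⟩⟩

/-- The evolution inequality in the form with integrals over `Ico`. -/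
theorem evol_aux [Countable V] [IsProbabilityMeasure μ] [IsProbabilityMeasure μ']
    (D D' : Finset V) (k : ℕ) (v : V) {y1 y2 : ℝ} (h1 : -1 ≤ y1) (h12 : y1 ≤ y2) (h2 : y2 ≤ 0) :
    ED μ μ' (D : Set V) (D' : Set V) (evK D' k) (toLex (k, y1)) v ≤
      ED μ μ' (D : Set V) (D' : Set V) (evK D' k) (toLex (k, y2)) v ∧
    ED μ μ' (D : Set V) (D' : Set V) (evK D' k) (toLex (k, y2)) v ≤
      ED μ μ' (D : Set V) (D' : Set V) (evK D' k) (toLex (k, y1)) v +
      ∫ y in Set.Ico y1 y2, ((1 + y) / 2) ^ 2 * ∑ w ∈ D',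
        EQ μ μ' (D : Set V) (D' : Set V) (evK D' k) (toLex (k, y)) v w := by
  refine evol (evK_iff D' k) v h1 h12 h2 ?_ fun y _ _ => le_rfl
  have hm : Measurable fun y : ℝ => ((1 + y) / 2) ^ 2 * ∑ w ∈ D',
      EQ μ μ' (D : Set V) (D' : Set V) (evK D' k) (toLex (k, y)) v w :=
    (((measurable_const.add measurable_id).div_const 2).pow_const 2).mul
      (Finset.measurable_fun_sum _ fun w _ => measurable_EQ k v w)
  refine Measure.integrableOn_of_bounded (M := ∑ _w ∈ D', (1000 : ℝ)) (by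
    rw [Real.volume_Ico]; exact ENNReal.ofReal_ne_top) hm.aestronglyMeasurable ?_
  refine (ae_restrict_mem measurableSet_Ico).mono fun y hy => ?_
  have hnn : 0 ≤ ∑ w ∈ D', EQ μ μ' (D : Set V) (D' : Set V) (evK D' k) (toLex (k, y)) v w :=
    Finset.sum_nonneg fun w _ => EQ_nonneg _ _ _
  rw [Real.norm_eq_abs, abs_of_nonneg (mul_nonneg (sq_nonneg _) hnn)]
  have h3 : ((1 + y) / 2) ^ 2 ≤ 1 := by
    have h4 : y1 ≤ y := hy.1
    have h5 : y < y2 := hy.2
    nlinarith
  calc _ ≤ 1 * ∑ w ∈ D', EQ μ μ' (D : Set V) (D' : Set V) (evK D' k) (toLex (k, y)) v w :=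
        mul_le_mul_of_nonneg_right h3 hnn
    _ ≤ _ := by
        rw [one_mul]
        exact Finset.sum_le_sum fun w _ => EQ_le k y v w

theorem YF_mono [Countable V] [IsProbabilityMeasure μ] [IsProbabilityMeasure μ'] (D D' : Finset V)
    (hD : D ⊆ D') (k : ℕ) (v : V) {t1 t2 : ℝ} (h12 : t1 ≤ t2) :
    YF μ μ' D D' k v t1 ≤ YF μ μ' D D' k v t2 := by
  rw [YF_clamp D D' k v t1, YF_clamp D D' k v t2, YF_eq hD, YF_eq hD]
  have h1 : max 0 (min 1 t1) ≤ max 0 (min 1 t2) := max_le_max le_rfl (min_le_min le_rfl h12)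
  have h2 : max 0 (min 1 t2) ≤ 1 := max_le zero_le_one (min_le_left _ _)
  have h3 : 0 ≤ max 0 (min 1 t1) := le_max_left _ _
  exact (evol_aux D D' k v (by linarith) (by linarith) (by linarith)).1

theorem YF_evolution [Countable V] [IsProbabilityMeasure μ] [IsProbabilityMeasure μ']
    (D D' : Finset V) (hD : D ⊆ D') (k : ℕ) (v : V) {t1 t2 : ℝ} (h1 : 0 ≤ t1) (h12 : t1 ≤ t2)
    (h2 : t2 ≤ 1) :
    YF μ μ' D D' k v t2 ≤ YF μ μ' D D' k v t1 +
      ∫ t in t1..t2, (t / 2) ^ 2 * ∑ w ∈ D', ∫ om, hF μ μ' D D' k t om v w ∂(Pu (V × ℕ)) := by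
  rw [YF_eq hD, YF_eq hD]
  refine (evol_aux D D' k v (y1 := -1 + t1) (y2 := -1 + t2) (by linarith) (by linarith)
    (by linarith)).2.trans ?_
  refine add_le_add le_rfl (le_of_eq ?_)
  rw [integral_Ico_eq_integral_Ioc, ← intervalIntegral.integral_of_le (by linarith)]
  have h3 := intervalIntegral.integral_comp_add_left (a := t1) (b := t2)
    (fun y => ((1 + y) / 2) ^ 2 * ∑ w ∈ D',
      EQ μ μ' (D : Set V) (D' : Set V) (evK D' k) (toLex (k, y)) v w) (-1)
  rw [← h3]
  refine intervalIntegral.integral_congr fun t _ => ?_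
  have h4 : (1 + (-1 + t)) / 2 = t / 2 := by ring
  simp only [h4]
  congr 1
  exact Finset.sum_congr rfl fun w hw => (EQ_eq hD k v hw t).symm

theorem YF_nonneg (D D' : Finset V) (k : ℕ) (v : V) (t : ℝ) : 0 ≤ YF μ μ' D D' k v t :=
  integral_nonneg fun _ => sq_nonneg _

/-- The mean square difference of the observations. -/
theorem sF_sub_sq [Countable V] [IsProbabilityMeasure μ] [IsProbabilityMeasure μ']
    (D D' : Finset V) (hD : D ⊆ D') (k : ℕ) (v : V) :
    ∫ om, (sF μ D om (v, k) - sF μ' D' om (v, k)) ^ 2 ∂(Pu (V × ℕ)) ≤ YF μ μ' D D' k v 1 := by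
  have hpt : ∀ᵐ om ∂(Pu (V × ℕ)), (sF μ D om (v, k) - sF μ' D' om (v, k)) ^ 2 ≤
      if -1 ≤ uL om (v, k) ∧ uL om (v, k) < 0 then
        (mF μ D k (1 + uL om (v, k)) om v - mF μ' D' k (1 + uL om (v, k)) om v) ^ 2 else 0 := by
    filter_upwards [ae_Pu_abs_le (ι := V × ℕ) (v, 2 * k)] with om hom
    have hu : -1 ≤ uL om (v, k) := (abs_le.1 hom).1
    rw [sF_eq μ D om (v, k), sF_eq μ' D' om (v, k)]
    simp only
    by_cases hneg : uL om (v, k) < 0
    · rw [if_pos ⟨hu, hneg⟩]
      set m := mF μ D k (1 + uL om (v, k)) om v with hm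
      set m' := mF μ' D' k (1 + uL om (v, k)) om v with hm'
      set g := gs (uL om (v, k)) with hg
      have g0 : 0 ≤ g := gs_nonneg _
      have g1 : g ≤ 1 / 2 := (gs_lt _).le
      have hm1 : |m| ≤ 1 := abs_mF_le D k _ om v
      have hm1' : |m'| ≤ 1 := abs_mF_le D' k _ om v
      have hT := T_lipschitz (c := 1 / 2) (by norm_num) (abs_gm_lt g0 g1 hm1)
        (abs_gm_lt g0 g1 hm1') (xL om (v, k))
      have e2 : |g * m - g * m'| = g * |m - m'| := by rw [← mul_sub, abs_mul, abs_of_nonneg g0]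
      rw [e2] at hT
      norm_num at hT
      have h5 : |T (g * m) (xL om (v, k)) - T (g * m') (xL om (v, k))| ≤ |m - m'| :=
        hT.trans (by nlinarith [abs_nonneg (m - m')])
      rw [← sq_abs, ← sq_abs (m - m')]
      exact pow_le_pow_left₀ (abs_nonneg _) h5 2
    · have h5 : gs (uL om (v, k)) = 0 := by unfold gs; rw [if_neg hneg]
      rw [if_neg (fun h => hneg h.2), h5, zero_mul, zero_mul, sub_self]
      simp
  have hH := measurable_YF_int (μ := μ) (μ' := μ') D D' k v
  have hwin := window_lemma' (v, k) (H := fun t om => (mF μ D k t om v - mF μ' D' k t om v) ^ 2)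
    hH (fun t om => sq_nonneg _) (B := 4)
    (fun t om => sq_sub_le_four (abs_mF_le D k t om v) (abs_mF_le D' k t om v))
    (fun t om om' hoff hl hl' => by
      have hx : xL om = xL om' := by
        funext i
        refine hoff _ ?_
        intro h
        rw [Prod.mk.injEq] at h
        omega
      have hUoff : ∀ i, i ≠ ((v, k) : V × ℕ) → uL om i = uL om' i := by
        intro i hi
        refine hoff _ ?_
        intro h
        rw [Prod.mk.injEq] at h
        apply hi
        ext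
        · exact h.1
        · simp only at h ⊢
          omega
      simp only [mF_eq_mf, hx]
      rw [mf_congr μ D (e := (v, k)) rfl hUoff hl hl',
        mf_congr μ' D' (e := (v, k)) rfl hUoff hl hl'])
  have hL : Measurable fun om : V × ℕ → ℝ => (sF μ D om (v, k) - sF μ' D' om (v, k)) ^ 2 :=
    ((measurable_sF D (v, k)).sub (measurable_sF D' (v, k))).pow_const 2
  have hR : Measurable fun om : V × ℕ → ℝ => (if -1 ≤ uL om (v, k) ∧ uL om (v, k) < 0 then
        (mF μ D k (1 + uL om (v, k)) om v - mF μ' D' k (1 + uL om (v, k)) om v) ^ 2 else 0) := by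
    refine Measurable.ite ?_ ?_ measurable_const
    · exact (measurableSet_le measurable_const (measurable_uL _)).inter
        (measurableSet_lt (measurable_uL _) measurable_const)
    · exact measurable_slice hH (measurable_const.add (measurable_uL _))
  have h6 : ∫ om, (sF μ D om (v, k) - sF μ' D' om (v, k)) ^ 2 ∂(Pu (V × ℕ)) ≤
      ∫ t in (0 : ℝ)..1, YF μ μ' D D' k v t := by
    refine le_trans (integral_mono_ae ?_ ?_ hpt) hwin
    · refine integrable_of_meas_bdd hL (C := 4) fun om => ?_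
      rw [abs_of_nonneg (sq_nonneg _)]
      exact sq_sub_le_four (abs_sF_le D om _) (abs_sF_le D' om _)
    · refine integrable_of_meas_bdd hR (C := 4) fun om => ?_
      split_ifs
      · rw [abs_of_nonneg (sq_nonneg _)]
        exact sq_sub_le_four (abs_mF_le D k _ om v) (abs_mF_le D' k _ om v)
      · simp
  refine h6.trans ?_
  have hmon : Monotone (YF μ μ' D D' k v) := fun a b hab => YF_mono D D' hD k v hab
  calc ∫ t in (0 : ℝ)..1, YF μ μ' D D' k v t ≤ ∫ _ in (0 : ℝ)..1, YF μ μ' D D' k v 1 := by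
        refine intervalIntegral.integral_mono_on zero_le_one
          (hmon.monotoneOn _).intervalIntegrable (by simp) fun t ht => hmon ht.2
    _ = _ := by simp

end Vale.Agent.P161.EP
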