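import Mathlib
import Vale.Agent.P161.Contraction
import Vale.Agent.P161.EP.Window
import Vale.Agent.P161E.Contr

/-!
# Module E2 (Contr): decay of the influence of the boundary, annealed over the order labels

Proof.  `D = ball G o n`, `y v t = YF μ μ D D' k v t`, `wgt`, `term_bound` as in
`Contraction.lean`.  By `exists_path_bound` (covariances), `YF_evolution` gives
`M(t2) ≤ M(t1) + C_θ (t2 - t1) (M(t2) + 1)`, `M(t) = sup_v y v t / wgt v` (`y` is monotone in `t`);
steps of length `1/(2 C_θ)` double `M + 1`.  Rounds: `mF_succ_zero`, `mF_zero`.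
-/

open MeasureTheory

namespace Vale.Agent.P161.EP

universe u

variable {V : Type u} {G : SimpleGraph V} [G.LocallyFinite] {θ : ℝ} {μ : Measure (V → Bool)}

theorem contractionE (hG : G.IsTree) {b : ℕ} (hd : G.IsRegularOfDegree (b + 1))
    (hμ : IsTreeIsing G θ μ) (h0 : 0 ≤ θ) (h1 : θ < 1) (hθ : b * θ ^ 2 < 1) :
    ∃ ρ : ℝ, 0 < ρ ∧ ρ < 1 ∧ ∃ C : ℕ → ℝ, (∀ k, 0 ≤ C k) ∧
      ∀ (o : V) (n : ℕ) (D' : Finset V), ball G o n ⊆ D' → ∀ (k : ℕ) (t : ℝ), t ≤ 1 →
        YF μ μ (ball G o n) D' k o t ≤ C k * ρ ^ n := by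
  have := hμ.isProb
  have : Countable V := countable_of_locallyFinite hG.connected
  obtain ⟨L, hL, ρ, hρ, hρ1, hcon⟩ := contr hG hd hμ h0 h1 (by
    push_cast
    have e : ((b : ℝ) + 1 - 1) * θ ^ 2 = b * θ ^ 2 := by ring
    rw [e]; exact hθ)
  refine ⟨ρ, hρ, hρ1, fun k => L ^ (k + 1), fun k => by positivity, fun o n D' hD k t ht => ?_⟩
  rw [YF_clamp, YF_eq hD, ED_eq hD le_rfl]
  have h2 : max 0 (min 1 t) ≤ 1 := max_le zero_le_one (min_le_left _ _)
  have h3 : 0 ≤ max 0 (min 1 t) := le_max_left _ _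
  refine (hcon o n D' hD k (-1 + max 0 (min 1 t)) (by linarith) (by linarith) o).trans ?_
  refine mul_le_mul_of_nonneg_left ?_ (by positivity)
  unfold wgt
  rw [SimpleGraph.dist_self]
  exact pow_le_pow_of_le_one hρ.le hρ1.le (by omega)

end Vale.Agent.P161.EP
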