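import Mathlib
import Vale.Agent.P161.Hlaw
import Vale.Agent.P161.EP.Contr
import Vale.Agent.P161.EP.FV
import Vale.Agent.P161.EP.Kernel

/-!
# Module E3 (Inf): the infinite volume limit at a subcritical parameter

Proof.  `contractionE` + `ae_summable_of_sq` (Hlaw.lean) as in `ae_tendsto_slim`, `ae_tendsto_ball`.
Messages: `MF_eq_Minv`, `continuous_Minv`, `|MF| ≤ 1` (so the clamp does nothing in the limit).
-/

open MeasureTheory Filter Topology

namespace Vale.Agent.P161.EP

universe u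

variable {V : Type u} {G : SimpleGraph V} [G.LocallyFinite] {θ : ℝ} {μ : Measure (V → Bool)}
  {b : ℕ}

/-- A family of random variables indexed by finite sets whose mean square increments decay
geometrically along the balls around `v` converges almost surely along the balls around any
vertex `o`. -/
theorem ae_tendsto_of_geom [Countable V] (hG : G.Connected)
    {f : Finset V → (V × ℕ → ℝ) → ℝ} (v o : V) (hm : ∀ D, Measurable (f D))
    (hb : ∀ D om, |f D om| ≤ 1) {C ρ : ℝ} (hC : 0 ≤ C) (hρ : 0 < ρ) (hρ1 : ρ < 1)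
    (h : ∀ n D', ball G v n ⊆ D' →
      ∫ om, (f (ball G v n) om - f D' om) ^ 2 ∂(Pu (V × ℕ)) ≤ C * ρ ^ n) :
    ∀ᵐ om ∂(Pu (V × ℕ)), Tendsto (fun n : ℕ => f (ball G o n) om) atTop
      (𝓝 (limsup (fun n : ℕ => f (ball G v n) om) atTop)) := by
  have hbd : ∀ D D' om, |f D om - f D' om| ≤ 2 := by
    intro D D' om
    have h2 := hb D om
    have h3 := hb D' om
    have h4 := abs_sub (f D om) (f D' om)
    linarith
  have h1 := ae_summable_of_sq (P := Pu (V × ℕ))
    (f := fun n om => f (ball G v n) om - f (ball G v (n + 1)) om) (B := 2)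
    (fun n => (hm _).sub (hm _)) (fun n om => hbd _ _ om) hC hρ hρ1
    (fun n => h n _ (ball_mono' hG v (Nat.le_succ n)))
  have h2 := ae_summable_of_sq (P := Pu (V × ℕ))
    (f := fun n om => f (ball G v n) om - f (ball G o (n + G.dist o v)) om) (B := 2)
    (fun n => (hm _).sub (hm _)) (fun n om => hbd _ _ om) hC hρ hρ1
    (fun n => h n _ (ball_subset_ball hG o v n))
  filter_upwards [h1, h2] with om hom hom2
  have hcau : CauchySeq fun n : ℕ => f (ball G v n) om := by
    refine cauchySeq_of_summable_dist ?_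
    refine hom.congr fun n => ?_
    rw [Real.dist_eq]
  obtain ⟨l, hl⟩ := cauchySeq_tendsto_of_complete hcau
  rw [hl.limsup_eq]
  rw [← tendsto_add_atTop_iff_nat (G.dist o v)]
  have h4 : Tendsto (fun n : ℕ => f (ball G v n) om - f (ball G o (n + G.dist o v)) om)
      atTop (𝓝 0) :=
    (tendsto_zero_iff_abs_tendsto_zero _).2 hom2.tendsto_atTop_zero
  have h5 := hl.sub h4
  simpa using h5

omit [G.LocallyFinite] in
theorem measurable_mk_t (t : ℝ) :
    Measurable (fun om : V × ℕ → ℝ => ((t, om) : ℝ × (V × ℕ → ℝ))) :=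
  measurable_prodMk_left

theorem measurable_mF_t [Countable V] [IsProbabilityMeasure μ] (D : Finset V) (k : ℕ) (t : ℝ)
    (v : V) : Measurable fun om : V × ℕ → ℝ => mF μ D k t om v := by
  have h2 := (measurable_mF (μ := μ) D k v).comp (measurable_mk_t t)
  exact h2

theorem measurable_covF_t [Countable V] [IsProbabilityMeasure μ] (D : Finset V) (k : ℕ) (t : ℝ)
    (v w : V) : Measurable fun om : V × ℕ → ℝ => covF μ D k t om v w := by
  have h2 := (measurable_covF (μ := μ) D k v w).comp (measurable_mk_t t)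
  exact h2

theorem ae_tendsto_mF (hG : G.IsTree) (hd : G.IsRegularOfDegree (b + 1))
    (hμ : IsTreeIsing G θ μ) (h0 : 0 ≤ θ) (h1 : θ < 1) (hθ : b * θ ^ 2 < 1) (k : ℕ) {t : ℝ}
    (ht : t ≤ 1) (o : V) :
    ∀ᵐ om ∂(Pu (V × ℕ)), ∀ v,
      Tendsto (fun n : ℕ => mF μ (ball G o n) k t om v) atTop (𝓝 (mI G μ k t v om)) := by
  have := hμ.isProb
  have : Countable V := countable_of_locallyFinite hG.connected
  obtain ⟨ρ, hρ, hρ1, C, hC, hcon⟩ := contractionE hG hd hμ h0 h1 hθ
  rw [ae_all_iff]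
  intro v
  exact ae_tendsto_of_geom hG.connected v o (f := fun D om => mF μ D k t om v)
    (fun D => measurable_mF_t D k t v) (fun D om => abs_mF_le D k t om v) (hC k) hρ hρ1
    (fun n D' hD => hcon v n D' hD k t ht)

theorem ae_tendsto_sF (hG : G.IsTree) (hd : G.IsRegularOfDegree (b + 1))
    (hμ : IsTreeIsing G θ μ) (h0 : 0 ≤ θ) (h1 : θ < 1) (hθ : b * θ ^ 2 < 1) (o : V) :
    ∀ᵐ om ∂(Pu (V × ℕ)), ∀ e,
      Tendsto (fun n : ℕ => sF μ (ball G o n) om e) atTop (𝓝 (sI G μ om e)) := by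
  have := hμ.isProb
  have : Countable V := countable_of_locallyFinite hG.connected
  obtain ⟨ρ, hρ, hρ1, C, hC, hcon⟩ := contractionE hG hd hμ h0 h1 hθ
  rw [ae_all_iff]
  rintro ⟨v, k⟩
  exact ae_tendsto_of_geom hG.connected v o (f := fun D om => sF μ D om (v, k))
    (fun D => measurable_sF D (v, k)) (fun D om => abs_sF_le D om (v, k)) (hC k) hρ hρ1
    (fun n D' hD => (sF_sub_sq _ _ hD k v).trans (hcon v n D' hD k 1 le_rfl))

theorem abs_MF_le [IsProbabilityMeasure μ] (D : Finset V) (k : ℕ) (t : ℝ) (om : V × ℕ → ℝ)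
    (x y : V) : |MF G μ D k t om x y| ≤ 1 :=
  abs_mag_le (fun e _ => abs_cF_lt_one D om e) y

theorem tendsto_MF_of (hG : G.IsTree) (hμ : IsTreeIsing G θ μ) (h0 : 0 ≤ θ) (h1 : θ < 1) (k : ℕ)
    {t : ℝ} {o : V} {om : V × ℕ → ℝ}
    (h : ∀ v, Tendsto (fun n : ℕ => mF μ (ball G o n) k t om v) atTop (𝓝 (mI G μ k t v om)))
    {x y : V} (hxy : G.Adj x y) :
    Tendsto (fun n : ℕ => MF G μ (ball G o n) k t om x y) atTop (𝓝 (MI G θ μ k t x y om)) := by
  have := hμ.isProb
  have e1 : (fun n : ℕ => MF G μ (ball G o n) k t om x y) =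
      fun n : ℕ => Minv θ (mF μ (ball G o n) k t om x) (mF μ (ball G o n) k t om y) := by
    funext n
    exact MF_eq_Minv hG hμ h0 h1 _ k t om hxy (abs_cF_lt_one _ om)
  have h2 : Tendsto (fun n : ℕ => MF G μ (ball G o n) k t om x y) atTop
      (𝓝 (Minv θ (mI G μ k t x om) (mI G μ k t y om))) := by
    rw [e1]
    exact ((continuous_Minv h0 h1).tendsto (mI G μ k t x om, mI G μ k t y om)).comp
      ((h x).prodMk_nhds (h y))
  have h3 : |Minv θ (mI G μ k t x om) (mI G μ k t y om)| ≤ 1 :=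
    le_of_tendsto h2.abs (Eventually.of_forall fun n => abs_MF_le _ k t om x y)
  unfold MI
  rw [clamp_of_abs_le h3]
  exact h2

theorem ae_tendsto_MF (hG : G.IsTree) (hd : G.IsRegularOfDegree (b + 1))
    (hμ : IsTreeIsing G θ μ) (h0 : 0 ≤ θ) (h1 : θ < 1) (hθ : b * θ ^ 2 < 1) (k : ℕ) {t : ℝ}
    (ht : t ≤ 1) (o : V) :
    ∀ᵐ om ∂(Pu (V × ℕ)), ∀ x y, G.Adj x y →
      Tendsto (fun n : ℕ => MF G μ (ball G o n) k t om x y) atTop (𝓝 (MI G θ μ k t x y om)) := by
  filter_upwards [ae_tendsto_mF hG hd hμ h0 h1 hθ k ht o] with om hom x y hxy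
  exact tendsto_MF_of hG hμ h0 h1 k hom hxy

theorem tendsto_lam {α : Type*} {l : Filter α} {f : α → ℝ} {M : ℝ} (h0 : 0 ≤ θ) (h1 : θ < 1)
    (hM : |M| ≤ 1) (h : Tendsto f l (𝓝 M)) : Tendsto (fun a => lam θ (f a)) l (𝓝 (lam θ M)) := by
  have h2 := den_pos h0 h1 hM
  have h3 := one_sub_sq_pos h0 h1
  unfold lam
  refine Tendsto.div ?_ ?_ (by linarith)
  · exact (tendsto_const_nhds.sub (h.pow 2)).const_mul θ
  · exact tendsto_const_nhds.sub ((h.pow 2).const_mul (θ ^ 2))

theorem tendsto_kerN {α : Type*} {l : Filter α} {L : α → V → V → ℝ} {L' : V → V → ℝ}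
    (h : ∀ x y, G.Adj x y → Tendsto (fun a => L a x y) l (𝓝 (L' x y))) (n : ℕ) :
    ∀ v w, Tendsto (fun a => kerN G (L a) n v w) l (𝓝 (kerN G L' n v w)) := by
  induction n with
  | zero =>
    intro v w
    simp only [kerN]
    exact tendsto_const_nhds
  | succ n ih =>
    intro v w
    simp only [kerN]
    refine tendsto_finsetSum _ fun z hz => ?_
    split_ifs with hzw
    · refine (h v z ?_).mul (ih z w)
      exact (G.mem_neighborFinset v z).1 hz
    · exact tendsto_const_nhds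

theorem tendsto_Jk {α : Type*} {l : Filter α} (h0 : 0 ≤ θ) (h1 : θ < 1) {m : α → V → ℝ}
    {m' : V → ℝ} {M : α → V → V → ℝ} {M' : V → V → ℝ} (v w : V)
    (hm : Tendsto (fun a => m a v) l (𝓝 (m' v)))
    (hM : ∀ x y, G.Adj x y → Tendsto (fun a => M a x y) l (𝓝 (M' x y)))
    (hM1 : ∀ x y, G.Adj x y → |M' x y| ≤ 1) :
    Tendsto (fun a => Jk G θ (m a) (M a) v w) l (𝓝 (Jk G θ m' M' v w)) := by
  unfold Jk ker
  refine (tendsto_const_nhds.sub (hm.pow 2)).mul ?_
  exact tendsto_kerN (fun x y hxy => tendsto_lam h0 h1 (hM1 x y hxy) (hM x y hxy)) _ v w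

theorem covF_eq_Jk (hG : G.IsTree) (hμ : IsTreeIsing G θ μ) (h0 : 0 ≤ θ) (h1 : θ < 1)
    (D : Finset V) (k : ℕ) (t : ℝ) (om : V × ℕ → ℝ) (v w : V) :
    covF μ D k t om v w =
      Jk G θ (fun v => mF μ D k t om v) (fun x y => MF G μ D k t om x y) v w := by
  have := hμ.isProb
  exact cov_eq_Jk hG hμ h0 h1 Prod.fst (bef om D k t) (cF μ D om)
    (fun i _ => abs_cF_lt_one D om i) v w

theorem tendsto_covF_of (hG : G.IsTree) (hμ : IsTreeIsing G θ μ) (h0 : 0 ≤ θ) (h1 : θ < 1)
    (k : ℕ) {t : ℝ} {o : V} {om : V × ℕ → ℝ}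
    (h : ∀ v, Tendsto (fun n : ℕ => mF μ (ball G o n) k t om v) atTop (𝓝 (mI G μ k t v om)))
    (v w : V) :
    Tendsto (fun n : ℕ => covF μ (ball G o n) k t om v w) atTop
        (𝓝 (Jk G θ (fun v => mI G μ k t v om) (fun x y => MI G θ μ k t x y om) v w)) := by
  have e1 : (fun n : ℕ => covF μ (ball G o n) k t om v w) = fun n : ℕ =>
      Jk G θ (fun v => mF μ (ball G o n) k t om v) (fun x y => MF G μ (ball G o n) k t om x y)
        v w := by
    funext n
    exact covF_eq_Jk hG hμ h0 h1 _ k t om v w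
  rw [e1]
  exact tendsto_Jk h0 h1 v w (h v) (fun x y hxy => tendsto_MF_of hG hμ h0 h1 k h hxy)
    (fun x y _ => abs_clamp_le _)

theorem ae_tendsto_covF (hG : G.IsTree) (hd : G.IsRegularOfDegree (b + 1))
    (hμ : IsTreeIsing G θ μ) (h0 : 0 ≤ θ) (h1 : θ < 1) (hθ : b * θ ^ 2 < 1) (k : ℕ) {t : ℝ}
    (ht : t ≤ 1) (o : V) :
    ∀ᵐ om ∂(Pu (V × ℕ)), ∀ v w,
      Tendsto (fun n : ℕ => covF μ (ball G o n) k t om v w) atTop
        (𝓝 (Jk G θ (fun v => mI G μ k t v om) (fun x y => MI G θ μ k t x y om) v w)) := by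
  filter_upwards [ae_tendsto_mF hG hd hμ h0 h1 hθ k ht o] with om hom v w
  exact tendsto_covF_of hG hμ h0 h1 k hom v w

theorem measurable_mI [Countable V] [IsProbabilityMeasure μ] (k : ℕ) (v : V) :
    Measurable fun p : ℝ × (V × ℕ → ℝ) => mI G μ k p.1 v p.2 := by
  unfold mI
  exact Measurable.limsup fun n => measurable_mF (ball G v n) k v

theorem measurable_Minv (θ : ℝ) : Measurable fun p : ℝ × ℝ => Minv θ p.1 p.2 := by
  unfold Minv
  fun_prop

theorem measurable_MI [Countable V] [IsProbabilityMeasure μ] (θ : ℝ) (k : ℕ) (x y : V) :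
    Measurable fun p : ℝ × (V × ℕ → ℝ) => MI G θ μ k p.1 x y p.2 := by
  unfold MI
  exact measurable_clamp.comp ((measurable_Minv θ).comp
    ((measurable_mI k x).prodMk (measurable_mI k y)))

theorem measurable_sI [Countable V] [IsProbabilityMeasure μ] (e : V × ℕ) :
    Measurable fun om : V × ℕ → ℝ => sI G μ om e := by
  unfold sI
  exact Measurable.limsup fun n => measurable_sF (ball G e.1 n) e

theorem measurable_mI_t [Countable V] [IsProbabilityMeasure μ] (k : ℕ) (t : ℝ) (v : V) :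
    Measurable fun om : V × ℕ → ℝ => mI G μ k t v om := by
  have h2 := (measurable_mI (μ := μ) (G := G) k v).comp (measurable_mk_t t)
  exact h2

theorem measurable_MI_t [Countable V] [IsProbabilityMeasure μ] (θ : ℝ) (k : ℕ) (t : ℝ)
    (x y : V) : Measurable fun om : V × ℕ → ℝ => MI G θ μ k t x y om := by
  have h2 := (measurable_MI (μ := μ) (G := G) θ k x y).comp (measurable_mk_t t)
  exact h2

/-- The limsup of a sequence with values in `[-1,1]` is in `[-1,1]`. -/
theorem abs_limsup_le {f : ℕ → ℝ} (h : ∀ n, |f n| ≤ 1) : |limsup f atTop| ≤ 1 := by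
  have h1 : ∀ n, f n ≤ 1 := fun n => (abs_le.1 (h n)).2
  have h2 : ∀ n, -1 ≤ f n := fun n => (abs_le.1 (h n)).1
  have hb1 : IsBoundedUnder (· ≤ ·) atTop f := isBoundedUnder_of ⟨1, h1⟩
  have hb2 : IsCoboundedUnder (· ≤ ·) atTop f :=
    (isBoundedUnder_of ⟨-1, h2⟩ : IsBoundedUnder (· ≥ ·) atTop f).isCoboundedUnder_le
  rw [abs_le]
  constructor
  · exact le_limsup_of_frequently_le (Eventually.of_forall h2).frequently hb1
  · exact limsup_le_of_le hb2 (Eventually.of_forall h1)

theorem abs_sI_le [IsProbabilityMeasure μ] (om : V × ℕ → ℝ) (e : V × ℕ) : |sI G μ om e| ≤ 1 :=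
  abs_limsup_le fun _ => abs_sF_le _ om e

theorem abs_mI_le [IsProbabilityMeasure μ] (k : ℕ) (t : ℝ) (v : V) (om : V × ℕ → ℝ) :
    |mI G μ k t v om| ≤ 1 :=
  abs_limsup_le fun _ => abs_mF_le _ k t om v

theorem sI_act (hG : G.IsTree) (hμ : IsTreeIsing G θ μ) (g : G ≃g G) (om : V × ℕ → ℝ) (v : V)
    (k : ℕ) : sI G μ (actLab g om) (g v, k) = sI G μ om (v, k) := by
  unfold sI
  congr 1
  funext n
  exact sF_act hG hμ g om v n k

theorem mI_act (hG : G.IsTree) (hμ : IsTreeIsing G θ μ) (g : G ≃g G) (om : V × ℕ → ℝ) (v : V)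
    (k : ℕ) (t : ℝ) : mI G μ k t (g v) (actLab g om) = mI G μ k t v om := by
  unfold mI
  congr 1
  funext n
  exact mF_act hG hμ g om v n k t

theorem mI_zero (hμ : IsTreeIsing G θ μ) (v : V) (om : V × ℕ → ℝ) : mI G μ 0 0 v om = 0 := by
  unfold mI
  simp only [mF_zero hμ]
  exact limsup_const 0

theorem mI_succ_zero (μ : Measure (V → Bool)) (k : ℕ) (v : V) (om : V × ℕ → ℝ) :
    mI G μ (k + 1) 0 v om = mI G μ k 1 v om := by
  unfold mI
  simp only [mF_succ_zero]

theorem isField (hG : G.IsTree) (hd : G.IsRegularOfDegree (b + 1))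
    (hμ : IsTreeIsing G θ μ) (h0 : 0 ≤ θ) (h1 : θ < 1) (hθ : b * θ ^ 2 < 1) (k : ℕ) {t : ℝ}
    (ht : t ≤ 1) : IsField G θ (mI G μ k t) (MI G θ μ k t) := by
  have := hμ.isProb
  have : Countable V := countable_of_locallyFinite hG.connected
  refine ⟨fun v => ?_, fun x y => ?_, fun v om => abs_mI_le k t v om,
    fun x y om => abs_clamp_le _, fun g v om => mI_act hG hμ g om v k t, fun g x y om => ?_, ?_⟩
  · exact measurable_mI_t k t v
  · exact measurable_MI_t θ k t x y
  · unfold MI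
    rw [mI_act hG hμ, mI_act hG hμ]
  · obtain ⟨o⟩ := hG.connected.nonempty
    filter_upwards [ae_tendsto_mF hG hd hμ h0 h1 hθ k ht o] with om hom x y hxy
    have t1 := hom x
    have t2 := tendsto_MF_of hG hμ h0 h1 k hom hxy.symm
    have t3 := tendsto_MF_of hG hμ h0 h1 k hom hxy
    have a2 : |MI G θ μ k t y x om| ≤ 1 := abs_clamp_le _
    have a3 : |MI G θ μ k t x y om| ≤ 1 := abs_clamp_le _
    have e1 : (fun n : ℕ => mF μ (ball G o n) k t om x) = fun n : ℕ =>
        (MF G μ (ball G o n) k t om y x + θ * MF G μ (ball G o n) k t om x y) /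
          (1 + θ * MF G μ (ball G o n) k t om y x * MF G μ (ball G o n) k t om x y) := by
      funext n
      exact mag_eq_msg hG hμ h0 h1 Prod.fst (bef om (ball G o n) k t) (cF μ (ball G o n) om)
        (fun i _ => abs_cF_lt_one _ om i) hxy
    rw [e1] at t1
    refine tendsto_nhds_unique t1 (Tendsto.div (t2.add (t3.const_mul θ))
      (tendsto_const_nhds.add ((t2.const_mul θ).mul t3)) ?_)
    have h4 : |θ * MI G θ μ k t y x om * MI G θ μ k t x y om| < 1 := by
      rw [abs_mul, abs_mul, abs_of_nonneg h0]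
      have h5 : θ * |MI G θ μ k t y x om| ≤ θ * 1 := mul_le_mul_of_nonneg_left a2 h0
      have h6 : θ * |MI G θ μ k t y x om| * |MI G θ μ k t x y om| ≤ θ * 1 * 1 :=
        mul_le_mul h5 a3 (abs_nonneg _) (by linarith)
      linarith
    have h5 := (abs_lt.1 h4).1
    linarith

theorem measurable_uL_pi : Measurable (uL : (V × ℕ → ℝ) → (V × ℕ → ℝ)) :=
  measurable_pi_lambda _ fun e => measurable_uL e

theorem measurable_sI_pi [Countable V] [IsProbabilityMeasure μ] :
    Measurable fun om : V × ℕ → ℝ => (fun e => sI G μ om e : V × ℕ → ℝ) :=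
  measurable_pi_lambda _ fun e => measurable_sI e

theorem measurable_sF_pi [Countable V] [IsProbabilityMeasure μ] (D : Finset V) :
    Measurable fun om : V × ℕ → ℝ => (fun e => sF μ D om e : V × ℕ → ℝ) :=
  measurable_pi_lambda _ fun e => measurable_sF D e

/-- Put together two families. -/
def glue {A : Type*} (p : (A → ℝ) × (A → ℝ)) : A ⊕ A → ℝ := Sum.elim p.1 p.2

theorem measurable_glue {A : Type*} : Measurable (glue : (A → ℝ) × (A → ℝ) → (A ⊕ A → ℝ)) := by
  refine measurable_pi_lambda _ ?_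
  rintro (i | i)
  · exact (measurable_pi_apply i).comp measurable_fst
  · exact (measurable_pi_apply i).comp measurable_snd

/-- Split a family. -/
def unglue {A : Type*} (x : A ⊕ A → ℝ) : (A → ℝ) × (A → ℝ) := (x ∘ Sum.inl, x ∘ Sum.inr)

theorem measurable_unglue {A : Type*} :
    Measurable (unglue : (A ⊕ A → ℝ) → (A → ℝ) × (A → ℝ)) := by
  refine Measurable.prodMk ?_ ?_
  · exact measurable_pi_lambda _ fun i => measurable_pi_apply _
  · exact measurable_pi_lambda _ fun i => measurable_pi_apply _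

theorem unglue_glue {A : Type*} : (unglue ∘ glue : (A → ℝ) × (A → ℝ) → _) = id := by
  funext p
  rfl

theorem map_glue_injective {A : Type*} {m1 m2 : Measure ((A → ℝ) × (A → ℝ))}
    (h : m1.map glue = m2.map glue) : m1 = m2 := by
  have h2 := congrArg (fun m => Measure.map unglue m) h
  simp only [Measure.map_map measurable_unglue measurable_glue, unglue_glue, Measure.map_id] at h2
  exact h2

/-- The law of the order labels and observations in infinite volume (bounded continuous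
functions of finitely many coordinates). -/
theorem law_sI (hG : G.IsTree) (hd : G.IsRegularOfDegree (b + 1))
    (hμ : IsTreeIsing G θ μ) (h0 : 0 ≤ θ) (h1 : θ < 1) (hθ : b * θ ^ 2 < 1) :
    (Pu (V × ℕ)).map (fun om => (uL om, fun e => sI G μ om e)) =
      (μ.prod (Pu (V × ℕ))).map (fun p => (uL p.2, chan p)) := by
  have := hμ.isProb
  have : Countable V := countable_of_locallyFinite hG.connected
  obtain ⟨o⟩ := hG.connected.nonempty
  have hm1 : Measurable (fun om : V × ℕ → ℝ => (uL om, (fun e => sI G μ om e : V × ℕ → ℝ))) :=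
    measurable_uL_pi.prodMk measurable_sI_pi
  have hm2 : Measurable (fun p : (V → Bool) × (V × ℕ → ℝ) => (uL p.2, chan p)) :=
    (measurable_uL_pi.comp measurable_snd).prodMk measurable_chan
  refine map_glue_injective ?_
  rw [Measure.map_map measurable_glue hm1, Measure.map_map measurable_glue hm2]
  set m2 := (μ.prod (Pu (V × ℕ))).map
    (glue ∘ fun p : (V → Bool) × (V × ℕ → ℝ) => (uL p.2, chan p)) with hm2def
  have hg1 : Measurable (glue ∘ fun om : V × ℕ → ℝ =>
      (uL om, (fun e => sI G μ om e : V × ℕ → ℝ))) := measurable_glue.comp hm1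
  have hg2 : Measurable (glue ∘ fun p : (V → Bool) × (V × ℕ → ℝ) => (uL p.2, chan p)) :=
    measurable_glue.comp hm2
  have : IsProbabilityMeasure m2 := Measure.isProbabilityMeasure_map hg2.aemeasurable
  have hlim2 : IsProjectiveLimit m2
      (fun I : Finset ((V × ℕ) ⊕ (V × ℕ)) => m2.map I.restrict) := fun I => rfl
  refine IsProjectiveLimit.unique (P := fun I : Finset ((V × ℕ) ⊕ (V × ℕ)) =>
    m2.map I.restrict) ?_ hlim2
  intro I
  have : IsProbabilityMeasure ((Pu (V × ℕ)).map (glue ∘ fun om : V × ℕ → ℝ =>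
      (uL om, (fun e => sI G μ om e : V × ℕ → ℝ)))) :=
    Measure.isProbabilityMeasure_map hg1.aemeasurable
  refine ext_of_forall_integral_eq_of_IsFiniteMeasure fun f => ?_
  have hfm : Measurable f := f.continuous.measurable
  have hfI : Measurable (fun x : (V × ℕ) ⊕ (V × ℕ) → ℝ => f (I.restrict x)) :=
    hfm.comp (Finset.measurable_restrict I)
  rw [integral_map (Finset.measurable_restrict I).aemeasurable hfm.aestronglyMeasurable,
    integral_map (Finset.measurable_restrict I).aemeasurable hfm.aestronglyMeasurable]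
  have i1 : ∫ x, f (I.restrict x) ∂((Pu (V × ℕ)).map (glue ∘ fun om : V × ℕ → ℝ =>
      (uL om, (fun e => sI G μ om e : V × ℕ → ℝ)))) =
      ∫ om, f (I.restrict (glue (uL om, fun e => sI G μ om e))) ∂(Pu (V × ℕ)) :=
    integral_map hg1.aemeasurable hfI.aestronglyMeasurable
  have i2 : ∫ x, f (I.restrict x) ∂m2 =
      ∫ p, f (I.restrict (glue (uL p.2, chan p))) ∂(μ.prod (Pu (V × ℕ))) :=
    integral_map hg2.aemeasurable hfI.aestronglyMeasurable
  rw [i1, i2]
  have hFm : Measurable fun p : (V × ℕ → ℝ) × (V × ℕ → ℝ) => f (I.restrict (glue (p.1, p.2))) :=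
    hfI.comp measurable_glue
  have hFdep : ∀ U : V × ℕ → ℝ, DependsOn (fun x : V × ℕ → ℝ => f (I.restrict (glue (U, x))))
      (I.toRight : Set (V × ℕ)) := by
    intro U x y h
    simp only
    congr 1
    funext i
    obtain ⟨i, hi⟩ := i
    rcases i with i | i
    · rfl
    · exact h i (by simpa using hi)
  obtain ⟨n₀, hn₀⟩ : ∃ n₀ : ℕ, ∀ n ≥ n₀, ∀ e ∈ I.toRight, e.1 ∈ ball G o n := by
    refine ⟨I.toRight.sup (fun e => G.dist o e.1), fun n hn e he => ?_⟩
    rw [mem_ball hG.connected]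
    exact (Finset.le_sup (f := fun e : V × ℕ => G.dist o e.1) he).trans hn
  have hconv : Tendsto (fun n : ℕ => ∫ om, f (I.restrict (glue (uL om, fun e =>
      sF μ (ball G o n) om e))) ∂(Pu (V × ℕ))) atTop
      (𝓝 (∫ om, f (I.restrict (glue (uL om, fun e => sI G μ om e))) ∂(Pu (V × ℕ)))) := by
    refine tendsto_integral_of_dominated_convergence (fun _ => ‖f‖) (fun n => ?_)
      (integrable_const _) (fun n => ae_of_all _ fun om => f.norm_coe_le_norm _) ?_
    · have h3 : Measurable fun om : V × ℕ → ℝ =>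
          (uL om, (fun e => sF μ (ball G o n) om e : V × ℕ → ℝ)) :=
        measurable_uL_pi.prodMk (measurable_sF_pi (ball G o n))
      exact (hFm.comp h3).aestronglyMeasurable
    · filter_upwards [ae_tendsto_sF hG hd hμ h0 h1 hθ o] with om hom
      refine (f.continuous.tendsto _).comp ?_
      rw [tendsto_pi_nhds]
      rintro ⟨i | i, hi⟩
      · exact tendsto_const_nhds
      · exact hom i
  have hconst : ∀ᶠ n : ℕ in atTop, ∫ om, f (I.restrict (glue (uL om, fun e =>
      sF μ (ball G o n) om e))) ∂(Pu (V × ℕ)) =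
      ∫ p, f (I.restrict (glue (uL p.2, chan p))) ∂(μ.prod (Pu (V × ℕ))) := by
    filter_upwards [eventually_ge_atTop n₀] with n hn
    exact law_finiteE I.toRight (ball G o n) (hn₀ n hn)
      (F := fun U x => f (I.restrict (glue (U, x)))) hFm
      ⟨‖f‖, fun U x => f.norm_coe_le_norm _⟩ hFdep
  exact tendsto_nhds_unique (hconv.congr' hconst) tendsto_const_nhds

end Vale.Agent.P161.EP
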