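import Mathlib
import Vale.Agent.P161.EP.SampG

/-!
# Module J3, first part (MonoA): the moments of the posterior mean grow with the observations

For `B₁ ⊆ B₂ ⊆ S`, under the density `evid_S` of the observations the posterior mean given the
observations in `B₁` is the conditional expectation of the one given those in `B₂`; so even
moments are monotone (tangent inequality).
-/

open MeasureTheory Filter Topology

namespace Vale.Agent.P161.EP

universe u

section Dens

variable {V : Type u} {ι : Type*} {μ : Measure (V → Bool)} {g : ι → ℝ} {site : ι → V}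
  {S : Finset ι}

/-- The integral of `w` against the likelihood of the observations `c` in `S`. -/
noncomputable def nw (μ : Measure (V → Bool)) (site : ι → V) (w : (V → Bool) → ℝ)
    (S : Finset ι) (c : ι → ℝ) : ℝ :=
  ∫ σ, w σ * wt site S c σ ∂μ

theorem nw_congr {w : (V → Bool) → ℝ} {c c' : ι → ℝ} (h : ∀ i ∈ S, c i = c' i) :
    nw μ site w S c = nw μ site w S c' := by
  unfold nw
  exact integral_congr_ae (Eventually.of_forall fun σ => by simp only [wt_congr h σ])

theorem evid_eq_nw (c : ι → ℝ) : evid μ site S c = nw μ site (fun _ => 1) S c := by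
  unfold evid nw
  simp only [one_mul]

theorem mag_eq_nw (c : ι → ℝ) (v : V) :
    mag μ site S c v = nw μ site (fun σ => spin (σ v)) S c / evid μ site S c := rfl

theorem integrable_mul_wt [IsProbabilityMeasure μ] {w : (V → Bool) → ℝ} (hw : Measurable w)
    (hwb : ∀ σ, |w σ| ≤ 1) (c : ι → ℝ) : Integrable (fun σ => w σ * wt site S c σ) μ := by
  refine (integrable_wt (μ := μ) (site := site) (S := S) (c := c)).bdd_mul (c := 1)
    hw.aestronglyMeasurable ?_
  exact Eventually.of_forall fun σ => by rw [Real.norm_eq_abs]; exact hwb σ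

theorem nw_insert [DecidableEq ι] [IsProbabilityMeasure μ] {e : ι} (he : e ∉ S)
    {w : (V → Bool) → ℝ} (hw : Measurable w) (hwb : ∀ σ, |w σ| ≤ 1) [Countable V] (c : ι → ℝ) :
    nw μ site w (insert e S) c =
      nw μ site w S c + c e * nw μ site (fun σ => w σ * spin (σ (site e))) S c := by
  have hw2 : Measurable fun σ : V → Bool => w σ * spin (σ (site e)) :=
    hw.mul (measurable_spin_apply (site e))
  have hwb2 : ∀ σ : V → Bool, |w σ * spin (σ (site e))| ≤ 1 := by
    intro σ
    rw [abs_mul, abs_spin, mul_one]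
    exact hwb σ
  unfold nw
  rw [← integral_const_mul, ← integral_add (integrable_mul_wt hw hwb c)
    ((integrable_mul_wt hw2 hwb2 c).const_mul _)]
  refine integral_congr_ae (Eventually.of_forall fun σ => ?_)
  simp only [wt_insert he]
  ring

theorem measurable_nw [Countable V] [IsProbabilityMeasure μ] (S : Finset ι)
    {w : (V → Bool) → ℝ} (hw : Measurable w) :
    Measurable (fun u : ι → ℝ => nw μ site w S (fun i => g i * clamp (u i))) := by
  unfold nw
  have h1 : Measurable (fun p : (ι → ℝ) × (V → Bool) => w p.2 *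
      wt site S (fun i => g i * clamp (p.1 i)) p.2) :=
    (hw.comp measurable_snd).mul (v_measurable_wt_joint S)
  exact (h1.stronglyMeasurable.integral_prod_right (ν := μ)).measurable

theorem abs_nw_le [IsProbabilityMeasure μ] (h0 : ∀ i, 0 ≤ g i) (h1 : ∀ i, g i < 1)
    {w : (V → Bool) → ℝ} (hw : Measurable w) (hwb : ∀ σ, |w σ| ≤ 1) (u : ι → ℝ) :
    |nw μ site w S (fun i => g i * clamp (u i))| ≤ 2 ^ S.card := by
  refine le_trans ?_ (v_evid_le (μ := μ) (site := site) (S := S) h0 h1 u)
  have hZ := evid_pos (μ := μ) (site := site) (S := S) (c := fun i => g i * clamp (u i))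
    (fun i _ => abs_vclamp_lt h0 h1 _ i)
  rw [abs_of_pos hZ]
  unfold nw evid
  refine (abs_integral_le_integral_abs).trans ?_
  refine integral_mono (integrable_mul_wt hw hwb _).abs integrable_wt fun σ => ?_
  simp only
  have h3 := wt_pos (site := site) (S := S) (c := fun i => g i * clamp (u i))
    (fun i _ => abs_vclamp_lt h0 h1 _ i) σ
  rw [abs_mul, abs_of_pos h3]
  calc |w σ| * wt site S (fun i => g i * clamp (u i)) σ ≤
      1 * wt site S (fun i => g i * clamp (u i)) σ := mul_le_mul_of_nonneg_right (hwb σ) h3.le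
    _ = _ := one_mul _

theorem integral_clamp_unif : ∫ x, clamp x ∂unif = 0 := by
  have h1 := integral_T_id (a := 0) (by norm_num)
  rw [zero_div] at h1
  rw [← h1]
  refine integral_congr_ae (Eventually.of_forall fun x => ?_)
  simp only [T_zero]
  rfl

/-- Observations outside of the support of `h` do not matter. -/
theorem integral_nw_insert [hD : DecidableEq ι] [Countable V] [IsProbabilityMeasure μ]
    (h0 : ∀ i, 0 ≤ g i) (h1 : ∀ i, g i < 1) {e : ι} (he : e ∉ S) {h : (ι → ℝ) → ℝ}
    (hm : Measurable h) (hb : ∃ C, ∀ x, |h x| ≤ C)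
    (hdep : ∀ (x : ι → ℝ) (s : ℝ), h (Function.update x e s) = h x)
    {w : (V → Bool) → ℝ} (hw : Measurable w) (hwb : ∀ σ, |w σ| ≤ 1) :
    ∫ u, h u * nw μ site w (insert e S) (fun i => g i * clamp (u i)) ∂(Pu ι) =
      ∫ u, h u * nw μ site w S (fun i => g i * clamp (u i)) ∂(Pu ι) := by
  obtain rfl : hD = fun a b => Classical.propDecidable (a = b) := Subsingleton.elim _ _
  classical
  obtain ⟨C, hC⟩ := hb
  have hC0 : 0 ≤ C := (abs_nonneg _).trans (hC 0)
  have hw2 : Measurable fun σ : V → Bool => w σ * spin (σ (site e)) :=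
    hw.mul (measurable_spin_apply (site e))
  have hwb2 : ∀ σ : V → Bool, |w σ * spin (σ (site e))| ≤ 1 := by
    intro σ
    rw [abs_mul, abs_spin, mul_one]
    exact hwb σ
  set k : (ι → ℝ) → ℝ := fun u => h u * nw μ site (fun σ => w σ * spin (σ (site e))) S
    (fun i => g i * clamp (u i)) with hk
  have hkm : Measurable k := hm.mul (measurable_nw S hw2)
  have hkb : ∀ u, |k u| ≤ C * 2 ^ S.card := by
    intro u
    rw [hk]
    simp only
    rw [abs_mul]
    exact mul_le_mul (hC u) (abs_nw_le h0 h1 hw2 hwb2 u) (abs_nonneg _) hC0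
  have hku : ∀ (u : ι → ℝ) (s : ℝ), k (Function.update u e s) = k u := by
    intro u s
    rw [hk]
    simp only
    rw [hdep]
    congr 1
    refine nw_congr fun i hi => ?_
    rw [Function.update_of_ne]
    rintro rfl
    exact he hi
  have hcm : Measurable fun u : ι → ℝ => g e * clamp (u e) :=
    measurable_const.mul (measurable_clamp.comp (measurable_pi_apply e))
  have hcb : ∀ u : ι → ℝ, |g e * clamp (u e)| ≤ 1 := fun u => (abs_vclamp_lt h0 h1 _ e).le
  have hzero : ∫ u, (g e * clamp (u e)) * k u ∂(Pu ι) = 0 := by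
    have h2 : ∀ u : ι → ℝ, |g e * clamp (u e) * k u| ≤ 1 * (C * 2 ^ S.card) := by
      intro u
      rw [abs_mul]
      exact mul_le_mul (hcb u) (hkb u) (abs_nonneg _) (by norm_num)
    have h3 := integral_resample e (F := fun u : ι → ℝ => (g e * clamp (u e)) * k u)
      (hcm.mul hkm) ⟨_, h2⟩
    rw [h3]
    have h4 : ∀ u : ι → ℝ, ∫ x, (g e * clamp (Function.update u e x e)) *
        k (Function.update u e x) ∂unif = 0 := by
      intro u
      have h5 : ∀ x : ℝ, (g e * clamp (Function.update u e x e)) *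
          k (Function.update u e x) = (g e * k u) * clamp x := by
        intro x
        rw [hku, Function.update_self]
        ring
      calc ∫ x, (g e * clamp (Function.update u e x e)) * k (Function.update u e x) ∂unif =
          ∫ x, (g e * k u) * clamp x ∂unif := by
            exact integral_congr_ae (Eventually.of_forall fun x => h5 x)
        _ = 0 := by rw [integral_const_mul, integral_clamp_unif, mul_zero]
    have h6 : ∫ _u : ι → ℝ, (0 : ℝ) ∂(Pu ι) = 0 := integral_zero _ _
    rw [← h6]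
    refine integral_congr_ae (Eventually.of_forall fun u => ?_)
    simp only
    exact h4 u
  have hsplit : ∀ u : ι → ℝ, h u * nw μ site w (insert e S) (fun i => g i * clamp (u i)) =
      h u * nw μ site w S (fun i => g i * clamp (u i)) + (g e * clamp (u e)) * k u := by
    intro u
    rw [nw_insert he hw hwb, hk]
    ring
  simp only [hsplit]
  rw [integral_add, hzero, add_zero]
  · refine Integrable.of_bound (hm.mul (measurable_nw S hw)).aestronglyMeasurable
      (C * 2 ^ S.card) (Eventually.of_forall fun u => ?_)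
    rw [Real.norm_eq_abs, abs_mul]
    exact mul_le_mul (hC u) (abs_nw_le h0 h1 hw hwb u) (abs_nonneg _) hC0
  · refine Integrable.of_bound (hcm.mul hkm).aestronglyMeasurable
      (1 * (C * 2 ^ S.card)) (Eventually.of_forall fun u => ?_)
    rw [Real.norm_eq_abs, abs_mul]
    exact mul_le_mul (hcb u) (hkb u) (abs_nonneg _) (by norm_num)

theorem integral_nw_union [DecidableEq ι] [Countable V] [IsProbabilityMeasure μ]
    (h0 : ∀ i, 0 ≤ g i) (h1 : ∀ i, g i < 1) {B : Finset ι} {h : (ι → ℝ) → ℝ}
    (hm : Measurable h) (hb : ∃ C, ∀ x, |h x| ≤ C) (hdep : DependsOn h (B : Set ι))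
    {w : (V → Bool) → ℝ} (hw : Measurable w) (hwb : ∀ σ, |w σ| ≤ 1) (A : Finset ι) :
    ∫ u, h u * nw μ site w (A ∪ B) (fun i => g i * clamp (u i)) ∂(Pu ι) =
      ∫ u, h u * nw μ site w B (fun i => g i * clamp (u i)) ∂(Pu ι) := by
  induction A using Finset.induction_on with
  | empty => simp only [Finset.empty_union]
  | insert e A he ih =>
    rw [Finset.insert_union]
    by_cases heB : e ∈ A ∪ B
    · rw [Finset.insert_eq_of_mem heB]
      exact ih
    · rw [integral_nw_insert h0 h1 heB hm hb _ hw hwb]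
      · exact ih
      · intro x s
        refine hdep fun i hi => ?_
        rw [Function.update_of_ne]
        rintro rfl
        exact heB (Finset.mem_union_right _ hi)

theorem integral_nw_subset [Countable V] [IsProbabilityMeasure μ]
    (h0 : ∀ i, 0 ≤ g i) (h1 : ∀ i, g i < 1) {B S : Finset ι} (hBS : B ⊆ S) {h : (ι → ℝ) → ℝ}
    (hm : Measurable h) (hb : ∃ C, ∀ x, |h x| ≤ C) (hdep : DependsOn h (B : Set ι))
    {w : (V → Bool) → ℝ} (hw : Measurable w) (hwb : ∀ σ, |w σ| ≤ 1) :
    ∫ u, h u * nw μ site w S (fun i => g i * clamp (u i)) ∂(Pu ι) =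
      ∫ u, h u * nw μ site w B (fun i => g i * clamp (u i)) ∂(Pu ι) := by
  classical
  have h2 := integral_nw_union (μ := μ) (site := site) h0 h1 hm hb hdep hw hwb S
  rwa [Finset.union_eq_left.2 hBS] at h2

theorem tangent_ineq (a b : ℝ) (j : ℕ) :
    a ^ (2 * (j + 1)) + (2 * (j + 1) : ℕ) * a ^ (2 * j + 1) * (b - a) ≤ b ^ (2 * (j + 1)) := by
  have hconv : ConvexOn ℝ Set.univ fun x : ℝ => x ^ (2 * (j + 1)) :=
    (even_two_mul _).convexOn_pow
  have hder : HasDerivAt (fun x : ℝ => x ^ (2 * (j + 1)))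
      ((2 * (j + 1) : ℕ) * a ^ (2 * (j + 1) - 1)) a := hasDerivAt_pow _ a
  have e1 : 2 * (j + 1) - 1 = 2 * j + 1 := by omega
  rw [e1] at hder
  rcases lt_trichotomy a b with h | h | h
  · have h2 := hconv.le_slope_of_hasDerivAt (Set.mem_univ _) (Set.mem_univ _) h hder
    rw [slope_def_field, le_div_iff₀ (by linarith)] at h2
    linarith
  · subst h
    simp
  · have h2 := hconv.slope_le_of_hasDerivAt (Set.mem_univ _) (Set.mem_univ _) h hder
    rw [slope_def_field, div_le_iff₀ (by linarith)] at h2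
    linarith

theorem dependsOn_mag_clamp (B : Finset ι) (v : V) :
    DependsOn (fun u : ι → ℝ => mag μ site B (fun i => g i * clamp (u i)) v) (B : Set ι) := by
  intro x y h
  refine mag_congr (fun i hi => ?_) v
  rw [h i hi]

/-- Even moments of the posterior mean grow with the set of observations. -/
theorem integral_mag_pow_le [Countable V] [IsProbabilityMeasure μ]
    (h0 : ∀ i, 0 ≤ g i) (h1 : ∀ i, g i < 1) {B₁ B₂ S : Finset ι} (h12 : B₁ ⊆ B₂) (h2S : B₂ ⊆ S)
    (v : V) (j : ℕ) :
    ∫ u, mag μ site B₁ (fun i => g i * clamp (u i)) v ^ (2 * j) *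
        evid μ site S (fun i => g i * clamp (u i)) ∂(Pu ι) ≤
      ∫ u, mag μ site B₂ (fun i => g i * clamp (u i)) v ^ (2 * j) *
        evid μ site S (fun i => g i * clamp (u i)) ∂(Pu ι) := by
  obtain _ | j := j
  · simp
  set a : (ι → ℝ) → ℝ := fun u => mag μ site B₁ (fun i => g i * clamp (u i)) v with ha
  set b : (ι → ℝ) → ℝ := fun u => mag μ site B₂ (fun i => g i * clamp (u i)) v with hb
  have ham : Measurable a := v_measurable_mag_clamp B₁ v
  have hbm : Measurable b := v_measurable_mag_clamp B₂ v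
  have hab : ∀ u, |a u| ≤ 1 := fun u => abs_mag_le (fun i _ => abs_vclamp_lt h0 h1 _ i) _
  have hbb : ∀ u, |b u| ≤ 1 := fun u => abs_mag_le (fun i _ => abs_vclamp_lt h0 h1 _ i) _
  have hpb : ∀ {x : ℝ} (n : ℕ), |x| ≤ 1 → |x ^ n| ≤ 1 := by
    intro x n hx
    rw [abs_pow]
    exact pow_le_one₀ (abs_nonneg _) hx
  have hw1 : Measurable fun _ : V → Bool => (1 : ℝ) := measurable_const
  have hwb1 : ∀ σ : V → Bool, |(1 : ℝ)| ≤ 1 := fun _ => by simp
  have hws : Measurable fun σ : V → Bool => spin (σ v) := measurable_spin_apply v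
  have hwsb : ∀ σ : V → Bool, |spin (σ v)| ≤ 1 := fun σ => by rw [abs_spin]
  have hev : ∀ (B : Finset ι) (u : ι → ℝ), 0 < evid μ site B (fun i => g i * clamp (u i)) :=
    fun B u => evid_pos (fun i _ => abs_vclamp_lt h0 h1 _ i)
  -- integrability
  have hI : ∀ f : (ι → ℝ) → ℝ, Measurable f → (∀ u, |f u| ≤ 1) →
      Integrable (fun u => f u * evid μ site S (fun i => g i * clamp (u i))) (Pu ι) := by
    intro f hf hfb
    refine Integrable.of_bound (hf.mul (v_measurable_evid S)).aestronglyMeasurable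
      (1 * 2 ^ S.card) (Eventually.of_forall fun u => ?_)
    rw [Real.norm_eq_abs, abs_mul]
    exact mul_le_mul (hfb u) (v_evid_le h0 h1 u) (abs_nonneg _) (by norm_num)
  have hd1 : DependsOn a (B₁ : Set ι) := dependsOn_mag_clamp B₁ v
  have hd2 : DependsOn b (B₂ : Set ι) := dependsOn_mag_clamp B₂ v
  have hd1' : DependsOn a (B₂ : Set ι) := hd1.mono (by exact_mod_cast h12)
  have mab : Measurable fun u => a u ^ (2 * j + 1) * b u := (ham.pow_const _).mul hbm
  have maa : Measurable fun u => a u ^ (2 * j + 1) * a u := (ham.pow_const _).mul ham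
  have bab : ∀ u, |a u ^ (2 * j + 1) * b u| ≤ 1 := by
    intro u
    rw [abs_mul]
    exact mul_le_one₀ (hpb _ (hab u)) (abs_nonneg _) (hbb u)
  have baa : ∀ u, |a u ^ (2 * j + 1) * a u| ≤ 1 := by
    intro u
    rw [abs_mul]
    exact mul_le_one₀ (hpb _ (hab u)) (abs_nonneg _) (hab u)
  -- the key identity
  have hmagB : ∀ (B : Finset ι) (u : ι → ℝ), mag μ site B (fun i => g i * clamp (u i)) v *
      nw μ site (fun _ => 1) B (fun i => g i * clamp (u i)) =
      nw μ site (fun σ => spin (σ v)) B (fun i => g i * clamp (u i)) := by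
    intro B u
    rw [mag_eq_nw, ← evid_eq_nw]
    exact div_mul_cancel₀ _ (hev B u).ne'
  have key : ∫ u, (a u ^ (2 * j + 1) * b u) * evid μ site S (fun i => g i * clamp (u i)) ∂(Pu ι) =
      ∫ u, (a u ^ (2 * j + 1) * a u) * evid μ site S (fun i => g i * clamp (u i)) ∂(Pu ι) := by
    have k1 : ∫ u, (a u ^ (2 * j + 1) * b u) *
        evid μ site S (fun i => g i * clamp (u i)) ∂(Pu ι) =
        ∫ u, (a u ^ (2 * j + 1) * b u) *
          nw μ site (fun _ => 1) B₂ (fun i => g i * clamp (u i)) ∂(Pu ι) := by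
      simp only [evid_eq_nw]
      refine integral_nw_subset h0 h1 h2S mab ⟨1, bab⟩ ?_ hw1 hwb1
      intro x y hxy
      simp only [hd1' hxy, hd2 hxy]
    have k2 : ∫ u, (a u ^ (2 * j + 1) * a u) *
        evid μ site S (fun i => g i * clamp (u i)) ∂(Pu ι) =
        ∫ u, (a u ^ (2 * j + 1) * a u) *
          nw μ site (fun _ => 1) B₁ (fun i => g i * clamp (u i)) ∂(Pu ι) := by
      simp only [evid_eq_nw]
      refine integral_nw_subset h0 h1 (h12.trans h2S) maa ⟨1, baa⟩ ?_ hw1 hwb1
      intro x y hxy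
      simp only [hd1 hxy]
    rw [k1, k2]
    have k3 : ∀ u, (a u ^ (2 * j + 1) * b u) *
        nw μ site (fun _ => 1) B₂ (fun i => g i * clamp (u i)) =
        a u ^ (2 * j + 1) * nw μ site (fun σ => spin (σ v)) B₂ (fun i => g i * clamp (u i)) := by
      intro u
      rw [← hmagB B₂ u]
      ring
    have k4 : ∀ u, (a u ^ (2 * j + 1) * a u) *
        nw μ site (fun _ => 1) B₁ (fun i => g i * clamp (u i)) =
        a u ^ (2 * j + 1) * nw μ site (fun σ => spin (σ v)) B₁ (fun i => g i * clamp (u i)) := by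
      intro u
      rw [← hmagB B₁ u]
      ring
    simp only [k3, k4]
    refine integral_nw_subset h0 h1 h12 (ham.pow_const _) ⟨1, fun u => hpb _ (hab u)⟩ ?_ hws hwsb
    intro x y hxy
    simp only [hd1 hxy]
  have ht : ∀ u, a u ^ (2 * (j + 1)) * evid μ site S (fun i => g i * clamp (u i)) +
      (2 * (j + 1) : ℕ) * ((a u ^ (2 * j + 1) * b u) *
        evid μ site S (fun i => g i * clamp (u i)) -
        (a u ^ (2 * j + 1) * a u) * evid μ site S (fun i => g i * clamp (u i))) ≤
      b u ^ (2 * (j + 1)) * evid μ site S (fun i => g i * clamp (u i)) := by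
    intro u
    have h3 := mul_le_mul_of_nonneg_right (tangent_ineq (a u) (b u) j) (hev S u).le
    refine le_trans (le_of_eq ?_) h3
    ring
  have i1 := hI (fun u => a u ^ (2 * (j + 1))) (ham.pow_const _) (fun u => hpb _ (hab u))
  have i2 := hI (fun u => a u ^ (2 * j + 1) * b u) mab bab
  have i3 := hI (fun u => a u ^ (2 * j + 1) * a u) maa baa
  have i4 := hI (fun u => b u ^ (2 * (j + 1))) (hbm.pow_const _) (fun u => hpb _ (hbb u))
  have i5 : Integrable (fun u => ((2 * (j + 1) : ℕ) : ℝ) * ((a u ^ (2 * j + 1) * b u) *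
      evid μ site S (fun i => g i * clamp (u i)) - (a u ^ (2 * j + 1) * a u) *
        evid μ site S (fun i => g i * clamp (u i)))) (Pu ι) := (i2.sub i3).const_mul _
  have h5 := integral_sub i2 i3
  calc ∫ u, a u ^ (2 * (j + 1)) * evid μ site S (fun i => g i * clamp (u i)) ∂(Pu ι) =
      ∫ u, a u ^ (2 * (j + 1)) * evid μ site S (fun i => g i * clamp (u i)) ∂(Pu ι) +
        ∫ u, ((2 * (j + 1) : ℕ) : ℝ) * ((a u ^ (2 * j + 1) * b u) *
          evid μ site S (fun i => g i * clamp (u i)) - (a u ^ (2 * j + 1) * a u) *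
          evid μ site S (fun i => g i * clamp (u i))) ∂(Pu ι) := by
        rw [integral_const_mul, h5, key, sub_self, mul_zero, add_zero]
    _ = ∫ u, (a u ^ (2 * (j + 1)) * evid μ site S (fun i => g i * clamp (u i)) +
          (2 * (j + 1) : ℕ) * ((a u ^ (2 * j + 1) * b u) *
          evid μ site S (fun i => g i * clamp (u i)) - (a u ^ (2 * j + 1) * a u) *
          evid μ site S (fun i => g i * clamp (u i)))) ∂(Pu ι) := (integral_add i1 i5).symm
    _ ≤ _ := integral_mono (i1.add i5) i4 ht

end Dens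

end Vale.Agent.P161.EP
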