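import Mathlib
import Vale.Agent.P161.EP.Inf
import Vale.Agent.P161.EP.MonoA

/-!
# Module J3 (Mono): `E λ²` is a difference of monotone functions of the time

`λ²/θ² = p(M) - q(M)`, `p(M) = (1 + M⁴)/(1-θ²M²)²`, `q(M) = 2M²/(1-θ²M²)²`: even power series with
nonnegative coefficients.  `E M(k,t)^{2j}` is nondecreasing in `t`: in finite volume, by
`law_densityG` the law of the observations beyond `y` is that of the sampler on the part of `D`
beyond `y`, so `E ψ(MF(x,y)) = E ψ(mF of the smaller sampler at y)`; adding a site changes the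
posterior mean by a mean zero increment (`mag_step`, `integral_incr`), `ψ` convex.
-/

open MeasureTheory Filter Topology

namespace Vale.Agent.P161.EP

universe u

variable {V : Type u} {G : SimpleGraph V} [G.LocallyFinite] {θ : ℝ} {μ : Measure (V → Bool)}
  {b : ℕ}

open Classical in
/-- The sites beyond `y` before the time `(k, t)`. -/
noncomputable def mono_bey (G : SimpleGraph V) (D : Finset V) (U : V × ℕ → ℝ) (k : ℕ) (t : ℝ)
    (x y : V) : Finset (V × ℕ) :=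
  (evT D U k (-1 + t)).filter (fun e => G.dist y e.1 < G.dist x e.1)

omit [G.LocallyFinite] in
theorem bey_mono (D : Finset V) (U : V × ℕ → ℝ) (k : ℕ) {t1 t2 : ℝ} (h12 : t1 ≤ t2) (x y : V) :
    mono_bey G D U k t1 x y ⊆ mono_bey G D U k t2 x y := by
  intro e he
  unfold mono_bey at he ⊢
  rw [Finset.mem_filter, mem_evT] at he ⊢
  refine ⟨⟨he.1.1, ?_⟩, he.2⟩
  rcases he.1.2 with h | ⟨h, h'⟩
  · exact Or.inl h
  · exact Or.inr ⟨h, by linarith⟩

omit [G.LocallyFinite] in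
theorem bey_subset (D : Finset V) (U : V × ℕ → ℝ) (k : ℕ) (t : ℝ) (x y : V) :
    mono_bey G D U k t x y ⊆ D ×ˢ Finset.range (k + 1) := by
  intro e he
  unfold mono_bey at he
  rw [Finset.mem_filter, mem_evT] at he
  rw [Finset.mem_product, Finset.mem_range]
  refine ⟨he.1.1, ?_⟩
  rcases he.1.2 with h | ⟨h, _⟩
  · omega
  · omega

omit [G.LocallyFinite] in
theorem MF_joinUX [IsProbabilityMeasure μ] (D : Finset V) (k : ℕ) (t : ℝ) (U X : V × ℕ → ℝ)
    (x y : V) :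
    MF G μ D k t (joinUX U X) x y =
      mag μ Prod.fst (mono_bey G D U k t x y) (fun i => gs (U i) *
        clamp (sampG μ (fun i => gs (U i)) Prod.fst (rk2 U) (D ×ˢ Finset.range (k + 1)) X i)) y := by
  classical
  unfold MF
  have h1 : (bef (joinUX U X) D k t).filter (fun e => G.dist y e.1 < G.dist x e.1) =
      mono_bey G D U k t x y := by
    unfold mono_bey
    rw [bef_eq, uL_joinUX]
  have h2 : mag μ Prod.fst ((bef (joinUX U X) D k t).filter
      (fun e => G.dist y e.1 < G.dist x e.1)) (cF μ D (joinUX U X)) y =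
      mag μ Prod.fst (mono_bey G D U k t x y) (cF μ D (joinUX U X)) y := by
    rw [h1]
  refine Eq.trans ?_ (h2.trans ?_)
  · congr!
  · refine mag_congr (fun i hi => ?_) y
    have hi2 := bey_subset D U k t x y hi
    rw [Finset.mem_product, Finset.mem_range] at hi2
    unfold cF
    rw [sF_eq_sampG μ D (joinUX U X) hi2.2, rkE_eq, uL_joinUX, xL_joinUX,
      clamp_of_abs_le (abs_sampG_le (fun i => gs_nonneg _)
        (fun i => (gs_lt _).trans (by norm_num)) i)]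

theorem rk2_injOn {U : V × ℕ → ℝ} (hU : Function.Injective U) (S : Set (V × ℕ)) :
    Set.InjOn (rk2 U) S := by
  intro e _ e' _ h
  have h3 : (e.2, U e) = (e'.2, U e') := toLex.injective h
  rw [Prod.mk.injEq] at h3
  exact hU h3.2

omit [G.LocallyFinite] in
theorem measurable_MF_t [Countable V] [IsProbabilityMeasure μ] (D : Finset V) (k : ℕ) (t : ℝ)
    (x y : V) : Measurable fun om : V × ℕ → ℝ => MF G μ D k t om x y := by
  have h2 := (measurable_MF (μ := μ) G D k x y).comp (measurable_mk_t t)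
  exact h2

omit [G.LocallyFinite] in
theorem abs_MF_le' [IsProbabilityMeasure μ] (D : Finset V) (k : ℕ) (t : ℝ) (om : V × ℕ → ℝ)
    (x y : V) : |MF G μ D k t om x y| ≤ 1 :=
  abs_mag_le (fun e _ => abs_cF_lt_one D om e) y

omit [G.LocallyFinite] in
/-- Finite volume. -/
theorem integral_MF_pow_le [Countable V] [IsProbabilityMeasure μ] (D : Finset V) (k : ℕ)
    {t1 t2 : ℝ} (h12 : t1 ≤ t2) (x y : V) (j : ℕ) :
    ∫ om, MF G μ D k t1 om x y ^ (2 * j) ∂(Pu (V × ℕ)) ≤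
      ∫ om, MF G μ D k t2 om x y ^ (2 * j) ∂(Pu (V × ℕ)) := by
  have hm : ∀ t, Measurable fun om : V × ℕ → ℝ => MF G μ D k t om x y ^ (2 * j) :=
    fun t => (measurable_MF_t D k t x y).pow_const _
  have hbd : ∀ t om, |MF G μ D k t om x y ^ (2 * j)| ≤ 1 := by
    intro t om
    rw [abs_pow]
    exact pow_le_one₀ (abs_nonneg _) (abs_MF_le' D k t om x y)
  rw [integral_joinUX (hm t1) (hbd t1), integral_joinUX (hm t2) (hbd t2)]
  have hint : ∀ t, Integrable (fun U : V × ℕ → ℝ =>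
      ∫ X, MF G μ D k t (joinUX U X) x y ^ (2 * j) ∂(Pu (V × ℕ))) (Pu (V × ℕ)) := by
    intro t
    have h1 : Integrable (fun p : (V × ℕ → ℝ) × (V × ℕ → ℝ) =>
        MF G μ D k t (joinUX p.1 p.2) x y ^ (2 * j)) ((Pu (V × ℕ)).prod (Pu (V × ℕ))) :=
      Integrable.of_bound ((hm t).comp measurable_joinUX).aestronglyMeasurable 1
        (Eventually.of_forall fun p => hbd t _)
    exact h1.integral_prod_left
  refine integral_mono_ae (hint t1) (hint t2) ?_
  have hinj : ∀ᵐ U ∂(Pu (V × ℕ)), Function.Injective U := ae_injective_Pu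
  filter_upwards [hinj] with U hU
  have h0 : ∀ i : V × ℕ, 0 ≤ gs (U i) := fun i => gs_nonneg _
  have h1 : ∀ i : V × ℕ, gs (U i) < 1 := fun i => (gs_lt _).trans (by norm_num)
  have hlaw : ∀ t, ∫ X, MF G μ D k t (joinUX U X) x y ^ (2 * j) ∂(Pu (V × ℕ)) =
      ∫ u, mag μ Prod.fst (mono_bey G D U k t x y) (fun i => gs (U i) * clamp (u i)) y ^ (2 * j) *
        evid μ Prod.fst (D ×ˢ Finset.range (k + 1)) (fun i => gs (U i) * clamp (u i))
          ∂(Pu (V × ℕ)) := by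
    intro t
    have h2 := law_densityG (μ := μ) (site := (Prod.fst : V × ℕ → V)) (r := rk2 U) h0 h1
      (D ×ˢ Finset.range (k + 1)) (rk2_injOn hU _)
      (F := fun u => mag μ Prod.fst (mono_bey G D U k t x y)
        (fun i => gs (U i) * clamp (u i)) y ^ (2 * j))
      ((v_measurable_mag_clamp (g := fun i => gs (U i)) _ y).pow_const _)
      ⟨1, fun u => by
        rw [abs_pow]
        exact pow_le_one₀ (abs_nonneg _)
          (abs_mag_le (fun i _ => abs_vclamp_lt (g := fun i => gs (U i)) h0 h1 _ i) y)⟩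
      (by
        intro u u' huu
        have h3 := dependsOn_mag_clamp (μ := μ) (g := fun i => gs (U i))
          (site := (Prod.fst : V × ℕ → V)) (mono_bey G D U k t x y) y
        have h4 := h3 (x := u) (y := u') (fun i hi => huu i (by
          exact_mod_cast bey_subset D U k t x y hi))
        simp only at h4 ⊢
        rw [h4])
    rw [← h2]
    refine integral_congr_ae (Eventually.of_forall fun X => ?_)
    simp only
    rw [MF_joinUX]
  simp only [hlaw]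
  exact integral_mag_pow_le h0 h1 (bey_mono D U k h12 x y) (bey_subset D U k t2 x y) y j

theorem moment_mono (hG : G.IsTree) (hd : G.IsRegularOfDegree (b + 1))
    (hμ : IsTreeIsing G θ μ) (h0 : 0 ≤ θ) (h1 : θ < 1) (hθ : b * θ ^ 2 < 1) {x y : V}
    (hxy : G.Adj x y) (k j : ℕ) {t1 t2 : ℝ} (h12 : t1 ≤ t2) (h2 : t2 ≤ 1) :
    ∫ om, MI G θ μ k t1 x y om ^ (2 * j) ∂(Pu (V × ℕ)) ≤
      ∫ om, MI G θ μ k t2 x y om ^ (2 * j) ∂(Pu (V × ℕ)) := by
  have := hμ.isProb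
  have : Countable V := countable_of_locallyFinite hG.connected
  have hlim : ∀ t ≤ 1, Tendsto (fun n : ℕ => ∫ om, MF G μ (ball G x n) k t om x y ^ (2 * j)
      ∂(Pu (V × ℕ))) atTop (𝓝 (∫ om, MI G θ μ k t x y om ^ (2 * j) ∂(Pu (V × ℕ)))) := by
    intro t ht
    refine tendsto_integral_of_dominated_convergence (fun _ => 1) (fun n => ?_)
      (integrable_const _) (fun n => ae_of_all _ fun om => ?_) ?_
    · exact ((measurable_MF_t _ k t x y).pow_const _).aestronglyMeasurable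
    · rw [Real.norm_eq_abs, abs_pow]
      exact pow_le_one₀ (abs_nonneg _) (abs_MF_le' _ k t om x y)
    · filter_upwards [ae_tendsto_MF hG hd hμ h0 h1 hθ k ht x] with om hom
      exact (hom x y hxy).pow _
  exact le_of_tendsto_of_tendsto' (hlim t1 (h12.trans h2)) (hlim t2 h2)
    fun n => integral_MF_pow_le (ball G x n) k h12 x y j

theorem hasSum_geom_sq {z : ℝ} (h0 : 0 ≤ z) (h1 : z < 1) :
    HasSum (fun n : ℕ => ((n : ℝ) + 1) * z ^ n) (1 / (1 - z) ^ 2) := by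
  have hz : ‖z‖ < 1 := by rw [Real.norm_eq_abs, abs_of_nonneg h0]; exact h1
  have h2 := (hasSum_coe_mul_geometric_of_norm_lt_one hz).add (hasSum_geometric_of_norm_lt_one hz)
  have h3 : (1 : ℝ) - z ≠ 0 := by linarith
  have e1 : (fun n : ℕ => ((n : ℝ) + 1) * z ^ n) = fun n : ℕ => (n : ℝ) * z ^ n + z ^ n := by
    funext n
    ring
  have e2 : 1 / (1 - z) ^ 2 = z / (1 - z) ^ 2 + (1 - z)⁻¹ := by
    field_simp
    ring
  rw [e1, e2]
  exact h2

/-- `E M^{2i} / (1 - θ² M²)²` as a series of moments. -/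
theorem hasSum_mom (hG : G.IsTree) (hd : G.IsRegularOfDegree (b + 1))
    (hμ : IsTreeIsing G θ μ) (h0 : 0 ≤ θ) (h1 : θ < 1) (hθ : b * θ ^ 2 < 1) (x y : V)
    (k i : ℕ) {t : ℝ} (ht : t ≤ 1) :
    HasSum (fun n : ℕ => ((n : ℝ) + 1) * (θ ^ 2) ^ n *
        ∫ om, MI G θ μ k t x y om ^ (2 * (n + i)) ∂(Pu (V × ℕ)))
      (∫ om, MI G θ μ k t x y om ^ (2 * i) / (1 - θ ^ 2 * MI G θ μ k t x y om ^ 2) ^ 2
        ∂(Pu (V × ℕ))) := by
  have hF := isField hG hd hμ h0 h1 hθ k ht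
  have hθ2 : θ ^ 2 < 1 := by nlinarith
  have hθ0 : 0 ≤ θ ^ 2 := sq_nonneg θ
  have hpb : ∀ (n : ℕ) om, |MI G θ μ k t x y om ^ n| ≤ 1 := by
    intro n om
    rw [abs_pow]
    exact pow_le_one₀ (abs_nonneg _) (hF.abs_M x y om)
  have hint : ∀ n : ℕ, Integrable (fun om => ((n : ℝ) + 1) * (θ ^ 2) ^ n *
      MI G θ μ k t x y om ^ (2 * (n + i))) (Pu (V × ℕ)) := by
    intro n
    refine Integrable.const_mul ?_ _
    exact Integrable.of_bound ((hF.meas_M x y).pow_const _).aestronglyMeasurable 1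
      (Eventually.of_forall fun om => by rw [Real.norm_eq_abs]; exact hpb _ om)
  have hsum := hasSum_geom_sq hθ0 hθ2
  have hs : Summable fun n : ℕ => ∫ om, ‖((n : ℝ) + 1) * (θ ^ 2) ^ n *
      MI G θ μ k t x y om ^ (2 * (n + i))‖ ∂(Pu (V × ℕ)) := by
    refine Summable.of_nonneg_of_le (fun n => integral_nonneg fun om => norm_nonneg _)
      (fun n => ?_) hsum.summable
    have hc : 0 ≤ ((n : ℝ) + 1) * (θ ^ 2) ^ n := by positivity
    calc ∫ om, ‖((n : ℝ) + 1) * (θ ^ 2) ^ n * MI G θ μ k t x y om ^ (2 * (n + i))‖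
          ∂(Pu (V × ℕ)) ≤ ∫ _om, ((n : ℝ) + 1) * (θ ^ 2) ^ n ∂(Pu (V × ℕ)) := by
          refine integral_mono (hint n).norm (integrable_const _) fun om => ?_
          simp only
          rw [norm_mul, Real.norm_eq_abs, Real.norm_eq_abs, abs_of_nonneg hc]
          exact mul_le_of_le_one_right hc (hpb _ om)
      _ = _ := by simp
  have h2 := hasSum_integral_of_summable_integral_norm hint hs
  have e1 : (fun n : ℕ => ((n : ℝ) + 1) * (θ ^ 2) ^ n *
      ∫ om, MI G θ μ k t x y om ^ (2 * (n + i)) ∂(Pu (V × ℕ))) =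
      fun n : ℕ => ∫ om, ((n : ℝ) + 1) * (θ ^ 2) ^ n * MI G θ μ k t x y om ^ (2 * (n + i))
        ∂(Pu (V × ℕ)) := by
    funext n
    rw [integral_const_mul]
  have e2 : ∫ om, MI G θ μ k t x y om ^ (2 * i) / (1 - θ ^ 2 * MI G θ μ k t x y om ^ 2) ^ 2
      ∂(Pu (V × ℕ)) = ∫ om, ∑' n : ℕ, ((n : ℝ) + 1) * (θ ^ 2) ^ n *
        MI G θ μ k t x y om ^ (2 * (n + i)) ∂(Pu (V × ℕ)) := by
    refine integral_congr_ae (Eventually.of_forall fun om => ?_)
    simp only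
    set M := MI G θ μ k t x y om with hM
    have hM1 : |M| ≤ 1 := hF.abs_M x y om
    have hM2 : M ^ 2 ≤ 1 := by rw [sq_le_one_iff_abs_le_one]; exact hM1
    have hz0 : 0 ≤ θ ^ 2 * M ^ 2 := by positivity
    have hz1 : θ ^ 2 * M ^ 2 < 1 := by nlinarith [sq_nonneg M]
    have h3 := (hasSum_geom_sq hz0 hz1).mul_right (M ^ (2 * i))
    have h4 : (fun n : ℕ => ((n : ℝ) + 1) * (θ ^ 2) ^ n * M ^ (2 * (n + i))) =
        fun n : ℕ => ((n : ℝ) + 1) * (θ ^ 2 * M ^ 2) ^ n * M ^ (2 * i) := by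
      funext n
      rw [mul_pow, ← pow_mul M 2 n, mul_add, pow_add]
      ring
    rw [h4, h3.tsum_eq]
    ring
  rw [e1, e2]
  exact h2

theorem mom_mono (hG : G.IsTree) (hd : G.IsRegularOfDegree (b + 1))
    (hμ : IsTreeIsing G θ μ) (h0 : 0 ≤ θ) (h1 : θ < 1) (hθ : b * θ ^ 2 < 1) {x y : V}
    (hxy : G.Adj x y) (k i : ℕ) {t1 t2 : ℝ} (h12 : t1 ≤ t2) (h2 : t2 ≤ 1) :
    ∫ om, MI G θ μ k t1 x y om ^ (2 * i) / (1 - θ ^ 2 * MI G θ μ k t1 x y om ^ 2) ^ 2
        ∂(Pu (V × ℕ)) ≤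
      ∫ om, MI G θ μ k t2 x y om ^ (2 * i) / (1 - θ ^ 2 * MI G θ μ k t2 x y om ^ 2) ^ 2
        ∂(Pu (V × ℕ)) := by
  refine hasSum_le (fun n => ?_) (hasSum_mom hG hd hμ h0 h1 hθ x y k i (h12.trans h2))
    (hasSum_mom hG hd hμ h0 h1 hθ x y k i h2)
  exact mul_le_mul_of_nonneg_left (moment_mono hG hd hμ h0 h1 hθ hxy k (n + i) h12 h2)
    (by positivity)

theorem exists_mono_decomp (hG : G.IsTree) (hb : 2 ≤ b) (hd : G.IsRegularOfDegree (b + 1))
    (hμ : IsTreeIsing G θ μ) (h0 : 0 ≤ θ) (h1 : θ < 1) (hθ : b * θ ^ 2 < 1) {x y : V}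
    (hxy : G.Adj x y) (k : ℕ) :
    ∃ p q : ℝ → ℝ, MonotoneOn p (Set.Icc 0 1) ∧ MonotoneOn q (Set.Icc 0 1) ∧
      (∀ t ∈ Set.Icc (0 : ℝ) 1, |p t| ≤ 8 ∧ |q t| ≤ 8) ∧
      ∀ t ∈ Set.Icc (0 : ℝ) 1,
        ∫ om, lam θ (MI G θ μ k t x y om) ^ 2 ∂(Pu (V × ℕ)) = p t - q t := by
  have hθ0 : 0 ≤ θ ^ 2 := sq_nonneg θ
  have hθ2 : θ ^ 2 ≤ 1 / 2 := by
    have hb' : (2 : ℝ) ≤ b := by exact_mod_cast hb
    nlinarith
  set I : ℕ → ℝ → ℝ := fun i t =>
    ∫ om, MI G θ μ k t x y om ^ (2 * i) / (1 - θ ^ 2 * MI G θ μ k t x y om ^ 2) ^ 2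
      ∂(Pu (V × ℕ)) with hI
  have hmono : ∀ i, MonotoneOn (I i) (Set.Icc 0 1) := by
    intro i t1 _ t2 h2 h12
    exact mom_mono hG hd hμ h0 h1 hθ hxy k i h12 h2.2
  -- pointwise facts
  have hpt : ∀ (i : ℕ) (t : ℝ), t ∈ Set.Icc (0 : ℝ) 1 → ∀ om,
      0 ≤ MI G θ μ k t x y om ^ (2 * i) / (1 - θ ^ 2 * MI G θ μ k t x y om ^ 2) ^ 2 ∧
      MI G θ μ k t x y om ^ (2 * i) / (1 - θ ^ 2 * MI G θ μ k t x y om ^ 2) ^ 2 ≤ 4 := by
    intro i t ht om
    have hF := isField hG hd hμ h0 h1 hθ k ht.2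
    set M := MI G θ μ k t x y om with hM
    have hM1 : |M| ≤ 1 := hF.abs_M x y om
    have hM2 : M ^ 2 ≤ 1 := by rw [sq_le_one_iff_abs_le_one]; exact hM1
    have hd1 : 1 / 2 ≤ 1 - θ ^ 2 * M ^ 2 := by nlinarith [sq_nonneg M]
    have h3 : 1 / 4 ≤ (1 - θ ^ 2 * M ^ 2) ^ 2 := by nlinarith
    have h4 : 0 ≤ M ^ (2 * i) := by rw [pow_mul]; positivity
    have h5 : M ^ (2 * i) ≤ 1 := by rw [pow_mul]; exact pow_le_one₀ (sq_nonneg M) hM2
    refine ⟨by positivity, ?_⟩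
    rw [div_le_iff₀ (by linarith)]
    linarith
  have hint : ∀ (i : ℕ) (t : ℝ), t ∈ Set.Icc (0 : ℝ) 1 → Integrable (fun om =>
      MI G θ μ k t x y om ^ (2 * i) / (1 - θ ^ 2 * MI G θ μ k t x y om ^ 2) ^ 2)
      (Pu (V × ℕ)) := by
    intro i t ht
    have hF := isField hG hd hμ h0 h1 hθ k ht.2
    have hm := hF.meas_M x y
    refine Integrable.of_bound (Measurable.aestronglyMeasurable ?_) 4
      (Eventually.of_forall fun om => ?_)
    · exact (hm.pow_const _).div ((measurable_const.sub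
        (measurable_const.mul (hm.pow_const 2))).pow_const 2)
    · rw [Real.norm_eq_abs, abs_of_nonneg (hpt i t ht om).1]
      exact (hpt i t ht om).2
  have hIb : ∀ (i : ℕ) (t : ℝ), t ∈ Set.Icc (0 : ℝ) 1 → 0 ≤ I i t ∧ I i t ≤ 4 := by
    intro i t ht
    refine ⟨integral_nonneg fun om => (hpt i t ht om).1, ?_⟩
    calc I i t ≤ ∫ _om, (4 : ℝ) ∂(Pu (V × ℕ)) :=
          integral_mono (hint i t ht) (integrable_const _) fun om => (hpt i t ht om).2
      _ = 4 := by simp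
  refine ⟨fun t => θ ^ 2 * (I 0 t + I 2 t), fun t => 2 * θ ^ 2 * I 1 t, ?_, ?_, ?_, ?_⟩
  · intro t1 h1' t2 h2' h12
    have e1 := hmono 0 h1' h2' h12
    have e2 := hmono 2 h1' h2' h12
    exact mul_le_mul_of_nonneg_left (add_le_add e1 e2) hθ0
  · intro t1 h1' t2 h2' h12
    have e1 := hmono 1 h1' h2' h12
    exact mul_le_mul_of_nonneg_left e1 (by positivity)
  · intro t ht
    obtain ⟨a0, a1⟩ := hIb 0 t ht
    obtain ⟨b0, b1⟩ := hIb 1 t ht
    obtain ⟨c0, c1⟩ := hIb 2 t ht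
    constructor
    · simp only
      rw [abs_of_nonneg (by positivity)]
      nlinarith
    · simp only
      rw [abs_of_nonneg (by positivity)]
      nlinarith
  · intro t ht
    simp only
    have e1 : ∀ om, lam θ (MI G θ μ k t x y om) ^ 2 =
        θ ^ 2 * (MI G θ μ k t x y om ^ (2 * 0) / (1 - θ ^ 2 * MI G θ μ k t x y om ^ 2) ^ 2 +
          MI G θ μ k t x y om ^ (2 * 2) / (1 - θ ^ 2 * MI G θ μ k t x y om ^ 2) ^ 2) -
        2 * θ ^ 2 * (MI G θ μ k t x y om ^ (2 * 1) /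
          (1 - θ ^ 2 * MI G θ μ k t x y om ^ 2) ^ 2) := by
      intro om
      unfold lam
      rw [div_pow, ← add_div, mul_div_assoc', mul_div_assoc', ← sub_div]
      congr 1
      ring
    have i1 := ((hint 0 t ht).add (hint 2 t ht)).const_mul (θ ^ 2)
    have i2 := (hint 1 t ht).const_mul (2 * θ ^ 2)
    calc ∫ om, lam θ (MI G θ μ k t x y om) ^ 2 ∂(Pu (V × ℕ)) =
        ∫ om, (θ ^ 2 * (MI G θ μ k t x y om ^ (2 * 0) /
            (1 - θ ^ 2 * MI G θ μ k t x y om ^ 2) ^ 2 +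
          MI G θ μ k t x y om ^ (2 * 2) / (1 - θ ^ 2 * MI G θ μ k t x y om ^ 2) ^ 2) -
        2 * θ ^ 2 * (MI G θ μ k t x y om ^ (2 * 1) /
          (1 - θ ^ 2 * MI G θ μ k t x y om ^ 2) ^ 2)) ∂(Pu (V × ℕ)) :=
          integral_congr_ae (Eventually.of_forall fun om => e1 om)
      _ = ∫ om, (θ ^ 2 * (MI G θ μ k t x y om ^ (2 * 0) /
            (1 - θ ^ 2 * MI G θ μ k t x y om ^ 2) ^ 2 +
          MI G θ μ k t x y om ^ (2 * 2) / (1 - θ ^ 2 * MI G θ μ k t x y om ^ 2) ^ 2))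
            ∂(Pu (V × ℕ)) -
          ∫ om, (2 * θ ^ 2 * (MI G θ μ k t x y om ^ (2 * 1) /
          (1 - θ ^ 2 * MI G θ μ k t x y om ^ 2) ^ 2)) ∂(Pu (V × ℕ)) := integral_sub i1 i2
      _ = θ ^ 2 * (I 0 t + I 2 t) - 2 * θ ^ 2 * I 1 t := by
          rw [integral_const_mul, integral_const_mul]
          congr 2
          exact integral_add (hint 0 t ht) (hint 2 t ht)

end Vale.Agent.P161.EP
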