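import Mathlib
import Vale.Agent.P161.EP.Inf

/-!
# Module F (Evol): the evolution of the mean square difference of two infinite systems

Proof.  `YF_mono`, `YF_evolution`, `sF_sub_sq` with `D = D' = ball G v n`, `n → ∞`.  The terms of
the sum over `w` are dominated by `C (θ^(2 dist) + θ'^(2 dist))` (`exists_path_bound`), use
`sum_bound`, dominated convergence in `w`, `om` and `t`.
-/

open MeasureTheory Filter Topology

namespace Vale.Agent.P161.EP

universe u

variable {V : Type u} {G : SimpleGraph V} [G.LocallyFinite] {b : ℕ}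

/-- The mean square difference of the posterior means of two infinite systems. -/
noncomputable def YI (G : SimpleGraph V) (μ μ' : Measure (V → Bool)) (k : ℕ) (v : V) (t : ℝ) : ℝ :=
  ∫ om, (mI G μ k t v om - mI G μ' k t v om) ^ 2 ∂(Pu (V × ℕ))

/-- The expectation of the driving term. -/
noncomputable def EG (G : SimpleGraph V) [G.LocallyFinite] (θ θ' : ℝ) (μ μ' : Measure (V → Bool))
    (k : ℕ) (v : V) (t : ℝ) : ℝ :=
  ∫ om, Gt G θ θ' (fun v => mI G μ k t v om) (fun v => mI G μ' k t v om)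
    (fun x y => MI G θ μ k t x y om) (fun x y => MI G θ' μ' k t x y om) v ∂(Pu (V × ℕ))

variable {θ θ' : ℝ} {μ μ' : Measure (V → Bool)}

/-! ### Measurability -/

theorem measurable_tsum_nonneg {Ω ι : Type*} [MeasurableSpace Ω] [Countable ι] {f : ι → Ω → ℝ}
    (hf : ∀ i, Measurable (f i)) (h0 : ∀ i ω, 0 ≤ f i ω) :
    Measurable fun ω => ∑' i, f i ω := by
  have h : (fun ω => ∑' i, f i ω) = fun ω => ((∑' i, Real.toNNReal (f i ω) : NNReal) : ℝ) := by
    funext ω
    rw [NNReal.coe_tsum]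
    congr 1
    funext i
    rw [Real.coe_toNNReal _ (h0 i ω)]
  rw [h]
  exact (Measurable.nnreal_tsum fun i => (hf i).real_toNNReal).coe_nnreal_real

theorem measurable_kerN {Ω : Type*} [MeasurableSpace Ω] {L : Ω → V → V → ℝ}
    (h : ∀ x y, Measurable fun ω => L ω x y) (n : ℕ) :
    ∀ v w, Measurable fun ω => kerN G (L ω) n v w := by
  induction n with
  | zero =>
    intro v w
    simp only [kerN]
    exact measurable_const
  | succ n ih =>
    intro v w
    simp only [kerN]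
    refine Finset.measurable_fun_sum _ fun z _ => ?_
    split_ifs with hzw
    · exact (h v z).mul (ih z w)
    · exact measurable_const

theorem measurable_lam (θ : ℝ) : Measurable (lam θ) := by
  unfold lam
  fun_prop

theorem measurable_Jk {Ω : Type*} [MeasurableSpace Ω] {m : Ω → V → ℝ} {M : Ω → V → V → ℝ}
    (hm : ∀ v, Measurable fun ω => m ω v) (hM : ∀ x y, Measurable fun ω => M ω x y) (θ : ℝ)
    (v w : V) : Measurable fun ω => Jk G θ (m ω) (M ω) v w := by
  unfold Jk ker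
  refine (measurable_const.sub ((hm v).pow_const 2)).mul ?_
  exact measurable_kerN (fun x y => (measurable_lam θ).comp (hM x y)) _ v w

/-- The term of `w` of the driving term. -/
noncomputable def Gw (G : SimpleGraph V) [G.LocallyFinite] (θ θ' : ℝ) (m m' : V → ℝ)
    (M M' : V → V → ℝ) (v w : V) : ℝ :=
  8 * (Jk G θ m M v w - Jk G θ' m' M' v w) ^ 2 +
    32 * (Jk G θ' m' M' v w) ^ 2 * (m w - m' w) ^ 2

theorem Gw_nonneg (m m' : V → ℝ) (M M' : V → V → ℝ) (v w : V) :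
    0 ≤ Gw G θ θ' m m' M M' v w := by
  unfold Gw
  positivity

theorem measurable_Gw {Ω : Type*} [MeasurableSpace Ω] {m m' : Ω → V → ℝ} {M M' : Ω → V → V → ℝ}
    (hm : ∀ v, Measurable fun ω => m ω v) (hM : ∀ x y, Measurable fun ω => M ω x y)
    (hm' : ∀ v, Measurable fun ω => m' ω v) (hM' : ∀ x y, Measurable fun ω => M' ω x y)
    (θ θ' : ℝ) (v w : V) :
    Measurable fun ω => Gw G θ θ' (m ω) (m' ω) (M ω) (M' ω) v w := by
  unfold Gw
  have h1 := measurable_Jk (G := G) hm hM θ v w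
  have h2 := measurable_Jk (G := G) hm' hM' θ' v w
  exact (((h1.sub h2).pow_const 2).const_mul 8).add
    (((h2.pow_const 2).const_mul 32).mul (((hm w).sub (hm' w)).pow_const 2))

theorem measurable_Gt {Ω : Type*} [MeasurableSpace Ω] [Countable V] {m m' : Ω → V → ℝ}
    {M M' : Ω → V → V → ℝ}
    (hm : ∀ v, Measurable fun ω => m ω v) (hM : ∀ x y, Measurable fun ω => M ω x y)
    (hm' : ∀ v, Measurable fun ω => m' ω v) (hM' : ∀ x y, Measurable fun ω => M' ω x y)
    (θ θ' : ℝ) (v : V) :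
    Measurable fun ω => Gt G θ θ' (m ω) (m' ω) (M ω) (M' ω) v :=
  measurable_tsum_nonneg (fun w => measurable_Gw hm hM hm' hM' θ θ' v w)
    (fun w ω => Gw_nonneg _ _ _ _ v w)

theorem measurable_EG [Countable V] [IsProbabilityMeasure μ] [IsProbabilityMeasure μ'] (k : ℕ)
    (v : V) : Measurable (EG G θ θ' μ μ' k v) := by
  have h := measurable_Gt (G := G) (Ω := ℝ × (V × ℕ → ℝ))
    (m := fun p v => mI G μ k p.1 v p.2) (m' := fun p v => mI G μ' k p.1 v p.2)
    (M := fun p x y => MI G θ μ k p.1 x y p.2) (M' := fun p x y => MI G θ' μ' k p.1 x y p.2)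
    (fun v => measurable_mI k v) (fun x y => measurable_MI θ k x y)
    (fun v => measurable_mI k v) (fun x y => measurable_MI θ' k x y) θ θ' v
  exact (h.stronglyMeasurable.integral_prod_right (ν := Pu (V × ℕ))).measurable

/-! ### Bounds -/

/-- The dominating function of the sum over `w`. -/
noncomputable def dom (G : SimpleGraph V) (θ θ' : ℝ) (v w : V) : ℝ :=
  16 * (θ ^ 2) ^ G.dist v w + 144 * (θ' ^ 2) ^ G.dist v w

omit [G.LocallyFinite] in
theorem dom_nonneg (v w : V) : 0 ≤ dom G θ θ' v w := by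
  unfold dom
  positivity

theorem summable_pow_dist (hG : G.Connected) (hd : G.IsRegularOfDegree (b + 1))
    (hθ : b * θ ^ 2 < 1) (v : V) : Summable fun w => (θ ^ 2) ^ G.dist v w := by
  obtain ⟨C, hC, hsum⟩ := sum_bound hG hd (sq_nonneg θ) (by push_cast; linarith)
  refine summable_of_sum_le (c := C) (fun w => by positivity) fun W => ?_
  refine le_trans (Finset.sum_le_sum fun w _ => ?_) (hsum v W)
  have h1 : 0 ≤ (θ ^ 2) ^ G.dist v w := by positivity
  have h2 : (1 : ℝ) ≤ ((G.dist v w : ℝ) + 1) ^ 2 := by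
    have : (0 : ℝ) ≤ (G.dist v w : ℝ) := Nat.cast_nonneg _
    nlinarith
  nlinarith

theorem summable_dom (hG : G.Connected) (hd : G.IsRegularOfDegree (b + 1))
    (hθ : b * θ ^ 2 < 1) (hθ' : b * θ' ^ 2 < 1) (v : V) : Summable (dom G θ θ' v) :=
  ((summable_pow_dist hG hd hθ v).mul_left 16).add ((summable_pow_dist hG hd hθ' v).mul_left 144)

omit [G.LocallyFinite] in
theorem term_le {J J' m m' : ℝ} {v w : V} (hJ : |J| ≤ θ ^ G.dist v w)
    (hJ' : |J'| ≤ θ' ^ G.dist v w) (hm : |m| ≤ 1) (hm' : |m'| ≤ 1) :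
    8 * (J - J') ^ 2 + 32 * J' ^ 2 * (m - m') ^ 2 ≤ dom G θ θ' v w := by
  have h1 : J ^ 2 ≤ (θ ^ 2) ^ G.dist v w := by
    rw [← sq_abs, ← pow_mul, mul_comm 2, pow_mul]
    exact pow_le_pow_left₀ (abs_nonneg _) hJ 2
  have h2 : J' ^ 2 ≤ (θ' ^ 2) ^ G.dist v w := by
    rw [← sq_abs, ← pow_mul, mul_comm 2, pow_mul]
    exact pow_le_pow_left₀ (abs_nonneg _) hJ' 2
  have h3 : (m - m') ^ 2 ≤ 4 := by
    have h4 := abs_sub m m'
    have h5 : |m - m'| ≤ 2 := by linarith
    rw [← sq_abs]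
    calc |m - m'| ^ 2 ≤ (2 : ℝ) ^ 2 := pow_le_pow_left₀ (abs_nonneg _) h5 2
      _ = 4 := by norm_num
  have h6 : J' ^ 2 * (m - m') ^ 2 ≤ (θ' ^ 2) ^ G.dist v w * 4 :=
    mul_le_mul h2 h3 (sq_nonneg _) (by positivity)
  have h7 : (J - J') ^ 2 ≤ 2 * J ^ 2 + 2 * J' ^ 2 := by nlinarith [sq_nonneg (J + J')]
  unfold dom
  nlinarith

theorem abs_covF_le_pow (hG : G.IsTree) (hμ : IsTreeIsing G θ μ) (h0 : 0 ≤ θ) (h1 : θ < 1)
    (D : Finset V) (k : ℕ) (t : ℝ) (om : V × ℕ → ℝ) (v w : V) :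
    |covF μ D k t om v w| ≤ θ ^ G.dist v w := by
  have := hμ.isProb
  obtain ⟨p, -, -, -, h, -⟩ := exists_path_bound hG hμ h0 h1 (Prod.fst : V × ℕ → V) v w
  exact h (bef om D k t) (cF μ D om) fun i _ => abs_cF_lt_one D om i

theorem abs_Jk_le (hG : G.IsTree) (h0 : 0 ≤ θ) (h1 : θ < 1) {m : V → ℝ} {M : V → V → ℝ}
    (hm : ∀ v, |m v| ≤ 1) (hM : ∀ x y, |M x y| ≤ 1) (v w : V) :
    |Jk G θ m M v w| ≤ θ ^ G.dist v w := by
  unfold Jk
  have h2 : 0 ≤ ker G (fun x y => lam θ (M x y)) v w :=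
    ker_nonneg hG (fun x y => lam_nonneg h0 h1 (hM x y)) v w
  have h3 : ker G (fun x y => lam θ (M x y)) v w ≤ θ ^ G.dist v w :=
    ker_le hG (fun x y => lam_nonneg h0 h1 (hM x y)) (fun x y => lam_le h0 h1 (hM x y)) v w
  have h4 : m v ^ 2 ≤ 1 := by
    rw [sq_le_one_iff_abs_le_one]
    exact hm v
  have h5 : |1 - m v ^ 2| ≤ 1 := by
    rw [abs_le]
    constructor <;> nlinarith [sq_nonneg (m v)]
  rw [abs_mul, abs_of_nonneg h2]
  calc |1 - m v ^ 2| * ker G (fun x y => lam θ (M x y)) v w ≤ 1 * θ ^ G.dist v w :=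
        mul_le_mul h5 h3 h2 zero_le_one
    _ = θ ^ G.dist v w := one_mul _

theorem Gw_le (hG : G.IsTree) (h0 : 0 ≤ θ) (h1 : θ < 1) (h0' : 0 ≤ θ') (h1' : θ' < 1)
    {m m' : V → ℝ} {M M' : V → V → ℝ} (hm : ∀ v, |m v| ≤ 1) (hM : ∀ x y, |M x y| ≤ 1)
    (hm' : ∀ v, |m' v| ≤ 1) (hM' : ∀ x y, |M' x y| ≤ 1) (v w : V) :
    Gw G θ θ' m m' M M' v w ≤ dom G θ θ' v w :=
  term_le (abs_Jk_le hG h0 h1 hm hM v w) (abs_Jk_le hG h0' h1' hm' hM' v w) (hm w) (hm' w)

/-! ### Limits -/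

theorem tendsto_YF (hG : G.IsTree) (hd : G.IsRegularOfDegree (b + 1))
    (hμ : IsTreeIsing G θ μ) (h0 : 0 ≤ θ) (h1 : θ < 1) (hθ : b * θ ^ 2 < 1)
    (hμ' : IsTreeIsing G θ' μ') (h0' : 0 ≤ θ') (h1' : θ' < 1) (hθ' : b * θ' ^ 2 < 1)
    (k : ℕ) (v : V) {t : ℝ} (ht : t ≤ 1) :
    Tendsto (fun n : ℕ => YF μ μ' (ball G v n) (ball G v n) k v t) atTop
      (𝓝 (YI G μ μ' k v t)) := by
  have := hμ.isProb
  have := hμ'.isProb
  have : Countable V := countable_of_locallyFinite hG.connected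
  unfold YF YI
  refine tendsto_integral_of_dominated_convergence (fun _ => 4) (fun n => ?_)
    (integrable_const _) (fun n => ae_of_all _ fun om => ?_) ?_
  · exact (((measurable_mF_t _ k t v).sub (measurable_mF_t _ k t v)).pow_const 2).aestronglyMeasurable
  · rw [Real.norm_eq_abs, abs_pow]
    have h2 := abs_mF_le (μ := μ) (ball G v n) k t om v
    have h3 := abs_mF_le (μ := μ') (ball G v n) k t om v
    have h4 := abs_sub (mF μ (ball G v n) k t om v) (mF μ' (ball G v n) k t om v)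
    calc _ ≤ (2 : ℝ) ^ 2 := pow_le_pow_left₀ (abs_nonneg _) (by linarith) 2
      _ = 4 := by norm_num
  · filter_upwards [ae_tendsto_mF hG hd hμ h0 h1 hθ k ht v,
      ae_tendsto_mF hG hd hμ' h0' h1' hθ' k ht v] with om a1 a2
    exact ((a1 v).sub (a2 v)).pow 2

theorem YI_mono (hG : G.IsTree) (hd : G.IsRegularOfDegree (b + 1))
    (hμ : IsTreeIsing G θ μ) (h0 : 0 ≤ θ) (h1 : θ < 1) (hθ : b * θ ^ 2 < 1)
    (hμ' : IsTreeIsing G θ' μ') (h0' : 0 ≤ θ') (h1' : θ' < 1) (hθ' : b * θ' ^ 2 < 1)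
    (k : ℕ) (v : V) {t1 t2 : ℝ} (h12 : t1 ≤ t2) (h2 : t2 ≤ 1) :
    YI G μ μ' k v t1 ≤ YI G μ μ' k v t2 := by
  have := hμ.isProb
  have := hμ'.isProb
  have : Countable V := countable_of_locallyFinite hG.connected
  exact le_of_tendsto_of_tendsto'
    (tendsto_YF hG hd hμ h0 h1 hθ hμ' h0' h1' hθ' k v (h12.trans h2))
    (tendsto_YF hG hd hμ h0 h1 hθ hμ' h0' h1' hθ' k v h2)
    (fun n => YF_mono _ _ (Finset.Subset.refl _) k v h12)

/-- The term of `w` of the driving term in finite volume. -/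
noncomputable def Tw (μ μ' : Measure (V → Bool)) (D : Finset V) (k : ℕ) (v w : V) (t : ℝ)
    (om : V × ℕ → ℝ) : ℝ :=
  8 * (covF μ D k t om v w - covF μ' D k t om v w) ^ 2 +
    32 * covF μ' D k t om v w ^ 2 * (mF μ D k t om w - mF μ' D k t om w) ^ 2

theorem Tw_nonneg (D : Finset V) (k : ℕ) (v w : V) (t : ℝ) (om : V × ℕ → ℝ) :
    0 ≤ Tw μ μ' D k v w t om := by
  unfold Tw
  positivity

theorem Tw_le (hG : G.IsTree) (hμ : IsTreeIsing G θ μ) (h0 : 0 ≤ θ) (h1 : θ < 1)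
    (hμ' : IsTreeIsing G θ' μ') (h0' : 0 ≤ θ') (h1' : θ' < 1) (D : Finset V) (k : ℕ) (v w : V)
    (t : ℝ) (om : V × ℕ → ℝ) : Tw μ μ' D k v w t om ≤ dom G θ θ' v w := by
  have := hμ.isProb
  have := hμ'.isProb
  exact term_le (abs_covF_le_pow hG hμ h0 h1 D k t om v w) (abs_covF_le_pow hG hμ' h0' h1' D k t om v w)
    (abs_mF_le D k t om w) (abs_mF_le D k t om w)

theorem measurable_Tw [Countable V] [IsProbabilityMeasure μ] [IsProbabilityMeasure μ']
    (D : Finset V) (k : ℕ) (v w : V) :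
    Measurable fun p : ℝ × (V × ℕ → ℝ) => Tw μ μ' D k v w p.1 p.2 := by
  unfold Tw
  have h1 := measurable_covF (μ := μ) D k v w
  have h2 := measurable_covF (μ := μ') D k v w
  have h3 := measurable_mF (μ := μ) D k w
  have h4 := measurable_mF (μ := μ') D k w
  exact (((h1.sub h2).pow_const 2).const_mul 8).add
    (((h2.pow_const 2).const_mul 32).mul ((h3.sub h4).pow_const 2))

theorem measurable_Tw_t [Countable V] [IsProbabilityMeasure μ] [IsProbabilityMeasure μ']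
    (D : Finset V) (k : ℕ) (v w : V) (t : ℝ) :
    Measurable fun om : V × ℕ → ℝ => Tw μ μ' D k v w t om := by
  have h2 := (measurable_Tw (μ := μ) (μ' := μ') D k v w).comp (measurable_mk_t t)
  exact h2

theorem integral_Tw_nonneg (D : Finset V) (k : ℕ) (v w : V) (t : ℝ) :
    0 ≤ ∫ om, Tw μ μ' D k v w t om ∂(Pu (V × ℕ)) :=
  integral_nonneg fun om => Tw_nonneg D k v w t om

theorem integral_Tw_le (hG : G.IsTree) (hμ : IsTreeIsing G θ μ) (h0 : 0 ≤ θ) (h1 : θ < 1)
    (hμ' : IsTreeIsing G θ' μ') (h0' : 0 ≤ θ') (h1' : θ' < 1) (D : Finset V) (k : ℕ) (v w : V)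
    (t : ℝ) : ∫ om, Tw μ μ' D k v w t om ∂(Pu (V × ℕ)) ≤ dom G θ θ' v w := by
  calc ∫ om, Tw μ μ' D k v w t om ∂(Pu (V × ℕ)) ≤ ∫ _om, dom G θ θ' v w ∂(Pu (V × ℕ)) := by
        refine integral_mono_of_nonneg (ae_of_all _ fun om => Tw_nonneg D k v w t om)
          (integrable_const _) (ae_of_all _ fun om => ?_)
        exact Tw_le hG hμ h0 h1 hμ' h0' h1' D k v w t om
    _ = dom G θ θ' v w := by simp

/-- The driving term in finite volume. -/
noncomputable def SF (G : SimpleGraph V) [G.LocallyFinite] (μ μ' : Measure (V → Bool)) (k : ℕ)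
    (v : V) (n : ℕ) (t : ℝ) : ℝ :=
  ∑ w ∈ ball G v n, ∫ om, hF μ μ' (ball G v n) (ball G v n) k t om v w ∂(Pu (V × ℕ))

theorem SF_eq (k : ℕ) (v : V) (n : ℕ) (t : ℝ) :
    SF G μ μ' k v n t = ∑ w ∈ ball G v n, ∫ om, Tw μ μ' (ball G v n) k v w t om ∂(Pu (V × ℕ)) := by
  unfold SF
  refine Finset.sum_congr rfl fun w hw => ?_
  refine integral_congr_ae (ae_of_all _ fun om => ?_)
  simp only [hF, Tw, if_pos hw]

theorem SF_nonneg (k : ℕ) (v : V) (n : ℕ) (t : ℝ) : 0 ≤ SF G μ μ' k v n t := by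
  rw [SF_eq]
  exact Finset.sum_nonneg fun w _ => integral_Tw_nonneg _ k v w t

theorem SF_le (hG : G.IsTree) (hd : G.IsRegularOfDegree (b + 1))
    (hμ : IsTreeIsing G θ μ) (h0 : 0 ≤ θ) (h1 : θ < 1) (hθ : b * θ ^ 2 < 1)
    (hμ' : IsTreeIsing G θ' μ') (h0' : 0 ≤ θ') (h1' : θ' < 1) (hθ' : b * θ' ^ 2 < 1)
    (k : ℕ) (v : V) (n : ℕ) (t : ℝ) : SF G μ μ' k v n t ≤ ∑' w, dom G θ θ' v w := by
  rw [SF_eq]
  calc _ ≤ ∑ w ∈ ball G v n, dom G θ θ' v w :=
        Finset.sum_le_sum fun w _ => integral_Tw_le hG hμ h0 h1 hμ' h0' h1' _ k v w t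
    _ ≤ _ := (summable_dom hG.connected hd hθ hθ' v).sum_le_tsum _ fun w _ => dom_nonneg v w

theorem measurable_SF [Countable V] [IsProbabilityMeasure μ] [IsProbabilityMeasure μ'] (k : ℕ)
    (v : V) (n : ℕ) : Measurable (SF G μ μ' k v n) := by
  have h : SF G μ μ' k v n = fun t => ∑ w ∈ ball G v n,
      ∫ om, Tw μ μ' (ball G v n) k v w t om ∂(Pu (V × ℕ)) := by
    funext t
    exact SF_eq k v n t
  rw [h]
  refine Finset.measurable_fun_sum _ fun w _ => ?_
  have h2 := measurable_Tw (μ := μ) (μ' := μ') (ball G v n) k v w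
  exact (h2.stronglyMeasurable.integral_prod_right (ν := Pu (V × ℕ))).measurable

open Classical in
theorem tendsto_SF (hG : G.IsTree) (hd : G.IsRegularOfDegree (b + 1))
    (hμ : IsTreeIsing G θ μ) (h0 : 0 ≤ θ) (h1 : θ < 1) (hθ : b * θ ^ 2 < 1)
    (hμ' : IsTreeIsing G θ' μ') (h0' : 0 ≤ θ') (h1' : θ' < 1) (hθ' : b * θ' ^ 2 < 1)
    (k : ℕ) (v : V) {t : ℝ} (ht : t ≤ 1) :
    Tendsto (fun n : ℕ => SF G μ μ' k v n t) atTop (𝓝 (EG G θ θ' μ μ' k v t)) := by
  have := hμ.isProb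
  have := hμ'.isProb
  have : Countable V := countable_of_locallyFinite hG.connected
  set W : V → (V × ℕ → ℝ) → ℝ := fun w om =>
    Gw G θ θ' (fun v => mI G μ k t v om) (fun v => mI G μ' k t v om)
      (fun x y => MI G θ μ k t x y om) (fun x y => MI G θ' μ' k t x y om) v w with hW
  have hWm : ∀ w, Measurable (W w) := fun w =>
    measurable_Gw (G := G) (Ω := V × ℕ → ℝ)
      (m := fun om v => mI G μ k t v om) (m' := fun om v => mI G μ' k t v om)
      (M := fun om x y => MI G θ μ k t x y om) (M' := fun om x y => MI G θ' μ' k t x y om)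
      (fun v => measurable_mI_t k t v) (fun x y => measurable_MI_t θ k t x y)
      (fun v => measurable_mI_t k t v) (fun x y => measurable_MI_t θ' k t x y) θ θ' v w
  have hW0 : ∀ w om, 0 ≤ W w om := fun w om => Gw_nonneg _ _ _ _ v w
  have hWle : ∀ w om, W w om ≤ dom G θ θ' v w := fun w om =>
    Gw_le hG h0 h1 h0' h1' (fun v => abs_mI_le k t v om) (fun x y => abs_clamp_le _)
      (fun v => abs_mI_le k t v om) (fun x y => abs_clamp_le _) v w
  have hWi : ∀ w, Integrable (W w) (Pu (V × ℕ)) := fun w =>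
    Integrable.of_bound (hWm w).aestronglyMeasurable (dom G θ θ' v w) (ae_of_all _ fun om => by
      rw [Real.norm_eq_abs, abs_of_nonneg (hW0 w om)]
      exact hWle w om)
  have hdom := summable_dom hG.connected hd hθ hθ' v
  have hWint : ∀ w, ∫ om, W w om ∂(Pu (V × ℕ)) ≤ dom G θ θ' v w := by
    intro w
    calc ∫ om, W w om ∂(Pu (V × ℕ)) ≤ ∫ _om, dom G θ θ' v w ∂(Pu (V × ℕ)) :=
          integral_mono (hWi w) (integrable_const _) (hWle w)
      _ = dom G θ θ' v w := by simp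
  have hEG : EG G θ θ' μ μ' k v t = ∑' w, ∫ om, W w om ∂(Pu (V × ℕ)) := by
    rw [integral_tsum_of_summable_integral_norm hWi]
    · rfl
    · refine Summable.of_nonneg_of_le (fun w => integral_nonneg fun om => norm_nonneg _)
        (fun w => ?_) hdom
      refine le_trans (le_of_eq ?_) (hWint w)
      refine integral_congr_ae (ae_of_all _ fun om => ?_)
      simp only [Real.norm_eq_abs, abs_of_nonneg (hW0 w om)]
  have hSF : ∀ n, SF G μ μ' k v n t = ∑' w, (if w ∈ ball G v n then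
      ∫ om, Tw μ μ' (ball G v n) k v w t om ∂(Pu (V × ℕ)) else 0) := by
    intro n
    rw [SF_eq, tsum_eq_sum (s := ball G v n)]
    · exact Finset.sum_congr rfl fun w hw => by rw [if_pos hw]
    · intro w hw
      rw [if_neg hw]
  simp only [hSF, hEG]
  refine tendsto_tsum_of_dominated_convergence hdom (fun w => ?_) (Eventually.of_forall fun n w => ?_)
  · have hlim : Tendsto (fun n : ℕ => ∫ om, Tw μ μ' (ball G v n) k v w t om ∂(Pu (V × ℕ))) atTop
        (𝓝 (∫ om, W w om ∂(Pu (V × ℕ)))) := by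
      refine tendsto_integral_of_dominated_convergence (fun _ => dom G θ θ' v w) (fun n => ?_)
        (integrable_const _) (fun n => ae_of_all _ fun om => ?_) ?_
      · exact (measurable_Tw_t _ k v w t).aestronglyMeasurable
      · rw [Real.norm_eq_abs, abs_of_nonneg (Tw_nonneg _ k v w t om)]
        exact Tw_le hG hμ h0 h1 hμ' h0' h1' _ k v w t om
      · filter_upwards [ae_tendsto_mF hG hd hμ h0 h1 hθ k ht v,
          ae_tendsto_mF hG hd hμ' h0' h1' hθ' k ht v] with om a1 a2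
        have c1 := tendsto_covF_of hG hμ h0 h1 k a1 v w
        have c2 := tendsto_covF_of hG hμ' h0' h1' k a2 v w
        exact (((c1.sub c2).pow 2).const_mul 8).add
          (((c2.pow 2).const_mul 32).mul (((a1 w).sub (a2 w)).pow 2))
    refine hlim.congr' ?_
    filter_upwards [eventually_ge_atTop (G.dist v w)] with n hn
    rw [if_pos]
    rw [mem_ball hG.connected]
    exact hn
  · have h3 := integral_Tw_nonneg (μ := μ) (μ' := μ') (ball G v n) k v w t
    split_ifs with hw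
    · rw [Real.norm_eq_abs, abs_of_nonneg h3]
      exact integral_Tw_le hG hμ h0 h1 hμ' h0' h1' _ k v w t
    · rw [norm_zero]
      exact dom_nonneg v w

theorem YI_evolution (hG : G.IsTree) (hd : G.IsRegularOfDegree (b + 1))
    (hμ : IsTreeIsing G θ μ) (h0 : 0 ≤ θ) (h1 : θ < 1) (hθ : b * θ ^ 2 < 1)
    (hμ' : IsTreeIsing G θ' μ') (h0' : 0 ≤ θ') (h1' : θ' < 1) (hθ' : b * θ' ^ 2 < 1)
    (k : ℕ) (v : V) {t : ℝ} (h1 : 0 ≤ t) (h2 : t ≤ 1) :
    YI G μ μ' k v t ≤ YI G μ μ' k v 0 +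
      ∫ s in (0 : ℝ)..t, (s / 2) ^ 2 * EG G θ θ' μ μ' k v s := by
  rename_i hθ1
  have := hμ.isProb
  have := hμ'.isProb
  have : Countable V := countable_of_locallyFinite hG.connected
  have hlim : Tendsto (fun n : ℕ => ∫ s in (0 : ℝ)..t, (s / 2) ^ 2 * SF G μ μ' k v n s) atTop
      (𝓝 (∫ s in (0 : ℝ)..t, (s / 2) ^ 2 * EG G θ θ' μ μ' k v s)) := by
    refine intervalIntegral.tendsto_integral_filter_of_dominated_convergence
      (fun _ => ∑' w, dom G θ θ' v w) (Eventually.of_forall fun n => ?_)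
      (Eventually.of_forall fun n => ae_of_all _ fun s hs => ?_) ?_ (ae_of_all _ fun s hs => ?_)
    · exact (((measurable_id.div_const 2).pow_const 2).mul
        (measurable_SF k v n)).aestronglyMeasurable
    · rw [Set.uIoc_of_le h1] at hs
      have h3 := SF_nonneg (G := G) (μ := μ) (μ' := μ') k v n s
      have h4 := SF_le hG hd hμ h0 hθ1 hθ hμ' h0' h1' hθ' k v n s
      have h5 : (s / 2) ^ 2 ≤ 1 := by
        have a1 := hs.1
        have a2 := hs.2
        have : s / 2 ≤ 1 := by linarith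
        have : 0 ≤ s / 2 := by linarith
        nlinarith
      rw [Real.norm_eq_abs, abs_of_nonneg (by positivity)]
      calc (s / 2) ^ 2 * SF G μ μ' k v n s ≤ 1 * SF G μ μ' k v n s :=
            mul_le_mul_of_nonneg_right h5 h3
        _ ≤ _ := by rw [one_mul]; exact h4
    · exact intervalIntegrable_const
    · rw [Set.uIoc_of_le h1] at hs
      exact (tendsto_SF hG hd hμ h0 hθ1 hθ hμ' h0' h1' hθ' k v (hs.2.trans h2)).const_mul _
  refine le_of_tendsto_of_tendsto' (tendsto_YF hG hd hμ h0 hθ1 hθ hμ' h0' h1' hθ' k v h2)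
    ((tendsto_YF hG hd hμ h0 hθ1 hθ hμ' h0' h1' hθ' k v (zero_le_one)).add hlim) (fun n => ?_)
  exact YF_evolution _ _ (Finset.Subset.refl _) k v le_rfl h1 h2

theorem sI_sub_sq (hG : G.IsTree) (hd : G.IsRegularOfDegree (b + 1))
    (hμ : IsTreeIsing G θ μ) (h0 : 0 ≤ θ) (h1 : θ < 1) (hθ : b * θ ^ 2 < 1)
    (hμ' : IsTreeIsing G θ' μ') (h0' : 0 ≤ θ') (h1' : θ' < 1) (hθ' : b * θ' ^ 2 < 1)
    (k : ℕ) (v : V) :
    ∫ om, (sI G μ om (v, k) - sI G μ' om (v, k)) ^ 2 ∂(Pu (V × ℕ)) ≤ YI G μ μ' k v 1 := by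
  have := hμ.isProb
  have := hμ'.isProb
  have : Countable V := countable_of_locallyFinite hG.connected
  have hlim : Tendsto (fun n : ℕ => ∫ om, (sF μ (ball G v n) om (v, k) -
      sF μ' (ball G v n) om (v, k)) ^ 2 ∂(Pu (V × ℕ))) atTop
      (𝓝 (∫ om, (sI G μ om (v, k) - sI G μ' om (v, k)) ^ 2 ∂(Pu (V × ℕ)))) := by
    refine tendsto_integral_of_dominated_convergence (fun _ => 4) (fun n => ?_)
      (integrable_const _) (fun n => ae_of_all _ fun om => ?_) ?_
    · exact (((measurable_sF _ (v, k)).sub (measurable_sF _ (v, k))).pow_const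
        2).aestronglyMeasurable
    · rw [Real.norm_eq_abs, abs_pow]
      have h2 := abs_sF_le (μ := μ) (ball G v n) om (v, k)
      have h3 := abs_sF_le (μ := μ') (ball G v n) om (v, k)
      have h4 := abs_sub (sF μ (ball G v n) om (v, k)) (sF μ' (ball G v n) om (v, k))
      calc _ ≤ (2 : ℝ) ^ 2 := pow_le_pow_left₀ (abs_nonneg _) (by linarith) 2
        _ = 4 := by norm_num
    · filter_upwards [ae_tendsto_sF hG hd hμ h0 h1 hθ v,
        ae_tendsto_sF hG hd hμ' h0' h1' hθ' v] with om a1 a2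
      exact ((a1 (v, k)).sub (a2 (v, k))).pow 2
  exact le_of_tendsto_of_tendsto' hlim
    (tendsto_YF hG hd hμ h0 h1 hθ hμ' h0' h1' hθ' k v le_rfl)
    (fun n => sF_sub_sq _ _ (Finset.Subset.refl _) k v)

end Vale.Agent.P161.EP
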