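import Mathlib

/-!
# Module C, first part (HilbDA): the Hilbert space lemma in a pre-Hilbert space
-/

open Finset

namespace Vale.Agent.P161.EP

universe u

section Aux

variable {E : Type u} [SeminormedAddCommGroup E] [InnerProductSpace ℝ E]


/-- The hypotheses of the lemma. -/
structure HD (N K : E →ₗ[ℝ] E) (one : E) (a C0 : ℝ) : Prop where
  one_one : ‖one‖ = 1
  N_one : N one = one
  one_N : ∀ f, (inner ℝ one (N f)) = (inner ℝ one f)
  N_le : ∀ f, ‖N f‖ ≤ ‖f‖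
  N_pow : ∀ f, (inner ℝ one f) = 0 → ∀ k : ℕ,
    ‖(N ^ k) f‖ ^ 2 ≤ 2 * ((k : ℝ) + 2) ^ 2 * (1 / 2) ^ k * ‖f‖ ^ 2
  K_symm : ∀ f g, (inner ℝ (K f) g) = (inner ℝ f (K g))
  K_sq : ∀ f, ‖K f‖ ^ 2 ≤ (inner ℝ (K f) f)
  Kone : (inner ℝ one (K one)) = a
  a_pos : 0 < a
  C0_nonneg : 0 ≤ C0
  Kone_le : ‖K one‖ ≤ C0 * a

variable {N K : E →ₗ[ℝ] E} {one : E} {a C0 : ℝ}

/-- The iterates. -/
noncomputable def itR (N K : E →ₗ[ℝ] E) (f : E) (k : ℕ) : E := ((N * (1 - K)) ^ k) f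

theorem itR_zero (f : E) : itR N K f 0 = f := by
  unfold itR
  simp

theorem itR_succ (f : E) (k : ℕ) :
    itR N K f (k + 1) = N (itR N K f k - K (itR N K f k)) := by
  unfold itR
  rw [pow_succ']
  simp [Module.End.mul_apply]

theorem itR_add (f : E) (j k : ℕ) : itR N K f (j + k) = itR N K (itR N K f j) k := by
  unfold itR
  rw [add_comm, pow_add]
  rfl

theorem itR_lin (f g : E) (c : ℝ) (k : ℕ) :
    itR N K (c • f + g) k = c • itR N K f k + itR N K g k := by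
  unfold itR
  rw [map_add, map_smul]

namespace HD

variable (H : HD N K one a C0)

include H

theorem K_nonneg (f : E) : 0 ≤ (inner ℝ (K f) f) := (sq_nonneg _).trans (H.K_sq f)

theorem K_norm_le (f : E) : ‖K f‖ ≤ ‖f‖ := by
  have h1 := H.K_sq f
  have h2 := real_inner_le_norm (K f) f
  by_contra h3
  push Not at h3
  have h4 : 0 < ‖K f‖ := (norm_nonneg f).trans_lt h3
  nlinarith

theorem K_form_le (f : E) : (inner ℝ (K f) f) ≤ ‖f‖ ^ 2 := by
  have h2 := real_inner_le_norm (K f) f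
  have h3 := H.K_norm_le f
  nlinarith [norm_nonneg f]

theorem step (f : E) : ‖N (f - K f)‖ ^ 2 ≤ ‖f‖ ^ 2 - (inner ℝ (K f) f) := by
  have h1 := H.N_le (f - K f)
  have h2 : ‖f - K f‖ ^ 2 = ‖f‖ ^ 2 - 2 * (inner ℝ f (K f)) + ‖K f‖ ^ 2 := norm_sub_sq_real f (K f)
  have h3 := H.K_sq f
  have h4 : (inner ℝ f (K f)) = (inner ℝ (K f) f) := real_inner_comm _ _
  have h5 : ‖N (f - K f)‖ ^ 2 ≤ ‖f - K f‖ ^ 2 :=
    pow_le_pow_left₀ (norm_nonneg _) h1 2
  rw [h2, h4] at h5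
  linarith

theorem energy (f : E) (k : ℕ) :
    ∑ j ∈ range k, (inner ℝ (K (itR N K f j)) (itR N K f j)) ≤ ‖f‖ ^ 2 - ‖itR N K f k‖ ^ 2 := by
  induction k with
  | zero => simp [itR_zero]
  | succ k ih =>
    rw [sum_range_succ, itR_succ]
    have h1 := H.step (itR N K f k)
    linarith

theorem itR_norm_le (f : E) (k : ℕ) : ‖itR N K f k‖ ≤ ‖f‖ := by
  have h1 := H.energy f k
  have h2 : 0 ≤ ∑ j ∈ range k, (inner ℝ (K (itR N K f j)) (itR N K f j)) :=
    sum_nonneg fun j _ => H.K_nonneg _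
  have h3 : ‖itR N K f k‖ ^ 2 ≤ ‖f‖ ^ 2 := by linarith
  exact (pow_le_pow_iff_left₀ (norm_nonneg _) (norm_nonneg _) (by norm_num)).1 h3

theorem itR_sub_le (f : E) (k : ℕ) :
    ‖itR N K f k - (N ^ k) f‖ ≤ ∑ j ∈ range k, ‖K (itR N K f j)‖ := by
  induction k with
  | zero => simp [itR_zero]
  | succ k ih =>
    rw [sum_range_succ, itR_succ, pow_succ']
    have e1 : N (itR N K f k - K (itR N K f k)) - (N * N ^ k) f =
        N (itR N K f k - (N ^ k) f) - N (K (itR N K f k)) := by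
      rw [Module.End.mul_apply, map_sub, map_sub]
      abel
    rw [e1]
    calc ‖N (itR N K f k - (N ^ k) f) - N (K (itR N K f k))‖ ≤
        ‖N (itR N K f k - (N ^ k) f)‖ + ‖N (K (itR N K f k))‖ := norm_sub_le _ _
      _ ≤ ‖itR N K f k - (N ^ k) f‖ + ‖K (itR N K f k)‖ := add_le_add (H.N_le _) (H.N_le _)
      _ ≤ _ := by linarith

theorem itR_sub_sq (f : E) (k : ℕ) :
    ‖itR N K f k - (N ^ k) f‖ ^ 2 ≤ k * (‖f‖ ^ 2 - ‖itR N K f k‖ ^ 2) := by
  have h1 := H.itR_sub_le f k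
  have h2 : (∑ j ∈ range k, ‖K (itR N K f j)‖) ^ 2 ≤
      k * ∑ j ∈ range k, ‖K (itR N K f j)‖ ^ 2 := by
    have h3 := sq_sum_le_card_mul_sum_sq (s := range k) (f := fun j => ‖K (itR N K f j)‖)
    simpa using h3
  have h4 : ∑ j ∈ range k, ‖K (itR N K f j)‖ ^ 2 ≤
      ∑ j ∈ range k, (inner ℝ (K (itR N K f j)) (itR N K f j)) := sum_le_sum fun j _ => H.K_sq _
  have h5 := H.energy f k
  calc ‖itR N K f k - (N ^ k) f‖ ^ 2 ≤ (∑ j ∈ range k, ‖K (itR N K f j)‖) ^ 2 :=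
        pow_le_pow_left₀ (norm_nonneg _) h1 2
    _ ≤ k * ∑ j ∈ range k, ‖K (itR N K f j)‖ ^ 2 := h2
    _ ≤ _ := mul_le_mul_of_nonneg_left (h4.trans h5) (Nat.cast_nonneg k)

omit H [InnerProductSpace ℝ E] in
theorem norm_add_sq_le (x y : E) : ‖x + y‖ ^ 2 ≤ 2 * ‖x‖ ^ 2 + 2 * ‖y‖ ^ 2 := by
  have h1 := norm_add_le x y
  have h2 : ‖x + y‖ ^ 2 ≤ (‖x‖ + ‖y‖) ^ 2 := pow_le_pow_left₀ (norm_nonneg _) h1 2
  nlinarith [sq_nonneg (‖x‖ - ‖y‖)]

/-- Contraction of mean zero vectors in 14 steps. -/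
theorem contr_mean_zero {f : E} (hf : (inner ℝ one f) = 0) : ‖itR N K f 14‖ ≤ 119 / 120 * ‖f‖ := by
  have h1 := H.itR_sub_sq f 14
  have h2 := H.N_pow f hf 14
  have h3 := norm_add_sq_le (itR N K f 14 - (N ^ 14) f) ((N ^ 14) f)
  rw [sub_add_cancel] at h3
  norm_num at h1 h2
  have h4 : ‖itR N K f 14‖ ^ 2 ≤ (119 / 120 * ‖f‖) ^ 2 := by
    nlinarith [sq_nonneg ‖f‖]
  exact (pow_le_pow_iff_left₀ (norm_nonneg _) (by positivity) (by norm_num)).1 h4

omit H in
theorem inner_proj (one f : E) (h : ‖one‖ = 1) : (inner ℝ one (f - (inner ℝ one f) • one)) = 0 := by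
  rw [inner_sub_right, inner_smul_right, real_inner_self_eq_norm_sq, h]
  ring

omit H in
theorem norm_proj_sq (one f : E) (h : ‖one‖ = 1) :
    ‖f - (inner ℝ one f) • one‖ ^ 2 + (inner ℝ one f) ^ 2 = ‖f‖ ^ 2 := by
  have h1 : ‖f - (inner ℝ one f) • one‖ ^ 2 = ‖f‖ ^ 2 - 2 * (inner ℝ f ((inner ℝ one f) • one)) +
      ‖(inner ℝ one f) • one‖ ^ 2 := norm_sub_sq_real _ _
  rw [h1, inner_smul_right, norm_smul, h, real_inner_comm one f, mul_one, Real.norm_eq_abs, sq_abs]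
  ring

omit H in
theorem norm_proj_le (one f : E) (h : ‖one‖ = 1) : ‖f - (inner ℝ one f) • one‖ ≤ ‖f‖ := by
  have h1 := norm_proj_sq one f h
  have h2 : ‖f - (inner ℝ one f) • one‖ ^ 2 ≤ ‖f‖ ^ 2 := by nlinarith [sq_nonneg (inner ℝ one f)]
  exact (pow_le_pow_iff_left₀ (norm_nonneg _) (norm_nonneg _) (by norm_num)).1 h2

theorem a_le_one : a ≤ 1 := by
  have h1 := H.K_form_le one
  rw [H.one_one, real_inner_comm, H.Kone] at h1
  simpa using h1

/-- One step for the mean. -/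
theorem mean_step (f : E) :
    |(inner ℝ one (N (f - K f)))| ≤ (1 - a) * |(inner ℝ one f)| + C0 * a * ‖f - (inner ℝ one f) • one‖ := by
  have e1 : (inner ℝ one (N (f - K f))) =
      (1 - a) * (inner ℝ one f) - (inner ℝ (K one) (f - (inner ℝ one f) • one)) := by
    rw [H.one_N, inner_sub_right, ← H.K_symm, inner_sub_right, inner_smul_right,
      H.K_symm one one, H.Kone]
    ring
  rw [e1]
  have h2 : |(inner ℝ (K one) (f - (inner ℝ one f) • one))| ≤ C0 * a * ‖f - (inner ℝ one f) • one‖ :=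
    (abs_real_inner_le_norm _ _).trans (mul_le_mul_of_nonneg_right H.Kone_le (norm_nonneg _))
  have h3 : |(1 - a) * (inner ℝ one f)| = (1 - a) * |(inner ℝ one f)| := by
    rw [abs_mul, abs_of_nonneg (by linarith [H.a_le_one])]
  calc |(1 - a) * (inner ℝ one f) - (inner ℝ (K one) (f - (inner ℝ one f) • one))| ≤
      |(1 - a) * (inner ℝ one f)| + |(inner ℝ (K one) (f - (inner ℝ one f) • one))| := abs_sub _ _
    _ ≤ _ := by rw [h3]; linarith

theorem itR_one_sub (k : ℕ) : ‖itR N K one k - one‖ ≤ k * (C0 * a) := by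
  induction k with
  | zero => simp [itR_zero]
  | succ k ih =>
    have e1 : itR N K one (k + 1) - one = itR N K (itR N K one 1 - one) k +
        (itR N K one k - one) := by
      have h1 : itR N K one (k + 1) = itR N K (itR N K one 1) k := by
        rw [add_comm, itR_add]
      rw [h1]
      unfold itR
      rw [map_sub]
      abel
    rw [e1]
    have h2 : itR N K one 1 - one = - N (K one) := by
      have h3 := itR_succ (N := N) (K := K) one 0
      rw [itR_zero, map_sub, H.N_one] at h3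
      rw [show (1 : ℕ) = 0 + 1 from rfl, h3]
      abel
    have h4 : ‖itR N K one 1 - one‖ ≤ C0 * a := by
      rw [h2, norm_neg]
      exact (H.N_le _).trans H.Kone_le
    have h5 := H.itR_norm_le (itR N K one 1 - one) k
    calc ‖itR N K (itR N K one 1 - one) k + (itR N K one k - one)‖ ≤
        ‖itR N K (itR N K one 1 - one) k‖ + ‖itR N K one k - one‖ := norm_add_le _ _
      _ ≤ C0 * a + k * (C0 * a) := by linarith
      _ = _ := by push_cast; ring

/-- The mean zero part after 14 steps. -/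
theorem perp_step (f : E) :
    ‖itR N K f 14 - (inner ℝ one (itR N K f 14)) • one‖ ≤
      119 / 120 * ‖f - (inner ℝ one f) • one‖ + 14 * (C0 * a) * |(inner ℝ one f)| := by
  set m := (inner ℝ one f) with hm
  set e := f - m • one with he
  have hf : f = m • one + e := by rw [he]; abel
  have h1 : itR N K f 14 = m • itR N K one 14 + itR N K e 14 := by
    conv_lhs => rw [hf]
    exact itR_lin _ _ _ _
  set P : E → E := fun x => x - (inner ℝ one x) • one with hP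
  have hPle : ∀ x, ‖P x‖ ≤ ‖x‖ := fun x => norm_proj_le one x H.one_one
  have h2 : P (itR N K f 14) = m • P (itR N K one 14 - one) + P (itR N K e 14) := by
    rw [h1, hP]
    simp only
    rw [inner_add_right, inner_smul_right, inner_sub_right, real_inner_self_eq_norm_sq, H.one_one]
    module
  have h3 : ‖P (itR N K f 14)‖ ≤ |m| * ‖P (itR N K one 14 - one)‖ + ‖P (itR N K e 14)‖ := by
    rw [h2]
    refine (norm_add_le _ _).trans ?_
    rw [norm_smul, Real.norm_eq_abs]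
  have h4 := (hPle (itR N K one 14 - one)).trans (H.itR_one_sub 14)
  have h5 := (hPle (itR N K e 14)).trans
    (H.contr_mean_zero (f := e) (by rw [he, hm]; exact inner_proj one f H.one_one))
  have h6 : |m| * ‖P (itR N K one 14 - one)‖ ≤ |m| * (14 * (C0 * a)) :=
    mul_le_mul_of_nonneg_left (by simpa using h4) (abs_nonneg _)
  calc ‖P (itR N K f 14)‖ ≤ |m| * ‖P (itR N K one 14 - one)‖ + ‖P (itR N K e 14)‖ := h3
    _ ≤ |m| * (14 * (C0 * a)) + 119 / 120 * ‖e‖ := add_le_add h6 h5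
    _ = _ := by ring

theorem sum_mean (g : E) (n : ℕ) :
    a * ∑ k ∈ range n, |(inner ℝ one (itR N K g k))| + |(inner ℝ one (itR N K g n))| ≤
      |(inner ℝ one g)| + C0 * a * ∑ k ∈ range n, ‖itR N K g k - (inner ℝ one (itR N K g k)) • one‖ := by
  induction n with
  | zero => simp [itR_zero]
  | succ n ih =>
    rw [sum_range_succ, sum_range_succ, itR_succ]
    have h1 := H.mean_step (itR N K g n)
    nlinarith

omit H in
theorem sum_shift {x : ℕ → ℝ} {M : ℝ} (hx0 : ∀ k, 0 ≤ x k) (hx : ∀ k, x k ≤ M) (m n : ℕ) :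
    ∑ k ∈ range n, x k ≤ m * M + ∑ k ∈ range n, x (m + k) := by
  have h1 : ∑ k ∈ range n, x k ≤ ∑ k ∈ range (m + n), x k :=
    sum_le_sum_of_subset_of_nonneg (fun k hk => by
      rw [mem_range] at hk ⊢; omega) fun k _ _ => hx0 k
  rw [sum_range_add] at h1
  have h2 : ∑ k ∈ range m, x k ≤ m * M := by
    calc ∑ k ∈ range m, x k ≤ ∑ _k ∈ range m, M := sum_le_sum fun k _ => hx k
      _ = m * M := by simp
  linarith

/-- The case of small `a`. -/
theorem small (ha : a * (C0 ^ 2 + 1) ≤ 1 / 3360) (A g : E) (n : ℕ) :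
    ∑ k ∈ range n, |(inner ℝ A (itR N K g k))| ≤
      3360 * (1 + C0) ^ 2 * (‖A‖ * ‖g‖) + |(inner ℝ one A)| * |(inner ℝ one g)| / a := by
  have ha0 := H.a_pos
  have hC := H.C0_nonneg
  set Φ := ∑ k ∈ range n, ‖itR N K g k - (inner ℝ one (itR N K g k)) • one‖ with hΦ
  set M := ∑ k ∈ range n, |(inner ℝ one (itR N K g k))| with hM
  have hΦ0 : 0 ≤ Φ := sum_nonneg fun k _ => norm_nonneg _
  have hM0 : 0 ≤ M := sum_nonneg fun k _ => abs_nonneg _
  have hg : |(inner ℝ one g)| ≤ ‖g‖ := by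
    have h := abs_real_inner_le_norm one g
    rwa [H.one_one, one_mul] at h
  have h1 : a * M ≤ |(inner ℝ one g)| + C0 * a * Φ := by
    have h := H.sum_mean g n
    have h' := abs_nonneg (inner ℝ one (itR N K g n))
    linarith
  have h2 : Φ ≤ 14 * ‖g‖ + (119 / 120 * Φ + 14 * (C0 * a) * M) := by
    have h3 := sum_shift (x := fun k => ‖itR N K g k - (inner ℝ one (itR N K g k)) • one‖) (M := ‖g‖)
      (fun k => norm_nonneg _)
      (fun k => (norm_proj_le one _ H.one_one).trans (H.itR_norm_le g k)) 14 n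
    refine h3.trans ?_
    have h4 : ∑ k ∈ range n, ‖itR N K g (14 + k) - (inner ℝ one (itR N K g (14 + k))) • one‖ ≤
        ∑ k ∈ range n, (119 / 120 * ‖itR N K g k - (inner ℝ one (itR N K g k)) • one‖ +
          14 * (C0 * a) * |(inner ℝ one (itR N K g k))|) := by
      refine sum_le_sum fun k _ => ?_
      rw [add_comm 14 k, itR_add]
      exact H.perp_step (itR N K g k)
    rw [sum_add_distrib, ← mul_sum, ← mul_sum] at h4
    push_cast
    linarith
  have h5 : 14 * (C0 * a) * M ≤ 14 * C0 * (‖g‖ + C0 * a * Φ) := by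
    have h6 := mul_le_mul_of_nonneg_left h1 (by positivity : 0 ≤ 14 * C0)
    have h7 := mul_le_mul_of_nonneg_left hg (by positivity : 0 ≤ 14 * C0)
    nlinarith
  have h8 : 14 * C0 * (C0 * a * Φ) ≤ 1 / 240 * Φ := by
    have h9 : a * C0 ^ 2 ≤ 1 / 3360 := by nlinarith
    have h10 := mul_le_mul_of_nonneg_right h9 hΦ0
    nlinarith
  have h11 : Φ ≤ 3360 * (1 + C0) * ‖g‖ := by nlinarith
  have h12 : M ≤ |(inner ℝ one g)| / a + C0 * Φ := by
    rw [div_add' _ _ _ ha0.ne', le_div_iff₀ ha0]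
    nlinarith
  have hA : |(inner ℝ one A)| ≤ ‖A‖ := by
    have h := abs_real_inner_le_norm one A
    rwa [H.one_one, one_mul] at h
  have h13 : ∑ k ∈ range n, |(inner ℝ A (itR N K g k))| ≤ |(inner ℝ one A)| * M + ‖A‖ * Φ := by
    rw [hM, hΦ, mul_sum, mul_sum, ← sum_add_distrib]
    refine sum_le_sum fun k _ => ?_
    have e1 : (inner ℝ A (itR N K g k)) = (inner ℝ one A) * (inner ℝ one (itR N K g k)) +
        (inner ℝ A (itR N K g k - (inner ℝ one (itR N K g k)) • one)) := by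
      rw [inner_sub_right, inner_smul_right, real_inner_comm one A]
      ring
    rw [e1]
    refine (abs_add_le _ _).trans ?_
    rw [abs_mul]
    exact add_le_add le_rfl (abs_real_inner_le_norm _ _)
  have h14 : |(inner ℝ one A)| * M ≤ |(inner ℝ one A)| * (|(inner ℝ one g)| / a + C0 * Φ) :=
    mul_le_mul_of_nonneg_left h12 (abs_nonneg _)
  have h15 : |(inner ℝ one A)| * (C0 * Φ) ≤ ‖A‖ * (C0 * Φ) :=
    mul_le_mul_of_nonneg_right hA (by positivity)
  have h16 : ‖A‖ * ((1 + C0) * Φ) ≤ ‖A‖ * ((1 + C0) * (3360 * (1 + C0) * ‖g‖)) :=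
    mul_le_mul_of_nonneg_left (mul_le_mul_of_nonneg_left h11 (by linarith)) (norm_nonneg _)
  have e2 : |(inner ℝ one A)| * (|(inner ℝ one g)| / a) = |(inner ℝ one A)| * |(inner ℝ one g)| / a := by ring
  calc ∑ k ∈ range n, |(inner ℝ A (itR N K g k))| ≤ |(inner ℝ one A)| * M + ‖A‖ * Φ := h13
    _ ≤ |(inner ℝ one A)| * |(inner ℝ one g)| / a + ‖A‖ * ((1 + C0) * Φ) := by
        rw [← e2]
        nlinarith
    _ ≤ _ := by nlinarith

omit H in
theorem parallel (x y : E) :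
    (inner ℝ (K (x - y)) (x - y)) + (inner ℝ (K (x + y)) (x + y)) = 2 * (inner ℝ (K x) x) + 2 * (inner ℝ (K y) y) := by
  rw [map_sub, map_add, inner_sub_left, inner_sub_right, inner_sub_right, inner_add_left,
    inner_add_right, inner_add_right]
  ring

/-- Contraction for `a ≥ a1`. -/
theorem contr_large {a1 η : ℝ} (ha1 : 0 < a1) (ha : a1 ≤ a) (hη : (4 / a1 + 2) * (2 * η) ≤ 1 / 2)
    {k1 : ℕ} (hk1 : 2 * ((k1 : ℝ) + 2) ^ 2 * (1 / 2) ^ k1 ≤ η) (f : E) :
    (1 + (4 / a1 + 2) * (1 + 2 * k1)) * ‖itR N K f (k1 + 1)‖ ^ 2 ≤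
      (1 / 2 + (4 / a1 + 2) * (1 + 2 * k1)) * ‖f‖ ^ 2 := by
  set m := (inner ℝ one f) with hm
  set G := itR N K f k1 with hG
  set r := G - m • one with hr
  set D := ‖f‖ ^ 2 - ‖itR N K f (k1 + 1)‖ ^ 2 with hD
  have hkc : (0 : ℝ) ≤ k1 := Nat.cast_nonneg k1
  have hen := H.energy f (k1 + 1)
  rw [sum_range_succ] at hen
  have hen1 : 0 ≤ ∑ j ∈ range k1, (inner ℝ (K (itR N K f j)) (itR N K f j)) :=
    sum_nonneg fun j _ => H.K_nonneg _
  have hKG : (inner ℝ (K G) G) ≤ D := by linarith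
  have hstep : ‖itR N K f (k1 + 1)‖ ^ 2 ≤ ‖G‖ ^ 2 := by
    have h1 := H.step G
    have h2 := H.K_nonneg G
    rw [← itR_succ] at h1
    linarith
  have hD0 : 0 ≤ D := (H.K_nonneg G).trans hKG
  have hNone : ∀ k : ℕ, (N ^ k) one = one := by
    intro k
    induction k with
    | zero => simp
    | succ k ih => rw [pow_succ, Module.End.mul_apply, H.N_one, ih]
  have hr1 : r = (G - (N ^ k1) f) + (N ^ k1) (f - m • one) := by
    rw [hr, map_sub, map_smul, hNone]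
    abel
  have hr2 : ‖r‖ ^ 2 ≤ 2 * (k1 * D) + 2 * (η * ‖f‖ ^ 2) := by
    have h1 := norm_add_sq_le (G - (N ^ k1) f) ((N ^ k1) (f - m • one))
    rw [← hr1] at h1
    have h2 := H.itR_sub_sq f k1
    have h3 := H.N_pow (f - m • one) (by rw [hm]; exact inner_proj one f H.one_one) k1
    have h4 : ‖f - m • one‖ ^ 2 ≤ ‖f‖ ^ 2 :=
      pow_le_pow_left₀ (norm_nonneg _) (norm_proj_le one f H.one_one) 2
    have h5 : 2 * ((k1 : ℝ) + 2) ^ 2 * (1 / 2) ^ k1 * ‖f - m • one‖ ^ 2 ≤ η * ‖f‖ ^ 2 :=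
      mul_le_mul hk1 h4 (by positivity) (le_trans (by positivity) hk1)
    have h6 : (k1 : ℝ) * (‖f‖ ^ 2 - ‖itR N K f k1‖ ^ 2) ≤ k1 * D :=
      mul_le_mul_of_nonneg_left (by rw [hD]; linarith) hkc
    linarith
  have hma : m ^ 2 * a ≤ 2 * D + 2 * ‖r‖ ^ 2 := by
    have h1 : m ^ 2 * a = (inner ℝ (K (m • one)) (m • one)) := by
      rw [map_smul, inner_smul_left, inner_smul_right, H.K_symm, H.Kone]
      simp only [conj_trivial]
      ring
    have h2 : m • one = G - r := by rw [hr]; abel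
    have h3 := parallel (K := K) G r
    have h4 := H.K_nonneg (G + r)
    have h5 := H.K_form_le r
    rw [h1, h2]
    linarith
  have hma1 : m ^ 2 * a1 ≤ 2 * D + 2 * ‖r‖ ^ 2 :=
    (mul_le_mul_of_nonneg_left ha (sq_nonneg m)).trans hma
  have hm2 : 2 * m ^ 2 ≤ 4 / a1 * (D + ‖r‖ ^ 2) := by
    rw [div_mul_eq_mul_div, le_div_iff₀ ha1]
    linarith
  have hG2 : ‖G‖ ^ 2 ≤ 2 * m ^ 2 + 2 * ‖r‖ ^ 2 := by
    have h1 := norm_add_sq_le (m • one) r
    have h2 : m • one + r = G := by rw [hr]; abel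
    rw [h2, norm_smul, H.one_one, mul_one, Real.norm_eq_abs, sq_abs] at h1
    exact h1
  have hL : 0 < 4 / a1 + 2 := by positivity
  have h7 : ‖itR N K f (k1 + 1)‖ ^ 2 ≤ (4 / a1 + 2) * D + (4 / a1 + 2) * ‖r‖ ^ 2 := by
    nlinarith
  have h8 : (4 / a1 + 2) * ‖r‖ ^ 2 ≤ (4 / a1 + 2) * (2 * (k1 * D) + 2 * (η * ‖f‖ ^ 2)) :=
    mul_le_mul_of_nonneg_left hr2 hL.le
  have h9 : (4 / a1 + 2) * (2 * η) * ‖f‖ ^ 2 ≤ 1 / 2 * ‖f‖ ^ 2 :=
    mul_le_mul_of_nonneg_right hη (by positivity)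
  have h10 : ‖itR N K f (k1 + 1)‖ ^ 2 ≤ (4 / a1 + 2) * (1 + 2 * k1) * D + 1 / 2 * ‖f‖ ^ 2 := by
    nlinarith
  rw [hD] at h10
  linarith

/-- The case of large `a`. -/
theorem large {m : ℕ} {q : ℝ} (hq : q < 1) (hcon : ∀ f, ‖itR N K f m‖ ≤ q * ‖f‖) (A g : E)
    (n : ℕ) : ∑ k ∈ range n, |(inner ℝ A (itR N K g k))| ≤ m / (1 - q) * (‖A‖ * ‖g‖) := by
  set X := ∑ k ∈ range n, ‖itR N K g k‖ with hX
  have h1 := sum_shift (x := fun k => ‖itR N K g k‖) (M := ‖g‖)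
    (fun k => norm_nonneg _) (fun k => H.itR_norm_le g k) m n
  have h2 : ∑ k ∈ range n, ‖itR N K g (m + k)‖ ≤ q * X := by
    rw [hX, mul_sum]
    refine sum_le_sum fun k _ => ?_
    rw [add_comm m k, itR_add]
    exact hcon _
  have h3 : X ≤ m / (1 - q) * ‖g‖ := by
    rw [div_mul_eq_mul_div, le_div_iff₀ (by linarith)]
    linarith
  calc ∑ k ∈ range n, |(inner ℝ A (itR N K g k))| ≤ ∑ k ∈ range n, ‖A‖ * ‖itR N K g k‖ :=
        sum_le_sum fun k _ => abs_real_inner_le_norm _ _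
    _ = ‖A‖ * X := by rw [hX, mul_sum]
    _ ≤ ‖A‖ * (m / (1 - q) * ‖g‖) := mul_le_mul_of_nonneg_left h3 (norm_nonneg _)
    _ = _ := by ring

end HD

end Aux

theorem exists_k1 {η : ℝ} (hη : 0 < η) :
    ∃ k1 : ℕ, 2 * ((k1 : ℝ) + 2) ^ 2 * (1 / 2) ^ k1 ≤ η := by
  have h1 := tendsto_pow_const_mul_const_pow_of_abs_lt_one 2
    (r := (1 / 2 : ℝ)) (by rw [abs_of_pos] <;> norm_num)
  have h2 : Filter.Tendsto (fun k : ℕ => ((k + 2 : ℕ) : ℝ) ^ 2 * (1 / 2) ^ (k + 2)) Filter.atTop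
      (nhds 0) := (Filter.tendsto_add_atTop_iff_nat 2).2 h1
  have h3 := h2.const_mul 8
  rw [mul_zero] at h3
  obtain ⟨k, hk⟩ := (h3.eventually_le_const hη).exists
  refine ⟨k, le_trans (le_of_eq ?_) hk⟩
  push_cast
  rw [pow_add]
  ring

/-- The statement in a pre-Hilbert space. -/
theorem hilbD_aux (C0 : ℝ) (hC0 : 0 ≤ C0) : ∃ C : ℝ, 0 < C ∧
    ∀ (E : Type u) [SeminormedAddCommGroup E] [InnerProductSpace ℝ E] (N K : E →ₗ[ℝ] E)
      (one : E) (a : ℝ), HD N K one a C0 → ∀ (A g : E) (n : ℕ),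
        ∑ k ∈ Finset.range n, |inner ℝ A (((N * (1 - K)) ^ k) g)| ≤
          C * (‖A‖ * ‖g‖ + |inner ℝ one A| * |inner ℝ one g| / a) := by
  set a1 : ℝ := 1 / (3360 * (C0 ^ 2 + 1)) with ha1
  have ha1p : 0 < a1 := by positivity
  set L : ℝ := 4 / a1 + 2 with hL
  have hLp : 0 < L := by positivity
  set η : ℝ := 1 / (4 * L) with hη
  have hηp : 0 < η := by positivity
  obtain ⟨k1, hk1⟩ := exists_k1 hηp
  set C3 : ℝ := L * (1 + 2 * k1) with hC3
  have hC3p : 0 < C3 := by positivity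
  set q : ℝ := √((1 / 2 + C3) / (1 + C3)) with hq
  have hq0 : 0 ≤ q := Real.sqrt_nonneg _
  have hq1 : q < 1 := by
    rw [hq, Real.sqrt_lt' one_pos, one_pow, div_lt_one (by positivity)]
    linarith
  have hq2 : q ^ 2 = (1 / 2 + C3) / (1 + C3) := Real.sq_sqrt (by positivity)
  set C2 : ℝ := ((k1 + 1 : ℕ) : ℝ) / (1 - q) with hC2
  have hC2p : 0 ≤ C2 := div_nonneg (Nat.cast_nonneg _) (by linarith)
  set C1 : ℝ := 3360 * (1 + C0) ^ 2 with hC1
  have hC1p : 0 ≤ C1 := by positivity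
  refine ⟨C1 + C2 + 1, by positivity, ?_⟩
  intro E _ _ N K one a H A g n
  have ha0 := H.a_pos
  have hP : 0 ≤ ‖A‖ * ‖g‖ := by positivity
  have hQ : 0 ≤ |inner ℝ one A| * |inner ℝ one g| / a := by positivity
  rcases le_total a a1 with h | h
  · have h1 : a * (C0 ^ 2 + 1) ≤ 1 / 3360 := by
      rw [ha1, le_div_iff₀ (by positivity)] at h
      linarith
    have h2 := H.small h1 A g n
    refine h2.trans ?_
    nlinarith [mul_nonneg hC2p hP, mul_nonneg hC2p hQ, mul_nonneg hC1p hQ]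
  · have hcon : ∀ f, ‖itR N K f (k1 + 1)‖ ≤ q * ‖f‖ := by
      intro f
      have h1 := H.contr_large ha1p h (η := η) (by
        rw [← hL, hη]
        field_simp
        norm_num) hk1 f
      rw [← hL, ← hC3] at h1
      have h2 : ‖itR N K f (k1 + 1)‖ ^ 2 ≤ (q * ‖f‖) ^ 2 := by
        rw [mul_pow, hq2, div_mul_eq_mul_div, le_div_iff₀ (by positivity)]
        linarith
      exact (pow_le_pow_iff_left₀ (norm_nonneg _) (by positivity) (by norm_num)).1 h2
    have h2 := H.large hq1 hcon A g n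
    refine h2.trans ?_
    rw [← hC2]
    nlinarith [mul_nonneg hC2p hP, mul_nonneg hC2p hQ, mul_nonneg hC1p hQ, mul_nonneg hC1p hP]

end Vale.Agent.P161.EP
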