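import Mathlib
import Vale.Agent.P161.EP.HilbDA

/-!
# Module C (HilbD): the Hilbert space lemma

`R = N (1 - K)`; `B` a positive semidefinite symmetric bilinear form, `‖f‖² = B f f`.

Proof.  `‖(1-K) f‖² ≤ ‖f‖² - B (K f) f`, so `g_j := R^j f` satisfies
`‖g_{j+1}‖² ≤ ‖g_j‖² - B (K g_j) g_j`, and `g_{j+1} = N g_j - N K g_j` gives
`g_k = N^k f - ∑_{j<k} N^{k-j} K g_j`, `‖K g_j‖² ≤ B (K g_j) g_j`.
(i) mean zero `f` (`B one f = 0`), `k0` with `‖N^{k0} f‖ ≤ ‖f‖/4`: if `‖g_{k0}‖² = (1-δ)‖f‖²` then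
`∑_{j<k0} ‖K g_j‖ ≤ √(k0 δ) ‖f‖`, so `√(1-δ) ≤ 1/4 + √(k0 δ)`, hence `δ ≥ 1/(4 k0)`.
(ii) `h_j = R^j one`: `‖h_j - one‖ ≤ j C0 a`; `B one (R^j f) = B one f - ∑_{i<j} B (K one) (R^i f)`.
So if `a ≤ a1(C0,k0)`: `0 ≤ B one h_{k0} ≤ 1 - k0 a / 2`, `‖h_{k0} - (B one h_{k0}) one‖ ≤ k0 C0 a`,
`|B one (R^{k0} f)| ≤ k0 C0 a ‖f‖` for mean zero `f`.
(iii) with `(μ, φ) = (|B one f|, ‖f - (B one f) one‖)` one gets for a block of `k0` steps
`μ' ≤ (1 - k0 a/2) μ + k0 C0 a φ`, `φ' ≤ k0 C0 a μ + √(1 - 1/(4k0)) φ`; summing the series: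
`∑ φ ≤ C ‖g‖`, `∑ μ ≤ C μ₀ / a + C ‖g‖` (partial sums, all terms nonnegative, `a` small).  For the
steps which are not multiples of `k0` start from `R^j g`, `j < k0`.
(iv) if `a ≥ a1`: `∃ k c, ‖R^k f‖ ≤ (1-c) ‖f‖` for all `f`: else, with `μ = B one f`,
`e = g_{k1} - μ one`, `‖e‖ ≤ (η + √(k1 δ)) ‖f‖`, `√δ ‖f‖ ≥ (B (K g_{k1}) g_{k1})^{1/2} ≥
√a |μ| - ‖e‖` and `|μ| ≥ (√(1-δ)) ‖f‖ - ‖e‖`: contradiction for `η, δ` small (depending on `a1`).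
-/

namespace Vale.Agent.P161.EP

universe u

theorem hilbD (C0 : ℝ) : ∃ C : ℝ, 0 < C ∧
    ∀ (E : Type u) [AddCommGroup E] [Module ℝ E] (B : E →ₗ[ℝ] E →ₗ[ℝ] ℝ) (N K : E →ₗ[ℝ] E)
      (one : E) (a : ℝ),
      (∀ f g, B f g = B g f) → (∀ f, 0 ≤ B f f) → B one one = 1 →
      N one = one → (∀ f, B one (N f) = B one f) → (∀ f, B (N f) (N f) ≤ B f f) →
      (∀ f, B one f = 0 → ∀ k : ℕ,
        B ((N ^ k) f) ((N ^ k) f) ≤ 2 * ((k : ℝ) + 2) ^ 2 * (1 / 2) ^ k * B f f) →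
      (∀ f g, B (K f) g = B f (K g)) → (∀ f, B (K f) (K f) ≤ B (K f) f) →
      B one (K one) = a → 0 < a → B (K one) (K one) ≤ (C0 * a) ^ 2 →
      ∀ (A g : E) (n : ℕ),
        ∑ k ∈ Finset.range n, |B A (((N * (1 - K)) ^ k) g)| ≤
          C * (√(B A A) * √(B g g) + |B one A| * |B one g| / a) := by
  obtain ⟨C, hC, h⟩ := hilbD_aux.{u} |C0| (abs_nonneg C0)
  refine ⟨C, hC, ?_⟩
  intro E _ _ B N K one a hsymm hpos h11 hN1 h1N hN hNk hKs hK hK1 ha hK1' A g n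
  let core : PreInnerProductSpace.Core ℝ E :=
    { inner := fun x y => B x y
      conj_inner_symm := fun x y => hsymm y x
      re_inner_nonneg := fun x => hpos x
      add_left := fun x y z => by simp
      smul_left := fun x y r => by simp }
  letI : SeminormedAddCommGroup E := InnerProductSpace.Core.toSeminormedAddCommGroup (c := core)
  letI : InnerProductSpace ℝ E := InnerProductSpace.ofCore core
  have hin : ∀ x y : E, inner ℝ x y = B x y := fun _ _ => rfl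
  have hnorm : ∀ x : E, ‖x‖ = √(B x x) := fun _ => rfl
  have hsq : ∀ x : E, ‖x‖ ^ 2 = B x x := fun x => by rw [hnorm, Real.sq_sqrt (hpos x)]
  have H : HD N K one a |C0| := by
    refine ⟨?_, hN1, h1N, fun f => ?_, fun f hf k => ?_, hKs, fun f => ?_, hK1, ha,
      abs_nonneg _, ?_⟩
    · rw [hnorm, h11, Real.sqrt_one]
    · rw [hnorm, hnorm]
      exact Real.sqrt_le_sqrt (hN f)
    · rw [hsq, hsq]
      exact hNk f hf k
    · rw [hsq]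
      exact hK f
    · rw [hnorm]
      refine (Real.sqrt_le_sqrt hK1').trans ?_
      rw [Real.sqrt_sq_eq_abs, abs_mul, abs_of_pos ha]
  have h2 := h E N K one a H A g n
  simp only [hin, hnorm] at h2
  exact h2

end Vale.Agent.P161.EP
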