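import Mathlib
import Vale.Agent.P161.EP.Defs

/-!
# Module A1 (TransIso): the automorphism group of the regular tree acts transitively on
non-backtracking paths

`f` is defined level by level: `f r = r'` and, for a child `x` of `y`, `f x = S y (f y) x` where
`S y y'` is a bijection from the children of `y` onto the children of `y'` which maps the next vertex
of the first path to the next vertex of the second path.
-/

open MeasureTheory

namespace Vale.Agent.P161.EP

universe u

variable {V : Type u} {G : SimpleGraph V} [G.LocallyFinite]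

open Classical in
/-- The children of `y` with respect to the root `r`. -/
noncomputable def chil (G : SimpleGraph V) [G.LocallyFinite] (r y : V) : Finset V :=
  (G.neighborFinset y).filter fun z => G.dist z r = G.dist y r + 1

theorem mem_chil {r y z : V} : z ∈ chil G r y ↔ G.Adj y z ∧ G.dist z r = G.dist y r + 1 := by
  classical
  unfold chil
  rw [Finset.mem_filter, SimpleGraph.mem_neighborFinset]

omit [G.LocallyFinite] in
theorem exists_par (hG : G.IsTree) (r : V) : ∃ par : V → V, ∀ x, x ≠ r →
    G.Adj x (par x) ∧ G.dist (par x) r + 1 = G.dist x r := by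
  have h : ∀ x, ∃ y, x ≠ r → G.Adj x y ∧ G.dist y r + 1 = G.dist x r := by
    intro x
    by_cases hx : x = r
    · exact ⟨x, fun h => absurd hx h⟩
    · obtain ⟨y, h1, h2⟩ := exists_adj_dist hG.connected hx
      exact ⟨y, fun _ => ⟨h1, h2⟩⟩
  choose par hpar using h
  exact ⟨par, hpar⟩

open Classical in
theorem card_chil (hG : G.IsTree) {d : ℕ} (hd : G.IsRegularOfDegree d) (r y : V) :
    (chil G r y).card = if y = r then d else d - 1 := by
  by_cases hy : y = r
  · subst hy
    rw [if_pos rfl]
    have : chil G y y = G.neighborFinset y := by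
      ext z
      rw [mem_chil, SimpleGraph.mem_neighborFinset, SimpleGraph.dist_self]
      constructor
      · exact fun h => h.1
      · intro h
        exact ⟨h, by rw [SimpleGraph.dist_eq_one_iff_adj.2 h.symm]⟩
    rw [this, SimpleGraph.card_neighborFinset_eq_degree, hd y]
  · rw [if_neg hy]
    obtain ⟨p, hp1, hp2⟩ := exists_adj_dist hG.connected hy
    have : chil G r y = (G.neighborFinset y).erase p := by
      ext z
      rw [mem_chil, Finset.mem_erase, SimpleGraph.mem_neighborFinset]
      constructor
      · rintro ⟨h1, h2⟩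
        refine ⟨?_, h1⟩
        rintro rfl
        omega
      · rintro ⟨h1, h2⟩
        refine ⟨h2, ?_⟩
        rcases IsTree.dist_cases hG h2 r with h3 | h3
        · exact absurd (IsTree.parent_unique hG h2 hp1 (w := r) h3.symm hp2) h1
        · exact h3
    rw [this, Finset.card_erase_of_mem (by rw [SimpleGraph.mem_neighborFinset]; exact hp1),
      SimpleGraph.card_neighborFinset_eq_degree, hd y]

omit [G.LocallyFinite] in
theorem exists_fun {s t : Finset V} (e : s ≃ t) : ∃ f : V → V, (∀ x ∈ s, f x ∈ t) ∧
    (∀ x ∈ s, ∀ y ∈ s, f x = f y → x = y) ∧ (∀ z ∈ t, ∃ x ∈ s, f x = z) ∧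
    ∀ x (hx : x ∈ s), f x = e ⟨x, hx⟩ := by
  classical
  obtain ⟨f, hf⟩ : ∃ f : V → V, ∀ x (hx : x ∈ s), f x = e ⟨x, hx⟩ :=
    ⟨fun x => if hx : x ∈ s then (e ⟨x, hx⟩ : V) else x, fun x hx => dif_pos hx⟩
  refine ⟨f, ?_, ?_, ?_, hf⟩
  · intro x hx
    rw [hf x hx]
    exact (e ⟨x, hx⟩).2
  · intro x hx y hy h
    rw [hf x hx, hf y hy] at h
    have := e.injective (Subtype.ext h)
    exact congrArg Subtype.val this
  · intro z hz
    refine ⟨(e.symm ⟨z, hz⟩ : V), (e.symm ⟨z, hz⟩).2, ?_⟩
    rw [hf _ (e.symm ⟨z, hz⟩).2]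
    simp

omit [G.LocallyFinite] in
/-- Bijections between children with a prescribed value. -/
theorem exists_bij {s t : Finset V} (hst : s.card = t.card) (m m' : V) :
    ∃ f : V → V, (∀ x ∈ s, f x ∈ t) ∧ (∀ x ∈ s, ∀ y ∈ s, f x = f y → x = y) ∧
      (∀ z ∈ t, ∃ x ∈ s, f x = z) ∧ (m ∈ s → m' ∈ t → f m = m') := by
  classical
  have e0 : s ≃ t := Finset.equivOfCardEq hst
  by_cases hm : m ∈ s ∧ m' ∈ t
  · obtain ⟨h1, h2⟩ := hm
    obtain ⟨f, hf1, hf2, hf3, hf4⟩ :=
      exists_fun (e0.trans (Equiv.swap (e0 ⟨m, h1⟩) ⟨m', h2⟩))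
    refine ⟨f, hf1, hf2, hf3, fun _ _ => ?_⟩
    rw [hf4 m h1]
    simp
  · obtain ⟨f, hf1, hf2, hf3, -⟩ := exists_fun e0
    exact ⟨f, hf1, hf2, hf3, fun h1 h2 => absurd ⟨h1, h2⟩ hm⟩

omit [G.LocallyFinite] in
/-- Non-backtracking paths are geodesics. -/
theorem nb_dist (hG : G.IsTree) {n : ℕ} {p : ℕ → V} (hp : ∀ i < n, G.Adj (p i) (p (i + 1)))
    (hp' : ∀ i, i + 2 ≤ n → p i ≠ p (i + 2)) : ∀ i ≤ n, G.dist (p i) (p 0) = i := by
  have key : ∀ i, i + 1 ≤ n → G.dist (p i) (p 0) = i ∧ G.dist (p (i + 1)) (p 0) = i + 1 := by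
    intro i
    induction i with
    | zero =>
      intro h
      rw [SimpleGraph.dist_self]
      exact ⟨rfl, SimpleGraph.dist_eq_one_iff_adj.2 (hp 0 (by omega)).symm⟩
    | succ i ih =>
      intro h
      obtain ⟨h1, h2⟩ := ih (by omega)
      refine ⟨h2, ?_⟩
      rcases IsTree.dist_cases hG (hp (i + 1) (by omega)) (p 0) with h3 | h3
      · exfalso
        refine hp' i (by omega) ?_
        exact IsTree.parent_unique hG (hp i (by omega)).symm (hp (i + 1) (by omega)) (w := p 0)
          (by omega) h3.symm
      · rw [h3, h2]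
  intro i hi
  cases i with
  | zero => exact SimpleGraph.dist_self
  | succ i => exact (key i hi).2

/-- The level by level map. -/
def lvl (par : V → V) (S : V → V → V → V) (r' : V) : ℕ → V → V
  | 0, _ => r'
  | k + 1, x => S (par x) (lvl par S r' k (par x)) x

/-- The automorphism group of a regular tree acts transitively on the non-backtracking paths of
length `n`. -/
theorem exists_iso_path (hG : G.IsTree) {d : ℕ} (hd : G.IsRegularOfDegree d) {n : ℕ}
    {p q : ℕ → V} (hp : ∀ i < n, G.Adj (p i) (p (i + 1))) (hp' : ∀ i, i + 2 ≤ n → p i ≠ p (i + 2))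
    (hq : ∀ i < n, G.Adj (q i) (q (i + 1))) (hq' : ∀ i, i + 2 ≤ n → q i ≠ q (i + 2)) :
    ∃ g : G ≃g G, ∀ i ≤ n, g (p i) = q i := by
  classical
  have hpd := nb_dist hG hp hp'
  have hqd := nb_dist hG hq hq'
  set r := p 0 with hr
  set r' := q 0 with hr'
  obtain ⟨par, hpar⟩ := exists_par hG r
  -- the bijections between the children
  have hS : ∀ y y' : V, ∃ f : V → V, G.dist y r = G.dist y' r' →
      (∀ x ∈ chil G r y, f x ∈ chil G r' y') ∧
      (∀ x ∈ chil G r y, ∀ z ∈ chil G r y, f x = f z → x = z) ∧
      (∀ z ∈ chil G r' y', ∃ x ∈ chil G r y, f x = z) ∧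
      (p (G.dist y r + 1) ∈ chil G r y → q (G.dist y r + 1) ∈ chil G r' y' →
        f (p (G.dist y r + 1)) = q (G.dist y r + 1)) := by
    intro y y'
    by_cases hyy : G.dist y r = G.dist y' r'
    · have hc : (chil G r y).card = (chil G r' y').card := by
        rw [card_chil hG hd, card_chil hG hd]
        by_cases h1 : y = r
        · have h2 : y' = r' := by
            rw [h1, SimpleGraph.dist_self] at hyy
            exact (hG.connected.dist_eq_zero_iff).1 hyy.symm
          rw [if_pos h1, if_pos h2]
        · have h2 : y' ≠ r' := by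
            intro h2
            rw [h2, SimpleGraph.dist_self] at hyy
            exact h1 ((hG.connected.dist_eq_zero_iff).1 hyy)
          rw [if_neg h1, if_neg h2]
      obtain ⟨f, h1, h2, h3, h4⟩ := exists_bij hc (p (G.dist y r + 1)) (q (G.dist y r + 1))
      exact ⟨f, fun _ => ⟨h1, h2, h3, h4⟩⟩
    · exact ⟨id, fun h => absurd h hyy⟩
  choose S hS using hS
  set f : V → V := fun x => lvl par S r' (G.dist x r) x with hf
  have hf0 : f r = r' := by
    simp only [hf, SimpleGraph.dist_self, lvl]
  have hchil : ∀ {x y}, x ∈ chil G r y → x ≠ r ∧ par x = y := by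
    intro x y h
    rw [mem_chil] at h
    have hx : x ≠ r := by
      rintro rfl
      rw [SimpleGraph.dist_self] at h
      omega
    exact ⟨hx, IsTree.parent_unique hG (hpar x hx).1 h.1.symm (w := r) (hpar x hx).2 h.2.symm⟩
  have hfs : ∀ {x y}, x ∈ chil G r y → f x = S y (f y) x := by
    intro x y h
    obtain ⟨h1, h2⟩ := hchil h
    rw [mem_chil] at h
    simp only [hf]
    rw [h.2, lvl, h2]
  have hmem : ∀ x, x ≠ r → x ∈ chil G r (par x) := by
    intro x hx
    rw [mem_chil]
    exact ⟨(hpar x hx).1.symm, (hpar x hx).2.symm⟩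
  -- distances
  have hdist : ∀ k x, G.dist x r = k → G.dist (f x) r' = k := by
    intro k
    induction k with
    | zero =>
      intro x hx
      have : x = r := (hG.connected.dist_eq_zero_iff).1 hx
      rw [this, hf0, SimpleGraph.dist_self]
    | succ k ih =>
      intro x hx
      have hne : x ≠ r := by
        rintro rfl
        rw [SimpleGraph.dist_self] at hx
        omega
      have h1 := hmem x hne
      have h2 : G.dist (par x) r = k := by
        have := (hpar x hne).2
        omega
      have h3 := ih _ h2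
      have h4 := (hS (par x) (f (par x)) (by rw [h2, h3])).1 x h1
      rw [← hfs h1, mem_chil] at h4
      rw [h4.2, h3]
  have hdist' : ∀ x, G.dist x r = G.dist (f x) r' := fun x => (hdist _ x rfl).symm
  have hSS := fun y => hS y (f y) (hdist' y)
  have hfc : ∀ {x y}, x ∈ chil G r y → f x ∈ chil G r' (f y) := by
    intro x y h
    rw [hfs h]
    exact (hSS y).1 x h
  -- adjacency
  have hadj : ∀ {x y}, G.Adj x y → G.Adj (f x) (f y) := by
    have key : ∀ {x y}, G.Adj x y → G.dist y r = G.dist x r + 1 → G.Adj (f x) (f y) := by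
      intro x y h h1
      have h2 : y ∈ chil G r x := mem_chil.2 ⟨h, h1⟩
      exact (mem_chil.1 (hfc h2)).1
    intro x y h
    rcases IsTree.dist_cases hG h r with h1 | h1
    · exact (key h.symm h1).symm
    · exact key h h1
  -- injectivity
  have hinj : ∀ k x y, G.dist x r = k → f x = f y → x = y := by
    intro k
    induction k with
    | zero =>
      intro x y hx hxy
      have hy : G.dist y r = 0 := by rw [hdist' y, ← hxy, ← hdist' x, hx]
      rw [(hG.connected.dist_eq_zero_iff).1 hx, (hG.connected.dist_eq_zero_iff).1 hy]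
    | succ k ih =>
      intro x y hx hxy
      have hy : G.dist y r = k + 1 := by rw [hdist' y, ← hxy, ← hdist' x, hx]
      have hxr : x ≠ r := by
        rintro rfl
        rw [SimpleGraph.dist_self] at hx
        omega
      have hyr : y ≠ r := by
        rintro rfl
        rw [SimpleGraph.dist_self] at hy
        omega
      have h1 := hmem x hxr
      have h2 := hmem y hyr
      have h3 := mem_chil.1 (hfc h1)
      have h4 := mem_chil.1 (hfc h2)
      have h5 : f (par x) = f (par y) := by
        refine IsTree.parent_unique hG h3.1.symm (b := f (par y)) ?_ (w := r') h3.2.symm ?_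
        · rw [hxy]
          exact h4.1.symm
        · rw [hxy]
          exact h4.2.symm
      have h6 : par x = par y := ih _ _ (by have := (hpar x hxr).2; omega) h5
      rw [← h6] at h2
      refine (hSS (par x)).2.1 x h1 y h2 ?_
      rw [← hfs h1, ← hfs h2, hxy]
  have hinj' : Function.Injective f := fun x y h => hinj _ x y rfl h
  -- surjectivity
  have hsurj : ∀ k w, G.dist w r' = k → ∃ x, f x = w := by
    intro k
    induction k with
    | zero =>
      intro w hw
      exact ⟨r, by rw [hf0, (hG.connected.dist_eq_zero_iff).1 hw]⟩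
    | succ k ih =>
      intro w hw
      have hne : w ≠ r' := by
        rintro rfl
        rw [SimpleGraph.dist_self] at hw
        omega
      obtain ⟨v, hv1, hv2⟩ := exists_adj_dist hG.connected hne
      obtain ⟨x, rfl⟩ := ih v (by omega)
      have h1 : w ∈ chil G r' (f x) := mem_chil.2 ⟨hv1.symm, hv2.symm⟩
      obtain ⟨z, hz, hz2⟩ := (hSS x).2.2.1 w h1
      exact ⟨z, by rw [hfs hz, hz2]⟩
  -- adjacency is reflected
  have hadj' : ∀ {x y}, G.Adj (f x) (f y) → G.Adj x y := by
    have key : ∀ {x y}, G.Adj (f x) (f y) → G.dist (f y) r' = G.dist (f x) r' + 1 →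
        G.Adj x y := by
      intro x y h h1
      have h2 : f y ∈ chil G r' (f x) := mem_chil.2 ⟨h, h1⟩
      obtain ⟨z, hz, hz2⟩ := (hSS x).2.2.1 _ h2
      rw [← hfs hz] at hz2
      rw [← hinj' hz2]
      exact (mem_chil.1 hz).1
    intro x y h
    rcases IsTree.dist_cases hG h r' with h1 | h1
    · exact (key h.symm h1).symm
    · exact key h h1
  have hbij : Function.Bijective f := ⟨hinj', fun w => hsurj _ w rfl⟩
  refine ⟨{ toEquiv := Equiv.ofBijective f hbij, map_rel_iff' := ?_ }, ?_⟩
  · intro x y
    exact ⟨fun h => hadj' h, fun h => hadj h⟩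
  · have key : ∀ i ≤ n, f (p i) = q i := by
      intro i
      induction i with
      | zero => exact fun _ => hf0
      | succ i ih =>
        intro hi
        have h1 := ih (by omega)
        have h2 : p (i + 1) ∈ chil G r (p i) := by
          rw [mem_chil, hpd i (by omega), hpd (i + 1) hi]
          exact ⟨hp i (by omega), rfl⟩
        have h3 : q (i + 1) ∈ chil G r' (f (p i)) := by
          rw [h1, mem_chil, hqd i (by omega), hqd (i + 1) hi]
          exact ⟨hq i (by omega), rfl⟩
        have h4 := (hSS (p i)).2.2.2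
        rw [hpd i (by omega)] at h4
        rw [hfs h2]
        exact h4 h2 h3
    exact fun i hi => key i hi

end Vale.Agent.P161.EP
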