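import Mathlib
import Vale.Agent.P161.EP.Defs
import Vale.Agent.P161.EP.TransIso

/-!
# Module A (Trans): transitivity of the automorphism group of the regular tree, invariance of
expectations
-/

open MeasureTheory

namespace Vale.Agent.P161.EP

universe u

variable {V : Type u} {G : SimpleGraph V} [G.LocallyFinite]

/-- `actLab g` as a measurable equivalence. -/
noncomputable def actE (g : G ≃g G) : (V × ℕ → ℝ) ≃ᵐ (V × ℕ → ℝ) :=
  MeasurableEquiv.piCongrLeft (fun _ : V × ℕ => ℝ) (Equiv.prodCongr g.toEquiv (Equiv.refl ℕ))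

omit [G.LocallyFinite] in
theorem actE_eq (g : G ≃g G) : (actE g : (V × ℕ → ℝ) → (V × ℕ → ℝ)) = actLab g := by
  funext om e
  have h := Equiv.piCongrLeft_apply_apply (P := fun _ : V × ℕ => ℝ)
    (Equiv.prodCongr g.toEquiv (Equiv.refl ℕ)) om
    ((Equiv.prodCongr g.toEquiv (Equiv.refl ℕ)).symm e)
  rw [Equiv.apply_symm_apply] at h
  exact h

omit [G.LocallyFinite] in
theorem measurePreserving_actE (g : G ≃g G) :
    MeasurePreserving (actE g) (Pu (V × ℕ)) (Pu (V × ℕ)) := by
  refine ⟨(actE g).measurable, ?_⟩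
  exact Measure.infinitePi_map_piCongrLeft (μ := fun _ : V × ℕ => unif)
    (Equiv.prodCongr g.toEquiv (Equiv.refl ℕ))

omit [G.LocallyFinite] in
theorem measurePreserving_actLab (g : G ≃g G) :
    MeasurePreserving (actLab g) (Pu (V × ℕ)) (Pu (V × ℕ)) := by
  rw [← actE_eq]
  exact measurePreserving_actE g

omit [G.LocallyFinite] in
theorem integral_act (g : G ≃g G) (F : (V × ℕ → ℝ) → ℝ) :
    ∫ om, F (actLab g om) ∂(Pu (V × ℕ)) = ∫ om, F om ∂(Pu (V × ℕ)) := by
  have h := (measurePreserving_actE g).integral_comp' (g := F)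
  rw [actE_eq] at h
  exact h

/-- Vertices. -/
theorem integral_vertex (hG : G.IsTree) {d : ℕ} (hd : G.IsRegularOfDegree d)
    {F : V → (V × ℕ → ℝ) → ℝ} (hF : ∀ (g : G ≃g G) x om, F (g x) (actLab g om) = F x om)
    (x x' : V) : ∫ om, F x om ∂(Pu (V × ℕ)) = ∫ om, F x' om ∂(Pu (V × ℕ)) := by
  obtain ⟨g, hg⟩ := exists_iso_path hG hd (n := 0) (p := fun _ => x) (q := fun _ => x')
    (fun i hi => absurd hi (by omega)) (fun i hi => absurd hi (by omega))
    (fun i hi => absurd hi (by omega)) (fun i hi => absurd hi (by omega))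
  have h0 : g x = x' := hg 0 le_rfl
  rw [← integral_act g (F x')]
  subst h0
  simp only [hF]

/-- Darts. -/
theorem integral_dart (hG : G.IsTree) {d : ℕ} (hd : G.IsRegularOfDegree d)
    {F : V → V → (V × ℕ → ℝ) → ℝ}
    (hF : ∀ (g : G ≃g G) x y om, F (g x) (g y) (actLab g om) = F x y om)
    {x y x' y' : V} (h : G.Adj x y) (h' : G.Adj x' y') :
    ∫ om, F x y om ∂(Pu (V × ℕ)) = ∫ om, F x' y' om ∂(Pu (V × ℕ)) := by
  obtain ⟨g, hg⟩ := exists_iso_path hG hd (n := 1) (p := fun i => if i = 0 then x else y)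
    (q := fun i => if i = 0 then x' else y')
    (fun i hi => by
      obtain rfl : i = 0 := by omega
      simpa using h) (fun i hi => absurd hi (by omega))
    (fun i hi => by
      obtain rfl : i = 0 := by omega
      simpa using h') (fun i hi => absurd hi (by omega))
  have h0 : g x = x' := by simpa using hg 0 (by omega)
  have h1 : g y = y' := by simpa using hg 1 (by omega)
  rw [← integral_act g (F x' y')]
  subst h0
  subst h1
  simp only [hF]

/-- Pairs of vertices can be exchanged. -/
theorem integral_swap (hG : G.IsTree) {d : ℕ} (hd : G.IsRegularOfDegree d)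
    {F : V → V → (V × ℕ → ℝ) → ℝ}
    (hF : ∀ (g : G ≃g G) x y om, F (g x) (g y) (actLab g om) = F x y om) (v w : V) :
    ∫ om, F v w om ∂(Pu (V × ℕ)) = ∫ om, F w v om ∂(Pu (V × ℕ)) := by
  obtain ⟨W, hW, hWl⟩ := hG.connected.exists_path_of_dist v w
  set n := W.length with hn
  have hinj := hW.getVert_injOn
  obtain ⟨g, hg⟩ := exists_iso_path hG hd (n := n) (p := fun i => W.getVert i)
    (q := fun i => W.getVert (n - i))
    (fun i hi => W.adj_getVert_succ hi)
    (fun i hi heq => by
      have := hinj (by simp only [Set.mem_ofPred_eq]; omega) (by simp only [Set.mem_ofPred_eq]; omega) heq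
      omega)
    (fun i hi => by
      have := W.adj_getVert_succ (i := n - (i + 1)) (by omega)
      rw [show n - (i + 1) + 1 = n - i by omega] at this
      exact this.symm)
    (fun i hi heq => by
      have := hinj (by simp only [Set.mem_ofPred_eq]; omega) (by simp only [Set.mem_ofPred_eq]; omega) heq
      omega)
  have h0 : g v = w := by
    have := hg 0 (by omega)
    simpa [hn] using this
  have h1 : g w = v := by
    have := hg n le_rfl
    simpa [hn] using this
  calc ∫ om, F v w om ∂(Pu (V × ℕ)) = ∫ om, F (g v) (g w) (actLab g om) ∂(Pu (V × ℕ)) := by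
        simp only [hF]
    _ = ∫ om, F w v (actLab g om) ∂(Pu (V × ℕ)) := by rw [h0, h1]
    _ = ∫ om, F w v om ∂(Pu (V × ℕ)) := integral_act g (F w v)

/-- Non-backtracking paths of length two. -/
theorem integral_triple (hG : G.IsTree) {d : ℕ} (hd : G.IsRegularOfDegree d)
    {F : V → V → V → (V × ℕ → ℝ) → ℝ}
    (hF : ∀ (g : G ≃g G) x y z om, F (g x) (g y) (g z) (actLab g om) = F x y z om)
    {x y z x' y' z' : V} (h : G.Adj x y) (h2 : G.Adj y z) (hxz : x ≠ z)
    (h' : G.Adj x' y') (h2' : G.Adj y' z') (hxz' : x' ≠ z') :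
    ∫ om, F x y z om ∂(Pu (V × ℕ)) = ∫ om, F x' y' z' om ∂(Pu (V × ℕ)) := by
  obtain ⟨g, hg⟩ := exists_iso_path hG hd (n := 2)
    (p := fun i => if i = 0 then x else if i = 1 then y else z)
    (q := fun i => if i = 0 then x' else if i = 1 then y' else z')
    (fun i hi => by
      have hi2 : i = 0 ∨ i = 1 := by omega
      rcases hi2 with rfl | rfl
      · simpa using h
      · simpa using h2)
    (fun i hi => by
      obtain rfl : i = 0 := by omega
      simpa using hxz)
    (fun i hi => by
      have hi2 : i = 0 ∨ i = 1 := by omega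
      rcases hi2 with rfl | rfl
      · simpa using h'
      · simpa using h2')
    (fun i hi => by
      obtain rfl : i = 0 := by omega
      simpa using hxz')
  have h0 : g x = x' := by simpa using hg 0 (by omega)
  have h1 : g y = y' := by simpa using hg 1 (by omega)
  have h3 : g z = z' := by simpa using hg 2 (by omega)
  calc ∫ om, F x y z om ∂(Pu (V × ℕ))
      = ∫ om, F (g x) (g y) (g z) (actLab g om) ∂(Pu (V × ℕ)) := by simp only [hF]
    _ = ∫ om, F x' y' z' (actLab g om) ∂(Pu (V × ℕ)) := by rw [h0, h1, h3]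
    _ = ∫ om, F x' y' z' om ∂(Pu (V × ℕ)) := integral_act g (F x' y' z')

end Vale.Agent.P161.EP
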