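import Mathlib
import Vale.Agent.P161.EP.Defs
import Vale.Agent.P161.EP.Trans

/-!
# Module B2a (TempA): non-backtracking operators, steps towards and away from a vertex

`NB P φ x y = ∑_{z ∼ y, z ≠ x, P y z} φ y z`.  Towards `o`: `P = Tow o`, away from `o`: `P = Awa o`.

`point_ineq`: `T = T₋ + T₊`, `T₊ T₋ = 0`, so `T^k = ∑_j T₋^j T₊^(k-j)`; `(T₋ φ)² = T₋ φ²` (at most one
term), `(T₊ φ)² ≤ b T₊ φ²`; Cauchy-Schwarz.

`mass_bound`: for an invariant `W ≥ 0` let `Mp W x y = ∑_{o beyond y} W x y o`,
`Mm W x y = ∑_{o beyond x} W x y o` (the same for all darts).  Then `Mp (T₋ W) = b Mp W`,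
`Mm (T₋ W) = 0`, `Mp (T₊ W) ≤ b Mm W`, `Mm (T₊ W) ≤ Mm W` (all the masses
`∑_{o in the branch x' of y} W y z o` of non-backtracking `x', y, z` are equal).
-/

open MeasureTheory

open scoped ENNReal

namespace Vale.Agent.P161.EP

universe u

variable {V : Type u} (G : SimpleGraph V) [G.LocallyFinite]

/-- The step `y → z` leads towards `o`. -/
def Tow (o : V) (y z : V) : Prop := G.dist z o < G.dist y o

/-- The step `y → z` leads away from `o`. -/
def Awa (o : V) (y z : V) : Prop := G.dist y o < G.dist z o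

open Classical in
/-- Non-backtracking steps with the property `P`. -/
noncomputable def NB {R : Type*} [AddCommMonoid R] (P : V → V → Prop) (φ : V → V → R)
    (x y : V) : R :=
  ∑ z ∈ G.neighborFinset y, if z = x then 0 else if P y z then φ y z else 0

/-- The operators on functions of dart and vertex. -/
noncomputable def TmW (W : V → V → V → ℝ≥0∞) (x y o : V) : ℝ≥0∞ :=
  NB G (Tow G o) (fun x y => W x y o) x y

/-- The operators on functions of dart and vertex. -/
noncomputable def TpW (W : V → V → V → ℝ≥0∞) (x y o : V) : ℝ≥0∞ :=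
  NB G (Awa G o) (fun x y => W x y o) x y

variable {G} {b : ℕ}

section real

theorem NB_congr {R : Type*} [AddCommMonoid R] {P : V → V → Prop} {φ ψ : V → V → R} {x y : V}
    (h : ∀ z, G.Adj y z → z ≠ x → P y z → φ y z = ψ y z) : NB G P φ x y = NB G P ψ x y := by
  unfold NB
  refine Finset.sum_congr rfl fun z hz => ?_
  split_ifs with h1 h2
  · rfl
  · exact h z (by simpa using hz) h1 h2
  · rfl

theorem NB_zero {R : Type*} [AddCommMonoid R] {P : V → V → Prop} {φ : V → V → R} {x y : V}
    (h : ∀ z, G.Adj y z → z ≠ x → P y z → φ y z = 0) : NB G P φ x y = 0 := by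
  unfold NB
  refine Finset.sum_eq_zero fun z hz => ?_
  split_ifs with h1 h2
  · rfl
  · exact h z (by simpa using hz) h1 h2
  · rfl

theorem NB_mono {P : V → V → Prop} {φ ψ : V → V → ℝ} {x y : V}
    (h : ∀ z, G.Adj y z → φ y z ≤ ψ y z) : NB G P φ x y ≤ NB G P ψ x y := by
  unfold NB
  refine Finset.sum_le_sum fun z hz => ?_
  split_ifs with h1 h2
  · exact le_rfl
  · exact h z (by simpa using hz)
  · exact le_rfl

theorem NB_mul {P : V → V → Prop} (c : ℝ) {φ : V → V → ℝ} {x y : V} :
    NB G P (fun x y => c * φ x y) x y = c * NB G P φ x y := by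
  unfold NB
  rw [Finset.mul_sum]
  refine Finset.sum_congr rfl fun z hz => ?_
  split_ifs <;> simp

theorem NB_sum {R : Type*} [AddCommMonoid R] {P : V → V → Prop} {ι : Type*} (s : Finset ι)
    (φ : ι → V → V → R) (x y : V) :
    NB G P (fun x y => ∑ i ∈ s, φ i x y) x y = ∑ i ∈ s, NB G P (φ i) x y := by
  unfold NB
  rw [Finset.sum_comm]
  refine Finset.sum_congr rfl fun z hz => ?_
  split_ifs <;> simp

theorem NB_true_eq (hG : G.IsTree) (φ : V → V → ℝ) (o x y : V) :
    NB G (fun _ _ => True) φ x y = NB G (Tow G o) φ x y + NB G (Awa G o) φ x y := by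
  unfold NB
  rw [← Finset.sum_add_distrib]
  refine Finset.sum_congr rfl fun z hz => ?_
  have hz' : G.Adj y z := by simpa using hz
  by_cases h1 : z = x
  · simp [h1]
  · rw [if_neg h1, if_neg h1, if_neg h1, if_pos trivial]
    rcases IsTree.dist_cases hG hz' o with h | h
    · have h2 : Tow G o y z := by unfold Tow; omega
      have h3 : ¬ Awa G o y z := by unfold Awa; omega
      rw [if_pos h2, if_neg h3, add_zero]
    · have h2 : ¬ Tow G o y z := by unfold Tow; omega
      have h3 : Awa G o y z := by unfold Awa; omega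
      rw [if_neg h2, if_pos h3, zero_add]

theorem tow_unique (hG : G.IsTree) {o y z z' : V} (hz : G.Adj y z) (hz' : G.Adj y z')
    (h : Tow G o y z) (h' : Tow G o y z') : z = z' := by
  unfold Tow at h h'
  refine IsTree.parent_unique hG hz hz' (w := o) ?_ ?_
  · rcases IsTree.dist_cases hG hz o with h | h <;> omega
  · rcases IsTree.dist_cases hG hz' o with h | h <;> omega

theorem NB_awa_tow (hG : G.IsTree) {R : Type*} [AddCommMonoid R] (φ : V → V → R) (o x y : V) :
    NB G (Awa G o) (NB G (Tow G o) φ) x y = 0 := by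
  refine NB_zero fun z hz _ h => NB_zero fun w hw hne hw2 => ?_
  exact absurd (tow_unique hG hw hz.symm hw2 h) hne

theorem NB_tow_sq (hG : G.IsTree) (φ : V → V → ℝ) (o x y : V) :
    (NB G (Tow G o) φ x y) ^ 2 = NB G (Tow G o) (fun x y => φ x y ^ 2) x y := by
  classical
  unfold NB
  by_cases hex : ∃ z, G.Adj y z ∧ z ≠ x ∧ Tow G o y z
  · obtain ⟨z, hz, hzx, hzt⟩ := hex
    rw [Finset.sum_eq_single_of_mem z (by simpa using hz), Finset.sum_eq_single_of_mem z
      (by simpa using hz)]
    · rw [if_neg hzx, if_pos hzt, if_neg hzx, if_pos hzt]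
    · intro w hw hne
      have hw' : G.Adj y w := by simpa using hw
      split_ifs with h1 h2
      · rfl
      · exact absurd (tow_unique hG hw' hz h2 hzt) hne
      · rfl
    · intro w hw hne
      have hw' : G.Adj y w := by simpa using hw
      split_ifs with h1 h2
      · rfl
      · exact absurd (tow_unique hG hw' hz h2 hzt) hne
      · rfl
  · rw [Finset.sum_eq_zero, Finset.sum_eq_zero]
    · norm_num
    · intro w hw
      have hw' : G.Adj y w := by simpa using hw
      split_ifs with h1 h2
      · rfl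
      · exact absurd ⟨w, hw', h1, h2⟩ hex
      · rfl
    · intro w hw
      have hw' : G.Adj y w := by simpa using hw
      split_ifs with h1 h2
      · rfl
      · exact absurd ⟨w, hw', h1, h2⟩ hex
      · rfl

theorem NB_sq_le (hd : G.IsRegularOfDegree (b + 1)) (P : V → V → Prop) (φ : V → V → ℝ)
    {x y : V} (h : G.Adj x y) :
    (NB G P φ x y) ^ 2 ≤ b * NB G P (fun x y => φ x y ^ 2) x y := by
  classical
  have hx : x ∈ G.neighborFinset y := by rw [SimpleGraph.mem_neighborFinset]; exact h.symm
  have hcard : ((G.neighborFinset y).erase x).card = b := by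
    rw [Finset.card_erase_of_mem hx, SimpleGraph.card_neighborFinset_eq_degree, hd y]
    rfl
  have e : ∀ ψ : V → V → ℝ, NB G P ψ x y =
      ∑ z ∈ (G.neighborFinset y).erase x, if P y z then ψ y z else 0 := by
    intro ψ
    unfold NB
    rw [← Finset.add_sum_erase _ _ hx, if_pos rfl, zero_add]
    refine Finset.sum_congr rfl fun z hz => ?_
    rw [if_neg (Finset.ne_of_mem_erase hz)]
  rw [e, e]
  have h1 := sq_sum_le_card_mul_sum_sq (s := (G.neighborFinset y).erase x)
    (f := fun z => if P y z then φ y z else 0)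
  rw [hcard] at h1
  refine h1.trans (mul_le_mul_of_nonneg_left (Finset.sum_le_sum fun z _ => ?_) (by positivity))
  split_ifs <;> simp

theorem awa_iter_sq (hd : G.IsRegularOfDegree (b + 1)) (o : V) (A : V → V → ℝ) (m : ℕ) {x y : V}
    (h : G.Adj x y) : ((NB G (Awa G o))^[m] A x y) ^ 2 ≤
      (b : ℝ) ^ m * (NB G (Awa G o))^[m] (fun x y => A x y ^ 2) x y := by
  induction m generalizing x y with
  | zero => simp
  | succ m ih =>
    rw [Function.iterate_succ_apply', Function.iterate_succ_apply']
    refine (NB_sq_le hd _ _ h).trans ?_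
    rw [pow_succ', mul_assoc]
    refine mul_le_mul_of_nonneg_left ?_ (by positivity)
    rw [← NB_mul]
    exact NB_mono fun z hz => ih hz

theorem tow_iter_sq (hG : G.IsTree) (o : V) {B B' : V → V → ℝ} {c : ℝ}
    (hB : ∀ x y, G.Adj x y → B x y ^ 2 ≤ c * B' x y) (j : ℕ) {x y : V} (h : G.Adj x y) :
    ((NB G (Tow G o))^[j] B x y) ^ 2 ≤ c * (NB G (Tow G o))^[j] B' x y := by
  induction j generalizing x y with
  | zero => exact hB x y h
  | succ j ih =>
    rw [Function.iterate_succ_apply', Function.iterate_succ_apply', NB_tow_sq hG, ← NB_mul]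
    exact NB_mono fun z hz => ih hz

theorem iter_eq (hG : G.IsTree) (A : V → V → ℝ) (o : V) (k : ℕ) (x y : V) :
    (NB G (fun _ _ => True))^[k] A x y = ∑ j ∈ Finset.range (k + 1),
      (NB G (Tow G o))^[j] ((NB G (Awa G o))^[k - j] A) x y := by
  induction k generalizing x y with
  | zero => simp
  | succ k ih =>
    have ih' : (NB G (fun _ _ => True))^[k] A = fun x y => ∑ j ∈ Finset.range (k + 1),
      (NB G (Tow G o))^[j] ((NB G (Awa G o))^[k - j] A) x y := by
      funext x y
      exact ih x y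
    rw [Function.iterate_succ_apply', NB_true_eq hG _ o, ih', NB_sum, NB_sum,
      Finset.sum_range_succ' _ (k + 1)]
    congr 1
    · refine Finset.sum_congr rfl fun j _ => ?_
      rw [Function.iterate_succ_apply', Nat.add_sub_add_right]
    · rw [Finset.sum_range_succ', Finset.sum_eq_zero, zero_add]
      · simp only [Function.iterate_zero, id_eq, Nat.sub_zero]
        rw [Function.iterate_succ_apply']
      · intro j _
        rw [Function.iterate_succ_apply']
        exact NB_awa_tow hG _ o x y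

theorem point_ineq (hG : G.IsTree) (hd : G.IsRegularOfDegree (b + 1)) (A : V → V → ℝ) (o : V)
    (k : ℕ) {x y : V} (h : G.Adj x y) :
    ((NB G (fun _ _ => True))^[k] A x y) ^ 2 ≤ (k + 1) * ∑ j ∈ Finset.range (k + 1),
      (b : ℝ) ^ (k - j) * (NB G (Tow G o))^[j] ((NB G (Awa G o))^[k - j]
        (fun x y => A x y ^ 2)) x y := by
  rw [iter_eq hG A o k x y]
  refine (sq_sum_le_card_mul_sum_sq).trans ?_
  rw [Finset.card_range]
  push_cast
  refine mul_le_mul_of_nonneg_left (Finset.sum_le_sum fun j _ => ?_) (by positivity)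
  exact tow_iter_sq hG o (fun x y hxy => awa_iter_sq hd o A (k - j) hxy) j h

end real

/-! ### Masses -/

/-- Invariance of a function of dart and vertex. -/
def InvW (G : SimpleGraph V) (W : V → V → V → ℝ≥0∞) : Prop :=
  ∀ (g : G ≃g G) x y o, W (g x) (g y) (g o) = W x y o

open Classical in
/-- The mass beyond `y`. -/
noncomputable def Mp (G : SimpleGraph V) (W : V → V → V → ℝ≥0∞) (x y : V) : ℝ≥0∞ :=
  ∑' o, if Tow G o x y then W x y o else 0

open Classical in
/-- The mass beyond `x`. -/
noncomputable def Mm (G : SimpleGraph V) (W : V → V → V → ℝ≥0∞) (x y : V) : ℝ≥0∞ :=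
  ∑' o, if Awa G o x y then W x y o else 0

open Classical in
/-- The mass in the branch `x` of `y`. -/
noncomputable def Br (G : SimpleGraph V) (W : V → V → V → ℝ≥0∞) (x y z : V) : ℝ≥0∞ :=
  ∑' o, if Awa G o x y then (if Awa G o y z then W y z o else 0) else 0

omit [G.LocallyFinite] in
theorem tow_iso (g : G ≃g G) (o y z : V) : Tow G (g o) (g y) (g z) ↔ Tow G o y z := by
  unfold Tow
  rw [dist_iso, dist_iso]

omit [G.LocallyFinite] in
theorem awa_iso (g : G ≃g G) (o y z : V) : Awa G (g o) (g y) (g z) ↔ Awa G o y z := by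
  unfold Awa
  rw [dist_iso, dist_iso]

theorem sum_nbr_iso {R : Type*} [AddCommMonoid R] (g : G ≃g G) (y : V) (F : V → R) :
    ∑ z ∈ G.neighborFinset (g y), F z = ∑ z ∈ G.neighborFinset y, F (g z) := by
  refine Finset.sum_nbij' (fun z => g.symm z) (fun z => g z) ?_ ?_ ?_ ?_ ?_
  · intro z hz
    rw [SimpleGraph.mem_neighborFinset] at hz ⊢
    rw [← g.map_adj_iff]
    simpa using hz
  · intro z hz
    rw [SimpleGraph.mem_neighborFinset] at hz ⊢
    exact g.map_adj_iff.2 hz
  · intro z _
    simp
  · intro z _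
    simp
  · intro z _
    simp

theorem inv_TmW {W : V → V → V → ℝ≥0∞} (hW : InvW G W) : InvW G (TmW G W) := by
  classical
  intro g x y o
  unfold TmW NB
  rw [sum_nbr_iso]
  refine Finset.sum_congr rfl fun z _ => ?_
  simp only [tow_iso, hW g, EmbeddingLike.apply_eq_iff_eq]

theorem inv_TpW {W : V → V → V → ℝ≥0∞} (hW : InvW G W) : InvW G (TpW G W) := by
  classical
  intro g x y o
  unfold TpW NB
  rw [sum_nbr_iso]
  refine Finset.sum_congr rfl fun z _ => ?_
  simp only [awa_iso, hW g, EmbeddingLike.apply_eq_iff_eq]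

omit [G.LocallyFinite] in
theorem Mp_iso {W : V → V → V → ℝ≥0∞} (hW : InvW G W) (g : G ≃g G) (x y : V) :
    Mp G W (g x) (g y) = Mp G W x y := by
  classical
  unfold Mp
  rw [← Equiv.tsum_eq g.toEquiv]
  refine tsum_congr fun o => ?_
  have e : (if Tow G (g o) (g x) (g y) then W (g x) (g y) (g o) else 0) =
      if Tow G o x y then W x y o else 0 := by
    simp only [tow_iso, hW g]
  exact e

omit [G.LocallyFinite] in
theorem Mm_iso {W : V → V → V → ℝ≥0∞} (hW : InvW G W) (g : G ≃g G) (x y : V) :
    Mm G W (g x) (g y) = Mm G W x y := by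
  classical
  unfold Mm
  rw [← Equiv.tsum_eq g.toEquiv]
  refine tsum_congr fun o => ?_
  have e : (if Awa G (g o) (g x) (g y) then W (g x) (g y) (g o) else 0) =
      if Awa G o x y then W x y o else 0 := by
    simp only [awa_iso, hW g]
  exact e

omit [G.LocallyFinite] in
theorem Br_iso {W : V → V → V → ℝ≥0∞} (hW : InvW G W) (g : G ≃g G) (x y z : V) :
    Br G W (g x) (g y) (g z) = Br G W x y z := by
  classical
  unfold Br
  rw [← Equiv.tsum_eq g.toEquiv]
  refine tsum_congr fun o => ?_
  have e : (if Awa G (g o) (g x) (g y) then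
      (if Awa G (g o) (g y) (g z) then W (g y) (g z) (g o) else 0) else 0) =
      if Awa G o x y then (if Awa G o y z then W y z o else 0) else 0 := by
    simp only [awa_iso, hW g]
  exact e

theorem exists_iso_dart (hG : G.IsTree) {d : ℕ} (hd : G.IsRegularOfDegree d)
    {x y x' y' : V} (h : G.Adj x y) (h' : G.Adj x' y') : ∃ g : G ≃g G, g x = x' ∧ g y = y' := by
  obtain ⟨g, hg⟩ := exists_iso_path hG hd (n := 1) (p := fun i => if i = 0 then x else y)
    (q := fun i => if i = 0 then x' else y')
    (fun i hi => by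
      obtain rfl : i = 0 := by omega
      simpa using h) (fun i hi => absurd hi (by omega))
    (fun i hi => by
      obtain rfl : i = 0 := by omega
      simpa using h') (fun i hi => absurd hi (by omega))
  exact ⟨g, by simpa using hg 0 (by omega), by simpa using hg 1 (by omega)⟩

theorem exists_iso_triple (hG : G.IsTree) {d : ℕ} (hd : G.IsRegularOfDegree d)
    {x y z x' y' z' : V} (h : G.Adj x y) (h2 : G.Adj y z) (hxz : x ≠ z)
    (h' : G.Adj x' y') (h2' : G.Adj y' z') (hxz' : x' ≠ z') :
    ∃ g : G ≃g G, g x = x' ∧ g y = y' ∧ g z = z' := by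
  obtain ⟨g, hg⟩ := exists_iso_path hG hd (n := 2)
    (p := fun i => if i = 0 then x else if i = 1 then y else z)
    (q := fun i => if i = 0 then x' else if i = 1 then y' else z')
    (fun i hi => by
      have hi2 : i = 0 ∨ i = 1 := by omega
      rcases hi2 with rfl | rfl
      · simpa using h
      · simpa using h2)
    (fun i hi => by
      obtain rfl : i = 0 := by omega
      simpa using hxz)
    (fun i hi => by
      have hi2 : i = 0 ∨ i = 1 := by omega
      rcases hi2 with rfl | rfl
      · simpa using h'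
      · simpa using h2')
    (fun i hi => by
      obtain rfl : i = 0 := by omega
      simpa using hxz')
  exact ⟨g, by simpa using hg 0 (by omega), by simpa using hg 1 (by omega),
    by simpa using hg 2 (by omega)⟩

theorem Mp_eq (hG : G.IsTree) {d : ℕ} (hd : G.IsRegularOfDegree d) {W : V → V → V → ℝ≥0∞}
    (hW : InvW G W) {x y x' y' : V} (h : G.Adj x y) (h' : G.Adj x' y') :
    Mp G W x y = Mp G W x' y' := by
  obtain ⟨g, rfl, rfl⟩ := exists_iso_dart hG hd h h'
  exact (Mp_iso hW g x y).symm

theorem Mm_eq (hG : G.IsTree) {d : ℕ} (hd : G.IsRegularOfDegree d) {W : V → V → V → ℝ≥0∞}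
    (hW : InvW G W) {x y x' y' : V} (h : G.Adj x y) (h' : G.Adj x' y') :
    Mm G W x y = Mm G W x' y' := by
  obtain ⟨g, rfl, rfl⟩ := exists_iso_dart hG hd h h'
  exact (Mm_iso hW g x y).symm

theorem Br_eq (hG : G.IsTree) {d : ℕ} (hd : G.IsRegularOfDegree d) {W : V → V → V → ℝ≥0∞}
    (hW : InvW G W) {x y z x' y' z' : V} (h : G.Adj x y) (h2 : G.Adj y z) (hxz : x ≠ z)
    (h' : G.Adj x' y') (h2' : G.Adj y' z') (hxz' : x' ≠ z') :
    Br G W x y z = Br G W x' y' z' := by
  obtain ⟨g, rfl, rfl, rfl⟩ := exists_iso_triple hG hd h h2 hxz h' h2' hxz'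
  exact (Br_iso hW g x y z).symm

/-- The total mass is the sum of the two masses. -/
theorem tot_eq (hG : G.IsTree) (W : V → V → V → ℝ≥0∞) {x y : V} (h : G.Adj x y) :
    ∑' o, W x y o = Mp G W x y + Mm G W x y := by
  unfold Mp Mm
  rw [← ENNReal.tsum_add]
  refine tsum_congr fun o => ?_
  rcases IsTree.dist_cases hG h o with h1 | h1
  · have h2 : Tow G o x y := by unfold Tow; omega
    have h3 : ¬ Awa G o x y := by unfold Awa; omega
    rw [if_pos h2, if_neg h3, add_zero]
  · have h2 : ¬ Tow G o x y := by unfold Tow; omega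
    have h3 : Awa G o x y := by unfold Awa; omega
    rw [if_neg h2, if_pos h3, zero_add]

theorem sum_const_nbr (hd : G.IsRegularOfDegree (b + 1)) {x y : V} (h : G.Adj x y) (c : ℝ≥0∞) :
    NB G (fun _ _ => True) (fun _ _ => c) x y = b * c := by
  classical
  have hx : x ∈ G.neighborFinset y := by rw [SimpleGraph.mem_neighborFinset]; exact h.symm
  have hcard : ((G.neighborFinset y).erase x).card = b := by
    rw [Finset.card_erase_of_mem hx, SimpleGraph.card_neighborFinset_eq_degree, hd y]
    rfl
  unfold NB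
  rw [← Finset.add_sum_erase _ _ hx, if_pos rfl, zero_add]
  refine (Finset.sum_congr rfl (g := fun _ => c) fun z hz => ?_).trans ?_
  · rw [if_neg (Finset.ne_of_mem_erase hz)]
    exact if_pos trivial
  · rw [Finset.sum_const, hcard, nsmul_eq_mul]

theorem tot_TmW (hG : G.IsTree) (hd : G.IsRegularOfDegree (b + 1)) {W : V → V → V → ℝ≥0∞}
    (hW : InvW G W) {x y : V} (h : G.Adj x y) :
    ∑' o, TmW G W x y o = b * Mp G W x y := by
  classical
  rw [← sum_const_nbr hd h]
  unfold TmW NB
  rw [Summable.tsum_finsetSum (fun _ _ => ENNReal.summable)]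
  refine Finset.sum_congr rfl fun z hz => ?_
  have hz' : G.Adj y z := by simpa using hz
  by_cases h1 : z = x
  · simp [h1]
  · simp only [if_neg h1, if_true]
    rw [Mp_eq hG hd hW h hz']
    rfl

theorem tot_TpW (hG : G.IsTree) (hd : G.IsRegularOfDegree (b + 1)) {W : V → V → V → ℝ≥0∞}
    (hW : InvW G W) {x y : V} (h : G.Adj x y) :
    ∑' o, TpW G W x y o = b * Mm G W x y := by
  classical
  rw [← sum_const_nbr hd h]
  unfold TpW NB
  rw [Summable.tsum_finsetSum (fun _ _ => ENNReal.summable)]
  refine Finset.sum_congr rfl fun z hz => ?_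
  have hz' : G.Adj y z := by simpa using hz
  by_cases h1 : z = x
  · simp [h1]
  · simp only [if_neg h1, if_true]
    rw [Mm_eq hG hd hW h hz']
    rfl

theorem Mp_le_tot (hG : G.IsTree) (W : V → V → V → ℝ≥0∞) {x y : V} (h : G.Adj x y) :
    Mp G W x y ≤ ∑' o, W x y o := by
  rw [tot_eq hG W h]
  exact le_self_add

theorem Mm_le_tot (hG : G.IsTree) (W : V → V → V → ℝ≥0∞) {x y : V} (h : G.Adj x y) :
    Mm G W x y ≤ ∑' o, W x y o := by
  rw [tot_eq hG W h]
  exact le_add_self

theorem Mm_TmW (hG : G.IsTree) (W : V → V → V → ℝ≥0∞) {x y : V} (h : G.Adj x y) :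
    Mm G (TmW G W) x y = 0 := by
  unfold Mm
  refine ENNReal.tsum_eq_zero.2 fun o => ?_
  split_ifs with h1
  · unfold TmW
    refine NB_zero fun z hz hne hz2 => ?_
    exact absurd (tow_unique hG hz h.symm hz2 h1) hne
  · rfl

theorem Mm_TpW (hG : G.IsTree) (hb : 1 ≤ b) (hd : G.IsRegularOfDegree (b + 1))
    {W : V → V → V → ℝ≥0∞} (hW : InvW G W) {x y : V} (h : G.Adj x y) :
    Mm G (TpW G W) x y ≤ Mm G W x y := by
  classical
  -- a neighbour of `y` other than `x`
  obtain ⟨z0, hz0, hz0x⟩ : ∃ z, G.Adj y z ∧ z ≠ x := by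
    have hcard : 1 < (G.neighborFinset y).card := by
      rw [SimpleGraph.card_neighborFinset_eq_degree, hd y]
      omega
    obtain ⟨z, hz, hne⟩ := Finset.exists_mem_ne hcard x
    exact ⟨z, by simpa using hz, hne⟩
  have e1 : Mm G (TpW G W) x y = b * Br G W x y z0 := by
    rw [← sum_const_nbr hd h]
    unfold Mm TpW NB
    have e2 : ∀ o, (if Awa G o x y then ∑ z ∈ G.neighborFinset y,
        (if z = x then 0 else if Awa G o y z then W y z o else 0) else 0) =
        ∑ z ∈ G.neighborFinset y, (if z = x then 0 else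
          if Awa G o x y then (if Awa G o y z then W y z o else 0) else 0) := by
      intro o
      by_cases h1 : Awa G o x y
      · simp only [if_pos h1]
      · simp only [if_neg h1, ite_self, Finset.sum_const_zero]
    simp only [e2]
    rw [Summable.tsum_finsetSum (fun _ _ => ENNReal.summable)]
    refine Finset.sum_congr rfl fun z hz => ?_
    have hz' : G.Adj y z := by simpa using hz
    by_cases h1 : z = x
    · simp [h1]
    · simp only [if_neg h1, if_true]
      rw [Br_eq hG hd hW h hz0 hz0x.symm h hz' (Ne.symm h1)]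
      rfl
  have e3 : (b : ℝ≥0∞) * Br G W x y z0 ≤ Mm G W y z0 := by
    rw [← sum_const_nbr hd hz0.symm]
    unfold NB
    refine le_of_eq_of_le (Finset.sum_congr rfl (g := fun w => ∑' o, (if w = z0 then 0 else
      if Awa G o w y then (if Awa G o y z0 then W y z0 o else 0) else 0)) fun w hw => ?_) ?_
    · have hw' : G.Adj y w := by simpa using hw
      by_cases h1 : w = z0
      · simp [h1]
      · simp only [if_neg h1]
        refine (if_pos trivial).trans ?_
        rw [Br_eq hG hd hW h hz0 hz0x.symm hw'.symm hz0 h1]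
        rfl
    rw [← Summable.tsum_finsetSum (fun _ _ => ENNReal.summable)]
    unfold Mm
    refine ENNReal.tsum_le_tsum fun o => ?_
    by_cases h1 : Awa G o y z0
    · simp only [if_pos h1]
      by_cases hex : ∃ w, G.Adj y w ∧ Awa G o w y
      · obtain ⟨w, hw, hwa⟩ := hex
        rw [Finset.sum_eq_single_of_mem w (by simpa using hw)]
        · split_ifs <;> simp
        · intro w' hw' hne
          have hw'' : G.Adj y w' := by simpa using hw'
          have : ¬ Awa G o w' y := fun h3 => hne (tow_unique hG hw'' hw h3 hwa)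
          rw [if_neg this, ite_self]
      · rw [Finset.sum_eq_zero]
        · exact zero_le
        · intro w hw
          have hw' : G.Adj y w := by simpa using hw
          have : ¬ Awa G o w y := fun h3 => hex ⟨w, hw', h3⟩
          rw [if_neg this, ite_self]
    · simp only [if_neg h1, ite_self, Finset.sum_const_zero, le_refl]
  rw [e1]
  refine e3.trans ?_
  rw [Mm_eq hG hd hW hz0 h]

theorem inv_iter_TpW {W : V → V → V → ℝ≥0∞} (hW : InvW G W) (m : ℕ) :
    InvW G ((TpW G)^[m] W) := by
  induction m with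
  | zero => exact hW
  | succ m ih =>
    rw [Function.iterate_succ_apply']
    exact inv_TpW ih

theorem inv_iter_TmW {W : V → V → V → ℝ≥0∞} (hW : InvW G W) (m : ℕ) :
    InvW G ((TmW G)^[m] W) := by
  induction m with
  | zero => exact hW
  | succ m ih =>
    rw [Function.iterate_succ_apply']
    exact inv_TmW ih

theorem Mm_iter (hG : G.IsTree) (hb : 1 ≤ b) (hd : G.IsRegularOfDegree (b + 1))
    {W : V → V → V → ℝ≥0∞} (hW : InvW G W) (m : ℕ) {x y : V} (h : G.Adj x y) :
    Mm G ((TpW G)^[m] W) x y ≤ Mm G W x y := by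
  induction m with
  | zero => exact le_rfl
  | succ m ih =>
    rw [Function.iterate_succ_apply']
    exact (Mm_TpW hG hb hd (inv_iter_TpW hW m) h).trans ih

theorem Mp_iter (hG : G.IsTree) (hb : 1 ≤ b) (hd : G.IsRegularOfDegree (b + 1))
    {W : V → V → V → ℝ≥0∞} (hW : InvW G W) (m : ℕ) {x y : V} (h : G.Adj x y) :
    Mp G ((TpW G)^[m] W) x y ≤ b * ∑' o, W x y o := by
  have hb1 : (1 : ℝ≥0∞) ≤ b := by exact_mod_cast hb
  cases m with
  | zero =>
    calc Mp G ((TpW G)^[0] W) x y = 1 * Mp G W x y := by simp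
      _ ≤ b * ∑' o, W x y o := mul_le_mul' hb1 (Mp_le_tot hG W h)
  | succ m =>
    rw [Function.iterate_succ_apply']
    refine (Mp_le_tot hG _ h).trans ?_
    rw [tot_TpW hG hd (inv_iter_TpW hW m) h]
    exact mul_le_mul' le_rfl ((Mm_iter hG hb hd hW m h).trans (Mm_le_tot hG W h))

theorem Mp_iter_TmW (hG : G.IsTree) (hd : G.IsRegularOfDegree (b + 1))
    {W : V → V → V → ℝ≥0∞} (hW : InvW G W) (j : ℕ) {x y : V} (h : G.Adj x y) :
    Mp G ((TmW G)^[j] W) x y ≤ (b : ℝ≥0∞) ^ j * Mp G W x y := by
  induction j with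
  | zero => simp
  | succ j ih =>
    rw [Function.iterate_succ_apply', pow_succ', mul_assoc]
    refine (Mp_le_tot hG _ h).trans ?_
    rw [tot_TmW hG hd (inv_iter_TmW hW j) h]
    exact mul_le_mul' le_rfl ih

theorem mass_bound (hG : G.IsTree) (hb : 1 ≤ b) (hd : G.IsRegularOfDegree (b + 1))
    (W : V → V → V → ℝ≥0∞) (hW : ∀ (g : G ≃g G) x y o, W (g x) (g y) (g o) = W x y o)
    (j m : ℕ) {x y : V} (h : G.Adj x y) :
    ∑' o, (TmW G)^[j] ((TpW G)^[m] W) x y o ≤ ((b : ℝ≥0∞) ^ (j + 1) + 1) * ∑' o, W x y o := by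
  have hW' : InvW G W := hW
  rw [tot_eq hG _ h, add_mul, one_mul]
  refine add_le_add ?_ ?_
  · refine (Mp_iter_TmW hG hd (inv_iter_TpW hW' m) j h).trans ?_
    rw [pow_succ, mul_assoc]
    exact mul_le_mul' le_rfl (Mp_iter hG hb hd hW' m h)
  · cases j with
    | zero => exact (Mm_iter hG hb hd hW' m h).trans (Mm_le_tot hG W h)
    | succ j =>
      rw [Function.iterate_succ_apply', Mm_TmW hG _ h]
      exact zero_le

end Vale.Agent.P161.EP
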