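import Mathlib
import Vale.Agent.P161.EP.Defs

/-!
# Module B1 (Walsh): an equivariant orthogonal expansion of functions of the labels

Suggested proof: `h : (ℕ → Bool) → (ℕ → ℝ)` measurable, pushing the fair coin product measure to
`Pu ℕ` (compose the binary expansion with `Measure.exists_measurable_map_eq (Pu ℕ)`, see
`exists_labels`); `dec ω (v, k) = h (fun j => ω (v, j)) k`; `a f S = ∫ f (dec ω) χ_S(ω)` with the
Walsh functions `χ_S(ω) = ∏_{i ∈ S} spin (ω i)` of `V × ℕ → Bool`.  Orthonormality: flipping one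
coordinate.  Completeness: a function orthogonal to all `χ_S` has integral zero on all cylinders.
-/

open MeasureTheory ProbabilityTheory Filter Topology

namespace Vale.Agent.P161.EP

universe u

/-- fair coin on `Bool`. -/
noncomputable def WalshCoin : Measure Bool :=
  (2⁻¹ : ENNReal) • (Measure.dirac true + Measure.dirac false)

instance instProbWalshCoin : IsProbabilityMeasure WalshCoin := by
  constructor
  unfold WalshCoin
  simp only [Measure.smul_apply, Measure.add_apply, measure_univ, smul_eq_mul]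
  rw [show (1 : ENNReal) + 1 = 2 by norm_num]
  exact ENNReal.inv_mul_cancel (by norm_num) (by norm_num)

theorem WalshCoin_apply (s : Set Bool) :
    WalshCoin s = 2⁻¹ * (Measure.dirac true s + Measure.dirac false s) := by
  unfold WalshCoin
  rw [Measure.smul_apply, Measure.add_apply, smul_eq_mul]

theorem WalshCoin_map_not : WalshCoin.map not = WalshCoin := by
  ext s hs
  rw [Measure.map_apply (by fun_prop) hs, WalshCoin_apply, WalshCoin_apply]
  have h1 : Measure.dirac true (not ⁻¹' s) = Measure.dirac false s := by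
    rw [Measure.dirac_apply, Measure.dirac_apply]; rfl
  have h2 : Measure.dirac false (not ⁻¹' s) = Measure.dirac true s := by
    rw [Measure.dirac_apply, Measure.dirac_apply]; rfl
  rw [h1, h2, add_comm]

/-- product of fair coins. -/
noncomputable def WalshCn (ι : Type*) : Measure (ι → Bool) :=
  Measure.infinitePi fun _ : ι => WalshCoin

instance instProbWalshCn (ι : Type*) : IsProbabilityMeasure (WalshCn ι) := by
  unfold WalshCn
  infer_instance

/-- prepend a bit. -/
def Walshcons (b : Bool) (ω : ℕ → Bool) : ℕ → Bool := fun n => Nat.casesOn n b ω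

theorem measurable_Walshcons : Measurable (fun p : Bool × (ℕ → Bool) => Walshcons p.1 p.2) := by
  apply measurable_pi_lambda
  intro n
  cases n with
  | zero => exact measurable_fst
  | succ n => exact (measurable_pi_apply n).comp measurable_snd

theorem map_Walshcons :
    (WalshCoin.prod (WalshCn ℕ)).map (fun p => Walshcons p.1 p.2) = WalshCn ℕ := by
  unfold WalshCn
  apply Measure.eq_infinitePi
  intro s t ht
  classical
  rw [Measure.map_apply measurable_Walshcons (.pi s.countable_toSet fun _ _ => ht _)]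
  set s' : Finset ℕ := s.preimage Nat.succ Nat.succ_injective.injOn with hs'
  have hpre : (fun p : Bool × (ℕ → Bool) => Walshcons p.1 p.2) ⁻¹' ((s : Set ℕ).pi t) =
      (if 0 ∈ s then t 0 else Set.univ) ×ˢ ((s' : Set ℕ).pi (fun i => t (i + 1))) := by
    ext ⟨b, ω⟩
    simp only [Set.mem_preimage, Set.mem_pi, Set.mem_prod, Finset.mem_coe]
    constructor
    · intro h
      refine ⟨?_, fun i hi => ?_⟩
      · split_ifs with h0
        · exact h 0 h0
        · trivial
      · have : i + 1 ∈ s := by simpa [hs'] using hi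
        exact h (i + 1) this
    · rintro ⟨h1, h2⟩ i hi
      cases i with
      | zero => rw [if_pos hi] at h1; exact h1
      | succ i => exact h2 i (by simpa [hs'] using hi)
  rw [hpre, Measure.prod_prod, Measure.infinitePi_pi _ (fun i _ => ht _)]
  have hprod : ∏ i ∈ s, WalshCoin (t i) =
      (if 0 ∈ s then WalshCoin (t 0) else 1) * ∏ i ∈ s', WalshCoin (t (i + 1)) := by
    have e1 : ∏ i ∈ s', WalshCoin (t (i + 1)) = ∏ i ∈ s.filter (fun i => i ≠ 0), WalshCoin (t i) := by
      rw [← Finset.prod_image (s := s') (g := Nat.succ) (f := fun i => WalshCoin (t i))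
        (Nat.succ_injective.injOn)]
      congr 1
      ext i
      simp only [Finset.mem_image, Finset.mem_filter, hs', Finset.mem_preimage]
      constructor
      · rintro ⟨j, hj, rfl⟩; exact ⟨hj, Nat.succ_ne_zero j⟩
      · rintro ⟨hi, h0⟩
        obtain ⟨j, rfl⟩ := Nat.exists_eq_succ_of_ne_zero h0
        exact ⟨j, hi, rfl⟩
    rw [e1]
    by_cases h0 : 0 ∈ s
    · rw [if_pos h0, Finset.filter_ne']
      exact (Finset.mul_prod_erase s (fun i => WalshCoin (t i)) h0).symm
    · rw [if_neg h0, one_mul]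
      congr 1
      ext i
      simp only [Finset.mem_filter]
      constructor
      · intro hi; exact ⟨hi, fun h => h0 (h ▸ hi)⟩
      · exact fun h => h.1
  rw [hprod]
  congr 1
  split_ifs
  · rfl
  · exact measure_univ

theorem WalshCn_cons {S : Set (ℕ → Bool)} (hS : MeasurableSet S) :
    WalshCn ℕ S = 2⁻¹ * (WalshCn ℕ (Walshcons true ⁻¹' S) + WalshCn ℕ (Walshcons false ⁻¹' S)) := by
  conv_lhs => rw [← map_Walshcons]
  rw [Measure.map_apply measurable_Walshcons hS,
    Measure.prod_apply (measurable_Walshcons hS)]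
  unfold WalshCoin
  rw [lintegral_smul_measure, lintegral_add_measure, lintegral_dirac, lintegral_dirac]
  rfl

/-- value of a bit. -/
noncomputable def Walshbit (b : Bool) : ℝ := if b then 1 else 0

/-- the number with given binary digits. -/
noncomputable def Walshbeta (ω : ℕ → Bool) : ℝ := ∑' n, Walshbit (ω n) * (1 / 2) ^ (n + 1)

theorem Walshbit_nonneg (b : Bool) : 0 ≤ Walshbit b := by unfold Walshbit; split_ifs <;> norm_num
theorem Walshbit_le (b : Bool) : Walshbit b ≤ 1 := by unfold Walshbit; split_ifs <;> norm_num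

theorem Walsh_geom : HasSum (fun n : ℕ => ((1 : ℝ) / 2) ^ (n + 1)) 1 := by
  have h := hasSum_geometric_two
  have h2 := h.mul_left (1 / 2 : ℝ)
  have : (fun n : ℕ => (1 / 2 : ℝ) * (1 / 2) ^ n) = fun n : ℕ => ((1 : ℝ) / 2) ^ (n + 1) := by
    funext n; rw [pow_succ]; ring
  rw [this] at h2
  have h3 : (1 / 2 : ℝ) * 2 = 1 := by norm_num
  rw [h3] at h2
  exact h2

theorem Walsh_summable (ω : ℕ → Bool) : Summable fun n => Walshbit (ω n) * (1 / 2 : ℝ) ^ (n + 1) := by
  refine Summable.of_nonneg_of_le (fun n => ?_) (fun n => ?_) Walsh_geom.summable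
  · have := Walshbit_nonneg (ω n); positivity
  · have h1 := Walshbit_le (ω n)
    have h2 : (0 : ℝ) ≤ (1 / 2) ^ (n + 1) := by positivity
    nlinarith

theorem Walshbeta_nonneg (ω : ℕ → Bool) : 0 ≤ Walshbeta ω :=
  tsum_nonneg fun n => by have := Walshbit_nonneg (ω n); positivity

theorem Walshbeta_le (ω : ℕ → Bool) : Walshbeta ω ≤ 1 := by
  unfold Walshbeta
  refine le_trans (Summable.tsum_le_tsum (fun n => ?_) (Walsh_summable ω) Walsh_geom.summable)
    Walsh_geom.tsum_eq.le
  have h1 := Walshbit_le (ω n)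
  have h2 : (0 : ℝ) ≤ (1 / 2) ^ (n + 1) := by positivity
  nlinarith

theorem Walshbeta_cons (b : Bool) (ω : ℕ → Bool) :
    Walshbeta (Walshcons b ω) = (Walshbit b + Walshbeta ω) / 2 := by
  unfold Walshbeta
  rw [(Walsh_summable (Walshcons b ω)).tsum_eq_zero_add]
  have : (fun n => Walshbit (Walshcons b ω (n + 1)) * (1 / 2 : ℝ) ^ (n + 1 + 1))
      = fun n => (1 / 2 : ℝ) * (Walshbit (ω n) * (1 / 2) ^ (n + 1)) := by
    funext n
    have : Walshcons b ω (n + 1) = ω n := rfl
    rw [this, pow_succ]; ring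
  rw [this, tsum_mul_left]
  have : Walshcons b ω 0 = b := rfl
  rw [this]
  ring

theorem measurable_Walshbit : Measurable Walshbit := measurable_of_countable _

theorem measurable_Walshbeta : Measurable Walshbeta := by
  have h : Tendsto (fun (n : ℕ) (ω : ℕ → Bool) =>
      ∑ k ∈ Finset.range n, Walshbit (ω k) * (1 / 2 : ℝ) ^ (k + 1)) atTop (𝓝 Walshbeta) := by
    rw [tendsto_pi_nhds]
    intro ω
    exact (Walsh_summable ω).hasSum.tendsto_sum_nat
  have hm : ∀ n : ℕ, Measurable (fun (ω : ℕ → Bool) =>
      ∑ k ∈ Finset.range n, Walshbit (ω k) * (1 / 2 : ℝ) ^ (k + 1)) := by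
    intro n
    refine Finset.measurable_fun_sum _ fun k _ => ?_
    have h1 : Measurable fun ω : ℕ → Bool => Walshbit (ω k) :=
      measurable_Walshbit.comp (measurable_pi_apply k)
    exact h1.mul_const _
  exact measurable_of_tendsto_metrizable hm h

/-- distribution function of `beta`. -/
noncomputable def WalshF (x : ℝ) : ℝ := (WalshCn ℕ).real {ω | Walshbeta ω ≤ x}

theorem WalshF_rec (x : ℝ) : WalshF x = (WalshF (2 * x - 1) + WalshF (2 * x)) / 2 := by
  have hS : MeasurableSet {ω | Walshbeta ω ≤ x} := measurableSet_le measurable_Walshbeta measurable_const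
  unfold WalshF
  have h := WalshCn_cons hS
  have e1 : Walshcons true ⁻¹' {ω | Walshbeta ω ≤ x} = {ω | Walshbeta ω ≤ 2 * x - 1} := by
    ext ω
    simp only [Set.mem_preimage, Set.mem_ofPred_eq, Walshbeta_cons]
    have : Walshbit true = 1 := by simp [Walshbit]
    rw [this]
    constructor <;> intro h <;> linarith
  have e2 : Walshcons false ⁻¹' {ω | Walshbeta ω ≤ x} = {ω | Walshbeta ω ≤ 2 * x} := by
    ext ω
    simp only [Set.mem_preimage, Set.mem_ofPred_eq, Walshbeta_cons]
    have : Walshbit false = 0 := by simp [Walshbit]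
    rw [this]
    constructor <;> intro h <;> linarith
  rw [e1, e2] at h
  simp only [Measure.real]
  rw [h, ENNReal.toReal_mul, ENNReal.toReal_add (by finiteness) (by finiteness)]
  simp
  ring

theorem WalshF_neg (x : ℝ) (hx : x < 0) : WalshF x = 0 := by
  unfold WalshF
  have : {ω | Walshbeta ω ≤ x} = ∅ := by
    ext ω
    simp only [Set.mem_ofPred_eq, Set.mem_empty_iff_false, iff_false, not_le]
    exact lt_of_lt_of_le hx (Walshbeta_nonneg ω)
  rw [this]; simp

theorem WalshF_one (x : ℝ) (hx : 1 ≤ x) : WalshF x = 1 := by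
  unfold WalshF
  have : {ω | Walshbeta ω ≤ x} = Set.univ := by
    ext ω
    simp only [Set.mem_ofPred_eq, Set.mem_univ, iff_true]
    exact le_trans (Walshbeta_le ω) hx
  rw [this]; simp

theorem WalshF_approx (n : ℕ) : ∀ x : ℝ, 0 ≤ x → x ≤ 1 → |WalshF x - x| ≤ (1 / 2) ^ n := by
  induction n with
  | zero =>
    intro x h0 h1
    have h2 : 0 ≤ WalshF x := by unfold WalshF; positivity
    have h3 : WalshF x ≤ 1 := by unfold WalshF; exact measureReal_le_one
    rw [pow_zero, abs_le]; constructor <;> linarith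
  | succ n ih =>
    intro x h0 h1
    rw [WalshF_rec]
    by_cases hx : x < 1 / 2
    · rw [WalshF_neg (2 * x - 1) (by linarith)]
      have := ih (2 * x) (by linarith) (by linarith)
      have e : (0 + WalshF (2 * x)) / 2 - x = (1 / 2) * (WalshF (2 * x) - 2 * x) := by ring
      rw [e, abs_mul, pow_succ, mul_comm]
      have : |(1 / 2 : ℝ)| = 1 / 2 := by norm_num
      rw [this]
      nlinarith
    · rw [WalshF_one (2 * x) (by linarith)]
      have := ih (2 * x - 1) (by linarith) (by linarith)
      have e : (WalshF (2 * x - 1) + 1) / 2 - x = (1 / 2) * (WalshF (2 * x - 1) - (2 * x - 1)) := by ring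
      rw [e, abs_mul, pow_succ, mul_comm]
      have : |(1 / 2 : ℝ)| = 1 / 2 := by norm_num
      rw [this]
      nlinarith

theorem WalshF_eq (x : ℝ) (h0 : 0 ≤ x) (h1 : x ≤ 1) : WalshF x = x := by
  have h : ∀ n : ℕ, |WalshF x - x| ≤ (1 / 2) ^ n := fun n => WalshF_approx n x h0 h1
  have h2 : |WalshF x - x| ≤ 0 := by
    refine ge_of_tendsto' (tendsto_pow_atTop_nhds_zero_of_lt_one (r := (1 / 2 : ℝ)) (by norm_num) (by norm_num)) h
  have h3 := abs_nonpos_iff.mp h2
  linarith

/-- the uniform variable on `[-1,1]`. -/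
noncomputable def Walshu (ω : ℕ → Bool) : ℝ := 2 * Walshbeta ω - 1

theorem measurable_Walshu : Measurable Walshu := (measurable_Walshbeta.const_mul 2).sub_const 1

theorem map_Walshu : (WalshCn ℕ).map Walshu = unif := by
  have : IsProbabilityMeasure ((WalshCn ℕ).map Walshu) :=
    Measure.isProbabilityMeasure_map measurable_Walshu.aemeasurable
  apply Measure.ext_of_Iic
  intro y
  rw [Measure.map_apply measurable_Walshu measurableSet_Iic]
  have e1 : Walshu ⁻¹' (Set.Iic y) = {ω | Walshbeta ω ≤ (y + 1) / 2} := by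
    ext ω
    simp only [Set.mem_preimage, Set.mem_Iic, Set.mem_ofPred_eq, Walshu]
    constructor <;> intro h <;> linarith
  rw [e1]
  have e2 : WalshCn ℕ {ω | Walshbeta ω ≤ (y + 1) / 2} = ENNReal.ofReal (WalshF ((y + 1) / 2)) := by
    unfold WalshF
    rw [ofReal_measureReal]
  rw [e2]
  unfold unif
  rw [Measure.smul_apply, Measure.restrict_apply measurableSet_Iic, smul_eq_mul]
  have e3 : Set.Iic y ∩ Set.Icc (-1 : ℝ) 1 = Set.Icc (-1) (min y 1) := by
    ext z; simp only [Set.mem_inter_iff, Set.mem_Iic, Set.mem_Icc, le_min_iff]; tauto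
  rw [e3, Real.volume_Icc]
  have e4 : (2⁻¹ : ENNReal) = ENNReal.ofReal (2⁻¹) := by
    rw [ENNReal.ofReal_inv_of_pos (by norm_num)]; simp
  rw [e4, ← ENNReal.ofReal_mul (by norm_num)]
  rcases lt_or_ge y (-1) with h | h
  · rw [WalshF_neg _ (by linarith), min_eq_left (by linarith)]
    rw [ENNReal.ofReal_zero, eq_comm, ENNReal.ofReal_eq_zero]
    linarith
  · rcases le_or_gt y 1 with h' | h'
    · rw [WalshF_eq _ (by linarith) (by linarith), min_eq_left h']
      congr 1; ring
    · rw [WalshF_one _ (by linarith), min_eq_right h'.le]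
      norm_num


/-- from bits to labels. -/
noncomputable def Walshdec {V : Type u} (ω : V × ℕ → Bool) (e : V × ℕ) : ℝ :=
  Walshu (fun j => ω (e.1, Nat.pair e.2 j))

theorem measurable_Walshdec {V : Type u} : Measurable (Walshdec (V := V)) := by
  apply measurable_pi_lambda
  intro e
  exact measurable_Walshu.comp (measurable_pi_lambda _ fun j => measurable_pi_apply _)

theorem map_Walshdec (V : Type u) : (WalshCn (V × ℕ)).map Walshdec = Pu (V × ℕ) := by
  let φ : (V × ℕ) × ℕ → V × ℕ := fun q => (q.1.1, Nat.pair q.1.2 q.2)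
  have hφ : Function.Injective φ := by
    rintro ⟨⟨v, k⟩, j⟩ ⟨⟨v', k'⟩, j'⟩ h
    simp only [φ, Prod.mk.injEq, Nat.pair_eq_pair] at h
    obtain ⟨h1, h2, h3⟩ := h
    subst h1 h2 h3
    rfl
  have h1 : (WalshCn (V × ℕ)).map (fun ω i => ω (φ i)) = WalshCn ((V × ℕ) × ℕ) := by
    unfold WalshCn
    exact Measure.map_infinitePi_infinitePi_of_inj (P := fun _ : V × ℕ => WalshCoin) hφ
  have h2 : (WalshCn ((V × ℕ) × ℕ)).map (MeasurableEquiv.curry (V × ℕ) ℕ Bool) =
      Measure.infinitePi fun _ : V × ℕ => WalshCn ℕ := by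
    unfold WalshCn
    exact Measure.infinitePi_map_curry (fun (_ : V × ℕ) (_ : ℕ) => WalshCoin)
  have h3 : (Measure.infinitePi fun _ : V × ℕ => WalshCn ℕ).map (fun x i => Walshu (x i)) =
      Pu (V × ℕ) := by
    rw [Measure.infinitePi_map_pi (fun _ : V × ℕ => WalshCn ℕ) (f := fun _ => Walshu)
      (fun _ => measurable_Walshu)]
    unfold Pu
    simp only [map_Walshu]
  have m1 : Measurable (fun (ω : V × ℕ → Bool) (i : (V × ℕ) × ℕ) => ω (φ i)) :=
    measurable_pi_lambda _ fun i => measurable_pi_apply _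
  have m2 : Measurable (MeasurableEquiv.curry (V × ℕ) ℕ Bool) :=
    (MeasurableEquiv.curry (V × ℕ) ℕ Bool).measurable
  have m3 : Measurable (fun (x : V × ℕ → ℕ → Bool) (i : V × ℕ) => Walshu (x i)) :=
    measurable_pi_lambda _ fun i => measurable_Walshu.comp (measurable_pi_apply i)
  rw [← h3, ← h2, ← h1, Measure.map_map m2 m1, Measure.map_map m3 (m2.comp m1)]
  rfl

/-- sign of a bit. -/
noncomputable def Walshsp (b : Bool) : ℝ := if b then 1 else -1

theorem Walshsp_sq (b : Bool) : Walshsp b * Walshsp b = 1 := by cases b <;> simp [Walshsp]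

theorem Walshsp_not (b : Bool) : Walshsp (!b) = -Walshsp b := by cases b <;> simp [Walshsp]

theorem abs_Walshsp (b : Bool) : |Walshsp b| = 1 := by cases b <;> simp [Walshsp]

theorem measurable_Walshsp : Measurable Walshsp := measurable_of_countable _

/-- Walsh functions. -/
noncomputable def Walshchi {ι : Type*} (S : Finset ι) (ω : ι → Bool) : ℝ := ∏ i ∈ S, Walshsp (ω i)

theorem measurable_Walshchi {ι : Type*} (S : Finset ι) : Measurable (Walshchi S) := by
  unfold Walshchi
  refine Finset.measurable_fun_prod _ fun i _ => ?_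
  exact measurable_Walshsp.comp (measurable_pi_apply i)

theorem abs_Walshchi {ι : Type*} (S : Finset ι) (ω : ι → Bool) : |Walshchi S ω| = 1 := by
  unfold Walshchi
  rw [Finset.abs_prod]
  exact Finset.prod_eq_one fun i _ => abs_Walshsp _

theorem Walshchi_sq {ι : Type*} (S : Finset ι) (ω : ι → Bool) :
    Walshchi S ω * Walshchi S ω = 1 := by
  unfold Walshchi
  rw [← Finset.prod_mul_distrib]
  exact Finset.prod_eq_one fun i _ => Walshsp_sq _

open Classical in
/-- flip one coordinate. -/
noncomputable def Walshflip {ι : Type*} (i : ι) (ω : ι → Bool) : ι → Bool :=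
  fun j => (if j = i then not else id) (ω j)

theorem measurable_Walshflip {ι : Type*} (i : ι) : Measurable (Walshflip i) := by
  apply measurable_pi_lambda
  intro j
  exact (measurable_of_countable _).comp (measurable_pi_apply j)

theorem map_Walshflip {ι : Type*} (i : ι) : (WalshCn ι).map (Walshflip i) = WalshCn ι := by
  classical
  unfold WalshCn
  have h := Measure.infinitePi_map_pi (fun _ : ι => WalshCoin)
    (f := fun j : ι => if j = i then not else id) (fun j => measurable_of_countable _)
  have h2 : (fun j : ι => WalshCoin.map (if j = i then not else id)) = fun _ => WalshCoin := by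
    funext j
    by_cases hj : j = i
    · rw [if_pos hj]; exact WalshCoin_map_not
    · rw [if_neg hj]; exact Measure.map_id
  simp only [h2] at h
  convert h using 2
  funext ω j
  unfold Walshflip
  congr

open Classical in
theorem Walshchi_flip {ι : Type*} (S : Finset ι) (i : ι) (ω : ι → Bool) :
    Walshchi S (Walshflip i ω) = (if i ∈ S then -1 else 1) * Walshchi S ω := by
  unfold Walshchi
  have h : ∀ j, Walshsp (Walshflip i ω j) = (if j = i then -1 else 1) * Walshsp (ω j) := by
    intro j
    unfold Walshflip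
    by_cases hj : j = i
    · rw [if_pos hj, if_pos hj, Walshsp_not]; ring
    · rw [if_neg hj, if_neg hj, one_mul]; rfl
  simp only [h]
  rw [Finset.prod_mul_distrib]
  congr 1
  rw [Finset.prod_ite_eq' S i (fun _ => (-1 : ℝ))]

theorem Walsh_bdd_integrable {ι : Type*} {F : (ι → Bool) → ℝ} (hF : Measurable F) {B : ℝ}
    (hB : ∀ ω, |F ω| ≤ B) : Integrable F (WalshCn ι) :=
  Integrable.of_bound hF.aestronglyMeasurable B (Eventually.of_forall hB)

open Classical in
theorem Walsh_orth {ι : Type*} (S T : Finset ι) :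
    ∫ ω, Walshchi S ω * Walshchi T ω ∂(WalshCn ι) = if S = T then 1 else 0 := by
  by_cases h : S = T
  · subst h
    simp only [Walshchi_sq, if_true]
    simp
  · rw [if_neg h]
    obtain ⟨i, hi⟩ : ∃ i, ¬ (i ∈ S ↔ i ∈ T) := by
      by_contra hh
      push Not at hh
      exact h (Finset.ext hh)
    have hm : Measurable fun ω => Walshchi S ω * Walshchi T ω :=
      (measurable_Walshchi S).mul (measurable_Walshchi T)
    have h1 : ∫ ω, Walshchi S ω * Walshchi T ω ∂(WalshCn ι) =
        ∫ ω, Walshchi S (Walshflip i ω) * Walshchi T (Walshflip i ω) ∂(WalshCn ι) := by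
      conv_lhs => rw [← map_Walshflip i]
      exact integral_map (measurable_Walshflip i).aemeasurable hm.aestronglyMeasurable
    have h2 : ∀ ω, Walshchi S (Walshflip i ω) * Walshchi T (Walshflip i ω) =
        - (Walshchi S ω * Walshchi T ω) := by
      intro ω
      rw [Walshchi_flip, Walshchi_flip]
      by_cases hS : i ∈ S
      · have hT : i ∉ T := fun hT => hi ⟨fun _ => hT, fun _ => hS⟩
        rw [if_pos hS, if_neg hT]; ring
      · have hT : i ∈ T := by
          by_contra hT
          exact hi ⟨fun h => absurd h hS, fun h => absurd h hT⟩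
        rw [if_neg hS, if_pos hT]; ring
    simp only [h2] at h1
    rw [integral_neg] at h1
    linarith

theorem Walsh_atom {ι : Type*} (s : Finset ι) (b : ι → Bool) (ω : ι → Bool) :
    (∏ i ∈ s, (1 + Walshsp (b i) * Walshsp (ω i))) =
      ∑ t ∈ s.powerset, (∏ i ∈ t, Walshsp (b i)) * Walshchi t ω := by
  rw [Finset.prod_one_add]
  refine Finset.sum_congr rfl fun t _ => ?_
  rw [Finset.prod_mul_distrib]
  rfl

open Classical in
theorem Walsh_atom_eq {ι : Type*} (s : Finset ι) (b : ι → Bool) (ω : ι → Bool) :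
    (if ∀ i ∈ s, ω i = b i then (1 : ℝ) else 0) =
      (1 / 2) ^ s.card * ∏ i ∈ s, (1 + Walshsp (b i) * Walshsp (ω i)) := by
  have h : ∀ i, (1 / 2 : ℝ) * (1 + Walshsp (b i) * Walshsp (ω i)) = if ω i = b i then 1 else 0 := by
    intro i
    cases b i <;> cases ω i <;> simp [Walshsp] <;> norm_num
  rw [← Finset.prod_const, ← Finset.prod_mul_distrib]
  simp only [h]
  by_cases hh : ∀ i ∈ s, ω i = b i
  · rw [if_pos hh]
    exact (Finset.prod_eq_one fun i hi => by rw [if_pos (hh i hi)]).symm
  · rw [if_neg hh]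
    push Not at hh
    obtain ⟨i, hi, hne⟩ := hh
    exact (Finset.prod_eq_zero hi (by rw [if_neg hne])).symm

theorem Walsh_complete {ι : Type*} {F : (ι → Bool) → ℝ} (hF : Integrable F (WalshCn ι))
    (h0 : ∀ S : Finset ι, ∫ ω, Walshchi S ω * F ω ∂(WalshCn ι) = 0) : F =ᵐ[WalshCn ι] 0 := by
  classical
  have hchi : ∀ S : Finset ι, Integrable (fun ω => Walshchi S ω * F ω) (WalshCn ι) := by
    intro S
    refine hF.bdd_mul (c := 1) (measurable_Walshchi S).aestronglyMeasurable
      (Eventually.of_forall fun ω => ?_)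
    rw [Real.norm_eq_abs, abs_Walshchi]
  -- atoms
  have hatom : ∀ (s : Finset ι) (b : ι → Bool),
      Integrable (fun ω => (if ∀ i ∈ s, ω i = b i then (1 : ℝ) else 0) * F ω) (WalshCn ι) ∧
      ∫ ω, (if ∀ i ∈ s, ω i = b i then (1 : ℝ) else 0) * F ω ∂(WalshCn ι) = 0 := by
    intro s b
    have e : (fun ω => (if ∀ i ∈ s, ω i = b i then (1 : ℝ) else 0) * F ω) =
        fun ω => ∑ t ∈ s.powerset, ((1 / 2) ^ s.card * (∏ i ∈ t, Walshsp (b i))) *
          (Walshchi t ω * F ω) := by
      funext ω
      rw [Walsh_atom_eq, Walsh_atom, Finset.mul_sum, Finset.sum_mul]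
      refine Finset.sum_congr rfl fun t _ => ?_
      ring
    rw [e]
    refine ⟨integrable_finsetSum _ fun t _ => (hchi t).const_mul _, ?_⟩
    rw [integral_finsetSum _ fun t _ => (hchi t).const_mul _]
    refine Finset.sum_eq_zero fun t _ => ?_
    rw [integral_const_mul, h0 t, mul_zero]
  have hset : ∀ A : Set (ι → Bool), MeasurableSet A → ∫ ω in A, F ω ∂(WalshCn ι) = 0 := by
    intro A hA
    have htot : ∫ ω, F ω ∂(WalshCn ι) = 0 := by
      have := h0 ∅
      simpa [Walshchi] using this
    induction A, hA using MeasurableSpace.induction_on_inter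
      (generateFrom_measurableCylinders (α := fun _ : ι => Bool)).symm
      isPiSystem_measurableCylinders with
    | empty => simp
    | basic A hA =>
      have hmeas := MeasurableSet.of_mem_measurableCylinders hA
      obtain ⟨s, T, hT, rfl⟩ := (mem_measurableCylinders A).mp hA
      rw [← integral_indicator hmeas]
      obtain ⟨bb, hbb⟩ : ∃ bb : (s → Bool) → ι → Bool, ∀ b ω,
          (∀ i ∈ s, ω i = bb b i) ↔ s.restrict ω = b := by
        refine ⟨fun b j => if h : j ∈ s then b ⟨j, h⟩ else false, fun b ω => ?_⟩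
        constructor
        · intro h
          funext ⟨i, hi⟩
          have := h i hi
          simp only [hi, dif_pos] at this
          exact this
        · intro h i hi
          rw [← h]
          simp [hi]
      have e : (cylinder s T).indicator F = fun ω => ∑ b ∈ T.toFinset,
          (if ∀ i ∈ s, ω i = bb b i then (1 : ℝ) else 0) * F ω := by
        funext ω
        by_cases hω : ω ∈ cylinder s T
        · rw [Set.indicator_of_mem hω, Finset.sum_eq_single (s.restrict ω)]
          · rw [if_pos ((hbb _ _).mpr rfl), one_mul]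
          · intro b _ hne
            rw [if_neg (fun h => hne ((hbb _ _).mp h).symm)]; ring
          · intro h
            exfalso
            apply h
            rw [Set.mem_toFinset]
            exact hω
        · rw [Set.indicator_of_notMem hω]
          refine (Finset.sum_eq_zero fun b hb' => ?_).symm
          rw [if_neg, zero_mul]
          intro h
          apply hω
          rw [Set.mem_toFinset, ← (hbb _ _).mp h] at hb'
          exact hb'
      rw [e]
      refine (integral_finsetSum T.toFinset fun b _ => (hatom s (bb b)).1).trans ?_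
      exact Finset.sum_eq_zero fun b _ => (hatom s (bb b)).2
    | compl A hA ih =>
      have := integral_add_compl hA hF
      linarith
    | iUnion f hd hm ih =>
      have := hasSum_integral_iUnion hm hd hF.integrableOn
      simp only [ih] at this
      exact (this.unique hasSum_zero)
  exact hF.ae_eq_zero_of_forall_setIntegral_eq_zero fun A hA _ => hset A hA


theorem Walsh_memLp {ι : Type*} {F : (ι → Bool) → ℝ} (hF : Measurable F) {B : ℝ}
    (hB : ∀ ω, |F ω| ≤ B) : MemLp F 2 (WalshCn ι) :=
  MemLp.of_bound hF.aestronglyMeasurable B (Eventually.of_forall hB)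

theorem Walsh_inner {ι : Type*} {F G : (ι → Bool) → ℝ} (hF : MemLp F 2 (WalshCn ι))
    (hG : MemLp G 2 (WalshCn ι)) :
    (inner ℝ (hF.toLp F) (hG.toLp G) : ℝ) = ∫ ω, F ω * G ω ∂(WalshCn ι) := by
  rw [L2.inner_def]
  refine integral_congr_ae ?_
  filter_upwards [hF.coeFn_toLp, hG.coeFn_toLp] with ω h1 h2
  rw [h1, h2, mul_comm]
  rfl

theorem Walsh_parseval {ι : Type*} {F : (ι → Bool) → ℝ} (hF : Measurable F) {B : ℝ}
    (hB : ∀ ω, |F ω| ≤ B) :
    HasSum (fun S : Finset ι => (∫ ω, F ω * Walshchi S ω ∂(WalshCn ι)) ^ 2)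
      (∫ ω, F ω ^ 2 ∂(WalshCn ι)) := by
  classical
  have hc : ∀ S : Finset ι, MemLp (Walshchi S) 2 (WalshCn ι) := fun S =>
    Walsh_memLp (measurable_Walshchi S) (fun ω => (abs_Walshchi S ω).le)
  have hFm := Walsh_memLp hF hB
  set e : Finset ι → Lp ℝ 2 (WalshCn ι) := fun S => (hc S).toLp (Walshchi S) with he
  have ho : Orthonormal ℝ e := by
    rw [orthonormal_iff_ite]
    intro S T
    rw [he]
    simp only
    rw [Walsh_inner, Walsh_orth]
  have hbot : (Submodule.span ℝ (Set.range e))ᗮ = ⊥ := by
    rw [Submodule.eq_bot_iff]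
    intro x hx
    rw [Submodule.mem_orthogonal] at hx
    have hx2 : MemLp x 2 (WalshCn ι) := Lp.memLp x
    have hxi : Integrable x (WalshCn ι) := hx2.integrable (by norm_num)
    have h0 : ∀ S : Finset ι, ∫ ω, Walshchi S ω * x ω ∂(WalshCn ι) = 0 := by
      intro S
      have h1 := hx (e S) (Submodule.subset_span ⟨S, rfl⟩)
      have h2 := Walsh_inner (hc S) hx2
      rw [Lp.toLp_coeFn] at h2
      rw [← h2]
      exact h1
    have h3 := Walsh_complete hxi h0
    exact (Lp.eq_zero_iff_ae_eq_zero).mpr h3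
  let b := HilbertBasis.mkOfOrthogonalEqBot ho hbot
  have h := b.hasSum_inner_mul_inner (hFm.toLp F) (hFm.toLp F)
  have hb : ∀ S, b S = e S := fun S => by
    simp [b]
  have h2 : (fun S => (inner ℝ (hFm.toLp F) (b S) : ℝ) * inner ℝ (b S) (hFm.toLp F)) =
      fun S : Finset ι => (∫ ω, F ω * Walshchi S ω ∂(WalshCn ι)) ^ 2 := by
    funext S
    rw [hb, he]
    simp only
    rw [Walsh_inner, Walsh_inner, sq]
    congr 1
    refine integral_congr_ae (Eventually.of_forall fun ω => ?_)
    exact mul_comm _ _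
  rw [h2, Walsh_inner] at h
  have h3 : ∫ ω, F ω ^ 2 ∂(WalshCn ι) = ∫ ω, F ω * F ω ∂(WalshCn ι) := by
    congr 1
    funext ω
    exact sq _
  rw [h3]
  exact h

variable {V : Type u}

/-- Bounded measurable functions of the labels. -/
def BM (f : (V × ℕ → ℝ) → ℝ) : Prop := Measurable f ∧ ∃ B, ∀ om, |f om| ≤ B

open Classical in
theorem exists_walsh (V : Type u) [Countable V] :
    ∃ a : ((V × ℕ → ℝ) → ℝ) → Finset (V × ℕ) → ℝ,
      (∀ f g, BM f → BM g → ∀ S, a (fun om => f om + g om) S = a f S + a g S) ∧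
      (∀ f, BM f → ∀ c S, a (fun om => c * f om) S = c * a f S) ∧
      (∀ f, BM f → HasSum (fun S => a f S ^ 2) (∫ om, f om ^ 2 ∂(Pu (V × ℕ)))) ∧
      (∀ f, BM f → a f ∅ = ∫ om, f om ∂(Pu (V × ℕ))) ∧
      (∀ f, BM f → ∀ (σ : V ≃ V) S, a (fun om => f (fun e => om (σ.symm e.1, e.2))) S =
        a f (S.map (Equiv.prodCongr σ (Equiv.refl ℕ)).toEmbedding)) := by
  refine ⟨fun f S => ∫ ω, f (Walshdec ω) * Walshchi S ω ∂(WalshCn (V × ℕ)), ?_, ?_, ?_, ?_, ?_⟩
  · rintro f g ⟨hf, B, hB⟩ ⟨hg, B', hB'⟩ S
    have hi : ∀ f : (V × ℕ → ℝ) → ℝ, Measurable f → (∃ B, ∀ om, |f om| ≤ B) →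
        Integrable (fun ω => f (Walshdec ω) * Walshchi S ω) (WalshCn (V × ℕ)) := by
      rintro f hf ⟨B, hB⟩
      refine Walsh_bdd_integrable ((hf.comp measurable_Walshdec).mul (measurable_Walshchi S))
        (B := B) fun ω => ?_
      rw [abs_mul, abs_Walshchi, mul_one]
      exact hB _
    simp only [add_mul]
    exact integral_add (hi f hf ⟨B, hB⟩) (hi g hg ⟨B', hB'⟩)
  · rintro f ⟨hf, B, hB⟩ c S
    simp only [mul_assoc]
    exact integral_const_mul c (fun ω => f (Walshdec ω) * Walshchi S ω)
  · rintro f ⟨hf, B, hB⟩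
    have h := Walsh_parseval (F := fun ω => f (Walshdec ω)) (hf.comp measurable_Walshdec)
      (B := B) (fun ω => hB _)
    convert h using 1
    rw [← map_Walshdec, integral_map measurable_Walshdec.aemeasurable
      (hf.pow_const 2).aestronglyMeasurable]
  · rintro f ⟨hf, B, hB⟩
    rw [← map_Walshdec, integral_map measurable_Walshdec.aemeasurable hf.aestronglyMeasurable]
    simp [Walshchi]
  · rintro f ⟨hf, B, hB⟩ σ S
    simp only
    set τ : V × ℕ → V × ℕ := fun e => (σ e.1, e.2) with hτ
    have hinj : Function.Injective τ := by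
      rintro ⟨v, k⟩ ⟨v', k'⟩ h
      simp only [hτ, Prod.mk.injEq] at h
      exact Prod.ext (σ.injective h.1) h.2
    have hmap : (WalshCn (V × ℕ)).map (fun ω i => ω (τ i)) = WalshCn (V × ℕ) := by
      unfold WalshCn
      exact Measure.map_infinitePi_infinitePi_of_inj (P := fun _ : V × ℕ => WalshCoin) hinj
    have mτ : Measurable (fun (ω : V × ℕ → Bool) (i : V × ℕ) => ω (τ i)) :=
      measurable_pi_lambda _ fun i => measurable_pi_apply _
    have mact : Measurable (fun (om : V × ℕ → ℝ) (e : V × ℕ) => om (σ.symm e.1, e.2)) :=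
      measurable_pi_lambda _ fun i => measurable_pi_apply _
    have hm : Measurable (fun ω : V × ℕ → Bool =>
        f (fun e => Walshdec ω (σ.symm e.1, e.2)) * Walshchi S ω) :=
      ((hf.comp mact).comp measurable_Walshdec).mul (measurable_Walshchi S)
    conv_lhs => rw [← hmap]
    rw [integral_map mτ.aemeasurable hm.aestronglyMeasurable]
    refine integral_congr_ae (Eventually.of_forall fun ω => ?_)
    simp only
    have e1 : (fun e : V × ℕ => Walshdec (fun i => ω (τ i)) (σ.symm e.1, e.2)) = Walshdec ω := by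
      funext e
      unfold Walshdec
      simp [hτ]
    have e2 : Walshchi S (fun i => ω (τ i)) =
        Walshchi (S.map (Equiv.prodCongr σ (Equiv.refl ℕ)).toEmbedding) ω := by
      unfold Walshchi
      rw [Finset.prod_map]
      rfl
    rw [e1, e2]

end Vale.Agent.P161.EP
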