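import Mathlib
import Vale.Agent.P161.EP.Defs
import Vale.Agent.P161.EP.Trans
import Vale.Agent.P161.EP.TempA
import Vale.Agent.P161.EP.Walsh

/-!
# Module B2 (Tempered): the tempered bound for factors of IID

Proof.  `α S x y = a (f x y) S` (Walsh coefficients), `T = NB True`; `a (N^k f x y) S =
b^{-k} T^k (α S) x y`.  `T^k (α ∅) = 0` on darts; for `S ≠ ∅` average `point_ineq` over the vertices
`o` of `S` (weight `wS S o`), sum over `S` and use `mass_bound` for
`W x y o = ∑_S wS S o (α S x y)²`.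
-/

open MeasureTheory

open scoped ENNReal

namespace Vale.Agent.P161.EP

universe u

variable {V : Type u} {G : SimpleGraph V} [G.LocallyFinite]

theorem isFam_Nop (hG : G.IsTree) {b : ℕ} (hd : G.IsRegularOfDegree (b + 1))
    {f : V → V → (V × ℕ → ℝ) → ℝ} (hf : IsFam G f) : IsFam G (Nop G b f) := by
  classical
  obtain ⟨B, hB⟩ := hf.bdd
  refine ⟨fun x y => ?_, ⟨(b : ℝ)⁻¹ * ((b + 1) * |B|), fun x y om => ?_⟩, fun g x y om => ?_⟩
  · unfold Nop nsum
    refine Measurable.const_mul (Finset.measurable_fun_sum _ fun z _ => ?_) _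
    split_ifs
    · exact measurable_const
    · exact hf.meas y z
  · unfold Nop nsum
    rw [abs_mul, abs_of_nonneg (by positivity : (0 : ℝ) ≤ (b : ℝ)⁻¹)]
    refine mul_le_mul_of_nonneg_left ?_ (by positivity)
    refine (Finset.abs_sum_le_sum_abs _ _).trans ?_
    refine (Finset.sum_le_sum (g := fun _ => |B|) fun z _ => ?_).trans ?_
    · split_ifs
      · simp
      · exact (hB y z om).trans (le_abs_self B)
    · rw [Finset.sum_const, SimpleGraph.card_neighborFinset_eq_degree, hd y, nsmul_eq_mul]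
      push_cast
      exact le_rfl
  · unfold Nop nsum
    rw [sum_nbr_iso]
    congr 1
    refine Finset.sum_congr rfl fun z _ => ?_
    simp only [hf.equiv g, EmbeddingLike.apply_eq_iff_eq]

theorem isFam_iter (hG : G.IsTree) {b : ℕ} (hd : G.IsRegularOfDegree (b + 1))
    {f : V → V → (V × ℕ → ℝ) → ℝ} (hf : IsFam G f) (k : ℕ) : IsFam G ((Nop G b)^[k] f) := by
  induction k with
  | zero => exact hf
  | succ k ih =>
    rw [Function.iterate_succ_apply']
    exact isFam_Nop hG hd ih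

theorem IsFam.bm {f : V → V → (V × ℕ → ℝ) → ℝ} (hf : IsFam G f) (x y : V) : BM (f x y) := by
  obtain ⟨B, hB⟩ := hf.bdd
  exact ⟨hf.meas x y, B, fun om => hB x y om⟩

/-- Coefficients of a sum. -/
theorem coef_sum {a : ((V × ℕ → ℝ) → ℝ) → Finset (V × ℕ) → ℝ}
    (h1 : ∀ f g, BM f → BM g → ∀ S, a (fun om => f om + g om) S = a f S + a g S)
    (h2 : ∀ f, BM f → ∀ c S, a (fun om => c * f om) S = c * a f S)
    {ι : Type*} (s : Finset ι) (F : ι → (V × ℕ → ℝ) → ℝ) (hF : ∀ i, BM (F i))
    (S : Finset (V × ℕ)) :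
    BM (fun om => ∑ i ∈ s, F i om) ∧ a (fun om => ∑ i ∈ s, F i om) S = ∑ i ∈ s, a (F i) S := by
  classical
  have hz : BM (fun _ : V × ℕ → ℝ => (0 : ℝ)) := ⟨measurable_const, 0, fun _ => by simp⟩
  induction s using Finset.induction_on with
  | empty =>
    simp only [Finset.sum_empty]
    refine ⟨hz, ?_⟩
    have h3 := h2 _ hz 0 S
    simpa using h3
  | insert i s hi ih =>
    obtain ⟨ih1, ih2⟩ := ih
    have e : (fun om => ∑ j ∈ insert i s, F j om) =
        fun om => F i om + ∑ j ∈ s, F j om := by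
      funext om
      rw [Finset.sum_insert hi]
    obtain ⟨hm, B, hB⟩ := hF i
    obtain ⟨hm', B', hB'⟩ := ih1
    refine ⟨?_, ?_⟩
    · rw [e]
      exact ⟨hm.add hm', B + B', fun om => (abs_add_le _ _).trans (add_le_add (hB om) (hB' om))⟩
    · rw [e, h1 _ _ ⟨hm, B, hB⟩ ⟨hm', B', hB'⟩, ih2, Finset.sum_insert hi]

theorem coef_Nop {b : ℕ} {a : ((V × ℕ → ℝ) → ℝ) → Finset (V × ℕ) → ℝ}
    (h1 : ∀ f g, BM f → BM g → ∀ S, a (fun om => f om + g om) S = a f S + a g S)
    (h2 : ∀ f, BM f → ∀ c S, a (fun om => c * f om) S = c * a f S)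
    {f : V → V → (V × ℕ → ℝ) → ℝ} (hf : IsFam G f) (x y : V) (S : Finset (V × ℕ)) :
    a (Nop G b f x y) S =
      (b : ℝ)⁻¹ * NB G (fun _ _ => True) (fun x y => a (f x y) S) x y := by
  classical
  have hz : BM (fun _ : V × ℕ → ℝ => (0 : ℝ)) := ⟨measurable_const, 0, fun _ => by simp⟩
  have hz0 : a (fun _ : V × ℕ → ℝ => (0 : ℝ)) S = 0 := by
    have h3 := h2 _ hz 0 S
    simpa using h3
  have h3 := coef_sum h1 h2 (G.neighborFinset y)
    (fun z om => if z = x then 0 else f y z om) (fun z => by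
      by_cases hzx : z = x
      · simp only [if_pos hzx]
        exact hz
      · simp only [if_neg hzx]
        exact hf.bm y z) S
  have e1 : Nop G b f x y = fun om => (b : ℝ)⁻¹ *
      ∑ z ∈ G.neighborFinset y, if z = x then 0 else f y z om := rfl
  rw [e1, h2 _ h3.1, h3.2]
  congr 1
  unfold NB
  refine Finset.sum_congr rfl fun z _ => ?_
  by_cases hzx : z = x
  · simp only [if_pos hzx]
    exact hz0
  · simp only [if_neg hzx, if_true]

theorem coef_iter (hG : G.IsTree) {b : ℕ} (hd : G.IsRegularOfDegree (b + 1))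
    {a : ((V × ℕ → ℝ) → ℝ) → Finset (V × ℕ) → ℝ}
    (h1 : ∀ f g, BM f → BM g → ∀ S, a (fun om => f om + g om) S = a f S + a g S)
    (h2 : ∀ f, BM f → ∀ c S, a (fun om => c * f om) S = c * a f S)
    {f : V → V → (V × ℕ → ℝ) → ℝ} (hf : IsFam G f) (k : ℕ) (x y : V) (S : Finset (V × ℕ)) :
    a ((Nop G b)^[k] f x y) S =
      ((b : ℝ)⁻¹) ^ k * (NB G (fun _ _ => True))^[k] (fun x y => a (f x y) S) x y := by
  induction k generalizing x y with
  | zero => simp
  | succ k ih =>
    rw [Function.iterate_succ_apply', Function.iterate_succ_apply',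
      coef_Nop h1 h2 (isFam_iter hG hd hf k), pow_succ', mul_assoc]
    congr 1
    rw [← NB_mul]
    exact NB_congr (R := ℝ) fun z _ _ _ => ih y z

theorem NB_nonneg {P : V → V → Prop} {φ : V → V → ℝ} (h : ∀ x y, 0 ≤ φ x y) (x y : V) :
    0 ≤ NB G P φ x y := by
  unfold NB
  refine Finset.sum_nonneg fun z _ => ?_
  split_ifs
  · exact le_rfl
  · exact h y z
  · exact le_rfl

theorem iter_nonneg {P : V → V → Prop} {φ : V → V → ℝ} (h : ∀ x y, 0 ≤ φ x y) (m : ℕ)
    (x y : V) : 0 ≤ (NB G P)^[m] φ x y := by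
  induction m generalizing x y with
  | zero => exact h x y
  | succ m ih =>
    rw [Function.iterate_succ_apply']
    exact NB_nonneg ih x y

/-- The operators commute with series. -/
theorem NB_tsum {P : V → V → Prop} {ι : Type*} {c : ι → ℝ} (hc : ∀ i, 0 ≤ c i)
    {φ : ι → V → V → ℝ} (hφ : ∀ i x y, 0 ≤ φ i x y) (x y : V) :
    NB G P (fun x y => ∑' i, ENNReal.ofReal (c i * φ i x y)) x y =
      ∑' i, ENNReal.ofReal (c i * NB G P (φ i) x y) := by
  classical
  unfold NB
  have e1 : ∀ i, ENNReal.ofReal (c i * ∑ z ∈ G.neighborFinset y,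
      (if z = x then 0 else if P y z then φ i y z else 0)) =
      ∑ z ∈ G.neighborFinset y, (if z = x then 0 else if P y z then
        ENNReal.ofReal (c i * φ i y z) else 0) := by
    intro i
    rw [Finset.mul_sum, ENNReal.ofReal_sum_of_nonneg]
    · refine Finset.sum_congr rfl fun z _ => ?_
      split_ifs <;> simp
    · intro z _
      refine mul_nonneg (hc i) ?_
      split_ifs
      · exact le_rfl
      · exact hφ i y z
      · exact le_rfl
  simp only [e1]
  rw [Summable.tsum_finsetSum (fun _ _ => ENNReal.summable)]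
  refine Finset.sum_congr rfl fun z _ => ?_
  split_ifs <;> simp

theorem iter_tsum (W : V → V → V → ℝ≥0∞) {ι : Type*} {c : ι → V → ℝ} (hc : ∀ i o, 0 ≤ c i o)
    {φ : ι → V → V → ℝ} (hφ : ∀ i x y, 0 ≤ φ i x y)
    (hW : ∀ x y o, W x y o = ∑' i, ENNReal.ofReal (c i o * φ i x y)) (j m : ℕ) (x y o : V) :
    (TmW G)^[j] ((TpW G)^[m] W) x y o =
      ∑' i, ENNReal.ofReal (c i o * (NB G (Tow G o))^[j] ((NB G (Awa G o))^[m] (φ i)) x y) := by
  have hp : ∀ m x y o, (TpW G)^[m] W x y o =
      ∑' i, ENNReal.ofReal (c i o * (NB G (Awa G o))^[m] (φ i) x y) := by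
    intro m
    induction m with
    | zero => exact hW
    | succ m ih =>
      intro x y o
      rw [Function.iterate_succ_apply']
      unfold TpW
      simp only [Function.iterate_succ_apply']
      rw [← NB_tsum (fun i => hc i o) (fun i => iter_nonneg (hφ i) m)]
      refine NB_congr fun z _ _ _ => ?_
      exact ih y z o
  induction j generalizing x y o with
  | zero => exact hp m x y o
  | succ j ih =>
    rw [Function.iterate_succ_apply']
    unfold TmW
    simp only [Function.iterate_succ_apply']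
    rw [← NB_tsum (fun i => hc i o)
      (fun i => iter_nonneg (fun x y => iter_nonneg (hφ i) m x y) j)]
    refine NB_congr fun z _ _ _ => ?_
    exact ih y z o

open Classical in
/-- The weight of the vertex `o` in `S`. -/
noncomputable def wS (S : Finset (V × ℕ)) (o : V) : ℝ :=
  ((S.filter fun e => e.1 = o).card : ℝ) / S.card

theorem wS_nonneg (S : Finset (V × ℕ)) (o : V) : 0 ≤ wS S o := by
  unfold wS
  positivity

theorem tsum_wS {S : Finset (V × ℕ)} (hS : S.Nonempty) :
    ∑' o, ENNReal.ofReal (wS S o) = 1 := by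
  classical
  have hc : (0 : ℝ) < S.card := by exact_mod_cast hS.card_pos
  rw [tsum_eq_sum (s := S.image Prod.fst)]
  · rw [← ENNReal.ofReal_sum_of_nonneg (fun o _ => wS_nonneg S o)]
    unfold wS
    rw [← Finset.sum_div, ← Nat.cast_sum]
    have h1 := Finset.card_eq_sum_card_image (Prod.fst : V × ℕ → V) S
    have h2 : ∑ o ∈ S.image Prod.fst, (S.filter fun e => e.1 = o).card = S.card := by
      rw [h1]
    rw [h2, div_self hc.ne', ENNReal.ofReal_one]
  · intro o ho
    unfold wS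
    have h1 : (S.filter fun e => e.1 = o) = ∅ := by
      rw [Finset.filter_eq_empty_iff]
      intro e he heo
      exact ho (Finset.mem_image.2 ⟨e, he, heo⟩)
    rw [h1]
    simp

theorem tsum_wS_le (S : Finset (V × ℕ)) : ∑' o, ENNReal.ofReal (wS S o) ≤ 1 := by
  rcases S.eq_empty_or_nonempty with rfl | h
  · have : ∀ o : V, wS (∅ : Finset (V × ℕ)) o = 0 := fun o => by unfold wS; simp
    simp [this]
  · exact (tsum_wS h).le

theorem wS_map (g : V ≃ V) (S : Finset (V × ℕ)) (o : V) :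
    wS (S.map (Equiv.prodCongr g (Equiv.refl ℕ)).toEmbedding) (g o) = wS S o := by
  classical
  unfold wS
  rw [Finset.card_map, Finset.filter_map, Finset.card_map]
  congr 3
  ext e
  simp

theorem tempered (hG : G.IsTree) {b : ℕ} (hb : 2 ≤ b) (hd : G.IsRegularOfDegree (b + 1))
    {f : V → V → (V × ℕ → ℝ) → ℝ} (hf : IsFam G f) {x y : V} (hxy : G.Adj x y)
    (h0 : ∫ om, f x y om ∂(Pu (V × ℕ)) = 0) (k : ℕ) :
    ∫ om, ((Nop G b)^[k] f x y om) ^ 2 ∂(Pu (V × ℕ)) ≤
      ((k : ℝ) + 2) ^ 2 * b * ((b : ℝ)⁻¹) ^ k * ∫ om, (f x y om) ^ 2 ∂(Pu (V × ℕ)) := by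
  classical
  have : Countable V := countable_of_locallyFinite hG.connected
  obtain ⟨a, ha1, ha2, ha3, ha4, ha5⟩ := exists_walsh V
  have hbr : (0 : ℝ) < b := by exact_mod_cast (by omega : 0 < b)
  set α : Finset (V × ℕ) → V → V → ℝ := fun S x y => a (f x y) S with hα
  -- invariance of the coefficients
  have hinv : ∀ (g : G ≃g G) (S : Finset (V × ℕ)) (x y : V),
      α (S.map (Equiv.prodCongr g.toEquiv (Equiv.refl ℕ)).toEmbedding) (g x) (g y) = α S x y := by
    intro g S x y
    have h1 := ha5 (f (g x) (g y)) (hf.bm _ _) g.toEquiv S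
    simp only [hα]
    rw [← h1]
    congr 1
    funext om
    exact hf.equiv g x y om
  -- the empty set
  have hempty : ∀ x y, G.Adj x y → α ∅ x y = 0 := by
    intro x' y' h'
    simp only [hα]
    rw [ha4 _ (hf.bm _ _), ← h0]
    exact integral_dart hG hd hf.equiv h' hxy
  have hT0 : ∀ k x y, G.Adj x y → (NB G (fun _ _ => True))^[k] (α ∅) x y = 0 := by
    intro k
    induction k with
    | zero => exact hempty
    | succ k ih =>
      intro x y _
      rw [Function.iterate_succ_apply']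
      exact NB_zero fun z hz _ _ => ih y z hz
  -- the function `W`
  set W : V → V → V → ℝ≥0∞ := fun x y o =>
    ∑' S, ENNReal.ofReal (wS S o * α S x y ^ 2) with hW
  have hWinv : ∀ (g : G ≃g G) x y o, W (g x) (g y) (g o) = W x y o := by
    intro g x y o
    simp only [hW]
    rw [← Equiv.tsum_eq (Equiv.finsetCongr (Equiv.prodCongr g.toEquiv (Equiv.refl ℕ)))]
    refine tsum_congr fun S => ?_
    rw [Equiv.finsetCongr_apply]
    have h1 := hinv g S x y
    have h2 := wS_map g.toEquiv S o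
    have h3 : wS (S.map (Equiv.prodCongr g.toEquiv (Equiv.refl ℕ)).toEmbedding) (g o) =
      wS S o := h2
    rw [h1, h3]
  have hWtot : ∀ x y, ∑' o, W x y o ≤ ENNReal.ofReal (∫ om, f x y om ^ 2 ∂(Pu (V × ℕ))) := by
    intro x y
    simp only [hW]
    rw [ENNReal.tsum_comm]
    have h1 := ha3 (f x y) (hf.bm _ _)
    rw [← h1.tsum_eq, ENNReal.ofReal_tsum_of_nonneg (fun S => sq_nonneg _) h1.summable]
    refine ENNReal.tsum_le_tsum fun S => ?_
    have h2 : ∀ o, ENNReal.ofReal (wS S o * α S x y ^ 2) =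
        ENNReal.ofReal (wS S o) * ENNReal.ofReal (α S x y ^ 2) :=
      fun o => ENNReal.ofReal_mul (wS_nonneg S o)
    simp only [h2]
    rw [ENNReal.tsum_mul_right]
    exact mul_le_of_le_one_left (zero_le) (tsum_wS_le S)
  -- pointwise bound for every `S`
  set R : Finset (V × ℕ) → V → ℝ := fun S o => ((k : ℝ) + 1) * ∑ j ∈ Finset.range (k + 1),
      (b : ℝ) ^ (k - j) * (NB G (Tow G o))^[j] ((NB G (Awa G o))^[k - j]
        (fun x y => α S x y ^ 2)) x y with hR
  have hpt : ∀ S, ENNReal.ofReal (((NB G (fun _ _ => True))^[k] (α S) x y) ^ 2) ≤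
      ∑' o, ENNReal.ofReal (wS S o * R S o) := by
    intro S
    rcases S.eq_empty_or_nonempty with rfl | hS
    · rw [hT0 k x y hxy]
      simp
    · calc ENNReal.ofReal (((NB G (fun _ _ => True))^[k] (α S) x y) ^ 2) =
          (∑' o, ENNReal.ofReal (wS S o)) *
            ENNReal.ofReal (((NB G (fun _ _ => True))^[k] (α S) x y) ^ 2) := by
            rw [tsum_wS hS, one_mul]
        _ = ∑' o, ENNReal.ofReal (wS S o *
            ((NB G (fun _ _ => True))^[k] (α S) x y) ^ 2) := by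
            rw [← ENNReal.tsum_mul_right]
            exact tsum_congr fun o => (ENNReal.ofReal_mul (wS_nonneg S o)).symm
        _ ≤ _ := by
            refine ENNReal.tsum_le_tsum fun o => ENNReal.ofReal_le_ofReal ?_
            exact mul_le_mul_of_nonneg_left (point_ineq hG hd (α S) o k hxy) (wS_nonneg S o)
  have hφ : ∀ (S : Finset (V × ℕ)) (x y : V), 0 ≤ α S x y ^ 2 := fun S x y => sq_nonneg _
  have hRe : ∀ S o, ENNReal.ofReal (wS S o * R S o) = ∑ j ∈ Finset.range (k + 1),
      ENNReal.ofReal (((k : ℝ) + 1) * (b : ℝ) ^ (k - j)) * ENNReal.ofReal (wS S o *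
        (NB G (Tow G o))^[j] ((NB G (Awa G o))^[k - j] (fun x y => α S x y ^ 2)) x y) := by
    intro S o
    rw [hR]
    simp only
    rw [Finset.mul_sum, Finset.mul_sum, ENNReal.ofReal_sum_of_nonneg]
    · refine Finset.sum_congr rfl fun j _ => ?_
      rw [← ENNReal.ofReal_mul (by positivity)]
      congr 1
      ring
    · intro j _
      have h1 : 0 ≤ (NB G (Tow G o))^[j] ((NB G (Awa G o))^[k - j]
        (fun x y => α S x y ^ 2)) x y :=
        iter_nonneg (fun x y => iter_nonneg (hφ S) (k - j) x y) j x y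
      have h2 := wS_nonneg S o
      positivity
  have hsum : ∑' S, ∑' o, ENNReal.ofReal (wS S o * R S o) ≤
      ∑ j ∈ Finset.range (k + 1), ENNReal.ofReal (((k : ℝ) + 1) * (b : ℝ) ^ (k - j)) *
        (((b : ℝ≥0∞) ^ (j + 1) + 1) * ENNReal.ofReal (∫ om, f x y om ^ 2 ∂(Pu (V × ℕ)))) := by
    rw [ENNReal.tsum_comm]
    simp only [hRe]
    have h1 : ∀ o, ∑' S : Finset (V × ℕ), ∑ j ∈ Finset.range (k + 1),
        ENNReal.ofReal (((k : ℝ) + 1) * (b : ℝ) ^ (k - j)) * ENNReal.ofReal (wS S o *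
          (NB G (Tow G o))^[j] ((NB G (Awa G o))^[k - j] (fun x y => α S x y ^ 2)) x y) =
        ∑ j ∈ Finset.range (k + 1), ENNReal.ofReal (((k : ℝ) + 1) * (b : ℝ) ^ (k - j)) *
          (TmW G)^[j] ((TpW G)^[k - j] W) x y o := by
      intro o
      rw [Summable.tsum_finsetSum (fun _ _ => ENNReal.summable)]
      refine Finset.sum_congr rfl fun j _ => ?_
      rw [ENNReal.tsum_mul_left, iter_tsum W (c := fun S o => wS S o) wS_nonneg
        (φ := fun S x y => α S x y ^ 2) hφ (fun x y o => rfl)]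
    simp only [h1]
    rw [Summable.tsum_finsetSum (fun _ _ => ENNReal.summable)]
    refine Finset.sum_le_sum fun j _ => ?_
    rw [ENNReal.tsum_mul_left]
    refine mul_le_mul' le_rfl ?_
    refine (mass_bound hG (by omega) hd W hWinv j (k - j) hxy).trans ?_
    exact mul_le_mul' le_rfl (hWtot x y)
  -- the left hand side
  have hF := isFam_iter hG hd hf k
  have hL := ha3 _ (hF.bm x y)
  have hcoef : ∀ S, a ((Nop G b)^[k] f x y) S ^ 2 = (((b : ℝ)⁻¹) ^ k) ^ 2 *
      ((NB G (fun _ _ => True))^[k] (α S) x y) ^ 2 := by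
    intro S
    rw [coef_iter hG hd ha1 ha2 hf k x y S, mul_pow]
  have hlhs : ENNReal.ofReal (∫ om, ((Nop G b)^[k] f x y om) ^ 2 ∂(Pu (V × ℕ))) =
      ENNReal.ofReal ((((b : ℝ)⁻¹) ^ k) ^ 2) *
        ∑' S, ENNReal.ofReal (((NB G (fun _ _ => True))^[k] (α S) x y) ^ 2) := by
    rw [← hL.tsum_eq, ENNReal.ofReal_tsum_of_nonneg (fun S => sq_nonneg _) hL.summable,
      ← ENNReal.tsum_mul_left]
    refine tsum_congr fun S => ?_
    rw [hcoef, ENNReal.ofReal_mul (by positivity)]
  set F := ∫ om, f x y om ^ 2 ∂(Pu (V × ℕ)) with hFdef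
  have hF0 : 0 ≤ F := integral_nonneg fun om => sq_nonneg _
  -- numerics
  have hgeo : ∀ k : ℕ, ∑ j ∈ Finset.range (k + 1), (b : ℝ) ^ (k - j) ≤ (b : ℝ) ^ (k + 1) := by
    intro k
    have hb2 : (2 : ℝ) ≤ b := by exact_mod_cast hb
    have e1 : ∑ j ∈ Finset.range (k + 1), (b : ℝ) ^ (k - j) =
        ∑ j ∈ Finset.range (k + 1), (b : ℝ) ^ j := by
      have h1 := Finset.sum_range_reflect (fun j => (b : ℝ) ^ j) (k + 1)
      rw [← h1]
      refine Finset.sum_congr rfl fun j _ => ?_
      congr 1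
    rw [e1]
    induction k with
    | zero => simp; linarith
    | succ k ih =>
      rw [Finset.sum_range_succ]
      have h1 : (b : ℝ) ^ (k + 1 + 1) = b * (b : ℝ) ^ (k + 1) := pow_succ' _ _
      have h2 : 0 < (b : ℝ) ^ (k + 1) := by positivity
      have h3 := ih (by
        have h1 := Finset.sum_range_reflect (fun j => (b : ℝ) ^ j) (k + 1)
        rw [← h1]
        refine Finset.sum_congr rfl fun j _ => ?_
        congr 1)
      nlinarith
  have hfin : ENNReal.ofReal (∫ om, ((Nop G b)^[k] f x y om) ^ 2 ∂(Pu (V × ℕ))) ≤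
      ENNReal.ofReal (((k : ℝ) + 2) ^ 2 * b * ((b : ℝ)⁻¹) ^ k * F) := by
    rw [hlhs]
    calc ENNReal.ofReal ((((b : ℝ)⁻¹) ^ k) ^ 2) *
          ∑' S, ENNReal.ofReal (((NB G (fun _ _ => True))^[k] (α S) x y) ^ 2) ≤
        ENNReal.ofReal ((((b : ℝ)⁻¹) ^ k) ^ 2) *
          ∑ j ∈ Finset.range (k + 1), ENNReal.ofReal (((k : ℝ) + 1) * (b : ℝ) ^ (k - j)) *
          (((b : ℝ≥0∞) ^ (j + 1) + 1) * ENNReal.ofReal F) :=
          mul_le_mul' le_rfl ((ENNReal.tsum_le_tsum hpt).trans hsum)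
      _ = ENNReal.ofReal ((((b : ℝ)⁻¹) ^ k) ^ 2 * ∑ j ∈ Finset.range (k + 1),
          (((k : ℝ) + 1) * (b : ℝ) ^ (k - j)) * (((b : ℝ) ^ (j + 1) + 1) * F)) := by
          rw [ENNReal.ofReal_mul (by positivity), ENNReal.ofReal_sum_of_nonneg (fun j _ => by
            positivity)]
          congr 1
          refine Finset.sum_congr rfl fun j _ => ?_
          rw [ENNReal.ofReal_mul (p := ((k : ℝ) + 1) * (b : ℝ) ^ (k - j))
              (q := ((b : ℝ) ^ (j + 1) + 1) * F) (by positivity),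
            ENNReal.ofReal_mul (p := (b : ℝ) ^ (j + 1) + 1) (q := F) (by positivity),
            ENNReal.ofReal_add (p := (b : ℝ) ^ (j + 1)) (q := 1) (by positivity) (by norm_num),
            ENNReal.ofReal_pow (n := j + 1) hbr.le, ENNReal.ofReal_one, ENNReal.ofReal_natCast]
      _ ≤ _ := by
          refine ENNReal.ofReal_le_ofReal ?_
          have e1 : ∀ j ∈ Finset.range (k + 1), (((k : ℝ) + 1) * (b : ℝ) ^ (k - j)) *
              (((b : ℝ) ^ (j + 1) + 1) * F) =
              ((k : ℝ) + 1) * F * ((b : ℝ) ^ (k + 1) + (b : ℝ) ^ (k - j)) := by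
            intro j hj
            rw [Finset.mem_range] at hj
            have h1 : (b : ℝ) ^ (k + 1) = (b : ℝ) ^ (k - j) * (b : ℝ) ^ (j + 1) := by
              rw [← pow_add]
              congr 1
              omega
            rw [h1]
            ring
          rw [Finset.sum_congr rfl e1, ← Finset.mul_sum, Finset.sum_add_distrib,
            Finset.sum_const, Finset.card_range, nsmul_eq_mul]
          have h2 := hgeo k
          have h3 : (((b : ℝ)⁻¹) ^ k) ^ 2 * (b : ℝ) ^ (k + 1) = b * ((b : ℝ)⁻¹) ^ k := by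
            have hb0 : (b : ℝ) ^ k ≠ 0 := by positivity
            rw [inv_pow, pow_succ (b : ℝ) k]
            field_simp
          have hbp : 0 < ((b : ℝ)⁻¹) ^ k := by positivity
          have h4 : (((k + 1 : ℕ) : ℝ) * (b : ℝ) ^ (k + 1) +
              ∑ j ∈ Finset.range (k + 1), (b : ℝ) ^ (k - j)) ≤ ((k : ℝ) + 2) * (b : ℝ) ^ (k + 1) := by
            push_cast
            linarith
          calc (((b : ℝ)⁻¹) ^ k) ^ 2 * (((k : ℝ) + 1) * F * (((k + 1 : ℕ) : ℝ) * (b : ℝ) ^ (k + 1) +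
              ∑ j ∈ Finset.range (k + 1), (b : ℝ) ^ (k - j))) ≤
              (((b : ℝ)⁻¹) ^ k) ^ 2 * (((k : ℝ) + 1) * F * (((k : ℝ) + 2) * (b : ℝ) ^ (k + 1))) := by
                gcongr
            _ = ((k : ℝ) + 1) * ((k : ℝ) + 2) * F * ((((b : ℝ)⁻¹) ^ k) ^ 2 * (b : ℝ) ^ (k + 1)) := by
                ring
            _ = ((k : ℝ) + 1) * ((k : ℝ) + 2) * F * (b * ((b : ℝ)⁻¹) ^ k) := by rw [h3]
            _ ≤ ((k : ℝ) + 2) * ((k : ℝ) + 2) * F * (b * ((b : ℝ)⁻¹) ^ k) := by
                gcongr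
                linarith
            _ = _ := by ring
  exact (ENNReal.ofReal_le_ofReal_iff (by positivity)).1 hfin

end Vale.Agent.P161.EP
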