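import Mathlib
import Vale.Agent.P161.EP.Trans
import Vale.Agent.P161.EP.Kernel

/-!
# Module G1 (Wid): the identity (W)

With `a_x = 1 - m_x²`, `λ = lam θ ∘ M`, `Δ = λ - λ'`, and for the dart `(x,y)`
`q = λ² V + 2 λ Δ Γ + Δ² X'`, `B = 2 λ Δ Γ + Δ² X'`:
`E a_x² q(x,y) = E a_x² X(y,x) B(x,y)`.

Proof.  `a_x λ(x,y) = a_y λ(y,x)` a.s. (from `rel`).  With `x^k := ∑_{j = k} xl` i.e. `xl L k`:
`F_k := E a_x² xl_k(y,x) q(x,y)`.  `V(x,y) = ∑_{z ∼ y, z ≠ x} q(y,z)`, so
`E a_x² xl_k(y,x) λ(x,y)² V(x,y) = ∑_z E a_y² λ(y,x)² xl_k(y,x) q(y,z)`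
`= E a_y² xl_{k+1}(z,y) q(y,z)` for any dart `(y,z)` (invariance on non-backtracking paths of
length two), i.e. `F_k = E a_x² xl_k(y,x) B(x,y) + F_{k+1}`; `|F_k| ≤ C (b θ²)^k`; sum over `k`.
-/

open MeasureTheory

namespace Vale.Agent.P161.EP

universe u

variable {V : Type u} {G : SimpleGraph V} [G.LocallyFinite] {b : ℕ} {θ θ' : ℝ}
  {m m' : V → (V × ℕ → ℝ) → ℝ} {M M' : V → V → (V × ℕ → ℝ) → ℝ}

/-- The dart weights. -/
noncomputable def Lf (θ : ℝ) (M : V → V → (V × ℕ → ℝ) → ℝ) (om : V × ℕ → ℝ) (x y : V) : ℝ :=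
  lam θ (M x y om)

/-- `2 λ Δ Γ + Δ² X'`. -/
noncomputable def Bf (G : SimpleGraph V) [G.LocallyFinite] (θ θ' : ℝ)
    (M M' : V → V → (V × ℕ → ℝ) → ℝ) (x y : V) (om : V × ℕ → ℝ) : ℝ :=
  2 * Lf θ M om x y * (Lf θ M om x y - Lf θ' M' om x y) * Gs G (Lf θ M om) (Lf θ' M' om) x y +
    (Lf θ M om x y - Lf θ' M' om x y) ^ 2 * Xs G (Lf θ' M' om) x y

/-- `q = λ² V + 2 λ Δ Γ + Δ² X'`. -/
noncomputable def qf (G : SimpleGraph V) [G.LocallyFinite] (θ θ' : ℝ)
    (M M' : V → V → (V × ℕ → ℝ) → ℝ) (x y : V) (om : V × ℕ → ℝ) : ℝ :=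
  Lf θ M om x y ^ 2 * Vs G (Lf θ M om) (Lf θ' M' om) x y + Bf G θ θ' M M' x y om

/-! ### Auxiliary facts -/

theorem Lf_nonneg (h0 : 0 ≤ θ) (h1 : θ < 1) (hF : IsField G θ m M) (om : V × ℕ → ℝ) (x y : V) :
    0 ≤ Lf θ M om x y := lam_nonneg h0 h1 (hF.abs_M x y om)

theorem Lf_le (h0 : 0 ≤ θ) (h1 : θ < 1) (hF : IsField G θ m M) (om : V × ℕ → ℝ) (x y : V) :
    Lf θ M om x y ≤ θ := lam_le h0 h1 (hF.abs_M x y om)

theorem measurable_Lf (hF : IsField G θ m M) (x y : V) :
    Measurable fun om => Lf θ M om x y := by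
  have := hF.meas_M x y
  unfold Lf lam
  fun_prop

theorem Lf_act (hF : IsField G θ m M) (g : G ≃g G) (om : V × ℕ → ℝ) (x y : V) :
    Lf θ M (actLab g om) (g x) (g y) = Lf θ M om x y := by
  unfold Lf
  rw [hF.equiv_M]

theorem measurable_nsum {F : V → (V × ℕ → ℝ) → ℝ} (hF : ∀ z, Measurable (F z)) (x y : V) :
    Measurable fun om => nsum G x y fun z => F z om := by
  classical
  unfold nsum
  refine Finset.measurable_sum _ fun z _ => ?_
  by_cases h : z = x
  · simp only [h, if_true]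
    exact measurable_const
  · simp only [h, if_false]
    exact hF z

theorem nsum_iso (g : G ≃g G) (x y : V) (f f' : V → ℝ) (h : ∀ z, f' (g z) = f z) :
    nsum G (g x) (g y) f' = nsum G x y f := by
  classical
  unfold nsum
  symm
  refine Finset.sum_equiv g.toEquiv (fun z => ?_) (fun z _ => ?_)
  · simp only [SimpleGraph.mem_neighborFinset]
    exact (g.map_adj_iff).symm
  · have e : (g.toEquiv z = g x) ↔ z = x := g.toEquiv.apply_eq_iff_eq
    by_cases hz : z = x
    · rw [if_pos hz, if_pos (e.2 hz)]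
    · rw [if_neg hz, if_neg (fun h' => hz (e.1 h'))]
      exact (h z).symm

theorem integral_nsum {F : V → (V × ℕ → ℝ) → ℝ} (x y : V)
    (hF : ∀ z, G.Adj y z → z ≠ x → Integrable (F z) (Pu (V × ℕ))) :
    ∫ om, nsum G x y (fun z => F z om) ∂(Pu (V × ℕ)) =
      nsum G x y fun z => ∫ om, F z om ∂(Pu (V × ℕ)) := by
  classical
  unfold nsum
  rw [integral_finset_sum]
  · refine Finset.sum_congr rfl fun z _ => ?_
    by_cases h : z = x
    · simp [h]
    · simp [h]
  · intro z hz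
    rw [SimpleGraph.mem_neighborFinset] at hz
    by_cases h : z = x
    · simp [h]
    · simp only [h, if_false]
      exact hF z hz h

theorem measurable_xl (hF : IsField G θ m M) (n : ℕ) (x y : V) :
    Measurable fun om => xl G (Lf θ M om) n x y := by
  induction n generalizing x y with
  | zero => exact measurable_const
  | succ n ih =>
    simp only [xl]
    exact measurable_nsum (fun z => ((measurable_Lf hF y z).pow_const 2).mul (ih y z)) x y

theorem measurable_gl (hF : IsField G θ m M) (hF' : IsField G θ' m' M') (n : ℕ) (x y : V) :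
    Measurable fun om => gl G (Lf θ M om) (Lf θ' M' om) n x y := by
  induction n generalizing x y with
  | zero => exact measurable_const
  | succ n ih =>
    simp only [gl]
    refine measurable_nsum (fun z => ?_) x y
    have h1 := measurable_Lf hF y z
    have h2 := measurable_Lf hF' y z
    have h3 := ih y z
    have h4 := measurable_xl hF' n y z
    fun_prop

theorem measurable_vl (hF : IsField G θ m M) (hF' : IsField G θ' m' M') (n : ℕ) (x y : V) :
    Measurable fun om => vl G (Lf θ M om) (Lf θ' M' om) n x y := by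
  induction n generalizing x y with
  | zero => exact measurable_const
  | succ n ih =>
    simp only [vl]
    refine measurable_nsum (fun z => ?_) x y
    have h1 := measurable_Lf hF y z
    have h2 := measurable_Lf hF' y z
    have h3 := ih y z
    have h4 := measurable_xl hF' n y z
    have h5 := measurable_gl hF hF' n y z
    fun_prop

theorem xl_act (g : G ≃g G) {L L1 : V → V → ℝ} (h : ∀ x y, L1 (g x) (g y) = L x y) (n : ℕ)
    (x y : V) : xl G L1 n (g x) (g y) = xl G L n x y := by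
  induction n generalizing x y with
  | zero => rfl
  | succ n ih =>
    simp only [xl]
    refine nsum_iso g x y _ _ fun z => ?_
    rw [h, ih]

theorem gl_act (g : G ≃g G) {L L1 L' L1' : V → V → ℝ} (h : ∀ x y, L1 (g x) (g y) = L x y)
    (h' : ∀ x y, L1' (g x) (g y) = L' x y) (n : ℕ) (x y : V) :
    gl G L1 L1' n (g x) (g y) = gl G L L' n x y := by
  induction n generalizing x y with
  | zero => rfl
  | succ n ih =>
    simp only [gl]
    refine nsum_iso g x y _ _ fun z => ?_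
    rw [h, h', ih, xl_act g h']

theorem vl_act (g : G ≃g G) {L L1 L' L1' : V → V → ℝ} (h : ∀ x y, L1 (g x) (g y) = L x y)
    (h' : ∀ x y, L1' (g x) (g y) = L' x y) (n : ℕ) (x y : V) :
    vl G L1 L1' n (g x) (g y) = vl G L L' n x y := by
  induction n generalizing x y with
  | zero => rfl
  | succ n ih =>
    simp only [vl]
    refine nsum_iso g x y _ _ fun z => ?_
    rw [h, h', ih, xl_act g h', gl_act g h h']

theorem kerN_act (g : G ≃g G) {L L1 : V → V → ℝ} (h : ∀ x y, L1 (g x) (g y) = L x y) (n : ℕ)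
    (v w : V) : kerN G L1 n (g v) (g w) = kerN G L n v w := by
  classical
  induction n generalizing v with
  | zero => rfl
  | succ n ih =>
    simp only [kerN]
    symm
    refine Finset.sum_equiv g.toEquiv (fun z => ?_) (fun z _ => ?_)
    · simp only [SimpleGraph.mem_neighborFinset]
      exact (g.map_adj_iff).symm
    · have e : (g.toEquiv z) = g z := rfl
      rw [e, dist_iso g z w, dist_iso g v w, h, ih]

/-- The reversal identity. -/
theorem reversal (h0 : 0 ≤ θ) (h1 : θ < 1) (hF : IsField G θ m M) :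
    ∀ᵐ om ∂(Pu (V × ℕ)), ∀ x y, G.Adj x y →
      (1 - m x om ^ 2) * Lf θ M om x y = (1 - m y om ^ 2) * Lf θ M om y x := by
  filter_upwards [hF.rel] with om hrel x y hxy
  have e1 := hrel x y hxy
  have e2 := hrel y x hxy.symm
  have hs := hF.abs_M y x om
  have ht := hF.abs_M x y om
  unfold Lf lam
  rw [e1, e2]
  set s := M y x om
  set t := M x y om
  have ds := den_pos h0 h1 hs
  have dt := den_pos h0 h1 ht
  have d3 := one_sub_sq_pos h0 h1
  have d1 : 1 - θ ^ 2 * s ^ 2 ≠ 0 := by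
    have : 0 < 1 - θ ^ 2 * s ^ 2 := by linarith
    exact this.ne'
  have d2 : 1 - θ ^ 2 * t ^ 2 ≠ 0 := by
    have : 0 < 1 - θ ^ 2 * t ^ 2 := by linarith
    exact this.ne'
  have d4 : 1 + θ * s * t ≠ 0 := by
    have h5 : |s * t| ≤ 1 := by
      rw [abs_mul]
      exact mul_le_one₀ hs (abs_nonneg _) ht
    have h6 := (abs_le.1 h5).1
    have h7 := (abs_le.1 h5).2
    have : 0 < 1 + θ * s * t := by
      rw [mul_assoc]
      nlinarith
    exact this.ne'
  have d5 : 1 + θ * t * s ≠ 0 := by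
    have : 1 + θ * t * s = 1 + θ * s * t := by ring
    rwa [this]
  have k1 : (1 - ((s + θ * t) / (1 + θ * s * t)) ^ 2) * (θ * (1 - t ^ 2) / (1 - θ ^ 2 * t ^ 2)) =
      θ * (1 - s ^ 2) * (1 - t ^ 2) / (1 + θ * s * t) ^ 2 := by
    rw [div_pow, one_sub_div (pow_ne_zero 2 d4), div_mul_div_comm, div_eq_div_iff
      (mul_ne_zero (pow_ne_zero 2 d4) d2) (pow_ne_zero 2 d4)]
    ring
  have k2 : (1 - ((t + θ * s) / (1 + θ * t * s)) ^ 2) * (θ * (1 - s ^ 2) / (1 - θ ^ 2 * s ^ 2)) =
      θ * (1 - t ^ 2) * (1 - s ^ 2) / (1 + θ * t * s) ^ 2 := by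
    rw [div_pow, one_sub_div (pow_ne_zero 2 d5), div_mul_div_comm, div_eq_div_iff
      (mul_ne_zero (pow_ne_zero 2 d5) d1) (pow_ne_zero 2 d5)]
    ring
  rw [k1, k2]
  congr 1
  · ring
  · ring

/-- The families `X`, `Γ`, `V` are invariant families after restriction to darts. -/
theorem measurable_Xs (hF : IsField G θ m M) (x y : V) :
    Measurable fun om => Xs G (Lf θ M om) x y :=
  Measurable.tsum fun n => measurable_xl hF n x y

theorem measurable_Gs (hF : IsField G θ m M) (hF' : IsField G θ' m' M') (x y : V) :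
    Measurable fun om => Gs G (Lf θ M om) (Lf θ' M' om) x y :=
  Measurable.tsum fun n => measurable_gl hF hF' n x y

theorem measurable_Vs (hF : IsField G θ m M) (hF' : IsField G θ' m' M') (x y : V) :
    Measurable fun om => Vs G (Lf θ M om) (Lf θ' M' om) x y :=
  Measurable.tsum fun n => measurable_vl hF hF' n x y

theorem Xs_act (hF : IsField G θ m M) (g : G ≃g G) (x y : V) (om : V × ℕ → ℝ) :
    Xs G (Lf θ M (actLab g om)) (g x) (g y) = Xs G (Lf θ M om) x y := by
  unfold Xs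
  exact tsum_congr fun n => xl_act g (fun x y => Lf_act hF g om x y) n x y

theorem Gs_act (hF : IsField G θ m M) (hF' : IsField G θ' m' M') (g : G ≃g G) (x y : V)
    (om : V × ℕ → ℝ) :
    Gs G (Lf θ M (actLab g om)) (Lf θ' M' (actLab g om)) (g x) (g y) =
      Gs G (Lf θ M om) (Lf θ' M' om) x y := by
  unfold Gs
  exact tsum_congr fun n => gl_act g (fun x y => Lf_act hF g om x y)
    (fun x y => Lf_act hF' g om x y) n x y

theorem Vs_act (hF : IsField G θ m M) (hF' : IsField G θ' m' M') (g : G ≃g G) (x y : V)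
    (om : V × ℕ → ℝ) :
    Vs G (Lf θ M (actLab g om)) (Lf θ' M' (actLab g om)) (g x) (g y) =
      Vs G (Lf θ M om) (Lf θ' M' om) x y := by
  unfold Vs
  exact tsum_congr fun n => vl_act g (fun x y => Lf_act hF g om x y)
    (fun x y => Lf_act hF' g om x y) n x y

theorem ker_act (hF : IsField G θ m M) (g : G ≃g G) (x y : V) (om : V × ℕ → ℝ) :
    ker G (Lf θ M (actLab g om)) (g x) (g y) = ker G (Lf θ M om) x y := by
  unfold ker
  rw [dist_iso g x y]
  exact kerN_act g (fun x y => Lf_act hF g om x y) _ x y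

/-- All the values of an invariant function on non-backtracking paths of length two are equal. -/
theorem exists_triple_value (hG : G.IsTree) (hd : G.IsRegularOfDegree (b + 1))
    {F : V → V → V → (V × ℕ → ℝ) → ℝ}
    (hF : ∀ (g : G ≃g G) x y z om, F (g x) (g y) (g z) (actLab g om) = F x y z om) :
    ∃ c : ℝ, ∀ x y z, G.Adj x y → G.Adj y z → x ≠ z → ∫ om, F x y z om ∂(Pu (V × ℕ)) = c := by
  by_cases h : ∃ u v w, G.Adj u v ∧ G.Adj v w ∧ u ≠ w
  · obtain ⟨u, v, w, h1, h2, h3⟩ := h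
    exact ⟨∫ om, F u v w om ∂(Pu (V × ℕ)), fun x y z h4 h5 h6 =>
      integral_triple hG hd hF h4 h5 h6 h1 h2 h3⟩
  · exact ⟨0, fun x y z h1 h2 h3 => absurd ⟨x, y, z, h1, h2, h3⟩ h⟩

theorem integrable_of_bdd {f : (V × ℕ → ℝ) → ℝ} (hf : Measurable f) {C : ℝ}
    (hC : ∀ om, |f om| ≤ C) : Integrable f (Pu (V × ℕ)) :=
  Integrable.of_bound hf.aestronglyMeasurable C (Filter.Eventually.of_forall hC)

theorem a_bd (hF : IsField G θ m M) (x : V) (om : V × ℕ → ℝ) :
    0 ≤ 1 - m x om ^ 2 ∧ 1 - m x om ^ 2 ≤ 1 := by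
  have := hF.abs_m x om
  have h2 : m x om ^ 2 ≤ 1 := by rwa [sq_le_one_iff_abs_le_one]
  constructor
  · linarith
  · nlinarith [sq_nonneg (m x om)]

theorem measurable_a (hF : IsField G θ m M) (x : V) :
    Measurable fun om => (1 - m x om ^ 2) ^ 2 := by
  have := hF.meas_m x
  fun_prop

theorem measurable_Bf (hF : IsField G θ m M) (hF' : IsField G θ' m' M') (x y : V) :
    Measurable fun om => Bf G θ θ' M M' x y om := by
  have h1 := measurable_Lf hF x y
  have h2 := measurable_Lf hF' x y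
  have h3 := measurable_Gs hF hF' x y
  have h4 := measurable_Xs hF' x y
  unfold Bf
  fun_prop

theorem measurable_qf (hF : IsField G θ m M) (hF' : IsField G θ' m' M') (x y : V) :
    Measurable fun om => qf G θ θ' M M' x y om := by
  have h1 := measurable_Lf hF x y
  have h2 := measurable_Vs hF hF' x y
  have h3 := measurable_Bf (G := G) hF hF' x y
  unfold qf
  fun_prop

theorem Bf_act (hF : IsField G θ m M) (hF' : IsField G θ' m' M') (g : G ≃g G) (x y : V)
    (om : V × ℕ → ℝ) :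
    Bf G θ θ' M M' (g x) (g y) (actLab g om) = Bf G θ θ' M M' x y om := by
  unfold Bf
  rw [Lf_act hF, Lf_act hF', Gs_act hF hF', Xs_act hF']

theorem qf_act (hF : IsField G θ m M) (hF' : IsField G θ' m' M') (g : G ≃g G) (x y : V)
    (om : V × ℕ → ℝ) :
    qf G θ θ' M M' (g x) (g y) (actLab g om) = qf G θ θ' M M' x y om := by
  unfold qf
  rw [Lf_act hF, Vs_act hF hF', Bf_act hF hF']

theorem exists_Bf_bound (hd : G.IsRegularOfDegree (b + 1)) (h0 : 0 ≤ θ)
    (h1 : θ < 1) (hθ : b * θ ^ 2 < 1) (h0' : 0 ≤ θ') (h1' : θ' < 1) (hθ' : b * θ' ^ 2 < 1)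
    (hF : IsField G θ m M) (hF' : IsField G θ' m' M') :
    ∃ C : ℝ, 0 ≤ C ∧ ∀ x y om, G.Adj x y → |Bf G θ θ' M M' x y om| ≤ C ∧
      |qf G θ θ' M M' x y om| ≤ C := by
  set Cg := 2 / ((1 - b * θ ^ 2) * (1 - b * θ' ^ 2)) with hCg
  set Cv := 4 / ((1 - b * θ ^ 2) * (1 - b * θ' ^ 2)) with hCv
  set Cx := 1 / (1 - b * θ' ^ 2) with hCx
  have p1 : 0 < 1 - b * θ ^ 2 := by linarith
  have p2 : 0 < 1 - b * θ' ^ 2 := by linarith
  have hCg0 : 0 ≤ Cg := by positivity
  have hCv0 : 0 ≤ Cv := by positivity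
  have hCx0 : 0 ≤ Cx := by positivity
  refine ⟨Cv + (2 * Cg + Cx), by positivity, fun x y om hxy => ?_⟩
  have a1 := Lf_nonneg (G := G) h0 h1 hF om x y
  have a2 := Lf_le (G := G) h0 h1 hF om x y
  have a3 := Lf_nonneg (G := G) h0' h1' hF' om x y
  have a4 := Lf_le (G := G) h0' h1' hF' om x y
  have g1 := abs_Gs_le hd (fun x y => Lf_nonneg h0 h1 hF om x y)
    (fun x y => Lf_le h0 h1 hF om x y) hθ (fun x y => Lf_nonneg h0' h1' hF' om x y)
    (fun x y => Lf_le h0' h1' hF' om x y) hθ' hxy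
  have v1 := Vs_le hd (fun x y => Lf_nonneg h0 h1 hF om x y)
    (fun x y => Lf_le h0 h1 hF om x y) hθ (fun x y => Lf_nonneg h0' h1' hF' om x y)
    (fun x y => Lf_le h0' h1' hF' om x y) hθ' hxy
  have v0 := Vs_nonneg hd (fun x y => Lf_nonneg h0 h1 hF om x y)
    (fun x y => Lf_le h0 h1 hF om x y) hθ (fun x y => Lf_nonneg h0' h1' hF' om x y)
    (fun x y => Lf_le h0' h1' hF' om x y) hθ' hxy
  have x1 := Xs_le hd (fun x y => Lf_nonneg h0' h1' hF' om x y)
    (fun x y => Lf_le h0' h1' hF' om x y) hθ' hxy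
  have x0 := one_le_Xs hd (fun x y => Lf_nonneg h0' h1' hF' om x y)
    (fun x y => Lf_le h0' h1' hF' om x y) hθ' hxy
  have dl : |Lf θ M om x y - Lf θ' M' om x y| ≤ 1 := by
    rw [abs_le]; constructor <;> linarith
  have hB : |Bf G θ θ' M M' x y om| ≤ 2 * Cg + Cx := by
    unfold Bf
    refine (abs_add_le _ _).trans (add_le_add ?_ ?_)
    · rw [abs_mul, abs_mul, abs_mul, abs_two, abs_of_nonneg a1]
      have k1 : 2 * Lf θ M om x y * |Lf θ M om x y - Lf θ' M' om x y| ≤ 2 * 1 := by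
        have := mul_le_mul (show Lf θ M om x y ≤ 1 by linarith) dl (abs_nonneg _) zero_le_one
        linarith
      calc _ ≤ 2 * 1 * Cg := mul_le_mul k1 g1 (abs_nonneg _) (by norm_num)
        _ = _ := by ring
    · rw [abs_mul, abs_of_nonneg (sq_nonneg _), abs_of_nonneg (by linarith)]
      have k1 : (Lf θ M om x y - Lf θ' M' om x y) ^ 2 ≤ 1 := by
        rwa [sq_le_one_iff_abs_le_one]
      calc _ ≤ 1 * Cx := mul_le_mul k1 x1 (by linarith) (by norm_num)
        _ = _ := by ring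
  refine ⟨by linarith, ?_⟩
  unfold qf
  refine (abs_add_le _ _).trans (add_le_add ?_ hB)
  rw [abs_mul, abs_of_nonneg (sq_nonneg _), abs_of_nonneg v0]
  have k1 : Lf θ M om x y ^ 2 ≤ 1 := by
    rw [sq_le_one_iff_abs_le_one, abs_of_nonneg a1]; linarith
  calc _ ≤ 1 * Cv := mul_le_mul k1 v1 v0 (by norm_num)
    _ = _ := by ring

theorem integral_W (hG : G.IsTree) (hd : G.IsRegularOfDegree (b + 1)) (h0 : 0 ≤ θ)
    (h1 : θ < 1) (hθ : b * θ ^ 2 < 1) (h0' : 0 ≤ θ') (h1' : θ' < 1) (hθ' : b * θ' ^ 2 < 1)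
    (hF : IsField G θ m M) (hF' : IsField G θ' m' M') {x y : V} (hxy : G.Adj x y) :
    ∫ om, (1 - m x om ^ 2) ^ 2 * qf G θ θ' M M' x y om ∂(Pu (V × ℕ)) =
      ∫ om, (1 - m x om ^ 2) ^ 2 * Xs G (Lf θ M om) y x * Bf G θ θ' M M' x y om
        ∂(Pu (V × ℕ)) := by
  obtain ⟨C, hC0, hC⟩ := exists_Bf_bound hd h0 h1 hθ h0' h1' hθ' hF hF'
  have hL0 : ∀ om, ∀ x y, 0 ≤ Lf θ M om x y := fun om x y => Lf_nonneg h0 h1 hF om x y
  have hL1 : ∀ om, ∀ x y, Lf θ M om x y ≤ θ := fun om x y => Lf_le h0 h1 hF om x y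
  have hL0' : ∀ om, ∀ x y, 0 ≤ Lf θ' M' om x y := fun om x y => Lf_nonneg h0' h1' hF' om x y
  have hL1' : ∀ om, ∀ x y, Lf θ' M' om x y ≤ θ' := fun om x y => Lf_le h0' h1' hF' om x y
  have hr0 : 0 ≤ (b : ℝ) * θ ^ 2 := by positivity
  have ha2 : ∀ x om, 0 ≤ (1 - m x om ^ 2) ^ 2 ∧ (1 - m x om ^ 2) ^ 2 ≤ 1 := by
    intro x om
    obtain ⟨c1, c2⟩ := a_bd hF x om
    exact ⟨sq_nonneg _, by rw [sq_le_one_iff_abs_le_one, abs_of_nonneg c1]; exact c2⟩
  -- the general products
  have hbd : ∀ (k : ℕ) (u v : V) (om : V × ℕ → ℝ) (f : ℝ), G.Adj u v → |f| ≤ C →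
      |(1 - m u om ^ 2) ^ 2 * xl G (Lf θ M om) k v u * f| ≤ (b * θ ^ 2) ^ k * C := by
    intro k u v om f huv hf
    rw [abs_mul, abs_mul, abs_of_nonneg (ha2 u om).1, abs_of_nonneg (xl_nonneg k v u)]
    have hx := xl_le hd (hL0 om) (hL1 om) k huv.symm
    refine mul_le_mul ?_ hf (abs_nonneg _) (pow_nonneg hr0 k)
    calc _ ≤ 1 * (b * θ ^ 2) ^ k := mul_le_mul (ha2 u om).2 hx (xl_nonneg k v u) zero_le_one
      _ = _ := one_mul _
  -- one step
  have hstep : ∀ k : ℕ,
      ∫ om, (1 - m x om ^ 2) ^ 2 * xl G (Lf θ M om) k y x * qf G θ θ' M M' x y om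
        ∂(Pu (V × ℕ)) =
      ∫ om, (1 - m x om ^ 2) ^ 2 * xl G (Lf θ M om) k y x * Bf G θ θ' M M' x y om
        ∂(Pu (V × ℕ)) +
      ∫ om, (1 - m x om ^ 2) ^ 2 * xl G (Lf θ M om) (k + 1) y x * qf G θ θ' M M' x y om
        ∂(Pu (V × ℕ)) := by
    intro k
    -- the function on non-backtracking paths
    set T : V → V → V → (V × ℕ → ℝ) → ℝ := fun u v w om =>
      (1 - m v om ^ 2) ^ 2 * Lf θ M om v u ^ 2 * xl G (Lf θ M om) k v u *
        qf G θ θ' M M' v w om with hT
    have hTact : ∀ (g : G ≃g G) x y z om, T (g x) (g y) (g z) (actLab g om) = T x y z om := by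
      intro g u v w om
      simp only [hT]
      rw [hF.equiv_m, Lf_act hF, xl_act g (fun x y => Lf_act hF g om x y), qf_act hF hF']
    obtain ⟨c, hc⟩ := exists_triple_value hG hd hTact
    have hTmeas : ∀ u v w, Measurable (T u v w) := by
      intro u v w
      have t1 := measurable_a hF v
      have t2 := measurable_Lf hF v u
      have t3 := measurable_xl hF k v u
      have t4 := measurable_qf hF hF' v w
      simp only [hT]
      fun_prop
    have hTint : ∀ u v w, G.Adj u v → G.Adj v w → Integrable (T u v w) (Pu (V × ℕ)) := by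
      intro u v w huv hvw
      refine integrable_of_bdd (hTmeas u v w) (C := (b * θ ^ 2) ^ k * C) fun om => ?_
      simp only [hT]
      have k1 : Lf θ M om v u ^ 2 ≤ 1 := by
        rw [sq_le_one_iff_abs_le_one, abs_of_nonneg (hL0 om v u)]
        have := hL1 om v u
        linarith
      have hx := xl_le hd (hL0 om) (hL1 om) k huv.symm
      have hx0 := xl_nonneg (G := G) (L := Lf θ M om) k v u
      rw [abs_mul, abs_mul, abs_mul, abs_of_nonneg (ha2 v om).1, abs_of_nonneg (sq_nonneg _),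
        abs_of_nonneg hx0]
      refine mul_le_mul ?_ (hC v w om hvw).2 (abs_nonneg _) (pow_nonneg hr0 k)
      calc _ ≤ 1 * 1 * (b * θ ^ 2) ^ k := by
            refine mul_le_mul ?_ hx hx0 (by norm_num)
            exact mul_le_mul (ha2 v om).2 k1 (sq_nonneg _) zero_le_one
        _ = _ := by ring
    -- the term of `V`
    have hV : ∀ om, Vs G (Lf θ M om) (Lf θ' M' om) x y =
        nsum G x y fun z => qf G θ θ' M M' y z om := by
      intro om
      rw [Vs_rec hd (hL0 om) (hL1 om) hθ (hL0' om) (hL1' om) hθ' hxy]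
      refine nsum_congr fun z _ _ => ?_
      unfold qf Bf
      ring
    have hmB := (measurable_a hF x).mul (measurable_xl hF k y x) |>.mul
      (measurable_Bf (G := G) hF hF' x y)
    have hmV : Measurable fun om => (1 - m x om ^ 2) ^ 2 * xl G (Lf θ M om) k y x *
        (Lf θ M om x y ^ 2 * Vs G (Lf θ M om) (Lf θ' M' om) x y) := by
      have t1 := measurable_a hF x
      have t2 := measurable_Lf hF x y
      have t3 := measurable_xl hF k y x
      have t4 := measurable_Vs hF hF' x y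
      fun_prop
    have hiB : Integrable (fun om => (1 - m x om ^ 2) ^ 2 * xl G (Lf θ M om) k y x *
        Bf G θ θ' M M' x y om) (Pu (V × ℕ)) :=
      integrable_of_bdd hmB fun om => hbd k x y om _ hxy (hC x y om hxy).1
    have hiV : Integrable (fun om => (1 - m x om ^ 2) ^ 2 * xl G (Lf θ M om) k y x *
        (Lf θ M om x y ^ 2 * Vs G (Lf θ M om) (Lf θ' M' om) x y)) (Pu (V × ℕ)) := by
      have hq : Integrable (fun om => (1 - m x om ^ 2) ^ 2 * xl G (Lf θ M om) k y x *
          qf G θ θ' M M' x y om) (Pu (V × ℕ)) :=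
        integrable_of_bdd ((measurable_a hF x).mul (measurable_xl hF k y x) |>.mul
          (measurable_qf (G := G) hF hF' x y)) fun om => hbd k x y om _ hxy (hC x y om hxy).2
      refine (hq.sub hiB).congr (Filter.Eventually.of_forall fun om => ?_)
      simp only [Pi.sub_apply, qf]
      ring
    have e1 : ∫ om, (1 - m x om ^ 2) ^ 2 * xl G (Lf θ M om) k y x * qf G θ θ' M M' x y om
        ∂(Pu (V × ℕ)) =
        ∫ om, (1 - m x om ^ 2) ^ 2 * xl G (Lf θ M om) k y x * Bf G θ θ' M M' x y om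
          ∂(Pu (V × ℕ)) +
        ∫ om, (1 - m x om ^ 2) ^ 2 * xl G (Lf θ M om) k y x *
          (Lf θ M om x y ^ 2 * Vs G (Lf θ M om) (Lf θ' M' om) x y) ∂(Pu (V × ℕ)) := by
      rw [← integral_add hiB hiV]
      refine integral_congr_ae (Filter.Eventually.of_forall fun om => ?_)
      simp only [qf]
      ring
    rw [e1]
    congr 1
    have e2 : ∫ om, (1 - m x om ^ 2) ^ 2 * xl G (Lf θ M om) k y x *
          (Lf θ M om x y ^ 2 * Vs G (Lf θ M om) (Lf θ' M' om) x y) ∂(Pu (V × ℕ)) =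
        ∫ om, nsum G x y (fun z => T x y z om) ∂(Pu (V × ℕ)) := by
      refine integral_congr_ae ?_
      filter_upwards [reversal h0 h1 hF] with om hrev
      have h2 := hrev x y hxy
      rw [hV om]
      have h3 : (1 - m x om ^ 2) ^ 2 * xl G (Lf θ M om) k y x *
          (Lf θ M om x y ^ 2 * nsum G x y fun z => qf G θ θ' M M' y z om) =
          ((1 - m x om ^ 2) * Lf θ M om x y) ^ 2 * xl G (Lf θ M om) k y x *
            nsum G x y fun z => qf G θ θ' M M' y z om := by ring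
      rw [h3, h2, ← nsum_mul]
      refine nsum_congr fun z _ _ => ?_
      simp only [hT]
      ring
    have e3 : ∫ om, (1 - m x om ^ 2) ^ 2 * xl G (Lf θ M om) (k + 1) y x *
          qf G θ θ' M M' x y om ∂(Pu (V × ℕ)) =
        ∫ om, nsum G y x (fun w => T w x y om) ∂(Pu (V × ℕ)) := by
      refine integral_congr_ae (Filter.Eventually.of_forall fun om => ?_)
      simp only [xl]
      have h3 : (1 - m x om ^ 2) ^ 2 *
          (nsum G y x fun z => Lf θ M om x z ^ 2 * xl G (Lf θ M om) k x z) *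
          qf G θ θ' M M' x y om =
          ((1 - m x om ^ 2) ^ 2 * qf G θ θ' M M' x y om) *
          (nsum G y x fun z => Lf θ M om x z ^ 2 * xl G (Lf θ M om) k x z) := by ring
      rw [h3, ← nsum_mul]
      refine nsum_congr fun z _ _ => ?_
      simp only [hT]
      ring
    rw [e2, e3, integral_nsum x y (fun z hz _ => hTint x y z hxy hz),
      integral_nsum y x (fun w hw _ => hTint w x y hw.symm hxy)]
    have f1 : (nsum G x y fun z => ∫ om, T x y z om ∂(Pu (V × ℕ))) = nsum G x y fun _ => c :=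
      nsum_congr fun z hz hzx => hc x y z hxy hz (Ne.symm hzx)
    have f2 : (nsum G y x fun w => ∫ om, T w x y om ∂(Pu (V × ℕ))) = nsum G y x fun _ => c :=
      nsum_congr fun w hw hwy => hc w x y hw.symm hxy hwy
    rw [f1, f2, nsum_const hd hxy, nsum_const hd hxy.symm]
  -- iterate
  set Fk : ℕ → ℝ := fun k => ∫ om, (1 - m x om ^ 2) ^ 2 * xl G (Lf θ M om) k y x *
    qf G θ θ' M M' x y om ∂(Pu (V × ℕ)) with hFk
  set Ik : ℕ → ℝ := fun k => ∫ om, (1 - m x om ^ 2) ^ 2 * xl G (Lf θ M om) k y x *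
    Bf G θ θ' M M' x y om ∂(Pu (V × ℕ)) with hIk
  have hiter : ∀ n, Fk 0 = ∑ k ∈ Finset.range n, Ik k + Fk n := by
    intro n
    induction n with
    | zero => simp
    | succ n ih =>
      rw [Finset.sum_range_succ, ih]
      have := hstep n
      simp only [hFk, hIk] at this ⊢
      linarith
  have hFn : Filter.Tendsto Fk Filter.atTop (nhds 0) := by
    have hb : ∀ n, ‖Fk n‖ ≤ (b * θ ^ 2) ^ n * C := by
      intro n
      have := norm_integral_le_of_norm_le_const (μ := Pu (V × ℕ))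
        (f := fun om => (1 - m x om ^ 2) ^ 2 * xl G (Lf θ M om) n y x * qf G θ θ' M M' x y om)
        (C := (b * θ ^ 2) ^ n * C)
        (Filter.Eventually.of_forall fun om => hbd n x y om _ hxy (hC x y om hxy).2)
      simpa using this
    have ht : Filter.Tendsto (fun n : ℕ => ((b : ℝ) * θ ^ 2) ^ n * C) Filter.atTop (nhds 0) := by
      have := (tendsto_pow_atTop_nhds_zero_of_lt_one hr0 hθ).mul_const C
      simpa using this
    exact squeeze_zero_norm hb ht
  have hIint : ∀ k, Integrable (fun om => (1 - m x om ^ 2) ^ 2 * xl G (Lf θ M om) k y x *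
      Bf G θ θ' M M' x y om) (Pu (V × ℕ)) := fun k =>
    integrable_of_bdd ((measurable_a hF x).mul (measurable_xl hF k y x) |>.mul
      (measurable_Bf (G := G) hF hF' x y)) fun om => hbd k x y om _ hxy (hC x y om hxy).1
  have hsumm : Summable fun k : ℕ => ∫ om, ‖(1 - m x om ^ 2) ^ 2 * xl G (Lf θ M om) k y x *
      Bf G θ θ' M M' x y om‖ ∂(Pu (V × ℕ)) := by
    refine Summable.of_nonneg_of_le (fun k => integral_nonneg fun om => norm_nonneg _)
      (fun k => ?_) ((summable_geometric_of_lt_one hr0 hθ).mul_right C)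
    calc _ ≤ ∫ _om : V × ℕ → ℝ, ((b : ℝ) * θ ^ 2) ^ k * C ∂(Pu (V × ℕ)) := by
          refine integral_mono (hIint k).norm (integrable_const _) fun om => ?_
          exact hbd k x y om _ hxy (hC x y om hxy).1
      _ = _ := by simp
  have hhs := hasSum_integral_of_summable_integral_norm hIint hsumm
  have htend := hhs.tendsto_sum_nat
  have hlim : Filter.Tendsto (fun n => ∑ k ∈ Finset.range n, Ik k) Filter.atTop
      (nhds (Fk 0)) := by
    have h2 : ∀ n, ∑ k ∈ Finset.range n, Ik k = Fk 0 - Fk n := fun n => by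
      have := hiter n
      linarith
    simp only [h2]
    have := (tendsto_const_nhds (x := Fk 0)).sub hFn
    simpa using this
  have heq := tendsto_nhds_unique hlim htend
  have hF0 : Fk 0 = ∫ om, (1 - m x om ^ 2) ^ 2 * qf G θ θ' M M' x y om ∂(Pu (V × ℕ)) := by
    simp only [hFk, xl, mul_one]
  rw [← hF0, heq]
  refine integral_congr_ae (Filter.Eventually.of_forall fun om => ?_)
  simp only
  rw [tsum_mul_right, tsum_mul_left]
  rfl

end Vale.Agent.P161.EP
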