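import Mathlib
import Vale.Agent.P161.EP.HilbD
import Vale.Agent.P161.EP.Tempered
import Vale.Agent.P161.EP.Wid

/-!
# Module G2 (Spec): the bound of `E A Γ`

Apply `hilbD` to the space `E` of bounded measurable invariant families `f` (restricted to darts:
`f x y = 0` unless `G.Adj x y`), `B f g = ∫ f x y * g x y` at the fixed dart, `one`, `N = Nop`,
`K f = (1 - b λ λ') f` with `0 ≤ 1 - b λ λ' ≤ 1` (as `λ ≤ θ`, `λ' ≤ θ'`, `b θ θ' ≤ 1`).
`Gs_rec`: `Γ = N ((1 - K) Γ) + b N 𝓑`, `𝓑 = λ' Δ X'`, so with `g = b N 𝓑`, `R = N (1 - K)`: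
`Γ = ∑_{k<n} R^k g + R^n Γ` and `‖R^n Γ‖_∞ ≤ (b θ θ')^n ‖Γ‖_∞ → 0`.
-/

open MeasureTheory Filter Topology

namespace Vale.Agent.P161.EP

universe u

variable {V : Type u}

/-- `𝓑 = λ' (λ - λ') X'`. -/
noncomputable def Bcal (G : SimpleGraph V) [G.LocallyFinite] (θ θ' : ℝ)
    (M M' : V → V → (V × ℕ → ℝ) → ℝ) (x y : V) (om : V × ℕ → ℝ) : ℝ :=
  Lf θ' M' om x y * (Lf θ M om x y - Lf θ' M' om x y) * Xs G (Lf θ' M' om) x y


section Specaux

variable {G : SimpleGraph V}

/-- Bounded invariant families supported on the darts. -/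
def SpecE (G : SimpleGraph V) : Submodule ℝ (V → V → (V × ℕ → ℝ) → ℝ) where
  carrier := {f | IsFam G f ∧ ∀ x y, ¬ G.Adj x y → ∀ om, f x y om = 0}
  zero_mem' := ⟨⟨fun _ _ => measurable_const, ⟨0, fun _ _ _ => by simp⟩, fun _ _ _ _ => rfl⟩,
    fun _ _ _ _ => rfl⟩
  add_mem' := by
    rintro f g ⟨⟨hf1, ⟨B, hB⟩, hf3⟩, hf4⟩ ⟨⟨hg1, ⟨B', hB'⟩, hg3⟩, hg4⟩
    refine ⟨⟨fun x y => (hf1 x y).add (hg1 x y), ⟨B + B', fun x y om => ?_⟩, fun φ x y om => ?_⟩,
      fun x y h om => ?_⟩
    · exact (abs_add_le _ _).trans (add_le_add (hB x y om) (hB' x y om))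
    · change f _ _ _ + g _ _ _ = f _ _ _ + g _ _ _
      rw [hf3, hg3]
    · change f _ _ _ + g _ _ _ = 0
      rw [hf4 x y h, hg4 x y h, add_zero]
  smul_mem' := by
    rintro c f ⟨⟨hf1, ⟨B, hB⟩, hf3⟩, hf4⟩
    refine ⟨⟨fun x y => (hf1 x y).const_mul c, ⟨|c| * B, fun x y om => ?_⟩, fun φ x y om => ?_⟩,
      fun x y h om => ?_⟩
    · change |c * f x y om| ≤ _
      rw [abs_mul]
      exact mul_le_mul_of_nonneg_left (hB x y om) (abs_nonneg c)
    · change c * f _ _ _ = c * f _ _ _
      rw [hf3]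
    · change c * f _ _ _ = 0
      rw [hf4 x y h, mul_zero]

open Classical in
/-- restriction to darts. -/
noncomputable def Specres (G : SimpleGraph V) (f : V → V → (V × ℕ → ℝ) → ℝ) :
    V → V → (V × ℕ → ℝ) → ℝ :=
  fun x y om => if G.Adj x y then f x y om else 0

theorem Specres_mem {f : V → V → (V × ℕ → ℝ) → ℝ} (h1 : ∀ x y, Measurable (f x y))
    (h2 : ∃ c, ∀ x y om, G.Adj x y → |f x y om| ≤ c)
    (h3 : ∀ (g : G ≃g G) x y om, f (g x) (g y) (actLab g om) = f x y om) :
    Specres G f ∈ SpecE G := by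
  obtain ⟨c, hc⟩ := h2
  refine ⟨⟨fun x y => ?_, ⟨max c 0, fun x y om => ?_⟩, fun φ x y om => ?_⟩, fun x y h om => ?_⟩
  · by_cases h : G.Adj x y
    · have : Specres G f x y = f x y := by funext om; unfold Specres; rw [if_pos h]
      rw [this]; exact h1 x y
    · have : Specres G f x y = fun _ => 0 := by funext om; unfold Specres; rw [if_neg h]
      rw [this]; exact measurable_const
  · unfold Specres
    split_ifs with h
    · exact (hc x y om h).trans (le_max_left _ _)
    · rw [abs_zero]; exact le_max_right _ _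
  · unfold Specres
    by_cases h : G.Adj x y
    · rw [if_pos h, if_pos (φ.map_adj_iff.mpr h), h3]
    · rw [if_neg h, if_neg (fun h' => h (φ.map_adj_iff.mp h'))]
  · unfold Specres; rw [if_neg h]

theorem Specres_apply {f : V → V → (V × ℕ → ℝ) → ℝ} {x y : V} (h : G.Adj x y)
    (om : V × ℕ → ℝ) : Specres G f x y om = f x y om := by
  unfold Specres; rw [if_pos h]

theorem Spec_zero (f : SpecE G) {x y : V} (h : ¬ G.Adj x y) (om : V × ℕ → ℝ) :
    f.1 x y om = 0 := f.2.2 x y h om

theorem Spec_ext {f g : SpecE G} (h : ∀ x y, G.Adj x y → ∀ om, f.1 x y om = g.1 x y om) :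
    f = g := by
  apply Subtype.ext
  funext x y om
  by_cases hxy : G.Adj x y
  · exact h x y hxy om
  · rw [Spec_zero f hxy, Spec_zero g hxy]

theorem Spec_integrable (f : SpecE G) (x y : V) : Integrable (f.1 x y) (Pu (V × ℕ)) := by
  obtain ⟨B, hB⟩ := f.2.1.bdd
  exact Integrable.of_bound (f.2.1.meas x y).aestronglyMeasurable B
    (Eventually.of_forall fun om => hB x y om)

theorem Spec_integrable_mul (f g : SpecE G) (x y : V) :
    Integrable (fun om => f.1 x y om * g.1 x y om) (Pu (V × ℕ)) := by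
  obtain ⟨B, hB⟩ := f.2.1.bdd
  refine (Spec_integrable g x y).bdd_mul (c := B) (f.2.1.meas x y).aestronglyMeasurable
    (Eventually.of_forall fun om => hB x y om)

/-- The bilinear form. -/
noncomputable def SpecB (G : SimpleGraph V) (x y : V) : SpecE G →ₗ[ℝ] SpecE G →ₗ[ℝ] ℝ :=
  LinearMap.mk₂ ℝ (fun f g => ∫ om, f.1 x y om * g.1 x y om ∂(Pu (V × ℕ)))
    (fun f f' g => by
      have e : (fun om => (f + f').1 x y om * g.1 x y om) =
          fun om => f.1 x y om * g.1 x y om + f'.1 x y om * g.1 x y om := by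
        funext om
        change (f.1 x y om + f'.1 x y om) * g.1 x y om = _
        ring
      rw [e]
      exact integral_add (Spec_integrable_mul f g x y) (Spec_integrable_mul f' g x y))
    (fun c f g => by
      have e : (fun om => (c • f).1 x y om * g.1 x y om) =
          fun om => c * (f.1 x y om * g.1 x y om) := by
        funext om
        change (c * f.1 x y om) * g.1 x y om = _
        ring
      rw [e]
      exact integral_const_mul c (fun om => f.1 x y om * g.1 x y om))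
    (fun f g g' => by
      have e : (fun om => f.1 x y om * (g + g').1 x y om) =
          fun om => f.1 x y om * g.1 x y om + f.1 x y om * g'.1 x y om := by
        funext om
        change f.1 x y om * (g.1 x y om + g'.1 x y om) = _
        ring
      rw [e]
      exact integral_add (Spec_integrable_mul f g x y) (Spec_integrable_mul f g' x y))
    (fun c f g => by
      have e : (fun om => f.1 x y om * (c • g).1 x y om) =
          fun om => c * (f.1 x y om * g.1 x y om) := by
        funext om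
        change f.1 x y om * (c * g.1 x y om) = _
        ring
      rw [e]
      exact integral_const_mul c (fun om => f.1 x y om * g.1 x y om))

theorem SpecB_apply (x y : V) (f g : SpecE G) :
    SpecB G x y f g = ∫ om, f.1 x y om * g.1 x y om ∂(Pu (V × ℕ)) := rfl

variable [G.LocallyFinite]

theorem Spec_nsum (x y : V) (f : V → ℝ) [DecidableEq V] :
    nsum G x y f = ∑ z ∈ (G.neighborFinset y).erase x, f z := by
  classical
  unfold nsum
  rw [← Finset.filter_ne', Finset.sum_filter]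
  refine Finset.sum_congr rfl fun z _ => ?_
  by_cases h : z = x <;> simp [h]

theorem Spec_card {b : ℕ} (hd : G.IsRegularOfDegree (b + 1)) {x y : V} (h : G.Adj x y)
    [DecidableEq V] : ((G.neighborFinset y).erase x).card = b := by
  classical
  rw [Finset.card_erase_of_mem (by rw [SimpleGraph.mem_neighborFinset]; exact h.symm),
    SimpleGraph.card_neighborFinset_eq_degree, hd y]
  rfl

/-- The averaging operator. -/
noncomputable def SpecN (hG : G.IsTree) {b : ℕ} (hd : G.IsRegularOfDegree (b + 1)) :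
    SpecE G →ₗ[ℝ] SpecE G where
  toFun f := ⟨Specres G (Nop G b f.1), by
    have h := isFam_Nop hG hd f.2.1
    obtain ⟨B, hB⟩ := h.bdd
    exact Specres_mem h.meas ⟨B, fun x y om _ => hB x y om⟩ h.equiv⟩
  map_add' f g := by
    refine Spec_ext fun x y hxy om => ?_
    change Specres G (Nop G b (f + g).1) x y om =
      Specres G (Nop G b f.1) x y om + Specres G (Nop G b g.1) x y om
    rw [Specres_apply hxy, Specres_apply hxy, Specres_apply hxy]
    unfold Nop
    rw [← mul_add, ← nsum_add]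
    rfl
  map_smul' c f := by
    refine Spec_ext fun x y hxy om => ?_
    change Specres G (Nop G b (c • f).1) x y om = c * Specres G (Nop G b f.1) x y om
    rw [Specres_apply hxy, Specres_apply hxy]
    unfold Nop
    have h : nsum G x y (fun z => (c • f).1 y z om) = c * nsum G x y (fun z => f.1 y z om) :=
      nsum_mul (fun z => f.1 y z om) c
    rw [h]
    ring

theorem SpecN_apply (hG : G.IsTree) {b : ℕ} (hd : G.IsRegularOfDegree (b + 1)) (f : SpecE G)
    {x y : V} (h : G.Adj x y) (om : V × ℕ → ℝ) :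
    (SpecN hG hd f).1 x y om = Nop G b f.1 x y om := Specres_apply h om

/-- Multiplication by a bounded invariant family. -/
noncomputable def SpecK (κ : V → V → (V × ℕ → ℝ) → ℝ) (hκ : IsFam G κ) :
    SpecE G →ₗ[ℝ] SpecE G where
  toFun f := ⟨fun x y om => κ x y om * f.1 x y om, by
    obtain ⟨B, hB⟩ := hκ.bdd
    obtain ⟨B', hB'⟩ := f.2.1.bdd
    refine ⟨⟨fun x y => (hκ.meas x y).mul (f.2.1.meas x y), ⟨|B| * |B'|, fun x y om => ?_⟩,
      fun φ x y om => ?_⟩, fun x y h om => ?_⟩
    · rw [abs_mul]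
      exact mul_le_mul ((hB x y om).trans (le_abs_self _)) ((hB' x y om).trans (le_abs_self _))
        (abs_nonneg _) (abs_nonneg _)
    · rw [hκ.equiv, f.2.1.equiv]
    · change κ x y om * f.1 x y om = 0
      rw [Spec_zero f h, mul_zero]⟩
  map_add' f g := by
    refine Spec_ext fun x y _ om => ?_
    change κ x y om * (f.1 x y om + g.1 x y om) = κ x y om * f.1 x y om + κ x y om * g.1 x y om
    ring
  map_smul' c f := by
    refine Spec_ext fun x y _ om => ?_
    change κ x y om * (c * f.1 x y om) = c * (κ x y om * f.1 x y om)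
    ring

theorem Spec_dart (hG : G.IsTree) {b : ℕ} (hd : G.IsRegularOfDegree (b + 1)) (f : SpecE G)
    {x y x' y' : V} (h : G.Adj x y) (h' : G.Adj x' y') :
    ∫ om, f.1 x y om ∂(Pu (V × ℕ)) = ∫ om, f.1 x' y' om ∂(Pu (V × ℕ)) :=
  integral_dart hG hd f.2.1.equiv h h'

theorem Spec_dart_sq (hG : G.IsTree) {b : ℕ} (hd : G.IsRegularOfDegree (b + 1)) (f : SpecE G)
    {x y x' y' : V} (h : G.Adj x y) (h' : G.Adj x' y') :
    ∫ om, f.1 x y om * f.1 x y om ∂(Pu (V × ℕ)) =
      ∫ om, f.1 x' y' om * f.1 x' y' om ∂(Pu (V × ℕ)) :=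
  integral_dart hG hd (F := fun x y om => f.1 x y om * f.1 x y om)
    (fun g x y om => by simp only [f.2.1.equiv]) h h'

theorem Spec_N_mean (hG : G.IsTree) {b : ℕ} (hb : 2 ≤ b) (hd : G.IsRegularOfDegree (b + 1))
    (f : SpecE G) {x y : V} (h : G.Adj x y) :
    ∫ om, (SpecN hG hd f).1 x y om ∂(Pu (V × ℕ)) = ∫ om, f.1 x y om ∂(Pu (V × ℕ)) := by
  classical
  have hb' : (b : ℝ) ≠ 0 := by positivity
  have e : ∀ om, (SpecN hG hd f).1 x y om =
      (b : ℝ)⁻¹ * ∑ z ∈ (G.neighborFinset y).erase x, f.1 y z om := by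
    intro om
    rw [SpecN_apply hG hd f h]
    unfold Nop
    rw [Spec_nsum]
  simp only [e]
  rw [integral_const_mul, integral_finsetSum _ fun z _ => Spec_integrable f y z]
  rw [Finset.sum_congr rfl (g := fun _ => ∫ om, f.1 x y om ∂(Pu (V × ℕ)))]
  · rw [Finset.sum_const, Spec_card hd h, nsmul_eq_mul, ← mul_assoc, inv_mul_cancel₀ hb', one_mul]
  · intro z hz
    rw [Finset.mem_erase, SimpleGraph.mem_neighborFinset] at hz
    exact Spec_dart hG hd f hz.2 h

theorem Spec_N_norm (hG : G.IsTree) {b : ℕ} (hb : 2 ≤ b) (hd : G.IsRegularOfDegree (b + 1))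
    (f : SpecE G) {x y : V} (h : G.Adj x y) :
    SpecB G x y (SpecN hG hd f) (SpecN hG hd f) ≤ SpecB G x y f f := by
  classical
  have hb' : (b : ℝ) ≠ 0 := by positivity
  have hb0 : (0 : ℝ) < b := by positivity
  have e : ∀ om, (SpecN hG hd f).1 x y om =
      (b : ℝ)⁻¹ * ∑ z ∈ (G.neighborFinset y).erase x, f.1 y z om := by
    intro om
    rw [SpecN_apply hG hd f h]
    unfold Nop
    rw [Spec_nsum]
  rw [SpecB_apply, SpecB_apply]
  have h1 : ∫ om, (SpecN hG hd f).1 x y om * (SpecN hG hd f).1 x y om ∂(Pu (V × ℕ)) ≤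
      ∫ om, (b : ℝ)⁻¹ * ∑ z ∈ (G.neighborFinset y).erase x, f.1 y z om * f.1 y z om
        ∂(Pu (V × ℕ)) := by
    refine integral_mono (Spec_integrable_mul _ _ x y)
      ((integrable_finsetSum _ fun z _ => Spec_integrable_mul f f y z).const_mul _) fun om => ?_
    simp only
    rw [e om]
    have h2 := sq_sum_le_card_mul_sum_sq (s := (G.neighborFinset y).erase x)
      (f := fun z => f.1 y z om)
    rw [Spec_card hd h] at h2
    have h3 : ∑ z ∈ (G.neighborFinset y).erase x, f.1 y z om ^ 2 =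
        ∑ z ∈ (G.neighborFinset y).erase x, f.1 y z om * f.1 y z om :=
      Finset.sum_congr rfl fun z _ => sq _
    rw [← h3]
    calc (b : ℝ)⁻¹ * (∑ z ∈ (G.neighborFinset y).erase x, f.1 y z om) *
          ((b : ℝ)⁻¹ * ∑ z ∈ (G.neighborFinset y).erase x, f.1 y z om)
        = (b : ℝ)⁻¹ * (b : ℝ)⁻¹ * (∑ z ∈ (G.neighborFinset y).erase x, f.1 y z om) ^ 2 := by ring
      _ ≤ (b : ℝ)⁻¹ * (b : ℝ)⁻¹ * (b * ∑ z ∈ (G.neighborFinset y).erase x, f.1 y z om ^ 2) :=
          mul_le_mul_of_nonneg_left h2 (by positivity)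
      _ = (b : ℝ)⁻¹ * ∑ z ∈ (G.neighborFinset y).erase x, f.1 y z om ^ 2 := by
          field_simp
  refine h1.trans (le_of_eq ?_)
  rw [integral_const_mul, integral_finsetSum _ fun z _ => Spec_integrable_mul f f y z]
  rw [Finset.sum_congr rfl (g := fun _ => ∫ om, f.1 x y om * f.1 x y om ∂(Pu (V × ℕ)))]
  · rw [Finset.sum_const, Spec_card hd h, nsmul_eq_mul, ← mul_assoc, inv_mul_cancel₀ hb', one_mul]
  · intro z hz
    rw [Finset.mem_erase, SimpleGraph.mem_neighborFinset] at hz
    exact Spec_dart_sq hG hd f hz.2 h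

theorem Spec_N_iter (hG : G.IsTree) {b : ℕ} (hd : G.IsRegularOfDegree (b + 1))
    (f : SpecE G) (k : ℕ) : ∀ {x y : V}, G.Adj x y → ∀ om,
    ((SpecN hG hd ^ k) f).1 x y om = (Nop G b)^[k] f.1 x y om := by
  classical
  induction k with
  | zero => intro x y _ om; simp
  | succ k ih =>
    intro x y h om
    rw [pow_succ', Function.iterate_succ_apply']
    change (SpecN hG hd ((SpecN hG hd ^ k) f)).1 x y om = _
    rw [SpecN_apply hG hd _ h]
    unfold Nop
    rw [Spec_nsum, Spec_nsum]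
    congr 1
    refine Finset.sum_congr rfl fun z hz => ?_
    rw [Finset.mem_erase, SimpleGraph.mem_neighborFinset] at hz
    exact ih hz.2 om

end Specaux

theorem spec_bound (C0 : ℝ) : ∃ C : ℝ, 0 < C ∧
    ∀ (V : Type u) (G : SimpleGraph V) [G.LocallyFinite] (b : ℕ) (θ θ' : ℝ)
      (m m' : V → (V × ℕ → ℝ) → ℝ) (M M' A : V → V → (V × ℕ → ℝ) → ℝ),
      G.IsTree → 2 ≤ b → G.IsRegularOfDegree (b + 1) →
      0 < θ → θ < 1 → b * θ ^ 2 < 1 → 0 < θ' → θ' < 1 → b * θ' ^ 2 < 1 →
      IsField G θ m M → IsField G θ' m' M' → (∀ x y, Measurable (A x y)) →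
      (∃ c, ∀ x y om, G.Adj x y → |A x y om| ≤ c) →
      (∀ (g : G ≃g G) x y om, A (g x) (g y) (actLab g om) = A x y om) →
      ∀ (x y : V) (a : ℝ), G.Adj x y → 0 < a →
      a = ∫ om, (1 - b * Lf θ M om x y * Lf θ' M' om x y) ∂(Pu (V × ℕ)) →
      ∫ om, (1 - b * Lf θ M om x y * Lf θ' M' om x y) ^ 2 ∂(Pu (V × ℕ)) ≤ (C0 * a) ^ 2 →
      |∫ om, A x y om * Gs G (Lf θ M om) (Lf θ' M' om) x y ∂(Pu (V × ℕ))| ≤
        C * b * (√(∫ om, A x y om ^ 2 ∂(Pu (V × ℕ))) *
            √(∫ om, Bcal G θ θ' M M' x y om ^ 2 ∂(Pu (V × ℕ))) +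
          |∫ om, A x y om ∂(Pu (V × ℕ))| * |∫ om, Bcal G θ θ' M M' x y om ∂(Pu (V × ℕ))| / a) := by
  obtain ⟨C, hC, hmain⟩ := hilbD.{u} C0
  refine ⟨C, hC, ?_⟩
  intro V G _ b θ θ' m m' M M' A hG hb hd hθ0 hθ1 hθ hθ0' hθ1' hθ' hF hF' hA1 hA2 hA3 x y a hxy
    ha0 ha haC
  have hb' : (b : ℝ) ≠ 0 := by positivity
  have hb0 : (0 : ℝ) < b := by positivity
  have hb2 : (2 : ℝ) ≤ b := by exact_mod_cast hb
  -- weights
  have hL0 : ∀ om x y, 0 ≤ Lf θ M om x y := fun om x y => lam_nonneg hθ0.le hθ1 (hF.abs_M x y om)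
  have hL1 : ∀ om x y, Lf θ M om x y ≤ θ := fun om x y => lam_le hθ0.le hθ1 (hF.abs_M x y om)
  have hL0' : ∀ om x y, 0 ≤ Lf θ' M' om x y := fun om x y =>
    lam_nonneg hθ0'.le hθ1' (hF'.abs_M x y om)
  have hL1' : ∀ om x y, Lf θ' M' om x y ≤ θ' := fun om x y =>
    lam_le hθ0'.le hθ1' (hF'.abs_M x y om)
  have mL : ∀ x y, Measurable fun om => Lf θ M om x y := fun x y => by
    unfold Lf lam
    exact ((((hF.meas_M x y).pow_const 2).const_sub 1).const_mul θ).div
      ((((hF.meas_M x y).pow_const 2).const_mul (θ ^ 2)).const_sub 1)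
  have mL' : ∀ x y, Measurable fun om => Lf θ' M' om x y := fun x y => by
    unfold Lf lam
    exact ((((hF'.meas_M x y).pow_const 2).const_sub 1).const_mul θ').div
      ((((hF'.meas_M x y).pow_const 2).const_mul (θ' ^ 2)).const_sub 1)
  have eL : ∀ (g : G ≃g G) x y om, Lf θ M (actLab g om) (g x) (g y) = Lf θ M om x y :=
    fun g x y om => by unfold Lf; rw [hF.equiv_M]
  have eL' : ∀ (g : G ≃g G) x y om, Lf θ' M' (actLab g om) (g x) (g y) = Lf θ' M' om x y :=
    fun g x y om => by unfold Lf; rw [hF'.equiv_M]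
  have hbθθ : b * (θ * θ') ≤ 1 := by
    nlinarith [sq_nonneg (θ - θ'), mul_nonneg hb0.le (sq_nonneg (θ - θ'))]
  set κ : V → V → (V × ℕ → ℝ) → ℝ := fun x y om => 1 - b * Lf θ M om x y * Lf θ' M' om x y
    with hκdef
  have hLL : ∀ om x y, Lf θ M om x y * Lf θ' M' om x y ≤ θ * θ' := fun om x y =>
    mul_le_mul (hL1 om x y) (hL1' om x y) (hL0' om x y) hθ0.le
  have hκ0 : ∀ x y om, 0 ≤ κ x y om := fun x y om => by
    simp only [hκdef]
    have := mul_le_mul_of_nonneg_left (hLL om x y) hb0.le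
    nlinarith
  have hκ1 : ∀ x y om, κ x y om ≤ 1 := fun x y om => by
    simp only [hκdef]
    have := mul_nonneg (mul_nonneg hb0.le (hL0 om x y)) (hL0' om x y)
    linarith
  have hκ : IsFam G κ := by
    refine ⟨fun x y => ?_, ⟨1, fun x y om => ?_⟩, fun g x y om => ?_⟩
    · exact (((mL x y).const_mul _).mul (mL' x y)).const_sub 1
    · rw [abs_of_nonneg (hκ0 x y om)]; exact hκ1 x y om
    · simp only [hκdef]; rw [eL, eL']
  -- elements
  set K := SpecK κ hκ with hK
  set N := SpecN hG hd with hN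
  let one : SpecE G := ⟨Specres G (fun _ _ _ => 1), Specres_mem (fun _ _ => measurable_const)
    ⟨1, fun _ _ _ _ => by simp⟩ (fun _ _ _ _ => rfl)⟩
  have hone : ∀ {x y : V}, G.Adj x y → ∀ om, one.1 x y om = 1 := fun h om =>
    Specres_apply (f := fun _ _ _ => (1 : ℝ)) h om
  let AE : SpecE G := ⟨Specres G A, Specres_mem hA1 hA2 hA3⟩
  have hAE : ∀ om, AE.1 x y om = A x y om := fun om => Specres_apply hxy om
  let ΓE : SpecE G := ⟨Specres G (fun x y om => Gs G (Lf θ M om) (Lf θ' M' om) x y),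
    Specres_mem (fun x y => measurable_Gs hF hF' x y)
    ⟨_, fun x y om h => abs_Gs_le hd (hL0 om) (hL1 om) hθ (hL0' om) (hL1' om) hθ' h⟩
    (fun g x y om => Gs_act hF hF' g x y om)⟩
  have hΓE : ∀ {x y : V}, G.Adj x y → ∀ om,
      ΓE.1 x y om = Gs G (Lf θ M om) (Lf θ' M' om) x y := fun h om =>
    Specres_apply (f := fun x y om => Gs G (Lf θ M om) (Lf θ' M' om) x y) h om
  have hXbd : ∀ x y om, G.Adj x y → |Bcal G θ θ' M M' x y om| ≤
      θ' * (θ + θ') * (1 / (1 - b * θ' ^ 2)) := by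
    intro x y om h
    unfold Bcal
    have h1 := one_le_Xs hd (hL0' om) (hL1' om) hθ' h
    have h2 := Xs_le hd (hL0' om) (hL1' om) hθ' h
    have h3 : |Xs G (Lf θ' M' om) x y| = Xs G (Lf θ' M' om) x y := abs_of_nonneg (by linarith)
    rw [abs_mul, abs_mul, abs_of_nonneg (hL0' om x y), h3]
    refine mul_le_mul (mul_le_mul (hL1' om x y) ?_ (abs_nonneg _) hθ0'.le) h2 (by linarith)
      (by positivity)
    rw [abs_le]
    constructor
    · have := hL0 om x y; have := hL1' om x y; linarith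
    · have := hL1 om x y; have := hL0' om x y; linarith
  let BE : SpecE G := ⟨Specres G (Bcal G θ θ' M M'), Specres_mem
    (fun x y => ((mL' x y).mul ((mL x y).sub (mL' x y))).mul (measurable_Xs hF' x y))
    ⟨_, hXbd⟩
    (fun g x y om => by unfold Bcal; rw [eL, eL', Xs_act hF'])⟩
  have hBE : ∀ {x y : V}, G.Adj x y → ∀ om, BE.1 x y om = Bcal G θ θ' M M' x y om :=
    fun h om => Specres_apply h om
  set B := SpecB G x y with hB
  -- application
  have happ := hmain (SpecE G) B N K one a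
    (fun f g => by
      rw [hB, SpecB_apply, SpecB_apply]
      congr 1; funext om; ring)
    (fun f => by
      rw [hB, SpecB_apply]
      exact integral_nonneg fun om => mul_self_nonneg _)
    (by
      rw [hB, SpecB_apply]
      simp only [hone hxy]
      simp)
    (by
      refine Spec_ext fun x y h om => ?_
      rw [hN, SpecN_apply hG hd _ h, hone h]
      unfold Nop
      have : nsum G x y (fun z => one.1 y z om) = nsum G x y (fun _ => 1) :=
        nsum_congr fun z hz _ => hone hz om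
      rw [this, nsum_const hd h, mul_one, inv_mul_cancel₀ hb'])
    (fun f => by
      rw [hB, SpecB_apply, SpecB_apply]
      simp only [hone hxy, one_mul]
      exact Spec_N_mean hG hb hd f hxy)
    (fun f => Spec_N_norm hG hb hd f hxy)
    (fun f hf k => by
      rcases Nat.eq_zero_or_pos k with rfl | hk
      · have : 0 ≤ B f f := by
          rw [hB, SpecB_apply]
          exact integral_nonneg fun om => mul_self_nonneg _
        simp only [pow_zero, Module.End.one_apply, mul_one]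
        push_cast
        nlinarith
      · have hf0 : ∫ om, f.1 x y om ∂(Pu (V × ℕ)) = 0 := by
          rw [hB, SpecB_apply] at hf
          simpa only [hone hxy, one_mul] using hf
        have ht := tempered hG hb hd f.2.1 hxy hf0 k
        rw [hB, SpecB_apply, SpecB_apply]
        have e1 : (fun om => ((N ^ k) f).1 x y om * ((N ^ k) f).1 x y om) =
            fun om => ((Nop G b)^[k] f.1 x y om) ^ 2 := by
          funext om
          rw [hN, Spec_N_iter hG hd f k hxy, sq]
        have e2 : (fun om => f.1 x y om * f.1 x y om) = fun om => f.1 x y om ^ 2 := by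
          funext om; exact (sq _).symm
        rw [e1, e2]
        refine ht.trans ?_
        have h0 : 0 ≤ ∫ om, f.1 x y om ^ 2 ∂(Pu (V × ℕ)) :=
          integral_nonneg fun om => sq_nonneg _
        refine mul_le_mul_of_nonneg_right ?_ h0
        obtain ⟨j, rfl⟩ : ∃ j, k = j + 1 := ⟨k - 1, by omega⟩
        have h3 : (b : ℝ) * ((b : ℝ)⁻¹) ^ (j + 1) = ((b : ℝ)⁻¹) ^ j := by
          rw [pow_succ, mul_comm, mul_assoc, inv_mul_cancel₀ hb', mul_one]
        have h4 : ((b : ℝ)⁻¹) ^ j ≤ (1 / 2) ^ j := by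
          refine pow_le_pow_left₀ (by positivity) ?_ j
          rw [one_div]
          exact inv_anti₀ (by norm_num) hb2
        have h5 : (1 / 2 : ℝ) ^ j = 2 * (1 / 2) ^ (j + 1) := by rw [pow_succ]; ring
        calc (((j + 1 : ℕ) : ℝ) + 2) ^ 2 * b * ((b : ℝ)⁻¹) ^ (j + 1)
            = (((j + 1 : ℕ) : ℝ) + 2) ^ 2 * (b * ((b : ℝ)⁻¹) ^ (j + 1)) := by ring
          _ ≤ (((j + 1 : ℕ) : ℝ) + 2) ^ 2 * (2 * (1 / 2) ^ (j + 1)) := by
              rw [h3]
              exact mul_le_mul_of_nonneg_left (h4.trans h5.le) (by positivity)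
          _ = 2 * (((j + 1 : ℕ) : ℝ) + 2) ^ 2 * (1 / 2) ^ (j + 1) := by ring)
    (fun f g => by
      rw [hB, SpecB_apply, SpecB_apply]
      congr 1; funext om
      change (κ x y om * f.1 x y om) * g.1 x y om = f.1 x y om * (κ x y om * g.1 x y om)
      ring)
    (fun f => by
      rw [hB, SpecB_apply, SpecB_apply]
      refine integral_mono (Spec_integrable_mul _ _ x y) (Spec_integrable_mul _ _ x y) fun om => ?_
      change (κ x y om * f.1 x y om) * (κ x y om * f.1 x y om) ≤ (κ x y om * f.1 x y om) * f.1 x y om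
      have h1 := hκ0 x y om
      have h2 := hκ1 x y om
      have h3 : κ x y om * κ x y om ≤ κ x y om := by nlinarith
      nlinarith [mul_le_mul_of_nonneg_right h3 (mul_self_nonneg (f.1 x y om))])
    (by
      rw [hB, SpecB_apply, ha]
      congr 1; funext om
      change one.1 x y om * (κ x y om * one.1 x y om) = _
      rw [hone hxy, one_mul, mul_one])
    ha0
    (by
      rw [hB, SpecB_apply]
      refine le_trans (le_of_eq ?_) haC
      congr 1; funext om
      change (κ x y om * one.1 x y om) * (κ x y om * one.1 x y om) = _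
      rw [hone hxy, mul_one, sq])
  set R := N * (1 - K) with hR
  set g : SpecE G := (b : ℝ) • N BE with hg
  have hΓrec : ΓE = R ΓE + g := by
    refine Spec_ext fun x y h om => ?_
    change ΓE.1 x y om = (N ((1 - K) ΓE)).1 x y om + b * (N BE).1 x y om
    rw [hN, SpecN_apply hG hd _ h, SpecN_apply hG hd _ h, hΓE h,
      Gs_rec hd (hL0 om) (hL1 om) hθ (hL0' om) (hL1' om) hθ' h]
    unfold Nop
    rw [← mul_assoc, mul_inv_cancel₀ hb', one_mul]
    have e1 : nsum G x y (fun z => ((1 - K) ΓE).1 y z om) =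
        b * nsum G x y (fun z => Lf θ M om y z * Lf θ' M' om y z *
          Gs G (Lf θ M om) (Lf θ' M' om) y z) := by
      rw [← nsum_mul]
      refine nsum_congr fun z hz _ => ?_
      change ΓE.1 y z om - κ y z om * ΓE.1 y z om = _
      rw [hΓE hz]
      simp only [hκdef]
      ring
    have e2 : nsum G x y (fun z => BE.1 y z om) =
        nsum G x y (fun z => Bcal G θ θ' M M' y z om) := nsum_congr fun z hz _ => hBE hz om
    rw [e1, e2, ← mul_assoc, inv_mul_cancel₀ hb', one_mul, ← nsum_add]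
    rfl
  have hΓn : ∀ n : ℕ, ΓE = ∑ k ∈ Finset.range n, (R ^ k) g + (R ^ n) ΓE := by
    intro n
    induction n with
    | zero => simp
    | succ n ih =>
      rw [Finset.sum_range_succ]
      conv_lhs => rw [ih]
      have : (R ^ n) ΓE = (R ^ n) g + (R ^ (n + 1)) ΓE := by
        conv_lhs => rw [hΓrec]
        rw [map_add, pow_succ, add_comm]
        rfl
      rw [this, add_assoc]
  set D := √(B AE AE) * √(B g g) + |B one AE| * |B one g| / a with hD
  set D' := √(B AE AE) * √(B ΓE ΓE) + |B one AE| * |B one ΓE| / a with hD'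
  have hlim : Tendsto (fun n : ℕ => |B AE ((R ^ n) ΓE)|) atTop (𝓝 0) := by
    have hs : Summable (fun n : ℕ => |B AE ((R ^ n) ΓE)|) :=
      summable_of_sum_range_le (fun n => abs_nonneg _) (fun n => happ AE ΓE n)
    exact hs.tendsto_atTop_zero
  have hkey : |B AE ΓE| ≤ C * D := by
    have h1 : ∀ n : ℕ, |B AE ΓE| ≤ C * D + |B AE ((R ^ n) ΓE)| := by
      intro n
      have h2 := happ AE g n
      conv_lhs => rw [hΓn n]
      rw [map_add, map_sum]
      refine (abs_add_le _ _).trans (add_le_add_left ?_ _)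
      exact (Finset.abs_sum_le_sum_abs _ _).trans h2
    have h2 : Tendsto (fun n : ℕ => C * D + |B AE ((R ^ n) ΓE)|) atTop (𝓝 (C * D + 0)) :=
      tendsto_const_nhds.add hlim
    rw [add_zero] at h2
    exact ge_of_tendsto' h2 h1
  have eAΓ : B AE ΓE = ∫ om, A x y om * Gs G (Lf θ M om) (Lf θ' M' om) x y ∂(Pu (V × ℕ)) := by
    rw [hB, SpecB_apply]
    simp only [hAE, hΓE hxy]
  have eAA : B AE AE = ∫ om, A x y om ^ 2 ∂(Pu (V × ℕ)) := by
    rw [hB, SpecB_apply]
    simp only [hAE, sq]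
  have eBB : B BE BE = ∫ om, Bcal G θ θ' M M' x y om ^ 2 ∂(Pu (V × ℕ)) := by
    rw [hB, SpecB_apply]
    simp only [hBE hxy, sq]
  have e1A : B one AE = ∫ om, A x y om ∂(Pu (V × ℕ)) := by
    rw [hB, SpecB_apply]
    simp only [hAE, hone hxy, one_mul]
  have e1B : B one BE = ∫ om, Bcal G θ θ' M M' x y om ∂(Pu (V × ℕ)) := by
    rw [hB, SpecB_apply]
    simp only [hBE hxy, hone hxy, one_mul]
  have hgg : √(B g g) ≤ b * √(B BE BE) := by
    have h1 : B g g = (b : ℝ) ^ 2 * B (N BE) (N BE) := by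
      rw [hg, map_smul, map_smul, LinearMap.smul_apply, smul_eq_mul, smul_eq_mul]; ring
    have h2 : B g g ≤ (b : ℝ) ^ 2 * B BE BE := by
      rw [h1]
      exact mul_le_mul_of_nonneg_left (Spec_N_norm hG hb hd BE hxy) (by positivity)
    calc √(B g g) ≤ √((b : ℝ) ^ 2 * B BE BE) := Real.sqrt_le_sqrt h2
      _ = b * √(B BE BE) := by
          rw [Real.sqrt_mul (by positivity), Real.sqrt_sq hb0.le]
  have h1g : B one g = b * B one BE := by
    rw [hg, map_smul, smul_eq_mul]
    congr 1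
    rw [hB, SpecB_apply, SpecB_apply]
    simp only [hone hxy, one_mul]
    exact Spec_N_mean hG hb hd BE hxy
  rw [← eAΓ]
  refine hkey.trans ?_
  rw [hD, h1g, ← eAA, ← eBB, ← e1A, ← e1B, mul_assoc C (b : ℝ)]
  refine mul_le_mul_of_nonneg_left ?_ hC.le
  have h3 : √(B AE AE) * √(B g g) ≤ √(B AE AE) * (b * √(B BE BE)) :=
    mul_le_mul_of_nonneg_left hgg (Real.sqrt_nonneg _)
  rw [abs_mul, abs_of_nonneg hb0.le]
  calc √(B AE AE) * √(B g g) + |B one AE| * (b * |B one BE|) / a
      ≤ √(B AE AE) * (b * √(B BE BE)) + |B one AE| * (b * |B one BE|) / a :=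
        add_le_add_left h3 _
    _ = b * (√(B AE AE) * √(B BE BE) + |B one AE| * |B one BE| / a) := by ring

end Vale.Agent.P161.EP
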