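import Mathlib
import Vale.Agent.P161.EP.Spec

/-!
# Module G3 (Gbound): the bound of the driving term

Proof.  `J v w = a_v ker v w`, `a_v - a'_v = m'² - m²`, so
`∑_w (J - J')² ≤ 2 a_v² ∑_w (ker - ker')² + 8 dm_v² ∑_w ker'²`, `hasSum_ker_sub_sq`,
`hasSum_ker_sq`; `E ∑_w J'(v,w)² dm_w² = E dm_v² ∑_w J'(w,v)² = E dm_v² ∑_w J'(v,w)²`
(`integral_swap`, `ker_reverse`); `integral_W`; `spec_bound` with
`A x y = a_x² X(y,x) λ(x,y) Δ(x,y)`; `integral_dart`.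
-/

open MeasureTheory

namespace Vale.Agent.P161.EP

universe u

/-- `𝓐 = a_x² X(y,x) λ(x,y) Δ(x,y)`. -/
noncomputable def Acal {V : Type u} (G : SimpleGraph V) [G.LocallyFinite] (θ θ' : ℝ)
    (m : V → (V × ℕ → ℝ) → ℝ) (M M' : V → V → (V × ℕ → ℝ) → ℝ) (x y : V) (om : V × ℕ → ℝ) : ℝ :=
  (1 - m x om ^ 2) ^ 2 * Xs G (Lf θ M om) y x * Lf θ M om x y *
    (Lf θ M om x y - Lf θ' M' om x y)

section Gaux

variable {V : Type u} {G : SimpleGraph V} [G.LocallyFinite] {b : ℕ} {θ θ' : ℝ}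
  {m m' : V → (V × ℕ → ℝ) → ℝ} {M M' : V → V → (V × ℕ → ℝ) → ℝ}

theorem ker_const (hG : G.IsTree) (c : ℝ) (v w : V) :
    ker G (fun _ _ => c) v w = c ^ G.dist v w := by
  induction hn : G.dist v w generalizing v with
  | zero =>
    obtain rfl := (hG.connected.dist_eq_zero_iff).1 hn
    rw [ker_self, pow_zero]
  | succ n ih =>
    have hne : v ≠ w := by
      rintro rfl
      simp at hn
    obtain ⟨z, hz, hd⟩ := exists_adj_dist hG.connected hne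
    rw [ker_rec hG hz (by omega), pow_succ', ih z (by omega)]

theorem gb_summable_pow_dist (hG : G.IsTree) (hd : G.IsRegularOfDegree (b + 1)) (h0 : 0 ≤ θ)
    (hθ : b * θ ^ 2 < 1) (v : V) : Summable fun w => (θ ^ G.dist v w) ^ 2 := by
  have h := (hasSum_ker_sq (L := fun _ _ => θ) hG hd (fun _ _ => h0) (fun _ _ => le_rfl) hθ v)
  simp_rw [ker_const hG] at h
  exact h.summable

/-- `∑_w (ker x w)²`. -/
noncomputable def skf (G : SimpleGraph V) [G.LocallyFinite] (θ : ℝ)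
    (M : V → V → (V × ℕ → ℝ) → ℝ) (x : V) (om : V × ℕ → ℝ) : ℝ :=
  1 + ∑ z ∈ G.neighborFinset x, Lf θ M om x z ^ 2 * Xs G (Lf θ M om) x z

theorem hasSum_skf (hG : G.IsTree) (hd : G.IsRegularOfDegree (b + 1)) (h0 : 0 ≤ θ)
    (h1 : θ < 1) (hθ : b * θ ^ 2 < 1) (hF : IsField G θ m M) (om : V × ℕ → ℝ) (x : V) :
    HasSum (fun w => ker G (Lf θ M om) x w ^ 2) (skf G θ M x om) :=
  hasSum_ker_sq hG hd (Lf_nonneg h0 h1 hF om) (Lf_le h0 h1 hF om) hθ x

theorem hasSum_qf (hG : G.IsTree) (hd : G.IsRegularOfDegree (b + 1)) (h0 : 0 ≤ θ)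
    (h1 : θ < 1) (hθ : b * θ ^ 2 < 1) (h0' : 0 ≤ θ') (h1' : θ' < 1) (hθ' : b * θ' ^ 2 < 1)
    (hF : IsField G θ m M) (hF' : IsField G θ' m' M') (om : V × ℕ → ℝ) (x : V) :
    HasSum (fun w => (ker G (Lf θ M om) x w - ker G (Lf θ' M' om) x w) ^ 2)
      (∑ z ∈ G.neighborFinset x, qf G θ θ' M M' x z om) := by
  have h := hasSum_ker_sub_sq hG hd (Lf_nonneg h0 h1 hF om) (Lf_le h0 h1 hF om) hθ
    (Lf_nonneg h0' h1' hF' om) (Lf_le h0' h1' hF' om) hθ' x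
  have e : (∑ z ∈ G.neighborFinset x, qf G θ θ' M M' x z om) = ∑ z ∈ G.neighborFinset x,
      (Lf θ M om x z ^ 2 * Vs G (Lf θ M om) (Lf θ' M' om) x z +
        2 * Lf θ M om x z * (Lf θ M om x z - Lf θ' M' om x z) *
          Gs G (Lf θ M om) (Lf θ' M' om) x z +
        (Lf θ M om x z - Lf θ' M' om x z) ^ 2 * Xs G (Lf θ' M' om) x z) := by
    refine Finset.sum_congr rfl fun z _ => ?_
    unfold qf Bf
    ring
  rw [e]
  exact h

/-- `J'(v,w)² dm_w²`. -/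
noncomputable def Tf (G : SimpleGraph V) [G.LocallyFinite] (θ' : ℝ)
    (m m' : V → (V × ℕ → ℝ) → ℝ) (M' : V → V → (V × ℕ → ℝ) → ℝ) (v w : V)
    (om : V × ℕ → ℝ) : ℝ :=
  ((1 - m' v om ^ 2) * ker G (Lf θ' M' om) v w) ^ 2 * (m w om - m' w om) ^ 2

omit [G.LocallyFinite] in
theorem sq_sub_field_le (hF : IsField G θ m M) (hF' : IsField G θ' m' M') (v : V)
    (om : V × ℕ → ℝ) : (m v om - m' v om) ^ 2 ≤ 4 := by
  have h1 := abs_le.1 (hF.abs_m v om)
  have h2 := abs_le.1 (hF'.abs_m v om)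
  nlinarith [h1.1, h1.2, h2.1, h2.2]

theorem Tf_nonneg (v w : V) (om : V × ℕ → ℝ) : 0 ≤ Tf G θ' m m' M' v w om :=
  mul_nonneg (sq_nonneg _) (sq_nonneg _)

theorem aker_sq_le (hF' : IsField G θ' m' M') (v w : V) (om : V × ℕ → ℝ) :
    ((1 - m' v om ^ 2) * ker G (Lf θ' M' om) v w) ^ 2 ≤ ker G (Lf θ' M' om) v w ^ 2 := by
  obtain ⟨c1, c2⟩ := a_bd hF' v om
  rw [mul_pow]
  have h : (1 - m' v om ^ 2) ^ 2 ≤ 1 := by nlinarith
  have := mul_le_mul_of_nonneg_right h (sq_nonneg (ker G (Lf θ' M' om) v w))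
  linarith

theorem ker_sq_le (hG : G.IsTree) (h0' : 0 ≤ θ') (h1' : θ' < 1) (hF' : IsField G θ' m' M')
    (v w : V) (om : V × ℕ → ℝ) :
    ker G (Lf θ' M' om) v w ^ 2 ≤ (θ' ^ G.dist v w) ^ 2 :=
  pow_le_pow_left₀ (ker_nonneg hG (Lf_nonneg h0' h1' hF' om) _ _)
    (ker_le hG (Lf_nonneg h0' h1' hF' om) (Lf_le h0' h1' hF' om) _ _) 2

theorem Tf_le (hG : G.IsTree) (h0' : 0 ≤ θ') (h1' : θ' < 1) (hF : IsField G θ m M)
    (hF' : IsField G θ' m' M') (v w : V) (om : V × ℕ → ℝ) :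
    Tf G θ' m m' M' v w om ≤ 4 * (θ' ^ G.dist v w) ^ 2 := by
  have h1 := aker_sq_le hF' v w om
  have h2 := ker_sq_le hG h0' h1' hF' v w om
  have h3 := sq_sub_field_le hF hF' w om
  unfold Tf
  calc _ ≤ (θ' ^ G.dist v w) ^ 2 * 4 := mul_le_mul (h1.trans h2) h3 (sq_nonneg _) (sq_nonneg _)
    _ = _ := by ring

theorem summable_Tf (hG : G.IsTree) (hd : G.IsRegularOfDegree (b + 1)) (h0' : 0 ≤ θ')
    (h1' : θ' < 1) (hθ' : b * θ' ^ 2 < 1) (hF : IsField G θ m M) (hF' : IsField G θ' m' M')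
    (v : V) (om : V × ℕ → ℝ) : Summable fun w => Tf G θ' m m' M' v w om :=
  Summable.of_nonneg_of_le (fun w => Tf_nonneg v w om)
    (fun w => Tf_le hG h0' h1' hF hF' v w om)
    ((gb_summable_pow_dist hG hd h0' hθ' v).mul_left 4)

omit [G.LocallyFinite] in
theorem Gterm_le (hF : IsField G θ m M) (hF' : IsField G θ' m' M') (v : V) (om : V × ℕ → ℝ)
    (k k' : ℝ) :
    8 * ((1 - m v om ^ 2) * k - (1 - m' v om ^ 2) * k') ^ 2 ≤
      16 * (1 - m v om ^ 2) ^ 2 * (k - k') ^ 2 + 64 * (m v om - m' v om) ^ 2 * k' ^ 2 := by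
  have h1 := abs_le.1 (hF.abs_m v om)
  have h2 := abs_le.1 (hF'.abs_m v om)
  set a := m v om
  set c := m' v om
  have h3 : (a + c) ^ 2 ≤ 4 := by nlinarith [h1.1, h1.2, h2.1, h2.2]
  have h4 : (a ^ 2 - c ^ 2) ^ 2 ≤ 4 * (a - c) ^ 2 := by
    have e : (a ^ 2 - c ^ 2) ^ 2 = (a + c) ^ 2 * (a - c) ^ 2 := by ring
    rw [e]
    exact mul_le_mul_of_nonneg_right h3 (sq_nonneg _)
  have h5 := mul_le_mul_of_nonneg_right h4 (sq_nonneg k')
  nlinarith [sq_nonneg ((1 - a ^ 2) * (k - k') - (c ^ 2 - a ^ 2) * k')]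

theorem Gterm_crude (hF : IsField G θ m M) (hF' : IsField G θ' m' M') (v : V) (om : V × ℕ → ℝ)
    (k k' : ℝ) :
    8 * ((1 - m v om ^ 2) * k - (1 - m' v om ^ 2) * k') ^ 2 ≤ 16 * k ^ 2 + 16 * k' ^ 2 := by
  obtain ⟨c1, c2⟩ := a_bd hF v om
  obtain ⟨c3, c4⟩ := a_bd hF' v om
  set a := 1 - m v om ^ 2
  set c := 1 - m' v om ^ 2
  have h1 : a ^ 2 ≤ 1 := by nlinarith
  have h2 : c ^ 2 ≤ 1 := by nlinarith
  have h3 := mul_le_mul_of_nonneg_right h1 (sq_nonneg k)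
  have h4 := mul_le_mul_of_nonneg_right h2 (sq_nonneg k')
  nlinarith [sq_nonneg (a * k + c * k')]

theorem Gt_nonneg (x : V) (om : V × ℕ → ℝ) :
    0 ≤ Gt G θ θ' (fun v => m v om) (fun v => m' v om) (fun x y => M x y om)
      (fun x y => M' x y om) x := by
  unfold Gt
  exact tsum_nonneg fun w => by positivity

theorem Gt_le (hG : G.IsTree) (hd : G.IsRegularOfDegree (b + 1)) (h0 : 0 ≤ θ)
    (h1 : θ < 1) (hθ : b * θ ^ 2 < 1) (h0' : 0 ≤ θ') (h1' : θ' < 1) (hθ' : b * θ' ^ 2 < 1)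
    (hF : IsField G θ m M) (hF' : IsField G θ' m' M') (x : V) (om : V × ℕ → ℝ) :
    Gt G θ θ' (fun v => m v om) (fun v => m' v om) (fun x y => M x y om)
      (fun x y => M' x y om) x ≤
      16 * (1 - m x om ^ 2) ^ 2 * (∑ z ∈ G.neighborFinset x, qf G θ θ' M M' x z om) +
        64 * (m x om - m' x om) ^ 2 * skf G θ' M' x om +
        32 * ∑' w, Tf G θ' m m' M' x w om := by
  have s1 := (hasSum_qf hG hd h0 h1 hθ h0' h1' hθ' hF hF' om x).mul_left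
    (16 * (1 - m x om ^ 2) ^ 2)
  have s2 := (hasSum_skf hG hd h0' h1' hθ' hF' om x).mul_left (64 * (m x om - m' x om) ^ 2)
  have s3 := ((summable_Tf hG hd h0' h1' hθ' hF hF' x om).hasSum).mul_left 32
  have s4 := (s1.add s2).add s3
  have hle : ∀ w, (8 * (Jk G θ (fun v => m v om) (fun x y => M x y om) x w -
      Jk G θ' (fun v => m' v om) (fun x y => M' x y om) x w) ^ 2 +
      32 * (Jk G θ' (fun v => m' v om) (fun x y => M' x y om) x w) ^ 2 *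
        (m w om - m' w om) ^ 2) ≤
      16 * (1 - m x om ^ 2) ^ 2 * (ker G (Lf θ M om) x w - ker G (Lf θ' M' om) x w) ^ 2 +
        64 * (m x om - m' x om) ^ 2 * ker G (Lf θ' M' om) x w ^ 2 +
        32 * Tf G θ' m m' M' x w om := by
    intro w
    have e1 := Gterm_le hF hF' x om (ker G (Lf θ M om) x w) (ker G (Lf θ' M' om) x w)
    have e2 : 32 * Tf G θ' m m' M' x w om =
        32 * (Jk G θ' (fun v => m' v om) (fun x y => M' x y om) x w) ^ 2 *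
        (m w om - m' w om) ^ 2 := by
      rw [mul_assoc]
      rfl
    rw [e2]
    exact add_le_add_left e1 _
  refine le_of_le_of_eq ?_ s4.tsum_eq
  refine Summable.tsum_le_tsum hle ?_ s4.summable
  exact Summable.of_nonneg_of_le (fun w => by positivity) hle s4.summable

theorem Gt_crude (hG : G.IsTree) (hd : G.IsRegularOfDegree (b + 1)) (h0 : 0 ≤ θ)
    (h1 : θ < 1) (hθ : b * θ ^ 2 < 1) (h0' : 0 ≤ θ') (h1' : θ' < 1) (hθ' : b * θ' ^ 2 < 1)
    (hF : IsField G θ m M) (hF' : IsField G θ' m' M') (x : V) (om : V × ℕ → ℝ) :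
    Gt G θ θ' (fun v => m v om) (fun v => m' v om) (fun x y => M x y om)
      (fun x y => M' x y om) x ≤ 16 * skf G θ M x om + 144 * skf G θ' M' x om := by
  have s1 := (hasSum_skf hG hd h0 h1 hθ hF om x).mul_left 16
  have s2 := (hasSum_skf hG hd h0' h1' hθ' hF' om x).mul_left 144
  have s4 := s1.add s2
  have hle : ∀ w, (8 * (Jk G θ (fun v => m v om) (fun x y => M x y om) x w -
      Jk G θ' (fun v => m' v om) (fun x y => M' x y om) x w) ^ 2 +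
      32 * (Jk G θ' (fun v => m' v om) (fun x y => M' x y om) x w) ^ 2 *
        (m w om - m' w om) ^ 2) ≤
      16 * ker G (Lf θ M om) x w ^ 2 + 144 * ker G (Lf θ' M' om) x w ^ 2 := by
    intro w
    have e1 := Gterm_crude hF hF' x om (ker G (Lf θ M om) x w) (ker G (Lf θ' M' om) x w)
    have e2 := aker_sq_le hF' x w om
    have e3 := sq_sub_field_le hF hF' w om
    have e4 : ((1 - m' x om ^ 2) * ker G (Lf θ' M' om) x w) ^ 2 * (m w om - m' w om) ^ 2 ≤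
        ker G (Lf θ' M' om) x w ^ 2 * 4 := mul_le_mul e2 e3 (sq_nonneg _) (sq_nonneg _)
    have e5 : 32 * (Jk G θ' (fun v => m' v om) (fun x y => M' x y om) x w) ^ 2 *
        (m w om - m' w om) ^ 2 =
        32 * (((1 - m' x om ^ 2) * ker G (Lf θ' M' om) x w) ^ 2 * (m w om - m' w om) ^ 2) := by
      rw [mul_assoc]
      rfl
    rw [e5]
    have e6 : 8 * (Jk G θ (fun v => m v om) (fun x y => M x y om) x w -
      Jk G θ' (fun v => m' v om) (fun x y => M' x y om) x w) ^ 2 ≤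
        16 * ker G (Lf θ M om) x w ^ 2 + 16 * ker G (Lf θ' M' om) x w ^ 2 := e1
    linarith
  refine le_of_le_of_eq ?_ s4.tsum_eq
  refine Summable.tsum_le_tsum hle ?_ s4.summable
  exact Summable.of_nonneg_of_le (fun w => by positivity) hle s4.summable

theorem gb_measurable_kerN (hF : IsField G θ m M) (n : ℕ) (v w : V) :
    Measurable fun om => kerN G (Lf θ M om) n v w := by
  classical
  induction n generalizing v with
  | zero => exact measurable_const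
  | succ n ih =>
    simp only [kerN]
    refine Finset.measurable_sum _ fun z _ => ?_
    by_cases h : G.dist z w < G.dist v w
    · simp only [h, if_true]
      exact (measurable_Lf hF v z).mul (ih z)
    · simp only [h, if_false]
      exact measurable_const

theorem measurable_Tf (hF : IsField G θ m M) (hF' : IsField G θ' m' M') (v w : V) :
    Measurable fun om => Tf G θ' m m' M' v w om := by
  have h1 : Measurable fun om => ker G (Lf θ' M' om) v w := gb_measurable_kerN hF' _ v w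
  have h2 := hF'.meas_m v
  have h3 := hF'.meas_m w
  have h4 := hF.meas_m w
  unfold Tf
  fun_prop

theorem Tf_act (hF : IsField G θ m M) (hF' : IsField G θ' m' M') (g : G ≃g G) (v w : V)
    (om : V × ℕ → ℝ) : Tf G θ' m m' M' (g v) (g w) (actLab g om) = Tf G θ' m m' M' v w om := by
  unfold Tf
  rw [ker_act hF', hF'.equiv_m, hF'.equiv_m, hF.equiv_m]

theorem measurable_skf (hF : IsField G θ m M) (x : V) :
    Measurable fun om => skf G θ M x om := by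
  unfold skf
  refine measurable_const.add (Finset.measurable_sum _ fun z _ => ?_)
  exact ((measurable_Lf hF x z).pow_const 2).mul (measurable_Xs hF x z)

theorem skf_nonneg (hd : G.IsRegularOfDegree (b + 1)) (h0 : 0 ≤ θ) (h1 : θ < 1)
    (hθ : b * θ ^ 2 < 1) (hF : IsField G θ m M) (x : V) (om : V × ℕ → ℝ) :
    0 ≤ skf G θ M x om := by
  unfold skf
  refine add_nonneg zero_le_one (Finset.sum_nonneg fun z hz => ?_)
  rw [SimpleGraph.mem_neighborFinset] at hz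
  exact mul_nonneg (sq_nonneg _)
    (zero_le_one.trans (one_le_Xs hd (Lf_nonneg h0 h1 hF om) (Lf_le h0 h1 hF om) hθ hz))

/-- bounds on a dart. -/
theorem dart_bd (hd : G.IsRegularOfDegree (b + 1)) (h0 : 0 ≤ θ) (h1 : θ < 1)
    (hθ : b * θ ^ 2 < 1) (hF : IsField G θ m M) {x y : V} (h : G.Adj x y) (om : V × ℕ → ℝ) :
    1 ≤ Xs G (Lf θ M om) x y ∧ Xs G (Lf θ M om) x y ≤ 1 / (1 - b * θ ^ 2) ∧
      Lf θ M om x y ^ 2 * Xs G (Lf θ M om) x y ≤ Xs G (Lf θ M om) x y := by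
  have e1 := one_le_Xs hd (Lf_nonneg h0 h1 hF om) (Lf_le h0 h1 hF om) hθ h
  have e2 := Xs_le hd (Lf_nonneg h0 h1 hF om) (Lf_le h0 h1 hF om) hθ h
  have e3 := Lf_nonneg h0 h1 hF om x y
  have e4 := Lf_le h0 h1 hF om x y
  refine ⟨e1, e2, ?_⟩
  have e5 : Lf θ M om x y ^ 2 ≤ 1 := by nlinarith
  nlinarith [mul_le_mul_of_nonneg_right e5 (zero_le_one.trans e1)]

theorem skf_le (hd : G.IsRegularOfDegree (b + 1)) (h0 : 0 ≤ θ) (h1 : θ < 1)
    (hθ : b * θ ^ 2 < 1) (hF : IsField G θ m M) (x : V) (om : V × ℕ → ℝ) :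
    skf G θ M x om ≤ 1 + (b + 1) * (1 / (1 - b * θ ^ 2)) := by
  unfold skf
  have h : ∑ z ∈ G.neighborFinset x, Lf θ M om x z ^ 2 * Xs G (Lf θ M om) x z ≤
      ∑ z ∈ G.neighborFinset x, 1 / (1 - b * θ ^ 2) := by
    refine Finset.sum_le_sum fun z hz => ?_
    rw [SimpleGraph.mem_neighborFinset] at hz
    obtain ⟨e1, e2, e3⟩ := dart_bd hd h0 h1 hθ hF hz om
    exact e3.trans e2
  rw [Finset.sum_const, SimpleGraph.card_neighborFinset_eq_degree, hd.degree_eq x,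
    nsmul_eq_mul] at h
  push_cast at h
  linarith

theorem integrable_skf (hd : G.IsRegularOfDegree (b + 1)) (h0 : 0 ≤ θ) (h1 : θ < 1)
    (hθ : b * θ ^ 2 < 1) (hF : IsField G θ m M) (x : V) :
    Integrable (fun om => skf G θ M x om) (Pu (V × ℕ)) :=
  integrable_of_bdd (measurable_skf hF x) fun om => by
    rw [abs_of_nonneg (skf_nonneg hd h0 h1 hθ hF x om)]
    exact skf_le hd h0 h1 hθ hF x om

theorem integrable_dsq_skf (hd : G.IsRegularOfDegree (b + 1)) (h0' : 0 ≤ θ')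
    (h1' : θ' < 1) (hθ' : b * θ' ^ 2 < 1) (hF : IsField G θ m M) (hF' : IsField G θ' m' M')
    (x : V) :
    Integrable (fun om => (m x om - m' x om) ^ 2 * skf G θ' M' x om) (Pu (V × ℕ)) :=
  integrable_of_bdd ((((hF.meas_m x).sub (hF'.meas_m x)).pow_const 2).mul
    (measurable_skf hF' x)) (C := 4 * (1 + (b + 1) * (1 / (1 - b * θ' ^ 2)))) fun om => by
    rw [abs_of_nonneg (mul_nonneg (sq_nonneg _) (skf_nonneg hd h0' h1' hθ' hF' x om))]
    exact mul_le_mul (sq_sub_field_le hF hF' x om) (skf_le hd h0' h1' hθ' hF' x om)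
      (skf_nonneg hd h0' h1' hθ' hF' x om) (by norm_num)

theorem integral_tsum_Tf_le (hG : G.IsTree) (hd : G.IsRegularOfDegree (b + 1))
    (h0' : 0 ≤ θ') (h1' : θ' < 1) (hθ' : b * θ' ^ 2 < 1) (hF : IsField G θ m M)
    (hF' : IsField G θ' m' M') (x : V) :
    Integrable (fun om => ∑' w, Tf G θ' m m' M' x w om) (Pu (V × ℕ)) ∧
    ∫ om, ∑' w, Tf G θ' m m' M' x w om ∂(Pu (V × ℕ)) ≤
      ∫ om, (m x om - m' x om) ^ 2 * skf G θ' M' x om ∂(Pu (V × ℕ)) := by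
  have : Countable V := countable_of_locallyFinite hG.connected
  have hsum := (gb_summable_pow_dist hG hd h0' hθ' x).mul_left 4
  have hTi : ∀ v w, Integrable (fun om => Tf G θ' m m' M' v w om) (Pu (V × ℕ)) := fun v w =>
    integrable_of_bdd (measurable_Tf hF hF' v w) fun om => by
      rw [abs_of_nonneg (Tf_nonneg v w om)]
      exact Tf_le hG h0' h1' hF hF' v w om
  constructor
  · refine integrable_of_bdd (Measurable.tsum fun w => measurable_Tf hF hF' x w)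
      (C := ∑' w, 4 * (θ' ^ G.dist x w) ^ 2) fun om => ?_
    rw [abs_of_nonneg (tsum_nonneg fun w => Tf_nonneg x w om)]
    exact (summable_Tf hG hd h0' h1' hθ' hF hF' x om).tsum_le_tsum
      (fun w => Tf_le hG h0' h1' hF hF' x w om) hsum
  · have i1 : ∫ om, ∑' w, Tf G θ' m m' M' x w om ∂(Pu (V × ℕ)) =
        ∑' w, ∫ om, Tf G θ' m m' M' x w om ∂(Pu (V × ℕ)) := by
      symm
      refine integral_tsum_of_summable_integral_norm (fun w => hTi x w) ?_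
      refine Summable.of_nonneg_of_le (fun w => integral_nonneg fun om => norm_nonneg _)
        (fun w => ?_) hsum
      have e : ∫ om, ‖Tf G θ' m m' M' x w om‖ ∂(Pu (V × ℕ)) ≤
          ∫ om, 4 * (θ' ^ G.dist x w) ^ 2 ∂(Pu (V × ℕ)) := by
        refine integral_mono (hTi x w).norm (integrable_const _) fun om => ?_
        rw [Real.norm_of_nonneg (Tf_nonneg x w om)]
        exact Tf_le hG h0' h1' hF hF' x w om
      refine e.trans (le_of_eq ?_)
      simp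
    have i2 : ∀ w, ∫ om, Tf G θ' m m' M' x w om ∂(Pu (V × ℕ)) =
        ∫ om, (1 - m' x om ^ 2) ^ 2 * (m x om - m' x om) ^ 2 * ker G (Lf θ' M' om) x w ^ 2
          ∂(Pu (V × ℕ)) := by
      intro w
      rw [integral_swap hG hd (F := Tf G θ' m m' M') (fun g x y om => Tf_act hF hF' g x y om)]
      refine integral_congr_ae ?_
      filter_upwards [reversal h0' h1' hF'] with om hom
      have e := ker_reverse (G := G) (L := Lf θ' M' om) hG (a := fun v => 1 - m' v om ^ 2) hom w x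
      unfold Tf
      rw [e]
      ring
    have i3 : ∀ w, Integrable (fun om => (1 - m' x om ^ 2) ^ 2 * (m x om - m' x om) ^ 2 *
        ker G (Lf θ' M' om) x w ^ 2) (Pu (V × ℕ)) := by
      intro w
      have q1 : Measurable fun om => ker G (Lf θ' M' om) x w := gb_measurable_kerN hF' _ x w
      have q2 := hF'.meas_m x
      have q3 := hF.meas_m x
      refine integrable_of_bdd (by fun_prop) (C := 1 * 4 * (θ' ^ G.dist x w) ^ 2) fun om => ?_
      have q4 : (1 - m' x om ^ 2) ^ 2 ≤ 1 := by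
        obtain ⟨c1, c2⟩ := a_bd hF' x om
        nlinarith
      rw [abs_of_nonneg (by positivity)]
      exact mul_le_mul (mul_le_mul q4 (sq_sub_field_le hF hF' x om) (sq_nonneg _) zero_le_one)
        (ker_sq_le hG h0' h1' hF' x w om) (sq_nonneg _) (by norm_num)
    rw [i1]
    simp_rw [i2]
    have i4 : ∑' w, ∫ om, (1 - m' x om ^ 2) ^ 2 * (m x om - m' x om) ^ 2 *
        ker G (Lf θ' M' om) x w ^ 2 ∂(Pu (V × ℕ)) =
        ∫ om, ∑' w, (1 - m' x om ^ 2) ^ 2 * (m x om - m' x om) ^ 2 *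
        ker G (Lf θ' M' om) x w ^ 2 ∂(Pu (V × ℕ)) := by
      refine integral_tsum_of_summable_integral_norm i3 ?_
      refine Summable.of_nonneg_of_le (fun w => integral_nonneg fun om => norm_nonneg _)
        (fun w => ?_) hsum
      have e : ∫ om, ‖(1 - m' x om ^ 2) ^ 2 * (m x om - m' x om) ^ 2 *
          ker G (Lf θ' M' om) x w ^ 2‖ ∂(Pu (V × ℕ)) ≤
          ∫ om, 4 * (θ' ^ G.dist x w) ^ 2 ∂(Pu (V × ℕ)) := by
        refine integral_mono (i3 w).norm (integrable_const _) fun om => ?_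
        have q4 : (1 - m' x om ^ 2) ^ 2 ≤ 1 := by
          obtain ⟨c1, c2⟩ := a_bd hF' x om
          nlinarith
        change ‖(1 - m' x om ^ 2) ^ 2 * (m x om - m' x om) ^ 2 *
          ker G (Lf θ' M' om) x w ^ 2‖ ≤ 4 * (θ' ^ G.dist x w) ^ 2
        rw [Real.norm_of_nonneg (by positivity), ← one_mul (4 : ℝ)]
        exact mul_le_mul (mul_le_mul q4 (sq_sub_field_le hF hF' x om) (sq_nonneg _) zero_le_one)
          (ker_sq_le hG h0' h1' hF' x w om) (sq_nonneg _) (by norm_num)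
      refine e.trans (le_of_eq ?_)
      simp
    rw [i4]
    refine integral_mono_of_nonneg (Filter.Eventually.of_forall fun om =>
      tsum_nonneg fun w => by positivity)
      (integrable_dsq_skf hd h0' h1' hθ' hF hF' x) (Filter.Eventually.of_forall fun om => ?_)
    have h := (hasSum_skf hG hd h0' h1' hθ' hF' om x).mul_left
      ((1 - m' x om ^ 2) ^ 2 * (m x om - m' x om) ^ 2)
    change ∑' w, (1 - m' x om ^ 2) ^ 2 * (m x om - m' x om) ^ 2 *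
        ker G (Lf θ' M' om) x w ^ 2 ≤ (m x om - m' x om) ^ 2 * skf G θ' M' x om
    rw [h.tsum_eq]
    have q4 : (1 - m' x om ^ 2) ^ 2 ≤ 1 := by
      obtain ⟨c1, c2⟩ := a_bd hF' x om
      nlinarith
    have q5 := mul_nonneg (sq_nonneg (m x om - m' x om)) (skf_nonneg hd h0' h1' hθ' hF' x om)
    have q6 := mul_le_mul_of_nonneg_right q4 q5
    linarith

/-- Summation over the neighbours of an invariant integral. -/
theorem sum_neighbor_integral (hG : G.IsTree) (hd : G.IsRegularOfDegree (b + 1))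
    {F : V → V → (V × ℕ → ℝ) → ℝ}
    (hF : ∀ (g : G ≃g G) x y om, F (g x) (g y) (actLab g om) = F x y om)
    {x y : V} (h : G.Adj x y) :
    ∑ z ∈ G.neighborFinset x, ∫ om, F x z om ∂(Pu (V × ℕ)) =
      (b + 1) * ∫ om, F x y om ∂(Pu (V × ℕ)) := by
  have e : ∀ z ∈ G.neighborFinset x, ∫ om, F x z om ∂(Pu (V × ℕ)) =
      ∫ om, F x y om ∂(Pu (V × ℕ)) := by
    intro z hz
    rw [SimpleGraph.mem_neighborFinset] at hz
    exact integral_dart hG hd hF hz h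
  rw [Finset.sum_congr rfl e, Finset.sum_const, SimpleGraph.card_neighborFinset_eq_degree,
    hd.degree_eq x, nsmul_eq_mul]
  push_cast
  ring

theorem integrable_Xs (hd : G.IsRegularOfDegree (b + 1)) (h0 : 0 ≤ θ) (h1 : θ < 1)
    (hθ : b * θ ^ 2 < 1) (hF : IsField G θ m M) {x y : V} (h : G.Adj x y) :
    Integrable (fun om => Xs G (Lf θ M om) x y) (Pu (V × ℕ)) :=
  integrable_of_bdd (measurable_Xs hF x y) fun om => by
    obtain ⟨e1, e2, e3⟩ := dart_bd hd h0 h1 hθ hF h om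
    rw [abs_of_nonneg (zero_le_one.trans e1)]
    exact e2

theorem integral_skf_le (hG : G.IsTree) (hd : G.IsRegularOfDegree (b + 1)) (h0 : 0 ≤ θ)
    (h1 : θ < 1) (hθ : b * θ ^ 2 < 1) (hF : IsField G θ m M) {x y : V} (h : G.Adj x y) :
    ∫ om, skf G θ M x om ∂(Pu (V × ℕ)) ≤ (b + 2) * ∫ om, Xs G (Lf θ M om) x y ∂(Pu (V × ℕ)) := by
  have hi : ∀ z, G.Adj x z →
      Integrable (fun om => Lf θ M om x z ^ 2 * Xs G (Lf θ M om) x z) (Pu (V × ℕ)) := by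
    intro z hz
    refine integrable_of_bdd (((measurable_Lf hF x z).pow_const 2).mul (measurable_Xs hF x z))
      (C := 1 / (1 - b * θ ^ 2)) fun om => ?_
    obtain ⟨e1, e2, e3⟩ := dart_bd hd h0 h1 hθ hF hz om
    rw [abs_of_nonneg (mul_nonneg (sq_nonneg _) (zero_le_one.trans e1))]
    exact e3.trans e2
  have e1 : ∫ om, skf G θ M x om ∂(Pu (V × ℕ)) =
      1 + (b + 1) * ∫ om, Lf θ M om x y ^ 2 * Xs G (Lf θ M om) x y ∂(Pu (V × ℕ)) := by
    unfold skf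
    rw [integral_add (integrable_const _)
      (integrable_finsetSum _ fun z hz => hi z ((SimpleGraph.mem_neighborFinset _ _ _).1 hz)),
      integral_finsetSum _ fun z hz => hi z ((SimpleGraph.mem_neighborFinset _ _ _).1 hz),
      sum_neighbor_integral hG hd
        (F := fun x z om => Lf θ M om x z ^ 2 * Xs G (Lf θ M om) x z)
        (fun g x z om => by rw [Lf_act hF, Xs_act hF]) h]
    simp
  have e2 : ∫ om, Lf θ M om x y ^ 2 * Xs G (Lf θ M om) x y ∂(Pu (V × ℕ)) ≤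
      ∫ om, Xs G (Lf θ M om) x y ∂(Pu (V × ℕ)) :=
    integral_mono (hi y h) (integrable_Xs hd h0 h1 hθ hF h) fun om =>
      (dart_bd hd h0 h1 hθ hF h om).2.2
  have e3 : 1 ≤ ∫ om, Xs G (Lf θ M om) x y ∂(Pu (V × ℕ)) := by
    have : ∫ _ : V × ℕ → ℝ, (1 : ℝ) ∂(Pu (V × ℕ)) ≤ ∫ om, Xs G (Lf θ M om) x y ∂(Pu (V × ℕ)) :=
      integral_mono (integrable_const _) (integrable_Xs hd h0 h1 hθ hF h) fun om =>
        (dart_bd hd h0 h1 hθ hF h om).1
    simpa using this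
  have e4 : (0 : ℝ) ≤ (b + 1 : ℝ) := by positivity
  rw [e1]
  nlinarith [mul_le_mul_of_nonneg_left e2 e4]

theorem integral_dsq_skf_le (hG : G.IsTree) (hd : G.IsRegularOfDegree (b + 1)) (h0' : 0 ≤ θ')
    (h1' : θ' < 1) (hθ' : b * θ' ^ 2 < 1) (hF : IsField G θ m M) (hF' : IsField G θ' m' M')
    {x y : V} (h : G.Adj x y) :
    ∫ om, (m x om - m' x om) ^ 2 * skf G θ' M' x om ∂(Pu (V × ℕ)) ≤
      (b + 1) * ∫ om, (1 + Xs G (Lf θ' M' om) x y) * (m x om - m' x om) ^ 2 ∂(Pu (V × ℕ)) := by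
  have hm : Measurable fun om => (m x om - m' x om) ^ 2 :=
    ((hF.meas_m x).sub (hF'.meas_m x)).pow_const 2
  have hi0 : Integrable (fun om => (m x om - m' x om) ^ 2) (Pu (V × ℕ)) :=
    integrable_of_bdd hm fun om => by
      rw [abs_of_nonneg (sq_nonneg _)]
      exact sq_sub_field_le hF hF' x om
  have hi : ∀ z, G.Adj x z → Integrable (fun om => (m x om - m' x om) ^ 2 *
      (Lf θ' M' om x z ^ 2 * Xs G (Lf θ' M' om) x z)) (Pu (V × ℕ)) := by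
    intro z hz
    refine integrable_of_bdd (hm.mul (((measurable_Lf hF' x z).pow_const 2).mul
      (measurable_Xs hF' x z))) (C := 4 * (1 / (1 - b * θ' ^ 2))) fun om => ?_
    obtain ⟨e1, e2, e3⟩ := dart_bd hd h0' h1' hθ' hF' hz om
    have e4 := mul_nonneg (sq_nonneg (Lf θ' M' om x z)) (zero_le_one.trans e1)
    rw [abs_of_nonneg (mul_nonneg (sq_nonneg _) e4)]
    exact mul_le_mul (sq_sub_field_le hF hF' x om) (e3.trans e2) e4 (by norm_num)
  have hi2 : Integrable (fun om => Xs G (Lf θ' M' om) x y * (m x om - m' x om) ^ 2)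
      (Pu (V × ℕ)) := by
    refine integrable_of_bdd ((measurable_Xs hF' x y).mul hm)
      (C := (1 / (1 - b * θ' ^ 2)) * 4) fun om => ?_
    obtain ⟨e1, e2, e3⟩ := dart_bd hd h0' h1' hθ' hF' h om
    rw [abs_of_nonneg (mul_nonneg (zero_le_one.trans e1) (sq_nonneg _))]
    exact mul_le_mul e2 (sq_sub_field_le hF hF' x om) (sq_nonneg _)
      ((zero_le_one.trans e1).trans e2)
  have e1 : ∫ om, (m x om - m' x om) ^ 2 * skf G θ' M' x om ∂(Pu (V × ℕ)) =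
      ∫ om, (m x om - m' x om) ^ 2 ∂(Pu (V × ℕ)) + (b + 1) *
        ∫ om, (m x om - m' x om) ^ 2 * (Lf θ' M' om x y ^ 2 * Xs G (Lf θ' M' om) x y)
          ∂(Pu (V × ℕ)) := by
    have e : ∀ om, (m x om - m' x om) ^ 2 * skf G θ' M' x om = (m x om - m' x om) ^ 2 +
        ∑ z ∈ G.neighborFinset x, (m x om - m' x om) ^ 2 *
          (Lf θ' M' om x z ^ 2 * Xs G (Lf θ' M' om) x z) := by
      intro om
      unfold skf
      rw [mul_add, mul_one, Finset.mul_sum]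
    simp_rw [e]
    rw [integral_add hi0
      (integrable_finsetSum _ fun z hz => hi z ((SimpleGraph.mem_neighborFinset _ _ _).1 hz)),
      integral_finsetSum _ fun z hz => hi z ((SimpleGraph.mem_neighborFinset _ _ _).1 hz),
      sum_neighbor_integral hG hd
        (F := fun x z om => (m x om - m' x om) ^ 2 *
          (Lf θ' M' om x z ^ 2 * Xs G (Lf θ' M' om) x z))
        (fun g x z om => by rw [Lf_act hF', Xs_act hF', hF.equiv_m, hF'.equiv_m]) h]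
  have e2 : ∫ om, (m x om - m' x om) ^ 2 * (Lf θ' M' om x y ^ 2 * Xs G (Lf θ' M' om) x y)
      ∂(Pu (V × ℕ)) ≤ ∫ om, Xs G (Lf θ' M' om) x y * (m x om - m' x om) ^ 2 ∂(Pu (V × ℕ)) := by
    refine integral_mono (hi y h) hi2 fun om => ?_
    have := mul_le_mul_of_nonneg_left (dart_bd hd h0' h1' hθ' hF' h om).2.2
      (sq_nonneg (m x om - m' x om))
    refine this.trans (le_of_eq ?_)
    ring
  have e3 : ∫ om, (1 + Xs G (Lf θ' M' om) x y) * (m x om - m' x om) ^ 2 ∂(Pu (V × ℕ)) =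
      ∫ om, (m x om - m' x om) ^ 2 ∂(Pu (V × ℕ)) +
        ∫ om, Xs G (Lf θ' M' om) x y * (m x om - m' x om) ^ 2 ∂(Pu (V × ℕ)) := by
    rw [← integral_add hi0 hi2]
    congr 1
    funext om
    ring
  have e4 : 0 ≤ ∫ om, (m x om - m' x om) ^ 2 ∂(Pu (V × ℕ)) :=
    integral_nonneg fun om => sq_nonneg _
  have e5 : (0 : ℝ) ≤ (b : ℝ) := by positivity
  rw [e1, e3]
  nlinarith [mul_nonneg e5 e4, mul_le_mul_of_nonneg_left e2 (by linarith : (0 : ℝ) ≤ (b : ℝ) + 1)]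

/-- First reduction of the driving term. -/
theorem integral_Gt_le (hG : G.IsTree) (hd : G.IsRegularOfDegree (b + 1)) (h0 : 0 ≤ θ)
    (h1 : θ < 1) (hθ : b * θ ^ 2 < 1) (h0' : 0 ≤ θ') (h1' : θ' < 1) (hθ' : b * θ' ^ 2 < 1)
    (hF : IsField G θ m M) (hF' : IsField G θ' m' M') {x y : V} (h : G.Adj x y) :
    ∫ om, Gt G θ θ' (fun v => m v om) (fun v => m' v om) (fun x y => M x y om)
      (fun x y => M' x y om) x ∂(Pu (V × ℕ)) ≤
      16 * (b + 1) * ∫ om, (1 - m x om ^ 2) ^ 2 * qf G θ θ' M M' x y om ∂(Pu (V × ℕ)) +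
        96 * (b + 1) *
          ∫ om, (1 + Xs G (Lf θ' M' om) x y) * (m x om - m' x om) ^ 2 ∂(Pu (V × ℕ)) := by
  obtain ⟨C, hC0, hC⟩ := exists_Bf_bound hd h0 h1 hθ h0' h1' hθ' hF hF'
  obtain ⟨t1, t2⟩ := integral_tsum_Tf_le hG hd h0' h1' hθ' hF hF' x
  have hq : ∀ z, G.Adj x z → Integrable (fun om => (1 - m x om ^ 2) ^ 2 *
      qf G θ θ' M M' x z om) (Pu (V × ℕ)) := by
    intro z hz
    refine integrable_of_bdd ((measurable_a hF x).mul (measurable_qf hF hF' x z))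
      (C := 1 * C) fun om => ?_
    rw [abs_mul, abs_of_nonneg (sq_nonneg _)]
    have q4 : (1 - m x om ^ 2) ^ 2 ≤ 1 := by
      obtain ⟨c1, c2⟩ := a_bd hF x om
      nlinarith
    exact mul_le_mul q4 (hC x z om hz).2 (abs_nonneg _) zero_le_one
  have e0 : ∀ om, 16 * (1 - m x om ^ 2) ^ 2 *
      (∑ z ∈ G.neighborFinset x, qf G θ θ' M M' x z om) =
      16 * ∑ z ∈ G.neighborFinset x, (1 - m x om ^ 2) ^ 2 * qf G θ θ' M M' x z om := by
    intro om
    rw [mul_assoc, Finset.mul_sum]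
  have hi1 : Integrable (fun om => 16 * (1 - m x om ^ 2) ^ 2 *
      (∑ z ∈ G.neighborFinset x, qf G θ θ' M M' x z om)) (Pu (V × ℕ)) := by
    simp_rw [e0]
    exact (integrable_finsetSum _ fun z hz =>
      hq z ((SimpleGraph.mem_neighborFinset _ _ _).1 hz)).const_mul 16
  have hi2 : Integrable (fun om => 64 * (m x om - m' x om) ^ 2 * skf G θ' M' x om)
      (Pu (V × ℕ)) := by
    have := (integrable_dsq_skf hd h0' h1' hθ' hF hF' x).const_mul 64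
    refine this.congr (Filter.Eventually.of_forall fun om => ?_)
    change 64 * ((m x om - m' x om) ^ 2 * skf G θ' M' x om) = _
    ring
  have hi3 := t1.const_mul 32
  have k1 : ∫ om, Gt G θ θ' (fun v => m v om) (fun v => m' v om) (fun x y => M x y om)
      (fun x y => M' x y om) x ∂(Pu (V × ℕ)) ≤
      ∫ om, (16 * (1 - m x om ^ 2) ^ 2 * (∑ z ∈ G.neighborFinset x, qf G θ θ' M M' x z om) +
        64 * (m x om - m' x om) ^ 2 * skf G θ' M' x om +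
        32 * ∑' w, Tf G θ' m m' M' x w om) ∂(Pu (V × ℕ)) :=
    integral_mono_of_nonneg (Filter.Eventually.of_forall fun om => Gt_nonneg x om)
      ((hi1.add hi2).add hi3)
      (Filter.Eventually.of_forall fun om =>
        Gt_le hG hd h0 h1 hθ h0' h1' hθ' hF hF' x om)
  have q1 := integral_add (hi1.add hi2) hi3
  have q2 := integral_add hi1 hi2
  simp only [Pi.add_apply] at q1
  rw [q1, q2] at k1
  have k2 : ∫ om, 16 * (1 - m x om ^ 2) ^ 2 *
      (∑ z ∈ G.neighborFinset x, qf G θ θ' M M' x z om) ∂(Pu (V × ℕ)) =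
      16 * (((b : ℝ) + 1) * ∫ om, (1 - m x om ^ 2) ^ 2 * qf G θ θ' M M' x y om ∂(Pu (V × ℕ))) := by
    simp_rw [e0]
    rw [integral_const_mul, integral_finsetSum _ fun z hz =>
      hq z ((SimpleGraph.mem_neighborFinset _ _ _).1 hz),
      sum_neighbor_integral hG hd
        (F := fun x z om => (1 - m x om ^ 2) ^ 2 * qf G θ θ' M M' x z om)
        (fun g x z om => by rw [qf_act hF hF', hF.equiv_m]) h]
  have k3 : ∫ om, 64 * (m x om - m' x om) ^ 2 * skf G θ' M' x om ∂(Pu (V × ℕ)) =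
      64 * ∫ om, (m x om - m' x om) ^ 2 * skf G θ' M' x om ∂(Pu (V × ℕ)) := by
    rw [← integral_const_mul]
    congr 1
    funext om
    ring
  rw [k2, k3, integral_const_mul] at k1
  have k4 := integral_dsq_skf_le hG hd h0' h1' hθ' hF hF' h
  nlinarith

theorem measurable_Acal (hF : IsField G θ m M) (hF' : IsField G θ' m' M') (u v : V) :
    Measurable (Acal G θ θ' m M M' u v) := by
  have r1 := measurable_Xs (G := G) hF v u
  have r2 := measurable_Lf (θ := θ) hF u v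
  have r3 := measurable_Lf (θ := θ') hF' u v
  have r4 := hF.meas_m u
  change Measurable fun om => Acal G θ θ' m M M' u v om
  unfold Acal
  fun_prop

theorem abs_Delta_le (h0 : 0 ≤ θ) (h1 : θ < 1) (h0' : 0 ≤ θ') (h1' : θ' < 1)
    (hF : IsField G θ m M) (hF' : IsField G θ' m' M') (u v : V) (om : V × ℕ → ℝ) :
    |Lf θ M om u v - Lf θ' M' om u v| ≤ 1 := by
  have c1 := Lf_nonneg h0 h1 hF om u v
  have c2 := Lf_le h0 h1 hF om u v
  have c3 := Lf_nonneg h0' h1' hF' om u v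
  have c4 := Lf_le h0' h1' hF' om u v
  rw [abs_le]
  constructor <;> linarith

theorem Delta_sq_le (h0 : 0 ≤ θ) (h1 : θ < 1) (h0' : 0 ≤ θ') (h1' : θ' < 1)
    (hF : IsField G θ m M) (hF' : IsField G θ' m' M') (u v : V) (om : V × ℕ → ℝ) :
    (Lf θ M om u v - Lf θ' M' om u v) ^ 2 ≤ 1 := by
  rw [sq_le_one_iff_abs_le_one]
  exact abs_Delta_le h0 h1 h0' h1' hF hF' u v om

theorem asq_le (hF : IsField G θ m M) (v : V) (om : V × ℕ → ℝ) : (1 - m v om ^ 2) ^ 2 ≤ 1 := by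
  obtain ⟨c1, c2⟩ := a_bd hF v om
  nlinarith

theorem abs_Acal_le (hd : G.IsRegularOfDegree (b + 1)) (h0 : 0 ≤ θ) (h1 : θ < 1)
    (hθ : b * θ ^ 2 < 1) (h0' : 0 ≤ θ') (h1' : θ' < 1) (hF : IsField G θ m M)
    (hF' : IsField G θ' m' M') {u v : V} (huv : G.Adj u v) (om : V × ℕ → ℝ) :
    |Acal G θ θ' m M M' u v om| ≤ 1 * (1 / (1 - b * θ ^ 2)) * 1 * 1 := by
  unfold Acal
  obtain ⟨e1, e2, -⟩ := dart_bd hd h0 h1 hθ hF huv.symm om
  have e3 := Lf_nonneg h0 h1 hF om u v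
  have e4 := (Lf_le h0 h1 hF om u v).trans h1.le
  rw [abs_mul, abs_mul, abs_mul, abs_of_nonneg (sq_nonneg (1 - m u om ^ 2)),
    abs_of_nonneg (zero_le_one.trans e1), abs_of_nonneg e3]
  have p1 : 0 < 1 - b * θ ^ 2 := by linarith
  have p3 : 0 ≤ 1 / (1 - b * θ ^ 2) := by positivity
  exact mul_le_mul (mul_le_mul (mul_le_mul (asq_le hF u om) e2 (zero_le_one.trans e1) zero_le_one)
    e4 e3 (by positivity)) (abs_Delta_le h0 h1 h0' h1' hF hF' u v om) (abs_nonneg _)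
    (by positivity)

theorem integrable_Q1 (hd : G.IsRegularOfDegree (b + 1)) (h0 : 0 ≤ θ) (h1 : θ < 1)
    (hθ : b * θ ^ 2 < 1) (h0' : 0 ≤ θ') (h1' : θ' < 1) (hF : IsField G θ m M)
    (hF' : IsField G θ' m' M') {x y : V} (hxy : G.Adj x y) :
    Integrable (fun om => Xs G (Lf θ M om) y x ^ 2 *
      (Lf θ M om x y - Lf θ' M' om x y) ^ 2) (Pu (V × ℕ)) := by
  have mX := measurable_Xs (G := G) hF y x
  have mL := measurable_Lf (θ := θ) hF x y
  have mL' := measurable_Lf (θ := θ') hF' x y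
  refine integrable_of_bdd (by fun_prop) (C := (1 / (1 - b * θ ^ 2)) ^ 2 * 1) fun om => ?_
  obtain ⟨e1, e2, -⟩ := dart_bd hd h0 h1 hθ hF hxy.symm om
  rw [abs_of_nonneg (by positivity)]
  exact mul_le_mul (pow_le_pow_left₀ (zero_le_one.trans e1) e2 2)
    (Delta_sq_le h0 h1 h0' h1' hF hF' x y om) (sq_nonneg _) (by positivity)

theorem integrable_Q2 (hd : G.IsRegularOfDegree (b + 1)) (h0 : 0 ≤ θ) (h1 : θ < 1)
    (h0' : 0 ≤ θ') (h1' : θ' < 1) (hθ' : b * θ' ^ 2 < 1) (hF : IsField G θ m M)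
    (hF' : IsField G θ' m' M') {x y : V} (hxy : G.Adj x y) :
    Integrable (fun om => Xs G (Lf θ' M' om) x y ^ 2 *
      (Lf θ M om x y - Lf θ' M' om x y) ^ 2) (Pu (V × ℕ)) := by
  have mX := measurable_Xs (G := G) hF' x y
  have mL := measurable_Lf (θ := θ) hF x y
  have mL' := measurable_Lf (θ := θ') hF' x y
  refine integrable_of_bdd (by fun_prop) (C := (1 / (1 - b * θ' ^ 2)) ^ 2 * 1) fun om => ?_
  obtain ⟨e1, e2, -⟩ := dart_bd hd h0' h1' hθ' hF' hxy om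
  rw [abs_of_nonneg (by positivity)]
  exact mul_le_mul (pow_le_pow_left₀ (zero_le_one.trans e1) e2 2)
    (Delta_sq_le h0 h1 h0' h1' hF hF' x y om) (sq_nonneg _) (by positivity)

theorem Acal_sq_le (h0 : 0 ≤ θ) (h1 : θ < 1) (hF : IsField G θ m M) (x y : V)
    (om : V × ℕ → ℝ) : Acal G θ θ' m M M' x y om ^ 2 ≤
      Xs G (Lf θ M om) y x ^ 2 * (Lf θ M om x y - Lf θ' M' om x y) ^ 2 := by
  have e3 := Lf_nonneg h0 h1 hF om x y
  have e4 := (Lf_le h0 h1 hF om x y).trans h1.le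
  have e5 : Lf θ M om x y ^ 2 ≤ 1 := by nlinarith
  have e6 : ((1 - m x om ^ 2) ^ 2) ^ 2 ≤ 1 := by
    have h2 := asq_le hF x om
    have h3 := sq_nonneg (1 - m x om ^ 2)
    nlinarith
  have e7 : ((1 - m x om ^ 2) ^ 2) ^ 2 * Lf θ M om x y ^ 2 ≤ 1 * 1 :=
    mul_le_mul e6 e5 (sq_nonneg _) zero_le_one
  have e8 : 0 ≤ Xs G (Lf θ M om) y x ^ 2 * (Lf θ M om x y - Lf θ' M' om x y) ^ 2 := by
    positivity
  unfold Acal
  calc _ = (((1 - m x om ^ 2) ^ 2) ^ 2 * Lf θ M om x y ^ 2) *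
        (Xs G (Lf θ M om) y x ^ 2 * (Lf θ M om x y - Lf θ' M' om x y) ^ 2) := by ring
    _ ≤ 1 * 1 * (Xs G (Lf θ M om) y x ^ 2 * (Lf θ M om x y - Lf θ' M' om x y) ^ 2) :=
      mul_le_mul_of_nonneg_right e7 e8
    _ = _ := by ring

theorem Bcal_sq_le (h0' : 0 ≤ θ') (h1' : θ' < 1) (hF' : IsField G θ' m' M') (x y : V)
    (om : V × ℕ → ℝ) : Bcal G θ θ' M M' x y om ^ 2 ≤
      Xs G (Lf θ' M' om) x y ^ 2 * (Lf θ M om x y - Lf θ' M' om x y) ^ 2 := by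
  have e3 := Lf_nonneg h0' h1' hF' om x y
  have e4 := (Lf_le h0' h1' hF' om x y).trans h1'.le
  have e5 : Lf θ' M' om x y ^ 2 ≤ 1 := by nlinarith
  have e8 : 0 ≤ Xs G (Lf θ' M' om) x y ^ 2 * (Lf θ M om x y - Lf θ' M' om x y) ^ 2 := by
    positivity
  unfold Bcal
  calc _ = Lf θ' M' om x y ^ 2 *
        (Xs G (Lf θ' M' om) x y ^ 2 * (Lf θ M om x y - Lf θ' M' om x y) ^ 2) := by ring
    _ ≤ 1 * (Xs G (Lf θ' M' om) x y ^ 2 * (Lf θ M om x y - Lf θ' M' om x y) ^ 2) :=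
      mul_le_mul_of_nonneg_right e5 e8
    _ = _ := by ring

theorem int_AG (hd : G.IsRegularOfDegree (b + 1)) (h0 : 0 ≤ θ) (h1 : θ < 1)
    (hθ : b * θ ^ 2 < 1) (h0' : 0 ≤ θ') (h1' : θ' < 1) (hθ' : b * θ' ^ 2 < 1)
    (hF : IsField G θ m M) (hF' : IsField G θ' m' M') {x y : V} (hxy : G.Adj x y) :
    Integrable (fun om => Acal G θ θ' m M M' x y om *
      Gs G (Lf θ M om) (Lf θ' M' om) x y) (Pu (V × ℕ)) := by
  have r0 := measurable_Gs hF hF' (G := G) x y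
  have p1 : 0 < 1 - b * θ ^ 2 := by linarith
  refine integrable_of_bdd ((measurable_Acal hF hF' x y).mul r0)
    (C := 1 * (1 / (1 - b * θ ^ 2)) * 1 * 1 * (2 / ((1 - b * θ ^ 2) * (1 - b * θ' ^ 2))))
    fun om => ?_
  rw [abs_mul]
  have r1 := abs_Gs_le hd (Lf_nonneg h0 h1 hF om) (Lf_le h0 h1 hF om) hθ
    (Lf_nonneg h0' h1' hF' om) (Lf_le h0' h1' hF' om) hθ' hxy
  exact mul_le_mul (abs_Acal_le hd h0 h1 hθ h0' h1' hF hF' hxy om) r1 (abs_nonneg _)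
    (by positivity)

theorem int_R (hd : G.IsRegularOfDegree (b + 1)) (h0 : 0 ≤ θ) (h1 : θ < 1)
    (hθ : b * θ ^ 2 < 1) (h0' : 0 ≤ θ') (h1' : θ' < 1) (hθ' : b * θ' ^ 2 < 1)
    (hF : IsField G θ m M) (hF' : IsField G θ' m' M') {x y : V} (hxy : G.Adj x y) :
    Integrable (fun om => (1 - m x om ^ 2) ^ 2 * Xs G (Lf θ M om) y x *
      ((Lf θ M om x y - Lf θ' M' om x y) ^ 2 * Xs G (Lf θ' M' om) x y)) (Pu (V × ℕ)) := by
  have mX := measurable_Xs (G := G) hF y x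
  have mX' := measurable_Xs (G := G) hF' x y
  have mL := measurable_Lf (θ := θ) hF x y
  have mL' := measurable_Lf (θ := θ') hF' x y
  have mm := hF.meas_m x
  have p1 : 0 < 1 - b * θ ^ 2 := by linarith
  have p2 : 0 < 1 - b * θ' ^ 2 := by linarith
  refine integrable_of_bdd (by fun_prop)
    (C := 1 * (1 / (1 - b * θ ^ 2)) * (1 * (1 / (1 - b * θ' ^ 2)))) fun om => ?_
  obtain ⟨e1, e1', -⟩ := dart_bd hd h0 h1 hθ hF hxy.symm om
  obtain ⟨e2, e2', -⟩ := dart_bd hd h0' h1' hθ' hF' hxy om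
  have e3 : 0 ≤ Xs G (Lf θ M om) y x := zero_le_one.trans e1
  have e4 : 0 ≤ Xs G (Lf θ' M' om) x y := zero_le_one.trans e2
  rw [abs_of_nonneg (by positivity)]
  exact mul_le_mul (mul_le_mul (asq_le hF x om) e1' e3 zero_le_one)
    (mul_le_mul (Delta_sq_le h0 h1 h0' h1' hF hF' x y om) e2' e4 zero_le_one)
    (by positivity) (by positivity)

theorem R_le (hd : G.IsRegularOfDegree (b + 1)) (h0 : 0 ≤ θ) (h1 : θ < 1)
    (hθ : b * θ ^ 2 < 1) (h0' : 0 ≤ θ') (h1' : θ' < 1) (hθ' : b * θ' ^ 2 < 1)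
    (hF : IsField G θ m M) (hF' : IsField G θ' m' M') {x y : V} (hxy : G.Adj x y)
    (om : V × ℕ → ℝ) :
    (1 - m x om ^ 2) ^ 2 * Xs G (Lf θ M om) y x *
      ((Lf θ M om x y - Lf θ' M' om x y) ^ 2 * Xs G (Lf θ' M' om) x y) ≤
      (Xs G (Lf θ M om) y x ^ 2 * (Lf θ M om x y - Lf θ' M' om x y) ^ 2 +
        Xs G (Lf θ' M' om) x y ^ 2 * (Lf θ M om x y - Lf θ' M' om x y) ^ 2) / 2 := by
  obtain ⟨e1, e1', -⟩ := dart_bd hd h0 h1 hθ hF hxy.symm om
  obtain ⟨e2, e2', -⟩ := dart_bd hd h0' h1' hθ' hF' hxy om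
  have e3 : 0 ≤ Xs G (Lf θ M om) y x := zero_le_one.trans e1
  have e4 : 0 ≤ Xs G (Lf θ' M' om) x y := zero_le_one.trans e2
  have e5 : 0 ≤ (Lf θ M om x y - Lf θ' M' om x y) ^ 2 := sq_nonneg _
  have e6 : (1 - m x om ^ 2) ^ 2 * (Xs G (Lf θ M om) y x *
      ((Lf θ M om x y - Lf θ' M' om x y) ^ 2 * Xs G (Lf θ' M' om) x y)) ≤
      1 * (Xs G (Lf θ M om) y x *
      ((Lf θ M om x y - Lf θ' M' om x y) ^ 2 * Xs G (Lf θ' M' om) x y)) :=
    mul_le_mul_of_nonneg_right (asq_le hF x om) (by positivity)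
  have e7 : 2 * (Xs G (Lf θ M om) y x * Xs G (Lf θ' M' om) x y) ≤
      Xs G (Lf θ M om) y x ^ 2 + Xs G (Lf θ' M' om) x y ^ 2 := by
    nlinarith [sq_nonneg (Xs G (Lf θ M om) y x - Xs G (Lf θ' M' om) x y)]
  have e8 := mul_le_mul_of_nonneg_right e7 e5
  linarith

theorem sqrt_AB {x y : V} (hd : G.IsRegularOfDegree (b + 1)) (h0 : 0 ≤ θ) (h1 : θ < 1)
    (hθ : b * θ ^ 2 < 1) (h0' : 0 ≤ θ') (h1' : θ' < 1) (hθ' : b * θ' ^ 2 < 1)
    (hF : IsField G θ m M) (hF' : IsField G θ' m' M') (hxy : G.Adj x y) :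
    √(∫ om, Acal G θ θ' m M M' x y om ^ 2 ∂(Pu (V × ℕ))) *
      √(∫ om, Bcal G θ θ' M M' x y om ^ 2 ∂(Pu (V × ℕ))) ≤
      (∫ om, Xs G (Lf θ M om) y x ^ 2 * (Lf θ M om x y - Lf θ' M' om x y) ^ 2 ∂(Pu (V × ℕ)) +
      ∫ om, Xs G (Lf θ' M' om) x y ^ 2 * (Lf θ M om x y - Lf θ' M' om x y) ^ 2
        ∂(Pu (V × ℕ))) / 2 := by
  have iA2 : ∫ om, Acal G θ θ' m M M' x y om ^ 2 ∂(Pu (V × ℕ)) ≤
      ∫ om, Xs G (Lf θ M om) y x ^ 2 * (Lf θ M om x y - Lf θ' M' om x y) ^ 2 ∂(Pu (V × ℕ)) :=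
    integral_mono_of_nonneg (Filter.Eventually.of_forall fun om => sq_nonneg _)
      (integrable_Q1 hd h0 h1 hθ h0' h1' hF hF' hxy)
      (Filter.Eventually.of_forall fun om => Acal_sq_le h0 h1 hF x y om)
  have iB2 : ∫ om, Bcal G θ θ' M M' x y om ^ 2 ∂(Pu (V × ℕ)) ≤
      ∫ om, Xs G (Lf θ' M' om) x y ^ 2 * (Lf θ M om x y - Lf θ' M' om x y) ^ 2
        ∂(Pu (V × ℕ)) :=
    integral_mono_of_nonneg (Filter.Eventually.of_forall fun om => sq_nonneg _)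
      (integrable_Q2 hd h0 h1 h0' h1' hθ' hF hF' hxy)
      (Filter.Eventually.of_forall fun om => Bcal_sq_le h0' h1' hF' x y om)
  have r1 := Real.sqrt_le_sqrt iA2
  have r2 := Real.sqrt_le_sqrt iB2
  have Q1n : 0 ≤ ∫ om, Xs G (Lf θ M om) y x ^ 2 * (Lf θ M om x y - Lf θ' M' om x y) ^ 2
      ∂(Pu (V × ℕ)) := integral_nonneg fun om => by positivity
  have Q2n : 0 ≤ ∫ om, Xs G (Lf θ' M' om) x y ^ 2 * (Lf θ M om x y - Lf θ' M' om x y) ^ 2
      ∂(Pu (V × ℕ)) := integral_nonneg fun om => by positivity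
  set Q1 := ∫ om, Xs G (Lf θ M om) y x ^ 2 * (Lf θ M om x y - Lf θ' M' om x y) ^ 2
    ∂(Pu (V × ℕ))
  set Q2 := ∫ om, Xs G (Lf θ' M' om) x y ^ 2 * (Lf θ M om x y - Lf θ' M' om x y) ^ 2
    ∂(Pu (V × ℕ))
  have r3 := Real.sqrt_nonneg Q1
  have r4 := Real.sqrt_nonneg Q2
  have r5 := Real.sq_sqrt Q1n
  have r6 := Real.sq_sqrt Q2n
  calc _ ≤ √Q1 * √Q2 := mul_le_mul r1 r2 (Real.sqrt_nonneg _) r3
    _ ≤ (Q1 + Q2) / 2 := by nlinarith [sq_nonneg (√Q1 - √Q2)]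

theorem int_W_le {C1 P : ℝ} {x y : V} (hd : G.IsRegularOfDegree (b + 1)) (h0 : 0 ≤ θ)
    (h1 : θ < 1) (hθ : b * θ ^ 2 < 1) (h0' : 0 ≤ θ') (h1' : θ' < 1) (hθ' : b * θ' ^ 2 < 1)
    (hF : IsField G θ m M) (hF' : IsField G θ' m' M') (hxy : G.Adj x y) (hC1 : 0 ≤ C1)
    (hspec : |∫ om, Acal G θ θ' m M M' x y om * Gs G (Lf θ M om) (Lf θ' M' om) x y
      ∂(Pu (V × ℕ))| ≤ C1 * b * (√(∫ om, Acal G θ θ' m M M' x y om ^ 2 ∂(Pu (V × ℕ))) *
            √(∫ om, Bcal G θ θ' M M' x y om ^ 2 ∂(Pu (V × ℕ))) + P)) :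
    ∫ om, (1 - m x om ^ 2) ^ 2 * Xs G (Lf θ M om) y x * Bf G θ θ' M M' x y om
      ∂(Pu (V × ℕ)) ≤
      (∫ om, (Xs G (Lf θ M om) y x ^ 2 + Xs G (Lf θ' M' om) x y ^ 2) *
        (Lf θ M om x y - Lf θ' M' om x y) ^ 2 ∂(Pu (V × ℕ))) / 2 +
      2 * (C1 * b * ((∫ om, (Xs G (Lf θ M om) y x ^ 2 + Xs G (Lf θ' M' om) x y ^ 2) *
        (Lf θ M om x y - Lf θ' M' om x y) ^ 2 ∂(Pu (V × ℕ))) / 2 + P)) := by
  have iQ1 := integrable_Q1 hd h0 h1 hθ h0' h1' hF hF' hxy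
  have iQ2 := integrable_Q2 hd h0 h1 h0' h1' hθ' hF hF' hxy
  have iG := int_AG hd h0 h1 hθ h0' h1' hθ' hF hF' hxy
  have iR := int_R hd h0 h1 hθ h0' h1' hθ' hF hF' hxy
  have eQ : ∫ om, (Xs G (Lf θ M om) y x ^ 2 + Xs G (Lf θ' M' om) x y ^ 2) *
      (Lf θ M om x y - Lf θ' M' om x y) ^ 2 ∂(Pu (V × ℕ)) =
      ∫ om, Xs G (Lf θ M om) y x ^ 2 * (Lf θ M om x y - Lf θ' M' om x y) ^ 2 ∂(Pu (V × ℕ)) +
      ∫ om, Xs G (Lf θ' M' om) x y ^ 2 * (Lf θ M om x y - Lf θ' M' om x y) ^ 2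
        ∂(Pu (V × ℕ)) := by
    rw [← integral_add iQ1 iQ2]
    congr 1
    funext om
    ring
  have w1 : ∫ om, (1 - m x om ^ 2) ^ 2 * Xs G (Lf θ M om) y x * Bf G θ θ' M M' x y om
      ∂(Pu (V × ℕ)) = 2 * ∫ om, Acal G θ θ' m M M' x y om *
        Gs G (Lf θ M om) (Lf θ' M' om) x y ∂(Pu (V × ℕ)) +
      ∫ om, (1 - m x om ^ 2) ^ 2 * Xs G (Lf θ M om) y x *
        ((Lf θ M om x y - Lf θ' M' om x y) ^ 2 * Xs G (Lf θ' M' om) x y) ∂(Pu (V × ℕ)) := by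
    rw [← integral_const_mul, ← integral_add (iG.const_mul 2) iR]
    congr 1
    funext om
    unfold Bf Acal
    ring
  have w2 : ∫ om, (1 - m x om ^ 2) ^ 2 * Xs G (Lf θ M om) y x *
      ((Lf θ M om x y - Lf θ' M' om x y) ^ 2 * Xs G (Lf θ' M' om) x y) ∂(Pu (V × ℕ)) ≤
      (∫ om, Xs G (Lf θ M om) y x ^ 2 * (Lf θ M om x y - Lf θ' M' om x y) ^ 2 ∂(Pu (V × ℕ)) +
      ∫ om, Xs G (Lf θ' M' om) x y ^ 2 * (Lf θ M om x y - Lf θ' M' om x y) ^ 2
        ∂(Pu (V × ℕ))) / 2 := by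
    rw [← integral_add iQ1 iQ2, ← integral_div]
    exact integral_mono iR ((iQ1.add iQ2).div_const 2) fun om =>
      R_le hd h0 h1 hθ h0' h1' hθ' hF hF' hxy om
  have w4 := (le_abs_self _).trans hspec
  have w5 := sqrt_AB hd h0 h1 hθ h0' h1' hθ' hF hF' hxy
  rw [← eQ] at w5 w2
  have w6 := mul_le_mul_of_nonneg_left (add_le_add_left w5 P)
    (mul_nonneg hC1 (Nat.cast_nonneg b))
  rw [w1]
  linarith [w4.trans w6]

omit [G.LocallyFinite] in
theorem gfinal {C1 Q D P E W : ℝ} (hC1 : 0 ≤ C1) (Qn : 0 ≤ Q) (Dn : 0 ≤ D) (Pn : 0 ≤ P)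
    (h : E ≤ 16 * ((b : ℝ) + 1) * W + 96 * (b + 1) * D)
    (hW : W ≤ Q / 2 + 2 * (C1 * b * (Q / 2 + P))) :
    E ≤ (16 * ((b : ℝ) + 1) * (1 + 2 * C1 * b) + 96 * (b + 1)) * (Q + D + P) := by
  have hb0 : (0 : ℝ) ≤ b := by positivity
  have hb1 : (0 : ℝ) ≤ 16 * (b + 1) := by positivity
  have f1 := mul_le_mul_of_nonneg_left hW hb1
  have f3 : 0 ≤ C1 * b * Q := by positivity
  have f4 : 0 ≤ C1 * b * D := by positivity
  have f5 : 0 ≤ C1 * b * P := by positivity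
  have f6 : 16 * ((b : ℝ) + 1) * (Q / 2 + 2 * (C1 * b * (Q / 2 + P))) ≤
      16 * (b + 1) * ((1 + 2 * C1 * b) * (Q + D + P)) := by
    refine mul_le_mul_of_nonneg_left ?_ hb1
    linarith
  have f7 : 96 * ((b : ℝ) + 1) * D ≤ 96 * (b + 1) * (Q + D + P) :=
    mul_le_mul_of_nonneg_left (by linarith) (by positivity)
  calc E ≤ 16 * ((b : ℝ) + 1) * ((1 + 2 * C1 * b) * (Q + D + P)) +
        96 * (b + 1) * (Q + D + P) := by linarith
    _ = _ := by ring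

end Gaux

theorem gbound (b : ℕ) (hb : 2 ≤ b) (C0 : ℝ) : ∃ C : ℝ, 0 < C ∧
    ∀ (V : Type u) (G : SimpleGraph V) [G.LocallyFinite] (θ θ' : ℝ)
      (m m' : V → (V × ℕ → ℝ) → ℝ) (M M' : V → V → (V × ℕ → ℝ) → ℝ),
      G.IsTree → G.IsRegularOfDegree (b + 1) →
      0 < θ → θ < 1 → b * θ ^ 2 < 1 → 0 < θ' → θ' < 1 → b * θ' ^ 2 < 1 →
      IsField G θ m M → IsField G θ' m' M' →
      ∀ (x y : V) (a : ℝ), G.Adj x y → 0 < a →
      a = ∫ om, (1 - b * Lf θ M om x y * Lf θ' M' om x y) ∂(Pu (V × ℕ)) →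
      ∫ om, (1 - b * Lf θ M om x y * Lf θ' M' om x y) ^ 2 ∂(Pu (V × ℕ)) ≤ (C0 * a) ^ 2 →
      ∫ om, Gt G θ θ' (fun v => m v om) (fun v => m' v om) (fun x y => M x y om)
          (fun x y => M' x y om) x ∂(Pu (V × ℕ)) ≤
        C * (∫ om, (Xs G (Lf θ M om) y x ^ 2 + Xs G (Lf θ' M' om) x y ^ 2) *
              (Lf θ M om x y - Lf θ' M' om x y) ^ 2 ∂(Pu (V × ℕ)) +
            ∫ om, (1 + Xs G (Lf θ' M' om) x y) * (m x om - m' x om) ^ 2 ∂(Pu (V × ℕ)) +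
            |∫ om, Acal G θ θ' m M M' x y om ∂(Pu (V × ℕ))| *
              |∫ om, Bcal G θ θ' M M' x y om ∂(Pu (V × ℕ))| / a) := by
  obtain ⟨C1, hC1, hspec⟩ := spec_bound.{u} C0
  refine ⟨16 * (b + 1) * (1 + 2 * C1 * b) + 96 * (b + 1), by positivity, ?_⟩
  intro V G _ θ θ' m m' M M' hG hd h0 h1 hθ h0' h1' hθ' hF hF' x y a hxy ha0 ha haC
  have hstep := integral_Gt_le hG hd h0.le h1 hθ h0'.le h1' hθ' hF hF' hxy
  rw [integral_W hG hd h0.le h1 hθ h0'.le h1' hθ' hF hF' hxy] at hstep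
  have hspec' := hspec V G b θ θ' m m' M M' (Acal G θ θ' m M M') hG hb hd h0 h1 hθ h0' h1' hθ'
    hF hF' (fun u v => measurable_Acal hF hF' u v)
    ⟨_, fun u v om huv => abs_Acal_le hd h0.le h1 hθ h0'.le h1' hF hF' huv om⟩
    (fun g u v om => by
      unfold Acal
      rw [Lf_act hF, Lf_act hF', Xs_act hF, hF.equiv_m])
    x y a hxy ha0 ha haC
  have hW := int_W_le hd h0.le h1 hθ h0'.le h1' hθ' hF hF' hxy hC1.le hspec'
  have Dn : 0 ≤ ∫ om, (1 + Xs G (Lf θ' M' om) x y) * (m x om - m' x om) ^ 2 ∂(Pu (V × ℕ)) :=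
    integral_nonneg fun om => mul_nonneg
      (by linarith [(dart_bd hd h0'.le h1' hθ' hF' hxy om).1]) (sq_nonneg _)
  have Qn : 0 ≤ ∫ om, (Xs G (Lf θ M om) y x ^ 2 + Xs G (Lf θ' M' om) x y ^ 2) *
      (Lf θ M om x y - Lf θ' M' om x y) ^ 2 ∂(Pu (V × ℕ)) :=
    integral_nonneg fun om => by positivity
  have Pn : 0 ≤ |∫ om, Acal G θ θ' m M M' x y om ∂(Pu (V × ℕ))| *
    |∫ om, Bcal G θ θ' M M' x y om ∂(Pu (V × ℕ))| / a := by positivity
  exact gfinal hC1.le Qn Dn Pn hstep hW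

/-- The crude bound. -/
theorem gbound_crude (b : ℕ) (hb : 2 ≤ b) : ∃ C : ℝ, 0 < C ∧
    ∀ (V : Type u) (G : SimpleGraph V) [G.LocallyFinite] (θ θ' : ℝ)
      (m m' : V → (V × ℕ → ℝ) → ℝ) (M M' : V → V → (V × ℕ → ℝ) → ℝ),
      G.IsTree → G.IsRegularOfDegree (b + 1) →
      0 < θ → θ < 1 → b * θ ^ 2 < 1 → 0 < θ' → θ' < 1 → b * θ' ^ 2 < 1 →
      IsField G θ m M → IsField G θ' m' M' → ∀ (x y : V), G.Adj x y →
      ∫ om, Gt G θ θ' (fun v => m v om) (fun v => m' v om) (fun x y => M x y om)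
          (fun x y => M' x y om) x ∂(Pu (V × ℕ)) ≤
        C * (∫ om, Xs G (Lf θ M om) x y ∂(Pu (V × ℕ)) +
          ∫ om, Xs G (Lf θ' M' om) x y ∂(Pu (V × ℕ))) := by
  have hb0 : (2 : ℝ) ≤ b := by exact_mod_cast hb
  refine ⟨144 * (b + 2), by positivity, ?_⟩
  intro V G _ θ θ' m m' M M' hG hd h0 h1 hθ h0' h1' hθ' hF hF' x y hxy
  have k1 : ∫ om, Gt G θ θ' (fun v => m v om) (fun v => m' v om) (fun x y => M x y om)
      (fun x y => M' x y om) x ∂(Pu (V × ℕ)) ≤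
      ∫ om, (16 * skf G θ M x om + 144 * skf G θ' M' x om) ∂(Pu (V × ℕ)) :=
    integral_mono_of_nonneg (Filter.Eventually.of_forall fun om => Gt_nonneg x om)
      (((integrable_skf hd h0.le h1 hθ hF x).const_mul 16).add
        ((integrable_skf hd h0'.le h1' hθ' hF' x).const_mul 144))
      (Filter.Eventually.of_forall fun om =>
        Gt_crude hG hd h0.le h1 hθ h0'.le h1' hθ' hF hF' x om)
  rw [integral_add ((integrable_skf hd h0.le h1 hθ hF x).const_mul 16)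
        ((integrable_skf hd h0'.le h1' hθ' hF' x).const_mul 144), integral_const_mul,
      integral_const_mul] at k1
  have k2 := integral_skf_le hG hd h0.le h1 hθ hF hxy
  have k3 := integral_skf_le hG hd h0'.le h1' hθ' hF' hxy
  have k4 : 0 ≤ ∫ om, Xs G (Lf θ M om) x y ∂(Pu (V × ℕ)) := integral_nonneg fun om =>
    zero_le_one.trans (dart_bd hd h0.le h1 hθ hF hxy om).1
  nlinarith [mul_nonneg (by linarith : (0 : ℝ) ≤ (b : ℝ) + 2) k4]

end Vale.Agent.P161.EP
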