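import Mathlib
import Vale.Agent.P161.EdgeAlg

/-!
# Module P2 (LamLip): elementary inequalities for `lam`

`lam θ M = θ (1 - M²)/(1 - θ² M²)`, `1 - κ = (lam θ M/θ)²`, `θ² ≤ 1/2`.
-/

namespace Vale.Agent.P161.EP

/-- `lam` as a function of `x = M²`: Lipschitz in `x`. -/
theorem lam_sub_x {θ x y : ℝ} (h0 : 0 ≤ θ) (h1 : θ ^ 2 ≤ 1 / 2) (_hx0 : 0 ≤ x) (hx : x ≤ 1)
    (_hy0 : 0 ≤ y) (hy : y ≤ 1) :
    |θ * (1 - x) / (1 - θ ^ 2 * x) - θ * (1 - y) / (1 - θ ^ 2 * y)| ≤ 4 * |x - y| := by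
  have hθ2 : 0 ≤ θ ^ 2 := sq_nonneg θ
  have hθ1 : θ ≤ 1 := by nlinarith
  have d1 : 1 / 2 ≤ 1 - θ ^ 2 * x := by nlinarith
  have d2 : 1 / 2 ≤ 1 - θ ^ 2 * y := by nlinarith
  have e : θ * (1 - x) / (1 - θ ^ 2 * x) - θ * (1 - y) / (1 - θ ^ 2 * y) =
      -(θ * (1 - θ ^ 2)) * (x - y) / ((1 - θ ^ 2 * x) * (1 - θ ^ 2 * y)) := by
    rw [div_sub_div _ _ (by linarith) (by linarith)]
    congr 1
    ring
  have hd : 1 / 4 ≤ (1 - θ ^ 2 * x) * (1 - θ ^ 2 * y) := by nlinarith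
  rw [e, abs_div, abs_mul, abs_neg, abs_of_pos (by linarith : 0 < (1 - θ ^ 2 * x) * (1 - θ ^ 2 * y)),
    div_le_iff₀ (by linarith)]
  have h3 : |θ * (1 - θ ^ 2)| ≤ 1 := by
    rw [abs_of_nonneg (mul_nonneg h0 (by linarith))]
    nlinarith
  have h4 := abs_nonneg (x - y)
  calc |θ * (1 - θ ^ 2)| * |x - y| ≤ 1 * |x - y| := mul_le_mul_of_nonneg_right h3 h4
    _ = 4 * |x - y| * (1 / 4) := by ring
    _ ≤ _ := mul_le_mul_of_nonneg_left hd (by positivity)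

/-- `lam` is Lipschitz in `θ`. -/
theorem lam_sub_theta {θ θ' x : ℝ} (h0 : 0 ≤ θ) (h1 : θ ^ 2 ≤ 1 / 2) (h0' : 0 ≤ θ')
    (h1' : θ' ^ 2 ≤ 1 / 2) (hx0 : 0 ≤ x) (hx : x ≤ 1) :
    |θ * (1 - x) / (1 - θ ^ 2 * x) - θ' * (1 - x) / (1 - θ' ^ 2 * x)| ≤ 8 * |θ - θ'| := by
  have hθ2 : 0 ≤ θ ^ 2 := sq_nonneg θ
  have hθ2' : 0 ≤ θ' ^ 2 := sq_nonneg θ'
  have hθ1 : θ ≤ 1 := by nlinarith
  have hθ1' : θ' ≤ 1 := by nlinarith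
  have d1 : 1 / 2 ≤ 1 - θ ^ 2 * x := by nlinarith
  have d2 : 1 / 2 ≤ 1 - θ' ^ 2 * x := by nlinarith
  have e : θ * (1 - x) / (1 - θ ^ 2 * x) - θ' * (1 - x) / (1 - θ' ^ 2 * x) =
      ((1 - x) * (1 + θ * θ' * x)) * (θ - θ') / ((1 - θ ^ 2 * x) * (1 - θ' ^ 2 * x)) := by
    rw [div_sub_div _ _ (by linarith) (by linarith)]
    congr 1
    ring
  have hd : 1 / 4 ≤ (1 - θ ^ 2 * x) * (1 - θ' ^ 2 * x) := by nlinarith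
  rw [e, abs_div, abs_mul, abs_of_pos (by linarith : 0 < (1 - θ ^ 2 * x) * (1 - θ' ^ 2 * x)),
    div_le_iff₀ (by linarith)]
  have h5 : θ * θ' * x ≤ 1 := by
    have : θ * θ' ≤ 1 := by nlinarith
    have h6 : 0 ≤ θ * θ' := mul_nonneg h0 h0'
    nlinarith
  have h6 : 0 ≤ θ * θ' * x := mul_nonneg (mul_nonneg h0 h0') hx0
  have h3 : |(1 - x) * (1 + θ * θ' * x)| ≤ 2 := by
    rw [abs_of_nonneg (mul_nonneg (by linarith) (by linarith))]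
    nlinarith
  have h4 := abs_nonneg (θ - θ')
  calc |(1 - x) * (1 + θ * θ' * x)| * |θ - θ'| ≤ 2 * |θ - θ'| := mul_le_mul_of_nonneg_right h3 h4
    _ = 8 * |θ - θ'| * (1 / 4) := by ring
    _ ≤ _ := mul_le_mul_of_nonneg_left hd (by positivity)

theorem sq_mem {M : ℝ} (hM : |M| ≤ 1) : 0 ≤ M ^ 2 ∧ M ^ 2 ≤ 1 :=
  ⟨sq_nonneg M, (sq_le_one_iff_abs_le_one M).2 hM⟩

theorem lam_sub_le {θ θ' M M' : ℝ} (h0 : 0 ≤ θ) (h1 : θ ^ 2 ≤ 1 / 2) (h0' : 0 ≤ θ')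
    (h1' : θ' ^ 2 ≤ 1 / 2) (hM : |M| ≤ 1) (hM' : |M'| ≤ 1) :
    |lam θ M - lam θ' M'| ≤ 8 * ((|M| + |M'|) * |M - M'| + |θ - θ'|) := by
  obtain ⟨a0, a1⟩ := sq_mem hM
  obtain ⟨b0, b1⟩ := sq_mem hM'
  have h2 := lam_sub_x h0 h1 a0 a1 b0 b1
  have h3 := lam_sub_theta h0 h1 h0' h1' b0 b1
  have h4 : |M ^ 2 - M' ^ 2| ≤ (|M| + |M'|) * |M - M'| := by
    have e : M ^ 2 - M' ^ 2 = (M + M') * (M - M') := by ring
    rw [e, abs_mul]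
    exact mul_le_mul_of_nonneg_right (abs_add_le _ _) (abs_nonneg _)
  have h5 : lam θ M - lam θ' M' = (lam θ M - lam θ M') + (lam θ M' - lam θ' M') := by ring
  rw [h5]
  refine (abs_add_le _ _).trans ?_
  unfold lam
  have h6 : 0 ≤ (|M| + |M'|) * |M - M'| := by positivity
  linarith

theorem lam_sub_le' {θ θ' M M' : ℝ} (h0 : 0 ≤ θ) (h1 : θ ^ 2 ≤ 1 / 2) (h0' : 0 ≤ θ')
    (h1' : θ' ^ 2 ≤ 1 / 2) (hM : |M| ≤ 1) (hM' : |M'| ≤ 1) :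
    |lam θ M - lam θ' M'| ≤ 8 * (M ^ 2 + M' ^ 2 + |θ - θ'|) := by
  obtain ⟨a0, a1⟩ := sq_mem hM
  obtain ⟨b0, b1⟩ := sq_mem hM'
  have h2 := lam_sub_x h0 h1 a0 a1 b0 b1
  have h3 := lam_sub_theta h0 h1 h0' h1' b0 b1
  have h4 : |M ^ 2 - M' ^ 2| ≤ M ^ 2 + M' ^ 2 := by
    rw [abs_le]; constructor <;> linarith
  have h5 : lam θ M - lam θ' M' = (lam θ M - lam θ M') + (lam θ M' - lam θ' M') := by ring
  rw [h5]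
  refine (abs_add_le _ _).trans ?_
  unfold lam
  linarith

/-- `ρ = (1 - x)/(1 - θ² x)` satisfies `1 - x ≤ ρ ≤ 1 - x/2`. -/
theorem rho_bounds {θ x : ℝ} (h1 : θ ^ 2 ≤ 1 / 2) (hx0 : 0 ≤ x) (hx : x ≤ 1) :
    1 - x ≤ (1 - x) / (1 - θ ^ 2 * x) ∧ (1 - x) / (1 - θ ^ 2 * x) ≤ 1 - x / 2 := by
  have hθ2 : 0 ≤ θ ^ 2 := sq_nonneg θ
  have d1 : 1 / 2 ≤ 1 - θ ^ 2 * x := by nlinarith
  have h3 : 0 ≤ θ ^ 2 * x := mul_nonneg hθ2 hx0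
  constructor
  · rw [le_div_iff₀ (by linarith)]
    nlinarith
  · rw [div_le_iff₀ (by linarith)]
    nlinarith [mul_nonneg hx0 (by linarith : (0 : ℝ) ≤ 1 - x),
      mul_nonneg hx0 (by linarith : (0 : ℝ) ≤ 1 / 2 - θ ^ 2)]

/-- Bounds of the killing `1 - b λ λ'`. -/
theorem kill_bounds {b : ℕ} {θ θ' M M' : ℝ} (hb : 2 ≤ b) (h0 : 0 < θ) (h1 : b * θ ^ 2 ≤ 1)
    (h0' : 0 < θ') (h1' : b * θ' ^ 2 ≤ 1) (hM : |M| ≤ 1) (hM' : |M'| ≤ 1) :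
    (M ^ 2 + M' ^ 2) / 4 ≤ 1 - b * lam θ M * lam θ' M' ∧
    1 - b * lam θ M * lam θ' M' ≤ (1 - b * θ ^ 2) + (1 - b * θ' ^ 2) + 2 * M ^ 2 + 2 * M' ^ 2 := by
  have hb2 : (2 : ℝ) ≤ b := by exact_mod_cast hb
  have hθ : θ ^ 2 ≤ 1 / 2 := by nlinarith [sq_nonneg θ]
  have hθ' : θ' ^ 2 ≤ 1 / 2 := by nlinarith [sq_nonneg θ']
  obtain ⟨a0, a1⟩ := sq_mem hM
  obtain ⟨b0, b1⟩ := sq_mem hM'
  obtain ⟨r1, r2⟩ := rho_bounds hθ a0 a1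
  obtain ⟨s1, s2⟩ := rho_bounds hθ' b0 b1
  have e : (b : ℝ) * lam θ M * lam θ' M' = (b * θ * θ') *
      (((1 - M ^ 2) / (1 - θ ^ 2 * M ^ 2)) * ((1 - M' ^ 2) / (1 - θ' ^ 2 * M' ^ 2))) := by
    unfold lam
    ring
  rw [e]
  set x := M ^ 2 with hx
  set y := M' ^ 2 with hy
  set ρ := (1 - x) / (1 - θ ^ 2 * x) with hρ
  set σ := (1 - y) / (1 - θ' ^ 2 * y) with hσ
  have hbt : (b : ℝ) * θ * θ' ≤ 1 := by nlinarith [sq_nonneg (θ - θ')]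
  have hbt0 : 0 ≤ (b : ℝ) * θ * θ' := by positivity
  have hbt2 : 1 - (b : ℝ) * θ * θ' ≤ (1 - b * θ ^ 2) + (1 - b * θ' ^ 2) := by
    -- the larger of the two squares is at most one
    have key : (b : ℝ) * θ ^ 2 + b * θ' ^ 2 - 1 ≤ b * θ * θ' := by
      rcases le_total θ θ' with h | h
      · have : (b : ℝ) * θ ^ 2 ≤ b * θ * θ' := by
          have := mul_le_mul_of_nonneg_left h (by positivity : 0 ≤ (b : ℝ) * θ)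
          nlinarith
        linarith
      · have : (b : ℝ) * θ' ^ 2 ≤ b * θ * θ' := by
          have := mul_le_mul_of_nonneg_left h (by positivity : 0 ≤ (b : ℝ) * θ')
          nlinarith
        linarith
    linarith
  have hρ0 : 0 ≤ ρ := by linarith
  have hσ0 : 0 ≤ σ := by linarith
  have hρ1 : ρ ≤ 1 := by linarith
  have hσ1 : σ ≤ 1 := by linarith
  have hprod : ρ * σ ≤ 1 - (x + y) / 4 := by
    have h5 : ρ * σ ≤ (1 - x / 2) * (1 - y / 2) := mul_le_mul r2 s2 hσ0 (by linarith)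
    nlinarith [mul_nonneg a0 b0]
  have hprod2 : 1 - x - y ≤ ρ * σ := by
    have h5 : (1 - x) * (1 - y) ≤ ρ * σ := mul_le_mul r1 s1 (by linarith) hρ0
    nlinarith [mul_nonneg a0 b0]
  have hp0 : 0 ≤ ρ * σ := mul_nonneg hρ0 hσ0
  have hp1 : ρ * σ ≤ 1 := by nlinarith
  constructor
  · nlinarith
  · nlinarith

end Vale.Agent.P161.EP
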