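import Mathlib

/-!
# Module P1 (Tails): truncation estimates (abstract probability)

Proof.  `δ = y0 v`, `L1 = log(1/δ) ≥ 0`; `j` minimal with `b^j ≥ L1` (so `j² ≤ 4 (1 + L1)`),
`λ = C/v + 2j`; `ℓ² = 2 C v L1`, so `P(N > ℓ) ≤ 2 δ²`.
`∫ X² N² D ≤ λ² ∫ N² D + 4 ∫ X² 1(X > λ)`, with `λ² ≤ 2C²/v² + 8j²`:
`(2C²/v²) ∫ N² D ≤ (2C²/v²)(ℓ² 4 y0 + 8 δ²)`, `8 j² ∫ N² D ≤ 32 j² y0`,
`4 ∫ X² 1(X>λ) ≤ (4C/v²) δ²` (as `exp(-2 b^j) ≤ δ²`).  Multiply by `t²`, use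
`t² (1 + log(1/v)) ≤ 3 v` and `δ²/v² ≤ y0`.  Similarly `∫ X D ≤ λ 4 y0 + 4 ∫ X² 1(X > λ)` if `X ≥ 1`.
-/

open MeasureTheory

namespace Vale.Agent.P161.EP

theorem exists_level {L : ℝ} (hL : 0 ≤ L) :
    ∃ j : ℕ, L ≤ 2 ^ j ∧ (j : ℝ) ^ 2 ≤ 4 * (1 + L) := by
  rcases le_or_gt L 1 with h | h
  · exact ⟨0, by simpa using h, by simp; linarith⟩
  · obtain ⟨n, hn1, hn2⟩ := exists_nat_pow_near h.le (by norm_num : (1 : ℝ) < 2)
    refine ⟨n + 1, hn2.le, ?_⟩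
    have h3 : ∀ n : ℕ, ((n : ℝ) + 1) ^ 2 ≤ 4 * 2 ^ n := by
      intro n
      induction n with
      | zero => norm_num
      | succ n ih =>
        rcases Nat.lt_or_ge n 2 with h4 | h4
        · interval_cases n <;> norm_num
        · push_cast
          have h5 : (2 : ℝ) ≤ n := by exact_mod_cast h4
          rw [pow_succ (2 : ℝ) n]
          nlinarith
    push_cast
    linarith [h3 n]

theorem real_pre {b : ℕ} (hb : 2 ≤ b) {t v y0 : ℝ} (ht : 0 < t) (ht1 : t ≤ 1) (hv : 0 < v)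
    (hv1 : v ≤ 1) (htv : t ^ 2 * (1 - Real.log v) ≤ 3 * v) (hy0 : 0 < y0) (hy1 : y0 ≤ 1) :
    ∃ (L1 : ℝ) (j : ℕ), 0 ≤ L1 ∧ Real.exp (-2 * L1) = y0 ^ 2 * v ^ 2 ∧
      Real.exp (-2 * (b : ℝ) ^ j) ≤ y0 ^ 2 * v ^ 2 ∧ t ^ 2 * L1 / v ≤ 3 * (1 - Real.log y0) ∧
      t ^ 2 * (j : ℝ) ^ 2 ≤ 16 * (1 - Real.log y0) ∧ t ^ 2 ≤ 3 * v ∧
      y0 ≤ y0 * (1 - Real.log y0) ∧ y0 ^ 2 ≤ y0 * (1 - Real.log y0) := by
  have hlv : Real.log v ≤ 0 := Real.log_nonpos hv.le hv1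
  have hly : Real.log y0 ≤ 0 := Real.log_nonpos hy0.le hy1
  obtain ⟨L1, hL1⟩ : ∃ L1 : ℝ, L1 = -Real.log y0 - Real.log v := ⟨_, rfl⟩
  have hL0 : 0 ≤ L1 := by rw [hL1]; linarith
  obtain ⟨j, hj1, hj2⟩ := exists_level hL0
  have hbj : L1 ≤ (b : ℝ) ^ j :=
    hj1.trans (pow_le_pow_left₀ (by norm_num) (by exact_mod_cast hb) j)
  have hexpL : Real.exp (-2 * L1) = y0 ^ 2 * v ^ 2 := by
    have e : -2 * L1 = 2 * Real.log y0 + 2 * Real.log v := by rw [hL1]; ring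
    rw [e, Real.exp_add]
    congr 1
    · rw [mul_comm, Real.exp_mul, Real.exp_log hy0]; norm_cast
    · rw [mul_comm, Real.exp_mul, Real.exp_log hv]; norm_cast
  have hexpb : Real.exp (-2 * (b : ℝ) ^ j) ≤ y0 ^ 2 * v ^ 2 := by
    rw [← hexpL]
    exact Real.exp_le_exp.2 (by linarith)
  have hy0φ : y0 ≤ y0 * (1 - Real.log y0) := by nlinarith
  have hy02 : y0 ^ 2 ≤ y0 * (1 - Real.log y0) := by nlinarith
  have ht2 : 0 ≤ t ^ 2 := sq_nonneg t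
  have ht21 : t ^ 2 ≤ 1 := pow_le_one₀ ht.le ht1
  have ht3v : t ^ 2 ≤ 3 * v := by nlinarith
  have htL : t ^ 2 * L1 ≤ 3 * v * (1 - Real.log y0) := by
    have e : t ^ 2 * L1 = t ^ 2 * (-Real.log y0) + (t ^ 2 * (1 - Real.log v) - t ^ 2) := by
      rw [hL1]; ring
    have h1 : t ^ 2 * (-Real.log y0) ≤ 3 * v * (-Real.log y0) :=
      mul_le_mul_of_nonneg_right ht3v (by linarith)
    rw [e]
    linarith
  have htLv : t ^ 2 * L1 / v ≤ 3 * (1 - Real.log y0) := by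
    rw [div_le_iff₀ hv]
    linarith
  have hlog1 : 1 ≤ 1 - Real.log y0 := by linarith
  have htj : t ^ 2 * (j : ℝ) ^ 2 ≤ 16 * (1 - Real.log y0) := by
    have h1 : t ^ 2 * (j : ℝ) ^ 2 ≤ t ^ 2 * (4 * (1 + L1)) := mul_le_mul_of_nonneg_left hj2 ht2
    have h2 : 3 * v * (1 - Real.log y0) ≤ 3 * (1 - Real.log y0) := by nlinarith
    linarith
  exact ⟨L1, j, hL0, hexpL, hexpb, htLv, htj, ht3v, hy0φ, hy02⟩

theorem tails1 (b : ℕ) {C : ℝ} (hC : 0 < C)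
    {Ω : Type*} [MeasurableSpace Ω] {P : Measure Ω} [IsProbabilityMeasure P]
    {X N D : Ω → ℝ} {t v y0 L1 : ℝ} {j : ℕ} (hX : Measurable X) (hN : Measurable N)
    (hD : Measurable D) (hX1 : ∀ᵐ ω ∂P, 1 ≤ X ω) {B : ℝ} (hXB : ∀ᵐ ω ∂P, X ω ≤ B)
    (hN1 : ∀ᵐ ω ∂P, 0 ≤ N ω ∧ N ω ≤ 1) (hD4 : ∀ᵐ ω ∂P, 0 ≤ D ω ∧ D ω ≤ 4)
    (ht : 0 < t) (ht1 : t ≤ 1) (hv : 0 < v) (hy0 : 0 < y0)
    (htN : ∀ l : ℝ, 0 ≤ l → (P {ω | l < N ω}).toReal ≤ 2 * Real.exp (-l ^ 2 / (C * v)))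
    (htX : ∀ j : ℕ, ∫ ω in {ω | C / v + 2 * j < X ω}, X ω ^ 2 ∂P ≤
        C / v ^ 2 * Real.exp (-2 * (b : ℝ) ^ j))
    (hDi : ∫ ω, D ω ∂P ≤ 4 * y0) (hL0 : 0 ≤ L1) (hexpL : Real.exp (-2 * L1) = y0 ^ 2 * v ^ 2)
    (hexpb : Real.exp (-2 * (b : ℝ) ^ j) ≤ y0 ^ 2 * v ^ 2)
    (htLv : t ^ 2 * L1 / v ≤ 3 * (1 - Real.log y0))
    (htj : t ^ 2 * (j : ℝ) ^ 2 ≤ 16 * (1 - Real.log y0)) (ht3v : t ^ 2 ≤ 3 * v)
    (hy0φ : y0 ≤ y0 * (1 - Real.log y0)) (hy02 : y0 ^ 2 ≤ y0 * (1 - Real.log y0)) :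
    t ^ 2 * ∫ ω, X ω ^ 2 * N ω ^ 2 * D ω ∂P ≤
      (48 * C ^ 3 + 16 * C ^ 2 + 16 * C + 600) * (y0 * (1 - Real.log y0)) := by
  set lam : ℝ := C / v + 2 * j with hlam
  have hlam0 : 0 ≤ lam := by positivity
  have hlam2 : lam ^ 2 ≤ 2 * C ^ 2 / v ^ 2 + 8 * (j : ℝ) ^ 2 := by
    have e : lam ^ 2 ≤ 2 * (C / v) ^ 2 + 2 * (2 * (j : ℝ)) ^ 2 := by
      rw [hlam]; nlinarith [sq_nonneg (C / v - 2 * (j : ℝ))]
    have e2 : 2 * (C / v) ^ 2 + 2 * (2 * (j : ℝ)) ^ 2 = 2 * C ^ 2 / v ^ 2 + 8 * (j : ℝ) ^ 2 := by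
      ring
    linarith
  set S : Set Ω := {ω | lam < X ω} with hS
  have hSm : MeasurableSet S := measurableSet_lt measurable_const hX
  have hX2i : Integrable (fun ω => X ω ^ 2) P := by
    refine Integrable.of_bound (hX.pow_const 2).aestronglyMeasurable (B ^ 2) ?_
    filter_upwards [hX1, hXB] with ω h1 h2
    rw [Real.norm_eq_abs, abs_pow, abs_of_nonneg (by linarith)]
    exact pow_le_pow_left₀ (by linarith) h2 2
  have hDint : Integrable D P := by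
    refine Integrable.of_bound hD.aestronglyMeasurable 4 ?_
    filter_upwards [hD4] with ω h
    rw [Real.norm_eq_abs, abs_of_nonneg h.1]
    exact h.2
  have htail : ∫ ω, S.indicator (fun ω => X ω ^ 2) ω ∂P ≤ C * y0 ^ 2 := by
    rw [integral_indicator hSm]
    refine (htX j).trans ?_
    calc C / v ^ 2 * Real.exp (-2 * (b : ℝ) ^ j) ≤ C / v ^ 2 * (y0 ^ 2 * v ^ 2) :=
          mul_le_mul_of_nonneg_left hexpb (by positivity)
      _ = C * y0 ^ 2 := by field_simp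
  have hSi : Integrable (S.indicator (fun ω => X ω ^ 2)) P := hX2i.indicator hSm
  set φ : ℝ := y0 * (1 - Real.log y0) with hφ
  have ht2 : 0 ≤ t ^ 2 := sq_nonneg t
  have ht21 : t ^ 2 ≤ 1 := pow_le_one₀ ht.le ht1
  set ell : ℝ := √(2 * C * v * L1) with hell
  have hell2 : ell ^ 2 = 2 * C * v * L1 := Real.sq_sqrt (by positivity)
  set R : Set Ω := {ω | ell < N ω} with hR
  have hRm : MeasurableSet R := measurableSet_lt measurable_const hN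
  have hPR : (P R).toReal ≤ 2 * (y0 ^ 2 * v ^ 2) := by
    refine (htN ell (Real.sqrt_nonneg _)).trans ?_
    rw [hell2, ← hexpL]
    refine le_of_eq ?_
    congr 2
    field_simp
  have hRi : Integrable (R.indicator (fun _ => (1 : ℝ))) P :=
    (integrable_const (1 : ℝ)).indicator hRm
  have hRint : ∫ ω, R.indicator (fun _ => (1 : ℝ)) ω ∂P = (P R).toReal := by
    rw [integral_indicator hRm]
    simp [Measure.real]
  have hpt : ∀ᵐ ω ∂P, X ω ^ 2 * N ω ^ 2 * D ω ≤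
      (2 * C ^ 2 / v ^ 2) * (ell ^ 2 * D ω + 4 * R.indicator (fun _ => (1 : ℝ)) ω) +
        8 * (j : ℝ) ^ 2 * D ω + 4 * S.indicator (fun ω => X ω ^ 2) ω := by
    filter_upwards [hX1, hN1, hD4] with ω h1 h2 h3
    have hN2 : N ω ^ 2 * D ω ≤ ell ^ 2 * D ω + 4 * R.indicator (fun _ => (1 : ℝ)) ω := by
      by_cases hw : ω ∈ R
      · rw [Set.indicator_of_mem hw]
        have h4 : N ω ^ 2 ≤ 1 := pow_le_one₀ h2.1 h2.2
        have h5 : N ω ^ 2 * D ω ≤ 1 * D ω := mul_le_mul_of_nonneg_right h4 h3.1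
        have h6 : 0 ≤ ell ^ 2 * D ω := mul_nonneg (sq_nonneg _) h3.1
        linarith [h3.2]
      · rw [Set.indicator_of_notMem hw]
        have h4 : N ω ≤ ell := not_lt.1 hw
        have h5 : N ω ^ 2 ≤ ell ^ 2 := pow_le_pow_left₀ h2.1 h4 2
        have h6 := mul_le_mul_of_nonneg_right h5 h3.1
        linarith
    have hN3 : N ω ^ 2 * D ω ≤ D ω := by
      have h4 : N ω ^ 2 ≤ 1 := pow_le_one₀ h2.1 h2.2
      have := mul_le_mul_of_nonneg_right h4 h3.1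
      linarith
    have hN0 : 0 ≤ N ω ^ 2 * D ω := mul_nonneg (sq_nonneg _) h3.1
    have hc0 : 0 ≤ 2 * C ^ 2 / v ^ 2 := by positivity
    have k1 : (2 * C ^ 2 / v ^ 2) * (N ω ^ 2 * D ω) ≤
        (2 * C ^ 2 / v ^ 2) * (ell ^ 2 * D ω + 4 * R.indicator (fun _ => (1 : ℝ)) ω) :=
      mul_le_mul_of_nonneg_left hN2 hc0
    have k2 : 8 * (j : ℝ) ^ 2 * (N ω ^ 2 * D ω) ≤ 8 * (j : ℝ) ^ 2 * D ω :=
      mul_le_mul_of_nonneg_left hN3 (by positivity)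
    by_cases hw : ω ∈ S
    · rw [Set.indicator_of_mem hw]
      have k3 : X ω ^ 2 * N ω ^ 2 * D ω ≤ 4 * X ω ^ 2 := by
        have h4 : N ω ^ 2 * D ω ≤ 4 := hN3.trans h3.2
        have := mul_le_mul_of_nonneg_left h4 (sq_nonneg (X ω))
        linarith
      have k4 : 0 ≤ (2 * C ^ 2 / v ^ 2) * (N ω ^ 2 * D ω) := mul_nonneg hc0 hN0
      have k5 : 0 ≤ 8 * (j : ℝ) ^ 2 * (N ω ^ 2 * D ω) := mul_nonneg (by positivity) hN0
      linarith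
    · rw [Set.indicator_of_notMem hw]
      have h4 : X ω ≤ lam := not_lt.1 hw
      have h5 : X ω ^ 2 ≤ 2 * C ^ 2 / v ^ 2 + 8 * (j : ℝ) ^ 2 :=
        (pow_le_pow_left₀ (by linarith) h4 2).trans hlam2
      have h6 := mul_le_mul_of_nonneg_right h5 hN0
      have e : X ω ^ 2 * N ω ^ 2 * D ω = X ω ^ 2 * (N ω ^ 2 * D ω) := by ring
      rw [e]
      linarith
  have hLi : Integrable (fun ω => X ω ^ 2 * N ω ^ 2 * D ω) P := by
    refine Integrable.of_bound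
      (((hX.pow_const 2).mul (hN.pow_const 2)).mul hD).aestronglyMeasurable (4 * B ^ 2) ?_
    filter_upwards [hX1, hXB, hN1, hD4] with ω h1 h1' h2 h3
    have h4 : N ω ^ 2 ≤ 1 := pow_le_one₀ h2.1 h2.2
    have h5 : X ω ^ 2 ≤ B ^ 2 := pow_le_pow_left₀ (by linarith) h1' 2
    rw [Real.norm_eq_abs, abs_of_nonneg (mul_nonneg (by positivity) h3.1)]
    calc X ω ^ 2 * N ω ^ 2 * D ω ≤ B ^ 2 * 1 * 4 := by
          refine mul_le_mul (mul_le_mul h5 h4 (sq_nonneg _) (sq_nonneg _)) h3.2 h3.1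
            (by positivity)
      _ = 4 * B ^ 2 := by ring
  have i1 : Integrable (fun ω => ell ^ 2 * D ω + 4 * R.indicator (fun _ => (1 : ℝ)) ω) P :=
    (hDint.const_mul _).add (hRi.const_mul _)
  have i2 : Integrable (fun ω => (2 * C ^ 2 / v ^ 2) *
      (ell ^ 2 * D ω + 4 * R.indicator (fun _ => (1 : ℝ)) ω)) P := i1.const_mul _
  have i3 : Integrable (fun ω => 8 * (j : ℝ) ^ 2 * D ω) P := hDint.const_mul _
  have i4 : Integrable (fun ω => (2 * C ^ 2 / v ^ 2) *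
      (ell ^ 2 * D ω + 4 * R.indicator (fun _ => (1 : ℝ)) ω) + 8 * (j : ℝ) ^ 2 * D ω) P :=
    i2.add i3
  have i5 : Integrable (fun ω => 4 * S.indicator (fun ω => X ω ^ 2) ω) P := hSi.const_mul _
  have hmain : ∫ ω, X ω ^ 2 * N ω ^ 2 * D ω ∂P ≤
      (2 * C ^ 2 / v ^ 2) * (ell ^ 2 * (4 * y0) + 4 * (2 * (y0 ^ 2 * v ^ 2))) +
        8 * (j : ℝ) ^ 2 * (4 * y0) + 4 * (C * y0 ^ 2) := by
    calc ∫ ω, X ω ^ 2 * N ω ^ 2 * D ω ∂P
        ≤ ∫ ω, ((2 * C ^ 2 / v ^ 2) * (ell ^ 2 * D ω + 4 * R.indicator (fun _ => (1 : ℝ)) ω) +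
        8 * (j : ℝ) ^ 2 * D ω + 4 * S.indicator (fun ω => X ω ^ 2) ω) ∂P :=
          integral_mono_ae hLi (i4.add i5) hpt
      _ = (2 * C ^ 2 / v ^ 2) * (ell ^ 2 * ∫ ω, D ω ∂P + 4 * (P R).toReal) +
          8 * (j : ℝ) ^ 2 * ∫ ω, D ω ∂P + 4 * ∫ ω, S.indicator (fun ω => X ω ^ 2) ω ∂P := by
          rw [integral_add i4 i5, integral_add i2 i3, integral_const_mul,
            integral_add (hDint.const_mul _) (hRi.const_mul _), integral_const_mul,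
            integral_const_mul, integral_const_mul, integral_const_mul, hRint]
      _ ≤ _ := by
          have k1 : ell ^ 2 * ∫ ω, D ω ∂P ≤ ell ^ 2 * (4 * y0) :=
            mul_le_mul_of_nonneg_left hDi (sq_nonneg _)
          have k2 : 8 * (j : ℝ) ^ 2 * ∫ ω, D ω ∂P ≤ 8 * (j : ℝ) ^ 2 * (4 * y0) :=
            mul_le_mul_of_nonneg_left hDi (by positivity)
          have k3 : (2 * C ^ 2 / v ^ 2) * (ell ^ 2 * ∫ ω, D ω ∂P + 4 * (P R).toReal) ≤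
              (2 * C ^ 2 / v ^ 2) * (ell ^ 2 * (4 * y0) + 4 * (2 * (y0 ^ 2 * v ^ 2))) := by
            refine mul_le_mul_of_nonneg_left ?_ (by positivity)
            linarith
          linarith
  have hm2 := mul_le_mul_of_nonneg_left hmain ht2
  refine hm2.trans ?_
  rw [hell2]
  have e : t ^ 2 * ((2 * C ^ 2 / v ^ 2) * (2 * C * v * L1 * (4 * y0) +
        4 * (2 * (y0 ^ 2 * v ^ 2))) + 8 * (j : ℝ) ^ 2 * (4 * y0) + 4 * (C * y0 ^ 2)) =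
      16 * C ^ 3 * y0 * (t ^ 2 * L1 / v) + t ^ 2 * (16 * C ^ 2 * y0 ^ 2) +
        32 * y0 * (t ^ 2 * (j : ℝ) ^ 2) + t ^ 2 * (4 * C * y0 ^ 2) := by
    field_simp
    ring
  rw [e]
  have m1 : 16 * C ^ 3 * y0 * (t ^ 2 * L1 / v) ≤ 16 * C ^ 3 * y0 * (3 * (1 - Real.log y0)) :=
    mul_le_mul_of_nonneg_left htLv (by positivity)
  have m1' : 16 * C ^ 3 * y0 * (3 * (1 - Real.log y0)) = 48 * C ^ 3 * φ := by rw [hφ]; ring
  have m2 : t ^ 2 * (16 * C ^ 2 * y0 ^ 2) ≤ 16 * C ^ 2 * φ := by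
    have h1 : 16 * C ^ 2 * y0 ^ 2 ≤ 16 * C ^ 2 * φ :=
      mul_le_mul_of_nonneg_left hy02 (by positivity)
    have h2 : t ^ 2 * (16 * C ^ 2 * y0 ^ 2) ≤ 1 * (16 * C ^ 2 * y0 ^ 2) :=
      mul_le_mul_of_nonneg_right ht21 (by positivity)
    linarith
  have m3 : 32 * y0 * (t ^ 2 * (j : ℝ) ^ 2) ≤ 32 * y0 * (16 * (1 - Real.log y0)) :=
    mul_le_mul_of_nonneg_left htj (by positivity)
  have m3' : 32 * y0 * (16 * (1 - Real.log y0)) = 512 * φ := by rw [hφ]; ring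
  have m4 : t ^ 2 * (4 * C * y0 ^ 2) ≤ 4 * C * φ := by
    have h1 : 4 * C * y0 ^ 2 ≤ 4 * C * φ := mul_le_mul_of_nonneg_left hy02 (by positivity)
    have h2 : t ^ 2 * (4 * C * y0 ^ 2) ≤ 1 * (4 * C * y0 ^ 2) :=
      mul_le_mul_of_nonneg_right ht21 (by positivity)
    linarith
  have hφ0 : 0 ≤ φ := hy0.le.trans hy0φ
  have hCφ : 0 ≤ C * φ := mul_nonneg hC.le hφ0
  calc _ ≤ 48 * C ^ 3 * φ + 16 * C ^ 2 * φ + 512 * φ + 4 * C * φ := by linarith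
    _ ≤ _ := by linarith

theorem tails2 (b : ℕ) {C : ℝ} (hC : 0 < C)
    {Ω : Type*} [MeasurableSpace Ω] {P : Measure Ω} [IsProbabilityMeasure P]
    {X D : Ω → ℝ} {t v y0 : ℝ} {j : ℕ} (hX : Measurable X) (hD : Measurable D) (hX1 : ∀ᵐ ω ∂P, 1 ≤ X ω) {B : ℝ} (hXB : ∀ᵐ ω ∂P, X ω ≤ B)
    (hD4 : ∀ᵐ ω ∂P, 0 ≤ D ω ∧ D ω ≤ 4)
    (ht : 0 < t) (ht1 : t ≤ 1) (hv : 0 < v) (hy0 : 0 < y0)
    (htX : ∀ j : ℕ, ∫ ω in {ω | C / v + 2 * j < X ω}, X ω ^ 2 ∂P ≤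
        C / v ^ 2 * Real.exp (-2 * (b : ℝ) ^ j))
    (hDi : ∫ ω, D ω ∂P ≤ 4 * y0)
    (hexpb : Real.exp (-2 * (b : ℝ) ^ j) ≤ y0 ^ 2 * v ^ 2)
    (htj : t ^ 2 * (j : ℝ) ^ 2 ≤ 16 * (1 - Real.log y0)) (ht3v : t ^ 2 ≤ 3 * v)
    (hy0φ : y0 ≤ y0 * (1 - Real.log y0)) (hy02 : y0 ^ 2 ≤ y0 * (1 - Real.log y0)) :
    t ^ 2 * ∫ ω, X ω * D ω ∂P ≤
      (48 * C ^ 3 + 16 * C ^ 2 + 16 * C + 600) * (y0 * (1 - Real.log y0)) := by
  set lam : ℝ := C / v + 2 * j with hlam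
  have hlam0 : 0 ≤ lam := by positivity
  have hlam2 : lam ^ 2 ≤ 2 * C ^ 2 / v ^ 2 + 8 * (j : ℝ) ^ 2 := by
    have e : lam ^ 2 ≤ 2 * (C / v) ^ 2 + 2 * (2 * (j : ℝ)) ^ 2 := by
      rw [hlam]; nlinarith [sq_nonneg (C / v - 2 * (j : ℝ))]
    have e2 : 2 * (C / v) ^ 2 + 2 * (2 * (j : ℝ)) ^ 2 = 2 * C ^ 2 / v ^ 2 + 8 * (j : ℝ) ^ 2 := by
      ring
    linarith
  set S : Set Ω := {ω | lam < X ω} with hS
  have hSm : MeasurableSet S := measurableSet_lt measurable_const hX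
  have hX2i : Integrable (fun ω => X ω ^ 2) P := by
    refine Integrable.of_bound (hX.pow_const 2).aestronglyMeasurable (B ^ 2) ?_
    filter_upwards [hX1, hXB] with ω h1 h2
    rw [Real.norm_eq_abs, abs_pow, abs_of_nonneg (by linarith)]
    exact pow_le_pow_left₀ (by linarith) h2 2
  have hDint : Integrable D P := by
    refine Integrable.of_bound hD.aestronglyMeasurable 4 ?_
    filter_upwards [hD4] with ω h
    rw [Real.norm_eq_abs, abs_of_nonneg h.1]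
    exact h.2
  have htail : ∫ ω, S.indicator (fun ω => X ω ^ 2) ω ∂P ≤ C * y0 ^ 2 := by
    rw [integral_indicator hSm]
    refine (htX j).trans ?_
    calc C / v ^ 2 * Real.exp (-2 * (b : ℝ) ^ j) ≤ C / v ^ 2 * (y0 ^ 2 * v ^ 2) :=
          mul_le_mul_of_nonneg_left hexpb (by positivity)
      _ = C * y0 ^ 2 := by field_simp
  have hSi : Integrable (S.indicator (fun ω => X ω ^ 2)) P := hX2i.indicator hSm
  set φ : ℝ := y0 * (1 - Real.log y0) with hφ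
  have ht2 : 0 ≤ t ^ 2 := sq_nonneg t
  have ht21 : t ^ 2 ≤ 1 := pow_le_one₀ ht.le ht1
  have hpt : ∀ᵐ ω ∂P, X ω * D ω ≤ lam * D ω + 4 * S.indicator (fun ω => X ω ^ 2) ω := by
    filter_upwards [hX1, hD4] with ω h1 h3
    by_cases hw : ω ∈ S
    · rw [Set.indicator_of_mem hw]
      have k1 : X ω * D ω ≤ X ω * 4 := mul_le_mul_of_nonneg_left h3.2 (by linarith)
      have k2 : X ω ≤ X ω ^ 2 := by nlinarith
      have k3 : 0 ≤ lam * D ω := mul_nonneg hlam0 h3.1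
      linarith
    · rw [Set.indicator_of_notMem hw]
      have h4 : X ω ≤ lam := not_lt.1 hw
      have := mul_le_mul_of_nonneg_right h4 h3.1
      linarith
  have hLi : Integrable (fun ω => X ω * D ω) P := by
    refine Integrable.of_bound (hX.mul hD).aestronglyMeasurable (B * 4) ?_
    filter_upwards [hX1, hXB, hD4] with ω h1 h1' h3
    rw [Real.norm_eq_abs, abs_of_nonneg (mul_nonneg (by linarith) h3.1)]
    exact mul_le_mul h1' h3.2 h3.1 (by linarith)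
  have i5 : Integrable (fun ω => 4 * S.indicator (fun ω => X ω ^ 2) ω) P := hSi.const_mul _
  have hmain : ∫ ω, X ω * D ω ∂P ≤ lam * (4 * y0) + 4 * (C * y0 ^ 2) := by
    calc ∫ ω, X ω * D ω ∂P
        ≤ ∫ ω, (lam * D ω + 4 * S.indicator (fun ω => X ω ^ 2) ω) ∂P :=
          integral_mono_ae hLi ((hDint.const_mul _).add i5) hpt
      _ = lam * ∫ ω, D ω ∂P + 4 * ∫ ω, S.indicator (fun ω => X ω ^ 2) ω ∂P := by
          rw [integral_add (hDint.const_mul _) i5, integral_const_mul, integral_const_mul]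
      _ ≤ _ := by
          have k1 := mul_le_mul_of_nonneg_left hDi hlam0
          linarith
  have hm2 := mul_le_mul_of_nonneg_left hmain ht2
  refine hm2.trans ?_
  have e : t ^ 2 * (lam * (4 * y0) + 4 * (C * y0 ^ 2)) =
      4 * C * y0 * (t ^ 2 / v) + 8 * y0 * (t ^ 2 * (j : ℝ)) + t ^ 2 * (4 * C * y0 ^ 2) := by
    rw [hlam]
    ring
  rw [e]
  have hφ0 : 0 ≤ φ := hy0.le.trans hy0φ
  have m1 : 4 * C * y0 * (t ^ 2 / v) ≤ 12 * C * φ := by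
    have h1 : t ^ 2 / v ≤ 3 := by rw [div_le_iff₀ hv]; exact ht3v
    have h2 : 4 * C * y0 * (t ^ 2 / v) ≤ 4 * C * y0 * 3 :=
      mul_le_mul_of_nonneg_left h1 (by positivity)
    have h3 : 12 * C * y0 ≤ 12 * C * φ := mul_le_mul_of_nonneg_left hy0φ (by positivity)
    linarith
  have m2 : 8 * y0 * (t ^ 2 * (j : ℝ)) ≤ 136 * φ := by
    have h1 : (j : ℝ) ≤ 1 + (j : ℝ) ^ 2 := by nlinarith [sq_nonneg ((j : ℝ) - 1)]
    have h2 : t ^ 2 * (j : ℝ) ≤ t ^ 2 * (1 + (j : ℝ) ^ 2) := mul_le_mul_of_nonneg_left h1 ht2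
    have hlog1 : 1 ≤ 1 - Real.log y0 := by
      have : y0 * 1 ≤ y0 * (1 - Real.log y0) := by rw [mul_one]; exact hy0φ
      exact le_of_mul_le_mul_left this hy0
    have h3 : t ^ 2 * (j : ℝ) ≤ 17 * (1 - Real.log y0) := by linarith
    have h4 : 8 * y0 * (t ^ 2 * (j : ℝ)) ≤ 8 * y0 * (17 * (1 - Real.log y0)) :=
      mul_le_mul_of_nonneg_left h3 (by positivity)
    have h5 : 8 * y0 * (17 * (1 - Real.log y0)) = 136 * φ := by rw [hφ]; ring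
    linarith
  have m4 : t ^ 2 * (4 * C * y0 ^ 2) ≤ 4 * C * φ := by
    have h1 : 4 * C * y0 ^ 2 ≤ 4 * C * φ := mul_le_mul_of_nonneg_left hy02 (by positivity)
    have h2 : t ^ 2 * (4 * C * y0 ^ 2) ≤ 1 * (4 * C * y0 ^ 2) :=
      mul_le_mul_of_nonneg_right ht21 (by positivity)
    linarith
  have h3 : 0 ≤ C ^ 3 * φ := by positivity
  have h4 : 0 ≤ C ^ 2 * φ := by positivity
  linarith

theorem tails (b : ℕ) (hb : 2 ≤ b) (C : ℝ) (hC : 0 < C) : ∃ C' : ℝ, 0 < C' ∧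
    ∀ (Ω : Type*) (_ : MeasurableSpace Ω) (P : Measure Ω) (_ : IsProbabilityMeasure P)
      (X N D : Ω → ℝ) (t v y0 : ℝ), Measurable X → Measurable N → Measurable D →
      (∀ᵐ ω ∂P, 1 ≤ X ω) → (∃ B, ∀ᵐ ω ∂P, X ω ≤ B) → (∀ᵐ ω ∂P, 0 ≤ N ω ∧ N ω ≤ 1) →
      (∀ᵐ ω ∂P, 0 ≤ D ω ∧ D ω ≤ 4) →
      0 < t → t ≤ 1 → 0 < v → v ≤ 1 → t ^ 2 * (1 - Real.log v) ≤ 3 * v → 0 < y0 → y0 ≤ 1 →
      (∀ l : ℝ, 0 ≤ l → (P {ω | l < N ω}).toReal ≤ 2 * Real.exp (-l ^ 2 / (C * v))) →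
      (∀ j : ℕ, ∫ ω in {ω | C / v + 2 * j < X ω}, X ω ^ 2 ∂P ≤
        C / v ^ 2 * Real.exp (-2 * (b : ℝ) ^ j)) →
      ∫ ω, D ω ∂P ≤ 4 * y0 →
      t ^ 2 * ∫ ω, X ω ^ 2 * N ω ^ 2 * D ω ∂P ≤ C' * (y0 * (1 - Real.log y0)) ∧
      t ^ 2 * ∫ ω, X ω * D ω ∂P ≤ C' * (y0 * (1 - Real.log y0)) := by
  refine ⟨48 * C ^ 3 + 16 * C ^ 2 + 16 * C + 600, by positivity, ?_⟩
  intro Ω _ P _ X N D t v y0 hX hN hD hX1 hXB hN1 hD4 ht ht1 hv hv1 htv hy0 hy1 htN htX hDi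
  obtain ⟨B, hXB⟩ := hXB
  obtain ⟨L1, j, hL0, hexpL, hexpb, htLv, htj, ht3v, hy0φ, hy02⟩ :=
    real_pre hb ht ht1 hv hv1 htv hy0 hy1
  exact ⟨tails1 b hC hX hN hD hX1 hXB hN1 hD4 ht ht1 hv hy0 htN htX hDi hL0 hexpL hexpb htLv htj
    ht3v hy0φ hy02, tails2 b hC hX hD hX1 hXB hD4 ht ht1 hv hy0 htX hDi hexpb htj ht3v hy0φ hy02⟩

/-- The relation between the time and the scale. -/
theorem scale_bound {t v : ℝ} (ht : 0 < t) (ht1 : t ≤ 1) (hv : 0 < v) (h : v ^ 2 = t ^ 3 ∨ v = 1) :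
    t ^ 2 * (1 - Real.log v) ≤ 3 * v := by
  rcases h with h | rfl
  · -- `v = t √t`, `log v = (3/2) log t`
    have hlog : Real.log v = 3 / 2 * Real.log t := by
      have h1 : Real.log (v ^ 2) = Real.log (t ^ 3) := by rw [h]
      rw [Real.log_pow, Real.log_pow] at h1
      push_cast at h1
      linarith
    set s := √t with hs
    have hs0 : 0 < s := Real.sqrt_pos.2 ht
    have hst : s ^ 2 = t := Real.sq_sqrt ht.le
    have hvs : v = s ^ 3 := by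
      have h1 : v ^ 2 = (s ^ 3) ^ 2 := by rw [h, ← hst]; ring
      exact (pow_left_inj₀ hv.le (by positivity) (by norm_num)).1 h1
    have hlt : Real.log t = 2 * Real.log s := by
      rw [← hst, Real.log_pow]; push_cast; ring
    -- `- log s ≤ 1/s - 1`
    have h2 : -Real.log s ≤ s⁻¹ - 1 := by
      have := Real.log_le_sub_one_of_pos (inv_pos.2 hs0)
      rwa [Real.log_inv] at this
    rw [hlog, hlt, hvs, ← hst]
    have h3 : 1 - 3 / 2 * (2 * Real.log s) ≤ 1 + 3 * (s⁻¹ - 1) := by linarith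
    have h4 : (s ^ 2) ^ 2 * (1 - 3 / 2 * (2 * Real.log s)) ≤ (s ^ 2) ^ 2 * (1 + 3 * (s⁻¹ - 1)) :=
      mul_le_mul_of_nonneg_left h3 (by positivity)
    have h5 : (s ^ 2) ^ 2 * (1 + 3 * (s⁻¹ - 1)) = 3 * s ^ 3 - 2 * s ^ 4 := by
      field_simp
      ring
    have h6 : 0 ≤ s ^ 4 := by positivity
    linarith
  · rw [Real.log_one]
    have := pow_le_one₀ ht.le ht1 (n := 2)
    linarith

end Vale.Agent.P161.EP
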