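import Mathlib
import Vale.Agent.P161.EP.Gbound
import Vale.Agent.P161.EP.Tails
import Vale.Agent.P161.EP.LamLip
import Vale.Agent.P161.EP.FV

/-!
# Module P0 (PointPre): preparations
-/

open MeasureTheory Filter Topology

namespace Vale.Agent.P161.EP

universe u

/-- The estimates of the law of `(M, X)` at scale `v`. -/
structure Good {V : Type u} (G : SimpleGraph V) [G.LocallyFinite] (b : ℕ) (C c v θ : ℝ)
    (M : V → V → (V × ℕ → ℝ) → ℝ) : Prop where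
  low : ∀ x y, G.Adj x y → c * v ≤ ∫ om, M x y om ^ 2 ∂(Pu (V × ℕ))
  m8 : ∀ x y, G.Adj x y → ∫ om, M x y om ^ 8 ∂(Pu (V × ℕ)) ≤ C * v ^ 4
  tailM : ∀ x y, G.Adj x y → ∀ l : ℝ, 0 ≤ l →
    (Pu (V × ℕ) {om | l < |M x y om|}).toReal ≤ 2 * Real.exp (-l ^ 2 / (C * v))
  x4 : ∀ x y, G.Adj x y → ∫ om, Xs G (Lf θ M om) x y ^ 4 ∂(Pu (V × ℕ)) ≤ C / v ^ 4
  tailX : ∀ x y, G.Adj x y → ∀ j : ℕ,
    ∫ om in {om | C / v + 2 * j < Xs G (Lf θ M om) x y}, Xs G (Lf θ M om) x y ^ 2 ∂(Pu (V × ℕ)) ≤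
      C / v ^ 2 * Real.exp (-2 * (b : ℝ) ^ j)
  var : ∀ x y, G.Adj x y →
    ∫ om, (Xs G (Lf θ M om) x y - ∫ om', Xs G (Lf θ M om') x y ∂(Pu (V × ℕ))) ^ 2
      ∂(Pu (V × ℕ)) ≤ C

section prob

variable {Ω : Type*} [MeasurableSpace Ω] {P : Measure Ω} [IsProbabilityMeasure P]

/-- Cauchy-Schwarz for bounded measurable functions. -/
theorem cs {f g : Ω → ℝ} (hf : Measurable f) (hg : Measurable g) {B : ℝ} (hfB : ∀ ω, |f ω| ≤ B)
    (hgB : ∀ ω, |g ω| ≤ B) :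
    |∫ ω, f ω * g ω ∂P| ≤ √(∫ ω, f ω ^ 2 ∂P) * √(∫ ω, g ω ^ 2 ∂P) := by
  have hf2 : Integrable (fun ω => f ω ^ 2) P :=
    Integrable.of_bound (hf.pow_const 2).aestronglyMeasurable (B ^ 2) (ae_of_all _ fun ω => by
      rw [Real.norm_eq_abs, abs_pow]; exact pow_le_pow_left₀ (abs_nonneg _) (hfB ω) 2)
  have hg2 : Integrable (fun ω => g ω ^ 2) P :=
    Integrable.of_bound (hg.pow_const 2).aestronglyMeasurable (B ^ 2) (ae_of_all _ fun ω => by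
      rw [Real.norm_eq_abs, abs_pow]; exact pow_le_pow_left₀ (abs_nonneg _) (hgB ω) 2)
  have hfg : Integrable (fun ω => f ω * g ω) P :=
    Integrable.of_bound (hf.mul hg).aestronglyMeasurable (B * B) (ae_of_all _ fun ω => by
      rw [Real.norm_eq_abs, abs_mul]
      exact mul_le_mul (hfB ω) (hgB ω) (abs_nonneg _) ((abs_nonneg _).trans (hfB ω)))
  set a := ∫ ω, f ω ^ 2 ∂P with ha
  set c := ∫ ω, g ω ^ 2 ∂P with hc
  set d := ∫ ω, f ω * g ω ∂P with hd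
  have ha0 : 0 ≤ a := integral_nonneg fun ω => sq_nonneg _
  have hc0 : 0 ≤ c := integral_nonneg fun ω => sq_nonneg _
  have key : ∀ s : ℝ, 0 ≤ a * s ^ 2 + 2 * d * s + c := by
    intro s
    have h : ∫ ω, (s * f ω + g ω) ^ 2 ∂P = a * s ^ 2 + 2 * d * s + c := by
      have e : ∀ ω, (s * f ω + g ω) ^ 2 = s ^ 2 * f ω ^ 2 + 2 * s * (f ω * g ω) + g ω ^ 2 :=
        fun ω => by ring
      simp only [e]
      have i1 : Integrable (fun ω => s ^ 2 * f ω ^ 2) P := hf2.const_mul _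
      have i2 : Integrable (fun ω => 2 * s * (f ω * g ω)) P := hfg.const_mul _
      have i3 : Integrable (fun ω => s ^ 2 * f ω ^ 2 + 2 * s * (f ω * g ω)) P := i1.add i2
      rw [integral_add i3 hg2, integral_add i1 i2, integral_const_mul, integral_const_mul]
      ring
    rw [← h]
    exact integral_nonneg fun ω => sq_nonneg _
  have hdisc : d ^ 2 ≤ a * c := by
    have := discrim_le_zero (a := a) (b := 2 * d) (c := c) (fun s => by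
      have := key s; linarith [this, sq s])
    unfold discrim at this
    nlinarith
  rw [← Real.sqrt_mul ha0, ← Real.sqrt_sq_eq_abs]
  exact Real.sqrt_le_sqrt hdisc

theorem integ {f : Ω → ℝ} (hf : Measurable f) {B : ℝ} (hB : ∀ ω, |f ω| ≤ B) : Integrable f P :=
  Integrable.of_bound hf.aestronglyMeasurable B (ae_of_all _ hB)

/-- The integral of a product: mean times mean plus fluctuation. -/
theorem mean_prod {Z h : Ω → ℝ} (hZ : Measurable Z) (hh : Measurable h) {B : ℝ}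
    (hZB : ∀ ω, |Z ω| ≤ B) (hhB : ∀ ω, |h ω| ≤ B) :
    |∫ ω, Z ω * h ω ∂P| ≤ |∫ ω, Z ω ∂P| * |∫ ω, h ω ∂P| +
      √(∫ ω, (Z ω - ∫ ω', Z ω' ∂P) ^ 2 ∂P) * √(∫ ω, h ω ^ 2 ∂P) := by
  set z := ∫ ω', Z ω' ∂P with hz
  have hB0 : 0 ≤ B := by
    obtain ⟨ω⟩ : Nonempty Ω := by
      by_contra hne
      rw [not_nonempty_iff] at hne
      have := (inferInstance : IsProbabilityMeasure P).measure_univ
      rw [Set.univ_eq_empty_iff.2 hne, measure_empty] at this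
      exact zero_ne_one this
    exact (abs_nonneg _).trans (hZB ω)
  have hzB : |z| ≤ B := by
    calc |z| ≤ ∫ ω, |Z ω| ∂P := abs_integral_le_integral_abs
      _ ≤ ∫ _, B ∂P := integral_mono (integ hZ hZB).abs (integrable_const _) hZB
      _ = B := by simp
  have h1 : ∫ ω, Z ω * h ω ∂P = z * ∫ ω, h ω ∂P + ∫ ω, (Z ω - z) * h ω ∂P := by
    have i1 : Integrable (fun ω => z * h ω) P := (integ hh hhB).const_mul _
    have i2 : Integrable (fun ω => (Z ω - z) * h ω) P := by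
      refine integ ((hZ.sub_const z).mul hh) (B := (B + B) * B) fun ω => ?_
      rw [abs_mul]
      exact mul_le_mul ((abs_sub _ _).trans (add_le_add (hZB ω) hzB)) (hhB ω) (abs_nonneg _)
        (by linarith)
    rw [← integral_const_mul, ← integral_add i1 i2]
    refine integral_congr_ae (ae_of_all _ fun ω => ?_)
    simp only
    ring
  rw [h1]
  refine (abs_add_le _ _).trans (add_le_add (abs_mul _ _).le ?_)
  exact cs (hZ.sub_const z) hh (B := B + B) (fun ω => (abs_sub _ _).trans (add_le_add (hZB ω) hzB))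
    (fun ω => (hhB ω).trans (by linarith))

/-- `∫ f² ≤ √(∫ f⁴)`. -/
theorem int_sq_le_sqrt {f : Ω → ℝ} (hf : Measurable f) {B : ℝ} (hfB : ∀ ω, |f ω| ≤ B) :
    ∫ ω, f ω ^ 2 ∂P ≤ √(∫ ω, f ω ^ 4 ∂P) := by
  have hB1 : ∀ ω, |f ω ^ 2| ≤ max (B ^ 2) 1 := fun ω => by
    rw [abs_pow]
    exact (pow_le_pow_left₀ (abs_nonneg _) (hfB ω) 2).trans (le_max_left _ _)
  have h := cs (P := P) (hf.pow_const 2) (measurable_const (a := (1 : ℝ))) (B := max (B ^ 2) 1) hB1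
    (fun ω => by rw [abs_one]; exact le_max_right _ _)
  have e1 : ∫ ω, f ω ^ 2 * 1 ∂P = ∫ ω, f ω ^ 2 ∂P := by simp
  have e2 : ∫ ω, (f ω ^ 2) ^ 2 ∂P = ∫ ω, f ω ^ 4 ∂P := by
    congr 1; ext ω; ring
  rw [e1, e2] at h
  simp only [one_pow, integral_const, probReal_univ, smul_eq_mul, mul_one, Real.sqrt_one] at h
  exact (le_abs_self _).trans h

/-- `∫ f⁴ ≤ √(∫ f⁸)`. -/
theorem int_pow4_le_sqrt {f : Ω → ℝ} (hf : Measurable f) {B : ℝ} (hfB : ∀ ω, |f ω| ≤ B) :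
    ∫ ω, f ω ^ 4 ∂P ≤ √(∫ ω, f ω ^ 8 ∂P) := by
  have h := int_sq_le_sqrt (P := P) (hf.pow_const 2) (B := B ^ 2) (fun ω => by
    rw [abs_pow]
    exact pow_le_pow_left₀ (abs_nonneg _) (hfB ω) 2)
  have e1 : ∫ ω, (f ω ^ 2) ^ 2 ∂P = ∫ ω, f ω ^ 4 ∂P := by
    congr 1; ext ω; ring
  have e2 : ∫ ω, (f ω ^ 2) ^ 4 ∂P = ∫ ω, f ω ^ 8 ∂P := by
    congr 1; ext ω; ring
  rwa [e1, e2] at h

/-- `∫ s⁴ X² ≤ √(∫ s⁸) √(∫ X⁴)`. -/
theorem int_pow4_mul_sq {f X : Ω → ℝ} (hf : Measurable f) (hX : Measurable X) {B : ℝ}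
    (hfB : ∀ ω, |f ω| ≤ B) (hXB : ∀ ω, |X ω| ≤ B) :
    ∫ ω, f ω ^ 4 * X ω ^ 2 ∂P ≤ √(∫ ω, f ω ^ 8 ∂P) * √(∫ ω, X ω ^ 4 ∂P) := by
  have h := cs (P := P) (hf.pow_const 4) (hX.pow_const 2) (B := max (B ^ 4) (B ^ 2))
    (fun ω => by
      rw [abs_pow]
      exact (pow_le_pow_left₀ (abs_nonneg _) (hfB ω) 4).trans (le_max_left _ _))
    (fun ω => by
      rw [abs_pow]
      exact (pow_le_pow_left₀ (abs_nonneg _) (hXB ω) 2).trans (le_max_right _ _))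
  have e1 : ∫ ω, (f ω ^ 4) ^ 2 ∂P = ∫ ω, f ω ^ 8 ∂P := by
    congr 1; ext ω; ring
  have e2 : ∫ ω, (X ω ^ 2) ^ 2 ∂P = ∫ ω, X ω ^ 4 ∂P := by
    congr 1; ext ω; ring
  rw [e1, e2] at h
  exact (le_abs_self _).trans h

/-- The variance is the smallest mean square deviation. -/
theorem var_le {Z : Ω → ℝ} (hZ : Measurable Z) {B : ℝ} (hZB : ∀ ω, |Z ω| ≤ B) (c : ℝ) :
    ∫ ω, (Z ω - ∫ ω', Z ω' ∂P) ^ 2 ∂P ≤ ∫ ω, (Z ω - c) ^ 2 ∂P := by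
  set z := ∫ ω', Z ω' ∂P with hz
  have i1 : Integrable Z P := integ hZ hZB
  have i0 : Integrable (fun ω => (Z ω - z) ^ 2) P := by
    refine integ ((hZ.sub_const z).pow_const 2) (B := (B + |z|) ^ 2) fun ω => ?_
    rw [abs_pow]
    exact pow_le_pow_left₀ (abs_nonneg _) ((abs_sub _ _).trans (add_le_add (hZB ω) le_rfl)) 2
  have i2 : Integrable (fun ω => 2 * (z - c) * (Z ω - z)) P :=
    (i1.sub (integrable_const _)).const_mul _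
  have e : ∀ ω, (Z ω - c) ^ 2 = (Z ω - z) ^ 2 + 2 * (z - c) * (Z ω - z) + (z - c) ^ 2 :=
    fun ω => by ring
  have i3 : Integrable (fun ω => (Z ω - z) ^ 2 + 2 * (z - c) * (Z ω - z)) P := i0.add i2
  have h : ∫ ω, (Z ω - c) ^ 2 ∂P = ∫ ω, (Z ω - z) ^ 2 ∂P + (z - c) ^ 2 := by
    simp only [e]
    rw [integral_add i3 (integrable_const _), integral_add i0 i2, integral_const_mul,
      integral_sub i1 (integrable_const _)]
    simp [← hz]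
  rw [h]
  nlinarith [sq_nonneg (z - c)]

end prob

section elementary

variable {θ θ' : ℝ}

theorem one_sub_ge (h0 : 0 ≤ θ) (h1 : θ ^ 2 ≤ 1 / 2) : 29 / 100 ≤ 1 - θ := by
  nlinarith

theorem lip_const (h0 : 0 ≤ θ) (h1 : θ ^ 2 ≤ 1 / 2) (h0' : 0 ≤ θ') (h1' : θ' ^ 2 ≤ 1 / 2) :
    4 / ((1 - θ) ^ 2 * (1 - θ') ^ 2) ≤ 600 := by
  have h2 := one_sub_ge h0 h1
  have h3 := one_sub_ge h0' h1'
  have h4 : (29 / 100 : ℝ) ^ 2 ≤ (1 - θ) ^ 2 := pow_le_pow_left₀ (by norm_num) h2 2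
  have h5 : (29 / 100 : ℝ) ^ 2 ≤ (1 - θ') ^ 2 := pow_le_pow_left₀ (by norm_num) h3 2
  have h6 : (29 / 100 : ℝ) ^ 2 * (29 / 100 : ℝ) ^ 2 ≤ (1 - θ) ^ 2 * (1 - θ') ^ 2 :=
    mul_le_mul h4 h5 (by positivity) (by positivity)
  rw [div_le_iff₀ (by positivity)]
  nlinarith

theorem aux_sq (Y r : ℝ) : (8 * (Y + r)) ^ 2 ≤ 128 * (Y ^ 2 + r ^ 2) := by
  nlinarith [sq_nonneg (Y - r)]

theorem aux_sq3 (p q r : ℝ) : (p + q + r) ^ 2 ≤ 3 * (p ^ 2 + q ^ 2 + r ^ 2) := by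
  nlinarith [sq_nonneg (p - q), sq_nonneg (p - r), sq_nonneg (q - r)]

theorem aux_fin {W a p2 q2 r2 : ℝ}
    (h9 : W ≤ 2 * a * (600 ^ 2 * (3 * (p2 + q2 + r2)))) (h11 : a * r2 ≤ 2 * r2)
    (h12 : 0 ≤ a * (p2 + q2)) (h13 : 0 ≤ r2) :
    128 * (W + r2) ≤ 10 ^ 9 * (a * (p2 + q2) + r2) := by
  have e : 2 * a * (600 ^ 2 * (3 * (p2 + q2 + r2))) =
      (6 * 600 ^ 2) * (a * (p2 + q2)) + (6 * 600 ^ 2) * (a * r2) := by ring
  rw [e] at h9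
  generalize a * (p2 + q2) = Y at *
  generalize a * r2 = X at *
  norm_num at *
  linarith

/-- `Δ² ≤ K ((M² + M'²)(d1 + d2) + (θ - θ')²)`. -/
theorem delta_sq_le {M M' p q : ℝ} (h0 : 0 ≤ θ) (h1 : θ ^ 2 ≤ 1 / 2) (h0' : 0 ≤ θ')
    (h1' : θ' ^ 2 ≤ 1 / 2) (hM : |M| ≤ 1) (hM' : |M'| ≤ 1) (_hp : 0 ≤ p) (_hq : 0 ≤ q)
    (hl : |M - M'| ≤ 600 * (p + q + |θ - θ'|)) :
    (lam θ M - lam θ' M') ^ 2 ≤
      10 ^ 9 * ((M ^ 2 + M' ^ 2) * (p ^ 2 + q ^ 2) + (θ - θ') ^ 2) := by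
  have h2 := lam_sub_le h0 h1 h0' h1' hM hM'
  set r := |θ - θ'| with hr
  have hr0 : 0 ≤ r := abs_nonneg _
  have hr2 : (θ - θ') ^ 2 = r ^ 2 := (sq_abs _).symm
  set N := |M| with hN
  set N' := |M'| with hN'
  have hN0 : 0 ≤ N := abs_nonneg _
  have hN0' : 0 ≤ N' := abs_nonneg _
  have e1 : M ^ 2 = N ^ 2 := (sq_abs _).symm
  have e2 : M' ^ 2 = N' ^ 2 := (sq_abs _).symm
  rw [hr2, e1, e2]
  have h3 : (lam θ M - lam θ' M') ^ 2 ≤ (8 * ((N + N') * |M - M'| + r)) ^ 2 :=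
    sq_le_sq' (by linarith [neg_abs_le (lam θ M - lam θ' M')]) ((le_abs_self _).trans h2)
  refine h3.trans ?_
  have h4 : (N + N') * |M - M'| ≤ (N + N') * (600 * (p + q + r)) :=
    mul_le_mul_of_nonneg_left hl (by positivity)
  have h5 : (8 * ((N + N') * |M - M'| + r)) ^ 2 ≤ (8 * ((N + N') * (600 * (p + q + r)) + r)) ^ 2 := by
    refine pow_le_pow_left₀ (by positivity) ?_ 2
    linarith
  refine h5.trans ?_
  have h6 : (8 * ((N + N') * (600 * (p + q + r)) + r)) ^ 2 ≤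
      128 * ((N + N') ^ 2 * (600 * (p + q + r)) ^ 2 + r ^ 2) := by
    rw [← mul_pow (N + N')]
    exact aux_sq _ _
  refine h6.trans ?_
  have h7 : (N + N') ^ 2 ≤ 2 * (N ^ 2 + N' ^ 2) := by nlinarith [sq_nonneg (N - N')]
  have h8 : (p + q + r) ^ 2 ≤ 3 * (p ^ 2 + q ^ 2 + r ^ 2) := aux_sq3 p q r
  have h9 : (N + N') ^ 2 * (600 * (p + q + r)) ^ 2 ≤
      2 * (N ^ 2 + N' ^ 2) * (600 ^ 2 * (3 * (p ^ 2 + q ^ 2 + r ^ 2))) := by
    refine mul_le_mul h7 ?_ (by positivity) (by positivity)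
    rw [mul_pow]
    exact mul_le_mul_of_nonneg_left h8 (by norm_num)
  have hN1 : N ^ 2 ≤ 1 := pow_le_one₀ hN0 hM
  have hN1' : N' ^ 2 ≤ 1 := pow_le_one₀ hN0' hM'
  have h10 : N ^ 2 + N' ^ 2 ≤ 2 := add_le_add hN1 hN1' |>.trans (by norm_num)
  have h11 : (N ^ 2 + N' ^ 2) * r ^ 2 ≤ 2 * r ^ 2 := mul_le_mul_of_nonneg_right h10 (sq_nonneg r)
  have h12 : 0 ≤ (N ^ 2 + N' ^ 2) * (p ^ 2 + q ^ 2) := by positivity
  have h13 : 0 ≤ r ^ 2 := sq_nonneg r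
  exact aux_fin h9 h11 h12 h13

theorem delta_sq_le' {M M' : ℝ} (h0 : 0 ≤ θ) (h1 : θ ^ 2 ≤ 1 / 2) (h0' : 0 ≤ θ')
    (h1' : θ' ^ 2 ≤ 1 / 2) (hM : |M| ≤ 1) (hM' : |M'| ≤ 1) :
    (lam θ M - lam θ' M') ^ 2 ≤ 192 * (M ^ 4 + M' ^ 4 + (θ - θ') ^ 2) := by
  have h2 := lam_sub_le' h0 h1 h0' h1' hM hM'
  set r := |θ - θ'| with hr
  have hr2 : (θ - θ') ^ 2 = r ^ 2 := (sq_abs _).symm
  rw [hr2]
  have h3 : (lam θ M - lam θ' M') ^ 2 ≤ (8 * (M ^ 2 + M' ^ 2 + r)) ^ 2 :=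
    sq_le_sq' (by linarith [neg_abs_le (lam θ M - lam θ' M')]) ((le_abs_self _).trans h2)
  refine h3.trans ?_
  have h4 := aux_sq3 (M ^ 2) (M' ^ 2) r
  calc (8 * (M ^ 2 + M' ^ 2 + r)) ^ 2 = 64 * (M ^ 2 + M' ^ 2 + r) ^ 2 := by ring
    _ ≤ 64 * (3 * ((M ^ 2) ^ 2 + (M' ^ 2) ^ 2 + r ^ 2)) := by linarith
    _ = _ := by ring

/-- `|m| ≤ 4 (|s| + |t|)`. -/
theorem abs_mean_le {s t : ℝ} (h0 : 0 ≤ θ) (h1 : θ ^ 2 ≤ 1 / 2) (hs : |s| ≤ 1) (ht : |t| ≤ 1) :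
    |(s + θ * t) / (1 + θ * s * t)| ≤ 4 * (|s| + |t|) := by
  have h2 := one_sub_ge h0 h1
  have h3 : θ ≤ 1 := by linarith
  have h4 : |θ * s * t| ≤ θ := by
    rw [abs_mul, abs_mul, abs_of_nonneg h0]
    calc θ * |s| * |t| ≤ θ * 1 * 1 := by
          refine mul_le_mul (mul_le_mul_of_nonneg_left hs h0) ht (abs_nonneg _) (by linarith)
      _ = θ := by ring
  have h5 : 29 / 100 ≤ 1 + θ * s * t := by
    have := neg_abs_le (θ * s * t)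
    linarith
  rw [abs_div, abs_of_pos (by linarith : 0 < 1 + θ * s * t), div_le_iff₀ (by linarith)]
  have h6 : |s + θ * t| ≤ |s| + |t| := by
    refine (abs_add_le _ _).trans ?_
    rw [abs_mul, abs_of_nonneg h0]
    have := mul_le_mul_of_nonneg_right h3 (abs_nonneg t)
    linarith
  have h7 : 0 ≤ |s| + |t| := by positivity
  nlinarith

theorem mean_pow4_le {s t : ℝ} (h0 : 0 ≤ θ) (h1 : θ ^ 2 ≤ 1 / 2) (hs : |s| ≤ 1) (ht : |t| ≤ 1) :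
    ((s + θ * t) / (1 + θ * s * t)) ^ 4 ≤ 2048 * (s ^ 4 + t ^ 4) := by
  have h2 := abs_mean_le h0 h1 hs ht
  have e1 : ∀ a : ℝ, a ^ 4 = |a| ^ 4 := fun a => by
    rw [← abs_pow, abs_of_nonneg (by positivity)]
  rw [e1 ((s + θ * t) / (1 + θ * s * t)), e1 s, e1 t]
  refine (pow_le_pow_left₀ (abs_nonneg _) h2 4).trans ?_
  have hs0 := abs_nonneg s
  have ht0 := abs_nonneg t
  have h3 : (|s| + |t|) ^ 2 ≤ 2 * (|s| ^ 2 + |t| ^ 2) := by nlinarith [sq_nonneg (|s| - |t|)]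
  have h4 : (|s| + |t|) ^ 4 ≤ 8 * (|s| ^ 4 + |t| ^ 4) := by
    calc (|s| + |t|) ^ 4 = ((|s| + |t|) ^ 2) ^ 2 := by ring
      _ ≤ (2 * (|s| ^ 2 + |t| ^ 2)) ^ 2 := pow_le_pow_left₀ (by positivity) h3 2
      _ ≤ 8 * (|s| ^ 4 + |t| ^ 4) := by nlinarith [sq_nonneg (|s| ^ 2 - |t| ^ 2)]
  calc (4 * (|s| + |t|)) ^ 4 = 256 * (|s| + |t|) ^ 4 := by ring
    _ ≤ 256 * (8 * (|s| ^ 4 + |t| ^ 4)) := by linarith
    _ = _ := by ring

end elementary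


/-! ### Bounded measurable functions -/

/-- Bounded measurable. -/
def Bm {Ω : Type*} [MeasurableSpace Ω] (f : Ω → ℝ) : Prop := Measurable f ∧ ∃ B, ∀ ω, |f ω| ≤ B

namespace Bm

variable {Ω : Type*} [MeasurableSpace Ω] {P : Measure Ω} [IsProbabilityMeasure P] {f g : Ω → ℝ}

theorem const (c : ℝ) : Bm (fun _ : Ω => c) := ⟨measurable_const, |c|, fun _ => le_rfl⟩

theorem add (hf : Bm f) (hg : Bm g) : Bm fun ω => f ω + g ω := by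
  obtain ⟨hf1, B, hB⟩ := hf
  obtain ⟨hg1, B', hB'⟩ := hg
  exact ⟨hf1.add hg1, B + B', fun ω => (abs_add_le _ _).trans (add_le_add (hB ω) (hB' ω))⟩

theorem sub (hf : Bm f) (hg : Bm g) : Bm fun ω => f ω - g ω := by
  obtain ⟨hf1, B, hB⟩ := hf
  obtain ⟨hg1, B', hB'⟩ := hg
  exact ⟨hf1.sub hg1, B + B', fun ω => (abs_sub _ _).trans (add_le_add (hB ω) (hB' ω))⟩

theorem mul (hf : Bm f) (hg : Bm g) : Bm fun ω => f ω * g ω := by
  obtain ⟨hf1, B, hB⟩ := hf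
  obtain ⟨hg1, B', hB'⟩ := hg
  refine ⟨hf1.mul hg1, B * B', fun ω => ?_⟩
  rw [abs_mul]
  exact mul_le_mul (hB ω) (hB' ω) (abs_nonneg _) ((abs_nonneg _).trans (hB ω))

theorem pow (hf : Bm f) (n : ℕ) : Bm fun ω => f ω ^ n := by
  obtain ⟨hf1, B, hB⟩ := hf
  refine ⟨hf1.pow_const n, B ^ n, fun ω => ?_⟩
  rw [abs_pow]
  exact pow_le_pow_left₀ (abs_nonneg _) (hB ω) n

theorem abs (hf : Bm f) : Bm fun ω => |f ω| := by
  obtain ⟨hf1, B, hB⟩ := hf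
  exact ⟨hf1.abs, B, fun ω => by rw [abs_abs]; exact hB ω⟩

theorem integrable (hf : Bm f) : Integrable f P := by
  obtain ⟨hf1, B, hB⟩ := hf
  exact integ hf1 hB

theorem bound2 (hf : Bm f) (hg : Bm g) : ∃ B, (∀ ω, |f ω| ≤ B) ∧ ∀ ω, |g ω| ≤ B := by
  obtain ⟨_, B, hB⟩ := hf
  obtain ⟨_, B', hB'⟩ := hg
  exact ⟨max B B', fun ω => (hB ω).trans (le_max_left _ _), fun ω => (hB' ω).trans (le_max_right _ _)⟩

end Bm

section field

variable {V : Type u} {G : SimpleGraph V} [G.LocallyFinite] {b : ℕ} {θ θ' : ℝ}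
  {m m' : V → (V × ℕ → ℝ) → ℝ} {M M' : V → V → (V × ℕ → ℝ) → ℝ}

theorem lt_one_of_sq (h0 : 0 ≤ θ) (h1 : θ ^ 2 ≤ 1 / 2) : θ < 1 := by nlinarith

theorem Lf_mem (h0 : 0 ≤ θ) (h1 : θ ^ 2 ≤ 1 / 2) (hF : IsField G θ m M) (x y : V)
    (om : V × ℕ → ℝ) : 0 ≤ Lf θ M om x y ∧ Lf θ M om x y ≤ θ :=
  ⟨lam_nonneg h0 (lt_one_of_sq h0 h1) (hF.abs_M x y om), lam_le h0 (lt_one_of_sq h0 h1) (hF.abs_M x y om)⟩

theorem bm_m (hF : IsField G θ m M) (x : V) : Bm (m x) := ⟨hF.meas_m x, 1, hF.abs_m x⟩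

theorem bm_M (hF : IsField G θ m M) (x y : V) : Bm (M x y) := ⟨hF.meas_M x y, 1, hF.abs_M x y⟩

theorem bm_Lf (h0 : 0 ≤ θ) (h1 : θ ^ 2 ≤ 1 / 2) (hF : IsField G θ m M) (x y : V) :
    Bm fun om => Lf θ M om x y := by
  refine ⟨?_, 1, fun om => ?_⟩
  · unfold Lf lam
    have := hF.meas_M x y
    exact ((measurable_const.mul (measurable_const.sub (this.pow_const 2)))).div
      (measurable_const.sub (measurable_const.mul (this.pow_const 2)))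
  · have h2 := Lf_mem h0 h1 hF x y om
    rw [abs_of_nonneg h2.1]
    exact h2.2.trans (lt_one_of_sq h0 h1).le

theorem Xs_mem (hd : G.IsRegularOfDegree (b + 1)) (h0 : 0 ≤ θ) (h1 : θ ^ 2 ≤ 1 / 2)
    (hθ : b * θ ^ 2 < 1) (hF : IsField G θ m M) {x y : V} (h : G.Adj x y) (om : V × ℕ → ℝ) :
    1 ≤ Xs G (Lf θ M om) x y ∧ Xs G (Lf θ M om) x y ≤ 1 / (1 - b * θ ^ 2) :=
  ⟨one_le_Xs hd (fun x y => (Lf_mem h0 h1 hF x y om).1) (fun x y => (Lf_mem h0 h1 hF x y om).2) hθ h,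
   Xs_le hd (fun x y => (Lf_mem h0 h1 hF x y om).1) (fun x y => (Lf_mem h0 h1 hF x y om).2) hθ h⟩

theorem bm_Xs (hd : G.IsRegularOfDegree (b + 1)) (h0 : 0 ≤ θ) (h1 : θ ^ 2 ≤ 1 / 2)
    (hθ : b * θ ^ 2 < 1) (hF : IsField G θ m M) {x y : V} (h : G.Adj x y) :
    Bm fun om => Xs G (Lf θ M om) x y := by
  refine ⟨measurable_Xs hF x y, 1 / (1 - b * θ ^ 2), fun om => ?_⟩
  have h2 := Xs_mem hd h0 h1 hθ hF h om
  rw [abs_of_nonneg (by linarith)]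
  exact h2.2

/-- The two-point estimate of the messages. -/
theorem lipM (h0 : 0 ≤ θ) (h1 : θ ^ 2 ≤ 1 / 2) (h0' : 0 ≤ θ') (h1' : θ' ^ 2 ≤ 1 / 2)
    (hF : IsField G θ m M) (hF' : IsField G θ' m' M') {x y : V} (h : G.Adj x y) :
    ∀ᵐ om ∂(Pu (V × ℕ)), |M x y om - M' x y om| ≤
      600 * (|m x om - m' x om| + |m y om - m' y om| + |θ - θ'|) := by
  filter_upwards [hF.rel, hF'.rel] with om hr hr'
  have e1 := hr x y h
  have e2 := hr y x h.symm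
  have e1' := hr' x y h
  have e2' := hr' y x h.symm
  have hlip := msg_lipschitz (θ := θ) (θ' := θ') h0 (lt_one_of_sq h0 h1) h0' (lt_one_of_sq h0' h1')
    (s := M y x om) (t := M x y om) (s' := M' y x om) (t' := M' x y om)
    (hF.abs_M y x om) (hF.abs_M x y om) (hF'.abs_M y x om) (hF'.abs_M x y om)
  have e3 : (M x y om + θ * M y x om) / (1 + θ * M y x om * M x y om) = m y om := by
    rw [e2]; congr 1; ring
  have e3' : (M' x y om + θ' * M' y x om) / (1 + θ' * M' y x om * M' x y om) = m' y om := by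
    rw [e2']; congr 1; ring
  rw [← e1, ← e1', e3, e3'] at hlip
  refine hlip.trans ?_
  exact mul_le_mul_of_nonneg_right (lip_const h0 h1 h0' h1') (by positivity)

end field

end Vale.Agent.P161.EP
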