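import Mathlib
import Vale.Agent.P161.EP.PointPre

/-!
# Module P (PointA): the bound of the driving term for two invariant fields with good laws
-/

open MeasureTheory Filter Topology

namespace Vale.Agent.P161.EP

universe u

variable {V : Type u} {G : SimpleGraph V} [G.LocallyFinite] {b : ℕ} {θ θ' : ℝ}
  {m m' : V → (V × ℕ → ℝ) → ℝ} {M M' : V → V → (V × ℕ → ℝ) → ℝ}

/-- `∫ Δ² ≤ K (16 y0 + (θ - θ')²)`. -/
theorem int_dsq (h0 : 0 ≤ θ) (h1 : θ ^ 2 ≤ 1 / 2) (h0' : 0 ≤ θ') (h1' : θ' ^ 2 ≤ 1 / 2)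
    (hF : IsField G θ m M) (hF' : IsField G θ' m' M') {x y : V} (h : G.Adj x y) {y0 : ℝ}
    (hx : ∫ om, (m x om - m' x om) ^ 2 ∂(Pu (V × ℕ)) ≤ 4 * y0)
    (hy : ∫ om, (m y om - m' y om) ^ 2 ∂(Pu (V × ℕ)) ≤ 4 * y0) :
    ∫ om, (Lf θ M om x y - Lf θ' M' om x y) ^ 2 ∂(Pu (V × ℕ)) ≤
      10 ^ 9 * (16 * y0 + (θ - θ') ^ 2) := by
  have bmx : Bm fun om => (m x om - m' x om) ^ 2 := ((bm_m hF x).sub (bm_m hF' x)).pow 2
  have bmy : Bm fun om => (m y om - m' y om) ^ 2 := ((bm_m hF y).sub (bm_m hF' y)).pow 2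
  calc ∫ om, (Lf θ M om x y - Lf θ' M' om x y) ^ 2 ∂(Pu (V × ℕ))
      ≤ ∫ om, 10 ^ 9 * (2 * ((m x om - m' x om) ^ 2 + (m y om - m' y om) ^ 2) + (θ - θ') ^ 2)
          ∂(Pu (V × ℕ)) := by
        refine integral_mono_ae (((bm_Lf h0 h1 hF x y).sub (bm_Lf h0' h1' hF' x y)).pow 2).integrable
          ((Bm.const _).mul (((Bm.const 2).mul (bmx.add bmy)).add (Bm.const _))).integrable ?_
        filter_upwards [lipM h0 h1 h0' h1' hF hF' h] with om hl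
        have h2 := delta_sq_le h0 h1 h0' h1' (hF.abs_M x y om) (hF'.abs_M x y om) (abs_nonneg _)
          (abs_nonneg _) hl
        rw [sq_abs, sq_abs] at h2
        refine h2.trans ?_
        have h3 : M x y om ^ 2 + M' x y om ^ 2 ≤ 2 := by
          have := (sq_le_one_iff_abs_le_one _).2 (hF.abs_M x y om)
          have := (sq_le_one_iff_abs_le_one _).2 (hF'.abs_M x y om)
          linarith
        have h4 : 0 ≤ (m x om - m' x om) ^ 2 + (m y om - m' y om) ^ 2 := by positivity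
        have h5 := mul_le_mul_of_nonneg_right h3 h4
        linarith
    _ = 10 ^ 9 * (2 * (∫ om, (m x om - m' x om) ^ 2 ∂(Pu (V × ℕ)) +
          ∫ om, (m y om - m' y om) ^ 2 ∂(Pu (V × ℕ))) + (θ - θ') ^ 2) := by
        rw [integral_const_mul, integral_add ((Bm.const 2).mul (bmx.add bmy)).integrable
          (integrable_const _), integral_const_mul, integral_add bmx.integrable bmy.integrable]
        simp
    _ ≤ _ := by linarith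

/-- `∫ Δ² ≤ K (v² + (θ - θ')²)`. -/
theorem int_dsq' {C c v : ℝ} (hv : 0 < v) (h0 : 0 ≤ θ) (h1 : θ ^ 2 ≤ 1 / 2)
    (h0' : 0 ≤ θ') (h1' : θ' ^ 2 ≤ 1 / 2)
    (hF : IsField G θ m M) (hF' : IsField G θ' m' M') (hg : Good G b C c v θ M)
    (hg' : Good G b C c v θ' M') {x y : V} (h : G.Adj x y) :
    ∫ om, (Lf θ M om x y - Lf θ' M' om x y) ^ 2 ∂(Pu (V × ℕ)) ≤
      192 * (2 * √C * v ^ 2 + (θ - θ') ^ 2) := by
  have key : ∀ {θ : ℝ} {m : V → (V × ℕ → ℝ) → ℝ} {M : V → V → (V × ℕ → ℝ) → ℝ},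
      IsField G θ m M → Good G b C c v θ M → ∫ om, M x y om ^ 4 ∂(Pu (V × ℕ)) ≤ √C * v ^ 2 := by
    intro θ m M hF hg
    refine (int_pow4_le_sqrt (hF.meas_M x y) (hF.abs_M x y)).trans ?_
    refine (Real.sqrt_le_sqrt (hg.m8 x y h)).trans ?_
    have e : C * v ^ 4 = C * (v ^ 2) ^ 2 := by ring
    rw [e, Real.sqrt_mul' _ (by positivity), Real.sqrt_sq (by positivity)]
  have b4 : Bm fun om => M x y om ^ 4 := (bm_M hF x y).pow 4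
  have b4' : Bm fun om => M' x y om ^ 4 := (bm_M hF' x y).pow 4
  calc ∫ om, (Lf θ M om x y - Lf θ' M' om x y) ^ 2 ∂(Pu (V × ℕ))
      ≤ ∫ om, 192 * (M x y om ^ 4 + M' x y om ^ 4 + (θ - θ') ^ 2) ∂(Pu (V × ℕ)) := by
        refine integral_mono (((bm_Lf h0 h1 hF x y).sub (bm_Lf h0' h1' hF' x y)).pow 2).integrable
          ((Bm.const _).mul ((b4.add b4').add (Bm.const _))).integrable fun om => ?_
        exact delta_sq_le' h0 h1 h0' h1' (hF.abs_M x y om) (hF'.abs_M x y om)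
    _ = 192 * (∫ om, M x y om ^ 4 ∂(Pu (V × ℕ)) + ∫ om, M' x y om ^ 4 ∂(Pu (V × ℕ)) +
          (θ - θ') ^ 2) := by
        rw [integral_const_mul, integral_add (b4.add b4').integrable (integrable_const _),
          integral_add b4.integrable b4'.integrable]
        simp
    _ ≤ _ := by linarith [key hF hg, key hF' hg']

/-- `∫ X² ≤ √C / v²`. -/
theorem int_Xsq {C c v : ℝ} (hv : 0 < v) (hd : G.IsRegularOfDegree (b + 1)) (h0 : 0 ≤ θ)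
    (h1 : θ ^ 2 ≤ 1 / 2) (hθ : b * θ ^ 2 < 1) (hF : IsField G θ m M) (hg : Good G b C c v θ M)
    {x y : V} (h : G.Adj x y) :
    ∫ om, Xs G (Lf θ M om) x y ^ 2 ∂(Pu (V × ℕ)) ≤ √C / v ^ 2 := by
  obtain ⟨hm, B, hB⟩ := bm_Xs hd h0 h1 hθ hF h
  refine (int_sq_le_sqrt hm hB).trans ((Real.sqrt_le_sqrt (hg.x4 x y h)).trans ?_)
  have e : C / v ^ 4 = C / (v ^ 2) ^ 2 := by ring
  rw [e, Real.sqrt_div' _ (by positivity), Real.sqrt_sq (by positivity)]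

/-- The main term: `t² ∫ X² Δ²`. -/
theorem int_X2D2 (b : ℕ) (hb : 2 ≤ b) (C : ℝ) (hC : 0 < C) : ∃ C' : ℝ, 0 < C' ∧
    ∀ (V : Type u) (G : SimpleGraph V) [G.LocallyFinite] (θ θ' : ℝ)
      (m m' : V → (V × ℕ → ℝ) → ℝ) (M M' : V → V → (V × ℕ → ℝ) → ℝ) (c t v y0 : ℝ)
      (X : (V × ℕ → ℝ) → ℝ) (x y : V),
      0 ≤ θ → θ ^ 2 ≤ 1 / 2 → 0 ≤ θ' → θ' ^ 2 ≤ 1 / 2 →
      IsField G θ m M → IsField G θ' m' M' → Good G b C c v θ M → Good G b C c v θ' M' →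
      G.Adj x y → 0 < t → t ≤ 1 → 0 < v → v ≤ 1 → t ^ 2 * (1 - Real.log v) ≤ 3 * v →
      0 < y0 → y0 ≤ 1 → Bm X → (∀ om, 1 ≤ X om) →
      (∀ j : ℕ, ∫ om in {om | C / v + 2 * j < X om}, X om ^ 2 ∂(Pu (V × ℕ)) ≤
        C / v ^ 2 * Real.exp (-2 * (b : ℝ) ^ j)) →
      ∫ om, X om ^ 2 ∂(Pu (V × ℕ)) ≤ √C / v ^ 2 →
      ∫ om, (m x om - m' x om) ^ 2 ∂(Pu (V × ℕ)) ≤ 4 * y0 →
      ∫ om, (m y om - m' y om) ^ 2 ∂(Pu (V × ℕ)) ≤ 4 * y0 →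
      t ^ 2 * ∫ om, X om ^ 2 * (Lf θ M om x y - Lf θ' M' om x y) ^ 2 ∂(Pu (V × ℕ)) ≤
        C' * (y0 * (1 - Real.log y0)) + C' / v ^ 2 * (θ - θ') ^ 2 := by
  obtain ⟨C1, hC1, htails⟩ := tails b hb C hC
  refine ⟨10 ^ 9 * (4 * C1 + √C + 1), by positivity, ?_⟩
  intro V G _ θ θ' m m' M M' c t v y0 X x y h0 h1 h0' h1' hF hF' hg hg' h ht ht1 hv hv1 htv hy0
    hy1 hX hX1 hXt hX2 hdx hdy
  have hφ : 0 ≤ y0 * (1 - Real.log y0) := by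
    have := Real.log_nonpos hy0.le hy1
    nlinarith
  -- the four products
  have hfour : ∀ (N D : (V × ℕ → ℝ) → ℝ), Bm N → Bm D → (∀ om, 0 ≤ D om ∧ D om ≤ 4) →
      (∀ om, |N om| ≤ 1) → (∀ l : ℝ, 0 ≤ l →
        (Pu (V × ℕ) {om | l < |N om|}).toReal ≤ 2 * Real.exp (-l ^ 2 / (C * v))) →
      ∫ om, D om ∂(Pu (V × ℕ)) ≤ 4 * y0 →
      t ^ 2 * ∫ om, X om ^ 2 * N om ^ 2 * D om ∂(Pu (V × ℕ)) ≤ C1 * (y0 * (1 - Real.log y0)) := by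
    intro N D hN hD hD4 hN1 hNt hDi
    obtain ⟨hXm, B, hB⟩ := hX
    have := (htails (V × ℕ → ℝ) inferInstance (Pu (V × ℕ)) inferInstance X (fun om => |N om|) D t v
      y0 hXm hN.1.abs hD.1 (ae_of_all _ hX1)
      ⟨B, ae_of_all _ fun om => (le_abs_self _).trans (hB om)⟩
      (ae_of_all _ fun om => ⟨abs_nonneg _, hN1 om⟩) (ae_of_all _ hD4) ht ht1 hv hv1 htv hy0 hy1
      hNt hXt hDi).1
    simpa only [sq_abs] using this
  have hd4 : ∀ z om, 0 ≤ (m z om - m' z om) ^ 2 ∧ (m z om - m' z om) ^ 2 ≤ 4 := fun z om =>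
    ⟨sq_nonneg _, by
      have h2 := abs_le.1 (hF.abs_m z om)
      have h3 := abs_le.1 (hF'.abs_m z om)
      nlinarith⟩
  have bd : ∀ z, Bm fun om => (m z om - m' z om) ^ 2 := fun z => ((bm_m hF z).sub (bm_m hF' z)).pow 2
  have bN : Bm (M x y) := bm_M hF x y
  have bN' : Bm (M' x y) := bm_M hF' x y
  have f1 := hfour (M x y) _ bN (bd x) (hd4 x) (hF.abs_M x y) (hg.tailM x y h) hdx
  have f2 := hfour (M x y) _ bN (bd y) (hd4 y) (hF.abs_M x y) (hg.tailM x y h) hdy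
  have f3 := hfour (M' x y) _ bN' (bd x) (hd4 x) (hF'.abs_M x y) (hg'.tailM x y h) hdx
  have f4 := hfour (M' x y) _ bN' (bd y) (hd4 y) (hF'.abs_M x y) (hg'.tailM x y h) hdy
  have bX2 : Bm fun om => X om ^ 2 := hX.pow 2
  have t1 : Bm fun om => X om ^ 2 * M x y om ^ 2 * (m x om - m' x om) ^ 2 :=
    (bX2.mul (bN.pow 2)).mul (bd x)
  have t2 : Bm fun om => X om ^ 2 * M x y om ^ 2 * (m y om - m' y om) ^ 2 :=
    (bX2.mul (bN.pow 2)).mul (bd y)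
  have t3 : Bm fun om => X om ^ 2 * M' x y om ^ 2 * (m x om - m' x om) ^ 2 :=
    (bX2.mul (bN'.pow 2)).mul (bd x)
  have t4 : Bm fun om => X om ^ 2 * M' x y om ^ 2 * (m y om - m' y om) ^ 2 :=
    (bX2.mul (bN'.pow 2)).mul (bd y)
  have hint : ∫ om, X om ^ 2 * (Lf θ M om x y - Lf θ' M' om x y) ^ 2 ∂(Pu (V × ℕ)) ≤
      10 ^ 9 * ((∫ om, X om ^ 2 * M x y om ^ 2 * (m x om - m' x om) ^ 2 ∂(Pu (V × ℕ)) +
        ∫ om, X om ^ 2 * M x y om ^ 2 * (m y om - m' y om) ^ 2 ∂(Pu (V × ℕ))) +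
        (∫ om, X om ^ 2 * M' x y om ^ 2 * (m x om - m' x om) ^ 2 ∂(Pu (V × ℕ)) +
        ∫ om, X om ^ 2 * M' x y om ^ 2 * (m y om - m' y om) ^ 2 ∂(Pu (V × ℕ))) +
        (θ - θ') ^ 2 * ∫ om, X om ^ 2 ∂(Pu (V × ℕ))) := by
    rw [← integral_const_mul, ← integral_add t1.integrable t2.integrable,
      ← integral_add t3.integrable t4.integrable,
      ← integral_add (t1.add t2).integrable (t3.add t4).integrable,
      ← integral_add ((t1.add t2).add (t3.add t4)).integrable (bX2.integrable.const_mul _),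
      ← integral_const_mul]
    refine integral_mono_ae
      (bX2.mul (((bm_Lf h0 h1 hF x y).sub (bm_Lf h0' h1' hF' x y)).pow 2)).integrable
      ((Bm.const _).mul (((t1.add t2).add (t3.add t4)).add ((Bm.const _).mul bX2))).integrable ?_
    filter_upwards [lipM h0 h1 h0' h1' hF hF' h] with om hl
    have h2 := delta_sq_le h0 h1 h0' h1' (hF.abs_M x y om) (hF'.abs_M x y om) (abs_nonneg _)
      (abs_nonneg _) hl
    rw [sq_abs, sq_abs] at h2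
    have h3 := mul_le_mul_of_nonneg_left h2 (sq_nonneg (X om))
    refine h3.trans (le_of_eq ?_)
    ring
  have ht2 : 0 ≤ t ^ 2 := sq_nonneg t
  have ht21 : t ^ 2 ≤ 1 := pow_le_one₀ ht.le ht1
  have h5 := mul_le_mul_of_nonneg_left hint ht2
  refine h5.trans ?_
  have h6 : t ^ 2 * ((θ - θ') ^ 2 * ∫ om, X om ^ 2 ∂(Pu (V × ℕ))) ≤
      √C / v ^ 2 * (θ - θ') ^ 2 := by
    have h7 : (θ - θ') ^ 2 * ∫ om, X om ^ 2 ∂(Pu (V × ℕ)) ≤ (θ - θ') ^ 2 * (√C / v ^ 2) :=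
      mul_le_mul_of_nonneg_left hX2 (sq_nonneg _)
    have h8 : 0 ≤ (θ - θ') ^ 2 * (√C / v ^ 2) := by positivity
    calc _ ≤ t ^ 2 * ((θ - θ') ^ 2 * (√C / v ^ 2)) := mul_le_mul_of_nonneg_left h7 ht2
      _ ≤ 1 * ((θ - θ') ^ 2 * (√C / v ^ 2)) := mul_le_mul_of_nonneg_right ht21 h8
      _ = _ := by ring
  have h9 : 0 ≤ (θ - θ') ^ 2 / v ^ 2 := by positivity
  have h10 : √C / v ^ 2 * (θ - θ') ^ 2 = √C * ((θ - θ') ^ 2 / v ^ 2) := by ring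
  have h11 : 10 ^ 9 * (4 * C1 + √C + 1) / v ^ 2 * (θ - θ') ^ 2 =
      10 ^ 9 * (4 * C1 + √C + 1) * ((θ - θ') ^ 2 / v ^ 2) := by ring
  rw [h10] at h6
  rw [h11]
  have hs : 0 ≤ √C := Real.sqrt_nonneg C
  have h12 : 0 ≤ √C * (y0 * (1 - Real.log y0)) := mul_nonneg hs hφ
  have h13 : 0 ≤ C1 * ((θ - θ') ^ 2 / v ^ 2) := mul_nonneg hC1.le h9
  calc _ = 10 ^ 9 * ((t ^ 2 * ∫ om, X om ^ 2 * M x y om ^ 2 * (m x om - m' x om) ^ 2
          ∂(Pu (V × ℕ))) +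
        (t ^ 2 * ∫ om, X om ^ 2 * M x y om ^ 2 * (m y om - m' y om) ^ 2 ∂(Pu (V × ℕ))) +
        ((t ^ 2 * ∫ om, X om ^ 2 * M' x y om ^ 2 * (m x om - m' x om) ^ 2 ∂(Pu (V × ℕ))) +
        (t ^ 2 * ∫ om, X om ^ 2 * M' x y om ^ 2 * (m y om - m' y om) ^ 2 ∂(Pu (V × ℕ)))) +
        t ^ 2 * ((θ - θ') ^ 2 * ∫ om, X om ^ 2 ∂(Pu (V × ℕ)))) := by ring
    _ ≤ 10 ^ 9 * (4 * (C1 * (y0 * (1 - Real.log y0))) + √C * ((θ - θ') ^ 2 / v ^ 2)) := by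
        linarith
    _ ≤ _ := by nlinarith

end Vale.Agent.P161.EP
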