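import Mathlib
import Vale.Agent.P161.EP.PointA

/-!
# Module P (PointB): abstract estimates for the driving term
-/

open MeasureTheory Filter Topology

namespace Vale.Agent.P161.EP.PB

theorem theta_le {b : ℕ} {θ : ℝ} (hb : 2 ≤ b) (h0 : 0 < θ) (h : b * θ ^ 2 < 1) :
    θ ≤ 71 / 100 ∧ θ ^ 2 ≤ 1 / 2 := by
  have h2 : (2 : ℝ) ≤ b := by exact_mod_cast hb
  have h3 : θ ^ 2 ≤ 1 / 2 := by nlinarith [sq_nonneg θ]
  refine ⟨?_, h3⟩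
  by_contra hcon
  push Not at hcon
  nlinarith

theorem three_sq (p q e : ℝ) : (p + q + e) ^ 2 ≤ 3 * (p ^ 2 + q ^ 2 + e ^ 2) := by
  nlinarith [sq_nonneg (p - q), sq_nonneg (p - e), sq_nonneg (q - e)]

theorem mean_pow_le {θ s t : ℝ} (h0 : 0 < θ) (h1 : θ ≤ 71 / 100) (hs : |s| ≤ 1) (ht : |t| ≤ 1) :
    ((s + θ * t) / (1 + θ * s * t)) ^ 8 ≤ 10000000 * (s ^ 8 + t ^ 8) := by
  have hst : |θ * s * t| ≤ θ := by
    rw [abs_mul, abs_mul, abs_of_pos h0]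
    calc θ * |s| * |t| ≤ θ * 1 * 1 := by gcongr
      _ = θ := by ring
  have hden : 29 / 100 ≤ 1 + θ * s * t := by linarith [(abs_le.1 hst).1]
  have h2 : |(s + θ * t) / (1 + θ * s * t)| ≤ 4 * (|s| + |t|) := by
    rw [abs_div, abs_of_pos (by linarith : (0 : ℝ) < 1 + θ * s * t), div_le_iff₀ (by linarith)]
    have h3 : |s + θ * t| ≤ |s| + |t| := by
      refine (abs_add_le _ _).trans ?_
      rw [abs_mul, abs_of_pos h0]
      have := mul_le_mul_of_nonneg_right (show θ ≤ 1 by linarith) (abs_nonneg t)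
      linarith
    nlinarith [abs_nonneg s, abs_nonneg t, mul_le_mul_of_nonneg_left hden
      (show 0 ≤ 4 * (|s| + |t|) by positivity)]
  have h4 : ((s + θ * t) / (1 + θ * s * t)) ^ 8 ≤ (4 * (|s| + |t|)) ^ 8 := by
    rw [← Even.pow_abs (by decide : Even 8) ((s + θ * t) / (1 + θ * s * t))]
    exact pow_le_pow_left₀ (abs_nonneg _) h2 8
  have h5 := add_pow_le (abs_nonneg s) (abs_nonneg t) 8
  rw [Even.pow_abs (by decide : Even 8), Even.pow_abs (by decide : Even 8)] at h5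
  have h6 : 0 ≤ s ^ 8 := by positivity
  have h7 : 0 ≤ t ^ 8 := by positivity
  rw [mul_pow] at h4
  norm_num at h4 h5
  nlinarith

section

variable {Ω : Type*} [MeasurableSpace Ω] {P : Measure Ω} [IsProbabilityMeasure P]

theorem integrable_bdd {f : Ω → ℝ} (hf : Measurable f) (hb : ∃ B, ∀ ω, |f ω| ≤ B) :
    Integrable f P := by
  obtain ⟨B, hB⟩ := hb
  exact Integrable.of_bound hf.aestronglyMeasurable B (ae_of_all _ fun ω => by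
    rw [Real.norm_eq_abs]; exact hB ω)

omit [IsProbabilityMeasure P] in
/-- Cauchy-Schwarz. -/
theorem cs_bdd {f g : Ω → ℝ} (hf : Integrable (fun ω => f ω ^ 2) P)
    (hg : Integrable (fun ω => g ω ^ 2) P) (hfg : Integrable (fun ω => f ω * g ω) P) :
    |∫ ω, f ω * g ω ∂P| ≤ √(∫ ω, f ω ^ 2 ∂P) * √(∫ ω, g ω ^ 2 ∂P) := by
  have h0 : ∀ c : ℝ, 0 ≤ (∫ ω, f ω ^ 2 ∂P) * (c * c) + (2 * ∫ ω, f ω * g ω ∂P) * c +
      ∫ ω, g ω ^ 2 ∂P := by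
    intro c
    have h1 : 0 ≤ ∫ ω, (c * f ω + g ω) ^ 2 ∂P := integral_nonneg fun ω => sq_nonneg _
    have h2 : ∫ ω, (c * f ω + g ω) ^ 2 ∂P = ∫ ω, ((c * c) * f ω ^ 2 + (2 * c) * (f ω * g ω) +
        g ω ^ 2) ∂P := by
      refine integral_congr_ae (ae_of_all _ fun ω => ?_)
      show (c * f ω + g ω) ^ 2 = (c * c) * f ω ^ 2 + (2 * c) * (f ω * g ω) + g ω ^ 2
      ring
    have i12 : Integrable (fun ω => (c * c) * f ω ^ 2 + (2 * c) * (f ω * g ω)) P :=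
      (hf.const_mul _).add (hfg.const_mul _)
    rw [integral_add i12 hg,
      integral_add (hf.const_mul _) (hfg.const_mul _), integral_const_mul, integral_const_mul] at h2
    linarith
  have h3 := discrim_le_zero h0
  rw [discrim] at h3
  rw [← Real.sqrt_mul (integral_nonneg fun ω => sq_nonneg _)]
  apply Real.abs_le_sqrt
  nlinarith

/-- The bound of the correlation of `Z` with `L (L - L')`. -/
theorem corr_bound {Z L L' : Ω → ℝ} (hZ : Measurable Z) (hZb : ∃ B, ∀ ω, |Z ω| ≤ B)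
    (hL : Measurable L) (hL' : Measurable L') (h0 : ∀ ω, 0 ≤ L ω) (h1 : ∀ ω, L ω ≤ 1)
    (h0' : ∀ ω, 0 ≤ L' ω) (h1' : ∀ ω, L' ω ≤ 1) {x0 : ℝ} (hx0 : 0 ≤ x0) :
    |∫ ω, Z ω * L ω * (L ω - L' ω) ∂P| ≤
      x0 * ((∫ ω, (L ω - L' ω) ^ 2 ∂P) + |∫ ω, L ω ^ 2 ∂P - ∫ ω, L' ω ^ 2 ∂P|) / 2 +
        √(∫ ω, (Z ω - x0) ^ 2 ∂P) * √(∫ ω, (L ω - L' ω) ^ 2 ∂P) := by
  obtain ⟨B, hB⟩ := hZb
  have hLa : ∀ ω, |L ω| ≤ 1 := fun ω => abs_le.2 ⟨by linarith [h0 ω], h1 ω⟩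
  have hDa : ∀ ω, |L ω - L' ω| ≤ 1 := fun ω =>
    abs_le.2 ⟨by linarith [h0 ω, h1' ω], by linarith [h1 ω, h0' ω]⟩
  have hB0 : ∀ ω, 0 ≤ B := fun ω => (abs_nonneg _).trans (hB ω)
  have iL2 : Integrable (fun ω => L ω ^ 2) P := integrable_bdd (hL.pow_const 2) ⟨1, fun ω => by
    rw [abs_pow]; exact pow_le_one₀ (abs_nonneg _) (hLa ω)⟩
  have iL2' : Integrable (fun ω => L' ω ^ 2) P := integrable_bdd (hL'.pow_const 2) ⟨1, fun ω => by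
    rw [abs_pow]; exact pow_le_one₀ (abs_nonneg _) (abs_le.2 ⟨by linarith [h0' ω], h1' ω⟩)⟩
  have iD2 : Integrable (fun ω => (L ω - L' ω) ^ 2) P :=
    integrable_bdd ((hL.sub hL').pow_const 2) ⟨1, fun ω => by
      rw [abs_pow]; exact pow_le_one₀ (abs_nonneg _) (hDa ω)⟩
  have iLD : Integrable (fun ω => L ω * (L ω - L' ω)) P :=
    integrable_bdd (hL.mul (hL.sub hL')) ⟨1, fun ω => by
      rw [abs_mul]; exact mul_le_one₀ (hLa ω) (abs_nonneg _) (hDa ω)⟩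
  have iLD2 : Integrable (fun ω => (L ω * (L ω - L' ω)) ^ 2) P :=
    integrable_bdd ((hL.mul (hL.sub hL')).pow_const 2) ⟨1, fun ω => by
      rw [abs_pow, abs_mul]
      exact pow_le_one₀ (by positivity) (mul_le_one₀ (hLa ω) (abs_nonneg _) (hDa ω))⟩
  have hZx : ∀ ω, |Z ω - x0| ≤ B + x0 := fun ω => by
    have := abs_sub (Z ω) x0
    rw [abs_of_nonneg hx0] at this
    linarith [hB ω]
  have iZ2 : Integrable (fun ω => (Z ω - x0) ^ 2) P :=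
    integrable_bdd ((hZ.sub_const _).pow_const 2) ⟨(B + x0) ^ 2, fun ω => by
      rw [abs_pow]; exact pow_le_pow_left₀ (abs_nonneg _) (hZx ω) 2⟩
  have iZL : Integrable (fun ω => (Z ω - x0) * (L ω * (L ω - L' ω))) P :=
    integrable_bdd ((hZ.sub_const _).mul (hL.mul (hL.sub hL'))) ⟨(B + x0) * 1, fun ω => by
      rw [abs_mul, abs_mul]
      exact mul_le_mul (hZx ω) (mul_le_one₀ (hLa ω) (abs_nonneg _) (hDa ω)) (by positivity)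
        (by linarith [hB0 ω])⟩
  have e1 : ∫ ω, Z ω * L ω * (L ω - L' ω) ∂P =
      x0 * (∫ ω, L ω * (L ω - L' ω) ∂P) + ∫ ω, (Z ω - x0) * (L ω * (L ω - L' ω)) ∂P := by
    rw [← integral_const_mul, ← integral_add (iLD.const_mul _) iZL]
    refine integral_congr_ae (ae_of_all _ fun ω => ?_)
    show Z ω * L ω * (L ω - L' ω) = x0 * (L ω * (L ω - L' ω)) + (Z ω - x0) * (L ω * (L ω - L' ω))
    ring
  have e2 : ∫ ω, L ω * (L ω - L' ω) ∂P =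
      (∫ ω, (L ω - L' ω) ^ 2 ∂P + (∫ ω, L ω ^ 2 ∂P - ∫ ω, L' ω ^ 2 ∂P)) / 2 := by
    have i12 : Integrable (fun ω => L ω ^ 2 - L' ω ^ 2) P := iL2.sub iL2'
    rw [← integral_sub iL2 iL2', ← integral_add iD2 i12, ← integral_div]
    refine integral_congr_ae (ae_of_all _ fun ω => ?_)
    show L ω * (L ω - L' ω) = ((L ω - L' ω) ^ 2 + (L ω ^ 2 - L' ω ^ 2)) / 2
    ring
  have e3 := cs_bdd iZ2 iLD2 iZL
  have e4 : ∫ ω, (L ω * (L ω - L' ω)) ^ 2 ∂P ≤ ∫ ω, (L ω - L' ω) ^ 2 ∂P := by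
    refine integral_mono iLD2 iD2 fun ω => ?_
    show (L ω * (L ω - L' ω)) ^ 2 ≤ (L ω - L' ω) ^ 2
    rw [mul_pow]
    exact mul_le_of_le_one_left (sq_nonneg _) (by nlinarith [h0 ω, h1 ω])
  have e5 : |∫ ω, (Z ω - x0) * (L ω * (L ω - L' ω)) ∂P| ≤
      √(∫ ω, (Z ω - x0) ^ 2 ∂P) * √(∫ ω, (L ω - L' ω) ^ 2 ∂P) :=
    e3.trans (mul_le_mul_of_nonneg_left (Real.sqrt_le_sqrt e4) (Real.sqrt_nonneg _))
  have e6 : |∫ ω, L ω * (L ω - L' ω) ∂P| ≤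
      ((∫ ω, (L ω - L' ω) ^ 2 ∂P) + |∫ ω, L ω ^ 2 ∂P - ∫ ω, L' ω ^ 2 ∂P|) / 2 := by
    rw [e2, abs_div, abs_of_pos (by norm_num : (0 : ℝ) < 2)]
    have e7 := abs_add_le (∫ ω, (L ω - L' ω) ^ 2 ∂P) (∫ ω, L ω ^ 2 ∂P - ∫ ω, L' ω ^ 2 ∂P)
    rw [abs_of_nonneg (integral_nonneg fun ω => sq_nonneg (L ω - L' ω))] at e7
    linarith
  rw [e1]
  refine (abs_add_le _ _).trans ?_
  rw [abs_mul, abs_of_nonneg hx0]
  have e8 := mul_le_mul_of_nonneg_left e6 hx0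
  linarith

theorem varZ {θ v C : ℝ} (h0 : 0 < θ) (h1 : θ ≤ 71 / 100) {X m s τ : Ω → ℝ} (hX : Measurable X)
    (hs : Measurable s) (hτ : Measurable τ) (hXb : ∃ B, ∀ ω, |X ω| ≤ B)
    (hmb : ∀ ω, |m ω| ≤ 1) (hsb : ∀ ω, |s ω| ≤ 1) (hτb : ∀ ω, |τ ω| ≤ 1)
    (hrel : ∀ᵐ ω ∂P, m ω = (s ω + θ * τ ω) / (1 + θ * s ω * τ ω)) (hv : 0 < v)
    (h4 : ∫ ω, X ω ^ 4 ∂P ≤ C / v ^ 4) (hs8 : ∫ ω, s ω ^ 8 ∂P ≤ C * v ^ 4)
    (hτ8 : ∫ ω, τ ω ^ 8 ∂P ≤ C * v ^ 4) (hvar : ∫ ω, (X ω - ∫ ω', X ω' ∂P) ^ 2 ∂P ≤ C) :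
    ∫ ω, ((1 - m ω ^ 2) ^ 2 * X ω - ∫ ω', X ω' ∂P) ^ 2 ∂P ≤ 100000000 * C := by
  obtain ⟨B, hB⟩ := hXb
  generalize (∫ ω', X ω' ∂P) = x0 at *
  have iX4 : Integrable (fun ω => X ω ^ 4) P := integrable_bdd (hX.pow_const 4)
    ⟨B ^ 4, fun ω => by rw [abs_pow]; exact pow_le_pow_left₀ (abs_nonneg _) (hB ω) 4⟩
  have is8 : Integrable (fun ω => s ω ^ 8) P := integrable_bdd (hs.pow_const 8)
    ⟨1, fun ω => by rw [abs_pow]; exact pow_le_one₀ (abs_nonneg _) (hsb ω)⟩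
  have iτ8 : Integrable (fun ω => τ ω ^ 8) P := integrable_bdd (hτ.pow_const 8)
    ⟨1, fun ω => by rw [abs_pow]; exact pow_le_one₀ (abs_nonneg _) (hτb ω)⟩
  have iX2 : Integrable (fun ω => (X ω - x0) ^ 2) P := integrable_bdd ((hX.sub_const _).pow_const 2)
    ⟨(B + |x0|) ^ 2, fun ω => by
      rw [abs_pow]
      exact pow_le_pow_left₀ (abs_nonneg _) ((abs_sub _ _).trans (by linarith [hB ω])) 2⟩
  have hv4 : 0 < v ^ 4 := by positivity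
  have hbound : ∀ᵐ ω ∂P, ((1 - m ω ^ 2) ^ 2 * X ω - x0) ^ 2 ≤
      2 * (X ω - x0) ^ 2 + (40000000 / v ^ 4 * s ω ^ 8 + 40000000 / v ^ 4 * τ ω ^ 8 +
        4 * v ^ 4 * X ω ^ 4) := by
    filter_upwards [hrel] with ω hω
    have e1 := mean_pow_le h0 h1 (hsb ω) (hτb ω)
    rw [← hω] at e1
    have hm2 : m ω ^ 2 ≤ 1 := by rw [sq_le_one_iff_abs_le_one]; exact hmb ω
    have hm0 : 0 ≤ m ω ^ 2 := sq_nonneg _
    have e2 : ((1 - m ω ^ 2) ^ 2 * X ω - x0) ^ 2 ≤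
        2 * (X ω - x0) ^ 2 + 2 * (m ω ^ 2 * (2 - m ω ^ 2) * X ω) ^ 2 := by
      nlinarith [sq_nonneg ((X ω - x0) + m ω ^ 2 * (2 - m ω ^ 2) * X ω)]
    have e3 : (m ω ^ 2 * (2 - m ω ^ 2) * X ω) ^ 2 ≤ 4 * (m ω ^ 4 * X ω ^ 2) := by
      have : (2 - m ω ^ 2) ^ 2 ≤ 4 := by nlinarith
      calc (m ω ^ 2 * (2 - m ω ^ 2) * X ω) ^ 2 = (2 - m ω ^ 2) ^ 2 * (m ω ^ 4 * X ω ^ 2) := by ring
        _ ≤ 4 * (m ω ^ 4 * X ω ^ 2) := mul_le_mul_of_nonneg_right this (by positivity)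
    have e4 : 2 * (m ω ^ 4 * X ω ^ 2) ≤ m ω ^ 8 / v ^ 4 + v ^ 4 * X ω ^ 4 := by
      have h5 : 0 ≤ (m ω ^ 4 / v ^ 2 - v ^ 2 * X ω ^ 2) ^ 2 := sq_nonneg _
      have h6 : (m ω ^ 4 / v ^ 2 - v ^ 2 * X ω ^ 2) ^ 2 =
          m ω ^ 8 / v ^ 4 + v ^ 4 * X ω ^ 4 - 2 * (m ω ^ 4 * X ω ^ 2) := by
        field_simp
        ring
      linarith
    have e5 : m ω ^ 8 / v ^ 4 ≤ 10000000 * (s ω ^ 8 + τ ω ^ 8) / v ^ 4 :=
      div_le_div_of_nonneg_right e1 hv4.le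
    have e6 : 4 * (10000000 * (s ω ^ 8 + τ ω ^ 8) / v ^ 4) =
        40000000 / v ^ 4 * s ω ^ 8 + 40000000 / v ^ 4 * τ ω ^ 8 := by ring
    linarith
  have i1 : Integrable (fun ω => 2 * (X ω - x0) ^ 2) P := iX2.const_mul _
  have i2 : Integrable (fun ω => 40000000 / v ^ 4 * s ω ^ 8 + 40000000 / v ^ 4 * τ ω ^ 8) P :=
    (is8.const_mul _).add (iτ8.const_mul _)
  have i3 : Integrable (fun ω => 40000000 / v ^ 4 * s ω ^ 8 + 40000000 / v ^ 4 * τ ω ^ 8 +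
        4 * v ^ 4 * X ω ^ 4) P := i2.add (iX4.const_mul _)
  have i13 : Integrable (fun ω => 2 * (X ω - x0) ^ 2 + (40000000 / v ^ 4 * s ω ^ 8 +
      40000000 / v ^ 4 * τ ω ^ 8 + 4 * v ^ 4 * X ω ^ 4)) P := i1.add i3
  have hle := integral_mono_of_nonneg (ae_of_all _ fun ω => sq_nonneg _) i13 hbound
  rw [integral_add i1 i3, integral_add i2 (iX4.const_mul _),
      integral_add (is8.const_mul _) (iτ8.const_mul _), integral_const_mul, integral_const_mul,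
      integral_const_mul, integral_const_mul] at hle
  have f1 : 40000000 / v ^ 4 * ∫ ω, s ω ^ 8 ∂P ≤ 40000000 * C := by
    calc 40000000 / v ^ 4 * ∫ ω, s ω ^ 8 ∂P ≤ 40000000 / v ^ 4 * (C * v ^ 4) :=
          mul_le_mul_of_nonneg_left hs8 (by positivity)
      _ = 40000000 * C := by field_simp
  have f2 : 40000000 / v ^ 4 * ∫ ω, τ ω ^ 8 ∂P ≤ 40000000 * C := by
    calc 40000000 / v ^ 4 * ∫ ω, τ ω ^ 8 ∂P ≤ 40000000 / v ^ 4 * (C * v ^ 4) :=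
          mul_le_mul_of_nonneg_left hτ8 (by positivity)
      _ = 40000000 * C := by field_simp
  have f3 : 4 * v ^ 4 * ∫ ω, X ω ^ 4 ∂P ≤ 4 * C := by
    calc 4 * v ^ 4 * ∫ ω, X ω ^ 4 ∂P ≤ 4 * v ^ 4 * (C / v ^ 4) :=
          mul_le_mul_of_nonneg_left h4 (by positivity)
      _ = 4 * C := by field_simp
  have hC : 0 ≤ C := (integral_nonneg fun ω => sq_nonneg _).trans hvar
  linarith

theorem T2_le {X' dx : Ω → ℝ} (hX : Measurable X') (hdx : Measurable dx)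
    (hXb : ∃ B, ∀ ω, |X' ω| ≤ B) (hX1 : ∀ ω, 1 ≤ X' ω) (hdx0 : ∀ ω, 0 ≤ dx ω)
    (hdxb : ∀ ω, |dx ω| ≤ 4) {Q t : ℝ} (h1 : t ^ 2 * ∫ ω, X' ω * dx ω ∂P ≤ Q) :
    t ^ 2 * ∫ ω, (1 + X' ω) * dx ω ∂P ≤ 2 * Q := by
  obtain ⟨B, hB⟩ := hXb
  have i1 : Integrable (fun ω => X' ω * dx ω) P := integrable_bdd (hX.mul hdx) ⟨B * 4, fun ω => by
    rw [abs_mul]
    exact mul_le_mul (hB ω) (hdxb ω) (abs_nonneg _) ((abs_nonneg _).trans (hB ω))⟩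
  have hle : ∫ ω, (1 + X' ω) * dx ω ∂P ≤ ∫ ω, 2 * (X' ω * dx ω) ∂P := by
    refine integral_mono_of_nonneg (ae_of_all _ fun ω => ?_) (i1.const_mul _)
      (ae_of_all _ fun ω => ?_)
    · exact mul_nonneg (by linarith [hX1 ω]) (hdx0 ω)
    · show (1 + X' ω) * dx ω ≤ 2 * (X' ω * dx ω)
      nlinarith [hX1 ω, hdx0 ω]
  rw [integral_const_mul] at hle
  have := mul_le_mul_of_nonneg_left hle (sq_nonneg t)
  linarith

/-- Fourth moments from eighth moments. -/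
theorem pow4_le {τ : Ω → ℝ} (hτ : Measurable τ) (hτb : ∀ ω, |τ ω| ≤ 1) {C v : ℝ} (hv : 0 < v)
    (h8 : ∫ ω, τ ω ^ 8 ∂P ≤ C * v ^ 4) : ∫ ω, τ ω ^ 4 ∂P ≤ (C + 1) * v ^ 2 / 2 := by
  have i8 : Integrable (fun ω => τ ω ^ 8) P := integrable_bdd (hτ.pow_const 8)
    ⟨1, fun ω => by rw [abs_pow]; exact pow_le_one₀ (abs_nonneg _) (hτb ω)⟩
  have hv2 : 0 < v ^ 2 := by positivity
  have hle : ∫ ω, τ ω ^ 4 ∂P ≤ ∫ ω, (1 / (2 * v ^ 2) * τ ω ^ 8 + v ^ 2 / 2) ∂P := by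
    refine integral_mono_of_nonneg (ae_of_all _ fun ω => by positivity)
      ((i8.const_mul _).add (integrable_const _)) (ae_of_all _ fun ω => ?_)
    have h6 : (1 / (2 * v ^ 2) * τ ω ^ 8 + v ^ 2 / 2) - τ ω ^ 4 =
        1 / (2 * v ^ 2) * (τ ω ^ 4 - v ^ 2) ^ 2 := by
      field_simp
      ring
    have h7 : 0 ≤ 1 / (2 * v ^ 2) * (τ ω ^ 4 - v ^ 2) ^ 2 := by positivity
    show τ ω ^ 4 ≤ 1 / (2 * v ^ 2) * τ ω ^ 8 + v ^ 2 / 2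
    linarith
  rw [integral_add (i8.const_mul _) (integrable_const _), integral_const_mul, integral_const,
    probReal_univ, one_smul] at hle
  have h9 : 1 / (2 * v ^ 2) * ∫ ω, τ ω ^ 8 ∂P ≤ C * v ^ 2 / 2 := by
    calc 1 / (2 * v ^ 2) * ∫ ω, τ ω ^ 8 ∂P ≤ 1 / (2 * v ^ 2) * (C * v ^ 4) :=
          mul_le_mul_of_nonneg_left h8 (by positivity)
      _ = C * v ^ 2 / 2 := by field_simp
  linarith

/-- The killing. -/
theorem kill_le {b : ℕ} {θ θ' : ℝ} {τ τ' : Ω → ℝ} (hb : 2 ≤ b) (h0 : 0 < θ) (h1 : b * θ ^ 2 < 1)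
    (h0' : 0 < θ') (h1' : b * θ' ^ 2 < 1) (hτ : Measurable τ)
    (hτ' : Measurable τ') (hτb : ∀ ω, |τ ω| ≤ 1) (hτb' : ∀ ω, |τ' ω| ≤ 1) {C c v : ℝ}
    (hv : 0 < v) (hC : 0 < C) (hc : 0 < c) (hθ : 1 - b * θ ^ 2 ≤ c * v)
    (hθ' : 1 - b * θ' ^ 2 ≤ c * v)
    (hA : c * v ≤ ∫ ω, τ ω ^ 2 ∂P) (hA' : c * v ≤ ∫ ω, τ' ω ^ 2 ∂P)
    (h8 : ∫ ω, τ ω ^ 8 ∂P ≤ C * v ^ 4) (h8' : ∫ ω, τ' ω ^ 8 ∂P ≤ C * v ^ 4)
    (hK : Measurable fun ω => 1 - b * lam θ (τ ω) * lam θ' (τ' ω)) :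
    c * v / 2 ≤ ∫ ω, (1 - b * lam θ (τ ω) * lam θ' (τ' ω)) ∂P ∧
      ∫ ω, (1 - b * lam θ (τ ω) * lam θ' (τ' ω)) ^ 2 ∂P ≤
        (8 * (c + C + 1) / c *
          ∫ ω, (1 - b * lam θ (τ ω) * lam θ' (τ' ω)) ∂P) ^ 2 := by
  have hk := fun ω => kill_bounds hb h0 h1.le h0' h1'.le (hτb ω) (hτb' ω)
  have i2 : Integrable (fun ω => τ ω ^ 2) P := integrable_bdd (hτ.pow_const 2)
    ⟨1, fun ω => by rw [abs_pow]; exact pow_le_one₀ (abs_nonneg _) (hτb ω)⟩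
  have i2' : Integrable (fun ω => τ' ω ^ 2) P := integrable_bdd (hτ'.pow_const 2)
    ⟨1, fun ω => by rw [abs_pow]; exact pow_le_one₀ (abs_nonneg _) (hτb' ω)⟩
  have i4 : Integrable (fun ω => τ ω ^ 4) P := integrable_bdd (hτ.pow_const 4)
    ⟨1, fun ω => by rw [abs_pow]; exact pow_le_one₀ (abs_nonneg _) (hτb ω)⟩
  have i4' : Integrable (fun ω => τ' ω ^ 4) P := integrable_bdd (hτ'.pow_const 4)
    ⟨1, fun ω => by rw [abs_pow]; exact pow_le_one₀ (abs_nonneg _) (hτb' ω)⟩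
  have hk0 : ∀ ω, 0 ≤ 1 - b * lam θ (τ ω) * lam θ' (τ' ω) := fun ω =>
    (by positivity : (0 : ℝ) ≤ (τ ω ^ 2 + τ' ω ^ 2) / 4).trans (hk ω).1
  have hu : ∀ ω, 1 - b * lam θ (τ ω) * lam θ' (τ' ω) ≤ 2 * (c * v) + 4 := fun ω => by
    have e1 : τ ω ^ 2 ≤ 1 := by rw [sq_le_one_iff_abs_le_one]; exact hτb ω
    have e2 : τ' ω ^ 2 ≤ 1 := by rw [sq_le_one_iff_abs_le_one]; exact hτb' ω
    linarith [(hk ω).2]
  have iK : Integrable (fun ω => 1 - b * lam θ (τ ω) * lam θ' (τ' ω)) P :=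
    integrable_bdd hK ⟨2 * (c * v) + 4, fun ω => by rw [abs_of_nonneg (hk0 ω)]; exact hu ω⟩
  have h1 : c * v / 2 ≤ ∫ ω, (1 - b * lam θ (τ ω) * lam θ' (τ' ω)) ∂P := by
    have i3 : Integrable (fun ω => τ ω ^ 2 + τ' ω ^ 2) P := i2.add i2'
    have hle : ∫ ω, (τ ω ^ 2 + τ' ω ^ 2) / 4 ∂P ≤
        ∫ ω, (1 - b * lam θ (τ ω) * lam θ' (τ' ω)) ∂P :=
      integral_mono (i3.div_const _) iK fun ω => (hk ω).1
    rw [integral_div, integral_add i2 i2'] at hle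
    linarith
  refine ⟨h1, ?_⟩
  have h2 : ∫ ω, (1 - b * lam θ (τ ω) * lam θ' (τ' ω)) ^ 2 ∂P ≤
      (4 * (c + C + 1) * v) ^ 2 := by
    have j4 : Integrable (fun ω => 12 * τ ω ^ 4 + 12 * τ' ω ^ 4) P :=
      (i4.const_mul _).add (i4'.const_mul _)
    have hle : ∫ ω, (1 - b * lam θ (τ ω) * lam θ' (τ' ω)) ^ 2 ∂P ≤
        ∫ ω, (12 * (c * v) ^ 2 + (12 * τ ω ^ 4 + 12 * τ' ω ^ 4)) ∂P := by
      refine integral_mono_of_nonneg (ae_of_all _ fun ω => sq_nonneg _)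
        ((integrable_const _).add j4) (ae_of_all _ fun ω => ?_)
      have e3 : (1 - b * lam θ (τ ω) * lam θ' (τ' ω)) ^ 2 ≤
          ((1 - b * θ ^ 2) + (1 - b * θ' ^ 2) + 2 * τ ω ^ 2 + 2 * τ' ω ^ 2) ^ 2 :=
        pow_le_pow_left₀ (hk0 ω) (hk ω).2 2
      have e4 : ((1 - b * θ ^ 2) + (1 - b * θ' ^ 2) + 2 * τ ω ^ 2 + 2 * τ' ω ^ 2) ^ 2 ≤
          (2 * (c * v) + 2 * τ ω ^ 2 + 2 * τ' ω ^ 2) ^ 2 := by
        refine pow_le_pow_left₀ ?_ (by linarith) 2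
        nlinarith [sq_nonneg (τ ω), sq_nonneg (τ' ω)]
      have e5 := three_sq (2 * (c * v)) (2 * τ ω ^ 2) (2 * τ' ω ^ 2)
      have e6 : 3 * ((2 * (c * v)) ^ 2 + (2 * τ ω ^ 2) ^ 2 + (2 * τ' ω ^ 2) ^ 2) =
          12 * (c * v) ^ 2 + (12 * τ ω ^ 4 + 12 * τ' ω ^ 4) := by ring
      show (1 - b * lam θ (τ ω) * lam θ' (τ' ω)) ^ 2 ≤
        12 * (c * v) ^ 2 + (12 * τ ω ^ 4 + 12 * τ' ω ^ 4)
      linarith
    rw [integral_add (integrable_const _) j4, integral_add (i4.const_mul _) (i4'.const_mul _),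
      integral_const_mul, integral_const_mul, integral_const_mul, integral_const, probReal_univ,
      one_smul] at hle
    have h3 := pow4_le hτ hτb hv h8
    have h4 := pow4_le hτ' hτb' hv h8'
    have h5 : 12 * (c * v) ^ 2 + 12 * ((C + 1) * v ^ 2) ≤ (4 * (c + C + 1) * v) ^ 2 := by
      have h6 : (4 * (c + C + 1) * v) ^ 2 =
          16 * (c * v) ^ 2 + 16 * ((C + 1) * v ^ 2) * (C + 1) + 32 * (c * (C + 1)) * v ^ 2 := by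
        ring
      have h7 : 0 ≤ (C + 1) * v ^ 2 := by positivity
      have h8 : 0 ≤ 32 * (c * (C + 1)) * v ^ 2 := by positivity
      have h9 : 0 ≤ (C + 1) * v ^ 2 * C := by positivity
      nlinarith [sq_nonneg (c * v)]
    linarith
  refine h2.trans (pow_le_pow_left₀ (by positivity) ?_ 2)
  have h3 := mul_le_mul_of_nonneg_left h1 (show 0 ≤ 8 * (c + C + 1) / c by positivity)
  refine le_trans (le_of_eq ?_) h3
  field_simp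
  ring

/-- The numerical part of the estimate of the third term. -/
theorem T3_num {C c v t a D2 eps E2 y0 Y α : ℝ} (hC : 0 < C) (hc : 0 < c) (hv : 0 < v)
    (hv1 : v ≤ 1) (ht : t ^ 2 ≤ 3 * v) (ha : c * v / 2 ≤ a) (hD0 : 0 ≤ D2) (hD1 : D2 ≤ 1)
    (he0 : 0 ≤ eps) (he1 : eps ≤ 1) (hE2 : 0 ≤ E2) (hy0 : 0 ≤ y0) (hY : y0 ≤ Y)
    (hα0 : 0 ≤ α) (hα : α ≤ C / v * (D2 + eps) / 2 + √(100000000 * C) * √D2)
    (h1 : D2 ≤ 1000000000 * (16 * y0 + E2)) (h2 : D2 ≤ 192 * (C + 1) * (v ^ 2 + E2)) :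
    t ^ 2 * (α ^ 2 / a) ≤ 6 / c * (17000000000 * (200 * C ^ 2 * (C + 2) + 200000000 * C)) *
      (Y + (E2 + eps) / v ^ 4) := by
  have ha0 : 0 < a := lt_of_lt_of_le (by positivity) ha
  have e1 : α ^ 2 ≤ C ^ 2 / v ^ 2 * (D2 ^ 2 + eps ^ 2) + 200000000 * C * D2 := by
    have e2 : α ^ 2 ≤ (C / v * (D2 + eps) / 2 + √(100000000 * C) * √D2) ^ 2 :=
      pow_le_pow_left₀ hα0 hα 2
    have e3 : (√(100000000 * C) * √D2) ^ 2 = 100000000 * C * D2 := by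
      rw [mul_pow, Real.sq_sqrt (by positivity), Real.sq_sqrt hD0]
    have e4 : (C / v * (D2 + eps) / 2) ^ 2 = C ^ 2 / v ^ 2 * (D2 + eps) ^ 2 / 4 := by
      field_simp
      ring
    have e5 : (D2 + eps) ^ 2 ≤ 2 * (D2 ^ 2 + eps ^ 2) := by nlinarith [sq_nonneg (D2 - eps)]
    have e6 := mul_le_mul_of_nonneg_left e5 (show 0 ≤ C ^ 2 / v ^ 2 by positivity)
    nlinarith [sq_nonneg (C / v * (D2 + eps) / 2 - √(100000000 * C) * √D2)]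
  have e2 : D2 ^ 2 / v ^ 2 ≤ 192 * (C + 1) * (D2 + E2 / v ^ 2) := by
    rw [div_le_iff₀ (by positivity)]
    have e3 : D2 ^ 2 ≤ D2 * (192 * (C + 1) * (v ^ 2 + E2)) := by
      rw [sq]
      exact mul_le_mul_of_nonneg_left h2 hD0
    have e4 : 192 * (C + 1) * (D2 + E2 / v ^ 2) * v ^ 2 = 192 * (C + 1) * (D2 * v ^ 2 + E2) := by
      field_simp
    rw [e4]
    have e5 : D2 * E2 ≤ E2 := mul_le_of_le_one_left hE2 hD1
    have e6 := mul_le_mul_of_nonneg_left e5 (show 0 ≤ 192 * (C + 1) by positivity)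
    nlinarith
  have hv4 : 0 < v ^ 4 := by positivity
  have hv2 : 0 < v ^ 2 := by positivity
  have hv21 : v ^ 2 ≤ 1 := pow_le_one₀ hv.le hv1
  have hv42 : v ^ 4 ≤ v ^ 2 := by nlinarith
  have e3 : E2 / v ^ 2 ≤ E2 / v ^ 4 := div_le_div_of_nonneg_left hE2 hv4 hv42
  have e4 : eps ^ 2 / v ^ 2 ≤ eps / v ^ 4 := by
    have : eps ^ 2 ≤ eps := by nlinarith
    exact (div_le_div_of_nonneg_right this hv2.le).trans (div_le_div_of_nonneg_left he0 hv4 hv42)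
  have e5 : E2 ≤ E2 / v ^ 4 := by
    rw [le_div_iff₀ hv4]
    nlinarith
  have hEv : 0 ≤ E2 / v ^ 4 := by positivity
  have hev : 0 ≤ eps / v ^ 4 := by positivity
  have e6 : α ^ 2 ≤ (200 * C ^ 2 * (C + 2) + 200000000 * C) * (D2 + E2 / v ^ 4 + eps / v ^ 4) := by
    have f1 : C ^ 2 / v ^ 2 * (D2 ^ 2 + eps ^ 2) = C ^ 2 * (D2 ^ 2 / v ^ 2 + eps ^ 2 / v ^ 2) := by
      ring
    rw [f1] at e1
    have f2 : D2 ^ 2 / v ^ 2 + eps ^ 2 / v ^ 2 ≤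
        200 * (C + 2) * (D2 + E2 / v ^ 4 + eps / v ^ 4) := by
      have f3 : 192 * (C + 1) * (D2 + E2 / v ^ 2) ≤ 192 * (C + 1) * (D2 + E2 / v ^ 4) :=
        mul_le_mul_of_nonneg_left (by linarith) (by positivity)
      have f4 : 192 * (C + 1) * (D2 + E2 / v ^ 4) ≤ 200 * (C + 2) * (D2 + E2 / v ^ 4) :=
        mul_le_mul_of_nonneg_right (by linarith) (by positivity)
      have f5 : eps / v ^ 4 ≤ 200 * (C + 2) * (eps / v ^ 4) :=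
        le_mul_of_one_le_left hev (by linarith)
      have f6 : 200 * (C + 2) * (D2 + E2 / v ^ 4 + eps / v ^ 4) =
        200 * (C + 2) * (D2 + E2 / v ^ 4) + 200 * (C + 2) * (eps / v ^ 4) := by ring
      linarith
    have f7 := mul_le_mul_of_nonneg_left f2 (sq_nonneg C)
    have f8 : 200000000 * C * D2 ≤ 200000000 * C * (D2 + E2 / v ^ 4 + eps / v ^ 4) :=
      mul_le_mul_of_nonneg_left (by linarith) (by positivity)
    have f9 : (200 * C ^ 2 * (C + 2) + 200000000 * C) * (D2 + E2 / v ^ 4 + eps / v ^ 4) =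
      C ^ 2 * (200 * (C + 2) * (D2 + E2 / v ^ 4 + eps / v ^ 4)) +
        200000000 * C * (D2 + E2 / v ^ 4 + eps / v ^ 4) := by ring
    linarith
  have e7 : D2 + E2 / v ^ 4 + eps / v ^ 4 ≤ 17000000000 * (Y + (E2 + eps) / v ^ 4) := by
    have : (E2 + eps) / v ^ 4 = E2 / v ^ 4 + eps / v ^ 4 := add_div _ _ _
    rw [this]
    linarith
  have e8 : t ^ 2 / a ≤ 6 / c := by
    rw [div_le_div_iff₀ ha0 hc]
    nlinarith
  have e9 : t ^ 2 * (α ^ 2 / a) = t ^ 2 / a * α ^ 2 := by ring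
  have hK : 0 ≤ 200 * C ^ 2 * (C + 2) + 200000000 * C := by positivity
  have e10 : α ^ 2 ≤ (200 * C ^ 2 * (C + 2) + 200000000 * C) *
      (17000000000 * (Y + (E2 + eps) / v ^ 4)) :=
    e6.trans (mul_le_mul_of_nonneg_left e7 hK)
  rw [e9]
  calc t ^ 2 / a * α ^ 2 ≤ 6 / c * ((200 * C ^ 2 * (C + 2) + 200000000 * C) *
      (17000000000 * (Y + (E2 + eps) / v ^ 4))) :=
        mul_le_mul e8 e10 (sq_nonneg _) (by positivity)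
    _ = _ := by ring

end

end Vale.Agent.P161.EP.PB
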