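import Mathlib
import Vale.Agent.P161.EP.PointB
import Vale.Agent.P161.EP.Gbound

/-!
# Module P (PointC): the bound of the driving term for two invariant fields with good laws
-/

open MeasureTheory Filter Topology

namespace Vale.Agent.P161.EP

universe u

section field

variable {V : Type u} {G : SimpleGraph V} [G.LocallyFinite] {b : ℕ} {θ θ' : ℝ}
  {m m' : V → (V × ℕ → ℝ) → ℝ} {M M' : V → V → (V × ℕ → ℝ) → ℝ}

/-- The mean of `X`. -/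
theorem int_X1 {C c v : ℝ} (hC : 0 < C) (hv : 0 < v) (hd : G.IsRegularOfDegree (b + 1))
    (h0 : 0 ≤ θ) (h1 : θ ^ 2 ≤ 1 / 2) (hθ : b * θ ^ 2 < 1) (hF : IsField G θ m M)
    (hg : Good G b C c v θ M) {x y : V} (h : G.Adj x y) :
    0 ≤ ∫ om, Xs G (Lf θ M om) x y ∂(Pu (V × ℕ)) ∧
      ∫ om, Xs G (Lf θ M om) x y ∂(Pu (V × ℕ)) ≤ (C + 1) / v := by
  have hB := bm_Xs hd h0 h1 hθ hF h
  refine ⟨integral_nonneg fun om => ?_, ?_⟩
  · have := (Xs_mem hd h0 h1 hθ hF h om).1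
    exact (zero_le_one).trans this
  have h2 := int_Xsq hv hd h0 h1 hθ hF hg h
  have hle : ∫ om, Xs G (Lf θ M om) x y ∂(Pu (V × ℕ)) ≤
      ∫ om, (v * Xs G (Lf θ M om) x y ^ 2 + 1 / (4 * v)) ∂(Pu (V × ℕ)) := by
    refine integral_mono hB.integrable
      (((Bm.const v).mul (hB.pow 2)).add (Bm.const _)).integrable fun om => ?_
    show Xs G (Lf θ M om) x y ≤ v * Xs G (Lf θ M om) x y ^ 2 + 1 / (4 * v)
    generalize Xs G (Lf θ M om) x y = z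
    have e : v * z ^ 2 + 1 / (4 * v) - z = (2 * v * z - 1) ^ 2 / (4 * v) := by
      field_simp
      ring
    have e2 : 0 ≤ (2 * v * z - 1) ^ 2 / (4 * v) := by positivity
    linarith
  rw [integral_add ((Bm.const v).mul (hB.pow 2)).integrable (integrable_const _),
    integral_const_mul, integral_const, probReal_univ, one_smul] at hle
  have h3 : v * ∫ om, Xs G (Lf θ M om) x y ^ 2 ∂(Pu (V × ℕ)) ≤ √C / v := by
    calc v * ∫ om, Xs G (Lf θ M om) x y ^ 2 ∂(Pu (V × ℕ)) ≤ v * (√C / v ^ 2) :=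
          mul_le_mul_of_nonneg_left h2 hv.le
      _ = √C / v := by field_simp
  have h4 : √C ≤ C / 2 + 1 / 2 := by
    have := Real.sq_sqrt hC.le
    nlinarith [sq_nonneg (√C - 1)]
  have h5 : √C / v + 1 / (4 * v) ≤ (C + 1) / v := by
    have e : √C / v + 1 / (4 * v) = (√C + 1 / 4) / v := by field_simp
    rw [e]
    exact div_le_div_of_nonneg_right (by linarith) hv.le
  linarith

theorem Lf_mem01 (h0 : 0 ≤ θ) (h1 : θ ^ 2 ≤ 1 / 2) (hF : IsField G θ m M) (x y : V)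
    (om : V × ℕ → ℝ) : 0 ≤ Lf θ M om x y ∧ Lf θ M om x y ≤ 1 :=
  ⟨(Lf_mem h0 h1 hF x y om).1, (Lf_mem h0 h1 hF x y om).2.trans (lt_one_of_sq h0 h1).le⟩

/-- The bound of `E 𝓐`. -/
theorem EA_le {C c v : ℝ} (hC : 0 < C) (hv : 0 < v) (hd : G.IsRegularOfDegree (b + 1))
    (h0 : 0 < θ) (h71 : θ ≤ 71 / 100) (h1 : θ ^ 2 ≤ 1 / 2) (hθ : b * θ ^ 2 < 1) (h0' : 0 < θ')
    (h1' : θ' ^ 2 ≤ 1 / 2) (hF : IsField G θ m M) (hF' : IsField G θ' m' M')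
    (hg : Good G b C c v θ M) {x y : V} (hxy : G.Adj x y) :
    |∫ om, Acal G θ θ' m M M' x y om ∂(Pu (V × ℕ))| ≤
      (C + 1) / v * ((∫ om, (Lf θ M om x y - Lf θ' M' om x y) ^ 2 ∂(Pu (V × ℕ))) +
        |∫ om, Lf θ M om x y ^ 2 ∂(Pu (V × ℕ)) - ∫ om, Lf θ' M' om x y ^ 2 ∂(Pu (V × ℕ))|) / 2 +
      √(100000000 * (C + 1)) *
        √(∫ om, (Lf θ M om x y - Lf θ' M' om x y) ^ 2 ∂(Pu (V × ℕ))) := by
  have bL := bm_Lf h0.le h1 hF x y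
  have bL' := bm_Lf h0'.le h1' hF' x y
  have bX := bm_Xs hd h0.le h1 hθ hF hxy.symm
  have bZ : Bm fun om => (1 - m x om ^ 2) ^ 2 * Xs G (Lf θ M om) y x :=
    (((Bm.const 1).sub ((bm_m hF x).pow 2)).pow 2).mul bX
  have hX1m := int_X1 hC hv hd h0.le h1 hθ hF hg hxy.symm
  have h1 := PB.corr_bound (P := Pu (V × ℕ)) bZ.1 bZ.2 bL.1 bL'.1
    (fun om => (Lf_mem01 h0.le h1 hF x y om).1) (fun om => (Lf_mem01 h0.le h1 hF x y om).2)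
    (fun om => (Lf_mem01 h0'.le h1' hF' x y om).1) (fun om => (Lf_mem01 h0'.le h1' hF' x y om).2)
    hX1m.1
  have hrel : ∀ᵐ om ∂(Pu (V × ℕ)), m x om =
      (M y x om + θ * M x y om) / (1 + θ * M y x om * M x y om) := by
    filter_upwards [hF.rel] with om hr
    exact hr x y hxy
  have h2 := PB.varZ (P := Pu (V × ℕ)) h0 h71 bX.1 (hF.meas_M y x) (hF.meas_M x y) bX.2
    (hF.abs_m x) (hF.abs_M y x) (hF.abs_M x y) hrel hv (hg.x4 y x hxy.symm)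
    (hg.m8 y x hxy.symm) (hg.m8 x y hxy) (hg.var y x hxy.symm)
  refine h1.trans ?_
  have h3 : √(∫ om, ((1 - m x om ^ 2) ^ 2 * Xs G (Lf θ M om) y x -
      ∫ om', Xs G (Lf θ M om') y x ∂(Pu (V × ℕ))) ^ 2 ∂(Pu (V × ℕ))) ≤
      √(100000000 * (C + 1)) := Real.sqrt_le_sqrt (h2.trans (by linarith))
  have h4 := mul_le_mul_of_nonneg_right h3
    (Real.sqrt_nonneg (∫ om, (Lf θ M om x y - Lf θ' M' om x y) ^ 2 ∂(Pu (V × ℕ))))
  have h5 : 0 ≤ (∫ om, (Lf θ M om x y - Lf θ' M' om x y) ^ 2 ∂(Pu (V × ℕ))) +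
      |∫ om, Lf θ M om x y ^ 2 ∂(Pu (V × ℕ)) - ∫ om, Lf θ' M' om x y ^ 2 ∂(Pu (V × ℕ))| :=
    add_nonneg (integral_nonneg fun om => sq_nonneg _) (abs_nonneg _)
  have h6 := mul_le_mul_of_nonneg_right hX1m.2 h5
  refine add_le_add ?_ h4
  exact div_le_div_of_nonneg_right h6 (by norm_num)

/-- The bound of `E 𝓑`. -/
theorem EB_le {C c v : ℝ} (hC : 0 < C) (hv : 0 < v) (hd : G.IsRegularOfDegree (b + 1))
    (h0 : 0 < θ) (h1 : θ ^ 2 ≤ 1 / 2) (h0' : 0 < θ')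
    (h1' : θ' ^ 2 ≤ 1 / 2) (hθ' : b * θ' ^ 2 < 1) (hF : IsField G θ m M) (hF' : IsField G θ' m' M')
    (hg' : Good G b C c v θ' M') {x y : V} (hxy : G.Adj x y) :
    |∫ om, Bcal G θ θ' M M' x y om ∂(Pu (V × ℕ))| ≤
      (C + 1) / v * ((∫ om, (Lf θ M om x y - Lf θ' M' om x y) ^ 2 ∂(Pu (V × ℕ))) +
        |∫ om, Lf θ M om x y ^ 2 ∂(Pu (V × ℕ)) - ∫ om, Lf θ' M' om x y ^ 2 ∂(Pu (V × ℕ))|) / 2 +
      √(100000000 * (C + 1)) *
        √(∫ om, (Lf θ M om x y - Lf θ' M' om x y) ^ 2 ∂(Pu (V × ℕ))) := by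
  have bL := bm_Lf h0.le h1 hF x y
  have bL' := bm_Lf h0'.le h1' hF' x y
  have bX' := bm_Xs hd h0'.le h1' hθ' hF' hxy
  have hX1m' := int_X1 hC hv hd h0'.le h1' hθ' hF' hg' hxy
  have h1 := PB.corr_bound (P := Pu (V × ℕ)) bX'.1 bX'.2 bL'.1 bL.1
    (fun om => (Lf_mem01 h0'.le h1' hF' x y om).1) (fun om => (Lf_mem01 h0'.le h1' hF' x y om).2)
    (fun om => (Lf_mem01 h0.le h1 hF x y om).1) (fun om => (Lf_mem01 h0.le h1 hF x y om).2)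
    hX1m'.1
  have e1 : ∫ om, Bcal G θ θ' M M' x y om ∂(Pu (V × ℕ)) =
      -∫ om, Xs G (Lf θ' M' om) x y * Lf θ' M' om x y * (Lf θ' M' om x y - Lf θ M om x y)
        ∂(Pu (V × ℕ)) := by
    rw [← integral_neg]
    refine integral_congr_ae (ae_of_all _ fun om => ?_)
    show Bcal G θ θ' M M' x y om = _
    unfold Bcal
    ring
  have e2 : ∫ om, (Lf θ' M' om x y - Lf θ M om x y) ^ 2 ∂(Pu (V × ℕ)) =
      ∫ om, (Lf θ M om x y - Lf θ' M' om x y) ^ 2 ∂(Pu (V × ℕ)) := by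
    refine integral_congr_ae (ae_of_all _ fun om => ?_)
    ring
  rw [e2, abs_sub_comm (∫ om, Lf θ' M' om x y ^ 2 ∂(Pu (V × ℕ)))] at h1
  rw [e1, abs_neg]
  refine h1.trans ?_
  have h3 : √(∫ om, (Xs G (Lf θ' M' om) x y -
      ∫ om', Xs G (Lf θ' M' om') x y ∂(Pu (V × ℕ))) ^ 2 ∂(Pu (V × ℕ))) ≤
      √(100000000 * (C + 1)) := Real.sqrt_le_sqrt ((hg'.var x y hxy).trans (by linarith))
  have h4 := mul_le_mul_of_nonneg_right h3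
    (Real.sqrt_nonneg (∫ om, (Lf θ M om x y - Lf θ' M' om x y) ^ 2 ∂(Pu (V × ℕ))))
  have h5 : 0 ≤ (∫ om, (Lf θ M om x y - Lf θ' M' om x y) ^ 2 ∂(Pu (V × ℕ))) +
      |∫ om, Lf θ M om x y ^ 2 ∂(Pu (V × ℕ)) - ∫ om, Lf θ' M' om x y ^ 2 ∂(Pu (V × ℕ))| :=
    add_nonneg (integral_nonneg fun om => sq_nonneg _) (abs_nonneg _)
  have h6 := mul_le_mul_of_nonneg_right hX1m'.2 h5
  refine add_le_add ?_ h4
  exact div_le_div_of_nonneg_right h6 (by norm_num)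

theorem int_mem01 {f : (V × ℕ → ℝ) → ℝ} (hf : Bm f) (h01 : ∀ om, 0 ≤ f om ∧ f om ≤ 1) :
    0 ≤ ∫ om, f om ∂(Pu (V × ℕ)) ∧ ∫ om, f om ∂(Pu (V × ℕ)) ≤ 1 := by
  refine ⟨integral_nonneg fun om => (h01 om).1, ?_⟩
  have := integral_mono hf.integrable (integrable_const (μ := Pu (V × ℕ)) (1 : ℝ))
    fun om => (h01 om).2
  simpa using this

/-- The third term. -/
theorem T3_le {C c v t y0 a : ℝ} (hC : 0 < C) (hc : 0 < c) (hv : 0 < v) (hv1 : v ≤ 1)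
    (hd : G.IsRegularOfDegree (b + 1))
    (h0 : 0 < θ) (h71 : θ ≤ 71 / 100) (h1 : θ ^ 2 ≤ 1 / 2) (hθ : b * θ ^ 2 < 1) (h0' : 0 < θ')
    (h1' : θ' ^ 2 ≤ 1 / 2) (hθ' : b * θ' ^ 2 < 1) (hF : IsField G θ m M) (hF' : IsField G θ' m' M')
    (hg : Good G b C c v θ M) (hg' : Good G b C c v θ' M') {x y : V} (hxy : G.Adj x y)
    (ht : t ^ 2 * (1 - Real.log v) ≤ 3 * v) (hy0 : 0 < y0) (hy1 : y0 ≤ 1)
    (hdx : ∫ om, (m x om - m' x om) ^ 2 ∂(Pu (V × ℕ)) ≤ 4 * y0)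
    (hdy : ∫ om, (m y om - m' y om) ^ 2 ∂(Pu (V × ℕ)) ≤ 4 * y0) (ha : c * v / 2 ≤ a) :
    t ^ 2 * (|∫ om, Acal G θ θ' m M M' x y om ∂(Pu (V × ℕ))| *
      |∫ om, Bcal G θ θ' M M' x y om ∂(Pu (V × ℕ))| / a) ≤
      6 / c * (17000000000 * (200 * (C + 1) ^ 2 * ((C + 1) + 2) + 200000000 * (C + 1))) *
        (y0 * (1 - Real.log y0) + ((θ - θ') ^ 2 +
          |∫ om, Lf θ M om x y ^ 2 ∂(Pu (V × ℕ)) -
            ∫ om, Lf θ' M' om x y ^ 2 ∂(Pu (V × ℕ))|) / v ^ 4) := by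
  have hEA := EA_le hC hv hd h0 h71 h1 hθ h0' h1' hF hF' hg hxy
  have hEB := EB_le hC hv hd h0 h1 h0' h1' hθ' hF hF' hg' hxy
  have ha0 : 0 < a := lt_of_lt_of_le (by positivity) ha
  have hD01 := int_mem01 (((bm_Lf h0.le h1 hF x y).sub (bm_Lf h0'.le h1' hF' x y)).pow 2)
    (fun om => ⟨sq_nonneg _, by
      have h1 := Lf_mem01 h0.le h1 hF x y om
      have h2 := Lf_mem01 h0'.le h1' hF' x y om
      have h3 : |Lf θ M om x y - Lf θ' M' om x y| ≤ 1 :=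
        abs_le.2 ⟨by linarith, by linarith⟩
      exact (sq_le_one_iff_abs_le_one _).2 h3⟩)
  have hsq01 := int_mem01 ((bm_Lf h0.le h1 hF x y).pow 2) (fun om => ⟨sq_nonneg _,
    pow_le_one₀ (Lf_mem01 h0.le h1 hF x y om).1 (Lf_mem01 h0.le h1 hF x y om).2⟩)
  have hsq01' := int_mem01 ((bm_Lf h0'.le h1' hF' x y).pow 2) (fun om => ⟨sq_nonneg _,
    pow_le_one₀ (Lf_mem01 h0'.le h1' hF' x y om).1 (Lf_mem01 h0'.le h1' hF' x y om).2⟩)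
  have hD2a := int_dsq h0.le h1 h0'.le h1' hF hF' hxy hdx hdy
  have hD2b := int_dsq' hv h0.le h1 h0'.le h1' hF hF' hg hg' hxy
  have heps0 := abs_nonneg (∫ om, Lf θ M om x y ^ 2 ∂(Pu (V × ℕ)) -
    ∫ om, Lf θ' M' om x y ^ 2 ∂(Pu (V × ℕ)))
  have heps1 : |∫ om, Lf θ M om x y ^ 2 ∂(Pu (V × ℕ)) -
      ∫ om, Lf θ' M' om x y ^ 2 ∂(Pu (V × ℕ))| ≤ 1 :=
    abs_le.2 ⟨by linarith [hsq01.1, hsq01'.2], by linarith [hsq01.2, hsq01'.1]⟩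
  generalize |∫ om, Lf θ M om x y ^ 2 ∂(Pu (V × ℕ)) -
    ∫ om, Lf θ' M' om x y ^ 2 ∂(Pu (V × ℕ))| = eps at *
  generalize ∫ om, (Lf θ M om x y - Lf θ' M' om x y) ^ 2 ∂(Pu (V × ℕ)) = D2 at *
  generalize ∫ om, Acal G θ θ' m M M' x y om ∂(Pu (V × ℕ)) = EA at *
  generalize ∫ om, Bcal G θ θ' M M' x y om ∂(Pu (V × ℕ)) = EB at *
  have hE2 : 0 ≤ (θ - θ') ^ 2 := sq_nonneg _
  generalize (θ - θ') ^ 2 = E2 at *
  clear hg hg' hF hF' hdx hdy hsq01 hsq01'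
  have hD2a' : D2 ≤ 1000000000 * (16 * y0 + E2) := by
    norm_num at hD2a
    exact hD2a
  have hsC : √C ≤ C / 2 + 1 / 2 := by
    have := Real.sq_sqrt hC.le
    nlinarith [sq_nonneg (√C - 1)]
  have hD2b' : D2 ≤ 192 * ((C + 1) + 1) * (v ^ 2 + E2) := by
    have hv2 : 0 < v ^ 2 := by positivity
    have h2 : 2 * √C * v ^ 2 ≤ (C + 1) * v ^ 2 := mul_le_mul_of_nonneg_right (by linarith) hv2.le
    have h3 : 192 * ((C + 1) + 1) * (v ^ 2 + E2) =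
        192 * ((C + 1) * v ^ 2 + v ^ 2 + (C + 2) * E2) := by ring
    have h4 : E2 ≤ (C + 2) * E2 := le_mul_of_one_le_left hE2 (by linarith)
    rw [h3]
    linarith
  have hlog : Real.log y0 ≤ 0 := Real.log_nonpos hy0.le hy1
  have hY : y0 ≤ y0 * (1 - Real.log y0) := by nlinarith
  have hlogv : Real.log v ≤ 0 := Real.log_nonpos hv.le hv1
  have ht3 : t ^ 2 ≤ 3 * v := by nlinarith [sq_nonneg t]
  have hα0 : 0 ≤ (C + 1) / v * (D2 + eps) / 2 + √(100000000 * (C + 1)) * √D2 := by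
    have := hD01.1
    positivity
  have T3 := PB.T3_num (C := C + 1) (by linarith) hc hv hv1 ht3 ha hD01.1 hD01.2 heps0 heps1 hE2
    hy0.le hY hα0 le_rfl hD2a' hD2b'
  refine le_trans (mul_le_mul_of_nonneg_left ?_ (sq_nonneg t)) T3
  refine div_le_div_of_nonneg_right ?_ ha0.le
  rw [sq ((C + 1) / v * (D2 + eps) / 2 + √(100000000 * (C + 1)) * √D2)]
  exact mul_le_mul hEA hEB (abs_nonneg _) hα0

theorem comb_num {C1 C2 C3 K3 v t S1 S1' S2 S3 Y E2 eps : ℝ} (hC1 : 0 < C1) (hC2 : 0 < C2)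
    (hC3 : 0 < C3) (_hK3 : 0 < K3) (hv : 0 < v) (hv1 : v ≤ 1) (hE2 : 0 ≤ E2) (he : 0 ≤ eps)
    (_hY : 0 ≤ Y) (T1 : t ^ 2 * S1 ≤ C2 * Y + C2 / v ^ 2 * E2)
    (T1' : t ^ 2 * S1' ≤ C2 * Y + C2 / v ^ 2 * E2) (T2 : t ^ 2 * S2 ≤ 2 * (C1 * Y))
    (T3 : t ^ 2 * S3 ≤ K3 * (Y + (E2 + eps) / v ^ 4)) :
    t ^ 2 * (C3 * (S1 + S1' + S2 + S3)) ≤ C3 * (2 * C2 + 2 * C1 + K3) * Y +
      C3 * (2 * C2 + 2 * C1 + K3) / v ^ 4 * (E2 + eps) := by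
  have hv2 : 0 < v ^ 2 := by positivity
  have hv4 : 0 < v ^ 4 := by positivity
  have hv21 : v ^ 2 ≤ 1 := pow_le_one₀ hv.le hv1
  have hv42 : v ^ 4 ≤ v ^ 2 := by nlinarith
  have hE4 : E2 / v ^ 2 ≤ (E2 + eps) / v ^ 4 :=
    (div_le_div_of_nonneg_left hE2 hv4 hv42).trans
      (div_le_div_of_nonneg_right (by linarith) hv4.le)
  have hW0 : 0 ≤ (E2 + eps) / v ^ 4 := by positivity
  have f1 : C2 / v ^ 2 * E2 = C2 * (E2 / v ^ 2) := by ring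
  have f2 := mul_le_mul_of_nonneg_left hE4 hC2.le
  rw [f1] at T1 T1'
  have e1 : t ^ 2 * (C3 * (S1 + S1' + S2 + S3)) =
      C3 * (t ^ 2 * S1 + t ^ 2 * S1' + t ^ 2 * S2 + t ^ 2 * S3) := by ring
  have e2 : C3 * (2 * C2 + 2 * C1 + K3) * Y + C3 * (2 * C2 + 2 * C1 + K3) / v ^ 4 * (E2 + eps) =
      C3 * ((2 * C2 + 2 * C1 + K3) * (Y + (E2 + eps) / v ^ 4)) := by
    ring
  rw [e1, e2]
  refine mul_le_mul_of_nonneg_left ?_ hC3.le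
  have e3 : 0 ≤ C1 * ((E2 + eps) / v ^ 4) := mul_nonneg hC1.le hW0
  generalize (E2 + eps) / v ^ 4 = W at *
  nlinarith

end field

theorem point_two (b : ℕ) (hb : 2 ≤ b) (C c : ℝ) (hC : 0 < C) (hc : 0 < c) : ∃ K : ℝ, 0 < K ∧
    ∀ (V : Type u) (G : SimpleGraph V) [G.LocallyFinite] (θ θ' : ℝ)
      (m m' : V → (V × ℕ → ℝ) → ℝ) (M M' : V → V → (V × ℕ → ℝ) → ℝ) (t v y0 : ℝ) (x y : V),
      G.IsTree → G.IsRegularOfDegree (b + 1) →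
      0 < θ → b * θ ^ 2 < 1 → 0 < θ' → b * θ' ^ 2 < 1 →
      IsField G θ m M → IsField G θ' m' M' → Good G b C c v θ M → Good G b C c v θ' M' →
      G.Adj x y → 0 < t → t ≤ 1 → 0 < v → v ≤ 1 → t ^ 2 * (1 - Real.log v) ≤ 3 * v →
      1 - b * θ ^ 2 ≤ c * v → 1 - b * θ' ^ 2 ≤ c * v → 0 < y0 → y0 ≤ 1 →
      ∫ om, (m x om - m' x om) ^ 2 ∂(Pu (V × ℕ)) ≤ 4 * y0 →
      ∫ om, (m y om - m' y om) ^ 2 ∂(Pu (V × ℕ)) ≤ 4 * y0 →
      t ^ 2 * ∫ om, Gt G θ θ' (fun v => m v om) (fun v => m' v om) (fun x y => M x y om)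
          (fun x y => M' x y om) x ∂(Pu (V × ℕ)) ≤
        K * (y0 * (1 - Real.log y0)) + K / v ^ 4 * ((θ - θ') ^ 2 +
          |∫ om, Lf θ M om x y ^ 2 ∂(Pu (V × ℕ)) - ∫ om, Lf θ' M' om x y ^ 2 ∂(Pu (V × ℕ))|) := by
  obtain ⟨C1, hC1, htails⟩ := tails b hb C hC
  obtain ⟨C2, hC2, hX2D2⟩ := int_X2D2 b hb C hC
  obtain ⟨C3, hC3, hgb⟩ := gbound b hb (8 * (c + C + 1) / c)
  set K3 : ℝ := 6 / c * (17000000000 * (200 * (C + 1) ^ 2 * ((C + 1) + 2) + 200000000 * (C + 1)))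
    with hK3
  have hK3pos : 0 < K3 := by positivity
  refine ⟨C3 * (2 * C2 + 2 * C1 + K3), by positivity, ?_⟩
  intro V G _ θ θ' m m' M M' t v y0 x y hG hd h0 hθ h0' hθ' hF hF' hg hg' hxy ht ht1 hv hv1 htv
    hcθ hcθ' hy0 hy1 hdx hdy
  obtain ⟨h71, hh⟩ := PB.theta_le hb h0 hθ
  obtain ⟨h71', hh'⟩ := PB.theta_le hb h0' hθ'
  have hlt : θ < 1 := by linarith
  have hlt' : θ' < 1 := by linarith
  -- bounded measurable functions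
  have bL := bm_Lf h0.le hh hF x y
  have bL' := bm_Lf h0'.le hh' hF' x y
  have bX := bm_Xs hd h0.le hh hθ hF hxy.symm
  have bX' := bm_Xs hd h0'.le hh' hθ' hF' hxy
  have hX1 : ∀ om, 1 ≤ Xs G (Lf θ M om) y x := fun om =>
    (Xs_mem hd h0.le hh hθ hF hxy.symm om).1
  have hX1' : ∀ om, 1 ≤ Xs G (Lf θ' M' om) x y := fun om =>
    (Xs_mem hd h0'.le hh' hθ' hF' hxy om).1
  -- the killing
  have hKm : Measurable fun om => 1 - b * lam θ (M x y om) * lam θ' (M' x y om) :=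
    measurable_const.sub ((measurable_const.mul bL.1).mul bL'.1)
  have hkill := PB.kill_le (P := Pu (V × ℕ)) hb h0 hθ h0' hθ' (hF.meas_M x y) (hF'.meas_M x y)
    (hF.abs_M x y) (hF'.abs_M x y) hv hC hc hcθ hcθ' (hg.low x y hxy) (hg'.low x y hxy)
    (hg.m8 x y hxy) (hg'.m8 x y hxy) hKm
  have ha : c * v / 2 ≤ ∫ om, (1 - b * Lf θ M om x y * Lf θ' M' om x y) ∂(Pu (V × ℕ)) := hkill.1
  have ha0 : 0 < ∫ om, (1 - b * Lf θ M om x y * Lf θ' M' om x y) ∂(Pu (V × ℕ)) :=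
    lt_of_lt_of_le (by positivity) ha
  have hG1 := hgb V G θ θ' m m' M M' hG hd h0 hlt hθ h0' hlt' hθ' hF hF' x y _ hxy ha0 rfl hkill.2
  -- first term
  have T1 := hX2D2 V G θ θ' m m' M M' c t v y0 (fun om => Xs G (Lf θ M om) y x) x y h0.le hh h0'.le
    hh' hF hF' hg hg' hxy ht ht1 hv hv1 htv hy0 hy1 bX hX1 (hg.tailX y x hxy.symm)
    (int_Xsq hv hd h0.le hh hθ hF hg hxy.symm) hdx hdy
  have T1' := hX2D2 V G θ θ' m m' M M' c t v y0 (fun om => Xs G (Lf θ' M' om) x y) x y h0.le hh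
    h0'.le hh' hF hF' hg hg' hxy ht ht1 hv hv1 htv hy0 hy1 bX' hX1' (hg'.tailX x y hxy)
    (int_Xsq hv hd h0'.le hh' hθ' hF' hg' hxy) hdx hdy
  have bD := (bL.sub bL').pow 2
  have hsum : ∫ om, (Xs G (Lf θ M om) y x ^ 2 + Xs G (Lf θ' M' om) x y ^ 2) *
        (Lf θ M om x y - Lf θ' M' om x y) ^ 2 ∂(Pu (V × ℕ)) =
      ∫ om, Xs G (Lf θ M om) y x ^ 2 * (Lf θ M om x y - Lf θ' M' om x y) ^ 2 ∂(Pu (V × ℕ)) +
      ∫ om, Xs G (Lf θ' M' om) x y ^ 2 * (Lf θ M om x y - Lf θ' M' om x y) ^ 2 ∂(Pu (V × ℕ)) := by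
    rw [← integral_add ((bX.pow 2).mul bD).integrable ((bX'.pow 2).mul bD).integrable]
    refine integral_congr_ae (ae_of_all _ fun om => ?_)
    ring
  -- second term
  have bdx : Bm fun om => (m x om - m' x om) ^ 2 := ((bm_m hF x).sub (bm_m hF' x)).pow 2
  have hd4 : ∀ om, 0 ≤ (m x om - m' x om) ^ 2 ∧ (m x om - m' x om) ^ 2 ≤ 4 := fun om =>
    ⟨sq_nonneg _, by
      have h2 := abs_le.1 (hF.abs_m x om)
      have h3 := abs_le.1 (hF'.abs_m x om)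
      nlinarith⟩
  obtain ⟨hXm', B', hB'⟩ := bX'
  have T2a := (htails (V × ℕ → ℝ) inferInstance (Pu (V × ℕ)) inferInstance
    (fun om => Xs G (Lf θ' M' om) x y) (fun om => |M x y om|) (fun om => (m x om - m' x om) ^ 2) t v
      y0 hXm' (hF.meas_M x y).abs bdx.1 (ae_of_all _ hX1')
      ⟨B', ae_of_all _ fun om => (le_abs_self _).trans (hB' om)⟩
      (ae_of_all _ fun om => ⟨abs_nonneg _, hF.abs_M x y om⟩) (ae_of_all _ hd4) ht ht1 hv hv1 htv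
      hy0 hy1 (hg.tailM x y hxy) (hg'.tailX x y hxy) hdx).2
  have T2 := PB.T2_le (P := Pu (V × ℕ)) hXm' bdx.1 ⟨B', hB'⟩ hX1' (fun om => (hd4 om).1)
    (fun om => by rw [abs_of_nonneg (hd4 om).1]; exact (hd4 om).2) T2a
  -- third term
  have T3 := T3_le hC hc hv hv1 hd h0 h71 hh hθ h0' hh' hθ' hF hF' hg hg' hxy htv hy0 hy1 hdx hdy ha
  rw [← hK3] at T3
  have hlog : Real.log y0 ≤ 0 := Real.log_nonpos hy0.le hy1
  have hY0 : 0 ≤ y0 * (1 - Real.log y0) := mul_nonneg hy0.le (by linarith)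
  refine (mul_le_mul_of_nonneg_left hG1 (sq_nonneg t)).trans ?_
  rw [hsum]
  exact comb_num hC1 hC2 hC3 hK3pos hv hv1 (sq_nonneg _) (abs_nonneg _) hY0 T1 T1' T2 T3

end Vale.Agent.P161.EP
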