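import Mathlib
import Vale.Agent.P161.EP.Inf
import Vale.Agent.P161.EP.BlockLaw
import Vale.Agent.P161.EP.Wid

/-!
# Module H3 (JL): the law of a message is a fixed point of belief propagation

`D = ball G o n`, `n → ∞` in `block_law`, `MF_symm_law`, `own_*` (bounded continuous test
functions): `MF → MI` (`ae_tendsto_MF`), `XF → Xs(lam θ ∘ MI)` (level by level, dominated by
`(b θ²)^n`), `sF → sI`.  All darts have the same law (`integral_dart`).  Hence the joint law of
`(own, (M_z, X_z)_z)` is `wBP · ν0 ⊗ ν^{⊗ b}` (rectangles), and `MF_rec`, `Xs_rec` in the limit give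
the fixed point equation.
-/

open MeasureTheory Filter Topology BoundedContinuousFunction

namespace Vale.Agent.P161.EP

universe u

variable {V : Type u} {G : SimpleGraph V} [G.LocallyFinite] {θ : ℝ} {μ : Measure (V → Bool)}
  {b : ℕ}

/-! ### General facts -/

theorem tendsto_integral_of_bdd {Ω : Type*} [MeasurableSpace Ω] {P : Measure Ω}
    [IsFiniteMeasure P] {F : ℕ → Ω → ℝ} {F' : Ω → ℝ} (hm : ∀ n, Measurable (F n)) (C : ℝ)
    (hC : ∀ n om, |F n om| ≤ C) (h : ∀ᵐ om ∂P, Tendsto (fun n => F n om) atTop (𝓝 (F' om))) :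
    Tendsto (fun n => ∫ om, F n om ∂P) atTop (𝓝 (∫ om, F' om ∂P)) := by
  refine tendsto_integral_of_dominated_convergence (fun _ => C)
    (fun n => (hm n).aestronglyMeasurable) (integrable_const C) ?_ h
  intro n
  exact Eventually.of_forall fun om => by simpa [Real.norm_eq_abs] using hC n om

theorem nsum_eq_sum_nbr (x y : V) (f : V → ℝ) : nsum G x y f = ∑ z ∈ nbr G x y, f z := by
  classical
  unfold nsum nbr
  by_cases hx : x ∈ G.neighborFinset y
  · rw [← Finset.add_sum_erase _ _ hx]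
    simp only [if_true, zero_add]
    refine Finset.sum_congr (by congr!) fun z hz => ?_
    rw [if_neg (Finset.ne_of_mem_erase hz)]
  · rw [Finset.erase_eq_of_notMem hx]
    refine Finset.sum_congr rfl fun z hz => ?_
    rw [if_neg]
    rintro rfl
    exact hx hz

theorem jl_mem_nbr {x y z : V} : z ∈ nbr G x y ↔ z ≠ x ∧ G.Adj y z := by
  classical
  unfold nbr
  rw [Finset.mem_erase, SimpleGraph.mem_neighborFinset]

theorem card_nbr (hd : G.IsRegularOfDegree (b + 1)) {x y : V} (h : G.Adj x y) :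
    (nbr G x y).card = b := by
  classical
  unfold nbr
  rw [Finset.card_erase_of_mem (by rw [SimpleGraph.mem_neighborFinset]; exact h.symm),
    SimpleGraph.card_neighborFinset_eq_degree, hd y]
  rfl

theorem tendsto_nsum {x y : V} {f : ℕ → V → ℝ} {g : V → ℝ}
    (h : ∀ z, G.Adj y z → Tendsto (fun n => f n z) atTop (𝓝 (g z))) :
    Tendsto (fun n => nsum G x y (f n)) atTop (𝓝 (nsum G x y g)) := by
  unfold nsum
  refine tendsto_finsetSum _ fun z hz => ?_
  split_ifs with h0
  · exact tendsto_const_nhds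
  · exact h z (by simpa using hz)

theorem tendsto_xl {L : ℕ → V → V → ℝ} {L' : V → V → ℝ}
    (h : ∀ x y, G.Adj x y → Tendsto (fun n => L n x y) atTop (𝓝 (L' x y))) (m : ℕ) {x y : V}
    (hxy : G.Adj x y) : Tendsto (fun n => xl G (L n) m x y) atTop (𝓝 (xl G L' m x y)) := by
  induction m generalizing x y with
  | zero =>
    simp only [xl]
    exact tendsto_const_nhds
  | succ m ih =>
    simp only [xl]
    exact tendsto_nsum fun z hz => ((h y z hz).pow 2).mul (ih hz)

theorem tendsto_Xs (hd : G.IsRegularOfDegree (b + 1)) (hθ : b * θ ^ 2 < 1)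
    {L : ℕ → V → V → ℝ} {L' : V → V → ℝ}
    (h0 : ∀ n x y, 0 ≤ L n x y) (h1 : ∀ n x y, L n x y ≤ θ)
    (h : ∀ x y, G.Adj x y → Tendsto (fun n => L n x y) atTop (𝓝 (L' x y))) {x y : V}
    (hxy : G.Adj x y) : Tendsto (fun n => Xs G (L n) x y) atTop (𝓝 (Xs G L' x y)) := by
  unfold Xs
  refine tendsto_tsum_of_dominated_convergence (bound := fun m => (b * θ ^ 2) ^ m)
    (summable_geometric_of_lt_one (by positivity) hθ) (fun m => tendsto_xl h m hxy) ?_
  refine Eventually.of_forall fun n m => ?_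
  rw [Real.norm_eq_abs, abs_of_nonneg (xl_nonneg m x y)]
  exact xl_le hd (h0 n) (h1 n) m hxy

theorem jl_measurable_nsum {Ω : Type*} [MeasurableSpace Ω] {f : Ω → V → ℝ} (x y : V)
    (h : ∀ z, Measurable fun om => f om z) : Measurable fun om => nsum G x y (f om) := by
  unfold nsum
  refine Finset.measurable_fun_sum _ fun z _ => ?_
  split_ifs
  · exact measurable_const
  · exact h z

theorem jl_measurable_xl {Ω : Type*} [MeasurableSpace Ω] {L : Ω → V → V → ℝ}
    (h : ∀ x y, Measurable fun om => L om x y) (m : ℕ) (x y : V) :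
    Measurable fun om => xl G (L om) m x y := by
  induction m generalizing x y with
  | zero =>
    simp only [xl]
    exact measurable_const
  | succ m ih =>
    simp only [xl]
    exact jl_measurable_nsum x y fun z => ((h y z).pow_const 2).mul (ih y z)

theorem measurable_Xs_of_le {Ω : Type*} [MeasurableSpace Ω] (hd : G.IsRegularOfDegree (b + 1))
    (hθ : b * θ ^ 2 < 1) {L : Ω → V → V → ℝ} (h : ∀ x y, Measurable fun om => L om x y)
    (h0 : ∀ om x y, 0 ≤ L om x y) (h1 : ∀ om x y, L om x y ≤ θ) {x y : V} (hxy : G.Adj x y) :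
    Measurable fun om => Xs G (L om) x y := by
  refine measurable_of_tendsto_metrizable
    (f := fun N om => ∑ m ∈ Finset.range N, xl G (L om) m x y) ?_ ?_
  · intro N
    exact Finset.measurable_fun_sum _ fun m _ => jl_measurable_xl h m x y
  · rw [tendsto_pi_nhds]
    intro om
    exact (summable_xl hd (h0 om) (h1 om) hθ hxy).hasSum.tendsto_sum_nat

theorem jl_tendsto_lam (h0 : 0 ≤ θ) (h1 : θ < 1) {M : ℕ → ℝ} {M' : ℝ} (hM : |M'| ≤ 1)
    (h : Tendsto M atTop (𝓝 M')) : Tendsto (fun n => lam θ (M n)) atTop (𝓝 (lam θ M')) := by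
  unfold lam
  have h2 := den_pos h0 h1 hM
  have h3 := one_sub_sq_pos h0 h1
  refine Tendsto.div ?_ ?_ (by linarith)
  · exact ((h.pow 2).const_sub 1).const_mul θ
  · exact ((h.pow 2).const_mul _).const_sub 1

theorem jl_measurable_lam (θ : ℝ) : Measurable (lam θ) := by
  unfold lam
  fun_prop

/-! ### The own field -/

theorem gs_nonneg' (u : ℝ) : 0 ≤ gs u := by
  unfold gs
  split_ifs
  · exact le_max_left _ _
  · exact le_rfl

theorem gs_lt_half (u : ℝ) : gs u < 1 / 2 := by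
  unfold gs
  split_ifs with h
  · exact max_lt (by norm_num) (by linarith)
  · norm_num

theorem measurable_gs' : Measurable gs := by
  unfold gs
  refine Measurable.ite (measurableSet_lt measurable_id measurable_const) ?_ measurable_const
  fun_prop

theorem jl_Pown_pos {τ : ℝ} (hτ : |τ| ≤ 1) (k : ℕ) (t : ℝ) (U s : V × ℕ → ℝ) (hs : ∀ e, |s e| ≤ 1)
    (y : V) : 0 < Pown τ k t U s y := by
  unfold Pown
  refine Finset.prod_pos fun j _ => ?_
  split_ifs
  · have h1 : |τ * (gs (U (y, j)) * s (y, j))| ≤ 1 / 2 := by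
      rw [abs_mul, abs_mul, abs_of_nonneg (gs_nonneg' _)]
      calc |τ| * (gs (U (y, j)) * |s (y, j)|) ≤ 1 * (1 / 2 * 1) := by
            have := gs_nonneg' (U (y, j))
            have := gs_lt_half (U (y, j))
            have := hs (y, j)
            gcongr
        _ = 1 / 2 := by norm_num
    have := (abs_le.1 h1).1
    linarith
  · exact one_pos

theorem tendsto_Pown (τ : ℝ) (k : ℕ) (t : ℝ) (U : V × ℕ → ℝ) {s : ℕ → V × ℕ → ℝ}
    {s' : V × ℕ → ℝ} (h : ∀ e, Tendsto (fun n => s n e) atTop (𝓝 (s' e))) (y : V) :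
    Tendsto (fun n => Pown τ k t U (s n) y) atTop (𝓝 (Pown τ k t U s' y)) := by
  unfold Pown
  refine tendsto_finsetProd _ fun j _ => ?_
  split_ifs
  · exact (((h (y, j)).const_mul _).const_mul _).const_add _
  · exact tendsto_const_nhds

theorem tendsto_own (k : ℕ) (t : ℝ) (U : V × ℕ → ℝ) {s : ℕ → V × ℕ → ℝ}
    {s' : V × ℕ → ℝ} (h : ∀ e, Tendsto (fun n => s n e) atTop (𝓝 (s' e)))
    (hs' : ∀ e, |s' e| ≤ 1) (y : V) :
    Tendsto (fun n => own k t U (s n) y) atTop (𝓝 (own k t U s' y)) := by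
  unfold own
  have h1 := tendsto_Pown 1 k t U h y
  have h2 := tendsto_Pown (-1) k t U h y
  refine (h1.sub h2).div (h1.add h2) ?_
  have h3 := jl_Pown_pos (τ := 1) (by simp) k t U s' hs' y
  have h4 := jl_Pown_pos (τ := -1) (by simp) k t U s' hs' y
  positivity

theorem jl_measurable_Pown (τ : ℝ) (k : ℕ) (t : ℝ) {s : (V × ℕ → ℝ) → V × ℕ → ℝ}
    (hs : ∀ e, Measurable fun om => s om e) (y : V) :
    Measurable fun om : V × ℕ → ℝ => Pown τ k t (uL om) (s om) y := by
  unfold Pown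
  refine Finset.measurable_fun_prod _ fun j _ => ?_
  have hu : Measurable fun om : V × ℕ → ℝ => uL om (y, j) := by
    unfold uL
    exact measurable_pi_apply _
  refine Measurable.ite ?_ ?_ measurable_const
  · exact (MeasurableSet.const _).union (measurableSet_lt hu measurable_const)
  · exact measurable_const.add (measurable_const.mul ((measurable_gs'.comp hu).mul (hs (y, j))))

theorem measurable_own (k : ℕ) (t : ℝ) {s : (V × ℕ → ℝ) → V × ℕ → ℝ}
    (hs : ∀ e, Measurable fun om => s om e) (y : V) :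
    Measurable fun om : V × ℕ → ℝ => own k t (uL om) (s om) y := by
  unfold own
  have h1 := jl_measurable_Pown 1 k t hs y
  have h2 := jl_measurable_Pown (-1) k t hs y
  exact (h1.sub h2).div (h1.add h2)

/-- The own field in infinite volume. -/
noncomputable def ownI (G : SimpleGraph V) (μ : Measure (V → Bool)) (k : ℕ) (t : ℝ) (y : V)
    (om : V × ℕ → ℝ) : ℝ := own k t (uL om) (fun e => sI G μ om e) y

/-- Message and kernel sum of a dart in infinite volume. -/
noncomputable def psi (G : SimpleGraph V) [G.LocallyFinite] (θ : ℝ) (μ : Measure (V → Bool))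
    (k : ℕ) (t : ℝ) (x y : V) (om : V × ℕ → ℝ) : ℝ × ℝ :=
  (MI G θ μ k t x y om, Xs G (fun x y => lam θ (MI G θ μ k t x y om)) x y)

theorem abs_MI_le (G : SimpleGraph V) (θ : ℝ) (μ : Measure (V → Bool)) (k : ℕ) (t : ℝ)
    (x y : V) (om : V × ℕ → ℝ) : |MI G θ μ k t x y om| ≤ 1 := by
  unfold MI
  exact clamp_abs_le _

omit [G.LocallyFinite] in
theorem jl_abs_MF_le [Countable V] (hμ : IsTreeIsing G θ μ) (D : Finset V) (k : ℕ) (t : ℝ)
    (om : V × ℕ → ℝ) (x y : V) : |MF G μ D k t om x y| ≤ 1 := by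
  have := hμ.isProb
  refine (abs_msg_lt hμ Prod.fst (bef om D k t) (cF μ D om) (fun i _ => ?_) x y).le
  exact (abs_cF_lt D om i).trans (by norm_num)

/-- Almost sure convergence of everything. -/
theorem ae_tendsto_all (hG : G.IsTree) (hd : G.IsRegularOfDegree (b + 1))
    (hμ : IsTreeIsing G θ μ) (h0 : 0 < θ) (h1 : θ < 1) (hθ : b * θ ^ 2 < 1) (k : ℕ) {t : ℝ}
    (ht : t ≤ 1) (o : V) :
    ∀ᵐ om ∂(Pu (V × ℕ)),
      (∀ y, Tendsto (fun n : ℕ => own k t (uL om) (sF μ (ball G o n) om) y) atTop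
        (𝓝 (ownI G μ k t y om))) ∧
      (∀ x y, G.Adj x y → Tendsto (fun n : ℕ => (MF G μ (ball G o n) k t om x y,
        XF G θ μ (ball G o n) k t om x y)) atTop (𝓝 (psi G θ μ k t x y om))) := by
  have := hμ.isProb
  have : Countable V := countable_of_locallyFinite hG.connected
  filter_upwards [ae_tendsto_sF hG hd hμ h0.le h1 hθ o,
    ae_tendsto_MF hG hd hμ h0.le h1 hθ k ht o] with om hs hM
  refine ⟨fun y => tendsto_own k t _ hs (fun e => abs_sI_le om e) y, fun x y hxy => ?_⟩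
  refine (hM x y hxy).prodMk_nhds ?_
  refine tendsto_Xs hd hθ (fun n x y => ?_) (fun n x y => ?_) (fun x y h => ?_) hxy
  · exact lam_nonneg h0.le h1 (jl_abs_MF_le hμ _ _ _ _ _ _)
  · exact lam_le h0.le h1 (jl_abs_MF_le hμ _ _ _ _ _ _)
  · exact jl_tendsto_lam h0.le h1 (abs_MI_le _ _ _ _ _ _ _ _) (hM x y h)

omit [G.LocallyFinite] in
theorem measurable_MF_fix [Countable V] [IsProbabilityMeasure μ] (D : Finset V) (k : ℕ) (t : ℝ)
    (x y : V) : Measurable fun om : V × ℕ → ℝ => MF G μ D k t om x y := by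
  have hp : Measurable fun om : V × ℕ → ℝ => ((t, om) : ℝ × (V × ℕ → ℝ)) :=
    measurable_prodMk_left
  have h := (measurable_MF G (μ := μ) D k x y)
  have h2 := h.comp hp
  exact h2

theorem measurable_XF [Countable V] (hμ : IsTreeIsing G θ μ) (hd : G.IsRegularOfDegree (b + 1))
    (h0 : 0 < θ) (h1 : θ < 1) (hθ : b * θ ^ 2 < 1) (D : Finset V) (k : ℕ) (t : ℝ)
    {x y : V} (hxy : G.Adj x y) : Measurable fun om => XF G θ μ D k t om x y := by
  have := hμ.isProb
  have hL : ∀ x y, Measurable fun om : V × ℕ → ℝ => lam θ (MF G μ D k t om x y) := fun x y =>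
    (jl_measurable_lam θ).comp (measurable_MF_fix D k t x y)
  have hL0 : ∀ (om : V × ℕ → ℝ) x y, 0 ≤ lam θ (MF G μ D k t om x y) := fun om x y =>
    lam_nonneg h0.le h1 (jl_abs_MF_le hμ D k t om x y)
  have hL1 : ∀ (om : V × ℕ → ℝ) x y, lam θ (MF G μ D k t om x y) ≤ θ := fun om x y =>
    lam_le h0.le h1 (jl_abs_MF_le hμ D k t om x y)
  have h := measurable_Xs_of_le hd hθ hL hL0 hL1 hxy
  exact h

theorem measurable_MFXF [Countable V] (hμ : IsTreeIsing G θ μ) (hd : G.IsRegularOfDegree (b + 1))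
    (h0 : 0 < θ) (h1 : θ < 1) (hθ : b * θ ^ 2 < 1) (D : Finset V) (k : ℕ) (t : ℝ)
    {x y : V} (hxy : G.Adj x y) :
    Measurable fun om => (MF G μ D k t om x y, XF G θ μ D k t om x y) := by
  have := hμ.isProb
  exact (measurable_MF_fix D k t x y).prodMk (measurable_XF hμ hd h0 h1 hθ D k t hxy)

theorem measurable_psi (hG : G.IsTree) (hd : G.IsRegularOfDegree (b + 1))
    (hμ : IsTreeIsing G θ μ) (h0 : 0 < θ) (h1 : θ < 1) (hθ : b * θ ^ 2 < 1) (k : ℕ) {t : ℝ}
    (ht : t ≤ 1) {x y : V} (hxy : G.Adj x y) : Measurable (psi G θ μ k t x y) := by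
  have hF := isField hG hd hμ h0.le h1 hθ k ht
  refine (hF.meas_M x y).prodMk ?_
  exact measurable_Xs_of_le hd hθ
    (L := fun (om : V × ℕ → ℝ) x y => lam θ (MI G θ μ k t x y om))
    (fun x y => (jl_measurable_lam θ).comp (hF.meas_M x y))
    (fun om x y => lam_nonneg h0.le h1 (abs_MI_le G θ μ k t x y om))
    (fun om x y => lam_le h0.le h1 (abs_MI_le G θ μ k t x y om)) hxy

theorem measurable_ownI [Countable V] [IsProbabilityMeasure μ] (k : ℕ) (t : ℝ) (y : V) :
    Measurable (ownI G μ k t y) :=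
  measurable_own k t (fun e => measurable_sI e) y

theorem abs_ownI_lt [IsProbabilityMeasure μ] (k : ℕ) (t : ℝ) (y : V) (om : V × ℕ → ℝ) :
    |ownI G μ k t y om| < 1 :=
  abs_own_lt k t _ _ (fun e => abs_sI_le om e) y

/-- All darts have the same law. -/
theorem map_psi (hG : G.IsTree) (hd : G.IsRegularOfDegree (b + 1))
    (hμ : IsTreeIsing G θ μ) (h0 : 0 < θ) (h1 : θ < 1) (hθ : b * θ ^ 2 < 1) (k : ℕ) {t : ℝ}
    (ht : t ≤ 1) {x y x' y' : V} (hxy : G.Adj x y) (hxy' : G.Adj x' y') :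
    (Pu (V × ℕ)).map (psi G θ μ k t x y) = (Pu (V × ℕ)).map (psi G θ μ k t x' y') := by
  have hF := isField hG hd hμ h0.le h1 hθ k ht
  have hm := measurable_psi hG hd hμ h0 h1 hθ k ht hxy
  have hm' := measurable_psi hG hd hμ h0 h1 hθ k ht hxy'
  have : IsProbabilityMeasure ((Pu (V × ℕ)).map (psi G θ μ k t x y)) :=
    Measure.isProbabilityMeasure_map hm.aemeasurable
  have : IsProbabilityMeasure ((Pu (V × ℕ)).map (psi G θ μ k t x' y')) :=
    Measure.isProbabilityMeasure_map hm'.aemeasurable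
  refine ext_of_forall_integral_eq_of_IsFiniteMeasure fun f => ?_
  rw [integral_map hm.aemeasurable f.continuous.aestronglyMeasurable,
    integral_map hm'.aemeasurable f.continuous.aestronglyMeasurable]
  refine integral_dart hG hd (F := fun x y om => f (psi G θ μ k t x y om)) ?_ hxy hxy'
  intro g x y om
  congr 1
  unfold psi
  rw [hF.equiv_M]
  congr 1
  exact Xs_act hF g x y om

/-- The block law in infinite volume. -/
theorem block_law_I (hG : G.IsTree) (hd : G.IsRegularOfDegree (b + 1))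
    (hμ : IsTreeIsing G θ μ) (h0 : 0 < θ) (h1 : θ < 1) (hθ : b * θ ^ 2 < 1) (k : ℕ) {t : ℝ}
    (ht : t ≤ 1) {x y : V} (h : G.Adj x y) (f0 : ℝ →ᵇ ℝ) (f : V → (ℝ × ℝ →ᵇ ℝ))
    (hb : ∃ C, ∀ z p, |f z p| ≤ C) :
    ∫ om, f0 (ownI G μ k t y om) * ∏ z ∈ nbr G x y, f z (psi G θ μ k t y z om) ∂(Pu (V × ℕ)) =
      ((∫ om, f0 (ownI G μ k t y om) * (1 + ownI G μ k t y om) ∂(Pu (V × ℕ))) *
        ∏ z ∈ nbr G x y, ∫ om, f z (psi G θ μ k t y z om) *
          (1 + θ * (psi G θ μ k t y z om).1) ∂(Pu (V × ℕ)) +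
      (∫ om, f0 (ownI G μ k t y om) * (1 - ownI G μ k t y om) ∂(Pu (V × ℕ))) *
        ∏ z ∈ nbr G x y, ∫ om, f z (psi G θ μ k t y z om) *
          (1 - θ * (psi G θ μ k t y z om).1) ∂(Pu (V × ℕ))) / 2 := by
  have := hμ.isProb
  have : Countable V := countable_of_locallyFinite hG.connected
  obtain ⟨C, hC⟩ := hb
  have hC0 : 0 ≤ C := (abs_nonneg _).trans (hC x (0, 0))
  have hF0 : ∀ s, |f0 s| ≤ ‖f0‖ := fun s => by
    simpa [Real.norm_eq_abs] using f0.norm_coe_le_norm s
  have hae := ae_tendsto_all hG hd hμ h0 h1 hθ k ht y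
  have hmo : ∀ n : ℕ, Measurable fun om : V × ℕ → ℝ => own k t (uL om) (sF μ (ball G y n) om) y :=
    fun n => measurable_own k t (fun e => measurable_sF (ball G y n) e) y
  have hmM : ∀ (n : ℕ) z, z ∈ nbr G x y → Measurable fun om =>
      (MF G μ (ball G y n) k t om y z, XF G θ μ (ball G y n) k t om y z) := fun n z hz =>
    measurable_MFXF hμ hd h0 h1 hθ (ball G y n) k t (jl_mem_nbr.1 hz).2
  have hown : ∀ (n : ℕ) om, |own k t (uL om) (sF μ (ball G y n) om) y| ≤ 1 := fun n om =>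
    (abs_own_lt k t _ _ (fun e => abs_sF_le (ball G y n) om e) y).le
  have hMF : ∀ (n : ℕ) om z, |MF G μ (ball G y n) k t om y z| ≤ 1 := fun n om z =>
    jl_abs_MF_le hμ _ _ _ _ _ _
  -- convergence of the two sides
  have hL : Tendsto (fun n : ℕ => ∫ om, f0 (own k t (uL om) (sF μ (ball G y n) om) y) *
      ∏ z ∈ nbr G x y, f z (MF G μ (ball G y n) k t om y z, XF G θ μ (ball G y n) k t om y z)
        ∂(Pu (V × ℕ))) atTop (𝓝 (∫ om, f0 (ownI G μ k t y om) *
          ∏ z ∈ nbr G x y, f z (psi G θ μ k t y z om) ∂(Pu (V × ℕ)))) := by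
    refine tendsto_integral_of_bdd (fun n => ?_) (‖f0‖ * C ^ (nbr G x y).card)
      (fun n om => ?_) ?_
    · refine (f0.continuous.measurable.comp (hmo n)).mul ?_
      exact Finset.measurable_fun_prod _ fun z hz =>
        (f z).continuous.measurable.comp (hmM n z hz)
    · rw [abs_mul, Finset.abs_prod]
      refine mul_le_mul (hF0 _) ?_ (Finset.prod_nonneg fun _ _ => abs_nonneg _) (norm_nonneg _)
      rw [← Finset.prod_const]
      exact Finset.prod_le_prod (fun _ _ => abs_nonneg _) fun z _ => hC z _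
    · filter_upwards [hae] with om hom
      refine ((f0.continuous.tendsto _).comp (hom.1 y)).mul ?_
      exact tendsto_finsetProd _ fun z hz =>
        ((f z).continuous.tendsto _).comp (hom.2 y z (jl_mem_nbr.1 hz).2)
  have hA : ∀ τ : ℝ, |τ| ≤ 1 → Tendsto (fun n : ℕ =>
      ∫ om, f0 (own k t (uL om) (sF μ (ball G y n) om) y) *
        (1 + τ * own k t (uL om) (sF μ (ball G y n) om) y) ∂(Pu (V × ℕ))) atTop
      (𝓝 (∫ om, f0 (ownI G μ k t y om) * (1 + τ * ownI G μ k t y om) ∂(Pu (V × ℕ)))) := by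
    intro τ hτ
    refine tendsto_integral_of_bdd (fun n => ?_) (‖f0‖ * 2) (fun n om => ?_) ?_
    · exact (f0.continuous.measurable.comp (hmo n)).mul
        (measurable_const.add (measurable_const.mul (hmo n)))
    · rw [abs_mul]
      refine mul_le_mul (hF0 _) ?_ (abs_nonneg _) (norm_nonneg _)
      refine (abs_add_le _ _).trans ?_
      rw [abs_one, abs_mul]
      have := mul_le_mul hτ (hown n om) (abs_nonneg _) zero_le_one
      linarith
    · filter_upwards [hae] with om hom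
      exact ((f0.continuous.tendsto _).comp (hom.1 y)).mul (((hom.1 y).const_mul τ).const_add 1)
  have hB : ∀ τ : ℝ, |τ| ≤ 1 → ∀ z ∈ nbr G x y, Tendsto (fun n : ℕ =>
      ∫ om, f z (MF G μ (ball G y n) k t om y z, XF G θ μ (ball G y n) k t om y z) *
        (1 + τ * (θ * MF G μ (ball G y n) k t om y z)) ∂(Pu (V × ℕ))) atTop
      (𝓝 (∫ om, f z (psi G θ μ k t y z om) * (1 + τ * (θ * (psi G θ μ k t y z om).1))
        ∂(Pu (V × ℕ)))) := by
    intro τ hτ z hz
    refine tendsto_integral_of_bdd (fun n => ?_) (C * 2) (fun n om => ?_) ?_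
    · exact ((f z).continuous.measurable.comp (hmM n z hz)).mul
        (measurable_const.add (measurable_const.mul (measurable_const.mul
          (measurable_fst.comp (hmM n z hz)))))
    · rw [abs_mul]
      refine mul_le_mul (hC _ _) ?_ (abs_nonneg _) hC0
      refine (abs_add_le _ _).trans ?_
      rw [abs_one, abs_mul, abs_mul, abs_of_pos h0]
      have h2 := mul_le_mul h1.le (hMF n om z) (abs_nonneg _) zero_le_one
      have := mul_le_mul hτ h2 (by positivity) zero_le_one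
      linarith
    · filter_upwards [hae] with om hom
      have h3 := hom.2 y z (jl_mem_nbr.1 hz).2
      exact (((f z).continuous.tendsto _).comp h3).mul
        ((((continuous_fst.tendsto _).comp h3).const_mul θ).const_mul τ |>.const_add 1)
  have hR := ((hA 1 (by simp)).mul (tendsto_finsetProd _ (hB 1 (by simp)))).add
    ((hA (-1) (by simp)).mul (tendsto_finsetProd _ (hB (-1) (by simp)))) |>.div_const 2
  refine (tendsto_nhds_unique hL (hR.congr fun n => ?_)).trans ?_
  · rw [block_law hG hd hμ h0.le h1 hθ (ball G y n) k t h (self_mem_ball hG.connected y n)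
      f0.continuous.measurable ⟨‖f0‖, hF0⟩ (fun z => (f z).continuous.measurable) ⟨C, hC⟩]
    simp only [one_mul, neg_one_mul, ← sub_eq_add_neg]
  · simp only [one_mul, neg_one_mul, ← sub_eq_add_neg]

/-! ### Product measures -/

section BP

variable {ν0 : Measure ℝ} {ν : Measure (ℝ × ℝ)}

theorem ae_pi_fst_le [IsProbabilityMeasure ν0] [IsProbabilityMeasure ν]
    (hb0 : ∀ᵐ h ∂ν0, |h| ≤ 1) (hb : ∀ᵐ p ∂ν, |p.1| ≤ 1) :
    ∀ᵐ q ∂(ν0.prod (Measure.pi fun _ : Fin b => ν)), |q.1| ≤ 1 ∧ ∀ i, |(q.2 i).1| ≤ 1 := by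
  have h1 : ∀ᵐ q ∂(ν0.prod (Measure.pi fun _ : Fin b => ν)), |q.1| ≤ 1 :=
    Measure.quasiMeasurePreserving_fst.ae hb0
  have h3 : ∀ᵐ p ∂(Measure.pi fun _ : Fin b => ν), ∀ i, |(p i).1| ≤ 1 := by
    rw [ae_all_iff]
    intro i
    exact (measurePreserving_eval (fun _ : Fin b => ν) i).quasiMeasurePreserving.ae hb
  have h2 : ∀ᵐ q ∂(ν0.prod (Measure.pi fun _ : Fin b => ν)), ∀ i, |(q.2 i).1| ≤ 1 :=
    Measure.quasiMeasurePreserving_snd.ae h3
  filter_upwards [h1, h2] with q hq1 hq2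
  exact ⟨hq1, hq2⟩

theorem abs_wBP_le (h0 : 0 < θ) (h1 : θ < 1) {h : ℝ} (hh : |h| ≤ 1) {p : Fin b → ℝ × ℝ}
    (hp : ∀ i, |(p i).1| ≤ 1) : |wBP b θ h p| ≤ 2 * 2 ^ b := by
  have hf : ∀ τ : ℝ, |τ| ≤ 1 → |∏ i, (1 + τ * (θ * (p i).1))| ≤ 2 ^ b := by
    intro τ hτ
    rw [Finset.abs_prod]
    calc ∏ i, |1 + τ * (θ * (p i).1)| ≤ ∏ _i : Fin b, (2 : ℝ) := by
          refine Finset.prod_le_prod (fun _ _ => abs_nonneg _) fun i _ => ?_
          refine (abs_add_le _ _).trans ?_
          rw [abs_one, abs_mul, abs_mul, abs_of_pos h0]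
          have h2 := mul_le_mul h1.le (hp i) (abs_nonneg _) zero_le_one
          have := mul_le_mul hτ h2 (by positivity) zero_le_one
          linarith
      _ = 2 ^ b := by simp
  have h2 := hf 1 (by simp)
  have h3 := hf (-1) (by simp)
  simp only [one_mul, neg_one_mul, ← sub_eq_add_neg] at h2 h3
  have h4 : |1 + h| ≤ 2 := by
    rw [abs_le] at hh ⊢
    constructor <;> linarith
  have h5 : |1 - h| ≤ 2 := by
    rw [abs_le] at hh ⊢
    constructor <;> linarith
  unfold wBP
  rw [abs_div, abs_two]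
  have h6 : |(1 + h) * ∏ i, (1 + θ * (p i).1)| ≤ 2 * 2 ^ b := by
    rw [abs_mul]
    exact mul_le_mul h4 h2 (abs_nonneg _) (by norm_num)
  have h7 : |(1 - h) * ∏ i, (1 - θ * (p i).1)| ≤ 2 * 2 ^ b := by
    rw [abs_mul]
    exact mul_le_mul h5 h3 (abs_nonneg _) (by norm_num)
  rw [div_le_iff₀ (by norm_num)]
  refine (abs_add_le _ _).trans ?_
  linarith

/-- Product test functions against the weight. -/
theorem integral_prod_wBP [IsProbabilityMeasure ν0] [IsProbabilityMeasure ν]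
    (h0 : 0 < θ) (h1 : θ < 1) (hb0 : ∀ᵐ h ∂ν0, |h| ≤ 1) (hb : ∀ᵐ p ∂ν, |p.1| ≤ 1)
    (f0 : ℝ →ᵇ ℝ) (g : Fin b → (ℝ × ℝ →ᵇ ℝ)) :
    ∫ q, (f0 q.1 * ∏ i, g i (q.2 i)) * wBP b θ q.1 q.2
        ∂(ν0.prod (Measure.pi fun _ : Fin b => ν)) =
      ((∫ h, f0 h * (1 + h) ∂ν0) * ∏ i, ∫ p, g i p * (1 + θ * p.1) ∂ν +
        (∫ h, f0 h * (1 - h) ∂ν0) * ∏ i, ∫ p, g i p * (1 - θ * p.1) ∂ν) / 2 := by
  have hF0 : ∀ s, |f0 s| ≤ ‖f0‖ := fun s => by
    simpa [Real.norm_eq_abs] using f0.norm_coe_le_norm s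
  have hG : ∀ i s, |g i s| ≤ ‖g i‖ := fun i s => by
    simpa [Real.norm_eq_abs] using (g i).norm_coe_le_norm s
  have hI0 : ∀ τ : ℝ, |τ| ≤ 1 → Integrable (fun h => f0 h * (1 + τ * h)) ν0 := by
    intro τ hτ
    refine Integrable.of_bound (C := ‖f0‖ * 2) ?_ ?_
    · exact (f0.continuous.mul (by fun_prop)).aestronglyMeasurable
    · filter_upwards [hb0] with h hh
      rw [Real.norm_eq_abs, abs_mul]
      refine mul_le_mul (hF0 _) ?_ (abs_nonneg _) (norm_nonneg _)
      refine (abs_add_le _ _).trans ?_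
      rw [abs_one, abs_mul]
      have := mul_le_mul hτ hh (abs_nonneg _) zero_le_one
      linarith
  have hI : ∀ τ : ℝ, |τ| ≤ 1 → ∀ i, Integrable (fun p => g i p * (1 + τ * (θ * p.1))) ν := by
    intro τ hτ i
    refine Integrable.of_bound (C := ‖g i‖ * 2) ?_ ?_
    · exact ((g i).continuous.mul (by fun_prop)).aestronglyMeasurable
    · filter_upwards [hb] with p hp
      rw [Real.norm_eq_abs, abs_mul]
      refine mul_le_mul (hG _ _) ?_ (abs_nonneg _) (norm_nonneg _)
      refine (abs_add_le _ _).trans ?_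
      rw [abs_one, abs_mul, abs_mul, abs_of_pos h0]
      have h2 := mul_le_mul h1.le hp (abs_nonneg _) zero_le_one
      have := mul_le_mul hτ h2 (by positivity) zero_le_one
      linarith
  have hP : ∀ τ : ℝ, |τ| ≤ 1 → Integrable (fun q : ℝ × (Fin b → ℝ × ℝ) =>
      (f0 q.1 * (1 + τ * q.1)) * ∏ i, (g i (q.2 i) * (1 + τ * (θ * (q.2 i).1))))
      (ν0.prod (Measure.pi fun _ : Fin b => ν)) := fun τ hτ =>
    (hI0 τ hτ).mul_prod (Integrable.fintype_prod (hI τ hτ))
  have hV : ∀ τ : ℝ, ∫ q : ℝ × (Fin b → ℝ × ℝ), (f0 q.1 * (1 + τ * q.1)) *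
        ∏ i, (g i (q.2 i) * (1 + τ * (θ * (q.2 i).1))) ∂(ν0.prod (Measure.pi fun _ : Fin b => ν)) =
      (∫ h, f0 h * (1 + τ * h) ∂ν0) * ∏ i, ∫ p, g i p * (1 + τ * (θ * p.1)) ∂ν := by
    intro τ
    rw [← integral_fintype_prod_eq_prod (μ := fun _ : Fin b => ν)
      (fun (i : Fin b) (p : ℝ × ℝ) => g i p * (1 + τ * (θ * p.1))), ← integral_prod_mul]
  have e : (fun q : ℝ × (Fin b → ℝ × ℝ) => (f0 q.1 * ∏ i, g i (q.2 i)) * wBP b θ q.1 q.2) =
      fun q => (((f0 q.1 * (1 + 1 * q.1)) * ∏ i, (g i (q.2 i) * (1 + 1 * (θ * (q.2 i).1)))) +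
        ((f0 q.1 * (1 + (-1) * q.1)) * ∏ i, (g i (q.2 i) * (1 + (-1) * (θ * (q.2 i).1))))) / 2 := by
    funext q
    unfold wBP
    simp only [Finset.prod_mul_distrib, one_mul, neg_one_mul, ← sub_eq_add_neg]
    ring
  rw [e, integral_div, integral_add (hP 1 (by simp)) (hP (-1) (by simp)), hV, hV]
  simp only [one_mul, neg_one_mul, ← sub_eq_add_neg]

theorem integrable_wBP_of_bdd [IsProbabilityMeasure ν0] [IsProbabilityMeasure ν]
    (h0 : 0 < θ) (h1 : θ < 1) (hb0 : ∀ᵐ h ∂ν0, |h| ≤ 1) (hb : ∀ᵐ p ∂ν, |p.1| ≤ 1)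
    {F : ℝ × (Fin b → ℝ × ℝ) → ℝ} (hF : Measurable F) {C : ℝ} (hC : ∀ q, |F q| ≤ C) :
    Integrable (fun q : ℝ × (Fin b → ℝ × ℝ) => F q * wBP b θ q.1 q.2)
      (ν0.prod (Measure.pi fun _ : Fin b => ν)) := by
  refine Integrable.of_bound (C := C * (2 * 2 ^ b)) (hF.mul measurable_wBP).aestronglyMeasurable ?_
  filter_upwards [ae_pi_fst_le (b := b) hb0 hb] with q hq
  rw [Real.norm_eq_abs, abs_mul]
  exact mul_le_mul (hC q) (abs_wBP_le h0 h1 hq.1 hq.2) (abs_nonneg _)
    ((abs_nonneg _).trans (hC q))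

/-- The measure with density `wBP`. -/
theorem integral_withDensity_wBP [IsProbabilityMeasure ν0] [IsProbabilityMeasure ν]
    (h0 : 0 < θ) (h1 : θ < 1) (hb0 : ∀ᵐ h ∂ν0, |h| ≤ 1) (hb : ∀ᵐ p ∂ν, |p.1| ≤ 1)
    (F : ℝ × (Fin b → ℝ × ℝ) → ℝ) :
    ∫ q, F q ∂((ν0.prod (Measure.pi fun _ : Fin b => ν)).withDensity
        fun q => ENNReal.ofReal (wBP b θ q.1 q.2)) =
      ∫ q, F q * wBP b θ q.1 q.2 ∂(ν0.prod (Measure.pi fun _ : Fin b => ν)) := by
  rw [integral_withDensity_eq_integral_toReal_smul measurable_wBP.ennreal_ofReal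
    (Eventually.of_forall fun _ => ENNReal.ofReal_lt_top)]
  refine integral_congr_ae ?_
  filter_upwards [ae_pi_fst_le (b := b) hb0 hb] with q hq
  rw [ENNReal.toReal_ofReal (wBP_pos h0 h1 hq.1 hq.2).le, smul_eq_mul, mul_comm]

end BP

theorem prod_nbr {x y : V} (e : Fin b ≃ {z // z ∈ nbr G x y}) (Φ : V → ℝ) :
    ∏ z ∈ nbr G x y, Φ z = ∏ i, Φ (e i) := by
  rw [← Finset.prod_coe_sort, ← e.prod_comp]

theorem sum_nbr {x y : V} (e : Fin b ≃ {z // z ∈ nbr G x y}) (Φ : V → ℝ) :
    ∑ z ∈ nbr G x y, Φ z = ∑ i, Φ (e i) := by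
  rw [← Finset.sum_coe_sort, ← e.sum_comp]

/-- The joint law of the own field and the messages of the next generation. -/
theorem map_joint (hG : G.IsTree) (hb : 2 ≤ b) (hd : G.IsRegularOfDegree (b + 1))
    (hμ : IsTreeIsing G θ μ) (h0 : 0 < θ) (h1 : θ < 1) (hθ : b * θ ^ 2 < 1) (k : ℕ) {t : ℝ}
    (ht : t ≤ 1) {x y : V} (h : G.Adj x y) (e : Fin b ≃ {z // z ∈ nbr G x y})
    {ν : Measure (ℝ × ℝ)} (hν : ∀ x y, G.Adj x y → (Pu (V × ℕ)).map (psi G θ μ k t x y) = ν) :
    (Pu (V × ℕ)).map (fun om => (ownI G μ k t y om, fun i => psi G θ μ k t y (e i) om)) =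
      (((Pu (V × ℕ)).map (ownI G μ k t y)).prod (Measure.pi fun _ : Fin b => ν)).withDensity
        (fun q => ENNReal.ofReal (wBP b θ q.1 q.2)) := by
  have := hμ.isProb
  have : Countable V := countable_of_locallyFinite hG.connected
  have hadj : ∀ i, G.Adj y (e i) := fun i => (jl_mem_nbr.1 (e i).2).2
  have hmo := measurable_ownI (G := G) (μ := μ) k t y
  have hmp : ∀ i, Measurable (psi G θ μ k t y (e i)) := fun i =>
    measurable_psi hG hd hμ h0 h1 hθ k ht (hadj i)
  have hJ : Measurable (fun om => (ownI G μ k t y om, fun i => psi G θ μ k t y (e i) om)) :=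
    hmo.prodMk (measurable_pi_lambda _ hmp)
  have hmxy := measurable_psi hG hd hμ h0 h1 hθ k ht h
  have hp0 : IsProbabilityMeasure ((Pu (V × ℕ)).map (ownI G μ k t y)) :=
    Measure.isProbabilityMeasure_map hmo.aemeasurable
  have hp : IsProbabilityMeasure ν := by
    rw [← hν x y h]
    exact Measure.isProbabilityMeasure_map hmxy.aemeasurable
  have hb0 : ∀ᵐ s ∂((Pu (V × ℕ)).map (ownI G μ k t y)), |s| ≤ 1 := by
    rw [ae_map_iff hmo.aemeasurable (measurableSet_le (by fun_prop) (by fun_prop))]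
    exact Eventually.of_forall fun om => (abs_ownI_lt k t y om).le
  have hb1 : ∀ᵐ p ∂ν, |p.1| ≤ 1 := by
    rw [← hν x y h, ae_map_iff hmxy.aemeasurable (measurableSet_le (by fun_prop) (by fun_prop))]
    exact Eventually.of_forall fun om => abs_MI_le G θ μ k t x y om
  have hpJ : IsProbabilityMeasure ((Pu (V × ℕ)).map
      (fun om => (ownI G μ k t y om, fun i => psi G θ μ k t y (e i) om))) :=
    Measure.isProbabilityMeasure_map hJ.aemeasurable
  have hfin : IsFiniteMeasure ((((Pu (V × ℕ)).map (ownI G μ k t y)).prod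
      (Measure.pi fun _ : Fin b => ν)).withDensity
        (fun q => ENNReal.ofReal (wBP b θ q.1 q.2))) := by
    apply isFiniteMeasure_withDensity_ofReal
    have := integrable_wBP_of_bdd (b := b) (F := fun _ => (1 : ℝ)) (C := 1) h0 h1 hb0 hb1
      measurable_const (fun _ => by simp)
    simp only [one_mul] at this
    exact this.2
  refine Measure.ext_of_integral_mul_prod_boundedContinuousFunction fun f0 g => ?_
  rw [integral_withDensity_wBP h0 h1 hb0 hb1, integral_prod_wBP h0 h1 hb0 hb1,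
    integral_map hJ.aemeasurable]
  swap
  · refine Continuous.aestronglyMeasurable ?_
    refine (f0.continuous.comp continuous_fst).mul ?_
    exact continuous_finsetProd _ fun i _ =>
      (g i).continuous.comp ((continuous_apply i).comp continuous_snd)
  classical
  set idx : V → Fin b := fun z =>
    if hz : z ∈ nbr G x y then e.symm ⟨z, hz⟩ else ⟨0, by omega⟩ with hidx
  have hidxe : ∀ i, idx (e i) = i := by
    intro i
    simp only [hidx]
    rw [dif_pos (e i).2]
    simp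
  have hG' : ∀ i s, |g i s| ≤ ‖g i‖ := fun i s => by
    simpa [Real.norm_eq_abs] using (g i).norm_coe_le_norm s
  have key := block_law_I hG hd hμ h0 h1 hθ k ht h f0 (fun z => g (idx z))
    ⟨∑ i, ‖g i‖, fun z p => (hG' _ _).trans
      (Finset.single_le_sum (f := fun i => ‖g i‖) (fun _ _ => norm_nonneg _)
        (Finset.mem_univ _))⟩
  simp only [prod_nbr e, hidxe] at key
  have hj : ∫ s, f0 s * (1 + s) ∂((Pu (V × ℕ)).map (ownI G μ k t y)) =
      ∫ om, f0 (ownI G μ k t y om) * (1 + ownI G μ k t y om) ∂(Pu (V × ℕ)) := by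
    rw [integral_map hmo.aemeasurable
      (Continuous.aestronglyMeasurable (by fun_prop))]
  have hj' : ∫ s, f0 s * (1 - s) ∂((Pu (V × ℕ)).map (ownI G μ k t y)) =
      ∫ om, f0 (ownI G μ k t y om) * (1 - ownI G μ k t y om) ∂(Pu (V × ℕ)) := by
    rw [integral_map hmo.aemeasurable
      (Continuous.aestronglyMeasurable (by fun_prop))]
  rw [key, hj, hj']
  have hi : ∀ i, ∫ p, g i p * (1 + θ * p.1) ∂ν = ∫ om, g i (psi G θ μ k t y (e i) om) *
      (1 + θ * (psi G θ μ k t y (e i) om).1) ∂(Pu (V × ℕ)) := by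
    intro i
    rw [← hν y (e i) (hadj i), integral_map (hmp i).aemeasurable
      (Continuous.aestronglyMeasurable (by fun_prop))]
  have hi' : ∀ i, ∫ p, g i p * (1 - θ * p.1) ∂ν = ∫ om, g i (psi G θ μ k t y (e i) om) *
      (1 - θ * (psi G θ μ k t y (e i) om).1) ∂(Pu (V × ℕ)) := by
    intro i
    rw [← hν y (e i) (hadj i), integral_map (hmp i).aemeasurable
      (Continuous.aestronglyMeasurable (by fun_prop))]
  simp only [hi, hi']

/-- The recursion. -/
theorem ae_psi_rec (hG : G.IsTree) (hd : G.IsRegularOfDegree (b + 1))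
    (hμ : IsTreeIsing G θ μ) (h0 : 0 < θ) (h1 : θ < 1) (hθ : b * θ ^ 2 < 1) (k : ℕ) {t : ℝ}
    (ht : t ≤ 1) {x y : V} (h : G.Adj x y) (e : Fin b ≃ {z // z ∈ nbr G x y}) :
    ∀ᵐ om ∂(Pu (V × ℕ)), psi G θ μ k t x y om =
      (nBP b θ (ownI G μ k t y om) (fun i => psi G θ μ k t y (e i) om) /
        wBP b θ (ownI G μ k t y om) (fun i => psi G θ μ k t y (e i) om),
        xBP b θ fun i => psi G θ μ k t y (e i) om) := by
  have := hμ.isProb
  have : Countable V := countable_of_locallyFinite hG.connected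
  filter_upwards [ae_tendsto_all hG hd hμ h0 h1 hθ k ht y] with om hom
  have hw := wBP_pos (b := b) h0 h1 (abs_ownI_lt (G := G) (μ := μ) k t y om).le
    (p := fun i => psi G θ μ k t y (e i) om) (fun i => abs_MI_le G θ μ k t y (e i) om)
  ext
  · -- message
    have hM1 : Tendsto (fun n : ℕ => MF G μ (ball G y n) k t om x y) atTop
        (𝓝 (psi G θ μ k t x y om).1) := (continuous_fst.tendsto _).comp (hom.2 x y h)
    have hP : ∀ τ : ℝ, Tendsto (fun n : ℕ => ∏ z ∈ nbr G x y,
        (1 + τ * (θ * MF G μ (ball G y n) k t om y z))) atTop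
        (𝓝 (∏ z ∈ nbr G x y, (1 + τ * (θ * (psi G θ μ k t y z om).1)))) := by
      intro τ
      refine tendsto_finsetProd _ fun z hz => ?_
      exact ((((continuous_fst.tendsto _).comp
        (hom.2 y z (jl_mem_nbr.1 hz).2)).const_mul θ).const_mul τ).const_add 1
    have hA : Tendsto (fun n : ℕ => (1 + own k t (uL om) (sF μ (ball G y n) om) y) *
        ∏ z ∈ nbr G x y, (1 + 1 * (θ * MF G μ (ball G y n) k t om y z))) atTop
        (𝓝 ((1 + ownI G μ k t y om) *
          ∏ z ∈ nbr G x y, (1 + 1 * (θ * (psi G θ μ k t y z om).1)))) :=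
      ((hom.1 y).const_add 1).mul (hP 1)
    have hB : Tendsto (fun n : ℕ => (1 - own k t (uL om) (sF μ (ball G y n) om) y) *
        ∏ z ∈ nbr G x y, (1 + (-1) * (θ * MF G μ (ball G y n) k t om y z))) atTop
        (𝓝 ((1 - ownI G μ k t y om) *
          ∏ z ∈ nbr G x y, (1 + (-1) * (θ * (psi G θ μ k t y z om).1)))) :=
      ((hom.1 y).const_sub 1).mul (hP (-1))
    have hne : (1 + ownI G μ k t y om) *
          ∏ z ∈ nbr G x y, (1 + 1 * (θ * (psi G θ μ k t y z om).1)) +
        (1 - ownI G μ k t y om) *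
          ∏ z ∈ nbr G x y, (1 + (-1) * (θ * (psi G θ μ k t y z om).1)) ≠ 0 := by
      simp only [prod_nbr e, one_mul, neg_one_mul, ← sub_eq_add_neg]
      unfold wBP at hw
      linarith
    have hR := (hA.sub hB).div (hA.add hB) hne
    have heq := tendsto_nhds_unique hM1 (hR.congr fun n => ?_)
    · rw [heq]
      simp only [prod_nbr e, one_mul, neg_one_mul, ← sub_eq_add_neg]
      unfold nBP wBP
      rw [div_div_div_cancel_right₀ (by norm_num : (2 : ℝ) ≠ 0)]
    · rw [MF_rec hG hμ h0.le h1 (ball G y n) k t om h (self_mem_ball hG.connected y n)]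
      simp only [Pi.div_apply, one_mul, neg_one_mul, ← sub_eq_add_neg]
  · -- kernel sum
    have hX := Xs_rec (G := G) (θ := θ) (L := fun x y => lam θ (MI G θ μ k t x y om)) hd
      (fun x y => lam_nonneg h0.le h1 (abs_MI_le G θ μ k t x y om))
      (fun x y => lam_le h0.le h1 (abs_MI_le G θ μ k t x y om)) hθ h
    rw [nsum_eq_sum_nbr, sum_nbr e] at hX
    exact hX

theorem exists_isBP (hG : G.IsTree) (hb : 2 ≤ b) (hd : G.IsRegularOfDegree (b + 1))
    (hμ : IsTreeIsing G θ μ) (h0 : 0 < θ) (h1 : θ < 1) (hθ : b * θ ^ 2 < 1) (k : ℕ) {t : ℝ}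
    (ht0 : 0 ≤ t) (ht : t ≤ 1) :
    ∃ (ν0 : Measure ℝ) (ν : Measure (ℝ × ℝ)), IsBP b θ ν0 ν ∧
      (∀ x y, G.Adj x y → (Pu (V × ℕ)).map (fun om => (MI G θ μ k t x y om,
        Xs G (fun x y => lam θ (MI G θ μ k t x y om)) x y)) = ν) ∧
      (k = 0 → (∀ᵐ h ∂ν0, |h| ≤ t / 2) ∧ ∫ h, h ^ 2 ∂ν0 = t ^ 3 / 72) ∧
      (1 ≤ k → 1 / 72 ≤ ∫ h, h ^ 2 ∂ν0) := by
  have := hμ.isProb
  have : Countable V := countable_of_locallyFinite hG.connected
  obtain ⟨x⟩ := hG.connected.nonempty
  obtain ⟨y, h⟩ : ∃ y, G.Adj x y := by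
    have h2 : 0 < G.degree x := by rw [hd x]; omega
    obtain ⟨y, hy⟩ := (G.degree_pos_iff_exists_adj x).1 h2
    exact ⟨y, hy⟩
  have hcard : Fintype.card (Fin b) = Fintype.card {z // z ∈ nbr G x y} := by
    rw [Fintype.card_fin, Fintype.card_coe, card_nbr hd h]
  obtain ⟨e⟩ : Nonempty (Fin b ≃ {z // z ∈ nbr G x y}) := ⟨Fintype.equivOfCardEq hcard⟩
  have hadj : ∀ i, G.Adj y (e i) := fun i => (jl_mem_nbr.1 (e i).2).2
  have hmo := measurable_ownI (G := G) (μ := μ) k t y
  have hmxy := measurable_psi hG hd hμ h0 h1 hθ k ht h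
  have hmp : ∀ i, Measurable (psi G θ μ k t y (e i)) := fun i =>
    measurable_psi hG hd hμ h0 h1 hθ k ht (hadj i)
  have hJ : Measurable (fun om => (ownI G μ k t y om, fun i => psi G θ μ k t y (e i) om)) :=
    hmo.prodMk (measurable_pi_lambda _ hmp)
  have hlaw : ∀ x' y', G.Adj x' y' → (Pu (V × ℕ)).map (psi G θ μ k t x' y') =
      (Pu (V × ℕ)).map (psi G θ μ k t x y) := fun x' y' h' =>
    map_psi hG hd hμ h0 h1 hθ k ht h' h
  have hjoint := map_joint hG hb hd hμ h0 h1 hθ k ht h e hlaw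
  have hae := ae_tendsto_all hG hd hμ h0 h1 hθ k ht y
  have hmon : ∀ n : ℕ, Measurable fun om : V × ℕ → ℝ =>
      own k t (uL om) (sF μ (ball G y n) om) y :=
    fun n => measurable_own k t (fun e => measurable_sF (ball G y n) e) y
  have hown : ∀ (n : ℕ) om, |own k t (uL om) (sF μ (ball G y n) om) y| ≤ 1 := fun n om =>
    (abs_own_lt k t _ _ (fun e => abs_sF_le (ball G y n) om e) y).le
  have hp0 : IsProbabilityMeasure ((Pu (V × ℕ)).map (ownI G μ k t y)) :=
    Measure.isProbabilityMeasure_map hmo.aemeasurable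
  have hp : IsProbabilityMeasure ((Pu (V × ℕ)).map (psi G θ μ k t x y)) :=
    Measure.isProbabilityMeasure_map hmxy.aemeasurable
  have hb0 : ∀ᵐ s ∂((Pu (V × ℕ)).map (ownI G μ k t y)), |s| < 1 := by
    rw [ae_map_iff hmo.aemeasurable (measurableSet_lt (by fun_prop) (by fun_prop))]
    exact Eventually.of_forall fun om => abs_ownI_lt k t y om
  have hb1 : ∀ᵐ p ∂((Pu (V × ℕ)).map (psi G θ μ k t x y)),
      |p.1| ≤ 1 ∧ 1 ≤ p.2 ∧ p.2 ≤ 1 / (1 - b * θ ^ 2) := by
    rw [ae_map_iff hmxy.aemeasurable]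
    · refine Eventually.of_forall fun om => ⟨abs_MI_le G θ μ k t x y om, ?_, ?_⟩
      · exact one_le_Xs (θ := θ) hd
          (fun x y => lam_nonneg h0.le h1 (abs_MI_le G θ μ k t x y om))
          (fun x y => lam_le h0.le h1 (abs_MI_le G θ μ k t x y om)) hθ h
      · exact Xs_le (θ := θ) hd
          (fun x y => lam_nonneg h0.le h1 (abs_MI_le G θ μ k t x y om))
          (fun x y => lam_le h0.le h1 (abs_MI_le G θ μ k t x y om)) hθ h
    · have m1 : MeasurableSet {p : ℝ × ℝ | |p.1| ≤ 1} :=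
        measurableSet_le (by fun_prop) (by fun_prop)
      have m2 : MeasurableSet {p : ℝ × ℝ | 1 ≤ p.2} :=
        measurableSet_le (by fun_prop) (by fun_prop)
      have m3 : MeasurableSet {p : ℝ × ℝ | p.2 ≤ 1 / (1 - b * θ ^ 2)} :=
        measurableSet_le (by fun_prop) (by fun_prop)
      exact m1.inter (m2.inter m3)
  have hsq : Tendsto (fun n : ℕ => ∫ om, own k t (uL om) (sF μ (ball G y n) om) y ^ 2
      ∂(Pu (V × ℕ))) atTop (𝓝 (∫ s, s ^ 2 ∂((Pu (V × ℕ)).map (ownI G μ k t y)))) := by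
    rw [integral_map hmo.aemeasurable (by fun_prop)]
    refine tendsto_integral_of_bdd (fun n => (hmon n).pow_const 2) 1 (fun n om => ?_) ?_
    · rw [abs_pow]
      exact pow_le_one₀ (abs_nonneg _) (hown n om)
    · filter_upwards [hae] with om hom
      exact (hom.1 y).pow 2
  refine ⟨(Pu (V × ℕ)).map (ownI G μ k t y), (Pu (V × ℕ)).map (psi G θ μ k t x y),
    ⟨hp0, hp, hb0, ?_, hb1, ?_, ?_⟩, fun x' y' h' => hlaw x' y' h', ?_, ?_⟩
  · -- symmetry of the own field
    have hpn : IsProbabilityMeasure (((Pu (V × ℕ)).map (ownI G μ k t y)).map fun h => -h) :=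
      Measure.isProbabilityMeasure_map (by fun_prop)
    refine ext_of_forall_integral_eq_of_IsFiniteMeasure fun f => ?_
    rw [integral_map (by fun_prop) f.continuous.aestronglyMeasurable,
      integral_map hmo.aemeasurable (Continuous.aestronglyMeasurable (by fun_prop)),
      integral_map hmo.aemeasurable f.continuous.aestronglyMeasurable]
    have hF0 : ∀ s, |f s| ≤ ‖f‖ := fun s => by
      simpa [Real.norm_eq_abs] using f.norm_coe_le_norm s
    have hL : Tendsto (fun n : ℕ => ∫ om, f (-own k t (uL om) (sF μ (ball G y n) om) y)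
        ∂(Pu (V × ℕ))) atTop (𝓝 (∫ om, f (-ownI G μ k t y om) ∂(Pu (V × ℕ)))) := by
      refine tendsto_integral_of_bdd
        (fun n => f.continuous.measurable.comp (hmon n).neg) ‖f‖ (fun n om => hF0 _) ?_
      filter_upwards [hae] with om hom
      exact (f.continuous.tendsto _).comp (hom.1 y).neg
    have hR : Tendsto (fun n : ℕ => ∫ om, f (own k t (uL om) (sF μ (ball G y n) om) y)
        ∂(Pu (V × ℕ))) atTop (𝓝 (∫ om, f (ownI G μ k t y om) ∂(Pu (V × ℕ)))) := by
      refine tendsto_integral_of_bdd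
        (fun n => f.continuous.measurable.comp (hmon n)) ‖f‖ (fun n om => hF0 _) ?_
      filter_upwards [hae] with om hom
      exact (f.continuous.tendsto _).comp (hom.1 y)
    refine tendsto_nhds_unique hL (hR.congr fun n => ?_)
    exact (own_symm_law hμ (ball G y n) k t (self_mem_ball hG.connected y n)
      f.continuous.measurable ⟨‖f‖, hF0⟩).symm
  · -- symmetry of the messages
    have hpn : IsProbabilityMeasure (((Pu (V × ℕ)).map (psi G θ μ k t x y)).map
        fun p => (-p.1, p.2)) := Measure.isProbabilityMeasure_map (by fun_prop)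
    refine ext_of_forall_integral_eq_of_IsFiniteMeasure fun f => ?_
    have hcn : Continuous fun p : ℝ × ℝ => (-p.1, p.2) := by fun_prop
    rw [integral_map (by fun_prop) f.continuous.aestronglyMeasurable,
      integral_map hmxy.aemeasurable (Continuous.aestronglyMeasurable (by fun_prop)),
      integral_map hmxy.aemeasurable f.continuous.aestronglyMeasurable]
    have hF0 : ∀ s, |f s| ≤ ‖f‖ := fun s => by
      simpa [Real.norm_eq_abs] using f.norm_coe_le_norm s
    have hmM : ∀ n : ℕ, Measurable fun om =>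
        (MF G μ (ball G y n) k t om x y, XF G θ μ (ball G y n) k t om x y) := fun n =>
      measurable_MFXF hμ hd h0 h1 hθ (ball G y n) k t h
    have hL : Tendsto (fun n : ℕ => ∫ om, f (-MF G μ (ball G y n) k t om x y,
        XF G θ μ (ball G y n) k t om x y) ∂(Pu (V × ℕ))) atTop
        (𝓝 (∫ om, f (-(psi G θ μ k t x y om).1, (psi G θ μ k t x y om).2) ∂(Pu (V × ℕ)))) := by
      refine tendsto_integral_of_bdd
        (fun n => f.continuous.measurable.comp (hcn.measurable.comp (hmM n))) ‖f‖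
        (fun n om => hF0 _) ?_
      filter_upwards [hae] with om hom
      exact (f.continuous.tendsto _).comp ((hcn.tendsto _).comp (hom.2 x y h))
    have hR : Tendsto (fun n : ℕ => ∫ om, f (MF G μ (ball G y n) k t om x y,
        XF G θ μ (ball G y n) k t om x y) ∂(Pu (V × ℕ))) atTop
        (𝓝 (∫ om, f (psi G θ μ k t x y om) ∂(Pu (V × ℕ)))) := by
      refine tendsto_integral_of_bdd
        (fun n => f.continuous.measurable.comp (hmM n)) ‖f‖ (fun n om => hF0 _) ?_
      filter_upwards [hae] with om hom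
      exact (f.continuous.tendsto _).comp (hom.2 x y h)
    refine tendsto_nhds_unique hL (hR.congr fun n => ?_)
    exact (MF_symm_law hG hd hμ h0.le h1 hθ (ball G y n) k t h
      f.continuous.measurable ⟨‖f‖, hF0⟩).symm
  · -- the fixed point equation
    rintro F hF ⟨C, hC⟩
    have hb0' : ∀ᵐ s ∂((Pu (V × ℕ)).map (ownI G μ k t y)), |s| ≤ 1 := by
      filter_upwards [hb0] with s hs using hs.le
    have hb1' : ∀ᵐ p ∂((Pu (V × ℕ)).map (psi G θ μ k t x y)), |p.1| ≤ 1 := by
      filter_upwards [hb1] with p hp using hp.1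
    have hΦ : Measurable fun q : ℝ × (Fin b → ℝ × ℝ) =>
        F (nBP b θ q.1 q.2 / wBP b θ q.1 q.2, xBP b θ q.2) :=
      hF.comp ((measurable_nBP.div measurable_wBP).prodMk
        (measurable_xBP.comp measurable_snd))
    have hint := integrable_wBP_of_bdd (b := b) h0 h1 hb0' hb1' hΦ (C := C) (fun q => hC _)
    rw [integral_map hmxy.aemeasurable hF.aestronglyMeasurable]
    calc ∫ om, F (psi G θ μ k t x y om) ∂(Pu (V × ℕ))
        = ∫ om, F (nBP b θ (ownI G μ k t y om) (fun i => psi G θ μ k t y (e i) om) /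
            wBP b θ (ownI G μ k t y om) (fun i => psi G θ μ k t y (e i) om),
            xBP b θ fun i => psi G θ μ k t y (e i) om) ∂(Pu (V × ℕ)) := by
          refine integral_congr_ae ?_
          filter_upwards [ae_psi_rec hG hd hμ h0 h1 hθ k ht h e] with om hom
          rw [hom]
      _ = ∫ q, F (nBP b θ q.1 q.2 / wBP b θ q.1 q.2, xBP b θ q.2) ∂((Pu (V × ℕ)).map
            (fun om => (ownI G μ k t y om, fun i => psi G θ μ k t y (e i) om))) := by
          rw [integral_map hJ.aemeasurable hΦ.aestronglyMeasurable]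
      _ = ∫ q, F (nBP b θ q.1 q.2 / wBP b θ q.1 q.2, xBP b θ q.2) * wBP b θ q.1 q.2
            ∂(((Pu (V × ℕ)).map (ownI G μ k t y)).prod
              (Measure.pi fun _ : Fin b => (Pu (V × ℕ)).map (psi G θ μ k t x y))) := by
          rw [hjoint, integral_withDensity_wBP h0 h1 hb0' hb1']
      _ = _ := integral_prod _ hint
  · -- round zero
    rintro rfl
    refine ⟨?_, ?_⟩
    · rw [ae_map_iff hmo.aemeasurable (measurableSet_le (by fun_prop) (by fun_prop))]
      exact Eventually.of_forall fun om =>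
        abs_own_le t ht0 ht _ _ (fun e => abs_sI_le om e) y
    · refine tendsto_nhds_unique hsq (tendsto_const_nhds.congr fun n => ?_)
      exact (own_sq_zero hμ (ball G y n) t ht0 ht (self_mem_ball hG.connected y n)).symm
  · intro hk
    exact ge_of_tendsto' hsq fun n =>
      own_sq_succ hμ (ball G y n) hk t (self_mem_ball hG.connected y n)

end Vale.Agent.P161.EP
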