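import Mathlib
import Vale.Agent.P161.EP.PointPre
import Vale.Agent.P161.EP.JL
import Vale.Agent.P161.EP.BPsum
import Vale.Agent.P161.EP.Evol

/-!
# Module P(e) (PointGood): transfer of the estimates of the law of a message; the crude bound
-/

open MeasureTheory Filter Topology

namespace Vale.Agent.P161.EP

universe u

section transfer

variable {V : Type u} {G : SimpleGraph V} [G.LocallyFinite] {b : ℕ} {θ : ℝ}
  {M : V → V → (V × ℕ → ℝ) → ℝ} {ν : Measure (ℝ × ℝ)}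

/-- Transfer of estimates of `ν`. -/
theorem good_of_law {C c v : ℝ}
    (hm : ∀ x y, G.Adj x y → Measurable fun om : V × ℕ → ℝ => (M x y om, Xs G (Lf θ M om) x y))
    (hl : ∀ x y, G.Adj x y →
      (Pu (V × ℕ)).map (fun om => (M x y om, Xs G (Lf θ M om) x y)) = ν)
    (h1 : c * v ≤ ∫ p, p.1 ^ 2 ∂ν)
    (h2 : ∫ p, p.1 ^ 8 ∂ν ≤ C * v ^ 4)
    (h3 : ∀ l : ℝ, 0 ≤ l → (ν {p | l < |p.1|}).toReal ≤ 2 * Real.exp (-l ^ 2 / (C * v)))
    (h4 : ∫ p, p.2 ^ 4 ∂ν ≤ C / v ^ 4)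
    (h5 : ∀ j : ℕ, ∫ p in {p : ℝ × ℝ | C / v + 2 * j < p.2}, p.2 ^ 2 ∂ν ≤
          C / v ^ 2 * Real.exp (-2 * (b : ℝ) ^ j))
    (h6 : ∫ p, (p.2 - ∫ q, q.2 ∂ν) ^ 2 ∂ν ≤ C) : Good G b C c v θ M := by
  have key : ∀ x y, G.Adj x y → ∀ F : ℝ × ℝ → ℝ, Measurable F →
      ∫ om, F (M x y om, Xs G (Lf θ M om) x y) ∂(Pu (V × ℕ)) = ∫ p, F p ∂ν := by
    intro x y h F hF
    rw [← hl x y h, integral_map (hm x y h).aemeasurable hF.aestronglyMeasurable]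
  constructor
  · intro x y h
    rw [key x y h (fun p => p.1 ^ 2) (by fun_prop)]
    exact h1
  · intro x y h
    rw [key x y h (fun p => p.1 ^ 8) (by fun_prop)]
    exact h2
  · intro x y h l hl0
    have e : Pu (V × ℕ) {om | l < |M x y om|} = ν {p | l < |p.1|} := by
      rw [← hl x y h, Measure.map_apply (hm x y h)
        (measurableSet_lt measurable_const (by fun_prop))]
      rfl
    rw [e]
    exact h3 l hl0
  · intro x y h
    rw [key x y h (fun p => p.2 ^ 4) (by fun_prop)]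
    exact h4
  · intro x y h j
    have hs : MeasurableSet {p : ℝ × ℝ | C / v + 2 * j < p.2} :=
      measurableSet_lt measurable_const (by fun_prop)
    have e : ∫ om in {om | C / v + 2 * j < Xs G (Lf θ M om) x y},
        Xs G (Lf θ M om) x y ^ 2 ∂(Pu (V × ℕ)) =
        ∫ p in {p : ℝ × ℝ | C / v + 2 * j < p.2}, p.2 ^ 2 ∂ν := by
      rw [← hl x y h, setIntegral_map hs (by fun_prop) (hm x y h).aemeasurable]
      rfl
    rw [e]
    exact h5 j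
  · intro x y h
    have e1 := key x y h (fun p => p.2) (by fun_prop)
    simp only at e1
    rw [e1, key x y h (fun p => (p.2 - ∫ q, q.2 ∂ν) ^ 2) (by fun_prop)]
    exact h6

end transfer

/-- The law of the messages at scale `v`. -/
theorem exists_good (b : ℕ) (hb : 2 ≤ b) : ∃ C c : ℝ, 0 < C ∧ 0 < c ∧
    ∀ (V : Type u) (G : SimpleGraph V) [G.LocallyFinite] (θ : ℝ) (μ : Measure (V → Bool)),
      G.IsTree → G.IsRegularOfDegree (b + 1) → IsTreeIsing G θ μ →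
      0 < θ → b * θ ^ 2 < 1 → 1 / 4 ≤ b * θ ^ 2 →
      ∀ (k : ℕ) (t v : ℝ), 0 < t → t ≤ 1 → 0 < v → v ≤ 1 →
      (k = 0 → v ^ 2 = t ^ 3) → (1 ≤ k → v = 1) →
      (∀ x y, G.Adj x y →
        ∫ om, Xs G (Lf θ (MI G θ μ k t) om) x y ∂(Pu (V × ℕ)) ≤ C / v) ∧
      (1 - b * θ ^ 2 ≤ c * v → Good G b C c v θ (MI G θ μ k t)) := by
  obtain ⟨C, c, hC, hc, H⟩ := bp_all b hb
  refine ⟨C, c, hC, hc, ?_⟩
  intro V G _ θ μ hG hd hμ h0 hθ hθ4 k t v ht ht1 hv hv1 hk0 hk1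
  have hθ1 : θ < 1 := (BPsum_theta_lt hb h0 hθ).1
  obtain ⟨ν0, ν, hν, hl, ho0, ho1⟩ := exists_isBP hG hb hd hμ h0 hθ1 hθ k ht.le ht1
  have hown : OwnHyp ν0 t v := by
    rcases Nat.eq_zero_or_pos k with hk | hk
    · exact Or.inl ⟨hk0 hk, ho0 hk⟩
    · exact Or.inr ⟨hk1 hk, ho1 hk⟩
  obtain ⟨hX, hR⟩ := H θ ν0 ν t v hν h0 hθ hθ4 ht ht1 hv hv1 hown
  have hm : ∀ x y, G.Adj x y → Measurable fun om : V × ℕ → ℝ =>
      (MI G θ μ k t x y om, Xs G (Lf θ (MI G θ μ k t) om) x y) := fun x y h =>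
    measurable_psi hG hd hμ h0 hθ1 hθ k ht1 h
  have hl' : ∀ x y, G.Adj x y → (Pu (V × ℕ)).map (fun om =>
      (MI G θ μ k t x y om, Xs G (Lf θ (MI G θ μ k t) om) x y)) = ν := fun x y h => hl x y h
  refine ⟨fun x y h => ?_, fun hg => ?_⟩
  · have e : ∫ om, Xs G (Lf θ (MI G θ μ k t) om) x y ∂(Pu (V × ℕ)) = ∫ p, p.2 ∂ν := by
      rw [← hl' x y h, integral_map (hm x y h).aemeasurable (by fun_prop)]
    rw [e]
    exact hX
  · obtain ⟨g1, g2, g3, g4, g5, g6⟩ := hR hg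
    exact good_of_law hm hl' g1 g2 g3 g4 g5 g6

end Vale.Agent.P161.EP
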