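import Mathlib
import Vale.Agent.P161.EP.PointGood
import Vale.Agent.P161.EP.Gbound

/-!
# Module P(f) (PointCrude): the crude bound of the driving term
-/

open MeasureTheory Filter Topology

namespace Vale.Agent.P161.EP

universe u

/-- Uniform bound (cited in `Point.lean`). -/
theorem point_crude_aux (b : ℕ) (hb : 2 ≤ b) : ∃ C : ℝ, 0 < C ∧
    ∀ (V : Type u) (G : SimpleGraph V) [G.LocallyFinite] (θ θ' : ℝ) (μ μ' : Measure (V → Bool)),
      G.IsTree → G.IsRegularOfDegree (b + 1) → IsTreeIsing G θ μ → IsTreeIsing G θ' μ' →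
      0 < θ → b * θ ^ 2 < 1 → 1 / 4 ≤ b * θ ^ 2 → 0 < θ' → b * θ' ^ 2 < 1 → 1 / 4 ≤ b * θ' ^ 2 →
      ∀ (k : ℕ) (x : V) (t : ℝ), 0 < t → t ≤ 1 → (t / 2) ^ 2 * EG G θ θ' μ μ' k x t ≤ C := by
  obtain ⟨C, c, hC, hc, H⟩ := exists_good.{u} b hb
  obtain ⟨C', hC', H'⟩ := gbound_crude.{u} b hb
  refine ⟨C' * (C + C), by positivity, ?_⟩
  intro V G _ θ θ' μ μ' hG hd hμ hμ' h0 hθ hθ4 h0' hθ' hθ4' k x t ht ht1
  have h1 : θ < 1 := (BPsum_theta_lt hb h0 hθ).1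
  have h1' : θ' < 1 := (BPsum_theta_lt hb h0' hθ').1
  obtain ⟨y, hxy⟩ : ∃ y, G.Adj x y := by
    have h2 : 0 < G.degree x := by rw [hd x]; omega
    obtain ⟨y, hy⟩ := (G.degree_pos_iff_exists_adj x).1 h2
    exact ⟨y, hy⟩
  -- the scale
  obtain ⟨v, hv, hv1, hk0, hk1, hvt⟩ : ∃ v : ℝ, 0 < v ∧ v ≤ 1 ∧ (k = 0 → v ^ 2 = t ^ 3) ∧
      (1 ≤ k → v = 1) ∧ t ^ 2 ≤ v := by
    rcases Nat.eq_zero_or_pos k with hk | hk
    · have hs := Real.sqrt_pos.2 ht
      have hs1 : √t ≤ 1 := Real.sqrt_le_one.2 ht1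
      have hsq : √t ^ 2 = t := Real.sq_sqrt ht.le
      refine ⟨t * √t, by positivity, mul_le_one₀ ht1 hs.le hs1, fun _ => ?_, fun h => by omega, ?_⟩
      · rw [mul_pow, hsq]; ring
      · have : t ≤ √t := by nlinarith
        nlinarith
    · exact ⟨1, one_pos, le_rfl, fun h => by omega, fun _ => rfl, pow_le_one₀ ht.le ht1⟩
  have hX := (H V G θ μ hG hd hμ h0 hθ hθ4 k t v ht ht1 hv hv1 hk0 hk1).1 x y hxy
  have hX' := (H V G θ' μ' hG hd hμ' h0' hθ' hθ4' k t v ht ht1 hv hv1 hk0 hk1).1 x y hxy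
  have hE : EG G θ θ' μ μ' k x t ≤ C' * (C / v + C / v) := by
    have := H' V G θ θ' (fun v om => mI G μ k t v om) (fun v om => mI G μ' k t v om)
      (MI G θ μ k t) (MI G θ' μ' k t) hG hd h0 h1 hθ h0' h1' hθ'
      (isField hG hd hμ h0.le h1 hθ k ht1) (isField hG hd hμ' h0'.le h1' hθ' k ht1) x y hxy
    refine le_trans this ?_
    gcongr
  calc (t / 2) ^ 2 * EG G θ θ' μ μ' k x t ≤ (t / 2) ^ 2 * (C' * (C / v + C / v)) := by gcongr
    _ = (t ^ 2 / v) * (C' * (C + C)) / 4 := by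
        field_simp
        ring
    _ ≤ 1 * (C' * (C + C)) / 4 := by
        gcongr
        rw [div_le_one hv]
        exact hvt
    _ ≤ C' * (C + C) := by
        have : 0 < C' * (C + C) := by positivity
        linarith

end Vale.Agent.P161.EP
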