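import Mathlib
import Vale.Agent.P161.EP.Evol
import Vale.Agent.P161.EP.PointC
import Vale.Agent.P161.EP.PointCrude

/-!
# Module P (Point): the bound of the driving term at a fixed time

Scale `v ∈ (0,1]`: `v² = t³` in round `0`, `v = 1` in the later rounds.  See the notes for the
details (section P).
-/

open MeasureTheory Filter Topology

namespace Vale.Agent.P161.EP

universe u

/-- Uniform bound. -/
theorem point_crude (b : ℕ) (hb : 2 ≤ b) : ∃ C : ℝ, 0 < C ∧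
    ∀ (V : Type u) (G : SimpleGraph V) [G.LocallyFinite] (θ θ' : ℝ) (μ μ' : Measure (V → Bool)),
      G.IsTree → G.IsRegularOfDegree (b + 1) → IsTreeIsing G θ μ → IsTreeIsing G θ' μ' →
      0 < θ → b * θ ^ 2 < 1 → 1 / 4 ≤ b * θ ^ 2 → 0 < θ' → b * θ' ^ 2 < 1 → 1 / 4 ≤ b * θ' ^ 2 →
      ∀ (k : ℕ) (x : V) (t : ℝ), 0 < t → t ≤ 1 → (t / 2) ^ 2 * EG G θ θ' μ μ' k x t ≤ C :=
  point_crude_aux b hb

/-- The bound of the driving term in terms of the mean square difference. -/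
theorem point_bound (b : ℕ) (hb : 2 ≤ b) : ∃ C c : ℝ, 0 < C ∧ 0 < c ∧
    ∀ (V : Type u) (G : SimpleGraph V) [G.LocallyFinite] (θ θ' : ℝ) (μ μ' : Measure (V → Bool)),
      G.IsTree → G.IsRegularOfDegree (b + 1) → IsTreeIsing G θ μ → IsTreeIsing G θ' μ' →
      0 < θ → b * θ ^ 2 < 1 → 1 / 4 ≤ b * θ ^ 2 → 0 < θ' → b * θ' ^ 2 < 1 → 1 / 4 ≤ b * θ' ^ 2 →
      ∀ (k : ℕ) (x y : V) (t v y0 : ℝ), G.Adj x y → 0 < t → t ≤ 1 → 0 < v → v ≤ 1 →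
      (k = 0 → v ^ 2 = t ^ 3) →
      1 - b * θ ^ 2 ≤ c * v → 1 - b * θ' ^ 2 ≤ c * v → 0 < y0 → y0 ≤ 1 →
      YI G μ μ' k x t ≤ 4 * y0 →
      (t / 2) ^ 2 * EG G θ θ' μ μ' k x t ≤ C * (y0 * (1 - Real.log y0)) +
        C / v ^ 4 * ((θ - θ') ^ 2 + |∫ om, lam θ (MI G θ μ k t x y om) ^ 2 ∂(Pu (V × ℕ)) -
          ∫ om, lam θ' (MI G θ' μ' k t x y om) ^ 2 ∂(Pu (V × ℕ))|) := by
  obtain ⟨C, c, hC, hc, H⟩ := exists_good.{u} b hb
  obtain ⟨K, hK, HK⟩ := point_two.{u} b hb C c hC hc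
  refine ⟨K, c, hK, hc, ?_⟩
  intro V G _ θ θ' μ μ' hG hd hμ hμ' h0 hθ hθ4 h0' hθ' hθ4' k x y t v y0 hxy ht ht1 hv hv1 hkv
    hcθ hcθ' hy0 hy1 hY
  have hlt : θ < 1 := by linarith [(PB.theta_le hb h0 hθ).1]
  have hlt' : θ' < 1 := by linarith [(PB.theta_le hb h0' hθ').1]
  have hF := isField hG hd hμ h0.le hlt hθ k ht1
  have hF' := isField hG hd hμ' h0'.le hlt' hθ' k ht1
  have hYy : ∫ om, (mI G μ k t y om - mI G μ' k t y om) ^ 2 ∂(Pu (V × ℕ)) ≤ 4 * y0 := by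
    refine le_of_eq_of_le ?_ hY
    refine integral_vertex hG hd (F := fun v om => (mI G μ k t v om - mI G μ' k t v om) ^ 2)
      (fun g v om => ?_) y x
    show (mI G μ k t (g v) (actLab g om) - mI G μ' k t (g v) (actLab g om)) ^ 2 =
      (mI G μ k t v om - mI G μ' k t v om) ^ 2
    rw [hF.equiv_m g v om, hF'.equiv_m g v om]
  -- the estimate at a scale `w`
  have key : ∀ w : ℝ, 0 < w → w ≤ 1 → (k = 0 → w ^ 2 = t ^ 3) → (1 ≤ k → w = 1) →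
      1 - b * θ ^ 2 ≤ c * w → 1 - b * θ' ^ 2 ≤ c * w →
      (t / 2) ^ 2 * EG G θ θ' μ μ' k x t ≤ K * (y0 * (1 - Real.log y0)) +
        K / w ^ 4 * ((θ - θ') ^ 2 + |∫ om, lam θ (MI G θ μ k t x y om) ^ 2 ∂(Pu (V × ℕ)) -
          ∫ om, lam θ' (MI G θ' μ' k t x y om) ^ 2 ∂(Pu (V × ℕ))|) := by
    intro w hw hw1 hk0 hk1 hcw hcw'
    have hg := (H V G θ μ hG hd hμ h0 hθ hθ4 k t w ht ht1 hw hw1 hk0 hk1).2 hcw
    have hg' := (H V G θ' μ' hG hd hμ' h0' hθ' hθ4' k t w ht ht1 hw hw1 hk0 hk1).2 hcw'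
    have hsc : t ^ 2 * (1 - Real.log w) ≤ 3 * w := by
      refine scale_bound ht ht1 hw ?_
      rcases Nat.eq_zero_or_pos k with hk | hk
      · exact Or.inl (hk0 hk)
      · exact Or.inr (hk1 hk)
    have h1 := HK V G θ θ' (mI G μ k t) (mI G μ' k t) (MI G θ μ k t) (MI G θ' μ' k t) t w y0 x y
      hG hd h0 hθ h0' hθ' hF hF' hg hg' hxy ht ht1 hw hw1 hsc hcw hcw' hy0 hy1 hY hYy
    have hlog : Real.log y0 ≤ 0 := Real.log_nonpos hy0.le hy1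
    have hR : 0 ≤ K * (y0 * (1 - Real.log y0)) +
        K / w ^ 4 * ((θ - θ') ^ 2 + |∫ om, lam θ (MI G θ μ k t x y om) ^ 2 ∂(Pu (V × ℕ)) -
          ∫ om, lam θ' (MI G θ' μ' k t x y om) ^ 2 ∂(Pu (V × ℕ))|) := by
      have h2 : 0 ≤ y0 * (1 - Real.log y0) := mul_nonneg hy0.le (by linarith)
      positivity
    have h2 : t ^ 2 * EG G θ θ' μ μ' k x t ≤ K * (y0 * (1 - Real.log y0)) +
        K / w ^ 4 * ((θ - θ') ^ 2 + |∫ om, lam θ (MI G θ μ k t x y om) ^ 2 ∂(Pu (V × ℕ)) -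
          ∫ om, lam θ' (MI G θ' μ' k t x y om) ^ 2 ∂(Pu (V × ℕ))|) := h1
    have h3 : (t / 2) ^ 2 * EG G θ θ' μ μ' k x t = t ^ 2 * EG G θ θ' μ μ' k x t / 4 := by ring
    rw [h3]
    linarith
  rcases Nat.eq_zero_or_pos k with hk | hk
  · exact key v hv hv1 (fun _ => hkv hk) (fun h => by omega) hcθ hcθ'
  · have hcv : c * v ≤ c * 1 := mul_le_mul_of_nonneg_left hv1 hc.le
    have h1 := key 1 one_pos le_rfl (fun h => by omega) (fun _ => rfl) (hcθ.trans hcv)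
      (hcθ'.trans hcv)
    refine h1.trans (add_le_add le_rfl (mul_le_mul_of_nonneg_right ?_ (by positivity)))
    have hv4 : v ^ 4 ≤ 1 := pow_le_one₀ hv.le hv1
    exact div_le_div_of_nonneg_left hK.le (by positivity) (by rw [one_pow]; exact hv4)

end Vale.Agent.P161.EP
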