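import Mathlib
import Vale.Agent.P161.EP.Osgood
import Vale.Agent.P161.EP.Helly
import Vale.Agent.P161.EP.Mono
import Vale.Agent.P161.EP.Point
import Vale.Agent.P161.EP.ClosingA

/-!
# Module Q (Closing): the two-parameter family is Cauchy

Proof.  `θ_n = (√b)⁻¹ (1 - 1/(n+2))`, a subsequence such that for all `k` the functions
`t ↦ ∫ lam² = p - q` converge for a.e. `t` (`helly`, `exists_mono_decomp`).
`y_N(k,t) = sup_{n,m ≥ N} YI/4`, `y = inf_N y_N`, monotone in `t`, values in `[0,1]`.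
Induction on `k`: `y(k,0) = 0` (`mI_zero`, `mI_succ_zero`); `YI_evolution`, domination by
`point_crude`, for a.e. `s` and every `y0 > y(k,s)` `point_bound` gives
`limsup (s/2)² EG ≤ C y0 (1 - log y0)`, so `y(k,t) ≤ (C/4) ∫₀ᵗ y (1 - log y)`; `osgood`.
-/

open MeasureTheory Filter Topology

namespace Vale.Agent.P161.EP

universe u

variable {V : Type u} {G : SimpleGraph V} [G.LocallyFinite] {b : ℕ}

/-- the approximating parameters -/
noncomputable def thn (b n : ℕ) : ℝ := (√(b : ℝ))⁻¹ * (1 - 1 / ((n : ℝ) + 2))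

theorem thn_pos {b : ℕ} (hb : 2 ≤ b) (n : ℕ) : 0 < thn b n := by
  have hb0 : (0 : ℝ) < b := by exact_mod_cast (by omega : 0 < b)
  have h1 : (1 : ℝ) / ((n : ℝ) + 2) < 1 := by
    rw [div_lt_one (by positivity)]
    have : (0 : ℝ) ≤ n := Nat.cast_nonneg n
    linarith
  exact mul_pos (inv_pos.mpr (Real.sqrt_pos.mpr hb0)) (by linarith)

theorem thn_sq {b : ℕ} (hb : 2 ≤ b) (n : ℕ) :
    (b : ℝ) * thn b n ^ 2 = (1 - 1 / ((n : ℝ) + 2)) ^ 2 := by
  have hb0 : (0 : ℝ) < b := by exact_mod_cast (by omega : 0 < b)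
  rw [thn, mul_pow, inv_pow, Real.sq_sqrt hb0.le, ← mul_assoc, mul_inv_cancel₀ hb0.ne', one_mul]

theorem thn_lt {b : ℕ} (hb : 2 ≤ b) (n : ℕ) : (b : ℝ) * thn b n ^ 2 < 1 := by
  rw [thn_sq hb]
  have hn : (0 : ℝ) ≤ n := Nat.cast_nonneg n
  have h1 : (1 : ℝ) / ((n : ℝ) + 2) ≤ 1 := by
    rw [div_le_one (by positivity)]; linarith
  have h2 : (0 : ℝ) < 1 / ((n : ℝ) + 2) := by positivity
  nlinarith

theorem thn_ge {b : ℕ} (hb : 2 ≤ b) (n : ℕ) : 1 / 4 ≤ (b : ℝ) * thn b n ^ 2 := by
  rw [thn_sq hb]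
  have hn : (0 : ℝ) ≤ n := Nat.cast_nonneg n
  have h1 : (1 : ℝ) / ((n : ℝ) + 2) ≤ 1 / 2 :=
    one_div_le_one_div_of_le (by norm_num) (by linarith)
  nlinarith

theorem thn_tendsto (b : ℕ) : Tendsto (thn b) atTop (𝓝 (√(b : ℝ))⁻¹) := by
  have h1 : Tendsto (fun n : ℕ => (1 : ℝ) / ((n : ℝ) + 2)) atTop (𝓝 0) := by
    refine Tendsto.div_atTop tendsto_const_nhds ?_
    exact tendsto_atTop_add_const_right _ _ tendsto_natCast_atTop_atTop
  have h2 : Tendsto (fun n : ℕ => (√(b : ℝ))⁻¹ * (1 - 1 / ((n : ℝ) + 2))) atTop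
      (𝓝 ((√(b : ℝ))⁻¹ * (1 - 0))) := tendsto_const_nhds.mul (tendsto_const_nhds.sub h1)
  rw [sub_zero, mul_one] at h2
  exact h2

theorem thn_tendsto_sq {b : ℕ} (hb : 2 ≤ b) :
    Tendsto (fun n => 1 - (b : ℝ) * thn b n ^ 2) atTop (𝓝 0) := by
  have hb0 : (0 : ℝ) < b := by exact_mod_cast (by omega : 0 < b)
  have h := (((thn_tendsto b).pow 2).const_mul (b : ℝ)).const_sub 1
  rw [inv_pow, Real.sq_sqrt hb0.le, mul_inv_cancel₀ hb0.ne', sub_self] at h
  exact h

theorem thn_lt_one {b : ℕ} (hb : 2 ≤ b) (n : ℕ) : thn b n < 1 := by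
  have hb2 : (2 : ℝ) ≤ b := by exact_mod_cast hb
  have h := thn_lt hb n
  have h0 := thn_pos hb n
  nlinarith

section YI

variable {θ θ' : ℝ} {μ μ' : Measure (V → Bool)}

omit [G.LocallyFinite] in
theorem YI_nonneg (k : ℕ) (v : V) (t : ℝ) : 0 ≤ YI G μ μ' k v t :=
  integral_nonneg fun _ => sq_nonneg _

theorem YI_le_four (hG : G.IsTree) (hd : G.IsRegularOfDegree (b + 1))
    (hμ : IsTreeIsing G θ μ) (h0 : 0 ≤ θ) (h1 : θ < 1) (hθ : b * θ ^ 2 < 1)
    (hμ' : IsTreeIsing G θ' μ') (h0' : 0 ≤ θ') (h1' : θ' < 1) (hθ' : b * θ' ^ 2 < 1)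
    (k : ℕ) (v : V) {t : ℝ} (ht : t ≤ 1) : YI G μ μ' k v t ≤ 4 := by
  have hc : Countable V := countable_of_locallyFinite hG.connected
  have hF := isField hG hd hμ h0 h1 hθ k ht
  have hF' := isField hG hd hμ' h0' h1' hθ' k ht
  have h4 : ∀ om, (mI G μ k t v om - mI G μ' k t v om) ^ 2 ≤ 4 := by
    intro om
    have ha := abs_le.mp (hF.abs_m v om)
    have hb := abs_le.mp (hF'.abs_m v om)
    nlinarith [ha.1, ha.2, hb.1, hb.2]
  calc YI G μ μ' k v t ≤ ∫ _, (4 : ℝ) ∂(Pu (V × ℕ)) := by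
        refine integral_mono_of_nonneg (Filter.Eventually.of_forall fun _ => sq_nonneg _)
          (integrable_const _) (Filter.Eventually.of_forall h4)
    _ = 4 := by simp

theorem EG_nonneg (k : ℕ) (v : V) (t : ℝ) : 0 ≤ EG G θ θ' μ μ' k v t := by
  refine integral_nonneg fun om => tsum_nonneg fun w => ?_
  positivity

end YI

theorem exists_seq (hG : G.IsTree) (hb : 2 ≤ b) (hd : G.IsRegularOfDegree (b + 1))
    (μ : ℝ → Measure (V → Bool)) (hμ : ∀ θ, 0 ≤ θ → θ < 1 → IsTreeIsing G θ (μ θ)) :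
    ∃ th : ℕ → ℝ, (∀ n, 0 < th n ∧ b * th n ^ 2 < 1) ∧ Tendsto th atTop (𝓝 (√b)⁻¹) ∧
      ∀ (k : ℕ) (v : V) (ε : ℝ), 0 < ε → ∃ N, ∀ n m, N ≤ n → N ≤ m →
        YI G (μ (th n)) (μ (th m)) k v 1 ≤ ε := by
  classical
  have hc : Countable V := countable_of_locallyFinite hG.connected
  have hne : Nonempty V := hG.connected.nonempty
  obtain ⟨e, he⟩ := exists_surjective_nat V
  -- a neighbour of every vertex
  have hnb : ∀ v : V, ∃ w, G.Adj v w := by
    intro v
    have h1 : 0 < G.degree v := by rw [hd v]; omega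
    exact (G.degree_pos_iff_exists_adj v).mp h1
  choose nb hnb using hnb
  have hI : ∀ n, IsTreeIsing G (thn b n) (μ (thn b n)) := fun n =>
    hμ _ (thn_pos hb n).le (thn_lt_one hb n)
  have hdec := fun (n : ℕ) (v : V) (k : ℕ) =>
    exists_mono_decomp hG hb hd (hI n) (thn_pos hb n).le (thn_lt_one hb n) (thn_lt hb n) (hnb v) k
  choose p q hp hq hpq hlam using hdec
  obtain ⟨φ, hφ, F, hF⟩ := helly (J := ℕ × ℕ × Bool)
    (fun n j t => if j.2.2 then p n (e j.1) j.2.1 t else q n (e j.1) j.2.1 t)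
    (by
      intro n j
      rcases j with ⟨i, k, c⟩
      cases c
      · simpa using hq n (e i) k
      · simpa using hp n (e i) k)
    (B := fun _ => 8)
    (by
      intro n j t ht
      rcases j with ⟨i, k, c⟩
      cases c
      · simpa using (hpq n (e i) k t ht).2
      · simpa using (hpq n (e i) k t ht).1)
  set th : ℕ → ℝ := fun n => thn b (φ n) with hth
  have hφt : Tendsto φ atTop atTop := hφ.tendsto_atTop
  have hpos : ∀ n, 0 < th n := fun n => thn_pos hb _
  have hlt : ∀ n, (b : ℝ) * th n ^ 2 < 1 := fun n => thn_lt hb _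
  have hge : ∀ n, 1 / 4 ≤ (b : ℝ) * th n ^ 2 := fun n => thn_ge hb _
  have hlt1 : ∀ n, th n < 1 := fun n => thn_lt_one hb _
  have hIs : ∀ n, IsTreeIsing G (th n) (μ (th n)) := fun n => hI (φ n)
  have htt : Tendsto th atTop (𝓝 (√(b : ℝ))⁻¹) := (thn_tendsto b).comp hφt
  have httsq : Tendsto (fun n => 1 - (b : ℝ) * th n ^ 2) atTop (𝓝 0) := (thn_tendsto_sq hb).comp hφt
  refine ⟨th, fun n => ⟨hpos n, hlt n⟩, htt, ?_⟩
  obtain ⟨C', hC', hcrude⟩ := point_crude.{u} b hb
  obtain ⟨C, c, hC, hc0, hbound⟩ := point_bound.{u} b hb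
  -- initial condition gives the conclusion at time 1
  have step : ∀ (k : ℕ) (v : V),
      (∀ ε : ℝ, 0 < ε → ∃ N, ∀ n m, N ≤ n → N ≤ m → YI G (μ (th n)) (μ (th m)) k v 0 ≤ ε) →
      (∀ ε : ℝ, 0 < ε → ∃ N, ∀ n m, N ≤ n → N ≤ m → YI G (μ (th n)) (μ (th m)) k v 1 ≤ ε) := by
    intro k v hin
    have hprob : ∀ n, IsProbabilityMeasure (μ (th n)) := fun n => (hIs n).isProb
    have hlam' : ∀ᵐ s ∂(volume.restrict (Set.Icc (0 : ℝ) 1)), ∃ l : ℝ, Tendsto (fun n =>
        ∫ om, lam (th n) (MI G (th n) (μ (th n)) k s v (nb v) om) ^ 2 ∂(Pu (V × ℕ))) atTop (𝓝 l) := by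
      obtain ⟨i, hi⟩ := he v
      have h1 := hF (i, k, true)
      have h2 := hF (i, k, false)
      filter_upwards [h1, h2, ae_restrict_mem measurableSet_Icc] with s hs1 hs2 hs
      simp only [if_true, hi] at hs1
      simp only [Bool.false_eq_true, if_false, hi] at hs2
      refine ⟨_, (hs1.sub hs2).congr fun n => ?_⟩
      exact (hlam (φ n) v k s hs).symm
    have hab := closing_abs (a := fun n m t => YI G (μ (th n)) (μ (th m)) k v t / 4)
      (g := fun n m s => ((s / 2) ^ 2 * EG G (th n) (th m) (μ (th n)) (μ (th m)) k v s) / 4)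
      (C := C / 4) (C' := C' / 4) (by positivity) (by positivity)
      (by
        intro n m s hs t ht hst
        have := YI_mono hG hd (hIs n) (hpos n).le (hlt1 n) (hlt n) (hIs m) (hpos m).le (hlt1 m)
          (hlt m) k v hst ht.2
        simp only
        linarith)
      (fun n m t ht => by
        have := YI_nonneg (G := G) (μ := μ (th n)) (μ' := μ (th m)) k v t
        positivity)
      (fun n m t ht => by
        have := YI_le_four hG hd (hIs n) (hpos n).le (hlt1 n) (hlt n) (hIs m) (hpos m).le (hlt1 m)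
          (hlt m) k v ht.2
        linarith)
      (fun n m => by
        have := hprob n
        have := hprob m
        have h1 := measurable_EG (G := G) (θ := th n) (θ' := th m) (μ := μ (th n)) (μ' := μ (th m)) k v
        exact (((measurable_id.div_const 2).pow_const 2).mul h1).div_const 4)
      (fun n m t ht0 ht1 => by
        have h1 := hcrude V G (th n) (th m) (μ (th n)) (μ (th m)) hG hd (hIs n) (hIs m) (hpos n)
          (hlt n) (hge n) (hpos m) (hlt m) (hge m) k v t ht0 ht1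
        have h2 := EG_nonneg (G := G) (θ := th n) (θ' := th m) (μ := μ (th n)) (μ' := μ (th m)) k v t
        have h3 : 0 ≤ (t / 2) ^ 2 * EG G (th n) (th m) (μ (th n)) (μ (th m)) k v t := by positivity
        rw [abs_of_nonneg (by positivity)]
        linarith)
      (fun n m t ht => by
        have := YI_evolution hG hd (hIs n) (hpos n).le (hlt1 n) (hlt n) (hIs m) (hpos m).le (hlt1 m)
          (hlt m) k v ht.1 ht.2
        rw [intervalIntegral.integral_div]
        linarith)
      (by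
        intro ε hε
        obtain ⟨N, hN⟩ := hin ε hε
        refine ⟨N, fun n m hn hm => ?_⟩
        have h1 := hN n m hn hm
        have h2 := YI_nonneg (G := G) (μ := μ (th n)) (μ' := μ (th m)) k v 0
        linarith)
      (by
        have h00 : ∀ᵐ s ∂(volume.restrict (Set.Icc (0 : ℝ) 1)), s ≠ 0 := by
          refine ae_restrict_of_ae ?_
          rw [ae_iff]; simp
        filter_upwards [hlam', ae_restrict_mem measurableSet_Icc, h00] with s hs1 hs hs0
        obtain ⟨l, hl⟩ := hs1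
        intro y0 ε hy0 hy1 hε hN
        obtain ⟨N1, hN1⟩ := hN
        have hspos : 0 < s := lt_of_le_of_ne hs.1 (Ne.symm hs0)
        -- the scale
        obtain ⟨w, hw0, hw1, hwk⟩ : ∃ w : ℝ, 0 < w ∧ w ≤ 1 ∧ (k = 0 → w ^ 2 = s ^ 3) := by
          refine ⟨√(s ^ 3), Real.sqrt_pos.mpr (by positivity), ?_, fun _ => Real.sq_sqrt (by positivity)⟩
          rw [Real.sqrt_le_one]
          exact pow_le_one₀ hs.1 hs.2
        have e1 : ∀ᶠ n in atTop, 1 - (b : ℝ) * th n ^ 2 ≤ c * w :=
          httsq.eventually (ge_mem_nhds (by positivity))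
        have hcau : ∀ δ : ℝ, 0 < δ → ∃ N, ∀ n m, N ≤ n → N ≤ m → (th n - th m) ^ 2 +
            |∫ om, lam (th n) (MI G (th n) (μ (th n)) k s v (nb v) om) ^ 2 ∂(Pu (V × ℕ)) -
              ∫ om, lam (th m) (MI G (th m) (μ (th m)) k s v (nb v) om) ^ 2 ∂(Pu (V × ℕ))| ≤ δ := by
          intro δ hδ
          have hd1 := Metric.tendsto_atTop.mp hl (δ / 4) (by linarith)
          obtain ⟨M1, hM1⟩ := hd1
          set r := min (δ / 4) 1 / 2 with hr
          have hr0 : 0 < r := by rw [hr]; positivity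
          have hr1 : r ≤ δ / 8 := by
            rw [hr]; have := min_le_left (δ / 4) (1 : ℝ); linarith
          have hr2 : r ≤ 1 / 2 := by
            rw [hr]; have := min_le_right (δ / 4) (1 : ℝ); linarith
          obtain ⟨M2, hM2⟩ := Metric.tendsto_atTop.mp htt r hr0
          refine ⟨max M1 M2, fun n m hn hm => ?_⟩
          have a1 := hM1 n ((le_max_left _ _).trans hn)
          have a2 := hM1 m ((le_max_left _ _).trans hm)
          have a3 := hM2 n ((le_max_right _ _).trans hn)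
          have a4 := hM2 m ((le_max_right _ _).trans hm)
          rw [Real.dist_eq] at a1 a2 a3 a4
          have b1 : |th n - th m| ≤ 2 * r := by
            have : th n - th m = (th n - (√(b : ℝ))⁻¹) - (th m - (√(b : ℝ))⁻¹) := by ring
            rw [this]
            exact (abs_sub _ _).trans (by linarith)
          have b2 : (th n - th m) ^ 2 ≤ δ / 4 := by
            rw [← sq_abs]
            have := abs_nonneg (th n - th m)
            nlinarith
          have b3 : |∫ om, lam (th n) (MI G (th n) (μ (th n)) k s v (nb v) om) ^ 2 ∂(Pu (V × ℕ)) -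
              ∫ om, lam (th m) (MI G (th m) (μ (th m)) k s v (nb v) om) ^ 2 ∂(Pu (V × ℕ))| ≤ δ / 2 := by
            have : ∀ x y l : ℝ, x - y = (x - l) - (y - l) := fun x y l => by ring
            rw [this _ _ l]
            exact (abs_sub _ _).trans (by linarith)
          linarith
        obtain ⟨N2, hN2⟩ := eventually_atTop.mp e1
        have hw4 : 0 < w ^ 4 := by positivity
        obtain ⟨N3, hN3⟩ := hcau (ε * w ^ 4 / C) (by positivity)
        refine ⟨max N1 (max N2 N3), fun n m hn hm => ?_⟩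
        have hn1 := (le_max_left _ _).trans hn
        have hn2 := ((le_max_left _ _).trans (le_max_right _ _)).trans hn
        have hn3 := ((le_max_right _ _).trans (le_max_right _ _)).trans hn
        have hm1 := (le_max_left _ _).trans hm
        have hm2 := ((le_max_left _ _).trans (le_max_right _ _)).trans hm
        have hm3 := ((le_max_right _ _).trans (le_max_right _ _)).trans hm
        have hYY : YI G (μ (th n)) (μ (th m)) k v s ≤ 4 * y0 := by
          have := hN1 n m hn1 hm1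
          linarith
        have hB := hbound V G (th n) (th m) (μ (th n)) (μ (th m)) hG hd (hIs n) (hIs m) (hpos n)
          (hlt n) (hge n) (hpos m) (hlt m) (hge m) k v (nb v) s w y0 (hnb v) hspos hs.2 hw0 hw1 hwk
          (hN2 n hn2) (hN2 m hm2) hy0 hy1 hYY
        have hX := hN3 n m hn3 hm3
        have hX2 : C / w ^ 4 * ((th n - th m) ^ 2 +
            |∫ om, lam (th n) (MI G (th n) (μ (th n)) k s v (nb v) om) ^ 2 ∂(Pu (V × ℕ)) -
              ∫ om, lam (th m) (MI G (th m) (μ (th m)) k s v (nb v) om) ^ 2 ∂(Pu (V × ℕ))|) ≤ ε := by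
          calc _ ≤ C / w ^ 4 * (ε * w ^ 4 / C) := mul_le_mul_of_nonneg_left hX (by positivity)
            _ = ε := by field_simp
        have h9 : (s / 2) ^ 2 * EG G (th n) (th m) (μ (th n)) (μ (th m)) k v s ≤
            C * (y0 * (1 - Real.log y0)) + ε := hB.trans (by linarith)
        linarith)
    intro ε hε
    obtain ⟨N, hN⟩ := hab (ε / 4) (by positivity)
    refine ⟨N, fun n m hn hm => ?_⟩
    have := hN n m hn hm
    linarith
  intro k
  induction k with
  | zero =>
    intro v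
    refine step 0 v fun ε hε => ⟨0, fun n m _ _ => ?_⟩
    have : YI G (μ (th n)) (μ (th m)) 0 v 0 = 0 := by
      unfold YI
      simp [mI_zero (hIs n), mI_zero (hIs m)]
    rw [this]
    exact hε.le
  | succ k ih =>
    intro v
    refine step (k + 1) v fun ε hε => ?_
    obtain ⟨N, hN⟩ := ih v ε hε
    refine ⟨N, fun n m hn hm => ?_⟩
    have : YI G (μ (th n)) (μ (th m)) (k + 1) v 0 = YI G (μ (th n)) (μ (th m)) k v 1 := by
      unfold YI
      simp [mI_succ_zero]
    rw [this]
    exact hN n m hn hm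

end Vale.Agent.P161.EP
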