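import Mathlib
import Vale.Agent.P161.EP.Defs

/-!
# Module CV (ConvA): preparations for the converse direction

A uniform `[0,1]` label from a uniform `[-1,1]` label; the averages of the Ising spins at distance
`k` are correlated with the spin at the origin like `θ^k`; arithmetic.
-/

open MeasureTheory Filter Topology

namespace Vale.Agent.P161.EP

universe u

/-- A measurable map that turns the uniform law on `[-1,1]` into the uniform law on `[0,1]`. -/
theorem exists_unif_map : ∃ r : ℝ → unitInterval, Measurable r ∧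
    Measure.map r unif = (volume : Measure unitInterval) := by
  have hr : Measurable fun x : ℝ => (Set.projIcc (0 : ℝ) 1 zero_le_one ((x + 1) / 2)) := by
    have : Continuous fun x : ℝ => (Set.projIcc (0 : ℝ) 1 zero_le_one ((x + 1) / 2)) :=
      continuous_projIcc.comp (by fun_prop)
    exact this.measurable
  refine ⟨fun x => Set.projIcc (0 : ℝ) 1 zero_le_one ((x + 1) / 2), hr, ?_⟩
  refine Measure.ext fun s hs => ?_
  rw [Measure.map_apply hr hs]
  have hset : ((fun x : ℝ => Set.projIcc (0 : ℝ) 1 zero_le_one ((x + 1) / 2)) ⁻¹' s) ∩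
      Set.Icc (-1) 1 = (fun x : ℝ => (1 / 2) * x) ⁻¹'
        ((fun y : ℝ => y + 1 / 2) ⁻¹' (Subtype.val '' s)) := by
    ext x
    simp only [Set.mem_inter_iff, Set.mem_preimage, Set.mem_Icc, Set.mem_image, Subtype.exists,
      exists_and_right, exists_eq_right]
    constructor
    · rintro ⟨h1, h2, h3⟩
      have hx : (1 / 2) * x + 1 / 2 ∈ Set.Icc (0 : ℝ) 1 := ⟨by linarith, by linarith⟩
      refine ⟨hx, ?_⟩
      have e : (x + 1) / 2 = (1 / 2) * x + 1 / 2 := by ring
      rw [e, Set.projIcc_of_mem zero_le_one hx] at h1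
      exact h1
    · rintro ⟨hx, h1⟩
      refine ⟨?_, by linarith [hx.1], by linarith [hx.2]⟩
      have e : (x + 1) / 2 = (1 / 2) * x + 1 / 2 := by ring
      rw [e, Set.projIcc_of_mem zero_le_one (show (1 / 2) * x + 1 / 2 ∈ Set.Icc (0 : ℝ) 1 from hx)]
      exact h1
  unfold unif
  rw [Measure.smul_apply, Measure.restrict_apply (hr hs), hset,
    Real.volume_preimage_mul_left (by norm_num), measure_preimage_add_right]
  have e1 : volume (Subtype.val '' s) = (volume : Measure unitInterval) s := by
    rw [unitInterval.volume_def]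
    rw [Measure.comap_apply _ Subtype.val_injective (fun t ht => ?_) _ hs]
    exact (MeasurableEmbedding.subtype_coe measurableSet_Icc).measurableSet_image.2 ht
  rw [e1, smul_eq_mul, ← mul_assoc]
  have e2 : (2⁻¹ : ENNReal) * ENNReal.ofReal |(1 / 2 : ℝ)⁻¹| = 1 := by
    have : |(1 / 2 : ℝ)⁻¹| = 2 := by norm_num
    rw [this, show ENNReal.ofReal 2 = 2 by simp]
    exact ENNReal.inv_mul_cancel (by norm_num) (by norm_num)
  rw [e2, one_mul]

/-- The label at `v` computed from the labels of `V × ℕ`. -/
def labR {V : Type u} (r : ℝ → unitInterval) (om : V × ℕ → ℝ) (v : V) : unitInterval :=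
  r (om (v, 0))

theorem measurePreserving_labR {V : Type u} {r : ℝ → unitInterval} (hr : Measurable r)
    (hr' : Measure.map r unif = (volume : Measure unitInterval)) :
    MeasurePreserving (labR (V := V) r) (Pu (V × ℕ))
      (Measure.infinitePi fun _ : V => (volume : Measure unitInterval)) := by
  classical
  have hm : Measurable (labR (V := V) r) := by
    refine measurable_pi_lambda _ fun v => ?_
    exact hr.comp (measurable_pi_apply _)
  refine ⟨hm, ?_⟩
  refine Measure.eq_infinitePi _ fun s t ht => ?_
  rw [Measure.map_apply hm (.pi s.countable_toSet fun _ _ => ht _)]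
  have hpre : labR r ⁻¹' ((s : Set V).pi t) =
      ((s.map ⟨fun v => (v, 0), fun v w h => (Prod.mk.inj h).1⟩ : Finset (V × ℕ)) :
        Set (V × ℕ)).pi (fun e => r ⁻¹' (t e.1)) := by
    ext om
    simp only [Set.mem_preimage, Set.mem_pi, Finset.mem_coe, Finset.mem_map, labR]
    constructor
    · rintro h _ ⟨v, hv, rfl⟩
      exact h v hv
    · intro h v hv
      exact h (v, 0) ⟨v, hv, rfl⟩
  rw [hpre]
  unfold Pu
  rw [Measure.infinitePi_pi _ (fun e _ => hr (ht _)), Finset.prod_map]
  refine Finset.prod_congr rfl fun v _ => ?_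
  rw [← hr', Measure.map_apply hr (ht v)]
  rfl

/-! ### Averages of the spins -/

variable {V : Type u} {G : SimpleGraph V} [G.LocallyFinite] {b : ℕ} {θ : ℝ}
  {μ : Measure (V → Bool)}

/-- The normalized sum of the spins at distance `k` from `y`, beyond `y` seen from `x`. -/
noncomputable def Hav (G : SimpleGraph V) [G.LocallyFinite] (b : ℕ) :
    ℕ → V → V → (V → Bool) → ℝ
  | 0, _, y, s => spin (s y)
  | k + 1, x, y, s => (b : ℝ)⁻¹ * nsum G x y fun z => Hav G b k y z s

theorem measurable_spin : Measurable spin := measurable_of_countable _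

theorem measurable_Hav (k : ℕ) (x y : V) : Measurable (Hav G b k x y) := by
  induction k generalizing x y with
  | zero =>
    exact measurable_spin.comp (measurable_pi_apply y)
  | succ k ih =>
    have : Measurable fun s : V → Bool => (b : ℝ)⁻¹ * nsum G x y fun z => Hav G b k y z s := by
      refine measurable_const.mul ?_
      unfold nsum
      refine Finset.measurable_fun_sum _ fun z _ => ?_
      split_ifs
      · exact measurable_const
      · exact ih y z
    exact this

theorem exists_Hav_le (k : ℕ) (x y : V) : ∃ B, ∀ s, |Hav G b k x y s| ≤ B := by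
  induction k generalizing x y with
  | zero => exact ⟨1, fun s => (abs_spin _).le⟩
  | succ k ih =>
    choose B hB using ih
    refine ⟨|(b : ℝ)⁻¹| * ∑ z ∈ G.neighborFinset y, |B y z|, fun s => ?_⟩
    simp only [Hav, nsum]
    rw [abs_mul]
    refine mul_le_mul_of_nonneg_left ?_ (abs_nonneg _)
    refine (Finset.abs_sum_le_sum_abs _ _).trans (Finset.sum_le_sum fun z _ => ?_)
    split_ifs
    · simp
    · exact (hB y z s).trans (le_abs_self _)

omit [G.LocallyFinite] in
/-- The two point function. -/
theorem two_point (hG : G.IsTree) (hμ : IsTreeIsing G θ μ) (y u : V) :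
    ∫ s, spin (s y) * spin (s u) ∂μ = θ ^ G.dist y u := by
  have := hμ.isProb
  induction hn : G.dist y u generalizing y with
  | zero =>
    obtain rfl := (hG.connected.dist_eq_zero_iff).1 hn
    simp [spin_sq]
  | succ n ih =>
    have hne : y ≠ u := by
      rintro rfl
      simp at hn
    obtain ⟨z, hz, hd⟩ := exists_adj_dist hG.connected hne
    have h1 : G.dist z u = n := by omega
    have hyy : G.dist y y < G.dist z y := by
      rw [SimpleGraph.dist_self, SimpleGraph.dist_eq_one_iff_adj.2 hz.symm]
      exact one_pos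
    have h2 := hμ.edge_split y z hz {y} {u} (by simpa using hyy) (by
      intro w hw
      rw [Finset.mem_singleton] at hw
      subst hw
      omega) (fun s => spin (s y)) (fun s => spin (s u))
      (by
        intro s s' hs
        simp only
        rw [hs y (by simp)])
      (by
        intro s s' hs
        simp only
        rw [hs u (by simp)])
    rw [h2, hμ.mean_zero y, ih z h1]
    simp only [spin_sq, integral_const, probReal_univ, smul_eq_mul, mul_one, zero_mul, zero_add]
    rw [pow_succ']

theorem corr_Hav (hG : G.IsTree) (hb : 1 ≤ b) (hd : G.IsRegularOfDegree (b + 1))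
    (hμ : IsTreeIsing G θ μ) (k : ℕ) {x y : V} (h : G.Adj x y) (u : V)
    (hu : u = y ∨ G.dist x u < G.dist y u) :
    ∫ s, Hav G b k x y s * spin (s u) ∂μ = θ ^ (k + G.dist y u) := by
  classical
  have := hμ.isProb
  induction k generalizing x y with
  | zero =>
    simp only [Hav, zero_add]
    exact two_point hG hμ y u
  | succ k ih =>
    have hx : x ∈ G.neighborFinset y := by rw [SimpleGraph.mem_neighborFinset]; exact h.symm
    have hcard : ((G.neighborFinset y).erase x).card = b := by
      rw [Finset.card_erase_of_mem hx, SimpleGraph.card_neighborFinset_eq_degree, hd y]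
      rfl
    have e1 : ∀ s, Hav G b (k + 1) x y s * spin (s u) =
        (b : ℝ)⁻¹ * ∑ z ∈ (G.neighborFinset y).erase x, Hav G b k y z s * spin (s u) := by
      intro s
      simp only [Hav, nsum]
      rw [← Finset.add_sum_erase _ _ hx, if_pos rfl, zero_add, mul_assoc, Finset.sum_mul]
      congr 1
      refine Finset.sum_congr rfl fun z hz => ?_
      rw [if_neg (Finset.ne_of_mem_erase hz)]
    simp only [e1]
    rw [integral_const_mul, integral_finsetSum]
    · have e2 : ∀ z ∈ (G.neighborFinset y).erase x,
          ∫ s, Hav G b k y z s * spin (s u) ∂μ = θ ^ (k + 1 + G.dist y u) := by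
        intro z hz
        have hz1 : G.Adj y z := by
          have := Finset.mem_of_mem_erase hz
          simpa using this
        have hz2 : z ≠ x := Finset.ne_of_mem_erase hz
        have hdz : G.dist z u = G.dist y u + 1 := by
          rcases IsTree.dist_cases hG hz1 u with h1 | h1
          · exfalso
            rcases hu with rfl | hu
            · simp at h1
            · refine hz2 (IsTree.parent_unique hG hz1 h.symm (w := u) (by omega) ?_)
              rcases IsTree.dist_cases hG h u with h3 | h3 <;> omega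
          · exact h1
        rw [ih hz1 (Or.inr (by omega)), hdz]
        congr 1
        omega
      rw [Finset.sum_congr rfl e2, Finset.sum_const, hcard, nsmul_eq_mul, ← mul_assoc]
      have hb0 : (b : ℝ) ≠ 0 := by
        have : (0 : ℝ) < b := by exact_mod_cast hb
        exact this.ne'
      rw [inv_mul_cancel₀ hb0, one_mul]
    · intro z _
      obtain ⟨B, hB⟩ := exists_Hav_le (G := G) (b := b) k y z
      refine Integrable.of_bound (((measurable_Hav k y z).mul
        (measurable_spin.comp (measurable_pi_apply u))).aestronglyMeasurable) B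
        (ae_of_all _ fun s => ?_)
      rw [Real.norm_eq_abs, abs_mul, abs_spin, mul_one]
      exact hB s

/-- The lower bound of the norm of the averages. -/
theorem Hav_sq_ge (hG : G.IsTree) (hb : 1 ≤ b) (hd : G.IsRegularOfDegree (b + 1))
    (hμ : IsTreeIsing G θ μ) (k : ℕ) {x y : V} (h : G.Adj x y) :
    (θ ^ k) ^ 2 ≤ ∫ s, Hav G b k x y s ^ 2 ∂μ := by
  have := hμ.isProb
  have h1 := corr_Hav hG hb hd hμ k h y (Or.inl rfl)
  rw [SimpleGraph.dist_self, add_zero] at h1
  set c := θ ^ k with hc
  obtain ⟨B, hB⟩ := exists_Hav_le (G := G) (b := b) k x y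
  have hmH := measurable_Hav (G := G) (b := b) k x y
  have hms : Measurable fun s : V → Bool => spin (s y) :=
    measurable_spin.comp (measurable_pi_apply y)
  have i1 : Integrable (fun s => Hav G b k x y s ^ 2) μ := by
    refine Integrable.of_bound (hmH.pow_const 2).aestronglyMeasurable (B ^ 2)
      (ae_of_all _ fun s => ?_)
    rw [Real.norm_eq_abs, abs_pow]
    exact pow_le_pow_left₀ (abs_nonneg _) (hB s) 2
  have i2 : Integrable (fun s => Hav G b k x y s * spin (s y)) μ := by
    refine Integrable.of_bound (hmH.mul hms).aestronglyMeasurable B (ae_of_all _ fun s => ?_)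
    rw [Real.norm_eq_abs, abs_mul, abs_spin, mul_one]
    exact hB s
  have h2 : 0 ≤ ∫ s, (Hav G b k x y s - c * spin (s y)) ^ 2 ∂μ :=
    integral_nonneg fun s => sq_nonneg _
  have h3 : ∫ s, (Hav G b k x y s - c * spin (s y)) ^ 2 ∂μ =
      ∫ s, Hav G b k x y s ^ 2 ∂μ - c ^ 2 := by
    have e : ∀ s, (Hav G b k x y s - c * spin (s y)) ^ 2 =
        Hav G b k x y s ^ 2 - 2 * c * (Hav G b k x y s * spin (s y)) + c ^ 2 := by
      intro s
      have := spin_sq (s y)
      linear_combination c ^ 2 * this
    simp only [e]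
    have i3 : Integrable (fun s => 2 * c * (Hav G b k x y s * spin (s y))) μ := i2.const_mul _
    have i4 : Integrable (fun s => Hav G b k x y s ^ 2 -
        2 * c * (Hav G b k x y s * spin (s y))) μ := i1.sub i3
    rw [integral_add i4 (integrable_const _), integral_sub i1 i3, integral_const_mul, h1]
    simp only [integral_const, probReal_univ, smul_eq_mul, one_mul]
    ring
  rw [h3] at h2
  linarith

/-- Arithmetic. -/
theorem le_one_of_pow_le {q B : ℝ} (h : ∀ k : ℕ, q ^ k ≤ B * ((k : ℝ) + 2) ^ 2) : q ≤ 1 := by
  by_contra hq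
  push Not at hq
  have hq0 : 0 < q := by linarith
  have h1 : Tendsto (fun n : ℕ => (n : ℝ) ^ 2 / q ^ n) atTop (𝓝 0) :=
    tendsto_pow_const_div_const_pow_of_one_lt 2 hq
  have h2 : Tendsto (fun n : ℕ => ((n + 2 : ℕ) : ℝ) ^ 2 / q ^ (n + 2)) atTop (𝓝 0) :=
    (tendsto_add_atTop_iff_nat (f := fun n : ℕ => (n : ℝ) ^ 2 / q ^ n) 2).2 h1
  have h3 : Tendsto (fun n : ℕ => (B * q ^ 2) * (((n + 2 : ℕ) : ℝ) ^ 2 / q ^ (n + 2))) atTop
      (𝓝 ((B * q ^ 2) * 0)) := h2.const_mul _
  rw [mul_zero] at h3
  have h4 : ∀ n : ℕ, 1 ≤ (B * q ^ 2) * (((n + 2 : ℕ) : ℝ) ^ 2 / q ^ (n + 2)) := by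
    intro n
    have h5 := h n
    have hqn : 0 < q ^ n := by positivity
    have e : (B * q ^ 2) * (((n + 2 : ℕ) : ℝ) ^ 2 / q ^ (n + 2)) =
        B * ((n : ℝ) + 2) ^ 2 / q ^ n := by
      push_cast
      rw [pow_add]
      field_simp
    rw [e, le_div_iff₀ hqn, one_mul]
    exact h5
  have := ge_of_tendsto' h3 h4
  linarith

end Vale.Agent.P161.EP
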