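import Mathlib
import Vale.Agent.P161.EP.Defs
import Vale.Agent.P161.EP.Trans
import Vale.Agent.P161.EP.TempA
import Vale.Agent.P161.EP.Walsh
import Vale.Agent.P161.EP.Tempered

/-!
# Module B2' (TempAE): the tempered bound for almost surely equivariant families

Same proof as `tempered`; the Walsh coefficients of a.e. equal bounded functions agree.
-/

open MeasureTheory

open scoped ENNReal

namespace Vale.Agent.P161.EP

universe u

variable {V : Type u} {G : SimpleGraph V} [G.LocallyFinite]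

omit [G.LocallyFinite] in
/-- A bounded measurable family which is almost surely invariant under every automorphism. -/
structure IsFamAE (G : SimpleGraph V) (f : V → V → (V × ℕ → ℝ) → ℝ) : Prop where
  meas : ∀ x y, Measurable (f x y)
  bdd : ∃ B, ∀ x y om, |f x y om| ≤ B
  equiv : ∀ (g : G ≃g G) x y, ∀ᵐ om ∂(Pu (V × ℕ)), f (g x) (g y) (actLab g om) = f x y om

omit [G.LocallyFinite] in
theorem IsFamAE.bm {f : V → V → (V × ℕ → ℝ) → ℝ} (hf : IsFamAE G f) (x y : V) : BM (f x y) := by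
  obtain ⟨B, hB⟩ := hf.bdd
  exact ⟨hf.meas x y, B, fun om => hB x y om⟩

theorem bm_Nop {b : ℕ} {f : V → V → (V × ℕ → ℝ) → ℝ} (hf : ∀ x y, BM (f x y)) (x y : V) :
    BM (Nop G b f x y) := by
  classical
  refine ⟨?_, ?_⟩
  · unfold Nop nsum
    refine Measurable.const_mul (Finset.measurable_fun_sum _ fun z _ => ?_) _
    split_ifs
    · exact measurable_const
    · exact (hf y z).1
  · choose B hB using fun z => (hf y z).2
    refine ⟨(b : ℝ)⁻¹ * ∑ z ∈ G.neighborFinset y, |B z|, fun om => ?_⟩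
    unfold Nop nsum
    rw [abs_mul, abs_of_nonneg (by positivity : (0 : ℝ) ≤ (b : ℝ)⁻¹)]
    refine mul_le_mul_of_nonneg_left ?_ (by positivity)
    refine (Finset.abs_sum_le_sum_abs _ _).trans ?_
    refine Finset.sum_le_sum fun z _ => ?_
    split_ifs
    · simp
    · exact (hB z om).trans (le_abs_self _)

theorem bm_iter {b : ℕ} {f : V → V → (V × ℕ → ℝ) → ℝ} (hf : ∀ x y, BM (f x y)) (k : ℕ) :
    ∀ x y, BM ((Nop G b)^[k] f x y) := by
  induction k with
  | zero => exact hf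
  | succ k ih =>
    rw [Function.iterate_succ_apply']
    exact bm_Nop ih

theorem coef_Nop' {b : ℕ} {a : ((V × ℕ → ℝ) → ℝ) → Finset (V × ℕ) → ℝ}
    (h1 : ∀ f g, BM f → BM g → ∀ S, a (fun om => f om + g om) S = a f S + a g S)
    (h2 : ∀ f, BM f → ∀ c S, a (fun om => c * f om) S = c * a f S)
    {f : V → V → (V × ℕ → ℝ) → ℝ} (hf : ∀ x y, BM (f x y)) (x y : V) (S : Finset (V × ℕ)) :
    a (Nop G b f x y) S =
      (b : ℝ)⁻¹ * NB G (fun _ _ => True) (fun x y => a (f x y) S) x y := by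
  classical
  have hz : BM (fun _ : V × ℕ → ℝ => (0 : ℝ)) := ⟨measurable_const, 0, fun _ => by simp⟩
  have hz0 : a (fun _ : V × ℕ → ℝ => (0 : ℝ)) S = 0 := by
    have h3 := h2 _ hz 0 S
    simpa using h3
  have h3 := coef_sum h1 h2 (G.neighborFinset y)
    (fun z om => if z = x then 0 else f y z om) (fun z => by
      by_cases hzx : z = x
      · simp only [if_pos hzx]
        exact hz
      · simp only [if_neg hzx]
        exact hf y z) S
  have e1 : Nop G b f x y = fun om => (b : ℝ)⁻¹ *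
      ∑ z ∈ G.neighborFinset y, if z = x then 0 else f y z om := rfl
  rw [e1, h2 _ h3.1, h3.2]
  congr 1
  unfold NB
  refine Finset.sum_congr rfl fun z _ => ?_
  by_cases hzx : z = x
  · simp only [if_pos hzx]
    exact hz0
  · simp only [if_neg hzx, if_true]

theorem coef_iter' {b : ℕ} {a : ((V × ℕ → ℝ) → ℝ) → Finset (V × ℕ) → ℝ}
    (h1 : ∀ f g, BM f → BM g → ∀ S, a (fun om => f om + g om) S = a f S + a g S)
    (h2 : ∀ f, BM f → ∀ c S, a (fun om => c * f om) S = c * a f S)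
    {f : V → V → (V × ℕ → ℝ) → ℝ} (hf : ∀ x y, BM (f x y)) (k : ℕ) (x y : V)
    (S : Finset (V × ℕ)) :
    a ((Nop G b)^[k] f x y) S =
      ((b : ℝ)⁻¹) ^ k * (NB G (fun _ _ => True))^[k] (fun x y => a (f x y) S) x y := by
  induction k generalizing x y with
  | zero => simp
  | succ k ih =>
    rw [Function.iterate_succ_apply', Function.iterate_succ_apply',
      coef_Nop' h1 h2 (bm_iter hf k), pow_succ', mul_assoc]
    congr 1
    rw [← NB_mul]
    exact NB_congr (R := ℝ) fun z _ _ _ => ih y z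

/-- The coefficients of a.e. equal functions agree. -/
theorem coef_ae {a : ((V × ℕ → ℝ) → ℝ) → Finset (V × ℕ) → ℝ}
    (h1 : ∀ f g, BM f → BM g → ∀ S, a (fun om => f om + g om) S = a f S + a g S)
    (h2 : ∀ f, BM f → ∀ c S, a (fun om => c * f om) S = c * a f S)
    (h3 : ∀ f, BM f → HasSum (fun S => a f S ^ 2) (∫ om, f om ^ 2 ∂(Pu (V × ℕ))))
    {f g : (V × ℕ → ℝ) → ℝ} (hf : BM f) (hg : BM g) (h : f =ᵐ[Pu (V × ℕ)] g)
    (S : Finset (V × ℕ)) : a f S = a g S := by
  obtain ⟨hfm, B, hB⟩ := hf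
  obtain ⟨hgm, B', hB'⟩ := hg
  have hng : BM (fun om => (-1 : ℝ) * g om) := ⟨hgm.const_mul _, B', fun om => by
    show |(-1 : ℝ) * g om| ≤ B'
    rw [neg_one_mul, abs_neg]; exact hB' om⟩
  have hd : BM (fun om => f om + (-1 : ℝ) * g om) := by
    refine ⟨hfm.add hng.1, B + B', fun om => (abs_add_le _ _).trans (add_le_add (hB om) ?_)⟩
    rw [neg_one_mul, abs_neg]; exact hB' om
  have e1 := h1 f _ ⟨hfm, B, hB⟩ hng S
  rw [h2 g ⟨hgm, B', hB'⟩] at e1
  have e2 := h3 _ hd
  have e3 : ∫ om, (f om + (-1 : ℝ) * g om) ^ 2 ∂(Pu (V × ℕ)) = 0 := by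
    rw [integral_congr_ae (g := fun _ => (0 : ℝ))]
    · simp
    · filter_upwards [h] with om hom
      rw [hom]; ring
  rw [e3] at e2
  have e4 := (hasSum_zero_iff_of_nonneg fun S => sq_nonneg _).1 e2
  have e5 := congrFun e4 S
  simp only [Pi.zero_apply] at e5
  have e6 := pow_eq_zero_iff (two_ne_zero) |>.1 e5
  rw [e6] at e1
  linarith

/-- All darts have the same mean. -/
theorem integral_dart_ae (hG : G.IsTree) {d : ℕ} (hd : G.IsRegularOfDegree d)
    {F : V → V → (V × ℕ → ℝ) → ℝ}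
    (hF : ∀ (g : G ≃g G) x y, ∀ᵐ om ∂(Pu (V × ℕ)), F (g x) (g y) (actLab g om) = F x y om)
    {x y x' y' : V} (h : G.Adj x y) (h' : G.Adj x' y') :
    ∫ om, F x y om ∂(Pu (V × ℕ)) = ∫ om, F x' y' om ∂(Pu (V × ℕ)) := by
  obtain ⟨g, hg⟩ := exists_iso_path hG hd (n := 1) (p := fun i => if i = 0 then x else y)
    (q := fun i => if i = 0 then x' else y')
    (fun i hi => by
      obtain rfl : i = 0 := by omega
      simpa using h) (fun i hi => absurd hi (by omega))
    (fun i hi => by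
      obtain rfl : i = 0 := by omega
      simpa using h') (fun i hi => absurd hi (by omega))
  have h0 : g x = x' := by simpa using hg 0 (by omega)
  have h1 : g y = y' := by simpa using hg 1 (by omega)
  rw [← integral_act g (F x' y')]
  subst h0
  subst h1
  exact integral_congr_ae ((hF g x y).mono fun om hom => hom.symm)

theorem tempered_core (hG : G.IsTree) {b : ℕ} (hb : 2 ≤ b) (hd : G.IsRegularOfDegree (b + 1))
    {a : ((V × ℕ → ℝ) → ℝ) → Finset (V × ℕ) → ℝ}
    (ha1 : ∀ f g, BM f → BM g → ∀ S, a (fun om => f om + g om) S = a f S + a g S)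
    (ha2 : ∀ f, BM f → ∀ c S, a (fun om => c * f om) S = c * a f S)
    (ha3 : ∀ f, BM f → HasSum (fun S => a f S ^ 2) (∫ om, f om ^ 2 ∂(Pu (V × ℕ))))
    {f : V → V → (V × ℕ → ℝ) → ℝ} (hf : ∀ x y, BM (f x y))
    (hinv' : ∀ (g : G ≃g G) (S : Finset (V × ℕ)) (x y : V),
      a (f (g x) (g y)) (S.map (Equiv.prodCongr g.toEquiv (Equiv.refl ℕ)).toEmbedding) =
        a (f x y) S)
    (hempty' : ∀ x y, G.Adj x y → a (f x y) ∅ = 0)
    {x y : V} (hxy : G.Adj x y) (k : ℕ) :
    ∫ om, ((Nop G b)^[k] f x y om) ^ 2 ∂(Pu (V × ℕ)) ≤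
      ((k : ℝ) + 2) ^ 2 * b * ((b : ℝ)⁻¹) ^ k * ∫ om, (f x y om) ^ 2 ∂(Pu (V × ℕ)) := by
  classical
  have hbr : (0 : ℝ) < b := by exact_mod_cast (by omega : 0 < b)
  set α : Finset (V × ℕ) → V → V → ℝ := fun S x y => a (f x y) S with hα
  -- invariance of the coefficients
  have hinv : ∀ (g : G ≃g G) (S : Finset (V × ℕ)) (x y : V),
      α (S.map (Equiv.prodCongr g.toEquiv (Equiv.refl ℕ)).toEmbedding) (g x) (g y) = α S x y :=
    hinv'
  -- the empty set
  have hempty : ∀ x y, G.Adj x y → α ∅ x y = 0 := hempty'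
  have hT0 : ∀ k x y, G.Adj x y → (NB G (fun _ _ => True))^[k] (α ∅) x y = 0 := by
    intro k
    induction k with
    | zero => exact hempty
    | succ k ih =>
      intro x y _
      rw [Function.iterate_succ_apply']
      exact NB_zero fun z hz _ _ => ih y z hz
  -- the function `W`
  set W : V → V → V → ℝ≥0∞ := fun x y o =>
    ∑' S, ENNReal.ofReal (wS S o * α S x y ^ 2) with hW
  have hWinv : ∀ (g : G ≃g G) x y o, W (g x) (g y) (g o) = W x y o := by
    intro g x y o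
    simp only [hW]
    rw [← Equiv.tsum_eq (Equiv.finsetCongr (Equiv.prodCongr g.toEquiv (Equiv.refl ℕ)))]
    refine tsum_congr fun S => ?_
    rw [Equiv.finsetCongr_apply]
    have h1 := hinv g S x y
    have h2 := wS_map g.toEquiv S o
    have h3 : wS (S.map (Equiv.prodCongr g.toEquiv (Equiv.refl ℕ)).toEmbedding) (g o) =
      wS S o := h2
    rw [h1, h3]
  have hWtot : ∀ x y, ∑' o, W x y o ≤ ENNReal.ofReal (∫ om, f x y om ^ 2 ∂(Pu (V × ℕ))) := by
    intro x y
    simp only [hW]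
    rw [ENNReal.tsum_comm]
    have h1 := ha3 (f x y) (hf _ _)
    rw [← h1.tsum_eq, ENNReal.ofReal_tsum_of_nonneg (fun S => sq_nonneg _) h1.summable]
    refine ENNReal.tsum_le_tsum fun S => ?_
    have h2 : ∀ o, ENNReal.ofReal (wS S o * α S x y ^ 2) =
        ENNReal.ofReal (wS S o) * ENNReal.ofReal (α S x y ^ 2) :=
      fun o => ENNReal.ofReal_mul (wS_nonneg S o)
    simp only [h2]
    rw [ENNReal.tsum_mul_right]
    exact mul_le_of_le_one_left (zero_le) (tsum_wS_le S)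
  -- pointwise bound for every `S`
  set R : Finset (V × ℕ) → V → ℝ := fun S o => ((k : ℝ) + 1) * ∑ j ∈ Finset.range (k + 1),
      (b : ℝ) ^ (k - j) * (NB G (Tow G o))^[j] ((NB G (Awa G o))^[k - j]
        (fun x y => α S x y ^ 2)) x y with hR
  have hpt : ∀ S, ENNReal.ofReal (((NB G (fun _ _ => True))^[k] (α S) x y) ^ 2) ≤
      ∑' o, ENNReal.ofReal (wS S o * R S o) := by
    intro S
    rcases S.eq_empty_or_nonempty with rfl | hS
    · rw [hT0 k x y hxy]
      simp
    · calc ENNReal.ofReal (((NB G (fun _ _ => True))^[k] (α S) x y) ^ 2) =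
          (∑' o, ENNReal.ofReal (wS S o)) *
            ENNReal.ofReal (((NB G (fun _ _ => True))^[k] (α S) x y) ^ 2) := by
            rw [tsum_wS hS, one_mul]
        _ = ∑' o, ENNReal.ofReal (wS S o *
            ((NB G (fun _ _ => True))^[k] (α S) x y) ^ 2) := by
            rw [← ENNReal.tsum_mul_right]
            exact tsum_congr fun o => (ENNReal.ofReal_mul (wS_nonneg S o)).symm
        _ ≤ _ := by
            refine ENNReal.tsum_le_tsum fun o => ENNReal.ofReal_le_ofReal ?_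
            exact mul_le_mul_of_nonneg_left (point_ineq hG hd (α S) o k hxy) (wS_nonneg S o)
  have hφ : ∀ (S : Finset (V × ℕ)) (x y : V), 0 ≤ α S x y ^ 2 := fun S x y => sq_nonneg _
  have hRe : ∀ S o, ENNReal.ofReal (wS S o * R S o) = ∑ j ∈ Finset.range (k + 1),
      ENNReal.ofReal (((k : ℝ) + 1) * (b : ℝ) ^ (k - j)) * ENNReal.ofReal (wS S o *
        (NB G (Tow G o))^[j] ((NB G (Awa G o))^[k - j] (fun x y => α S x y ^ 2)) x y) := by
    intro S o
    rw [hR]
    simp only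
    rw [Finset.mul_sum, Finset.mul_sum, ENNReal.ofReal_sum_of_nonneg]
    · refine Finset.sum_congr rfl fun j _ => ?_
      rw [← ENNReal.ofReal_mul (by positivity)]
      congr 1
      ring
    · intro j _
      have h1 : 0 ≤ (NB G (Tow G o))^[j] ((NB G (Awa G o))^[k - j]
        (fun x y => α S x y ^ 2)) x y :=
        iter_nonneg (fun x y => iter_nonneg (hφ S) (k - j) x y) j x y
      have h2 := wS_nonneg S o
      positivity
  have hsum : ∑' S, ∑' o, ENNReal.ofReal (wS S o * R S o) ≤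
      ∑ j ∈ Finset.range (k + 1), ENNReal.ofReal (((k : ℝ) + 1) * (b : ℝ) ^ (k - j)) *
        (((b : ℝ≥0∞) ^ (j + 1) + 1) * ENNReal.ofReal (∫ om, f x y om ^ 2 ∂(Pu (V × ℕ)))) := by
    rw [ENNReal.tsum_comm]
    simp only [hRe]
    have h1 : ∀ o, ∑' S : Finset (V × ℕ), ∑ j ∈ Finset.range (k + 1),
        ENNReal.ofReal (((k : ℝ) + 1) * (b : ℝ) ^ (k - j)) * ENNReal.ofReal (wS S o *
          (NB G (Tow G o))^[j] ((NB G (Awa G o))^[k - j] (fun x y => α S x y ^ 2)) x y) =
        ∑ j ∈ Finset.range (k + 1), ENNReal.ofReal (((k : ℝ) + 1) * (b : ℝ) ^ (k - j)) *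
          (TmW G)^[j] ((TpW G)^[k - j] W) x y o := by
      intro o
      rw [Summable.tsum_finsetSum (fun _ _ => ENNReal.summable)]
      refine Finset.sum_congr rfl fun j _ => ?_
      rw [ENNReal.tsum_mul_left, iter_tsum W (c := fun S o => wS S o) wS_nonneg
        (φ := fun S x y => α S x y ^ 2) hφ (fun x y o => rfl)]
    simp only [h1]
    rw [Summable.tsum_finsetSum (fun _ _ => ENNReal.summable)]
    refine Finset.sum_le_sum fun j _ => ?_
    rw [ENNReal.tsum_mul_left]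
    refine mul_le_mul' le_rfl ?_
    refine (mass_bound hG (by omega) hd W hWinv j (k - j) hxy).trans ?_
    exact mul_le_mul' le_rfl (hWtot x y)
  -- the left hand side
  have hF := bm_iter (G := G) (b := b) hf k
  have hL := ha3 _ (hF x y)
  have hcoef : ∀ S, a ((Nop G b)^[k] f x y) S ^ 2 = (((b : ℝ)⁻¹) ^ k) ^ 2 *
      ((NB G (fun _ _ => True))^[k] (α S) x y) ^ 2 := by
    intro S
    rw [coef_iter' ha1 ha2 hf k x y S, mul_pow]
  have hlhs : ENNReal.ofReal (∫ om, ((Nop G b)^[k] f x y om) ^ 2 ∂(Pu (V × ℕ))) =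
      ENNReal.ofReal ((((b : ℝ)⁻¹) ^ k) ^ 2) *
        ∑' S, ENNReal.ofReal (((NB G (fun _ _ => True))^[k] (α S) x y) ^ 2) := by
    rw [← hL.tsum_eq, ENNReal.ofReal_tsum_of_nonneg (fun S => sq_nonneg _) hL.summable,
      ← ENNReal.tsum_mul_left]
    refine tsum_congr fun S => ?_
    rw [hcoef, ENNReal.ofReal_mul (by positivity)]
  set F := ∫ om, f x y om ^ 2 ∂(Pu (V × ℕ)) with hFdef
  have hF0 : 0 ≤ F := integral_nonneg fun om => sq_nonneg _
  -- numerics
  have hgeo : ∀ k : ℕ, ∑ j ∈ Finset.range (k + 1), (b : ℝ) ^ (k - j) ≤ (b : ℝ) ^ (k + 1) := by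
    intro k
    have hb2 : (2 : ℝ) ≤ b := by exact_mod_cast hb
    have e1 : ∑ j ∈ Finset.range (k + 1), (b : ℝ) ^ (k - j) =
        ∑ j ∈ Finset.range (k + 1), (b : ℝ) ^ j := by
      have h1 := Finset.sum_range_reflect (fun j => (b : ℝ) ^ j) (k + 1)
      rw [← h1]
      refine Finset.sum_congr rfl fun j _ => ?_
      congr 1
    rw [e1]
    induction k with
    | zero => simp; linarith
    | succ k ih =>
      rw [Finset.sum_range_succ]
      have h1 : (b : ℝ) ^ (k + 1 + 1) = b * (b : ℝ) ^ (k + 1) := pow_succ' _ _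
      have h2 : 0 < (b : ℝ) ^ (k + 1) := by positivity
      have h3 := ih (by
        have h1 := Finset.sum_range_reflect (fun j => (b : ℝ) ^ j) (k + 1)
        rw [← h1]
        refine Finset.sum_congr rfl fun j _ => ?_
        congr 1)
      nlinarith
  have hfin : ENNReal.ofReal (∫ om, ((Nop G b)^[k] f x y om) ^ 2 ∂(Pu (V × ℕ))) ≤
      ENNReal.ofReal (((k : ℝ) + 2) ^ 2 * b * ((b : ℝ)⁻¹) ^ k * F) := by
    rw [hlhs]
    calc ENNReal.ofReal ((((b : ℝ)⁻¹) ^ k) ^ 2) *
          ∑' S, ENNReal.ofReal (((NB G (fun _ _ => True))^[k] (α S) x y) ^ 2) ≤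
        ENNReal.ofReal ((((b : ℝ)⁻¹) ^ k) ^ 2) *
          ∑ j ∈ Finset.range (k + 1), ENNReal.ofReal (((k : ℝ) + 1) * (b : ℝ) ^ (k - j)) *
          (((b : ℝ≥0∞) ^ (j + 1) + 1) * ENNReal.ofReal F) :=
          mul_le_mul' le_rfl ((ENNReal.tsum_le_tsum hpt).trans hsum)
      _ = ENNReal.ofReal ((((b : ℝ)⁻¹) ^ k) ^ 2 * ∑ j ∈ Finset.range (k + 1),
          (((k : ℝ) + 1) * (b : ℝ) ^ (k - j)) * (((b : ℝ) ^ (j + 1) + 1) * F)) := by
          rw [ENNReal.ofReal_mul (by positivity), ENNReal.ofReal_sum_of_nonneg (fun j _ => by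
            positivity)]
          congr 1
          refine Finset.sum_congr rfl fun j _ => ?_
          rw [ENNReal.ofReal_mul (p := ((k : ℝ) + 1) * (b : ℝ) ^ (k - j))
              (q := ((b : ℝ) ^ (j + 1) + 1) * F) (by positivity),
            ENNReal.ofReal_mul (p := (b : ℝ) ^ (j + 1) + 1) (q := F) (by positivity),
            ENNReal.ofReal_add (p := (b : ℝ) ^ (j + 1)) (q := 1) (by positivity) (by norm_num),
            ENNReal.ofReal_pow (n := j + 1) hbr.le, ENNReal.ofReal_one, ENNReal.ofReal_natCast]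
      _ ≤ _ := by
          refine ENNReal.ofReal_le_ofReal ?_
          have e1 : ∀ j ∈ Finset.range (k + 1), (((k : ℝ) + 1) * (b : ℝ) ^ (k - j)) *
              (((b : ℝ) ^ (j + 1) + 1) * F) =
              ((k : ℝ) + 1) * F * ((b : ℝ) ^ (k + 1) + (b : ℝ) ^ (k - j)) := by
            intro j hj
            rw [Finset.mem_range] at hj
            have h1 : (b : ℝ) ^ (k + 1) = (b : ℝ) ^ (k - j) * (b : ℝ) ^ (j + 1) := by
              rw [← pow_add]
              congr 1
              omega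
            rw [h1]
            ring
          rw [Finset.sum_congr rfl e1, ← Finset.mul_sum, Finset.sum_add_distrib,
            Finset.sum_const, Finset.card_range, nsmul_eq_mul]
          have h2 := hgeo k
          have h3 : (((b : ℝ)⁻¹) ^ k) ^ 2 * (b : ℝ) ^ (k + 1) = b * ((b : ℝ)⁻¹) ^ k := by
            have hb0 : (b : ℝ) ^ k ≠ 0 := by positivity
            rw [inv_pow, pow_succ (b : ℝ) k]
            field_simp
          have hbp : 0 < ((b : ℝ)⁻¹) ^ k := by positivity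
          have h4 : (((k + 1 : ℕ) : ℝ) * (b : ℝ) ^ (k + 1) +
              ∑ j ∈ Finset.range (k + 1), (b : ℝ) ^ (k - j)) ≤ ((k : ℝ) + 2) * (b : ℝ) ^ (k + 1) := by
            push_cast
            linarith
          calc (((b : ℝ)⁻¹) ^ k) ^ 2 * (((k : ℝ) + 1) * F * (((k + 1 : ℕ) : ℝ) * (b : ℝ) ^ (k + 1) +
              ∑ j ∈ Finset.range (k + 1), (b : ℝ) ^ (k - j))) ≤
              (((b : ℝ)⁻¹) ^ k) ^ 2 * (((k : ℝ) + 1) * F * (((k : ℝ) + 2) * (b : ℝ) ^ (k + 1))) := by
                gcongr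
            _ = ((k : ℝ) + 1) * ((k : ℝ) + 2) * F * ((((b : ℝ)⁻¹) ^ k) ^ 2 * (b : ℝ) ^ (k + 1)) := by
                ring
            _ = ((k : ℝ) + 1) * ((k : ℝ) + 2) * F * (b * ((b : ℝ)⁻¹) ^ k) := by rw [h3]
            _ ≤ ((k : ℝ) + 2) * ((k : ℝ) + 2) * F * (b * ((b : ℝ)⁻¹) ^ k) := by
                gcongr
                linarith
            _ = _ := by ring
  exact (ENNReal.ofReal_le_ofReal_iff (by positivity)).1 hfin

theorem tempered_ae (hG : G.IsTree) {b : ℕ} (hb : 2 ≤ b) (hd : G.IsRegularOfDegree (b + 1))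
    {f : V → V → (V × ℕ → ℝ) → ℝ} (hf : IsFamAE G f) {x y : V} (hxy : G.Adj x y)
    (h0 : ∫ om, f x y om ∂(Pu (V × ℕ)) = 0) (k : ℕ) :
    ∫ om, ((Nop G b)^[k] f x y om) ^ 2 ∂(Pu (V × ℕ)) ≤
      ((k : ℝ) + 2) ^ 2 * b * ((b : ℝ)⁻¹) ^ k * ∫ om, (f x y om) ^ 2 ∂(Pu (V × ℕ)) := by
  have : Countable V := countable_of_locallyFinite hG.connected
  obtain ⟨a, ha1, ha2, ha3, ha4, ha5⟩ := exists_walsh V
  refine tempered_core hG hb hd ha1 ha2 ha3 (fun x y => hf.bm x y) ?_ ?_ hxy k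
  · intro g S x y
    have h1 := ha5 (f (g x) (g y)) (hf.bm _ _) g.toEquiv S
    rw [← h1]
    refine coef_ae ha1 ha2 ha3 ?_ (hf.bm _ _) (hf.equiv g x y) S
    obtain ⟨hm, B, hB⟩ := hf.bm (g x) (g y)
    exact ⟨hm.comp (measurePreserving_actLab g).measurable, B, fun om => hB _⟩
  · intro x' y' h'
    rw [ha4 _ (hf.bm _ _), ← h0]
    exact integral_dart_ae hG hd hf.equiv h' hxy

end Vale.Agent.P161.EP
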