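import Mathlib
import Vale.Agent.P161.EP.ConvA
import Vale.Agent.P161.EP.TempAE

/-!
# Module CV (Conv): the converse direction

If the free Ising measure with parameter `θ` on the `(b+1)`-regular tree is a factor of IID then
`b θ² ≤ 1`: by `tempered_ae` the averages of the spins at distance `k` have second moment at most
`(k+2)² b b^{-k}`, and it is at least `θ^{2k}`.
-/

open MeasureTheory Filter Topology

namespace Vale.Agent.P161.EP

universe u

variable {V : Type u} {G : SimpleGraph V} [G.LocallyFinite] {b : ℕ} {θ : ℝ}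
  {μ : Measure (V → Bool)}

theorem Nop_iter_Hav (F : (V × ℕ → ℝ) → (V → Bool)) (k : ℕ) (x y : V) (om : V × ℕ → ℝ) :
    (Nop G b)^[k] (fun _ y om => spin (F om y)) x y om = Hav G b k x y (F om) := by
  induction k generalizing x y with
  | zero => rfl
  | succ k ih =>
    rw [Function.iterate_succ_apply']
    unfold Nop
    simp only [Hav]
    congr 1
    unfold nsum
    refine Finset.sum_congr rfl fun z _ => ?_
    split_ifs
    · rfl
    · exact ih y z

/-- The converse direction. -/
theorem le_one_of_factor (hG : G.IsTree) (hb : 2 ≤ b) (hd : G.IsRegularOfDegree (b + 1))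
    (hμ : IsTreeIsing G θ μ) (hF : IsFactorOfIID G μ) : b * θ ^ 2 ≤ 1 := by
  have := hμ.isProb
  obtain ⟨Φ, hΦm, hΦe, hΦl⟩ := hF
  obtain ⟨r, hr, hr'⟩ := exists_unif_map
  have hlab := measurePreserving_labR (V := V) hr hr'
  -- a dart
  obtain ⟨x⟩ := hG.connected.nonempty
  obtain ⟨y, hxy⟩ : ∃ y, G.Adj x y := by
    have h2 : 0 < G.degree x := by rw [hd x]; omega
    obtain ⟨y, hy⟩ := (G.degree_pos_iff_exists_adj x).1 h2
    exact ⟨y, hy⟩
  set F : (V × ℕ → ℝ) → (V → Bool) := fun om => Φ (labR r om) with hFdef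
  have hFm : Measurable F := hΦm.comp hlab.measurable
  have hFl : (Pu (V × ℕ)).map F = μ := by
    have h1 : (Pu (V × ℕ)).map F = ((Pu (V × ℕ)).map (labR r)).map Φ :=
      (Measure.map_map hΦm hlab.measurable).symm
    rw [h1, hlab.map_eq, hΦl]
  have hint : ∀ H : (V → Bool) → ℝ, Measurable H →
      ∫ om, H (F om) ∂(Pu (V × ℕ)) = ∫ s, H s ∂μ := by
    intro H hH
    rw [← hFl, integral_map hFm.aemeasurable hH.aestronglyMeasurable]
  -- the family of spins
  have hfam : IsFamAE G (fun _ y om => spin (F om y)) := by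
    refine ⟨fun x y => ?_, ⟨1, fun x y om => (abs_spin _).le⟩, fun g x y => ?_⟩
    · exact measurable_spin.comp ((measurable_pi_apply y).comp hFm)
    · have h1 := hlab.quasiMeasurePreserving.ae (hΦe g)
      filter_upwards [h1] with om hom
      have h2 : labR r (actLab g om) = act g (labR r om) := rfl
      have h3 : F (actLab g om) (g y) = F om y := by
        simp only [hFdef]
        rw [h2, hom]
        unfold act
        rw [RelIso.symm_apply_apply]
      rw [h3]
  have hmean : ∫ om, spin (F om y) ∂(Pu (V × ℕ)) = 0 := by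
    rw [hint (fun s => spin (s y)) (measurable_spin.comp (measurable_pi_apply y))]
    exact hμ.mean_zero y
  have hsq : ∫ om, spin (F om y) ^ 2 ∂(Pu (V × ℕ)) = 1 := by
    have e : ∀ om, spin (F om y) ^ 2 = 1 := fun om => by rw [sq, spin_sq]
    simp only [e]
    simp
  have hbr : (0 : ℝ) < b := by exact_mod_cast (by omega : 0 < b)
  refine le_one_of_pow_le (B := b) fun k => ?_
  have h1 := tempered_ae hG hb hd hfam hxy hmean k
  have h2 := Hav_sq_ge hG (by omega) hd hμ k hxy
  have h3 : ∫ om, ((Nop G b)^[k] (fun _ y om => spin (F om y)) x y om) ^ 2 ∂(Pu (V × ℕ)) =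
      ∫ s, Hav G b k x y s ^ 2 ∂μ := by
    simp only [Nop_iter_Hav]
    exact hint (fun s => Hav G b k x y s ^ 2) ((measurable_Hav k x y).pow_const 2)
  rw [h3] at h1
  simp only [hsq, mul_one] at h1
  have h4 : (θ ^ k) ^ 2 ≤ ((k : ℝ) + 2) ^ 2 * b * ((b : ℝ)⁻¹) ^ k := h2.trans h1
  have hbk : (0 : ℝ) < (b : ℝ) ^ k := by positivity
  calc (b * θ ^ 2) ^ k = (b : ℝ) ^ k * (θ ^ k) ^ 2 := by
        rw [mul_pow, ← pow_mul, ← pow_mul, mul_comm 2 k]
    _ ≤ (b : ℝ) ^ k * (((k : ℝ) + 2) ^ 2 * b * ((b : ℝ)⁻¹) ^ k) := by gcongr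
    _ = b * ((k : ℝ) + 2) ^ 2 := by
        rw [inv_pow]
        field_simp

end Vale.Agent.P161.EP
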