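import Mathlib
import Vale.Agent.P161.Ising
import Vale.Agent.P161.Hlaw
import Vale.Agent.P161.EP.SampF

/-!
# Module K1 (FinalA): continuity of the marginals in `θ`; decoding

`tendsto_integral_treeIsing`: `IsTreeIsing.isFreeIsing`, enlarge `A` to a connected finite set (a
ball), the cylinder probabilities are polynomials in `θ`.
`decode_chan`: `s_(v,k) = T (gs(u_k) σ) (x_k)`, `k ∈ ℕ`, i.i.d. given `σ = spin σ_v`, bounded, mean
`σ E gs / 3 = σ / 24`; follow `lln_T` (LLN.lean) and `decode_obs` (Hlaw.lean).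
-/

open MeasureTheory ProbabilityTheory Filter Topology

namespace Vale.Agent.P161.EP

universe u

variable {V : Type u} {G : SimpleGraph V} [G.LocallyFinite] {b : ℕ}

namespace FinalA

/-- Extension of a configuration on `D`. -/
noncomputable def ext (D : Finset V) (y : D → Bool) (v : V) : Bool :=
  open Classical in if h : v ∈ D then y ⟨v, h⟩ else false

omit [G.LocallyFinite] in
theorem wprod_continuous (D : Finset V) (η : V → Bool) :
    Continuous fun θ : ℝ => wprod G θ D η := by
  classical
  unfold wprod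
  refine continuous_finsetProd _ fun e _ => ?_
  induction e using Sym2.ind with
  | _ a b =>
    unfold edgeWeight
    simp only [Sym2.lift_mk]
    fun_prop

open Classical in
theorem expand (D : Finset V) {f : (V → Bool) → ℝ} (hf : DependsOn f (D : Set V))
    (s : V → Bool) : f s = ∑ y : D → Bool, f (ext D y) * ind D (ext D y) s := by
  rw [Finset.sum_eq_single (fun v : D => s v)]
  · have h1 : ∀ v ∈ D, s v = ext D (fun v : D => s v) v := by
      intro v hv
      unfold ext
      rw [dif_pos hv]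
    have h2 : ind D (ext D fun v : D => s v) s = 1 := by
      unfold ind
      rw [if_pos h1]
    rw [h2, mul_one]
    exact hf fun v hv => h1 v (by simpa using hv)
  · intro y _ hy
    have h2 : ind D (ext D y) s = 0 := by
      unfold ind
      rw [if_neg]
      intro hcon
      apply hy
      funext v
      have := hcon v v.2
      unfold ext at this
      rw [dif_pos v.2] at this
      exact this.symm
    rw [h2, mul_zero]
  · intro h
    exact absurd (Finset.mem_univ _) h

open Classical in
omit [G.LocallyFinite] in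
theorem integral_eq (hG : G.IsTree) {θ : ℝ} {μ : Measure (V → Bool)} (hμ : IsTreeIsing G θ μ)
    (D : Finset V) (hD : (G.induce (D : Set V)).Connected) {f : (V → Bool) → ℝ}
    (hf : DependsOn f (D : Set V)) :
    ∫ s, f s ∂μ = ∑ y : D → Bool, f (ext D y) * (1 / 2 * wprod G θ D (ext D y)) := by
  have := hμ.isProb
  have h1 : ∀ s, f s = ∑ y : D → Bool, f (ext D y) * ind D (ext D y) s := expand D hf
  rw [integral_congr_ae (Eventually.of_forall h1), integral_finsetSum]
  · refine Finset.sum_congr rfl fun y _ => ?_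
    rw [integral_const_mul]
    congr 1
    obtain ⟨⟨r, hr⟩⟩ := hD.nonempty
    have hcard : D.card = (D.card - 1) + 1 := by
      have : 0 < D.card := Finset.card_pos.2 ⟨r, hr⟩
      omega
    exact integral_ind hG hμ (ext D y) r (D.card - 1) D hcard hr (fun x hx hxr =>
      exists_parent_mem hG hD hr hx hxr)
  · intro y _
    exact (integrable_of_dependsOn μ _ D (dependsOn_ind D _)).const_mul _

end FinalA

open FinalA

/-- Finite dimensional marginals depend continuously on the parameter. -/
theorem tendsto_integral_treeIsing (hG : G.IsTree) {th : ℕ → ℝ} {θ : ℝ}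
    {μ : ℕ → Measure (V → Bool)} {μc : Measure (V → Bool)}
    (hμ : ∀ n, IsTreeIsing G (th n) (μ n)) (hμc : IsTreeIsing G θ μc)
    (hth : Tendsto th atTop (𝓝 θ)) (A : Finset V) {f : (V → Bool) → ℝ}
    (hf : DependsOn f (A : Set V)) :
    Tendsto (fun n => ∫ σ, f σ ∂(μ n)) atTop (𝓝 (∫ σ, f σ ∂μc)) := by
  classical
  obtain ⟨o⟩ := hG.connected.nonempty
  obtain ⟨D, hD1, hD2⟩ := SimpleGraph.extend_finset_to_connected hG.connected.preconnected
    (t := insert o A) ⟨o, Finset.mem_insert_self _ _⟩
  have hAD : A ⊆ D := (Finset.subset_insert _ _).trans hD1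
  have hfD : DependsOn f (D : Set V) := hf.mono (by exact_mod_cast hAD)
  simp only [fun n => integral_eq hG (hμ n) D hD2 hfD, integral_eq hG hμc D hD2 hfD]
  refine tendsto_finsetSum _ fun y _ => Tendsto.const_mul _ (Tendsto.const_mul _ ?_)
  exact ((wprod_continuous D (FinalA.ext D y)).tendsto θ).comp hth

namespace FinalA

/-- the mean of the strengths is positive -/
theorem integral_gs_pos : 0 < ∫ x, gs x ∂unif := by
  have h0 : ∀ x, 0 ≤ gs x := gs_nonneg
  rw [integral_pos_iff_support_of_nonneg h0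
    (Integrable.of_bound measurable_gs.aestronglyMeasurable (1 / 2) (Eventually.of_forall fun x => by
      rw [Real.norm_eq_abs, abs_of_nonneg (gs_nonneg x)]; exact (gs_lt x).le))]
  have hsub : Set.Ioo (-1 : ℝ) 0 ⊆ Function.support gs := by
    intro x hx
    rw [Function.mem_support]
    unfold gs
    rw [if_pos hx.2, max_eq_right (by linarith [hx.1])]
    have := hx.1
    intro h
    linarith
  refine lt_of_lt_of_le ?_ (measure_mono hsub)
  have hset : Set.Ioo (-1 : ℝ) 0 ∩ Set.Icc (-1) 1 = Set.Ioo (-1) 0 := by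
    rw [Set.inter_eq_left]
    intro x hx
    exact ⟨hx.1.le, hx.2.le.trans (by norm_num)⟩
  unfold unif
  rw [Measure.smul_apply, Measure.restrict_apply measurableSet_Ioo, hset, Real.volume_Ioo]
  simp

/-- the observation as a function of the pair of labels -/
noncomputable def obsF (σ : ℝ) (p : ℝ × ℝ) : ℝ := T (gs p.1 * σ) p.2

theorem measurable_obsF (σ : ℝ) : Measurable (obsF σ) := by
  unfold obsF
  exact measurable_T.comp (((measurable_gs.comp measurable_fst).mul measurable_const).prodMk
    measurable_snd)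

theorem abs_gs_mul_lt {σ : ℝ} (hσ : |σ| = 1) (x : ℝ) : |gs x * σ| < 1 := by
  rw [abs_mul, hσ, mul_one, abs_of_nonneg (gs_nonneg x)]
  linarith [gs_lt x]

theorem abs_obsF {σ : ℝ} (hσ : |σ| = 1) (p : ℝ × ℝ) : |obsF σ p| ≤ 1 :=
  abs_T_le (abs_gs_mul_lt hσ p.1) p.2

theorem integral_obsF {σ : ℝ} (hσ : |σ| = 1) :
    ∫ p, obsF σ p ∂(unif.prod unif) = σ * (∫ x, gs x ∂unif) / 3 := by
  have hi : Integrable (obsF σ) (unif.prod unif) :=
    Integrable.of_bound (measurable_obsF σ).aestronglyMeasurable 1
      (Eventually.of_forall fun p => by rw [Real.norm_eq_abs]; exact abs_obsF hσ p)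
  rw [integral_prod _ hi]
  have h1 : ∀ x, ∫ y, obsF σ (x, y) ∂unif = gs x * (σ / 3) := by
    intro x
    unfold obsF
    rw [integral_T_id (abs_gs_mul_lt hσ x)]
    ring
  simp only [h1]
  rw [integral_mul_const]
  ring

variable {Q : Type*}

theorem lln_pair [Countable V] {σ : ℝ} (hσ : |σ| = 1) (v : V) :
    ∀ᵐ om ∂(Pu (V × ℕ)),
      Tendsto (fun K : ℕ => (∑ k ∈ Finset.range K, obsF σ (om (v, 2 * k), om (v, 2 * k + 1))) /
        (K : ℝ)) atTop (𝓝 (σ * (∫ x, gs x ∂unif) / 3)) := by
  classical
  set P : Measure (V × ℕ → ℝ) := Pu (V × ℕ) with hP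
  have hiInd : iIndepFun (fun (i : V × ℕ) (ω : V × ℕ → ℝ) ↦ (fun x : ℝ => x) (ω i)) P :=
    iIndepFun_infinitePi (P := fun _ : V × ℕ => unif) (X := fun _ x => x)
      (fun _ => measurable_id)
  have hmeas : ∀ i : V × ℕ, Measurable (fun (ω : V × ℕ → ℝ) ↦ (fun x : ℝ => x) (ω i)) :=
    fun i => measurable_pi_apply i
  -- the law of a pair
  have hlaw : ∀ k : ℕ, P.map (fun om : V × ℕ → ℝ => (om (v, 2 * k), om (v, 2 * k + 1)))
      = unif.prod unif := by
    intro k
    have hne : ((v, 2 * k) : V × ℕ) ≠ (v, 2 * k + 1) := by simp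
    have h1 := hiInd.indepFun hne
    have h2 := (indepFun_iff_map_prod_eq_prod_map_map (measurable_pi_apply _).aemeasurable
      (measurable_pi_apply _).aemeasurable).1 h1
    rw [(measurePreserving_eval_Pu ((v, 2 * k) : V × ℕ)).map_eq,
      (measurePreserving_eval_Pu ((v, 2 * k + 1) : V × ℕ)).map_eq] at h2
    exact h2
  have hpm : ∀ k : ℕ, Measurable (fun om : V × ℕ → ℝ => (om (v, 2 * k), om (v, 2 * k + 1))) :=
    fun k => (measurable_pi_apply _).prodMk (measurable_pi_apply _)
  have hXm : ∀ k : ℕ, Measurable (fun om : V × ℕ → ℝ =>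
      obsF σ (om (v, 2 * k), om (v, 2 * k + 1))) := fun k => (measurable_obsF σ).comp (hpm k)
  have hint : Integrable (fun om : V × ℕ → ℝ => obsF σ (om (v, 2 * 0), om (v, 2 * 0 + 1))) P :=
    Integrable.of_bound (hXm 0).aestronglyMeasurable 1
      (Eventually.of_forall fun p => by rw [Real.norm_eq_abs]; exact abs_obsF hσ _)
  have hident : ∀ k : ℕ, IdentDistrib (fun om : V × ℕ → ℝ =>
      obsF σ (om (v, 2 * k), om (v, 2 * k + 1)))
      (fun om : V × ℕ → ℝ => obsF σ (om (v, 2 * 0), om (v, 2 * 0 + 1))) P P := by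
    intro k
    have h1 : IdentDistrib (fun om : V × ℕ → ℝ => (om (v, 2 * k), om (v, 2 * k + 1)))
        (fun om : V × ℕ → ℝ => (om (v, 2 * 0), om (v, 2 * 0 + 1))) P P := by
      refine ⟨(hpm k).aemeasurable, (hpm 0).aemeasurable, ?_⟩
      rw [hlaw k, hlaw 0]
    exact h1.comp (measurable_obsF σ)
  have hpair : Pairwise (Function.onFun (fun X Y => IndepFun X Y P)
      (fun (k : ℕ) (om : V × ℕ → ℝ) => obsF σ (om (v, 2 * k), om (v, 2 * k + 1)))) := by
    intro i j hij
    have h1 := hiInd.indepFun_prodMk_prodMk hmeas (v, 2 * i) (v, 2 * i + 1) (v, 2 * j)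
      (v, 2 * j + 1)
      (by intro h; have := congrArg Prod.snd h; simp at this; omega)
      (by intro h; have := congrArg Prod.snd h; simp at this; omega)
      (by intro h; have := congrArg Prod.snd h; simp at this; omega)
      (by intro h; have := congrArg Prod.snd h; simp at this; omega)
    exact h1.comp (measurable_obsF σ) (measurable_obsF σ)
  have h := strong_law_ae_real (μ := P) (fun (k : ℕ) (om : V × ℕ → ℝ) =>
    obsF σ (om (v, 2 * k), om (v, 2 * k + 1))) hint hpair hident
  have hval : ∫ om : V × ℕ → ℝ, obsF σ (om (v, 2 * 0), om (v, 2 * 0 + 1)) ∂P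
      = σ * (∫ x, gs x ∂unif) / 3 := by
    rw [← integral_obsF hσ, ← hlaw 0, integral_map (hpm 0).aemeasurable
      (measurable_obsF σ).aestronglyMeasurable]
  rw [hval] at h
  exact h

end FinalA

/-- The law of large numbers for the observations. -/
theorem decode_chan [Countable V] {μ : Measure (V → Bool)} [IsProbabilityMeasure μ] :
    ∀ᵐ p ∂(μ.prod (Pu (V × ℕ))), decode (chan p) = p.1 := by
  have h2 : ∀ᵐ u ∂(Pu (V × ℕ)), ∀ s : Bool, ∀ v : V,
      Tendsto (fun K : ℕ => (∑ k ∈ Finset.range K,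
        obsF (spin s) (u (v, 2 * k), u (v, 2 * k + 1))) / (K : ℝ)) atTop
        (𝓝 (spin s * (∫ x, gs x ∂unif) / 3)) := by
    rw [ae_all_iff]
    intro s
    rw [ae_all_iff]
    intro v
    exact lln_pair (abs_spin s) v
  have h3 : ∀ᵐ p ∂(μ.prod (Pu (V × ℕ))), ∀ s : Bool, ∀ v : V,
      Tendsto (fun K : ℕ => (∑ k ∈ Finset.range K,
        obsF (spin s) (p.2 (v, 2 * k), p.2 (v, 2 * k + 1))) / (K : ℝ)) atTop
        (𝓝 (spin s * (∫ x, gs x ∂unif) / 3)) :=
    (Measure.quasiMeasurePreserving_snd (μ := μ) (ν := Pu (V × ℕ))).ae h2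
  filter_upwards [h3] with p hp
  funext v
  unfold decode
  have h4 : limsup (fun K : ℕ => (∑ k ∈ Finset.range K, chan p (v, k)) / (K : ℝ)) atTop =
      spin (p.1 v) * (∫ x, gs x ∂unif) / 3 := (hp (p.1 v) v).limsup_eq
  rw [h4]
  have hpos := integral_gs_pos
  cases hv : p.1 v with
  | true =>
    have : 0 < spin true * (∫ x, gs x ∂unif) / 3 := by
      rw [spin_true]; linarith
    simp only [this, decide_true]
  | false =>
    have : ¬ 0 < spin false * (∫ x, gs x ∂unif) / 3 := by
      rw [spin_false]; linarith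
    simp only [this, decide_false]

end Vale.Agent.P161.EP
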