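import Mathlib
import Vale.Agent.P161.EP.Closing
import Vale.Agent.P161.EP.FinalA
import Vale.Agent.P161.Ising
import Vale.Agent.P161.Limit

/-!
# Module K2 (FinalB): from the Cauchy property of the subcritical systems to the endpoint
-/

open MeasureTheory Filter Topology

namespace Vale.Agent.P161.EP

universe u

variable {V : Type u} {G : SimpleGraph V}

/-- An everywhere equivariant measurable map of the labels whose decoded law is `μ`. -/
theorem isFactorOfIID_of_map [Countable V] {μ : Measure (V → Bool)}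
    {s : (V × ℕ → ℝ) → (V × ℕ → ℝ)} (hs : Measurable s)
    (hact : ∀ (g : G ≃g G) om v k, s (actLab g om) (g v, k) = s om (v, k))
    (hlaw : (Pu (V × ℕ)).map (fun om => decode (s om)) = μ) : IsFactorOfIID G μ := by
  obtain ⟨h, hm, hh⟩ := exists_labels V
  have hlab : Measurable (fun (U : V → unitInterval) (e : V × ℕ) => h (U e.1) e.2) := by
    apply measurable_pi_lambda
    intro e
    exact (measurable_pi_apply e.2).comp (hm.comp (measurable_pi_apply e.1))
  have hdec : Measurable (fun om : V × ℕ → ℝ => decode (s om)) :=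
    measurable_decode.comp hs
  have hact' : ∀ (g : G ≃g G) om v k, s (actLab g om) (v, k) = s om (g.symm v, k) := by
    intro g om v k
    have := hact g om (g.symm v) k
    rwa [RelIso.apply_symm_apply] at this
  refine ⟨fun U => decode (s (fun e => h (U e.1) e.2)), hdec.comp hlab, ?_, ?_⟩
  · intro g
    refine ae_of_all _ fun U => ?_
    funext v
    have h1 : (fun e : V × ℕ => h (act g U e.1) e.2) =
        actLab g (fun e : V × ℕ => h (U e.1) e.2) := rfl
    change decode (s (fun e : V × ℕ => h (act g U e.1) e.2)) v =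
      decode (s (fun e : V × ℕ => h (U e.1) e.2)) (g.symm v)
    rw [h1]
    unfold decode
    simp_rw [hact']
  · have h2 : (fun U : V → unitInterval => decode (s (fun e => h (U e.1) e.2))) =
        (fun om : V × ℕ → ℝ => decode (s om)) ∘
          (fun (U : V → unitInterval) (e : V × ℕ) => h (U e.1) e.2) := rfl
    rw [h2, ← Measure.map_map hdec hlab, hh, hlaw]

variable [G.LocallyFinite] {b : ℕ}

/-- The marginal law of the observations at a subcritical parameter. -/
theorem law_sI_snd (hG : G.IsTree) (hd : G.IsRegularOfDegree (b + 1)) {θ : ℝ}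
    {μ : Measure (V → Bool)} (hμ : IsTreeIsing G θ μ) (h0 : 0 ≤ θ) (h1 : θ < 1)
    (hθ : b * θ ^ 2 < 1) :
    (Pu (V × ℕ)).map (fun om => fun e => sI G μ om e) = (μ.prod (Pu (V × ℕ))).map chan := by
  have hc : Countable V := countable_of_locallyFinite hG.connected
  have hp := hμ.isProb
  have huLm : Measurable (uL : (V × ℕ → ℝ) → (V × ℕ → ℝ)) :=
    measurable_pi_lambda _ fun e => measurable_uL e
  have hsm : Measurable (fun om : V × ℕ → ℝ => fun e => sI G μ om e) :=
    measurable_pi_lambda _ fun e => measurable_sI e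
  have h := congrArg (fun ν : Measure ((V × ℕ → ℝ) × (V × ℕ → ℝ)) => ν.map Prod.snd)
    (law_sI hG hd hμ h0 h1 hθ)
  have h2 : Measurable fun p : (V → Bool) × (V × ℕ → ℝ) => (uL p.2, chan p) :=
    (huLm.comp measurable_snd).prodMk measurable_chan
  rw [Measure.map_map measurable_snd (huLm.prodMk hsm), Measure.map_map measurable_snd h2] at h
  exact h

/-- If observations of the approximating systems converge a.s., the law of the limit is the law
of the noisy observations of the limiting system. -/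
theorem law_limit (hG : G.IsTree) (hd : G.IsRegularOfDegree (b + 1)) {th : ℕ → ℝ} {θ : ℝ}
    {μ : ℕ → Measure (V → Bool)} {μc : Measure (V → Bool)}
    (hμ : ∀ n, IsTreeIsing G (th n) (μ n)) (hμc : IsTreeIsing G θ μc)
    (h0 : ∀ n, 0 ≤ th n) (h1 : ∀ n, th n < 1) (hθ : ∀ n, b * th n ^ 2 < 1)
    (hth : Tendsto th atTop (𝓝 θ)) {s : (V × ℕ → ℝ) → (V × ℕ → ℝ)} (hs : Measurable s)
    (hconv : ∀ᵐ om ∂(Pu (V × ℕ)), ∀ e, Tendsto (fun n => sI G (μ n) om e) atTop (𝓝 (s om e))) :
    (Pu (V × ℕ)).map s = (μc.prod (Pu (V × ℕ))).map chan := by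
  have hc : Countable V := countable_of_locallyFinite hG.connected
  have hpc := hμc.isProb
  have hp : ∀ n, IsProbabilityMeasure (μ n) := fun n => (hμ n).isProb
  have hom : Measurable (chan : (V → Bool) × (V × ℕ → ℝ) → _) := measurable_chan
  have : IsProbabilityMeasure ((μc.prod (Pu (V × ℕ))).map chan) :=
    Measure.isProbabilityMeasure_map hom.aemeasurable
  have hlim2 : IsProjectiveLimit ((μc.prod (Pu (V × ℕ))).map chan)
      (fun I : Finset (V × ℕ) => ((μc.prod (Pu (V × ℕ))).map chan).map I.restrict) :=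
    fun I => rfl
  refine IsProjectiveLimit.unique (P := fun I : Finset (V × ℕ) =>
    ((μc.prod (Pu (V × ℕ))).map chan).map I.restrict) ?_ hlim2
  intro I
  have : IsProbabilityMeasure ((Pu (V × ℕ)).map s) :=
    Measure.isProbabilityMeasure_map hs.aemeasurable
  refine ext_of_forall_integral_eq_of_IsFiniteMeasure fun f => ?_
  have hfm : Measurable f := f.continuous.measurable
  have hfI : Measurable (fun x : V × ℕ → ℝ => f (I.restrict x)) :=
    hfm.comp (Finset.measurable_restrict I)
  rw [integral_map (Finset.measurable_restrict I).aemeasurable hfm.aestronglyMeasurable,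
    integral_map (Finset.measurable_restrict I).aemeasurable hfm.aestronglyMeasurable]
  have i1 : ∫ x, f (I.restrict x) ∂((Pu (V × ℕ)).map s) =
      ∫ om, f (I.restrict (s om)) ∂(Pu (V × ℕ)) :=
    integral_map hs.aemeasurable hfI.aestronglyMeasurable
  have i2 : ∀ ν : Measure (V → Bool), [IsProbabilityMeasure ν] →
      ∫ x, f (I.restrict x) ∂((ν.prod (Pu (V × ℕ))).map chan) =
      ∫ σ, ∫ om, f (I.restrict (chan (σ, om))) ∂(Pu (V × ℕ)) ∂ν := by
    intro ν hν
    rw [integral_map hom.aemeasurable hfI.aestronglyMeasurable, integral_prod]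
    exact Integrable.of_bound (hfI.comp hom).aestronglyMeasurable ‖f‖
      (ae_of_all _ fun p => f.norm_coe_le_norm _)
  rw [i1, i2 μc]
  -- finite dimensional dependence
  classical
  have hdep : DependsOn (fun σ : V → Bool => ∫ om, f (I.restrict (chan (σ, om))) ∂(Pu (V × ℕ)))
      ((I.image Prod.fst : Finset V) : Set V) := by
    intro σ σ' h
    simp only
    congr 1
    funext om
    congr 1
    funext i
    have h2 : σ i.1.1 = σ' i.1.1 := h i.1.1 (by
      rw [Finset.mem_coe, Finset.mem_image]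
      exact ⟨i.1, i.2, rfl⟩)
    simp only [Finset.restrict, chan, h2]
  have hlimσ := tendsto_integral_treeIsing hG hμ hμc hth _ hdep
  have hconv2 : Tendsto (fun n : ℕ => ∫ om, f (I.restrict (fun e => sI G (μ n) om e))
      ∂(Pu (V × ℕ))) atTop (𝓝 (∫ om, f (I.restrict (s om)) ∂(Pu (V × ℕ)))) := by
    refine tendsto_integral_of_dominated_convergence (fun _ => ‖f‖) (fun n => ?_)
      (integrable_const _) (fun n => ae_of_all _ fun om => f.norm_coe_le_norm _) ?_
    · exact (hfm.comp ((Finset.measurable_restrict I).comp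
        (measurable_pi_lambda _ fun e => measurable_sI e))).aestronglyMeasurable
    · filter_upwards [hconv] with om hom'
      refine (f.continuous.tendsto _).comp ?_
      rw [tendsto_pi_nhds]
      intro i
      exact hom' i
  have heq : ∀ n : ℕ, ∫ om, f (I.restrict (fun e => sI G (μ n) om e)) ∂(Pu (V × ℕ)) =
      ∫ σ, ∫ om, f (I.restrict (chan (σ, om))) ∂(Pu (V × ℕ)) ∂(μ n) := by
    intro n
    have hsm : Measurable (fun om : V × ℕ → ℝ => fun e => sI G (μ n) om e) :=
      measurable_pi_lambda _ fun e => measurable_sI e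
    have h2 : ∫ om, f (I.restrict (fun e => sI G (μ n) om e)) ∂(Pu (V × ℕ)) =
        ∫ x, f (I.restrict x) ∂((Pu (V × ℕ)).map (fun om => fun e => sI G (μ n) om e)) :=
      (integral_map hsm.aemeasurable hfI.aestronglyMeasurable).symm
    rw [h2, law_sI_snd hG hd (hμ n) (h0 n) (h1 n) (hθ n), i2 (μ n)]
  exact tendsto_nhds_unique hconv2 (hlimσ.congr fun n => (heq n).symm)

/-- A subsequence along which the observations converge a.s. -/
theorem exists_subseq (hG : G.IsTree) (hd : G.IsRegularOfDegree (b + 1)) {th : ℕ → ℝ}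
    {μ : ℕ → Measure (V → Bool)} (hμ : ∀ n, IsTreeIsing G (th n) (μ n))
    (h0 : ∀ n, 0 ≤ th n) (h1 : ∀ n, th n < 1) (hθ : ∀ n, b * th n ^ 2 < 1)
    (hY : ∀ (k : ℕ) (v : V) (ε : ℝ), 0 < ε → ∃ N, ∀ n m, N ≤ n → N ≤ m →
        YI G (μ n) (μ m) k v 1 ≤ ε) :
    ∃ φ : ℕ → ℕ, StrictMono φ ∧ ∀ᵐ om ∂(Pu (V × ℕ)), ∀ e, ∃ l : ℝ,
      Tendsto (fun j => sI G (μ (φ j)) om e) atTop (𝓝 l) := by
  have hc : Countable V := countable_of_locallyFinite hG.connected
  have hne : Nonempty V := hG.connected.nonempty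
  have hp : ∀ n, IsProbabilityMeasure (μ n) := fun n => (hμ n).isProb
  obtain ⟨w, hw⟩ := exists_surjective_nat (V × ℕ)
  choose! N hN using hY
  -- threshold
  set M : ℕ → ℕ := fun j => (Finset.range (j + 1)).sup fun i => N (w i).2 (w i).1 ((1 / 4 : ℝ) ^ j)
    with hM
  set φ : ℕ → ℕ := fun j => Nat.rec (M 0) (fun i x => max (x + 1) (M (i + 1))) j with hφdef
  have hφs : ∀ j, φ (j + 1) = max (φ j + 1) (M (j + 1)) := fun j => rfl
  have hφmono : StrictMono φ := strictMono_nat_of_lt_succ fun j => by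
    rw [hφs]; exact lt_of_lt_of_le (Nat.lt_succ_self _) (le_max_left _ _)
  have hφM : ∀ j, M j ≤ φ j := by
    intro j
    cases j with
    | zero => exact le_rfl
    | succ j => rw [hφs]; exact le_max_right _ _
  refine ⟨φ, hφmono, ?_⟩
  rw [ae_all_iff]
  intro e
  obtain ⟨i, hi⟩ := hw e
  obtain ⟨v, k⟩ := e
  have hB : ∀ n om, |sI G (μ n) om (v, k)| ≤ 1 := fun n om => abs_sI_le om (v, k)
  have hsq : ∀ j, ∫ om, (sI G (μ (φ j)) om (v, k) - sI G (μ (φ (j + 1))) om (v, k)) ^ 2
      ∂(Pu (V × ℕ)) ≤ 4 * 4 ^ i * (1 / 4 : ℝ) ^ j := by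
    intro j
    by_cases hij : i ≤ j
    · have h2 : YI G (μ (φ j)) (μ (φ (j + 1))) k v 1 ≤ (1 / 4 : ℝ) ^ j := by
        have h3 : N k v ((1 / 4 : ℝ) ^ j) ≤ M j := by
          have := Finset.le_sup (f := fun i => N (w i).2 (w i).1 ((1 / 4 : ℝ) ^ j))
            (Finset.mem_range.mpr (Nat.lt_succ_of_le hij))
          simp only [hi] at this
          exact this
        exact hN k v _ (by positivity) _ _ (h3.trans (hφM j))
          (h3.trans ((hφM j).trans (hφmono.monotone (Nat.le_succ j))))
      have h4 := sI_sub_sq hG hd (hμ (φ j)) (h0 _) (h1 _) (hθ _) (hμ (φ (j + 1))) (h0 _) (h1 _)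
        (hθ _) k v
      refine (h4.trans h2).trans ?_
      have h5 : (1 : ℝ) ≤ 4 * 4 ^ i := by
        have : (1 : ℝ) ≤ 4 ^ i := one_le_pow₀ (by norm_num)
        linarith
      have h6 : (0 : ℝ) ≤ (1 / 4 : ℝ) ^ j := by positivity
      nlinarith
    · have hij' : j ≤ i := by omega
      have h4 : ∀ om, (sI G (μ (φ j)) om (v, k) - sI G (μ (φ (j + 1))) om (v, k)) ^ 2 ≤ 4 := by
        intro om
        have ha := abs_le.mp (hB (φ j) om)
        have hb := abs_le.mp (hB (φ (j + 1)) om)
        nlinarith [ha.1, ha.2, hb.1, hb.2]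
      calc _ ≤ ∫ _, (4 : ℝ) ∂(Pu (V × ℕ)) :=
            integral_mono_of_nonneg (ae_of_all _ fun _ => sq_nonneg _)
              (integrable_const _) (ae_of_all _ h4)
        _ = 4 * 1 := by simp
        _ ≤ 4 * (4 ^ i * (1 / 4 : ℝ) ^ j) := by
            have : (1 : ℝ) ≤ 4 ^ i * (1 / 4 : ℝ) ^ j := by
              have h7 : (4 : ℝ) ^ i * (1 / 4 : ℝ) ^ j = 4 ^ (i - j) := by
                obtain ⟨c, rfl⟩ := Nat.exists_eq_add_of_le hij'
                rw [pow_add, Nat.add_sub_cancel_left, one_div, inv_pow]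
                field_simp
              rw [h7]
              exact one_le_pow₀ (by norm_num)
            linarith
        _ = _ := by ring
  have h := ae_summable_of_sq (P := Pu (V × ℕ))
    (f := fun j om => sI G (μ (φ j)) om (v, k) - sI G (μ (φ (j + 1))) om (v, k)) (B := 2)
    (fun j => (measurable_sI (v, k)).sub (measurable_sI (v, k)))
    (fun j om => by
      have h4 := abs_sub (sI G (μ (φ j)) om (v, k)) (sI G (μ (φ (j + 1))) om (v, k))
      have := hB (φ j) om
      have := hB (φ (j + 1)) om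
      linarith) (C := 4 * 4 ^ i) (r := 1 / 4) (by positivity) (by norm_num) (by norm_num) hsq
  filter_upwards [h] with om hom
  have hcau : CauchySeq fun j : ℕ => sI G (μ (φ j)) om (v, k) := by
    refine cauchySeq_of_summable_dist ?_
    refine hom.congr fun n => ?_
    rw [Real.dist_eq]
  exact cauchySeq_tendsto_of_complete hcau

theorem endpoint_factor (hG : G.IsTree) (hb : 2 ≤ b) (hd : G.IsRegularOfDegree (b + 1))
    {μ : Measure (V → Bool)} (hμ : IsTreeIsing G (√b)⁻¹ μ) : IsFactorOfIID G μ := by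
  classical
  have hc : Countable V := countable_of_locallyFinite hG.connected
  have hp := hμ.isProb
  -- the family of subcritical measures
  have hex : ∀ θ : ℝ, ∃ ν : Measure (V → Bool), 0 ≤ θ → θ < 1 → IsTreeIsing G θ ν := by
    intro θ
    by_cases h : 0 ≤ θ ∧ θ < 1
    · obtain ⟨ν, hν⟩ := exists_isTreeIsing hG h.1 h.2
      exact ⟨ν, fun _ _ => hν⟩
    · exact ⟨0, fun h0 h1 => absurd ⟨h0, h1⟩ h⟩
  choose ν hν using hex
  obtain ⟨th, hth, hlim, hY⟩ := exists_seq hG hb hd ν hν
  have hb2 : (2 : ℝ) ≤ b := by exact_mod_cast hb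
  have hth1 : ∀ n, th n < 1 := by
    intro n
    have h1 := (hth n).1
    have h2 := (hth n).2
    nlinarith
  have hI : ∀ n, IsTreeIsing G (th n) (ν (th n)) := fun n => hν _ (hth n).1.le (hth1 n)
  obtain ⟨φ, hφ, hconv⟩ := exists_subseq hG hd (μ := fun n => ν (th n)) hI
    (fun n => (hth n).1.le) hth1 (fun n => (hth n).2) hY
  have hpn : ∀ n, IsProbabilityMeasure (ν (th n)) := fun n => (hI n).isProb
  set s : (V × ℕ → ℝ) → (V × ℕ → ℝ) := fun om e =>
    limsup (fun j : ℕ => sI G (ν (th (φ j))) om e) atTop with hs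
  have hsm : Measurable s := by
    refine measurable_pi_lambda _ fun e => ?_
    exact Measurable.limsup fun j => measurable_sI e
  have hact : ∀ (g : G ≃g G) om v k, s (actLab g om) (g v, k) = s om (v, k) := by
    intro g om v k
    simp only [hs]
    congr 1
    funext j
    exact sI_act hG (hI (φ j)) g om v k
  have hlaw : (Pu (V × ℕ)).map s = (μ.prod (Pu (V × ℕ))).map chan := by
    refine law_limit hG hd (th := fun j => th (φ j)) (μ := fun j => ν (th (φ j)))
      (fun j => hI (φ j)) hμ (fun j => (hth _).1.le) (fun j => hth1 _) (fun j => (hth _).2)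
      (hlim.comp hφ.tendsto_atTop) hsm ?_
    filter_upwards [hconv] with om hom e
    obtain ⟨l, hl⟩ := hom e
    have : s om e = l := hl.limsup_eq
    rw [this]
    exact hl
  refine isFactorOfIID_of_map hsm hact ?_
  have e1 : (fun om : V × ℕ → ℝ => decode (s om)) = decode ∘ s := rfl
  rw [e1, ← Measure.map_map measurable_decode hsm, hlaw,
    Measure.map_map measurable_decode measurable_chan]
  have e2 : (decode ∘ chan : (V → Bool) × (V × ℕ → ℝ) → (V → Bool)) =ᵐ[μ.prod (Pu (V × ℕ))]
      Prod.fst := decode_chan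
  rw [Measure.map_congr e2, Measure.map_fst_prod, measure_univ, one_smul]

end Vale.Agent.P161.EP
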