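import Mathlib
import Vale.Agent.P161.EP.Closing
import Vale.Agent.P161.EP.FinalA
import Vale.Agent.P161.EP.FinalB
import Vale.Agent.P161.Ising
import Vale.Agent.P161.Limit

/-!
# Module K (Final): the free Ising measure at the endpoint is a factor of IID

Proof.  `exists_seq`, `sI_sub_sq`: for every site `sI G (μ θ_n) · e` is Cauchy in `L²`; a
subsequence with `YI ≤ 4^{-j}` converges a.s.; `s∞ om e = limsup_j sI G (μ θ_{n_j}) om e` is
measurable and everywhere equivariant (`sI_act`).  Law: `law_sI` and `μ θ_n → μc` on finitely many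
coordinates (`IsTreeIsing.isFreeIsing`: the marginals are polynomials in `θ`), so the law of `s∞` is
that of `chan` under `μc × Pu`.  Decoding: `s_(v,k)`, `k ∈ ℕ`, are i.i.d. given `σ_v` with mean
`spin σ_v · E gs / 3 = spin σ_v / 24` (`decode`, as in `decode_obs`, `hlaw`, `isFactorOfIID_of_law`).
-/

open MeasureTheory Filter Topology

namespace Vale.Agent.P161.EP

universe u

variable {V : Type u} {G : SimpleGraph V} [G.LocallyFinite] {b : ℕ}

theorem isFactorOfIID_endpoint (hG : G.IsTree) (hb : 2 ≤ b) (hd : G.IsRegularOfDegree (b + 1))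
    {μ : Measure (V → Bool)} (hμ : IsTreeIsing G (√b)⁻¹ μ) : IsFactorOfIID G μ :=
  endpoint_factor hG hb hd hμ

theorem endpoint_main (d : ℕ) (hd3 : 3 ≤ d) (hG : G.IsTree) (hreg : G.IsRegularOfDegree d) (β : ℝ)
    (hβ : 0 ≤ β) (hθ : ((d : ℝ) - 1) * Real.tanh β ^ 2 ≤ 1) :
    ∃ μ : Measure (V → Bool), IsProbabilityMeasure μ ∧
      (∀ ν : Measure (V → Bool), IsFreeIsing G (Real.tanh β) ν ↔ ν = μ) ∧
      IsFactorOfIID G μ := by
  classical
  have h0 : 0 ≤ Real.tanh β := by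
    rw [Real.tanh_eq_sinh_div_cosh]
    exact div_nonneg (Real.sinh_nonneg_iff.mpr hβ) (Real.cosh_pos β).le
  have h1 : Real.tanh β < 1 := by
    rw [Real.tanh_eq_sinh_div_cosh, div_lt_one (Real.cosh_pos β)]
    exact Real.sinh_lt_cosh β
  obtain ⟨μ, hμ⟩ := exists_isTreeIsing hG h0 h1
  have hfree := hμ.isFreeIsing hG
  refine ⟨μ, hμ.isProb, fun ν => ⟨fun hν => hν.unique hG hfree, fun h => h ▸ hfree⟩, ?_⟩
  rcases hθ.lt_or_eq with hlt | heq
  · obtain ⟨γ, hγ, hγ', ρ, hρ, hρ', hcon⟩ := contraction hG hreg hμ h0 h1 hlt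
    exact isFactorOfIID_of_contraction hG hμ hγ hγ' hρ hρ' hcon
  · obtain ⟨b, rfl⟩ : ∃ b : ℕ, d = b + 1 := ⟨d - 1, by omega⟩
    have hb : 2 ≤ b := by omega
    have hb0 : (0 : ℝ) < b := by
      have : (2 : ℝ) ≤ b := by exact_mod_cast hb
      linarith
    have hth : Real.tanh β = (√(b : ℝ))⁻¹ := by
      have h2 : Real.tanh β ^ 2 = ((√(b : ℝ))⁻¹) ^ 2 := by
        rw [inv_pow, Real.sq_sqrt hb0.le]
        push_cast at heq
        field_simp
        linarith
      have h3 : 0 ≤ (√(b : ℝ))⁻¹ := by positivity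
      exact (pow_left_inj₀ h0 h3 (by norm_num)).mp h2
    rw [hth] at hμ
    exact isFactorOfIID_endpoint hG hb hreg hμ

end Vale.Agent.P161.EP
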