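import Mathlib
import Vale.Agent.P161.EP.Final
import Vale.Agent.P161.EP.Conv

/-!
# The threshold

Both directions together.
-/

open MeasureTheory

namespace Vale.Agent.P161.EP

universe u

variable {V : Type u} {G : SimpleGraph V} [G.LocallyFinite]

/-- The free Ising measure exists, is unique, and is a factor of IID exactly when
`(d - 1) (tanh β) ^ 2 ≤ 1`. -/
theorem threshold_main (d : ℕ) (hd : 3 ≤ d) (hG : G.IsTree) (hreg : G.IsRegularOfDegree d)
    (β : ℝ) (hβ : 0 ≤ β) :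
    ∃ μ : Measure (V → Bool), IsProbabilityMeasure μ ∧
      (∀ ν : Measure (V → Bool), IsFreeIsing G (Real.tanh β) ν ↔ ν = μ) ∧
      (IsFactorOfIID G μ ↔ ((d : ℝ) - 1) * Real.tanh β ^ 2 ≤ 1) := by
  have h0 : 0 ≤ Real.tanh β := by
    rw [Real.tanh_eq_sinh_div_cosh]
    exact div_nonneg (Real.sinh_nonneg_iff.mpr hβ) (Real.cosh_pos β).le
  have h1 : Real.tanh β < 1 := by
    rw [Real.tanh_eq_sinh_div_cosh, div_lt_one (Real.cosh_pos β)]
    exact Real.sinh_lt_cosh β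
  obtain ⟨μ, hμ⟩ := exists_isTreeIsing hG h0 h1
  have hfree := hμ.isFreeIsing hG
  have huniq : ∀ ν : Measure (V → Bool), IsFreeIsing G (Real.tanh β) ν ↔ ν = μ :=
    fun ν => ⟨fun hν => hν.unique hG hfree, fun h => h ▸ hfree⟩
  refine ⟨μ, hμ.isProb, huniq, fun hF => ?_, fun hθ => ?_⟩
  · obtain ⟨b, rfl⟩ : ∃ b : ℕ, d = b + 1 := ⟨d - 1, by omega⟩
    have h2 := le_one_of_factor hG (by omega) hreg hμ hF
    push_cast
    rw [add_sub_cancel_right]
    exact h2
  · obtain ⟨ν, -, hν, hν2⟩ := endpoint_main d hd hG hreg β hβ hθ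
    have h3 : μ = ν := (hν μ).1 hfree
    rw [h3]
    exact hν2

end Vale.Agent.P161.EP
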